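import Mathlib

/-!
# R202/Avg: time averages along the orbits of a permutation

Group the stages in blocks of `m` consecutive ones; in a block starting at `k` the weights
`(j+1)^14 - j^14` differ from the first one by `O(k^12)`.
-/

open Finset

namespace Crest.Agent.R202

theorem avg_abel (b w : ℕ → ℝ) (D : ℝ) (N : ℕ) (hb : ∀ j, ∑ l ∈ Ico j N, b l ≤ D)
    (hw0 : 0 ≤ w 0) (hw : ∀ j, w j ≤ w (j + 1)) : ∑ l ∈ range N, b l * w l ≤ D * w N := by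
  have key : ∀ j, j ≤ N → ∑ l ∈ range j, b l * w l + w j * ∑ l ∈ Ico j N, b l ≤ D * w j := by
    intro j
    induction j with
    | zero =>
      intro _
      have := mul_le_mul_of_nonneg_left (hb 0) hw0
      simp only [range_zero, sum_empty, zero_add]
      linarith
    | succ j ih =>
      intro hj
      have h1 := ih (Nat.le_of_succ_le hj)
      rw [Finset.sum_eq_sum_Ico_succ_bot (Nat.lt_of_succ_le hj)] at h1
      rw [sum_range_succ]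
      have h2 := mul_le_mul_of_nonneg_left (hb (j + 1)) (sub_nonneg.2 (hw j))
      nlinarith
  simpa using key N le_rfl

theorem avg_small (A : ℝ) {ε : ℝ} (hε : 0 < ε) :
    ∃ C : ℝ, ∀ x : ℝ, 0 ≤ x → A * (x + 1) ^ 13 ≤ ε * x ^ 14 + C := by
  set X : ℝ := max 1 (|A| * 2 ^ 13 / ε) with hX
  have hX1 : 1 ≤ X := le_max_left _ _
  refine ⟨|A| * (X + 1) ^ 13, fun x hx => ?_⟩
  have h0 : A * (x + 1) ^ 13 ≤ |A| * (x + 1) ^ 13 :=
    mul_le_mul_of_nonneg_right (le_abs_self A) (by positivity)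
  rcases le_total x X with h | h
  · have h1 : |A| * (x + 1) ^ 13 ≤ |A| * (X + 1) ^ 13 := by gcongr
    have h2 : 0 ≤ ε * x ^ 14 := by positivity
    linarith
  · have h1 : |A| * (x + 1) ^ 13 ≤ |A| * (2 * x) ^ 13 := by
      gcongr
      linarith
    have h2 : |A| * 2 ^ 13 ≤ ε * x := by
      have : |A| * 2 ^ 13 / ε ≤ x := (le_max_right _ _).trans h
      rwa [div_le_iff₀ hε, mul_comm x] at this
    have h3 : |A| * (2 * x) ^ 13 ≤ ε * x ^ 14 := by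
      calc |A| * (2 * x) ^ 13 = |A| * 2 ^ 13 * x ^ 13 := by ring
        _ ≤ ε * x * x ^ 13 := by gcongr
        _ = ε * x ^ 14 := by ring
    have h4 : 0 ≤ |A| * (X + 1) ^ 13 := by positivity
    linarith

theorem avg_w_eq (x : ℝ) :
    (x + 1) ^ 14 - x ^ 14 = ∑ i ∈ range 14, (x + 1) ^ i * x ^ (14 - 1 - i) := by
  rw [← geom_sum₂_mul]
  ring

theorem avg_w_nonneg {x : ℝ} (hx : 0 ≤ x) : 0 ≤ (x + 1) ^ 14 - x ^ 14 := by
  rw [avg_w_eq]
  positivity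

theorem avg_w_mono {x y : ℝ} (hx : 0 ≤ x) (h : x ≤ y) :
    (x + 1) ^ 14 - x ^ 14 ≤ (y + 1) ^ 14 - y ^ 14 := by
  have hy : 0 ≤ y := hx.trans h
  rw [avg_w_eq, avg_w_eq]
  gcongr

theorem avg_w_le {x : ℝ} (hx : 0 ≤ x) : (x + 1) ^ 14 - x ^ 14 ≤ 14 * (x + 1) ^ 13 := by
  rw [avg_w_eq]
  refine (Finset.sum_le_card_nsmul _ _ ((x + 1) ^ 13) fun i hi => ?_).trans (by simp)
  have hi' := mem_range.1 hi
  calc (x + 1) ^ i * x ^ (14 - 1 - i) ≤ (x + 1) ^ i * (x + 1) ^ (14 - 1 - i) := by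
        gcongr
        linarith
    _ = (x + 1) ^ 13 := by
        rw [← pow_add]
        congr 1
        omega

theorem avg_window {S : Type} [Fintype S] [DecidableEq S] (σ : Equiv.Perm S) (a : S → ℝ) (abar : ℝ)
    (habar : 0 ≤ abar) (ha : ∀ i, 0 ≤ a i)
    (horb : ∀ i, ∃ m : ℕ, 0 < m ∧ (σ ^ m) i = i ∧ ∑ j ∈ range m, a ((σ ^ j) i) ≤ m * abar) :
    ∃ D : ℝ, 0 ≤ D ∧ ∀ (n : ℕ) (i : S), ∑ j ∈ range n, (a ((σ ^ j) i) - abar) ≤ D := by
  choose m hm0 hm1 hm2 using horb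
  have hA : 0 ≤ ∑ i, a i := sum_nonneg fun i _ => ha i
  refine ⟨(∑ i, (m i : ℝ)) * ∑ i, a i, by positivity, fun n => ?_⟩
  induction n using Nat.strong_induction_on with
  | _ n ih =>
    intro i
    rcases lt_or_ge n (m i) with h | h
    · have h1 : ∑ j ∈ range n, (a ((σ ^ j) i) - abar) ≤ n * ∑ i, a i := by
        refine (Finset.sum_le_card_nsmul _ _ (∑ i, a i) fun j _ => ?_).trans (by simp)
        have := Finset.single_le_sum (f := a) (fun i _ => ha i) (mem_univ ((σ ^ j) i))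
        linarith
      have h2 : (n : ℝ) ≤ ∑ i, (m i : ℝ) :=
        (Nat.cast_le.2 h.le).trans (Finset.single_le_sum (f := fun i => (m i : ℝ))
          (fun i _ => Nat.cast_nonneg _) (mem_univ i))
      exact h1.trans (mul_le_mul_of_nonneg_right h2 hA)
    · obtain ⟨n', rfl⟩ := Nat.exists_eq_add_of_le h
      rw [sum_range_add]
      have h1 : ∑ j ∈ range (m i), (a ((σ ^ j) i) - abar) ≤ 0 := by
        rw [sum_sub_distrib, sum_const, card_range, nsmul_eq_mul]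
        linarith [hm2 i]
      have h2 := ih n' (by have := hm0 i; omega) i
      have h3 : ∀ j, (σ ^ (m i + j)) i = (σ ^ j) i := fun j => by
        rw [add_comm, pow_add, Equiv.Perm.mul_apply, hm1 i]
      simp only [h3]
      linarith

theorem avg_perm {S : Type} [Fintype S] [DecidableEq S] (σ : Equiv.Perm S) (a : S → ℝ) (abar : ℝ)
    (habar : 0 ≤ abar) (ha : ∀ i, 0 ≤ a i)
    (horb : ∀ i, ∃ m : ℕ, 0 < m ∧ (σ ^ m) i = i ∧ ∑ j ∈ range m, a ((σ ^ j) i) ≤ m * abar)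
    (k₀ : ℕ) {ε : ℝ} (hε : 0 < ε) :
    ∃ C : ℝ, ∀ (i : S) (N : ℕ),
      ∑ j ∈ range N, a ((σ ^ j) i) * (((k₀ + j : ℕ) + 1 : ℝ) ^ 14 - ((k₀ + j : ℕ) : ℝ) ^ 14)
        ≤ (abar + ε) * ((k₀ + N : ℕ) : ℝ) ^ 14 + C := by
  obtain ⟨D, hD0, hD⟩ := avg_window σ a abar habar ha horb
  obtain ⟨C, hC⟩ := avg_small (D * 14) hε
  refine ⟨C, fun i N => ?_⟩
  have h1 := avg_abel (fun j => a ((σ ^ j) i) - abar)
    (fun j => (((k₀ + j : ℕ) : ℝ) + 1) ^ 14 - ((k₀ + j : ℕ) : ℝ) ^ 14) D N (fun j => by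
      rw [Finset.sum_Ico_eq_sum_range]
      have := hD (N - j) ((σ ^ j) i)
      refine le_trans (le_of_eq (sum_congr rfl fun l _ => ?_)) this
      rw [add_comm j l, pow_add, Equiv.Perm.mul_apply])
    (avg_w_nonneg (Nat.cast_nonneg _))
    (fun j => avg_w_mono (Nat.cast_nonneg _) (Nat.cast_le.2 (by omega)))
  have h2 : ∑ j ∈ range N, ((((k₀ + j : ℕ) : ℝ) + 1) ^ 14 - ((k₀ + j : ℕ) : ℝ) ^ 14) =
      ((k₀ + N : ℕ) : ℝ) ^ 14 - ((k₀ + 0 : ℕ) : ℝ) ^ 14 := by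
    rw [← Finset.sum_range_sub (fun j => ((k₀ + j : ℕ) : ℝ) ^ 14) N]
    refine sum_congr rfl fun j _ => ?_
    push_cast
    ring
  have h3 := mul_le_mul_of_nonneg_left (avg_w_le (Nat.cast_nonneg (α := ℝ) (k₀ + N))) hD0
  have h4 := hC ((k₀ + N : ℕ) : ℝ) (Nat.cast_nonneg _)
  have h5 : 0 ≤ abar * ((k₀ + 0 : ℕ) : ℝ) ^ 14 := by positivity
  simp only [sub_mul, sum_sub_distrib (fun j => a ((σ ^ j) i) * _), ← mul_sum] at h1
  rw [h2] at h1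
  linarith

/-- lower order terms are negligible -/
theorem sum_pow_twelve_le (A : ℝ) (k₀ : ℕ) {ε : ℝ} (hε : 0 < ε) :
    ∃ C : ℝ, ∀ N : ℕ, ∑ j ∈ range N, A * ((k₀ + j : ℕ) : ℝ) ^ 12 + A * ((k₀ + N : ℕ) + 1 : ℝ) ^ 13
      ≤ ε * ((k₀ + N : ℕ) : ℝ) ^ 14 + C := by
  obtain ⟨C, hC⟩ := avg_small (2 * |A|) hε
  refine ⟨C, fun N => ?_⟩
  have h1 := hC ((k₀ + N : ℕ) : ℝ) (Nat.cast_nonneg _)
  have h2 : ∑ j ∈ range N, A * ((k₀ + j : ℕ) : ℝ) ^ 12 ≤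
      N * (|A| * (((k₀ + N : ℕ) : ℝ) + 1) ^ 12) := by
    refine (Finset.sum_le_card_nsmul _ _ (|A| * (((k₀ + N : ℕ) : ℝ) + 1) ^ 12)
      fun j hj => ?_).trans (by simp)
    have hj' := mem_range.1 hj
    have : ((k₀ + j : ℕ) : ℝ) ≤ ((k₀ + N : ℕ) : ℝ) + 1 := by
      exact_mod_cast (by omega : k₀ + j ≤ k₀ + N + 1)
    calc A * ((k₀ + j : ℕ) : ℝ) ^ 12 ≤ |A| * ((k₀ + j : ℕ) : ℝ) ^ 12 :=
          mul_le_mul_of_nonneg_right (le_abs_self A) (by positivity)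
      _ ≤ _ := by gcongr
  have h3 : (N : ℝ) ≤ ((k₀ + N : ℕ) : ℝ) + 1 := by
    exact_mod_cast (by omega : N ≤ k₀ + N + 1)
  have h4 : (N : ℝ) * (|A| * (((k₀ + N : ℕ) : ℝ) + 1) ^ 12) ≤
      |A| * (((k₀ + N : ℕ) : ℝ) + 1) ^ 13 := by
    calc _ ≤ (((k₀ + N : ℕ) : ℝ) + 1) * (|A| * (((k₀ + N : ℕ) : ℝ) + 1) ^ 12) := by gcongr
      _ = _ := by ring
  have h5 : A * (((k₀ + N : ℕ) : ℝ) + 1) ^ 13 ≤ |A| * (((k₀ + N : ℕ) : ℝ) + 1) ^ 13 :=
    mul_le_mul_of_nonneg_right (le_abs_self A) (by positivity)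
  linarith

/-- a cyclic permutation of a finset -/
theorem exists_cycle_on {S : Type} [Fintype S] [DecidableEq S] (s : Finset S) :
    ∃ σ : Equiv.Perm S, (∀ i, i ∉ s → σ i = i) ∧ ∀ i ∈ s, (σ ^ s.card) i = i ∧
      ∀ a : S → ℝ, ∑ j ∈ range s.card, a ((σ ^ j) i) = ∑ j ∈ s, a j := by
  obtain ⟨σ, hσ, hs⟩ := Finset.exists_cycleOn s
  refine ⟨σ, fun i hi => Equiv.Perm.notMem_support.1 fun h => hi (hs h), fun i hi =>
    ⟨hσ.pow_card_apply hi, fun a => ?_⟩⟩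
  refine Finset.sum_bij (fun j _ => (σ ^ j) i) (fun j _ => ?_) (fun j hj l hl h => ?_)
    (fun b hb => ?_) fun _ _ => rfl
  · exact (hσ.1.perm_pow j).mapsTo hi
  · exact Nat.ModEq.eq_of_lt_of_lt ((hσ.pow_apply_eq_pow_apply hi).1 h) (mem_range.1 hj)
      (mem_range.1 hl)
  · obtain ⟨n, hn, h⟩ := hσ.exists_pow_eq hi hb
    exact ⟨n, mem_range.2 hn, h⟩

end Crest.Agent.R202
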