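import Crest.Agent.R202.Jet

/-!
# R202/Berger: tangential Ricci curvature of the cone over a Berger sphere

`g = A 1 + (1 - A) π(y) + (B - A) π(Jy)`, `g⁻¹ = A⁻¹ 1 + (1 - A⁻¹) π(y) + (B⁻¹ - A⁻¹) π(Jy)`,
`det g` is constant, so `Σₖ Γᵏₖᵢ = 0` near `x` (`christoffel_trace`) and
`ric(v,v) = div (y ↦ Γ_y(v,v)) - tr (w ↦ Γ(v, Γ(w, v)))`.  Write `Γ_y(u,v)` explicitly as a
combination of `y, Jy, Ju, Jv` with coefficients built from `⟨y,u⟩, ⟨Jy,u⟩, ⟨u,v⟩, ⟨Ju,v⟩, |y|²`
(compute the lowered symbols `½(∂ᵤ g(v,w) + ∂ᵥ g(u,w) - ∂_w g(u,v))` first; it pays to find the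
formula with a small script and check it numerically before formalising).
-/

open scoped ContDiff Topology Matrix RealInnerProductSpace
open Set Filter
open Crest.GeometryTopology.CoordMetric Crest.GeometryTopology.ChartCurvature

noncomputable section

namespace Crest.Agent.R202

variable {n : ℕ}

/-- the cone over a Berger sphere -/
def berger (J : Mat n) (A B : ℝ) : MetricField n := fun y =>
  prj y + A • (1 - prj y) + (B - A) • prj (mv J y)

theorem berger_inner (u w : E n) : ⟪u, w⟫ = ∑ i, u i * w i := by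
  simp [PiLp.inner_apply, mul_comm]

theorem berger_normsq (y : E n) : ‖y‖ ^ 2 = ∑ i, y i * y i := by
  rw [← real_inner_self_eq_norm_sq, berger_inner]

/-- Kronecker symbol -/
def bkd (i j : Fin n) : ℝ := if i = j then 1 else 0

theorem bkd_comm (i j : Fin n) : bkd i j = bkd j i := by
  unfold bkd; simp only [eq_comm]

theorem bkd_self (i : Fin n) : bkd i i = 1 := if_pos rfl

theorem bkd_sum (i : Fin n) (w : Fin n → ℝ) : ∑ l, bkd i l * w l = w i := by
  simp [bkd]

theorem IsCx.b_anti {J : Mat n} (hJ : IsCx J) (i j : Fin n) : J j i = -J i j :=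
  congrFun (congrFun hJ.1 i) j

theorem IsCx.b_diag {J : Mat n} (hJ : IsCx J) (i : Fin n) : J i i = 0 := by
  have := hJ.b_anti i i; linarith

theorem IsCx.b_sq {J : Mat n} (hJ : IsCx J) (i j : Fin n) : ∑ l, J i l * J l j = -bkd i j := by
  have := congrFun (congrFun hJ.2 i) j
  rw [Matrix.mul_apply] at this
  rw [this, Matrix.neg_apply, Matrix.one_apply, bkd]

theorem IsCx.b_left {J : Mat n} (hJ : IsCx J) (w : E n) (i : Fin n) :
    ∑ l, w l * J l i = -mv J w i := by
  rw [mv_apply, ← Finset.sum_neg_distrib]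
  exact Finset.sum_congr rfl fun l _ => by rw [hJ.b_anti i l]; ring

theorem IsCx.b_mv_mv {J : Mat n} (hJ : IsCx J) (w : E n) (i : Fin n) :
    mv J (mv J w) i = -w i := by
  simp only [mv_apply, Finset.mul_sum]
  rw [Finset.sum_comm]
  simp only [← mul_assoc, ← Finset.sum_mul, hJ.b_sq, neg_mul, Finset.sum_neg_distrib, bkd_sum]

theorem IsCx.b_skew {J : Mat n} (hJ : IsCx J) (u w : E n) :
    ∑ l, u l * mv J w l = -∑ l, mv J u l * w l := by
  simp only [mv_apply J w, Finset.mul_sum]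
  rw [Finset.sum_comm, ← Finset.sum_neg_distrib]
  refine Finset.sum_congr rfl fun l _ => ?_
  simp only [← mul_assoc, ← Finset.sum_mul, hJ.b_left, neg_mul]

theorem IsCx.b_orth {J : Mat n} (hJ : IsCx J) (u w : E n) :
    ∑ l, mv J u l * mv J w l = ∑ l, u l * w l := by
  rw [hJ.b_skew]
  simp only [hJ.b_mv_mv, neg_mul, Finset.sum_neg_distrib, neg_neg]

theorem IsCx.b_self {J : Mat n} (hJ : IsCx J) (u : E n) : ∑ l, u l * mv J u l = 0 := by
  have h := hJ.b_skew u u
  simp only [mul_comm (mv J u _)] at h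
  linarith

theorem IsCx.b_self' {J : Mat n} (hJ : IsCx J) (u : E n) : ∑ l, mv J u l * u l = 0 := by
  simp only [mul_comm (mv J u _)]
  exact hJ.b_self u

theorem IsCx.norm_mv {J : Mat n} (hJ : IsCx J) (y : E n) : ‖mv J y‖ = ‖y‖ := by
  have h : ‖mv J y‖ ^ 2 = ‖y‖ ^ 2 := by rw [berger_normsq, berger_normsq, hJ.b_orth]
  exact (pow_left_inj₀ (norm_nonneg _) (norm_nonneg _) two_ne_zero).1 h

theorem IsCx.inner_mv {J : Mat n} (hJ : IsCx J) (y : E n) : ⟪y, mv J y⟫ = 0 := by
  rw [berger_inner, hJ.b_self]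

/-- `1/|y|²` -/
def bs (y : E n) : ℝ := (‖y‖ ^ 2)⁻¹

theorem bs_mul {y : E n} (hy : y ≠ 0) : bs y * ∑ l, y l * y l = 1 := by
  rw [← berger_normsq]
  exact inv_mul_cancel₀ (pow_ne_zero _ (norm_ne_zero_iff.2 hy))

theorem berger_apply {J : Mat n} (hJ : IsCx J) (A B : ℝ) (y : E n) (i j : Fin n) :
    berger J A B y i j = A * bkd i j + (1 - A) * (y i * y j * bs y)
      + (B - A) * (mv J y i * mv J y j * bs y) := by
  simp only [berger, Matrix.add_apply, Matrix.smul_apply, Matrix.sub_apply, prj_apply,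
    hJ.norm_mv, smul_eq_mul, Matrix.one_apply, bkd, bs, div_eq_mul_inv]
  ring

theorem berger_symm {J : Mat n} (hJ : IsCx J) (A B : ℝ) (y : E n) (i j : Fin n) :
    berger J A B y i j = berger J A B y j i := by
  rw [berger_apply hJ, berger_apply hJ, bkd_comm]; ring

theorem berger_sum {J : Mat n} (hJ : IsCx J) (A B : ℝ) (y : E n) (w : Fin n → ℝ) (k : Fin n) :
    ∑ l, berger J A B y k l * w l = A * w k + (1 - A) * y k * bs y * ∑ l, y l * w l
      + (B - A) * mv J y k * bs y * ∑ l, mv J y l * w l := by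
  rw [← bkd_sum k w]
  simp only [berger_apply hJ, Finset.mul_sum, ← Finset.sum_add_distrib]
  exact Finset.sum_congr rfl fun l _ => by ring

theorem berger_mul {J : Mat n} (hJ : IsCx J) (A B A' B' : ℝ) {y : E n} (hy : y ≠ 0) :
    berger J A B y * berger J A' B' y = berger J (A * A') (B * B') y := by
  ext i j
  have h1 : ∑ l, y l * berger J A' B' y l j = y j := by
    simp only [mul_comm (y _), berger_symm hJ A' B' y _ j]
    rw [berger_sum hJ, hJ.b_self']
    linear_combination (1 - A') * y j * bs_mul hy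
  have h2 : ∑ l, mv J y l * berger J A' B' y l j = B' * mv J y j := by
    simp only [mul_comm (mv J y _), berger_symm hJ A' B' y _ j]
    rw [berger_sum hJ, hJ.b_self, hJ.b_orth]
    linear_combination (B' - A') * mv J y j * bs_mul hy
  rw [Matrix.mul_apply, berger_sum hJ, h1, h2, berger_apply hJ, berger_apply hJ]
  ring

theorem berger_one {J : Mat n} (y : E n) : berger J 1 1 y = 1 := by
  simp [berger]

theorem berger_posDef {J : Mat n} (hJ : IsCx J) {A B : ℝ} (hA : 0 < A) (hB : 0 < B) {y : E n}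
    (hy : y ≠ 0) : (berger J A B y).PosDef := by
  have ha : √A ≠ 0 := (Real.sqrt_pos.2 hA).ne'
  have hb : √B ≠ 0 := (Real.sqrt_pos.2 hB).ne'
  have h1 : berger J (√A)⁻¹ (√B)⁻¹ y * berger J (√A) (√B) y = 1 := by
    rw [berger_mul hJ _ _ _ _ hy, inv_mul_cancel₀ ha, inv_mul_cancel₀ hb, berger_one]
  have h2 : (berger J (√A) (√B) y)ᴴ = berger J (√A) (√B) y := by
    ext i j
    rw [Matrix.conjTranspose_apply, star_trivial, berger_symm hJ]
  have h3 := Matrix.PosDef.conjTranspose_mul_self (berger J (√A) (√B) y) (by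
    intro u w huw
    have := congrArg (fun t => berger J (√A)⁻¹ (√B)⁻¹ y *ᵥ t) huw
    simpa only [Matrix.mulVec_mulVec, h1, Matrix.one_mulVec] using this)
  rwa [h2, berger_mul hJ _ _ _ _ hy, Real.mul_self_sqrt hA.le, Real.mul_self_sqrt hB.le] at h3

theorem berger_inv {J : Mat n} (hJ : IsCx J) {A B : ℝ} (hA : 0 < A) (hB : 0 < B) {y : E n}
    (hy : y ≠ 0) : (berger J A B y)⁻¹ = berger J A⁻¹ B⁻¹ y := by
  refine Matrix.inv_eq_left_inv ?_
  rw [berger_mul hJ _ _ _ _ hy, inv_mul_cancel₀ hA.ne', inv_mul_cancel₀ hB.ne', berger_one]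

theorem berger_det_one_add {y : E n} (hy : y ≠ 0) (t : ℝ) : (1 + t • prj y).det = 1 + t := by
  have h : t • prj y = Matrix.replicateCol Unit (fun i => t * bs y * y i) *
      Matrix.replicateRow Unit (fun i => y i) := by
    ext i j
    simp only [Matrix.smul_apply, prj_apply, smul_eq_mul, Matrix.mul_apply, Matrix.replicateCol_apply,
      Matrix.replicateRow_apply, Finset.univ_unique, Finset.sum_singleton, bs, div_eq_mul_inv]
    ring
  rw [h, Matrix.det_one_add_replicateCol_mul_replicateRow]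
  have : (fun i => y i) ⬝ᵥ (fun i => t * bs y * y i) = t * (bs y * ∑ l, y l * y l) := by
    simp only [dotProduct, Finset.mul_sum]
    exact Finset.sum_congr rfl fun l _ => by ring
  rw [this, bs_mul hy, mul_one]

theorem IsCx.b_two_le {J : Mat n} (hJ : IsCx J) {y : E n} (hy : y ≠ 0) : 2 ≤ n := by
  rcases n with _ | _ | n
  · exact absurd (Subsingleton.elim _ _) hy
  · have h := hJ.b_sq 0 0
    rw [bkd_self, Fin.sum_univ_succ, hJ.b_diag] at h
    simp at h
  · omega

/-- e.g. by `Matrix.det_one_add_mul_comm` or by two rank one updates -/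
theorem berger_det {J : Mat n} (hJ : IsCx J) {A B : ℝ} (hA : 0 < A) {y : E n}
    (hy : y ≠ 0) : (berger J A B y).det = A ^ (n - 2) * B := by
  have hz : mv J y ≠ 0 := by
    rw [← norm_ne_zero_iff, hJ.norm_mv]; exact norm_ne_zero_iff.2 hy
  have h1 : berger J A B y = berger J A A y * berger J 1 (B / A) y := by
    rw [berger_mul hJ _ _ _ _ hy, mul_one, mul_div_cancel₀ _ hA.ne']
  have h2 : berger J A A y = A • (1 + (A⁻¹ - 1) • prj y) := by
    ext i j
    simp only [berger, Matrix.add_apply, Matrix.smul_apply, Matrix.sub_apply, smul_eq_mul]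
    field_simp
    ring
  have h3 : berger J 1 (B / A) y = 1 + (B / A - 1) • prj (mv J y) := by
    simp [berger]
  obtain ⟨m, rfl⟩ := Nat.exists_eq_add_of_le' (hJ.b_two_le hy)
  rw [h1, Matrix.det_mul, h2, h3, Matrix.det_smul, berger_det_one_add hy, berger_det_one_add hz,
    Fintype.card_fin, Nat.add_sub_cancel]
  field_simp
  ring

/-- `f` is differentiable at `x` with partial derivatives `D` -/
structure BD (f : E n → ℝ) (x : E n) (D : Fin n → ℝ) : Prop where
  d : DifferentiableAt ℝ f x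
  e : ∀ k, pderiv k f x = D k

namespace BD

variable {f g : E n → ℝ} {x : E n} {D D' : Fin n → ℝ}

theorem const (c : ℝ) (x : E n) : BD (fun _ => c) x fun _ => 0 :=
  ⟨differentiableAt_const c, fun k => by simp [pderiv]⟩

theorem add (h : BD f x D) (h' : BD g x D') : BD (fun y => f y + g y) x fun k => D k + D' k :=
  ⟨h.d.add h'.d, fun k => by
    rw [← h.e, ← h'.e, pderiv, fderiv_fun_add h.d h'.d]; rfl⟩

theorem sub (h : BD f x D) (h' : BD g x D') : BD (fun y => f y - g y) x fun k => D k - D' k :=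
  ⟨h.d.sub h'.d, fun k => by
    rw [← h.e, ← h'.e, pderiv, fderiv_fun_sub h.d h'.d]; rfl⟩

theorem mul (h : BD f x D) (h' : BD g x D') :
    BD (fun y => f y * g y) x fun k => f x * D' k + g x * D k :=
  ⟨h.d.mul h'.d, fun k => by
    rw [← h.e, ← h'.e, pderiv, fderiv_fun_mul h.d h'.d]; rfl⟩

theorem cmul (c : ℝ) (h : BD f x D) : BD (fun y => c * f y) x fun k => c * D k := by
  simpa using (const c x).mul h

theorem mulc (h : BD f x D) (c : ℝ) : BD (fun y => f y * c) x fun k => D k * c := by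
  simpa [mul_comm] using h.cmul c

theorem sum {ι : Type*} (s : Finset ι) {F : ι → E n → ℝ} {G : ι → Fin n → ℝ}
    (h : ∀ i ∈ s, BD (F i) x (G i)) :
    BD (fun y => ∑ i ∈ s, F i y) x fun k => ∑ i ∈ s, G i k := by
  classical
  induction s using Finset.induction_on with
  | empty => simpa using const 0 x
  | insert k s hk ih =>
    simp only [Finset.sum_insert hk]
    exact (h k (Finset.mem_insert_self _ _)).add
      (ih fun j hj => h j (Finset.mem_insert_of_mem hj))

theorem congr (h : BD f x D) (e : ∀ k, D k = D' k) : BD f x D' :=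
  ⟨h.d, fun k => (h.e k).trans (e k)⟩

theorem coord (i : Fin n) (x : E n) : BD (fun y => y i) x fun k => bkd i k := by
  have h := (EuclideanSpace.proj i : E n →L[ℝ] ℝ).hasFDerivAt (x := x)
  refine ⟨h.differentiableAt, fun k => ?_⟩
  have e : fderiv ℝ (fun y : E n => y i) x = EuclideanSpace.proj i := h.fderiv
  rw [pderiv, e]
  simp [bkd]

theorem mv (J : Mat n) (i : Fin n) (x : E n) : BD (fun y => mv J y i) x fun k => J i k := by
  refine (sum Finset.univ fun j _ => (coord j x).cmul (J i j)).congr fun k => ?_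
  simp only [mul_comm (J i _), bkd_comm _ k, bkd_sum]

theorem inv (h : BD f x D) (h0 : f x ≠ 0) :
    BD (fun y => (f y)⁻¹) x fun k => -((f x)⁻¹ ^ 2 * D k) := by
  have h1 := (hasDerivAt_inv h0).comp_hasFDerivAt x h.d.hasFDerivAt
  refine ⟨h1.differentiableAt, fun k => ?_⟩
  have e : fderiv ℝ (fun y => (f y)⁻¹) x = _ := h1.fderiv
  rw [pderiv, e, ← h.e, pderiv]
  simp

theorem bs {x : E n} (hx : x ≠ 0) : BD bs x fun k => -2 * x k * bs x ^ 2 := by
  have h1 : BD (fun y : E n => ‖y‖ ^ 2) x fun k => 2 * x k := by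
    simp only [berger_normsq]
    refine (sum Finset.univ fun j _ => (coord j x).mul (coord j x)).congr fun k => ?_
    simp only [mul_comm (x _), bkd_comm _ k, Finset.sum_add_distrib, bkd_sum]
    ring
  refine (h1.inv (pow_ne_zero _ (norm_ne_zero_iff.2 hx))).congr fun k => ?_
  unfold R202.bs
  ring

end BD

theorem berger_pd {J : Mat n} (hJ : IsCx J) (A B : ℝ) {y : E n} (hy : y ≠ 0) (i j k : Fin n) :
    pderiv k (fun y => berger J A B y i j) y =
      (1 - A) * ((bkd i k * y j + y i * bkd j k) * bs y - 2 * y i * y j * y k * bs y ^ 2)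
      + (B - A) * ((J i k * mv J y j + mv J y i * J j k) * bs y
        - 2 * mv J y i * mv J y j * y k * bs y ^ 2) := by
  simp only [berger_apply hJ]
  rw [(((BD.const (A * bkd i j) y).add
    ((((BD.coord i y).mul (BD.coord j y)).mul (BD.bs hy)).cmul (1 - A))).add
    ((((BD.mv J i y).mul (BD.mv J j y)).mul (BD.bs hy)).cmul (B - A))).e k]
  ring

/-- the Christoffel symbols -/
def bG (J : Mat n) (a c e : ℝ) (y : E n) (k i j : Fin n) : ℝ :=
  a * bkd i j * (y k * bs y) - a * (y i * y j * (y k * (bs y * bs y)))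
    + c * ((mv J y j * J k i + mv J y i * J k j) * bs y)
    - c * ((mv J y j * y i + mv J y i * y j) * (mv J y k * (bs y * bs y)))
    + e * (mv J y i * mv J y j * (y k * (bs y * bs y)))

theorem bG_symm (J : Mat n) (a c e : ℝ) (y : E n) (k i j : Fin n) :
    bG J a c e y k i j = bG J a c e y k j i := by
  unfold bG; rw [bkd_comm]; ring

theorem berger_sum4 (a₁ a₂ a₃ a₄ : ℝ) (w f₁ f₂ f₃ f₄ : Fin n → ℝ) :
    ∑ l, w l * (a₁ * f₁ l + a₂ * f₂ l + a₃ * f₃ l + a₄ * f₄ l) =
      a₁ * ∑ l, w l * f₁ l + a₂ * ∑ l, w l * f₂ l + a₃ * ∑ l, w l * f₃ l + a₄ * ∑ l, w l * f₄ l := by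
  simp only [Finset.mul_sum, ← Finset.sum_add_distrib]
  exact Finset.sum_congr rfl fun l _ => by ring

theorem berger_christoffel {J : Mat n} (hJ : IsCx J) {A B : ℝ} (hA : 0 < A) (hB : 0 < B) {y : E n}
    (hy : y ≠ 0) (k i j : Fin n) :
    christoffel (berger J A B) y k i j =
      bG J (1 - A) ((B - A) / A) (2 * ((B - A) / A) - (B - A)) y k i j := by
  have hl : ∀ l, pderiv i (fun y => berger J A B y j l) y + pderiv j (fun y => berger J A B y i l) y
      - pderiv l (fun y => berger J A B y i j) y =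
      2 * ((1 - A) * (bkd i j * bs y - y i * y j * bs y ^ 2)
          + (B - A) * (mv J y i * mv J y j * bs y ^ 2)) * y l
        + -2 * (B - A) * ((mv J y j * y i + mv J y i * y j) * bs y ^ 2) * mv J y l
        + 2 * (B - A) * (mv J y j * bs y) * J l i + 2 * (B - A) * (mv J y i * bs y) * J l j := by
    intro l
    rw [berger_pd hJ A B hy, berger_pd hJ A B hy, berger_pd hJ A B hy, bkd_comm j i, bkd_comm l i,
      bkd_comm l j, hJ.b_anti i j, hJ.b_anti l i, hJ.b_anti l j]
    ring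
  have hs := bs_mul hy
  unfold christoffel inverseField
  simp only [hl]
  rw [berger_inv hJ hA hB hy, berger_sum hJ, berger_sum4, berger_sum4, hJ.b_self, hJ.b_self',
    hJ.b_orth, hJ.b_left, hJ.b_left, hJ.b_left, hJ.b_left, hJ.b_mv_mv, hJ.b_mv_mv]
  have hs0 : bs y ≠ 0 := left_ne_zero_of_mul_eq_one hs
  have hr : ∑ l, y l * y l = (bs y)⁻¹ := (eq_inv_of_mul_eq_one_right hs)
  rw [hr]
  unfold bG
  field_simp
  ring

theorem bG_trace {J : Mat n} (hJ : IsCx J) (a c e : ℝ) {y : E n} (hy : y ≠ 0) (i : Fin n) :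
    ∑ k, bG J a c e y k k i = 0 := by
  have h : ∀ k, bG J a c e y k k i = (a * bs y) * (bkd i k * y k)
      + (-(a * y i * bs y ^ 2)) * (y k * y k) + (c * bs y) * (mv J y k * J k i)
      + (-(c * y i * bs y ^ 2)) * (mv J y k * mv J y k)
      + ((e - c) * mv J y i * bs y ^ 2) * (y k * mv J y k) := fun k => by
    unfold bG; rw [hJ.b_diag, bkd_comm k i]; ring
  simp only [h, Finset.sum_add_distrib, ← Finset.mul_sum]
  rw [bkd_sum, hJ.b_left, hJ.b_mv_mv, hJ.b_orth, hJ.b_self]
  linear_combination (-(a + c) * y i * bs y) * bs_mul hy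

theorem bG_sum1 (J : Mat n) (a c e : ℝ) (y u : E n) (k j : Fin n) :
    ∑ i, bG J a c e y k i j * u i =
      a * u j * (y k * bs y) - a * ((∑ i, y i * u i) * y j * (y k * (bs y * bs y)))
      + c * ((mv J y j * mv J u k + (∑ i, mv J y i * u i) * J k j) * bs y)
      - c * ((mv J y j * (∑ i, y i * u i) + (∑ i, mv J y i * u i) * y j) *
          (mv J y k * (bs y * bs y)))
      + e * ((∑ i, mv J y i * u i) * mv J y j * (y k * (bs y * bs y))) := by
  have h : ∀ i, bG J a c e y k i j * u i = (a * (y k * bs y)) * (bkd j i * u i)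
      + (-(a * y j * (y k * (bs y * bs y))) - c * mv J y j * (mv J y k * (bs y * bs y))) * (y i * u i)
      + (c * mv J y j * bs y) * (J k i * u i)
      + (c * J k j * bs y - c * y j * (mv J y k * (bs y * bs y))
          + e * mv J y j * (y k * (bs y * bs y))) * (mv J y i * u i) := fun i => by
    unfold bG; rw [bkd_comm j i]; ring
  simp only [h, Finset.sum_add_distrib, ← Finset.mul_sum]
  rw [bkd_sum, ← mv_apply]
  ring

theorem bG_sum2 (J : Mat n) (a c e : ℝ) (y u : E n) (k : Fin n) :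
    ∑ j, (∑ i, bG J a c e y k i j * u i) * u j =
      (a * ∑ i, u i * u i) * (y k * bs y)
      - a * ((∑ i, y i * u i) * (∑ i, y i * u i) * (y k * (bs y * bs y)))
      + (2 * c * mv J u k) * ((∑ i, mv J y i * u i) * bs y)
      - (2 * c) * ((∑ i, mv J y i * u i) * (∑ i, y i * u i) * (mv J y k * (bs y * bs y)))
      + e * ((∑ i, mv J y i * u i) * (∑ i, mv J y i * u i) * (y k * (bs y * bs y))) := by
  simp only [bG_sum1]
  generalize hp : ∑ i, y i * u i = p
  generalize hq : ∑ i, mv J y i * u i = q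
  have h : ∀ j, (a * u j * (y k * bs y) - a * (p * y j * (y k * (bs y * bs y)))
      + c * ((mv J y j * mv J u k + q * J k j) * bs y)
      - c * ((mv J y j * p + q * y j) * (mv J y k * (bs y * bs y)))
      + e * (q * mv J y j * (y k * (bs y * bs y)))) * u j =
      (a * (y k * bs y)) * (u j * u j)
      + (-(a * p * (y k * (bs y * bs y))) - c * q * (mv J y k * (bs y * bs y))) * (y j * u j)
      + (c * q * bs y) * (J k j * u j)
      + (c * mv J u k * bs y - c * p * (mv J y k * (bs y * bs y))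
          + e * q * (y k * (bs y * bs y))) * (mv J y j * u j) := fun j => by ring
  simp only [h, Finset.sum_add_distrib, ← Finset.mul_sum]
  rw [hp, hq, ← mv_apply]
  ring

theorem bG_diff (J : Mat n) (a c e : ℝ) {x : E n} (hx : x ≠ 0) (k i j : Fin n) :
    DifferentiableAt ℝ (fun y => bG J a c e y k i j) x := by
  have hs := BD.bs hx
  have hy := fun i => BD.coord i x
  have hz := fun i => BD.mv J i x
  exact ((((((hy k).mul hs).cmul (a * bkd i j)).sub
    ((((hy i).mul (hy j)).mul ((hy k).mul (hs.mul hs))).cmul a)).add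
    (((((hz j).mulc (J k i)).add ((hz i).mulc (J k j))).mul hs).cmul c)).sub
    (((((hz j).mul (hy i)).add ((hz i).mul (hy j))).mul ((hz k).mul (hs.mul hs))).cmul c)).add
    ((((hz i).mul (hz j)).mul ((hy k).mul (hs.mul hs))).cmul e) |>.d

theorem bG_div {J : Mat n} (hJ : IsCx J) (a c e : ℝ) {x v : E n} (hx : ‖x‖ = 1)
    (hv : ∑ i, x i * v i = 0) :
    ∑ i, ∑ j, (∑ k, pderiv k (fun y => bG J a c e y k i j) x) * v i * v j =
      (a * ((n : ℝ) - 2) - 2 * c) * ∑ i, v i * v i
        + (2 * c + e * ((n : ℝ) - 2)) * (∑ i, mv J x i * v i) ^ 2 := by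
  have hx0 : x ≠ 0 := by rw [← norm_ne_zero_iff, hx]; exact one_ne_zero
  have hs1 : bs x = 1 := by simp [bs, hx]
  have hxx : ∑ i, x i * x i = 1 := by rw [← berger_normsq, hx]; norm_num
  have hs := BD.bs hx0
  have hy := fun i => BD.coord i x
  have hz := fun i => BD.mv J i x
  have hp : BD (fun y : E n => ∑ i, y i * v i) x fun k => v k :=
    (BD.sum Finset.univ fun i _ => (hy i).mulc (v i)).congr fun k => by
      simp only [bkd_comm _ k, bkd_sum]
  have hq : BD (fun y : E n => ∑ i, mv J y i * v i) x fun k => -mv J v k :=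
    (BD.sum Finset.univ fun i _ => (hz i).mulc (v i)).congr fun k => by
      simp only [mul_comm (J _ k), hJ.b_left]
  have h1 : ∀ k, ∑ j, (∑ i, pderiv k (fun y => bG J a c e y k i j) x * v i) * v j =
      (a * ∑ i, v i * v i + e * (∑ i, mv J x i * v i) ^ 2)
      + (-2 * a * ∑ i, v i * v i - 4 * e * (∑ i, mv J x i * v i) ^ 2) * (x k * x k)
      + (-2 * c) * (mv J v k * mv J v k)
      + (-(4 * c + 2 * e) * ∑ i, mv J x i * v i) * (x k * mv J v k)
      + (-2 * c * ∑ i, mv J x i * v i) * (mv J x k * v k) := fun k => by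
    have hb : ∀ i j, BD (fun y => bG J a c e y k i j) x
        fun m => pderiv m (fun y => bG J a c e y k i j) x :=
      fun i j => ⟨bG_diff J a c e hx0 k i j, fun _ => rfl⟩
    have e1 := (BD.sum Finset.univ fun j _ =>
      (BD.sum Finset.univ fun i _ => (hb i j).mulc (v i)).mulc (v j)).e k
    simp only [bG_sum2] at e1
    rw [← e1, (((((((hy k).mul hs).cmul (a * ∑ i, v i * v i)).sub
      (((hp.mul hp).mul ((hy k).mul (hs.mul hs))).cmul a)).add
      ((hq.mul hs).cmul (2 * c * mv J v k))).sub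
      (((hq.mul hp).mul ((hz k).mul (hs.mul hs))).cmul (2 * c))).add
      (((hq.mul hq).mul ((hy k).mul (hs.mul hs))).cmul e)).e k]
    simp only [hv, hs1, bkd_self]
    ring
  have h2 : ∑ i, ∑ j, (∑ k, pderiv k (fun y => bG J a c e y k i j) x) * v i * v j =
      ∑ k, ∑ j, (∑ i, pderiv k (fun y => bG J a c e y k i j) x * v i) * v j := by
    simp only [Finset.sum_mul]
    rw [Finset.sum_comm]
    refine (Finset.sum_congr rfl fun j _ => Finset.sum_comm).trans ?_
    rw [Finset.sum_comm]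
  rw [h2]
  simp only [h1, Finset.sum_add_distrib, ← Finset.mul_sum]
  rw [hxx, hJ.b_orth, hJ.b_skew]
  simp only [Finset.sum_const, Finset.card_univ, Fintype.card_fin, nsmul_eq_mul]
  ring

theorem berger_sum16 (a₁ a₂ a₃ a₄ b₁ b₂ b₃ b₄ : ℝ) (f₁ f₂ f₃ f₄ g₁ g₂ g₃ g₄ : Fin n → ℝ) :
    ∑ l, (a₁ * f₁ l + a₂ * f₂ l + a₃ * f₃ l + a₄ * f₄ l) *
        (b₁ * g₁ l + b₂ * g₂ l + b₃ * g₃ l + b₄ * g₄ l) =
      a₁ * (b₁ * ∑ l, f₁ l * g₁ l + b₂ * ∑ l, f₁ l * g₂ l + b₃ * ∑ l, f₁ l * g₃ l
        + b₄ * ∑ l, f₁ l * g₄ l)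
      + a₂ * (b₁ * ∑ l, f₂ l * g₁ l + b₂ * ∑ l, f₂ l * g₂ l + b₃ * ∑ l, f₂ l * g₃ l
        + b₄ * ∑ l, f₂ l * g₄ l)
      + a₃ * (b₁ * ∑ l, f₃ l * g₁ l + b₂ * ∑ l, f₃ l * g₂ l + b₃ * ∑ l, f₃ l * g₃ l
        + b₄ * ∑ l, f₃ l * g₄ l)
      + a₄ * (b₁ * ∑ l, f₄ l * g₁ l + b₂ * ∑ l, f₄ l * g₂ l + b₃ * ∑ l, f₄ l * g₃ l
        + b₄ * ∑ l, f₄ l * g₄ l) := by
  simp only [Finset.mul_sum, ← Finset.sum_add_distrib]
  exact Finset.sum_congr rfl fun l _ => by ring

theorem bG_quad {J : Mat n} (hJ : IsCx J) (a c e : ℝ) {x v : E n} (hx : ‖x‖ = 1)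
    (hv : ∑ i, x i * v i = 0) :
    ∑ i, ∑ j, (∑ k, ∑ l, bG J a c e x k j l * bG J a c e x l k i) * v i * v j =
      -(((n : ℝ) - 2) * c ^ 2 * (∑ i, mv J x i * v i) ^ 2) := by
  have hs1 : bs x = 1 := by simp [bs, hx]
  have hxx : ∑ i, x i * x i = 1 := by rw [← berger_normsq, hx]; norm_num
  have h2 : ∑ i, ∑ j, (∑ k, ∑ l, bG J a c e x k j l * bG J a c e x l k i) * v i * v j =
      ∑ k, ∑ l, (∑ j, bG J a c e x k j l * v j) * ∑ i, bG J a c e x l i k * v i := by
    simp only [Finset.sum_mul_sum]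
    simp only [Finset.sum_mul]
    rw [Finset.sum_comm]
    refine (Finset.sum_congr rfl fun j _ => Finset.sum_comm).trans ?_
    rw [Finset.sum_comm]
    refine Finset.sum_congr rfl fun k _ => ?_
    refine (Finset.sum_congr rfl fun j _ => Finset.sum_comm).trans ?_
    rw [Finset.sum_comm]
    refine Finset.sum_congr rfl fun l _ => Finset.sum_congr rfl fun j _ =>
      Finset.sum_congr rfl fun i _ => ?_
    rw [bG_symm J a c e x l k i]
    ring
  rw [h2]
  simp only [bG_sum1, hv, hs1]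
  generalize hq : ∑ i, mv J x i * v i = q
  have hvx : ∑ l, v l * x l = 0 := by simpa only [mul_comm (v _)] using hv
  have hvz : ∑ l, v l * mv J x l = q := by simpa only [mul_comm (v _)] using hq
  have h1 : ∀ k, ∑ l, (a * v l * (x k * 1) - a * (0 * x l * (x k * (1 * 1)))
        + c * ((mv J x l * mv J v k + q * J k l) * 1)
        - c * ((mv J x l * 0 + q * x l) * (mv J x k * (1 * 1)))
        + e * (q * mv J x l * (x k * (1 * 1)))) *
      (a * v k * (x l * 1) - a * (0 * x k * (x l * (1 * 1)))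
        + c * ((mv J x k * mv J v l + q * J l k) * 1)
        - c * ((mv J x k * 0 + q * x k) * (mv J x l * (1 * 1)))
        + e * (q * mv J x k * (x l * (1 * 1)))) =
      -(c ^ 2 * q ^ 2) + (-(a * c * q)) * (x k * mv J v k)
        + (c ^ 2 * q ^ 2 - a * c * q ^ 2) * (x k * x k)
        + (-(c ^ 2 * q)) * (mv J x k * v k) + (2 * c ^ 2 * q ^ 2) * (mv J x k * mv J x k) := fun k => by
    have := berger_sum16 (a * x k) (c * mv J v k + e * q * x k) (c * q) (-(c * q * mv J x k))
      (a * v k + e * q * mv J x k) (c * mv J x k) (c * q) (-(c * q * x k))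
      (fun l => v l) (fun l => mv J x l) (fun l => J k l) (fun l => x l)
      (fun l => x l) (fun l => mv J v l) (fun l => J l k) (fun l => mv J x l)
    rw [hvx, hvz, hJ.b_self, hJ.b_self, hJ.b_self', hJ.b_left, hJ.b_left, hJ.b_left, hJ.b_orth,
      hJ.b_orth, hJ.b_sq, bkd_self, hxx, hv, hJ.b_skew x v, hq, ← mv_apply, ← mv_apply, ← mv_apply,
      hJ.b_mv_mv, hJ.b_mv_mv] at this
    refine Eq.trans (Finset.sum_congr rfl fun l _ => ?_) (this.trans ?_)
    · ring
    · ring
  simp only [h1, Finset.sum_add_distrib, ← Finset.mul_sum]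
  rw [hxx, hJ.b_orth, hJ.b_skew, hq, hxx]
  simp only [Finset.sum_const, Finset.card_univ, Fintype.card_fin, nsmul_eq_mul]
  ring

theorem ric_berger {J : Mat n} (hJ : IsCx J) {A B : ℝ} (hA : 0 < A) (hB : 0 < B) {x v : E n}
    (hx : ‖x‖ = 1) (hv : ⟪x, v⟫ = 0) :
    ric (berger J A B) x v v
      = ((n : ℝ) - 2 * B / A - ((n : ℝ) - 2) * A) * (‖v‖ ^ 2 - ⟪mv J x, v⟫ ^ 2)
        + ((n : ℝ) - 2) * (B ^ 2 / A ^ 2 - B) * ⟪mv J x, v⟫ ^ 2 := by
  have hx0 : x ≠ 0 := by rw [← norm_ne_zero_iff, hx]; exact one_ne_zero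
  have hne : ∀ᶠ y in 𝓝 x, y ≠ 0 := isOpen_ne.mem_nhds hx0
  rw [berger_inner] at hv
  have h1 : ∀ k i j m, pderiv m (fun y => christoffel (berger J A B) y k i j) x =
      pderiv m (fun y => bG J (1 - A) ((B - A) / A) (2 * ((B - A) / A) - (B - A)) y k i j) x := by
    intro k i j m
    have : (fun y => christoffel (berger J A B) y k i j) =ᶠ[𝓝 x]
        fun y => bG J (1 - A) ((B - A) / A) (2 * ((B - A) / A) - (B - A)) y k i j :=
      hne.mono fun y hy => berger_christoffel hJ hA hB hy k i j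
    rw [pderiv, this.fderiv_eq, pderiv]
  have h2 : ∀ i j, pderiv j (fun y => ∑ k, christoffel (berger J A B) y k k i) x = 0 := by
    intro i j
    have : (fun y => ∑ k, christoffel (berger J A B) y k k i) =ᶠ[𝓝 x] fun _ => 0 :=
      hne.mono fun y hy => by
        simp only [berger_christoffel hJ hA hB hy]
        exact bG_trace hJ _ _ _ hy i
    rw [pderiv, this.fderiv_eq]
    simp
  have h3 : ∀ (a c e : ℝ) i j, ∑ k, ∑ l, bG J a c e x k k l * bG J a c e x l i j = 0 := by
    intro a c e i j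
    rw [Finset.sum_comm]
    simp only [← Finset.sum_mul, bG_trace hJ _ _ _ hx0, zero_mul, Finset.sum_const_zero]
  unfold ric ricci
  simp only [h1, h2, berger_christoffel hJ hA hB hx0, h3, sub_zero, add_zero, sub_mul,
    Finset.sum_sub_distrib]
  rw [bG_div hJ _ _ _ hx hv, bG_quad hJ _ _ _ hx hv, berger_inner, berger_normsq]
  field_simp
  ring

end Crest.Agent.R202
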