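import Mathlib

/-!
# R202/CtrlAux: local controllability in a finite dimensional normed algebra
-/

open scoped Topology
open Set NormedSpace

set_option linter.unusedSectionVars false

noncomputable section

namespace Crest.Agent.R202

section Alg

variable {𝔸 : Type} [Ring 𝔸] [Algebra ℝ 𝔸] [TopologicalSpace 𝔸] [IsTopologicalRing 𝔸]
  {𝒴 : Set 𝔸} {P Q : Type} [TopologicalSpace P] [TopologicalSpace Q]

/-- `f` is a product of exponentials of elements of `𝒴` with continuous times -/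
def Rp (𝒴 : Set 𝔸) (f : P → 𝔸) : Prop :=
  ∃ L : List (𝔸 × (P → ℝ)), (∀ x ∈ L, x.1 ∈ 𝒴 ∧ Continuous x.2) ∧
    ∀ p, f p = (L.map fun x => exp (x.2 p • x.1)).prod

theorem Rp.one : Rp 𝒴 fun _ : P => (1 : 𝔸) := ⟨[], by simp, by simp⟩

theorem Rp.single {X : 𝔸} (hX : X ∈ 𝒴) {θ : P → ℝ} (hθ : Continuous θ) :
    Rp 𝒴 fun p => exp (θ p • X) := ⟨[(X, θ)], by simp [hX, hθ], by simp⟩

theorem Rp.mul {f g : P → 𝔸} (hf : Rp 𝒴 f) (hg : Rp 𝒴 g) : Rp 𝒴 fun p => f p * g p := by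
  obtain ⟨L, h1, h2⟩ := hf
  obtain ⟨L', h1', h2'⟩ := hg
  refine ⟨L ++ L', fun x hx => (List.mem_append.1 hx).elim (h1 x) (h1' x), fun p => ?_⟩
  rw [List.map_append, List.prod_append, ← h2, ← h2']

theorem Rp.comp {f : P → 𝔸} (hf : Rp 𝒴 f) {φ : Q → P} (hφ : Continuous φ) :
    Rp 𝒴 fun q => f (φ q) := by
  obtain ⟨L, h1, h2⟩ := hf
  refine ⟨L.map fun x => (x.1, fun q => x.2 (φ q)), fun x hx => ?_, fun q => ?_⟩
  · obtain ⟨y, hy, rfl⟩ := List.mem_map.1 hx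
    exact ⟨(h1 y hy).1, (h1 y hy).2.comp hφ⟩
  · rw [List.map_map]
    exact h2 (φ q)

theorem Rp.induction {C : (P → 𝔸) → Prop} (h1 : C fun _ => 1)
    (h2 : ∀ X ∈ 𝒴, ∀ θ : P → ℝ, Continuous θ → ∀ f, C f → C fun p => exp (θ p • X) * f p)
    {f : P → 𝔸} (hf : Rp 𝒴 f) : C f := by
  obtain ⟨L, hL, h⟩ := hf
  obtain rfl : f = _ := funext h
  clear h
  induction L with
  | nil => exact h1
  | cons x L ih =>
    exact h2 x.1 (hL x List.mem_cons_self).1 x.2 (hL x List.mem_cons_self).2 _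
      (ih fun y hy => hL y (List.mem_cons_of_mem _ hy))

/-- the reachable elements -/
def Gp (𝒴 : Set 𝔸) (g : 𝔸) : Prop := Rp 𝒴 fun _ : Unit => g

theorem Rp.at {f : P → 𝔸} (hf : Rp 𝒴 f) (p : P) : Gp 𝒴 (f p) :=
  hf.comp (φ := fun _ : Unit => p) continuous_const

theorem Gp.const {g : 𝔸} (hg : Gp 𝒴 g) : Rp 𝒴 fun _ : P => g :=
  Rp.comp hg (φ := fun _ : P => ()) continuous_const

theorem Gp.mul {g g' : 𝔸} (hg : Gp 𝒴 g) (hg' : Gp 𝒴 g') : Gp 𝒴 (g * g') := Rp.mul hg hg'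

theorem Gp.pow {g : 𝔸} (hg : Gp 𝒴 g) (n : ℕ) : Gp 𝒴 (g ^ n) := by
  induction n with
  | zero => rw [pow_zero]; exact Rp.one
  | succ n ih => rw [pow_succ]; exact ih.mul hg

end Alg

section Normed

variable {𝔸 : Type} [NormedRing 𝔸] [NormedAlgebra ℝ 𝔸] [FiniteDimensional ℝ 𝔸] {𝒴 : Set 𝔸}

theorem ctrl_exp_neg (X : 𝔸) : exp X * exp (-X) = 1 ∧ exp (-X) * exp X = 1 := by
  have : CompleteSpace 𝔸 := FiniteDimensional.complete ℝ 𝔸
  let _ : NormedAlgebra ℚ 𝔸 := NormedAlgebra.restrictScalars ℚ ℝ 𝔸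
  constructor
  · rw [← exp_add_of_commute (Commute.refl X).neg_right, add_neg_cancel, exp_zero]
  · rw [← exp_add_of_commute (Commute.refl X).neg_left, neg_add_cancel, exp_zero]

theorem ctrl_exp_conj {g g' : 𝔸} (h1 : g * g' = 1) (h2 : g' * g = 1) (X : 𝔸) :
    exp (g * X * g') = g * exp X * g' := by
  have : CompleteSpace 𝔸 := FiniteDimensional.complete ℝ 𝔸
  let _ : NormedAlgebra ℚ 𝔸 := NormedAlgebra.restrictScalars ℚ ℝ 𝔸
  exact exp_units_conj ⟨g, g', h1, h2⟩ X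

theorem Gp.inv {g : 𝔸} (hg : Gp 𝒴 g) : ∃ g', Gp 𝒴 g' ∧ g * g' = 1 ∧ g' * g = 1 := by
  refine Rp.induction (C := fun f : Unit → 𝔸 => ∃ g', Gp 𝒴 g' ∧ f () * g' = 1 ∧ g' * f () = 1)
    ⟨1, Rp.one, one_mul 1, one_mul 1⟩ ?_ hg
  rintro X hX θ - f ⟨g', h1, h2, h3⟩
  have h4 : Gp 𝒴 (exp (-(θ () • X))) := by
    rw [← neg_smul]
    exact Rp.single hX (θ := fun _ : Unit => -θ ()) continuous_const
  obtain ⟨h5, h6⟩ := ctrl_exp_neg (θ () • X)
  refine ⟨g' * exp (-(θ () • X)), h1.mul h4, ?_, ?_⟩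
  · rw [mul_assoc, ← mul_assoc (f ()), h2, one_mul, h5]
  · rw [mul_assoc, ← mul_assoc (exp (-(θ () • X))), h6, one_mul, h3]

/-- the generators of reachable one-parameter groups -/
def Tg (𝒴 : Set 𝔸) : Set 𝔸 := {Y | Rp 𝒴 fun t : ℝ => exp (t • Y)}

theorem Tg.conj {g g' : 𝔸} (hg : Gp 𝒴 g) (hg' : Gp 𝒴 g') (h1 : g * g' = 1) (h2 : g' * g = 1)
    {Y : 𝔸} (hY : Y ∈ Submodule.span ℝ (Tg 𝒴)) : g * Y * g' ∈ Submodule.span ℝ (Tg 𝒴) := by
  induction hY using Submodule.span_induction with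
  | mem Y hY =>
    refine Submodule.subset_span ?_
    have e : (fun t : ℝ => exp (t • (g * Y * g'))) = fun t : ℝ => g * exp (t • Y) * g' := by
      funext t
      rw [← ctrl_exp_conj h1 h2, mul_smul_comm, smul_mul_assoc]
    change Rp 𝒴 fun t : ℝ => exp (t • (g * Y * g'))
    rw [e]
    exact (hg.const.mul hY).mul hg'.const
  | zero => simp
  | add Y Z _ _ h h' => rw [mul_add, add_mul]; exact add_mem h h'
  | smul c Y _ h => rw [mul_smul_comm, smul_mul_assoc]; exact Submodule.smul_mem _ c h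

theorem Tg.lie {X Y : 𝔸} (hX : X ∈ Submodule.span ℝ (Tg 𝒴)) (hY : Y ∈ Submodule.span ℝ (Tg 𝒴)) :
    X * Y - Y * X ∈ Submodule.span ℝ (Tg 𝒴) := by
  have : CompleteSpace 𝔸 := FiniteDimensional.complete ℝ 𝔸
  induction hX using Submodule.span_induction with
  | mem X hX =>
    have d1 := hasDerivAt_exp_smul_const (𝕂 := ℝ) X 0
    have d2 := hasDerivAt_exp_smul_const (𝕂 := ℝ) (-X) 0
    have d3 := (d1.mul_const Y).mul d2
    simp only [zero_smul, exp_zero, one_mul, mul_one, mul_neg, ← sub_eq_add_neg] at d3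
    have hm : ∀ t : ℝ, exp (t • X) * Y * exp (t • -X) ∈ Submodule.span ℝ (Tg 𝒴) := fun t => by
      have h1 : Gp 𝒴 (exp (t • -X)) := by
        rw [smul_neg, ← neg_smul]
        exact Rp.at hX (-t)
      obtain ⟨h2, h3⟩ := ctrl_exp_neg (t • X)
      rw [← smul_neg] at h2 h3
      exact Tg.conj (Rp.at hX t) h1 h2 h3 hY
    refine (Submodule.closed_of_finiteDimensional _).mem_of_tendsto d3.tendsto_slope
      (Filter.Eventually.of_forall fun t => ?_)
    rw [slope_def_module]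
    exact Submodule.smul_mem _ _ (sub_mem (hm t) (hm 0))
  | zero => simp
  | add X Z _ _ h h' =>
    have e : (X + Z) * Y - Y * (X + Z) = (X * Y - Y * X) + (Z * Y - Y * Z) := by noncomm_ring
    rw [e]
    exact add_mem h h'
  | smul c X _ h =>
    rw [mul_smul_comm, smul_mul_assoc, ← smul_sub]
    exact Submodule.smul_mem _ c h

/-- `A` is the derivative at `0` of a reachable family -/
def Dv (𝒴 : Set 𝔸) (A : 𝔸 →L[ℝ] 𝔸) : Prop :=
  ∃ f : 𝔸 → 𝔸, Rp 𝒴 f ∧ f 0 = 1 ∧ HasStrictFDerivAt f A 0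

theorem Dv.zero : Dv 𝒴 0 := ⟨fun _ => 1, Rp.one, rfl, hasStrictFDerivAt_const _ _⟩

theorem Dv.add {A B : 𝔸 →L[ℝ] 𝔸} (hA : Dv 𝒴 A) (hB : Dv 𝒴 B) : Dv 𝒴 (A + B) := by
  obtain ⟨f, h1, h2, h3⟩ := hA
  obtain ⟨g, k1, k2, k3⟩ := hB
  refine ⟨fun y => f y * g y, h1.mul k1, by simp [h2, k2], ?_⟩
  refine (h3.mul' k3).congr_fderiv ?_
  ext y
  simp [h2, k2, add_comm]

theorem Dv.of_span {Y : 𝔸} (hY : Y ∈ Submodule.span ℝ (Tg 𝒴)) (φ : 𝔸 →L[ℝ] ℝ) :
    Dv 𝒴 (φ.smulRight Y) := by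
  have : CompleteSpace 𝔸 := FiniteDimensional.complete ℝ 𝔸
  induction hY using Submodule.span_induction generalizing φ with
  | mem Y hY =>
    refine ⟨fun y => exp (φ y • Y), Rp.comp hY φ.continuous, by simp, ?_⟩
    have d1 : HasStrictFDerivAt (exp : 𝔸 → 𝔸) (1 : 𝔸 →L[ℝ] 𝔸) (φ.smulRight Y 0) := by
      rw [map_zero]
      exact hasStrictFDerivAt_exp_zero
    exact d1.comp 0 (φ.smulRight Y).hasStrictFDerivAt
  | zero =>
    have e : φ.smulRight (0 : 𝔸) = 0 := by ext; simp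
    rw [e]
    exact Dv.zero
  | add Y Z _ _ h h' =>
    have e : φ.smulRight (Y + Z) = φ.smulRight Y + φ.smulRight Z := by ext; simp
    rw [e]
    exact (h φ).add (h' φ)
  | smul c Y _ h =>
    have e : φ.smulRight (c • Y) = (c • φ).smulRight Y := by
      ext; simp [smul_smul, mul_comm]
    rw [e]
    exact h _

theorem ctrl_abs {ι : Type} (s : Finset ι) (φ : ι → 𝔸 →ₗ[ℝ] ℝ) (E : ι → 𝔸)
    (hE : ∀ S : Submodule ℝ 𝔸, (∀ X ∈ S, ∀ Y ∈ S, X * Y - Y * X ∈ S) → (∀ X ∈ 𝒴, X ∈ S) →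
      ∀ i ∈ s, E i ∈ S)
    (B : 𝔸 → Prop) (h1 : ∀ y, B (∑ i ∈ s, φ i y • E i))
    (h2 : ∀ y, B y → ∑ i ∈ s, φ i y • E i = y) (h3 : ∀ g, Gp 𝒴 g → B g) :
    ∃ (U : Set 𝔸) (f g : 𝔸 → 𝔸), IsOpen U ∧ 1 ∈ U ∧ Rp 𝒴 f ∧ ContinuousOn g U ∧
      ∀ y ∈ U, B y → f (g y) = y := by
  have : CompleteSpace 𝔸 := FiniteDimensional.complete ℝ 𝔸
  have hE' := hE (Submodule.span ℝ (Tg 𝒴)) (fun X hX Y hY => Tg.lie hX hY)
    fun X hX => Submodule.subset_span (Rp.single hX continuous_id)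
  set π : 𝔸 →L[ℝ] 𝔸 := ∑ i ∈ s, (LinearMap.toContinuousLinearMap (φ i)).smulRight (E i) with hπ
  have hπ' : ∀ y, π y = ∑ i ∈ s, φ i y • E i := fun y => by simp [hπ]
  obtain ⟨f, k1, k2, k3⟩ : Dv 𝒴 π :=
    Finset.sum_induction _ (Dv 𝒴) (fun _ _ => Dv.add) Dv.zero fun i hi => Dv.of_span (hE' i hi) _
  have hF : HasStrictFDerivAt (fun y => f y + (y - π y))
      ((ContinuousLinearEquiv.refl ℝ 𝔸 : 𝔸 ≃L[ℝ] 𝔸) : 𝔸 →L[ℝ] 𝔸) 0 := by
    refine (k3.add ((hasStrictFDerivAt_id (0 : 𝔸)).sub π.hasStrictFDerivAt)).congr_fderiv ?_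
    ext y
    simp
  refine ⟨(hF.toOpenPartialHomeomorph _).target, f, (hF.toOpenPartialHomeomorph _).symm,
    OpenPartialHomeomorph.open_target _, ?_, k1, OpenPartialHomeomorph.continuousOn_symm _,
    fun y hy hB => ?_⟩
  · have := hF.image_mem_toOpenPartialHomeomorph_target
    simpa only [k2, map_zero, sub_zero, add_zero] using this
  · have e := (hF.toOpenPartialHomeomorph _).right_inv hy
    rw [HasStrictFDerivAt.toOpenPartialHomeomorph_coe] at e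
    generalize (hF.toOpenPartialHomeomorph _).symm y = z at e ⊢
    have e' := congrArg π e
    rw [map_add, map_sub, hπ' (π z), h2 _ (hπ' z ▸ h1 z), sub_self, add_zero, hπ', hπ',
      h2 _ (h3 _ (k1.at z)), h2 _ hB] at e'
    exact e'

/-- the flow through `K` slots -/
theorem ctrl_slot {ρ β : ℝ → ℝ} (hρ : ∀ t, HasDerivAt ρ (β t) t) (h0 : ∀ t ≤ 0, ρ t = 0)
    (h1 : ∀ t, 1 ≤ t → β t = 0) (a : ℝ) {len : ℝ} (hl : 0 < len) (K : ℕ) (w : Fin K → 𝔸) (t : ℝ) :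
    HasDerivAt (fun x => (List.ofFn fun k : Fin K =>
        exp ((len * ρ ((x - a) / len - (k : ℕ))) • w k)).reverse.prod)
      ((∑ k : Fin K, β ((t - a) / len - (k : ℕ)) • w k) * (List.ofFn fun k : Fin K =>
        exp ((len * ρ ((t - a) / len - (k : ℕ))) • w k)).reverse.prod) t := by
  have : CompleteSpace 𝔸 := FiniteDimensional.complete ℝ 𝔸
  induction K with
  | zero => simpa using hasDerivAt_const t (1 : 𝔸)
  | succ K ih =>
    simp only [List.ofFn_succ_last, List.reverse_append, List.reverse_singleton,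
      List.singleton_append, List.prod_cons, Fin.val_last, Fin.val_castSucc, Fin.sum_univ_castSucc]
    have d0 : HasDerivAt (fun x => len * ρ ((x - a) / len - K)) (β ((t - a) / len - K)) t := by
      have d := ((hρ _).comp t ((((hasDerivAt_id t).sub_const a).div_const len).sub_const
        (K : ℝ))).const_mul len
      refine d.congr_deriv ?_
      simp only [id]
      field_simp
    have d1 := (hasDerivAt_exp_smul_const' (𝕂 := ℝ) (w (Fin.last K))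
      (len * ρ ((t - a) / len - K))).scomp t d0
    refine (d1.mul (ih fun k => w k.castSucc)).congr_deriv ?_
    simp only [Function.comp_apply]
    rcases le_total ((t - a) / len - K) 0 with h | h
    · simp only [h0 _ h, mul_zero, zero_smul, exp_zero, one_mul, mul_one, add_mul, smul_mul_assoc]
      exact add_comm _ _
    · have e : ∑ k : Fin K, β ((t - a) / len - (k : ℕ)) • w k.castSucc = 0 :=
        Finset.sum_eq_zero fun k _ => by
          have : ((k : ℕ) : ℝ) + 1 ≤ K := by exact_mod_cast k.2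
          rw [h1 _ (by linarith), zero_smul]
      simp only [e, zero_add, zero_mul, mul_zero, add_zero, smul_mul_assoc, mul_assoc]

end Normed

end Crest.Agent.R202
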