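import Crest.Agent.R202.Defs

/-!
# R202/Time: the radial profile, bumps and gluing of stages
-/

open scoped ContDiff Topology
open Set Filter

noncomputable section

namespace Crest.Agent.R202

theorem time_prim {f : ℝ → ℝ} (hf : ContDiff ℝ ∞ f) (c : ℝ) :
    ∃ F : ℝ → ℝ, ContDiff ℝ ∞ F ∧ F 0 = c ∧ ∀ t, HasDerivAt F (f t) t := by
  have hd : ∀ t, HasDerivAt (fun u => c + ∫ x in (0 : ℝ)..u, f x) (f t) t := fun t =>
    ((hf.continuous.integral_hasStrictDerivAt 0 t).hasDerivAt).const_add c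
  refine ⟨_, contDiff_infty_iff_deriv.2 ⟨fun t => (hd t).differentiableAt, ?_⟩, by simp, hd⟩
  rw [show deriv (fun u => c + ∫ x in (0 : ℝ)..u, f x) = f from funext fun t => (hd t).deriv]
  exact hf

theorem time_mono {F f : ℝ → ℝ} (h : ∀ t, HasDerivAt F (f t) t) {a b : ℝ} (hab : a ≤ b)
    (h0 : ∀ t ∈ Icc a b, 0 ≤ f t) : F a ≤ F b :=
  monotoneOn_of_deriv_nonneg (convex_Icc a b)
    (fun t _ => (h t).continuousAt.continuousWithinAt)
    (fun t _ => (h t).differentiableAt.differentiableWithinAt)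
    (fun t ht => by rw [(h t).deriv]; exact h0 t (interior_subset ht))
    (left_mem_Icc.2 hab) (right_mem_Icc.2 hab) hab

theorem time_eq {F f : ℝ → ℝ} (h : ∀ t, HasDerivAt F (f t) t) {a b : ℝ} (hab : a ≤ b)
    (h0 : ∀ t ∈ Icc a b, f t = 0) : F a = F b := by
  have h1 := time_mono h hab fun t ht => (h0 t ht).ge
  have h2 := time_mono (fun t => (h t).fun_neg) hab fun t ht => by rw [h0 t ht, neg_zero]
  linarith

theorem time_beta {b : ℝ} (hb1 : b < 1) : ∃ β : ℝ → ℝ, ContDiff ℝ ∞ β ∧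
    (∀ t ≤ 0, β t = 1) ∧ Antitone β ∧ (∀ t, b ≤ β t) ∧ Tendsto β atTop (𝓝 b) ∧
    Tendsto (deriv β) atTop (𝓝 0) ∧ ∃ c > 0, ∀ k : ℕ, 1 ≤ k → ∀ t : ℝ, 1 ≤ t →
      t ≤ (k : ℝ) ^ 14 → c / (k : ℝ) ^ 21 ≤ -deriv β t := by
  obtain ⟨g, hg⟩ : ∃ g : ℝ → ℝ, g = fun t => 1 + t * Real.smoothTransition (2 * t) := ⟨_, rfl⟩
  have g0 : ∀ t ≤ 0, g t = 1 := fun t ht => by
    rw [hg]
    simp only
    rw [Real.smoothTransition.zero_of_nonpos (by linarith), mul_zero, add_zero]
  have g1 : ∀ t, 1 ≤ g t := fun t => by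
    rcases le_total t 0 with h | h
    · rw [g0 t h]
    · rw [hg]
      have := mul_nonneg h (Real.smoothTransition.nonneg (2 * t))
      simp only
      linarith
  have gm : Monotone g := fun s t hst => by
    rcases le_total s 0 with h | h
    · rw [g0 s h]; exact g1 t
    · rw [hg]
      have := mul_le_mul hst (Real.smoothTransition.monotone (show 2 * s ≤ 2 * t by linarith))
        (Real.smoothTransition.nonneg _) (h.trans hst)
      simp only
      linarith
  have g2 : ∀ t, 1 / 2 ≤ t → g t = 1 + t := fun t ht => by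
    rw [hg]
    simp only
    rw [Real.smoothTransition.one_of_one_le (by linarith), mul_one]
  have gs : ContDiff ℝ ∞ g := by
    rw [hg]
    exact contDiff_const.add (contDiff_id.mul
      (Real.smoothTransition.contDiff.comp (contDiff_const.mul contDiff_id)))
  have gp : ∀ t, 0 < g t := fun t => one_pos.trans_le (g1 t)
  have hb' : 0 < 1 - b := by linarith
  have hd : ∀ t, 1 / 2 < t → deriv (fun t => b + (1 - b) * g t ^ (-(1 / 2) : ℝ)) t =
      -((1 - b) / 2 * (1 + t) ^ (-(3 / 2) : ℝ)) := fun t ht => by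
    have h1 : (fun t => b + (1 - b) * g t ^ (-(1 / 2) : ℝ)) =ᶠ[𝓝 t]
        fun t => b + (1 - b) * (1 + t) ^ (-(1 / 2) : ℝ) :=
      (eventually_gt_nhds ht).mono fun s hs => by simp only [g2 s hs.le]
    have h2 : HasDerivAt (fun t : ℝ => b + (1 - b) * (1 + t) ^ (-(1 / 2) : ℝ))
        ((1 - b) * (1 * -(1 / 2) * (1 + t) ^ (-(1 / 2) - 1 : ℝ))) t :=
      ((((hasDerivAt_id' t).const_add 1).rpow_const (Or.inl (by linarith))).const_mul _).const_add _
    rw [h1.deriv_eq, h2.deriv, show (-(1 / 2) - 1 : ℝ) = -(3 / 2) by norm_num]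
    ring
  have hlim : ∀ r : ℝ, 0 < r → Tendsto (fun t : ℝ => (1 + t) ^ (-r)) atTop (𝓝 0) := fun r hr =>
    (tendsto_rpow_neg_atTop hr).comp (tendsto_atTop_add_const_left _ _ tendsto_id)
  refine ⟨fun t => b + (1 - b) * g t ^ (-(1 / 2) : ℝ), contDiff_const.add (contDiff_const.mul
    (gs.rpow_const_of_ne fun t => (gp t).ne')), fun t ht => ?_, fun s t hst => ?_, fun t => ?_,
    ?_, ?_, (1 - b) / 16, by positivity, fun k hk t ht htk => ?_⟩
  · simp only [g0 t ht, Real.one_rpow]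
    ring
  · have := mul_le_mul_of_nonneg_left
      (Real.rpow_le_rpow_of_nonpos (gp s) (gm hst) (show (-(1 / 2) : ℝ) ≤ 0 by norm_num)) hb'.le
    simp only
    linarith
  · have := mul_nonneg hb'.le (Real.rpow_nonneg (gp t).le (-(1 / 2) : ℝ))
    simp only
    linarith
  · have := ((hlim (1 / 2) (by norm_num)).const_mul (1 - b)).const_add b
    rw [mul_zero, add_zero] at this
    exact this.congr' ((eventually_ge_atTop (1 / 2)).mono fun s hs => by simp only [g2 s hs])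
  · have := ((hlim (3 / 2) (by norm_num)).const_mul ((1 - b) / 2)).neg
    rw [mul_zero, neg_zero] at this
    exact this.congr' ((eventually_gt_atTop (1 / 2)).mono fun s hs => (hd s hs).symm)
  · rw [hd t (by linarith), neg_neg]
    have hk' : (1 : ℝ) ≤ k := by exact_mod_cast hk
    have h1 : 1 + t ≤ (2 * (k : ℝ) ^ 7) ^ 2 := by nlinarith
    have h2 := Real.rpow_le_rpow_of_nonpos (by linarith) h1 (show (-(3 / 2) : ℝ) ≤ 0 by norm_num)
    have h3 : ((2 * (k : ℝ) ^ 7) ^ 2) ^ (-(3 / 2) : ℝ) = (8 * (k : ℝ) ^ 21)⁻¹ := by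
      rw [← Real.rpow_natCast, ← Real.rpow_mul (by positivity),
        show ((2 : ℕ) : ℝ) * -(3 / 2) = -((3 : ℕ) : ℝ) by norm_num, Real.rpow_neg (by positivity),
        Real.rpow_natCast]
      congr 1
      ring
    rw [h3] at h2
    calc (1 - b) / 16 / (k : ℝ) ^ 21 = (1 - b) / 2 * (8 * (k : ℝ) ^ 21)⁻¹ := by field_simp; norm_num
      _ ≤ _ := mul_le_mul_of_nonneg_left h2 (by positivity)

/-- `β = b + (1-b) (1 + t · smoothTransition t)^(-1/2)`, `B t = ∫₀ᵗ β`, `R t = 1 + ∫₀ᵗ exp B`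
(`= exp t` for `t ≤ 0`), `τ = R⁻¹` (inverse function theorem), `ψ = exp (B ∘ τ)`. -/
theorem exists_Tm {b : ℝ} (hb : 0 < b) (hb1 : b < 1) : ∃ β ψ τ, Tm b β ψ τ := by
  obtain ⟨β, hβs, hβ1, hβa, hβb, hβl, hβd, hβc⟩ := time_beta hb1
  have hβle : ∀ t, β t ≤ 1 := fun t => by
    rw [← hβ1 (min t 0) (min_le_right _ _)]
    exact hβa (min_le_left _ _)
  obtain ⟨B, hBs, hB0, hBd⟩ := time_prim hβs 0
  obtain ⟨R, hRs, hR0, hRd⟩ := time_prim (f := fun t => Real.exp (B t)) hBs.exp 1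
  have hEd : ∀ t, HasDerivAt (fun t => Real.exp (B t)) (Real.exp (B t) * β t) t := fun t =>
    (hBd t).exp
  have hBneg : ∀ t ≤ 0, B t = t := fun t ht => by
    have := time_eq (fun t => (hBd t).fun_sub (hasDerivAt_id' t)) ht fun s hs => by
      rw [hβ1 s hs.2, sub_self]
    simp only [hB0] at this
    linarith
  have hRneg : ∀ t ≤ 0, R t = Real.exp t := fun t ht => by
    have := time_eq (fun t => (hRd t).fun_sub (Real.hasDerivAt_exp t)) ht fun s hs => by
      rw [hBneg s hs.2, sub_self]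
    simp only [hR0, Real.exp_zero] at this
    linarith
  have hBpos : ∀ t, 0 ≤ t → b * t ≤ B t := fun t ht => by
    have := time_mono (fun t => (hBd t).fun_sub ((hasDerivAt_id' t).const_mul b)) ht fun s _ => by
      linarith [hβb s]
    simp only [hB0] at this
    linarith
  have hRm : StrictMono R := strictMono_of_hasDerivAt_pos hRd fun t => Real.exp_pos _
  have hup : ∀ t, Real.exp (B t) ≤ R t := fun t => by
    rcases le_total t 0 with ht | ht
    · rw [hRneg t ht, hBneg t ht]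
    · have := time_mono (fun t => (hRd t).fun_sub (hEd t)) ht fun s _ => by
        nlinarith [hβle s, Real.exp_pos (B s)]
      simp only [hR0, hB0, Real.exp_zero] at this
      linarith
  have hRpos : ∀ t, 0 < R t := fun t => (Real.exp_pos _).trans_le (hup t)
  have hlo : ∀ t, b * R t ≤ Real.exp (B t) := fun t => by
    rcases le_total t 0 with ht | ht
    · rw [hRneg t ht, hBneg t ht]
      nlinarith [Real.exp_pos t]
    · have := time_mono (fun t => (hEd t).fun_sub ((hRd t).const_mul b)) ht fun s _ => by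
        nlinarith [hβb s, Real.exp_pos (B s)]
      simp only [hR0, hB0, Real.exp_zero] at this
      linarith
  have hsurj : ∀ r, 0 < r → ∃ t, R t = r := fun r hr => by
    rcases le_total r 1 with h | h
    · exact ⟨Real.log r, by rw [hRneg _ (Real.log_nonpos hr.le h), Real.exp_log hr]⟩
    · have h1 : r ≤ R (r / b) := by
        have h2 := hBpos (r / b) (by positivity)
        rw [mul_div_cancel₀ _ hb.ne'] at h2
        linarith [Real.add_one_le_exp (B (r / b)), hup (r / b)]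
      obtain ⟨t, -, ht⟩ := intermediate_value_Icc (show 0 ≤ r / b by positivity)
        hRs.continuous.continuousOn (show r ∈ Icc (R 0) (R (r / b)) from ⟨hR0 ▸ h, h1⟩)
      exact ⟨t, ht⟩
  obtain ⟨τ, hτR, hRτ⟩ : ∃ τ : ℝ → ℝ, (∀ t, τ (R t) = t) ∧ ∀ r, 0 < r → R (τ r) = r :=
    ⟨Function.invFun R, Function.leftInverse_invFun hRm.injective,
      fun r hr => Function.invFun_eq (hsurj r hr)⟩
  have hτm : MonotoneOn τ (Ioi 0) := fun r hr r' hr' h => by
    rw [← hRm.le_iff_le, hRτ r hr, hRτ r' hr']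
    exact h
  have hτc : ∀ r, 0 < r → ContinuousAt τ r := fun r hr =>
    continuousAt_of_monotoneOn_of_image_mem_nhds hτm (Ioi_mem_nhds hr)
      (univ_mem' fun t => ⟨R t, hRpos t, hτR t⟩)
  have hτd : ∀ r, 0 < r → HasDerivAt τ (Real.exp (B (τ r)))⁻¹ r := fun r hr =>
    HasDerivAt.of_local_left_inverse (hτc r hr) (hRd _) (Real.exp_pos _).ne'
      ((eventually_gt_nhds hr).mono hRτ)
  have hτs : ContDiffOn ℝ ∞ τ (Ioi 0) := by
    refine contDiffOn_infty.2 fun n => ?_
    induction n with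
    | zero => exact contDiffOn_zero.2 fun r hr => (hτc r hr).continuousWithinAt
    | succ n ih =>
      rw [Nat.cast_succ, contDiffOn_succ_iff_deriv_of_isOpen isOpen_Ioi]
      refine ⟨fun r hr => (hτd r hr).differentiableAt.differentiableWithinAt, by simp, ?_⟩
      have h1 : ContDiff ℝ n fun t => (Real.exp (B t))⁻¹ :=
        (hBs.exp.of_le (by exact_mod_cast le_top)).inv fun t => (Real.exp_pos _).ne'
      exact (h1.comp_contDiffOn ih).congr fun r hr => (hτd r hr).deriv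
  have hτlog : ∀ r, 0 < r → r ≤ 1 → τ r = Real.log r := fun r hr h => by
    conv_lhs => rw [← Real.exp_log hr, ← hRneg _ (Real.log_nonpos hr.le h), hτR]
  have hτge : ∀ t r, R t ≤ r → t ≤ τ r := fun t r h => by
    rw [← hRm.le_iff_le, hRτ r ((hRpos t).trans_le h)]
    exact h
  refine ⟨β, fun r => Real.exp (B (τ r)), τ, hb, hb1, hβs, hβ1, hβa, hβb, hβl, hβd, hβc,
    hBs.exp.comp_contDiffOn hτs, hτs, fun r hr h => ?_, hτlog, fun r hr => ?_, hτd,
    fun r hr => ?_, fun r hr => ?_, ?_, ?_, fun t => ⟨R t, hRpos t, hτR t⟩, fun r hr => ?_⟩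
  · rw [hτlog r hr h, hBneg _ (Real.log_nonpos hr.le h), Real.exp_log hr]
  · refine ((hEd (τ r)).comp r (hτd r hr)).congr_deriv ?_
    field_simp
  · simpa only [hRτ r hr] using hlo (τ r)
  · simpa only [hRτ r hr] using hup (τ r)
  · refine tendsto_order.2 ⟨fun a ha => (eventually_gt_atTop 0).mono fun r hr => ?_, fun a ha => ?_⟩
    · rw [lt_div_iff₀ hr]
      have := hlo (τ r)
      rw [hRτ r hr] at this
      nlinarith
    · obtain ⟨t₀, ht₀⟩ := (hβl.eventually (gt_mem_nhds (show b < (a + b) / 2 by linarith))).exists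
      filter_upwards [eventually_ge_atTop (R t₀),
        eventually_gt_atTop (Real.exp (B t₀) / ((a - b) / 2))] with r h1 h2
      have hr := (hRpos t₀).trans_le h1
      have h3 := time_mono (fun t => ((hRd t).const_mul (β t₀)).fun_sub (hEd t)) (hτge t₀ r h1)
        fun s hs => by nlinarith [hβa hs.1, Real.exp_pos (B s)]
      rw [div_lt_iff₀ (by linarith)] at h2
      rw [div_lt_iff₀ hr]
      simp only [hRτ r hr] at h3
      have h4 := mul_pos (hb.trans_le (hβb t₀)) (hRpos t₀)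
      nlinarith
  · exact tendsto_atTop.2 fun t => (eventually_ge_atTop (R t)).mono fun r hr => hτge t r hr
  · have h1 := hτge 0 r (hR0 ▸ hr)
    have h2 := hup (τ r)
    rw [hRτ r (by linarith)] at h2
    exact (Real.exp_le_exp.2 (hBpos _ h1)).trans h2

/-- the ramp `0 → 1` on `[0,1]` -/
abbrev rmp : ℝ → ℝ := Real.smoothTransition

/-- a bump supported in `[0,1]` with integral `1` -/
def bmp (t : ℝ) : ℝ := deriv rmp t

theorem rmp_smooth : ContDiff ℝ ∞ rmp := Real.smoothTransition.contDiff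

theorem rmp_hasDerivAt (t : ℝ) : HasDerivAt rmp (bmp t) t :=
  (rmp_smooth.differentiable (by simp) t).hasDerivAt

theorem bmp_smooth : ContDiff ℝ ∞ bmp := (contDiff_infty_iff_deriv.1 rmp_smooth).2

theorem bmp_nonneg (t : ℝ) : 0 ≤ bmp t := Real.smoothTransition.monotone.deriv_nonneg

theorem bmp_of_nonpos {t : ℝ} (ht : t ≤ 0) : bmp t = 0 := IsLocalMin.deriv_eq_zero (Eventually.of_forall fun s => by
    rw [show rmp t = 0 from Real.smoothTransition.zero_of_nonpos ht]
    exact Real.smoothTransition.nonneg s)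

theorem bmp_of_one_le {t : ℝ} (ht : 1 ≤ t) : bmp t = 0 := IsLocalMax.deriv_eq_zero (Eventually.of_forall fun s => by
    rw [show rmp t = 1 from Real.smoothTransition.one_of_one_le ht]
    exact Real.smoothTransition.le_one s)

theorem integral_bmp : ∫ t in (0 : ℝ)..1, bmp t = 1 := by
  rw [intervalIntegral.integral_eq_sub_of_hasDerivAt (fun t _ => rmp_hasDerivAt t)
    (bmp_smooth.continuous.intervalIntegrable _ _)]
  simp

theorem exists_bmp_bound : ∃ B : ℝ, 1 ≤ B ∧ ∀ t, |bmp t| ≤ B ∧ |deriv bmp t| ≤ B ∧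
    |deriv (deriv bmp) t| ≤ B := by
  have hc : HasCompactSupport bmp := HasCompactSupport.intro (isCompact_Icc (a := (0 : ℝ)) (b := 1))
    fun t ht => by
      rcases le_total t 0 with h | h
      · exact bmp_of_nonpos h
      · exact bmp_of_one_le (by by_contra h'; exact ht ⟨h, (not_le.1 h').le⟩)
  have h1 := (contDiff_infty_iff_deriv.1 bmp_smooth).2
  have h2 := (contDiff_infty_iff_deriv.1 h1).2
  obtain ⟨C₀, hC₀⟩ := bmp_smooth.continuous.bounded_above_of_compact_support hc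
  obtain ⟨C₁, hC₁⟩ := h1.continuous.bounded_above_of_compact_support hc.deriv
  obtain ⟨C₂, hC₂⟩ := h2.continuous.bounded_above_of_compact_support hc.deriv.deriv
  refine ⟨max 1 (max C₀ (max C₁ C₂)), le_max_left _ _, fun t => ⟨(hC₀ t).trans ?_, (hC₁ t).trans ?_,
    (hC₂ t).trans ?_⟩⟩ <;> simp

/-- `rmp (1/2) = 1/2` and the mean value theorem on `[0,1/2]`, `[1/2,1]` or `[0,1]` -/
theorem exists_bmp_eq_one : ∃ ξ, 0 < ξ ∧ ξ < 1 ∧ bmp ξ = 1 := by
  obtain ⟨ξ, hξ, h⟩ := exists_hasDerivAt_eq_slope rmp bmp one_pos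
    rmp_smooth.continuous.continuousOn fun t _ => rmp_hasDerivAt t
  exact ⟨ξ, hξ.1, hξ.2, by simpa using h⟩

variable {P : Type} [NormedAddCommGroup P] [NormedSpace ℝ P]

/-- `K` consecutive slots of length `len` starting at `a`; in slot `j` the value is
`bmp ((t - a)/len - j) • w j` -/
def slots {K : ℕ} (a len : ℝ) (w : Fin K → P) (t : ℝ) : P :=
  ∑ j : Fin K, bmp ((t - a) / len - (j : ℕ)) • w j

/-- a plateau: ramp up on `[a, a + len]`, `1` on `[a + len, a' - len]`, ramp down on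
`[a' - len, a']` -/
def plat (a a' len : ℝ) (t : ℝ) : ℝ := rmp ((t - a) / len) * rmp ((a' - t) / len)

/-- smooth functions vanishing off `(0,1)` -/
structure TimeB (φ : ℝ → ℝ) : Prop where
  sm : ContDiff ℝ ∞ φ
  lo : ∀ t ≤ 0, φ t = 0
  hi : ∀ t, 1 ≤ t → φ t = 0

theorem timeB_bmp : TimeB bmp := ⟨bmp_smooth, fun _ => bmp_of_nonpos, fun _ => bmp_of_one_le⟩

theorem TimeB.hasDerivAt {φ : ℝ → ℝ} (h : TimeB φ) (t : ℝ) : HasDerivAt φ (deriv φ t) t :=
  (h.sm.differentiable (by simp) t).hasDerivAt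

theorem TimeB.deriv {φ : ℝ → ℝ} (h : TimeB φ) : TimeB (deriv φ) :=
  ⟨(contDiff_infty_iff_deriv.1 h.sm).2,
    fun t ht => (uniqueDiffOn_Iic 0 t ht).eq_deriv _ (h.hasDerivAt t).hasDerivWithinAt
      ((hasDerivWithinAt_const t _ (0 : ℝ)).congr (fun s hs => h.lo s hs) (h.lo t ht)),
    fun t ht => (uniqueDiffOn_Ici 1 t ht).eq_deriv _ (h.hasDerivAt t).hasDerivWithinAt
      ((hasDerivWithinAt_const t _ (0 : ℝ)).congr (fun s hs => h.hi s hs) (h.hi t ht))⟩

theorem TimeB.sum_of_mem {φ : ℝ → ℝ} (h : TimeB φ) {K : ℕ} (w : Fin K → P) (j : Fin K) {u : ℝ}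
    (h1 : ((j : ℕ) : ℝ) ≤ u) (h2 : u ≤ (j : ℕ) + 1) :
    ∑ i : Fin K, φ (u - (i : ℕ)) • w i = φ (u - (j : ℕ)) • w j := by
  refine Finset.sum_eq_single j (fun i _ hij => ?_) (by simp)
  rcases lt_or_gt_of_ne hij with hlt | hlt
  · have : ((i : ℕ) : ℝ) + 1 ≤ (j : ℕ) := by exact_mod_cast hlt
    rw [h.hi _ (by linarith), zero_smul]
  · have : ((j : ℕ) : ℝ) + 1 ≤ (i : ℕ) := by exact_mod_cast hlt
    rw [h.lo _ (by linarith), zero_smul]

theorem TimeB.sum_single {φ : ℝ → ℝ} (h : TimeB φ) {K : ℕ} (w : Fin K → P) (u : ℝ) :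
    ∑ i : Fin K, φ (u - (i : ℕ)) • w i = 0 ∨
      ∃ j : Fin K, ∑ i : Fin K, φ (u - (i : ℕ)) • w i = φ (u - (j : ℕ)) • w j := by
  by_cases hj : ∃ j : Fin K, φ (u - (j : ℕ)) ≠ 0
  · obtain ⟨j, hj⟩ := hj
    refine Or.inr ⟨j, h.sum_of_mem w j ?_ ?_⟩
    · by_contra hh
      exact hj (h.lo _ (by linarith [not_le.1 hh]))
    · by_contra hh
      exact hj (h.hi _ (by linarith [not_le.1 hh]))
  · push Not at hj
    exact Or.inl (Finset.sum_eq_zero fun i _ => by rw [hj i, zero_smul])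

theorem TimeB.norm_sum_le {φ : ℝ → ℝ} (h : TimeB φ) {K : ℕ} {w : Fin K → P} {B M : ℝ}
    (hB : ∀ t, |φ t| ≤ B) (hM : 0 ≤ M) (hw : ∀ j, ‖w j‖ ≤ M) (u : ℝ) :
    ‖∑ i : Fin K, φ (u - (i : ℕ)) • w i‖ ≤ B * M := by
  have hB0 : 0 ≤ B := (abs_nonneg _).trans (hB 0)
  rcases h.sum_single w u with h0 | ⟨j, hj⟩
  · rw [h0, norm_zero]
    positivity
  · rw [hj, norm_smul, Real.norm_eq_abs]
    exact mul_le_mul (hB _) (hw j) (norm_nonneg _) hB0

theorem TimeB.deriv_sum {φ : ℝ → ℝ} (h : TimeB φ) {K : ℕ} (w : Fin K → P) (a len c : ℝ) :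
    _root_.deriv (fun t => c • ∑ i : Fin K, φ ((t - a) / len - (i : ℕ)) • w i) =
      fun t => (c / len) • ∑ i : Fin K, _root_.deriv φ ((t - a) / len - (i : ℕ)) • w i := by
  funext t
  have h1 : ∀ i : Fin K, HasDerivAt (fun t => φ ((t - a) / len - (i : ℕ)) • w i)
      ((_root_.deriv φ ((t - a) / len - (i : ℕ)) * (1 / len)) • w i) t := fun i =>
    ((h.hasDerivAt _).comp t
      ((((hasDerivAt_id' t).sub_const a).div_const len).sub_const _)).smul_const _
  rw [((HasDerivAt.fun_sum fun i _ => h1 i).fun_const_smul c).deriv, Finset.smul_sum,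
    Finset.smul_sum]
  refine Finset.sum_congr rfl fun i _ => ?_
  rw [smul_smul, smul_smul]
  congr 1
  ring

theorem slots_smooth {K : ℕ} (a len : ℝ) (w : Fin K → P) : ContDiff ℝ ∞ (slots a len w) := ContDiff.sum fun _ _ => (bmp_smooth.comp
    (((contDiff_id.sub contDiff_const).div_const len).sub contDiff_const)).smul contDiff_const

theorem slots_of_le {K : ℕ} {a len : ℝ} (hl : 0 < len) (w : Fin K → P) {t : ℝ} (ht : t ≤ a) :
    slots a len w t = 0 := by
  refine Finset.sum_eq_zero fun j _ => ?_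
  have h1 : (t - a) / len ≤ 0 := div_nonpos_of_nonpos_of_nonneg (by linarith) hl.le
  have h2 : (0 : ℝ) ≤ (j : ℕ) := Nat.cast_nonneg _
  rw [bmp_of_nonpos (by linarith), zero_smul]

theorem slots_of_ge {K : ℕ} {a len : ℝ} (hl : 0 < len) (w : Fin K → P) {t : ℝ}
    (ht : a + K * len ≤ t) : slots a len w t = 0 := by
  refine Finset.sum_eq_zero fun j _ => ?_
  have h1 : (K : ℝ) ≤ (t - a) / len := by rw [le_div_iff₀ hl]; linarith
  have h2 : ((j : ℕ) : ℝ) + 1 ≤ K := by exact_mod_cast j.2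
  rw [bmp_of_one_le (by linarith), zero_smul]

/-- at each time at most one slot is active -/
theorem slots_single {K : ℕ} {a len : ℝ} (hl : 0 < len) (w : Fin K → P) (t : ℝ) :
    slots a len w t = 0 ∨ ∃ j : Fin K, slots a len w t = bmp ((t - a) / len - (j : ℕ)) • w j := timeB_bmp.sum_single w _

theorem slots_of_mem {K : ℕ} {a len : ℝ} (hl : 0 < len) (w : Fin K → P) (j : Fin K) {t : ℝ}
    (ht : t ∈ Icc (a + (j : ℕ) * len) (a + ((j : ℕ) + 1) * len)) :
    slots a len w t = bmp ((t - a) / len - (j : ℕ)) • w j := timeB_bmp.sum_of_mem w j (by rw [le_div_iff₀ hl]; linarith [ht.1])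
    (by rw [div_le_iff₀ hl]; linarith [ht.2])

theorem exists_slots_bound : ∃ B : ℝ, 1 ≤ B ∧ ∀ (K : ℕ) (a len : ℝ) (w : Fin K → P) (M : ℝ),
    1 ≤ len → 0 ≤ M → (∀ j, ‖w j‖ ≤ M) → ∀ t, ‖slots a len w t‖ ≤ B * M ∧
      ‖deriv (slots a len w) t‖ ≤ B * M / len ∧
      ‖deriv (deriv (slots a len w)) t‖ ≤ B * M / len ^ 2 := by
  obtain ⟨B, hB1, hB⟩ := exists_bmp_bound
  refine ⟨B, hB1, fun K a len w M hl hM hw t => ?_⟩
  have hl0 : 0 < len := by linarith
  have e0 : slots a len w = fun t => (1 : ℝ) • ∑ i : Fin K, bmp ((t - a) / len - (i : ℕ)) • w i := by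
    funext t
    rw [one_smul, slots]
  refine ⟨timeB_bmp.norm_sum_le (fun t => (hB t).1) hM hw _, ?_, ?_⟩
  · rw [e0, timeB_bmp.deriv_sum, norm_smul, Real.norm_of_nonneg (by positivity), mul_comm,
      mul_one_div]
    exact div_le_div_of_nonneg_right
      (timeB_bmp.deriv.norm_sum_le (fun t => (hB t).2.1) hM hw _) hl0.le
  · rw [e0, timeB_bmp.deriv_sum, timeB_bmp.deriv.deriv_sum, norm_smul,
      Real.norm_of_nonneg (by positivity), mul_comm, div_div, mul_one_div, ← sq]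
    exact div_le_div_of_nonneg_right
      (timeB_bmp.deriv.deriv.norm_sum_le (fun t => (hB t).2.2) hM hw _) (by positivity)

theorem plat_smooth (a a' len : ℝ) : ContDiff ℝ ∞ (plat a a' len) := (rmp_smooth.comp ((contDiff_id.sub contDiff_const).div_const len)).mul
    (rmp_smooth.comp ((contDiff_const.sub contDiff_id).div_const len))

theorem plat_mem (a a' len t : ℝ) : plat a a' len t ∈ Icc (0 : ℝ) 1 := ⟨mul_nonneg (Real.smoothTransition.nonneg _) (Real.smoothTransition.nonneg _),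
    mul_le_one₀ (Real.smoothTransition.le_one _) (Real.smoothTransition.nonneg _)
      (Real.smoothTransition.le_one _)⟩

theorem plat_of_le {a a' len t : ℝ} (hl : 0 < len) (ht : t ≤ a) : plat a a' len t = 0 := by
  rw [plat, show rmp ((t - a) / len) = 0 from Real.smoothTransition.zero_of_nonpos
    (div_nonpos_of_nonpos_of_nonneg (by linarith) hl.le), zero_mul]

theorem plat_of_ge {a a' len t : ℝ} (hl : 0 < len) (ht : a' ≤ t) : plat a a' len t = 0 := by
  rw [plat, show rmp ((a' - t) / len) = 0 from Real.smoothTransition.zero_of_nonpos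
    (div_nonpos_of_nonpos_of_nonneg (by linarith) hl.le), mul_zero]

theorem plat_of_mem {a a' len t : ℝ} (hl : 0 < len) (ht : t ∈ Icc (a + len) (a' - len)) :
    plat a a' len t = 1 := by
  rw [plat, show rmp ((t - a) / len) = 1 from Real.smoothTransition.one_of_one_le
      (by rw [le_div_iff₀ hl]; linarith [ht.1]),
    show rmp ((a' - t) / len) = 1 from Real.smoothTransition.one_of_one_le
      (by rw [le_div_iff₀ hl]; linarith [ht.2]), mul_one]

theorem plat_eventually_up {a a' len t : ℝ} (hl : 0 < len) (ht : t < a' - len) :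
    plat a a' len =ᶠ[𝓝 t] fun s => rmp ((s - a) / len) := (eventually_lt_nhds ht).mono fun s hs => by
    rw [plat, show rmp ((a' - s) / len) = 1 from Real.smoothTransition.one_of_one_le
      (by rw [le_div_iff₀ hl]; linarith), mul_one]

theorem exists_plat_bound : ∃ B : ℝ, 1 ≤ B ∧ ∀ a a' len t : ℝ, 1 ≤ len →
    |deriv (plat a a' len) t| ≤ B / len ∧ |deriv (deriv (plat a a' len)) t| ≤ B / len ^ 2 := by
  obtain ⟨B, hB1, hB⟩ := exists_bmp_bound
  refine ⟨4 * B ^ 2, by nlinarith, fun a a' len t hl => ?_⟩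
  have hl0 : 0 < len := by linarith
  have hu : ∀ t, HasDerivAt (fun t => (t - a) / len) (1 / len) t := fun t =>
    ((hasDerivAt_id' t).sub_const a).div_const len
  have hv : ∀ t, HasDerivAt (fun t => (a' - t) / len) (-1 / len) t := fun t =>
    ((hasDerivAt_id' t).const_sub a').div_const len
  have h1 : deriv (plat a a' len) = fun t => (bmp ((t - a) / len) * rmp ((a' - t) / len) -
      rmp ((t - a) / len) * bmp ((a' - t) / len)) / len := by
    funext t
    refine ((((rmp_hasDerivAt _).comp t (hu t)).fun_mul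
      ((rmp_hasDerivAt _).comp t (hv t))).congr_deriv ?_).deriv
    simp only [Function.comp]
    ring
  have h2 : deriv (deriv (plat a a' len)) t = (deriv bmp ((t - a) / len) * rmp ((a' - t) / len) -
      2 * (bmp ((t - a) / len) * bmp ((a' - t) / len)) +
      rmp ((t - a) / len) * deriv bmp ((a' - t) / len)) / len ^ 2 := by
    rw [h1]
    refine ((((((timeB_bmp.hasDerivAt _).comp t (hu t)).fun_mul
      ((rmp_hasDerivAt _).comp t (hv t))).fun_sub (((rmp_hasDerivAt _).comp t (hu t)).fun_mul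
      ((timeB_bmp.hasDerivAt _).comp t (hv t)))).div_const len).congr_deriv ?_).deriv
    simp only [Function.comp]
    ring
  have key : ∀ x r : ℝ, |x| ≤ B → |x * rmp r| ≤ B := fun x r hx => by
    rw [abs_mul, abs_of_nonneg (Real.smoothTransition.nonneg r)]
    exact (mul_le_of_le_one_right (abs_nonneg _) (Real.smoothTransition.le_one r)).trans hx
  have k1 := abs_le.1 (key _ ((a' - t) / len) (hB ((t - a) / len)).1)
  have k2 := abs_le.1 (key _ ((t - a) / len) (hB ((a' - t) / len)).1)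
  have k3 := abs_le.1 (key _ ((a' - t) / len) (hB ((t - a) / len)).2.1)
  have k4 := abs_le.1 (key _ ((t - a) / len) (hB ((a' - t) / len)).2.1)
  have k5 : |bmp ((t - a) / len) * bmp ((a' - t) / len)| ≤ B ^ 2 := by
    rw [abs_mul, sq]
    exact mul_le_mul (hB _).1 (hB _).1 (abs_nonneg _) (by linarith)
  have k6 := abs_le.1 k5
  have k7 : B ≤ B ^ 2 := by nlinarith
  constructor
  · rw [h1, abs_div, abs_of_pos hl0]
    refine div_le_div_of_nonneg_right (abs_le.2 ⟨?_, ?_⟩) hl0.le <;> linarith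
  · rw [h2, abs_div, abs_of_pos (by positivity : 0 < len ^ 2)]
    refine div_le_div_of_nonneg_right (abs_le.2 ⟨?_, ?_⟩) (by positivity) <;> linarith

theorem time_stage {k₀ : ℕ} {t : ℝ} (ht : (k₀ : ℝ) ^ 14 ≤ t) :
    ∃ k, k₀ ≤ k ∧ t ∈ Icc ((k : ℝ) ^ 14) (((k : ℝ) + 1) ^ 14) := by
  have hex : ∃ n : ℕ, t ≤ (((k₀ + n : ℕ) : ℝ) + 1) ^ 14 := by
    obtain ⟨n, hn⟩ := exists_nat_ge t
    refine ⟨n, hn.trans (le_trans ?_ (le_self_pow₀ ?_ (by norm_num)))⟩
    · push_cast
      linarith [(Nat.cast_nonneg k₀ : (0 : ℝ) ≤ k₀)]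
    · linarith [(Nat.cast_nonneg (k₀ + n) : (0 : ℝ) ≤ (k₀ + n : ℕ))]
  obtain ⟨n, hn⟩ := hex
  induction n with
  | zero => exact ⟨k₀, le_rfl, ht, hn⟩
  | succ n ih =>
    by_cases h : t ≤ (((k₀ + n : ℕ) : ℝ) + 1) ^ 14
    · exact ih h
    · refine ⟨k₀ + (n + 1), Nat.le_add_right _ _, ?_, hn⟩
      rw [← add_assoc, Nat.cast_succ]
      exact (not_le.1 h).le

/-- gluing of the stages `[k^14, (k+1)^14]`, `k ≥ k₀` -/
theorem exists_glue (k₀ : ℕ) (c : ℕ → ℝ → P) (hc : ∀ k, k₀ ≤ k → ContDiff ℝ ∞ (c k))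
    (h0 : ∀ k, k₀ ≤ k → ∀ t : ℝ, t ≤ (k : ℝ) ^ 14 + 1 ∨ ((k : ℝ) + 1) ^ 14 - 1 ≤ t → c k t = 0) :
    ∃ f : ℝ → P, ContDiff ℝ ∞ f ∧ (∀ t : ℝ, t ≤ (k₀ : ℝ) ^ 14 → f t = 0) ∧
      ∀ k, k₀ ≤ k → ∀ t ∈ Icc ((k : ℝ) ^ 14) (((k : ℝ) + 1) ^ 14), f =ᶠ[𝓝 t] c k := by
  have hpow : ∀ i j : ℕ, i ≤ j → (i : ℝ) ^ 14 ≤ (j : ℝ) ^ 14 := fun i j h =>
    pow_le_pow_left₀ (Nat.cast_nonneg _) (by exact_mod_cast h) 14
  have hA : ∀ t : ℝ, t ≤ (k₀ : ℝ) ^ 14 + 1 → ∑' k, (if k₀ ≤ k then c k t else 0) = 0 := by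
    intro t ht
    rw [show (fun k => if k₀ ≤ k then c k t else 0) = fun _ => 0 from funext fun k => ?_, tsum_zero]
    split_ifs with hk
    · exact h0 k hk t (Or.inl (by linarith [hpow _ _ hk]))
    · rfl
  have hB : ∀ k, k₀ ≤ k → ∀ t ∈ Icc ((k : ℝ) ^ 14) (((k : ℝ) + 1) ^ 14),
      (fun t => ∑' k, (if k₀ ≤ k then c k t else 0)) =ᶠ[𝓝 t] c k := by
    intro k hk t ht
    filter_upwards [Ioo_mem_nhds (show t - 1 < t by linarith) (show t < t + 1 by linarith)] with s hs
    rw [tsum_eq_single k, if_pos hk]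
    intro j hj
    split_ifs with hj0
    · refine h0 j hj0 s ?_
      rcases lt_or_gt_of_ne hj with h | h
      · have := hpow (j + 1) k h
        push_cast at this
        exact Or.inr (by linarith [hs.1, ht.1])
      · have := hpow (k + 1) j h
        push_cast at this
        exact Or.inl (by linarith [hs.2, ht.2])
    · rfl
  refine ⟨fun t => ∑' k, (if k₀ ≤ k then c k t else 0), contDiff_iff_contDiffAt.2 fun t => ?_,
    fun t ht => hA t (by linarith), hB⟩
  rcases le_total t ((k₀ : ℝ) ^ 14) with h | h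
  · refine (contDiffAt_const (c := (0 : P))).congr_of_eventuallyEq ?_
    filter_upwards [Iio_mem_nhds (show t < t + 1 by linarith)] with s hs
    exact hA s (by linarith [mem_Iio.1 hs])
  · obtain ⟨k, hk, ht⟩ := time_stage h
    exact (hc k hk).contDiffAt.congr_of_eventuallyEq (hB k hk t ht)

theorem exists_stage {k₀ : ℕ} {t : ℝ} (ht : (k₀ : ℝ) ^ 14 ≤ t) :
    ∃ k, k₀ ≤ k ∧ t ∈ Icc ((k : ℝ) ^ 14) (((k : ℝ) + 1) ^ 14) := time_stage ht

end Crest.Agent.R202
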