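import Crest.Agent.R202.Lie
import Crest.Agent.R202.Time
import Crest.Agent.R202.CtrlAux

/-!
# R202/Ctrl: local controllability near a signed permutation

Let `𝔄` be the algebra of block diagonal matrices, `G` the set of finite products
`exp (t X)`, `X ∈ 𝒳`, `t ∈ ℝ` (a group), `Z` the span of the `prD d l` (central in `𝔄`).
1. `S = span {g X g⁻¹ | g ∈ G, X ∈ 𝒳} + Z` is `Ad G`-stable, hence (differentiate
   `t ↦ exp (tX') Y exp (-tX')`, conjugated; subspaces are closed) bracket closed; so `S ⊇ 𝔄`.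
2. Choose `gₖ Xₖ gₖ⁻¹` and `z ∈ Z` spanning `𝔄`; `F(s,t) = exp (s) ∏ gₖ exp (tₖ Xₖ) gₖ⁻¹` has
   surjective derivative at `0` onto `𝔄`; choosing a basis and applying the inverse function
   theorem (`HasStrictFDerivAt.localInverse`) gives continuous local sections near `1`.
3. Hence `exp Y = exp (Y/n)^n ∈ exp Z · G` for `Y ∈ 𝔄`, so a signed permutation matrix `P`
   (a product of `exp ((π/2)(E i j - E j i))` with `d i = d j`; induct on
   `Equiv.Perm.swap_induction_on` inside the blocks, or on the number of moved points) lies in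
   `exp Z · G`, and `y = (y P⁻¹) P` gives the section near `P`.
4. Precompose with the retraction "clamp the entries, kill the off-block entries" to get globally
   continuous bounded `θ`, `s`.
-/

open scoped Matrix Topology
open Set

set_option linter.unusedSectionVars false

noncomputable section

namespace Crest.Agent.R202

variable {W : Type} [Fintype W] [DecidableEq W]

/-- signed permutation matrix: `e_j ↦ ε j • e_{ρ j}` -/
def sperm (ρ : Equiv.Perm W) (ε : W → ℝ) : Matrix W W ℝ := fun i j => if i = ρ j then ε j else 0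

/-- the box of block diagonal matrices around `P` -/
def box (d : W → ℕ) (P : Matrix W W ℝ) (r : ℝ) : Set (Matrix W W ℝ) :=
  {y | Blk d y ∧ ∀ i j, |y i j - P i j| ≤ r}

theorem isCompact_box (d : W → ℕ) (P : Matrix W W ℝ) (r : ℝ) : IsCompact (box d P r) := by
  have h1 : IsCompact (Set.pi univ fun i => Set.pi univ fun j => Icc (P i j - r) (P i j + r) :
      Set (Matrix W W ℝ)) :=
    isCompact_univ_pi fun i => isCompact_univ_pi fun j => isCompact_Icc
  refine h1.of_isClosed_subset ?_ fun y hy i _ j _ => ?_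
  · have e : box d P r = (⋂ i, ⋂ j, ⋂ _ : d i ≠ d j, {y : Matrix W W ℝ | y i j = 0}) ∩
        ⋂ i, ⋂ j, {y : Matrix W W ℝ | |y i j - P i j| ≤ r} := by
      ext y
      simp only [box, Blk, mem_ofPred_eq, mem_inter_iff, mem_iInter]
    rw [e]
    have c : ∀ i j, Continuous fun y : Matrix W W ℝ => y i j := fun i j =>
      continuous_id.matrix_elem i j
    exact (isClosed_iInter fun i => isClosed_iInter fun j => isClosed_iInter fun _ =>
      isClosed_eq (c i j) continuous_const).inter (isClosed_iInter fun i => isClosed_iInter fun j =>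
        isClosed_le ((c i j).sub continuous_const).abs continuous_const)
  · have := abs_le.1 (hy.2 i j)
    constructor <;> linarith [this.1, this.2]

theorem convex_box (d : W → ℕ) (P : Matrix W W ℝ) (r : ℝ) : Convex ℝ (box d P r) := by
  intro x hx y hy a b ha hb hab
  refine ⟨fun i j h => by simp [hx.1 i j h, hy.1 i j h], fun i j => ?_⟩
  have h1 := abs_le.1 (hx.2 i j)
  have h2 := abs_le.1 (hy.2 i j)
  obtain rfl : b = 1 - a := by linarith
  simp only [Matrix.add_apply, Matrix.smul_apply, smul_eq_mul]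
  rw [abs_le]
  constructor <;> nlinarith [mul_le_mul_of_nonneg_left h1.1 ha, mul_le_mul_of_nonneg_left h1.2 ha,
    mul_le_mul_of_nonneg_left h2.1 hb, mul_le_mul_of_nonneg_left h2.2 hb]

section Aux

variable {d : W → ℕ} {𝒳 : Set (Matrix W W ℝ)}

theorem ctrl_comm {A : Matrix W W ℝ} (h : Blk d A) (c : ℕ → ℝ) :
    Commute (Matrix.diagonal fun i => c (d i)) A := by
  ext i j
  rw [Matrix.diagonal_mul, Matrix.mul_diagonal]
  by_cases hij : d i = d j
  · rw [hij, mul_comm]
  · rw [h i j hij, mul_zero, zero_mul]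

theorem ctrl_blk_iff {A : Matrix W W ℝ} : Blk d A ↔ ∀ l, Commute (prD d l) A := by
  refine ⟨fun h l => ctrl_comm h fun m => if m = l then 1 else 0, fun h i j hij => ?_⟩
  have := congrFun (congrFun (h (d i)).eq i) j
  simpa [prD, Matrix.diagonal_mul, Matrix.mul_diagonal, Ne.symm hij] using this

theorem ctrl_blk_mul {A B : Matrix W W ℝ} (hA : Blk d A) (hB : Blk d B) : Blk d (A * B) :=
  ctrl_blk_iff.2 fun l => (ctrl_blk_iff.1 hA l).mul_right (ctrl_blk_iff.1 hB l)

theorem ctrl_blk_exp {A : Matrix W W ℝ} (hA : Blk d A) (t : ℝ) :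
    Blk d (NormedSpace.exp (t • A)) :=
  ctrl_blk_iff.2 fun l => ((ctrl_blk_iff.1 hA l).smul_right t).exp_right

theorem ctrl_blk_gp (h𝒳 : ∀ X ∈ 𝒳, Blk d X) {g : Matrix W W ℝ} (hg : Gp (𝒳 ∪ range (prD d)) g) :
    Blk d g := by
  refine Rp.induction (C := fun f : Unit → Matrix W W ℝ => Blk d (f ()))
    (ctrl_blk_iff.2 fun _ => Commute.one_right _) ?_ hg
  rintro X hX θ - f hf
  refine ctrl_blk_mul (ctrl_blk_exp ?_ _) hf
  rcases hX with hX | ⟨l, rfl⟩
  · exact h𝒳 X hX
  · intro i j hij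
    exact Matrix.diagonal_apply_ne _ fun h => hij (by rw [h])

theorem ctrl_form {P : Type} [TopologicalSpace P] (h𝒳 : ∀ X ∈ 𝒳, Blk d X) {f : P → Matrix W W ℝ}
    (hf : Rp (𝒳 ∪ range (prD d)) f) :
    ∃ (s : P → ℕ → ℝ) (g : P → Matrix W W ℝ), (∀ l, Continuous fun p => s p l) ∧ Rp 𝒳 g ∧
      ∀ p, f p = Matrix.diagonal (fun i => Real.exp (s p (d i))) * g p := by
  refine Rp.induction (C := fun f : P → Matrix W W ℝ => ∃ (s : P → ℕ → ℝ) (g : P → Matrix W W ℝ),
    (∀ l, Continuous fun p => s p l) ∧ Rp 𝒳 g ∧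
      ∀ p, f p = Matrix.diagonal (fun i => Real.exp (s p (d i))) * g p)
    ⟨fun _ _ => 0, fun _ => 1, fun _ => continuous_const, Rp.one, fun p => by simp⟩ ?_ hf
  rintro X hX θ hθ f ⟨s, g, h1, h2, h3⟩
  rcases hX with hX | ⟨l, rfl⟩
  · refine ⟨s, fun p => NormedSpace.exp (θ p • X) * g p, h1, (Rp.single hX hθ).mul h2, fun p => ?_⟩
    beta_reduce
    rw [h3, ← mul_assoc, ← mul_assoc,
      (ctrl_comm (ctrl_blk_exp (h𝒳 X hX) (θ p)) fun m => Real.exp (s p m)).eq]
  · refine ⟨fun p m => θ p * (if m = l then 1 else 0) + s p m, g,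
      fun m => (hθ.mul continuous_const).add (h1 m), h2, fun p => ?_⟩
    beta_reduce
    rw [h3, ← mul_assoc, prD, ← Matrix.diagonal_smul, Matrix.exp_diagonal,
      Matrix.diagonal_mul_diagonal]
    congr 2
    funext i
    rw [Pi.coe_exp, Real.exp_add, Real.exp_eq_exp_ℝ]
    rfl

theorem ctrl_near_one (h𝒳 : ∀ X ∈ 𝒳, Blk d X) (hg : Gen d 𝒳) :
    ∃ (U : Set (Matrix W W ℝ)) (f g : Matrix W W ℝ → Matrix W W ℝ), IsOpen U ∧ 1 ∈ U ∧
      Rp (𝒳 ∪ range (prD d)) f ∧ ContinuousOn g U ∧ ∀ y ∈ U, Blk d y → f (g y) = y := by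
  have hs : ∀ (y : Matrix W W ℝ) (i j : W),
      (∑ x ∈ Finset.univ.filter fun x : W × W => d x.1 = d x.2,
        y x.1 x.2 • Matrix.single x.1 x.2 (1 : ℝ)) i j = if d i = d j then y i j else 0 := by
    intro y i j
    rw [Matrix.sum_apply, Finset.sum_filter, Finset.sum_eq_single (i, j)]
    · simp
    · rintro ⟨a, b⟩ - h
      have : ¬(a = i ∧ b = j) := fun h' => h (by rw [h'.1, h'.2])
      simp [this]
    · simp
  open scoped Matrix.Norms.Operator in
  exact ctrl_abs (Finset.univ.filter fun x : W × W => d x.1 = d x.2)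
    (fun x => Matrix.entryLinearMap ℝ ℝ x.1 x.2) (fun x => Matrix.single x.1 x.2 1)
    (fun S h1 h2 x hx => genL_le h1 (fun X hX => h2 X (Or.inl hX))
      (fun l => h2 _ (Or.inr ⟨l, rfl⟩)) (hg _ fun i j hij => Matrix.single_apply_of_ne _ _ _ _ _
        fun h => hij (by rw [← h.1, ← h.2]; exact (Finset.mem_filter.1 hx).2)))
    (Blk d) (fun y i j hij => (hs y i j).trans (if_neg hij))
    (fun y hy => Matrix.ext fun i j => (hs y i j).trans (by
      split_ifs with h
      exacts [rfl, (hy i j h).symm]))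
    fun g hg => ctrl_blk_gp h𝒳 hg

theorem ctrl_inv {𝒴 : Set (Matrix W W ℝ)} {g : Matrix W W ℝ} (hg : Gp 𝒴 g) :
    ∃ g', Gp 𝒴 g' ∧ g * g' = 1 ∧ g' * g = 1 := by
  open scoped Matrix.Norms.Operator in exact hg.inv

theorem ctrl_transv (h𝒳 : ∀ X ∈ 𝒳, Blk d X) (hg : Gen d 𝒳) {i j : W} (hij : i ≠ j)
    (hd : d i = d j) (t : ℝ) : Gp (𝒳 ∪ range (prD d)) (Matrix.transvection i j t) := by
  obtain ⟨U, f, g, h1, h2, h3, -, h4⟩ := ctrl_near_one h𝒳 hg
  have c : Continuous fun t : ℝ => Matrix.transvection i j t := by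
    refine continuous_matrix fun a b => ?_
    simp only [Matrix.transvection, Matrix.add_apply, Matrix.single_apply]
    split_ifs <;> fun_prop
  have e : ∀ᶠ n : ℕ in Filter.atTop, Matrix.transvection i j (t / n) ∈ U :=
    ((c.tendsto 0).comp (tendsto_const_div_atTop_nhds_zero_nat t)).eventually
      (h1.mem_nhds (by rwa [Matrix.transvection_zero]))
  obtain ⟨n, hn, hn0⟩ := (e.and (Filter.eventually_gt_atTop 0)).exists
  have hp : ∀ (a : ℝ) (m : ℕ), Matrix.transvection i j a ^ m = Matrix.transvection i j (m * a) := by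
    intro a m
    induction m with
    | zero => simp
    | succ m ih =>
      rw [pow_succ, ih, Matrix.transvection_mul_transvection_same _ _ hij]
      push_cast
      ring_nf
  have hb : Blk d (Matrix.transvection i j (t / n)) := fun a b hab => by
    have h5 : a ≠ b := fun h => hab (by rw [h])
    have h6 : ¬(i = a ∧ j = b) := fun h => hab (by rw [← h.1, ← h.2, hd])
    simp [Matrix.transvection, h5, h6]
  have h5 := (h4 _ hn hb ▸ h3.at (g (Matrix.transvection i j (t / n)))).pow n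
  have : (n : ℝ) ≠ 0 := by exact_mod_cast hn0.ne'
  rwa [hp, mul_div_cancel₀ _ this] at h5

theorem ctrl_sperm (h𝒳 : ∀ X ∈ 𝒳, Blk d X) (hg : Gen d 𝒳) (ρ : Equiv.Perm W)
    (hρ : ∀ i, d (ρ i) = d i) :
    ∃ ε : W → ℝ, (∀ i, |ε i| = 1) ∧ Gp (𝒳 ∪ range (prD d)) (sperm ρ ε) := by
  induction hn : ρ.support.card using Nat.strong_induction_on generalizing ρ with
  | _ n ih =>
  by_cases h : ∀ x, ρ x = x
  · refine ⟨fun _ => 1, fun _ => abs_one, ?_⟩
    have e : sperm ρ (fun _ => 1) = 1 := by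
      ext i j
      rw [sperm, h, Matrix.one_apply]
    rw [e]
    exact Rp.one
  obtain ⟨x, hx⟩ := not_forall.1 h
  obtain ⟨ε, h1, h2⟩ := ih _ (hn ▸ Equiv.Perm.card_support_swap_mul hx) (Equiv.swap x (ρ x) * ρ)
    (fun i => by
      rw [Equiv.Perm.mul_apply, Equiv.swap_apply_def]
      split_ifs with a b
      · rw [hρ, ← a, hρ]
      · rw [ρ.injective b]
      · exact hρ i) rfl
  have hx' : x ≠ ρ x := Ne.symm hx
  have h3 := ctrl_transv h𝒳 hg hx' (hρ x).symm 1
  have h4 := h3.mul ((ctrl_transv h𝒳 hg hx (hρ x) (-1)).mul (h3.mul h2))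
  refine ⟨fun b => if ρ b = ρ x then -ε b else ε b, fun b => by
    beta_reduce
    split_ifs
    exacts [(abs_neg _).trans (h1 b), h1 b], ?_⟩
  convert h4 using 1
  ext a b
  have k : ∀ a, sperm (Equiv.swap x (ρ x) * ρ) ε a b
      = if Equiv.swap x (ρ x) a = ρ b then ε b else 0 := fun a =>
    if_congr Equiv.swap_apply_eq_iff.symm rfl rfl
  rw [sperm]
  by_cases a1 : a = x
  · subst a1
    simp only [Matrix.transvection_mul_apply_same, Matrix.transvection_mul_apply_of_ne _ _ _ _ hx,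
      Matrix.transvection_mul_apply_of_ne _ _ _ _ hx', k, Equiv.swap_apply_left,
      Equiv.swap_apply_right]
    by_cases b1 : a = ρ b
    · simp [← b1, hx']
    · simp only [b1, if_false]
      ring
  by_cases a2 : a = ρ x
  · subst a2
    simp only [Matrix.transvection_mul_apply_same, Matrix.transvection_mul_apply_of_ne _ _ _ _ hx,
      k, Equiv.swap_apply_left, Equiv.swap_apply_right]
    by_cases b1 : ρ x = ρ b
    · simp [← b1]
    · simp only [b1, if_false]
      ring
  · simp only [Matrix.transvection_mul_apply_of_ne _ _ _ _ a1,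
      Matrix.transvection_mul_apply_of_ne _ _ _ _ a2, k, Equiv.swap_apply_of_ne_of_ne a1 a2]
    by_cases b1 : a = ρ b
    · simp [← b1, a2]
    · simp [b1]

theorem ctrl_box (h𝒳 : ∀ X ∈ 𝒳, Blk d X) (hg : Gen d 𝒳) {P : Matrix W W ℝ}
    (hP : Gp (𝒳 ∪ range (prD d)) P) :
    ∃ r : ℝ, 0 < r ∧ Rp (𝒳 ∪ range (prD d)) fun y : box d P r => y.1 := by
  obtain ⟨U, f, g, h1, h2, h3, h4, h5⟩ := ctrl_near_one h𝒳 hg
  obtain ⟨P', k1, k2, k3⟩ := ctrl_inv hP
  have c : Continuous fun y : Matrix W W ℝ => y * P' := continuous_id.mul continuous_const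
  obtain ⟨r, hr, hU⟩ := (Metric.nhds_basis_closedBall (α := W → W → ℝ) (x := P)).mem_iff.1
    ((h1.preimage c).mem_nhds (show P * P' ∈ U by rwa [k2]))
  have hU' : ∀ y : box d P r, y.1 * P' ∈ U := fun y =>
    hU ((dist_pi_le_iff hr.le).2 fun i => (dist_pi_le_iff hr.le).2 fun j => y.2.2 i j)
  refine ⟨r, hr, ?_⟩
  have e : (fun y : box d P r => y.1) = fun y => f (g (y.1 * P')) * P := funext fun y => by
    rw [h5 _ (hU' y) (ctrl_blk_mul y.2.1 (ctrl_blk_gp h𝒳 k1)), mul_assoc, k3, mul_one]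
  rw [e]
  exact (h3.comp (h4.comp_continuous (c.comp continuous_subtype_val) hU')).mul hP.const

theorem ctrl_retr {P : Matrix W W ℝ} (hP : Blk d P) {r : ℝ} (hr : 0 ≤ r) :
    ∃ R : Matrix W W ℝ → box d P r, Continuous R ∧ ∀ y ∈ box d P r, (R y).1 = y := by
  refine ⟨fun y => ⟨Matrix.of fun i j =>
    if d i = d j then max (P i j - r) (min (y i j) (P i j + r)) else 0,
    fun i j h => if_neg h, fun i j => ?_⟩, Continuous.subtype_mk (continuous_matrix fun i j => ?_) _,
    fun y hy => Matrix.ext fun i j => ?_⟩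
  · rw [Matrix.of_apply]
    split_ifs with h
    · rw [abs_le]
      constructor
      · linarith [le_max_left (P i j - r) (min (y i j) (P i j + r))]
      · have : max (P i j - r) (min (y i j) (P i j + r)) ≤ P i j + r :=
          max_le (by linarith) (min_le_right _ _)
        linarith
    · simpa [hP i j h] using hr
  · simp only [Matrix.of_apply]
    split_ifs
    · exact continuous_const.max ((continuous_id.matrix_elem i j).min continuous_const)
    · exact continuous_const
  · simp only [Matrix.of_apply]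
    split_ifs with h
    · have := abs_le.1 (hy.2 i j)
      rw [min_eq_left (by linarith [this.2]), max_eq_right (by linarith [this.1])]
    · exact (hy.1 i j h).symm

end Aux

theorem control {d : W → ℕ} {𝒳 : Set (Matrix W W ℝ)} (h𝒳 : ∀ X ∈ 𝒳, Blk d X) (hg : Gen d 𝒳)
    (ρ : Equiv.Perm W) (hρ : ∀ i, d (ρ i) = d i) :
    ∃ (ε : W → ℝ) (K : ℕ) (X : Fin K → Matrix W W ℝ) (r Θ : ℝ)
      (θ : Matrix W W ℝ → Fin K → ℝ) (s : Matrix W W ℝ → ℕ → ℝ),
      (∀ i, |ε i| = 1) ∧ (∀ j, X j ∈ 𝒳) ∧ 0 < r ∧ 0 ≤ Θ ∧ Continuous θ ∧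
      (∀ l, Continuous fun y => s y l) ∧ (∀ y j, |θ y j| ≤ Θ) ∧ (∀ y l, |s y l| ≤ Θ) ∧
      ∀ y ∈ box d (sperm ρ ε) r, Matrix.diagonal (fun i => Real.exp (s y (d i)))
        * tprod (fun j => NormedSpace.exp (θ y j • X j)) = y := by
  classical
  obtain ⟨ε, h1, h2⟩ := ctrl_sperm h𝒳 hg ρ hρ
  obtain ⟨r, hr, h3⟩ := ctrl_box h𝒳 hg h2
  obtain ⟨R, h4, h5⟩ := ctrl_retr (ctrl_blk_gp h𝒳 h2) hr.le
  obtain ⟨s, g, h6, ⟨L, h7, h8⟩, h9⟩ := ctrl_form h𝒳 h3
  obtain ⟨L, rfl⟩ : ∃ L' : List _, L = L'.reverse := ⟨L.reverse, L.reverse_reverse.symm⟩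
  have h7' : ∀ j : Fin L.length, (L.get j).1 ∈ 𝒳 ∧ Continuous (L.get j).2 := fun j =>
    h7 _ (List.mem_reverse.2 (List.get_mem L j))
  have : CompactSpace (box d (sperm ρ ε) r) := isCompact_iff_compactSpace.1 (isCompact_box _ _ _)
  have c : Continuous fun p : box d (sperm ρ ε) r =>
      ((fun i => s p (d i), fun j => (L.get j).2 p) : (W → ℝ) × (Fin L.length → ℝ)) :=
    (continuous_pi fun i => h6 (d i)).prodMk (continuous_pi fun j => (h7' j).2)
  obtain ⟨C, hC⟩ := isCompact_univ.exists_bound_of_continuousOn c.continuousOn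
  refine ⟨ε, L.length, fun j => (L.get j).1, r, max C 0, fun y j => (L.get j).2 (R y),
    fun y l => if l ∈ range d then s (R y) l else 0, h1, fun j => (h7' j).1, hr, le_max_right _ _,
    continuous_pi fun j => (h7' j).2.comp h4, fun l => ?_, fun y j => ?_, fun y l => ?_,
    fun y hy => ?_⟩
  · beta_reduce
    split_ifs
    exacts [(h6 l).comp h4, continuous_const]
  · exact (((norm_le_pi_norm _ j).trans (norm_snd_le _)).trans (hC (R y) trivial)).trans
      (le_max_left _ _)
  · beta_reduce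
    split_ifs with h
    · obtain ⟨i, rfl⟩ := h
      exact (((norm_le_pi_norm _ i).trans (norm_fst_le _)).trans (hC (R y) trivial)).trans
        (le_max_left _ _)
    · rw [abs_zero]
      exact le_max_right _ _
  · have e := h9 (R y)
    rw [h5 y hy, h8, List.map_reverse] at e
    simp only [mem_range_self, if_true]
    refine Eq.trans ?_ e.symm
    conv_rhs => rw [← List.ofFn_get L, List.map_ofFn]
    rfl

/-- the ideal flow through `K` slots -/
theorem exists_slot_flow {K : ℕ} (w : Fin K → Matrix W W ℝ) (a : ℝ) {len : ℝ} (hl : 0 < len) :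
    ∃ G : ℝ → Matrix W W ℝ, G a = 1 ∧
      (∀ t i j, HasDerivAt (fun x => G x i j)
        (((∑ k : Fin K, bmp ((t - a) / len - (k : ℕ)) • w k) * G t) i j) t) ∧
      G (a + K * len) = tprod (fun k => NormedSpace.exp (len • w k)) := by
  refine ⟨fun t => tprod fun k : Fin K =>
    NormedSpace.exp ((len * rmp ((t - a) / len - (k : ℕ))) • w k), ?_, fun t i j => ?_, ?_⟩
  · refine List.prod_eq_one fun x hx => ?_
    obtain ⟨k, rfl⟩ := List.mem_ofFn.1 (List.mem_reverse.1 hx)
    rw [show rmp ((a - a) / len - (k : ℕ)) = 0 from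
      Real.smoothTransition.zero_of_nonpos (by simp), mul_zero, zero_smul, NormedSpace.exp_zero]
  · open scoped Matrix.Norms.Operator in
    exact (LinearMap.toContinuousLinearMap
      (Matrix.entryLinearMap ℝ ℝ i j : Matrix W W ℝ →ₗ[ℝ] ℝ)).hasFDerivAt.comp_hasDerivAt t
      (ctrl_slot rmp_hasDerivAt (fun _ => Real.smoothTransition.zero_of_nonpos)
        (fun _ => bmp_of_one_le) a hl K w t)
  · refine congrArg tprod (funext fun k => ?_)
    have : ((k : ℕ) : ℝ) + 1 ≤ K := by exact_mod_cast k.2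
    rw [show rmp ((a + K * len - a) / len - (k : ℕ)) = 1 from
      Real.smoothTransition.one_of_one_le (by
        rw [add_sub_cancel_left, mul_div_cancel_right₀ _ hl.ne']
        linarith), mul_one]

end Crest.Agent.R202
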