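import Crest.Agent.R202.SMat
import Crest.Agent.R202.Avg

/-!
# R202/Cyc: the cyclic permutation of the modes and the average exponent

`swp l₀ L` exchanges `zon l` and `top (l+1)` for `l₀ ≤ l < L`.  `exists_cyc`: order the modes of
degree in `[l₀, L]` cyclically as: degree `l₀` (all, ending with `zon l₀`), degree `l₀+1` without
`top` (ending with `zon`), …, degree `L` (all, ending with `top L`), then `top (L-1), …,
top (l₀+1)`; `σ` is the successor map and `ρ = σ * swp`.  Alternatively induct on `L`, merging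
cycles by a transposition.
`avg9`: `a l ≤ (l + 1/2)`, `Σ_{l ≤ L} (2l+1)(l+1/2) ~ (2/3) L³`; take `L = ⌊s k⌋` with
`√c < s < (3/2) b`.
-/

open scoped Matrix
open Finset

noncomputable section

namespace Crest.Agent.R202

/-- the zonal modes that are swapped -/
def IsA (l₀ L : ℕ) (i : MI L) : Prop := i.1.1.2 = 0 ∧ l₀ ≤ dg i.1 ∧ dg i.1 < L

instance (l₀ L : ℕ) : DecidablePred (IsA l₀ L) := fun _ => by unfold IsA; infer_instance

/-- the swap on pairs -/
def cycT (l₀ L : ℕ) (x : ℕ × ℤ) : ℕ × ℤ :=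
  if x.2 = 0 ∧ l₀ ≤ x.1 ∧ x.1 < L then (x.1 + 1, ((x.1 + 1 : ℕ) : ℤ))
  else if x.2 = x.1 ∧ l₀ < x.1 then (x.1 - 1, 0) else x

/-- the rotation inside each degree, on pairs -/
def cycR (l₀ : ℕ) (x : ℕ × ℤ) : ℕ × ℤ :=
  if l₀ ≤ x.1 then (if x.2 < x.1 then (x.1, x.2 + 1) else (x.1, -(x.1 : ℤ))) else x

/-- valid pairs -/
def cycV (L : ℕ) (x : ℕ × ℤ) : Prop := x.2.natAbs ≤ x.1 ∧ 1 ≤ x.1 ∧ x.1 ≤ L

def cycLift {L : ℕ} (f : ℕ × ℤ → ℕ × ℤ) (hf : ∀ x, cycV L x → cycV L (f x)) (i : MI L) : MI L :=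
  ⟨⟨f i.1.1, (hf _ ⟨i.1.2, i.2⟩).1⟩, (hf _ ⟨i.1.2, i.2⟩).2⟩

theorem cyc_valid {L : ℕ} (i : MI L) : cycV L i.1.1 := ⟨i.1.2, i.2⟩

theorem cyc_ext {L : ℕ} {i j : MI L} (h : i.1.1 = j.1.1) : i = j :=
  Subtype.ext (Subtype.ext h)

theorem cycT_valid {l₀ L : ℕ} (h1 : 1 ≤ l₀) (x : ℕ × ℤ) (hx : cycV L x) :
    cycV L (cycT l₀ L x) := by
  obtain ⟨l, m⟩ := x
  unfold cycV cycT at *
  dsimp only at *
  split_ifs <;> dsimp only <;> omega

theorem cycR_valid {l₀ L : ℕ} (x : ℕ × ℤ) (hx : cycV L x) : cycV L (cycR l₀ x) := by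
  obtain ⟨l, m⟩ := x
  unfold cycV cycR at *
  dsimp only at *
  split_ifs <;> dsimp only <;> omega

theorem cycT_invol {l₀ L : ℕ} (x : ℕ × ℤ) (hx : cycV L x) :
    cycT l₀ L (cycT l₀ L x) = x := by
  obtain ⟨l, m⟩ := x
  unfold cycV at hx
  dsimp only at hx
  by_cases h : m = 0 ∧ l₀ ≤ l ∧ l < L
  · have e : cycT l₀ L (l, m) = (l + 1, ((l + 1 : ℕ) : ℤ)) := by
      unfold cycT; rw [if_pos h]
    rw [e]
    unfold cycT
    dsimp only
    rw [if_neg (by omega), if_pos (by omega)]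
    refine Prod.ext ?_ ?_ <;> dsimp only <;> omega
  · by_cases h' : m = l ∧ l₀ < l
    · have e : cycT l₀ L (l, m) = (l - 1, 0) := by
        unfold cycT; rw [if_neg h, if_pos h']
      rw [e]
      unfold cycT
      dsimp only
      rw [if_pos (by omega)]
      refine Prod.ext ?_ ?_ <;> dsimp only <;> omega
    · have e : cycT l₀ L (l, m) = (l, m) := by
        unfold cycT; rw [if_neg h, if_neg h']
      rw [e, e]

theorem cycR_inj {l₀ L : ℕ} (x y : ℕ × ℤ) (hx : cycV L x) (hy : cycV L y)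
    (h : cycR l₀ x = cycR l₀ y) : x = y := by
  obtain ⟨l, m⟩ := x
  obtain ⟨l', m'⟩ := y
  unfold cycV at hx hy
  unfold cycR at h
  dsimp only at hx hy h
  split_ifs at h <;> simp only [Prod.mk.injEq] at h ⊢ <;> omega

theorem cycR_fst (l₀ : ℕ) (x : ℕ × ℤ) : (cycR l₀ x).1 = x.1 := by
  unfold cycR
  split_ifs <;> rfl

/-- first key of the cyclic order -/
def cycK1 (L : ℕ) (x : ℕ × ℤ) : ℕ := if x.2 ≤ 0 then 2 * L + 1 - x.1 else x.1

/-- second key of the cyclic order -/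
def cycK2 (x : ℕ × ℤ) : ℕ := ((x.1 : ℤ) - x.2).toNat

theorem cyc_step {l₀ L : ℕ} (h1 : 1 ≤ l₀) (x : ℕ × ℤ) (hx : cycV L x) (h0 : l₀ ≤ x.1) :
    l₀ ≤ (cycR l₀ (cycT l₀ L x)).1 ∧ (x ≠ (l₀, (l₀ : ℤ)) →
      cycK1 L (cycR l₀ (cycT l₀ L x)) < cycK1 L x ∨
        (cycK1 L (cycR l₀ (cycT l₀ L x)) = cycK1 L x ∧
          cycK2 (cycR l₀ (cycT l₀ L x)) < cycK2 x)) := by
  obtain ⟨l, m⟩ := x
  unfold cycV at hx
  dsimp only at hx h0
  simp only [ne_eq, Prod.mk.injEq]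
  by_cases h : m = 0 ∧ l₀ ≤ l ∧ l < L
  · have e : cycT l₀ L (l, m) = (l + 1, ((l + 1 : ℕ) : ℤ)) := by
      unfold cycT; rw [if_pos h]
    rw [e]
    unfold cycR cycK1 cycK2
    dsimp only
    split_ifs <;> dsimp only at * <;> omega
  · by_cases h' : m = l ∧ l₀ < l
    · have e : cycT l₀ L (l, m) = (l - 1, 0) := by
        unfold cycT; rw [if_neg h, if_pos h']
      rw [e]
      unfold cycR cycK1 cycK2
      dsimp only
      split_ifs <;> dsimp only at * <;> omega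
    · have e : cycT l₀ L (l, m) = (l, m) := by
        unfold cycT; rw [if_neg h, if_neg h']
      rw [e]
      unfold cycR cycK1 cycK2
      dsimp only
      split_ifs <;> dsimp only at * <;> omega

theorem cyc_sameCycle {α : Type*} (σ : Equiv.Perm α) (S : α → Prop) (z : α) (k1 k2 : α → ℕ)
    (h : ∀ x, S x → S (σ x) ∧ (x ≠ z → k1 (σ x) < k1 x ∨ (k1 (σ x) = k1 x ∧ k2 (σ x) < k2 x))) :
    ∀ x, S x → σ.SameCycle x z := by
  have key : ∀ a b : ℕ, ∀ x, S x → k1 x = a → k2 x = b → σ.SameCycle x z := by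
    intro a
    induction a using Nat.strong_induction_on with
    | _ a iha =>
      intro b
      induction b using Nat.strong_induction_on with
      | _ b ihb =>
        intro x hx ha hb
        by_cases hz : x = z
        · rw [hz]
        · obtain ⟨hS, hk⟩ := h x hx
          have : σ.SameCycle (σ x) z := by
            rcases hk hz with h1 | ⟨h1, h2⟩
            · exact iha _ (ha ▸ h1) _ _ hS rfl rfl
            · exact ihb _ (hb ▸ h2) _ hS (h1.trans ha) rfl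
          exact Equiv.Perm.sameCycle_apply_left.1 this
  intro x hx
  exact key _ _ x hx rfl rfl

theorem cyc_sum_orbit {α : Type*} [DecidableEq α] {σ : Equiv.Perm α} {S : Finset α}
    (h : σ.IsCycleOn S) {i : α} (hi : i ∈ S) (f : α → ℝ) :
    ∑ j ∈ range S.card, f ((σ ^ j) i) = ∑ j ∈ S, f j := by
  have hmem : ∀ j : ℕ, (σ ^ j) i ∈ S := by
    intro j
    induction j with
    | zero => simpa using hi
    | succ j ih =>
      rw [pow_succ', Equiv.Perm.mul_apply]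
      exact h.1.mapsTo ih
  have hinj : Set.InjOn (fun j : ℕ => (σ ^ j) i) (range S.card : Finset ℕ) := by
    intro a ha b hb hab
    have := (h.pow_apply_eq_pow_apply hi).1 hab
    exact Nat.ModEq.eq_of_lt_of_lt this (by simpa using ha) (by simpa using hb)
  have himg : (range S.card).image (fun j : ℕ => (σ ^ j) i) = S := by
    apply Finset.eq_of_subset_of_card_le
    · intro y hy
      obtain ⟨j, -, rfl⟩ := Finset.mem_image.1 hy
      exact hmem j
    · rw [Finset.card_image_of_injOn hinj, card_range]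
  conv_rhs => rw [← himg]
  rw [Finset.sum_image hinj]

theorem exists_cyc {l₀ L : ℕ} (h1 : 1 ≤ l₀) (hL : l₀ ≤ L) :
    ∃ τ ρ : Equiv.Perm (MI L), (∀ i, τ (τ i) = i) ∧
      (∀ i, IsA l₀ L i → (τ i).1 = top (dg i.1 + 1)) ∧
      (∀ i, ¬ IsA l₀ L i → ¬ IsA l₀ L (τ i) → τ i = i) ∧ (∀ i, dg (ρ i).1 = dg i.1) ∧
      (∀ i, dg i.1 < l₀ → (ρ * τ) i = i) ∧
      ∀ i, l₀ ≤ dg i.1 → ((ρ * τ) ^ (univ.filter fun j : MI L => l₀ ≤ dg j.1).card) i = i ∧
        ∀ f : MI L → ℝ, ∑ j ∈ range (univ.filter fun j : MI L => l₀ ≤ dg j.1).card,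
          f (((ρ * τ) ^ j) i) = ∑ j ∈ univ.filter (fun j : MI L => l₀ ≤ dg j.1), f j := by
  classical
  let tf : MI L → MI L := cycLift (cycT l₀ L) (cycT_valid h1)
  let rf' : MI L → MI L := cycLift (cycR l₀) cycR_valid
  have htf : Function.Involutive tf := fun i => cyc_ext (cycT_invol _ (cyc_valid i))
  have hrf : Function.Injective rf' := fun i j hij =>
    cyc_ext (cycR_inj _ _ (cyc_valid i) (cyc_valid j) (congrArg (fun a : MI L => a.1.1) hij))
  let τ : Equiv.Perm (MI L) := htf.toPerm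
  let ρ : Equiv.Perm (MI L) := Equiv.ofBijective rf' (Finite.injective_iff_bijective.1 hrf)
  have hτ : ∀ i, (τ i).1.1 = cycT l₀ L i.1.1 := fun _ => rfl
  have hρ : ∀ i, (ρ i).1.1 = cycR l₀ i.1.1 := fun _ => rfl
  have hσ : ∀ i, ((ρ * τ) i).1.1 = cycR l₀ (cycT l₀ L i.1.1) := fun _ => rfl
  let z : MI L := ⟨top l₀, h1, hL⟩
  have hstep : ∀ x : MI L, l₀ ≤ dg x.1 → l₀ ≤ dg ((ρ * τ) x).1 ∧ (x ≠ z →
      cycK1 L ((ρ * τ) x).1.1 < cycK1 L x.1.1 ∨ (cycK1 L ((ρ * τ) x).1.1 = cycK1 L x.1.1 ∧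
        cycK2 ((ρ * τ) x).1.1 < cycK2 x.1.1)) := by
    intro x hx
    obtain ⟨a, b⟩ := cyc_step h1 x.1.1 (cyc_valid x) hx
    exact ⟨a, fun hz => b fun e => hz (cyc_ext e)⟩
  have hsame := cyc_sameCycle (ρ * τ) (fun x : MI L => l₀ ≤ dg x.1) z
    (fun x => cycK1 L x.1.1) (fun x => cycK2 x.1.1) hstep
  have hcyc : (ρ * τ).IsCycleOn (univ.filter fun j : MI L => l₀ ≤ dg j.1 : Finset (MI L)) := by
    constructor
    · have hm : Set.MapsTo (ρ * τ) (univ.filter fun j : MI L => l₀ ≤ dg j.1 : Finset (MI L))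
          (univ.filter fun j : MI L => l₀ ≤ dg j.1 : Finset (MI L)) := by
        intro x hx
        simp only [coe_filter, mem_univ, true_and, Set.mem_ofPred_eq] at hx ⊢
        exact (hstep x hx).1
      exact (Set.Finite.injOn_iff_bijOn_of_mapsTo (Finset.finite_toSet _) hm).1
        (ρ * τ).injective.injOn
    · intro x hx y hy
      simp only [coe_filter, mem_univ, true_and, Set.mem_ofPred_eq] at hx hy
      exact (hsame x hx).trans (hsame y hy).symm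
  refine ⟨τ, ρ, htf, ?_, ?_, ?_, ?_, ?_⟩
  · intro i hi
    apply Subtype.ext
    rw [hτ]
    unfold IsA dg at hi
    unfold cycT
    rw [if_pos hi]
    rfl
  · intro i hi hi'
    apply cyc_ext
    have hv := cyc_valid i
    unfold IsA dg at hi hi'
    rw [hτ] at hi' ⊢
    unfold cycV at hv
    unfold cycT at hi' ⊢
    rw [if_neg hi] at hi' ⊢
    split_ifs at hi' ⊢ with h'
    · exfalso
      apply hi'
      dsimp only
      omega
    · rfl
  · intro i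
    unfold dg
    rw [hρ, cycR_fst]
  · intro i hi
    apply cyc_ext
    unfold dg at hi
    rw [hσ]
    have e : cycT l₀ L i.1.1 = i.1.1 := by
      unfold cycT
      rw [if_neg (by omega), if_neg (by omega)]
    rw [e]
    unfold cycR
    rw [if_neg (by omega)]
  · intro i hi
    have hi' : i ∈ (univ.filter fun j : MI L => l₀ ≤ dg j.1) := by simpa using hi
    exact ⟨hcyc.pow_card_apply hi', cyc_sum_orbit hcyc hi'⟩

theorem cyc_card_fiber {l₀ L l : ℕ} (hl : l ∈ Icc (max l₀ 1) L) :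
    ((univ.filter fun j : MI L => l₀ ≤ dg j.1).filter fun j => dg j.1 = l).card = 2 * l + 1 := by
  rw [mem_Icc] at hl
  have h1 : 1 ≤ l := (le_max_right _ _).trans hl.1
  have h0 : l₀ ≤ l := (le_max_left _ _).trans hl.1
  have hc : (Icc (-(l : ℤ)) l).card = 2 * l + 1 := by
    rw [Int.card_Icc]; omega
  rw [← hc]
  apply Finset.card_bij (fun j _ => j.1.1.2)
  · intro j hj
    simp only [mem_filter, mem_univ, true_and] at hj
    have := j.1.2
    unfold dg at hj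
    rw [mem_Icc]
    omega
  · intro a ha b hb hab
    simp only [mem_filter, mem_univ, true_and] at ha hb
    apply cyc_ext
    exact Prod.ext (ha.2.trans hb.2.symm) hab
  · intro m hm
    rw [mem_Icc] at hm
    refine ⟨⟨⟨(l, m), by dsimp only; omega⟩, h1, hl.2⟩, ?_, rfl⟩
    simp only [mem_filter, mem_univ, true_and]
    exact ⟨h0, rfl⟩

theorem cyc_sum (l₀ L : ℕ) (g : ℕ → ℝ) :
    ∑ j ∈ univ.filter (fun j : MI L => l₀ ≤ dg j.1), g (dg j.1)
      = ∑ l ∈ Icc (max l₀ 1) L, (2 * (l : ℝ) + 1) * g l := by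
  rw [← Finset.sum_fiberwise_of_maps_to (t := Icc (max l₀ 1) L) (g := fun j : MI L => dg j.1)]
  · refine Finset.sum_congr rfl fun l hl => ?_
    rw [Finset.sum_congr rfl (g := fun _ => g l), Finset.sum_const, cyc_card_fiber hl,
      nsmul_eq_mul]
    · push_cast; ring
    · intro j hj
      rw [(mem_filter.1 hj).2]
  · intro j hj
    simp only [mem_filter, mem_univ, true_and] at hj
    exact mem_Icc.2 ⟨max_le hj j.2.1, j.2.2⟩

theorem cyc_sum_one {y L : ℕ} (h : y ≤ L + 1) :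
    ∑ l ∈ Icc y L, (2 * (l : ℝ) + 1) * 1 = ((L : ℝ) + 1) ^ 2 - (y : ℝ) ^ 2 := by
  induction L with
  | zero =>
    obtain rfl | rfl : y = 0 ∨ y = 1 := by omega
    · simp
    · simp
  | succ L ih =>
    rcases Nat.lt_or_ge y (L + 2) with h' | h'
    · rw [Finset.sum_Icc_succ_top (by omega), ih (by omega)]
      push_cast; ring
    · obtain rfl : y = L + 2 := by omega
      rw [Finset.Icc_eq_empty (by omega)]
      push_cast; simp; ring

theorem cyc_sum_two {y L : ℕ} (h : y ≤ L + 1) :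
    ∑ l ∈ Icc y L, (2 * (l : ℝ) + 1) * ((l : ℝ) + 1 / 6)
      ≤ 2 / 3 * (((L : ℝ) + 1) ^ 3 - (y : ℝ) ^ 3) := by
  induction L with
  | zero =>
    obtain rfl | rfl : y = 0 ∨ y = 1 := by omega
    · simp; norm_num
    · simp
  | succ L ih =>
    rcases Nat.lt_or_ge y (L + 2) with h' | h'
    · rw [Finset.sum_Icc_succ_top (by omega)]
      have := ih (by omega)
      have hL : (0 : ℝ) ≤ L := Nat.cast_nonneg L
      push_cast
      nlinarith
    · obtain rfl : y = L + 2 := by omega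
      rw [Finset.Icc_eq_empty (by omega)]
      push_cast
      simp only [sum_empty]
      apply le_of_eq
      ring

theorem cyc_card (l₀ L : ℕ) (h : max l₀ 1 ≤ L + 1) :
    ((univ.filter fun j : MI L => l₀ ≤ dg j.1).card : ℝ)
      = ((L : ℝ) + 1) ^ 2 - ((max l₀ 1 : ℕ) : ℝ) ^ 2 := by
  rw [← cyc_sum_one h, ← cyc_sum l₀ L fun _ => 1]
  simp

theorem card_MI (L : ℕ) : Fintype.card (MI L) + 1 = (L + 1) ^ 2 := by
  have h := cyc_card 0 L (by simp)
  have e : (univ.filter fun j : MI L => 0 ≤ dg j.1) = univ := by simp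
  rw [e, Finset.card_univ] at h
  have : ((Fintype.card (MI L) + 1 : ℕ) : ℝ) = (((L + 1) ^ 2 : ℕ) : ℝ) := by
    push_cast
    rw [h]
    simp
  exact_mod_cast this

theorem avg9 {b c : ℝ} (hb : 0 < b) (hc : 0 < c) (hcb : c < 9 * b ^ 2 / 4) (l₀ : ℕ) :
    ∃ k₀ : ℕ, ∀ k : ℕ, k₀ ≤ k → ∃ (L : ℕ) (abar : ℝ), l₀ ≤ L ∧ 1 ≤ L ∧ (l₀ : ℝ) + 1 ≤ abar ∧
      abar < k * b ∧ c * ((k : ℝ) + 1) ^ 2 ≤ Fintype.card (MI L) ∧
      ∑ j ∈ univ.filter (fun j : MI L => l₀ ≤ dg j.1), ((dg j.1 : ℝ) + 1 / 6)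
        ≤ (univ.filter fun j : MI L => l₀ ≤ dg j.1).card * abar := by
  set r := Real.sqrt c with hr
  have hr0 : 0 < r := Real.sqrt_pos.2 hc
  have hrr : r ^ 2 = c := Real.sq_sqrt hc.le
  have hrb : r < 3 / 2 * b := by
    apply lt_of_pow_lt_pow_left₀ 2 (by positivity)
    rw [hrr]; nlinarith
  set s := (r + 3 / 2 * b) / 2 with hs
  have hs1 : 0 < s - r := by rw [hs]; linarith
  have hs2 : 0 < b - 2 / 3 * s := by rw [hs]; linarith
  have hs0 : 0 < s := by linarith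
  obtain ⟨k₁, hk₁⟩ := exists_nat_ge (r / (s - r))
  obtain ⟨k₂, hk₂⟩ := exists_nat_ge ((3 + (l₀ : ℝ)) / (b - 2 / 3 * s))
  obtain ⟨k₃, hk₃⟩ := exists_nat_ge (((l₀ : ℝ) + 1) / s)
  refine ⟨k₁ + k₂ + k₃, fun k hk => ?_⟩
  have e1 : (k₁ : ℝ) ≤ k := by exact_mod_cast (by omega : k₁ ≤ k)
  have e2 : (k₂ : ℝ) ≤ k := by exact_mod_cast (by omega : k₂ ≤ k)
  have e3 : (k₃ : ℝ) ≤ k := by exact_mod_cast (by omega : k₃ ≤ k)
  have f1 : r ≤ k * (s - r) := (div_le_iff₀ hs1).1 (hk₁.trans e1)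
  have f2 : 3 + (l₀ : ℝ) ≤ k * (b - 2 / 3 * s) := (div_le_iff₀ hs2).1 (hk₂.trans e2)
  have f3 : (l₀ : ℝ) + 1 ≤ k * s := (div_le_iff₀ hs0).1 (hk₃.trans e3)
  have hl0 : (0 : ℝ) ≤ l₀ := Nat.cast_nonneg _
  have hk0 : (0 : ℝ) ≤ k := Nat.cast_nonneg _
  set L := ⌈(k : ℝ) * s⌉₊ with hLdef
  have g1 : (k : ℝ) * s ≤ L := Nat.le_ceil _
  have g2 : (L : ℝ) < k * s + 1 := Nat.ceil_lt_add_one (by positivity)
  have hL : l₀ + 1 ≤ L := by exact_mod_cast f3.trans g1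
  have hy1 : ((max l₀ 1 : ℕ) : ℝ) ≤ l₀ + 1 := by exact_mod_cast (by omega : max l₀ 1 ≤ l₀ + 1)
  have hy2 : (l₀ : ℝ) ≤ ((max l₀ 1 : ℕ) : ℝ) := by exact_mod_cast le_max_left _ _
  have hy3 : max l₀ 1 ≤ L + 1 := by omega
  have hy4 : ((max l₀ 1 : ℕ) : ℝ) ≤ L + 1 := by exact_mod_cast hy3
  have hLr : (l₀ : ℝ) + 1 ≤ L := f3.trans g1
  refine ⟨L, 2 / 3 * ((L : ℝ) + 1 + ((max l₀ 1 : ℕ) : ℝ)), by omega, by omega, by linarith,
    by nlinarith, ?_, ?_⟩
  · have hc1 : ((Fintype.card (MI L) : ℕ) : ℝ) + 1 = ((L : ℝ) + 1) ^ 2 := by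
      exact_mod_cast card_MI L
    have g3 : r * (k + 1) ≤ L := by nlinarith
    have g4 : (r * (k + 1)) ^ 2 ≤ (L : ℝ) ^ 2 := pow_le_pow_left₀ (by positivity) g3 2
    rw [mul_pow, hrr] at g4
    nlinarith
  · rw [cyc_sum l₀ L fun l => (l : ℝ) + 1 / 6, cyc_card l₀ L hy3]
    refine (cyc_sum_two hy3).trans ?_
    set y : ℝ := ((max l₀ 1 : ℕ) : ℝ)
    have hy0 : 0 ≤ y := by linarith
    have : 0 ≤ ((L : ℝ) + 1) * y * ((L : ℝ) + 1 - y) :=
      mul_nonneg (mul_nonneg (by linarith) hy0) (by linarith)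
    nlinarith

end Crest.Agent.R202
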