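import Mathlib
import Crest.Prelude.Def_CoordMetric
import Crest.Prelude.Def_CoordVolume
import Crest.Prelude.Def_ChartCurvature

/-!
# Row 202 (S0309, S0310): geometric definitions and overview

Owner: helper74.  Both metrics have the form `g = dr² + ψ(r)² h_{c(τ r)}` written in Cartesian
coordinates as `radM ψ (c ∘ τ) H`, where `τ' = 1/ψ`, `ψ' = β ∘ τ` (`Tm`) and `H c` is a family of
metrics on the sphere (`Fam`).  Harmonic functions are solutions of a linear ODE system in the time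
`τ`; the parameters `c(t)` are switched on in stages `[n^14, (n+1)^14]` so that the solutions are
permuted cyclically among modes of different growth, and grow at the average rate.

Files.  Geometry: `Jet, Radial, Round, Berger, Family, Dist, Lap, Metric`.  Time: `Time, Avg`.
Control: `Ctrl, Lie`.  ODE layer: `Ode*`.  S0310: `P*` and `Ten*`.  S0309: `S*` and `Nine*`.
Rule for takers: do not change a statement silently; if one is false, tell helper74 (messages)
and repair it minimally.  Extra lemmas go into the same file or a new file `<File>Aux.lean`.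
-/

open scoped ContDiff Topology Matrix
open Set Filter
open Crest.GeometryTopology.CoordMetric Crest.GeometryTopology.ChartCurvature

noncomputable section

namespace Crest.Agent.R202

abbrev E (n : ℕ) : Type := EuclideanSpace ℝ (Fin n)
abbrev Mat (n : ℕ) : Type := Matrix (Fin n) (Fin n) ℝ

variable {n : ℕ}

/-- matrix times vector in `E n` -/
def mv (A : Mat n) (x : E n) : E n := WithLp.toLp 2 (A *ᵥ x.ofLp)

/-- the bilinear form of a matrix -/
def bil (A : Mat n) (v w : E n) : ℝ := ∑ i, ∑ j, A i j * v i * w j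

/-- the Ricci form -/
def ric (g : MetricField n) (x v w : E n) : ℝ := ∑ i, ∑ j, ricci g x i j * v i * w j

/-- the orthogonal projection onto the line through `x` (zero for `x = 0`) -/
def prj (x : E n) : Mat n := Matrix.of fun i j => x i * x j / ‖x‖ ^ 2

/-- `g` is Riemannian near `x` -/
def RiemAt (g : MetricField n) (x : E n) : Prop := ∃ U, x ∈ U ∧ IsRiemannianOn g U

/-- entrywise first derivative at `t = 1` of `t ↦ g (t • x)` -/
def rd1 (g : MetricField n) (x : E n) : Mat n :=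
  Matrix.of fun i j => deriv (fun t : ℝ => g (t • x) i j) 1

/-- entrywise second derivative at `t = 1` of `t ↦ g (t • x)` -/
def rd2 (g : MetricField n) (x : E n) : Mat n :=
  Matrix.of fun i j => deriv (deriv (fun t : ℝ => g (t • x) i j)) 1

/-- a smooth family of metrics on the sphere, extended `0`-homogeneously and killing the
radial direction -/
structure Fam {P : Type} [NormedAddCommGroup P] [NormedSpace ℝ P] (H : P → E n → Mat n)
    (O : Set P) : Prop where
  isOpen : IsOpen O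
  smooth : ∀ i j, ContDiffOn ℝ ∞ (fun z : P × E n => H z.1 z.2 i j) (O ×ˢ {x | x ≠ 0})
  hom : ∀ c x (t : ℝ), 0 < t → H c (t • x) = H c x
  rad : ∀ c x, mv (H c x) x = 0
  pos : ∀ c ∈ O, ∀ x, x ≠ 0 → (prj x + H c x).PosDef

/-- the cone `dr² + a² r² h` -/
def cone (a : ℝ) (h : E n → Mat n) : MetricField n := fun y => prj y + a ^ 2 • h y

/-- the metric `dr² + ψ(r)² h_{c r}` -/
def radM {P : Type} (ψ : ℝ → ℝ) (c : ℝ → P) (H : P → E n → Mat n) : MetricField n := fun x =>
  if x = 0 then 1 else prj x + (ψ ‖x‖ / ‖x‖) ^ 2 • H (c ‖x‖) x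

/-- half the logarithm of the volume density of `H c` relative to the round metric -/
def lTh {P : Type} (H : P → E n → Mat n) (c : P) (x : E n) : ℝ :=
  (1 / 2) * Real.log (prj x + H c x).det

/-- The radial profile: `ψ' = β ∘ τ`, `τ' = 1/ψ`. -/
structure Tm (b : ℝ) (β ψ τ : ℝ → ℝ) : Prop where
  b_pos : 0 < b
  b_lt : b < 1
  β_smooth : ContDiff ℝ ∞ β
  β_one : ∀ t ≤ 0, β t = 1
  β_anti : Antitone β
  β_ge : ∀ t, b ≤ β t
  β_lim : Tendsto β atTop (𝓝 b)
  dβ_lim : Tendsto (deriv β) atTop (𝓝 0)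
  dβ_le : ∃ c > 0, ∀ k : ℕ, 1 ≤ k → ∀ t : ℝ, 1 ≤ t → t ≤ (k : ℝ) ^ 14 → c / (k : ℝ) ^ 21 ≤ -deriv β t
  ψ_smooth : ContDiffOn ℝ ∞ ψ (Ioi 0)
  τ_smooth : ContDiffOn ℝ ∞ τ (Ioi 0)
  ψ_eq : ∀ r, 0 < r → r ≤ 1 → ψ r = r
  τ_eq : ∀ r, 0 < r → r ≤ 1 → τ r = Real.log r
  dψ : ∀ r, 0 < r → HasDerivAt ψ (β (τ r)) r
  dτ : ∀ r, 0 < r → HasDerivAt τ (ψ r)⁻¹ r
  ψ_ge : ∀ r, 0 < r → b * r ≤ ψ r
  ψ_le : ∀ r, 0 < r → ψ r ≤ r
  ψ_lim : Tendsto (fun r => ψ r / r) atTop (𝓝 b)
  τ_lim : Tendsto τ atTop atTop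
  τ_surj : ∀ t, ∃ r, 0 < r ∧ τ r = t
  τ_le : ∀ r, 1 ≤ r → Real.exp (b * τ r) ≤ r

/-- Euclidean divergence -/
def dv (V : E n → E n) (x : E n) : ℝ := ∑ i, pderiv i (fun y => V y i) x

/-- Euclidean gradient -/
def grd (f : E n → ℝ) (x : E n) : E n := WithLp.toLp 2 fun i => pderiv i f x

/-- an orthogonal complex structure -/
def IsCx (J : Mat n) : Prop := Jᵀ = -J ∧ J * J = -1

@[simp] theorem mv_apply (A : Mat n) (x : E n) (i : Fin n) : mv A x i = ∑ j, A i j * x j := rfl

@[simp] theorem prj_apply (x : E n) (i j : Fin n) : prj x i j = x i * x j / ‖x‖ ^ 2 := rfl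

end Crest.Agent.R202
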