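import Crest.Agent.R202.Defs

/-!
# R202/Dist: distance from the origin, completeness, asymptotic volume ratio

`Crest/Agent/R236/Geom.lean` has similar lemmas (`riemDist_le`, `norm_le_riemDist`); copy what
you need.
-/

open scoped ContDiff Topology Matrix RealInnerProductSpace
open Set Filter MeasureTheory
open Crest.GeometryTopology.CoordMetric Crest.GeometryTopology.ChartCurvature

noncomputable section

namespace Crest.Agent.R202

variable {n : ℕ}

theorem Dist_cont_entry {g : MetricField n} (hg : IsRiemannianOn g univ) (i j : Fin n) :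
    Continuous fun x => g x i j :=
  continuousOn_univ.mp (hg.contDiffOn i j).continuousOn

theorem Dist_cont_speed {g : MetricField n} (hg : IsRiemannianOn g univ) {γ : ℝ → E n}
    (hγ : ContDiff ℝ 1 γ) : Continuous fun t => Real.sqrt (quadForm g (γ t) (deriv γ t)) := by
  have h1 : Continuous γ := hγ.continuous
  have h2 : Continuous (deriv γ) := hγ.continuous_deriv le_rfl
  refine Real.continuous_sqrt.comp ?_
  unfold quadForm
  refine continuous_finsetSum _ fun i _ => continuous_finsetSum _ fun j _ => ?_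
  exact (((Dist_cont_entry hg i j).comp h1).mul (by fun_prop)).mul (by fun_prop)

theorem Dist_len_nonneg (g : MetricField n) (γ : ℝ → E n) : 0 ≤ curveLength g γ :=
  intervalIntegral.integral_nonneg zero_le_one fun _ _ => Real.sqrt_nonneg _

theorem Dist_nonneg (g : MetricField n) (x y : E n) : 0 ≤ riemDist g univ x y :=
  Real.iInf_nonneg fun γ => Dist_len_nonneg g γ.1

theorem Dist_seg_deriv (x v : E n) (t : ℝ) : HasDerivAt (fun s : ℝ => x + s • v) v t := by
  simpa using ((hasDerivAt_id t).smul_const v).const_add x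

/-- the segment from `x` to `y` -/
def Dist_seg (x y : E n) : AdmissiblePath (univ : Set (E n)) x y :=
  ⟨fun s => x + s • (y - x), by fun_prop, by simp, by simp, fun _ _ => mem_univ _⟩

theorem Dist_le_seg {g : MetricField n} (hg : IsRiemannianOn g univ) (x y : E n) {a : ℝ}
    (h : ∀ t ∈ Ioo (0 : ℝ) 1, Real.sqrt (quadForm g (x + t • (y - x)) (y - x)) ≤ a) :
    riemDist g univ x y ≤ a := by
  refine le_trans (ciInf_le ⟨0, ?_⟩ (Dist_seg x y)) ?_
  · rintro _ ⟨γ, rfl⟩
    exact Dist_len_nonneg g γ.1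
  · have h1 := intervalIntegral.integral_mono_on_of_le_Ioo (μ := volume) (g := fun _ => a)
      zero_le_one ((Dist_cont_speed hg (Dist_seg x y).2.1).intervalIntegrable 0 1)
      intervalIntegrable_const (fun t ht => by
        have e : deriv (Dist_seg x y).1 t = y - x := (Dist_seg_deriv x (y - x) t).deriv
        rw [e]
        exact h t ht)
    simpa [curveLength] using h1

theorem Dist_ge {g : MetricField n} (hg : IsRiemannianOn g univ) (φ : E n → ℝ)
    (h : ∀ (γ : ℝ → E n) (t : ℝ) (v : E n), HasDerivAt γ v t →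
      ∃ d, HasDerivAt (fun s => φ (γ s)) d t ∧ d ≤ Real.sqrt (quadForm g (γ t) v)) (x y : E n) :
    φ y - φ x ≤ riemDist g univ x y := by
  have : Nonempty (AdmissiblePath (univ : Set (E n)) x y) := ⟨Dist_seg x y⟩
  refine le_ciInf fun γ => ?_
  obtain ⟨γ, hγ, h0, h1, -⟩ := γ
  have hd : ∀ t, HasDerivAt γ (deriv γ t) t := fun t =>
    (hγ.differentiable one_ne_zero t).hasDerivAt
  choose d hd1 hd2 using fun t => h γ t _ (hd t)
  have := intervalIntegral.sub_le_integral_of_hasDeriv_right_of_le (g := fun s => φ (γ s)) (g' := d)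
    (φ := fun t => Real.sqrt (quadForm g (γ t) (deriv γ t))) zero_le_one
    (fun t _ => (hd1 t).continuousAt.continuousWithinAt) (fun t _ => (hd1 t).hasDerivWithinAt)
    ((Dist_cont_speed hg hγ).integrableOn_Icc) (fun t _ => hd2 t)
  simp only [h0, h1] at this
  exact this

theorem Dist_quad_nonneg {A : Mat n} (hA : A.PosDef) (v : E n) : 0 ≤ bil A v v := by
  have h := hA.posSemidef.dotProduct_mulVec_nonneg v.ofLp
  refine h.trans (le_of_eq ?_)
  simp only [bil, dotProduct, Matrix.mulVec, star_trivial, Finset.mul_sum]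
  exact Finset.sum_congr rfl fun i _ => Finset.sum_congr rfl fun j _ => by ring

theorem Dist_bil_mv (A : Mat n) (v w : E n) : bil A v w = ⟪mv A w, v⟫ := by
  simp only [bil, PiLp.inner_apply, mv_apply, RCLike.inner_apply, conj_trivial, Finset.mul_sum]
  exact Finset.sum_congr rfl fun i _ => Finset.sum_congr rfl fun j _ => by ring

theorem Dist_bil_symm {A : Mat n} (hA : A.PosDef) (v w : E n) : bil A v w = bil A w v := by
  unfold bil
  rw [Finset.sum_comm]
  refine Finset.sum_congr rfl fun i _ => Finset.sum_congr rfl fun j _ => ?_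
  have := hA.isHermitian.apply i j
  rw [star_trivial] at this
  rw [this]
  ring

theorem Dist_bil_expand (A : Mat n) (v w : E n) (t : ℝ) :
    bil A (v + t • w) (v + t • w) = bil A v v + t * (bil A v w + bil A w v) + t ^ 2 * bil A w w := by
  simp only [bil, PiLp.add_apply, PiLp.smul_apply, smul_eq_mul, Finset.mul_sum,
    ← Finset.sum_add_distrib]
  exact Finset.sum_congr rfl fun i _ => Finset.sum_congr rfl fun j _ => by ring

theorem Dist_cs {A : Mat n} (hA : A.PosDef) {y : E n} (hy : mv A y = y) (v : E n) :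
    ⟪y, v⟫ ^ 2 ≤ ‖y‖ ^ 2 * bil A v v := by
  have e1 : bil A v y = ⟪y, v⟫ := by rw [Dist_bil_mv, hy]
  have e2 : bil A y y = ‖y‖ ^ 2 := by rw [Dist_bil_mv, hy, real_inner_self_eq_norm_sq]
  have h := discrim_le_zero (a := ‖y‖ ^ 2) (b := 2 * ⟪y, v⟫) (c := bil A v v) fun t => by
    have := Dist_quad_nonneg hA (v + t • y)
    rw [Dist_bil_expand, Dist_bil_symm hA y v, e1, e2] at this
    linarith
  unfold discrim at h
  linarith

/-- `≤`: the segment `t ↦ t • x` has speed `|x|` for `t ≠ 0`.  `≥`: Cauchy–Schwarz for `g y` gives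
`⟨y,v⟩² ≤ |y|² g_y(v,v)`, so the `C¹` function `√(|γ|² + ε²)` has derivative `≤` the speed. -/
theorem riemDist_zero {g : MetricField n} (hg : IsRiemannianOn g univ)
    (hr : ∀ y, mv (g y) y = y) (x : E n) : riemDist g univ 0 x = ‖x‖ := by
  apply le_antisymm
  · refine Dist_le_seg hg 0 x fun t ht => ?_
    have h1 := hr (t • x)
    have h2 : mv (g (t • x)) x = x := by
      ext i
      have := congrArg (fun z : E n => z i) h1
      simp only [mv_apply, PiLp.smul_apply, smul_eq_mul] at this ⊢
      apply mul_left_cancel₀ ht.1.ne'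
      rw [← this, Finset.mul_sum]
      exact Finset.sum_congr rfl fun j _ => by ring
    have e : quadForm g (0 + t • (x - 0)) (x - 0) = ‖x‖ ^ 2 := by
      rw [zero_add, sub_zero]
      change bil (g (t • x)) x x = _
      rw [Dist_bil_mv, h2, real_inner_self_eq_norm_sq]
    rw [e, Real.sqrt_sq (norm_nonneg _)]
  · refine le_of_forall_pos_le_add fun ε hε => ?_
    have h := Dist_ge hg (fun y => Real.sqrt (‖y‖ ^ 2 + ε ^ 2)) (fun γ t v hγ => by
      have hpos : 0 < ‖γ t‖ ^ 2 + ε ^ 2 := by positivity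
      refine ⟨_, (hγ.norm_sq.add_const (ε ^ 2)).sqrt hpos.ne', ?_⟩
      have hs : 0 < Real.sqrt (‖γ t‖ ^ 2 + ε ^ 2) := Real.sqrt_pos.mpr hpos
      have hq := Dist_quad_nonneg (hg.posDef (γ t) (mem_univ _)) v
      have hcs := Dist_cs (hg.posDef (γ t) (mem_univ _)) (hr (γ t)) v
      rw [mul_div_mul_left _ _ two_ne_zero, div_le_iff₀ hs]
      change _ ≤ Real.sqrt (bil (g (γ t)) v v) * _
      rw [← Real.sqrt_mul hq]
      refine Real.le_sqrt_of_sq_le ?_
      nlinarith [sq_nonneg ε]) 0 x
    simp only [norm_zero, ne_eq, OfNat.ofNat_ne_zero, not_false_eq_true, zero_pow, zero_add,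
      Real.sqrt_sq hε.le] at h
    have h2 : ‖x‖ ≤ Real.sqrt (‖x‖ ^ 2 + ε ^ 2) := Real.le_sqrt_of_sq_le (by nlinarith [sq_nonneg ε])
    linarith

theorem Dist_lower {g : MetricField n} (hg : IsRiemannianOn g univ) {c : ℝ} (hc : 0 < c)
    (hl : ∀ y v, c * ‖v‖ ^ 2 ≤ quadForm g y v) (x y : E n) :
    Real.sqrt c * ‖y - x‖ ≤ riemDist g univ x y := by
  have h := Dist_ge hg (fun z => Real.sqrt c / ‖y - x‖ * ⟪y - x, z⟫) (fun γ t v hγ => by
    refine ⟨_, ((hasDerivAt_const t (y - x)).inner ℝ hγ).const_mul _, ?_⟩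
    have h1 : Real.sqrt c * ‖v‖ ≤ Real.sqrt (quadForm g (γ t) v) := by
      refine Real.le_sqrt_of_sq_le ?_
      rw [mul_pow, Real.sq_sqrt hc.le]
      exact hl _ _
    refine le_trans ?_ h1
    rw [inner_zero_left, add_zero]
    by_cases h0 : ‖y - x‖ = 0
    · rw [h0, div_zero, zero_mul]
      positivity
    · have hp : 0 < ‖y - x‖ := lt_of_le_of_ne (norm_nonneg _) (Ne.symm h0)
      calc Real.sqrt c / ‖y - x‖ * ⟪y - x, v⟫ ≤ Real.sqrt c / ‖y - x‖ * (‖y - x‖ * ‖v‖) :=
            mul_le_mul_of_nonneg_left (real_inner_le_norm _ _) (by positivity)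
        _ = Real.sqrt c * ‖v‖ := by field_simp) x y
  refine le_trans (le_of_eq ?_) h
  rw [← mul_sub, ← inner_sub_right, real_inner_self_eq_norm_sq]
  by_cases h0 : ‖y - x‖ = 0
  · simp [h0]
  · field_simp

theorem Dist_upper {g : MetricField n} (hg : IsRiemannianOn g univ) (p : E n) :
    ∃ M : ℝ, ∀ x, ‖x - p‖ ≤ 1 → riemDist g univ x p ≤ M * ‖x - p‖ := by
  have hc : Continuous fun x => ∑ i, ∑ j, |g x i j| :=
    continuous_finsetSum _ fun i _ => continuous_finsetSum _ fun j _ =>
      (Dist_cont_entry hg i j).abs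
  obtain ⟨B, hB⟩ := (isCompact_closedBall p 1).bddAbove_image hc.continuousOn
  refine ⟨Real.sqrt B, fun x hx => Dist_le_seg hg x p fun t ht => ?_⟩
  have hm : x + t • (p - x) ∈ Metric.closedBall p 1 :=
    (convex_closedBall p 1).add_smul_sub_mem (mem_closedBall_iff_norm.mpr hx)
      (Metric.mem_closedBall_self zero_le_one) (Ioo_subset_Icc_self ht)
  have h1 : ∑ i, ∑ j, |g (x + t • (p - x)) i j| ≤ B := hB ⟨_, hm, rfl⟩
  have hB0 : 0 ≤ B := le_trans (by positivity) h1
  rw [norm_sub_rev x p, ← Real.sqrt_sq (norm_nonneg (p - x)), ← Real.sqrt_mul hB0]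
  refine Real.sqrt_le_sqrt (le_trans ?_ (mul_le_mul_of_nonneg_right h1 (sq_nonneg _)))
  unfold quadForm
  simp only [Finset.sum_mul]
  refine Finset.sum_le_sum fun i _ => Finset.sum_le_sum fun j _ => ?_
  have a1 : |(p - x) i| ≤ ‖p - x‖ := PiLp.norm_apply_le (p - x) i
  have a2 : |(p - x) j| ≤ ‖p - x‖ := PiLp.norm_apply_le (p - x) j
  refine (le_abs_self _).trans ?_
  rw [abs_mul, abs_mul, mul_assoc, sq]
  exact mul_le_mul_of_nonneg_left (mul_le_mul a1 a2 (abs_nonneg _) (norm_nonneg _)) (abs_nonneg _)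

theorem complete_of_lower {g : MetricField n} (hg : IsRiemannianOn g univ) {c : ℝ} (hc : 0 < c)
    (hl : ∀ y v, c * ‖v‖ ^ 2 ≤ quadForm g y v) : IsCompleteOn g univ := by
  intro x _ hx
  have hs : 0 < Real.sqrt c := Real.sqrt_pos.mpr hc
  have hcau : CauchySeq x := by
    rw [Metric.cauchySeq_iff]
    intro ε hε
    obtain ⟨N, hN⟩ := hx (Real.sqrt c * ε) (by positivity)
    refine ⟨N, fun k hk l hl' => ?_⟩
    have h1 := (Dist_lower hg hc hl (x l) (x k)).trans_lt (hN l hl' k hk)
    rw [dist_eq_norm]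
    exact lt_of_mul_lt_mul_left h1 hs.le
  obtain ⟨p, hp⟩ := cauchySeq_tendsto_of_complete hcau
  refine ⟨p, mem_univ _, ?_⟩
  obtain ⟨M, hM⟩ := Dist_upper hg p
  have h1 : Tendsto (fun k => ‖x k - p‖) atTop (𝓝 0) := tendsto_iff_norm_sub_tendsto_zero.mp hp
  have h2 : Tendsto (fun k => M * ‖x k - p‖) atTop (𝓝 0) := by
    simpa using h1.const_mul M
  refine squeeze_zero' (Eventually.of_forall fun k => Dist_nonneg g _ _) ?_ h2
  filter_upwards [h1.eventually (ge_mem_nhds one_pos)] with k hk
  exact hM _ hk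

/-- balls are Euclidean balls; split the integral of `√det g - v` at a large radius -/
theorem avr_of_tendsto {g : MetricField n} (hn : 1 ≤ n) (hg : IsRiemannianOn g univ)
    (hd : ∀ x, riemDist g univ 0 x = ‖x‖) {v : ℝ}
    (hv : ∀ ε > 0, ∃ R, ∀ x : E n, R ≤ ‖x‖ → |Real.sqrt (g x).det - v| ≤ ε) :
    HasAsymptoticVolumeRatio g v := by
  set f : E n → ℝ := fun x => Real.sqrt (g x).det with hf
  have hgc : Continuous g := continuous_matrix fun i j => Dist_cont_entry hg i j
  have hfc : Continuous f := Real.continuous_sqrt.comp hgc.matrix_det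
  have hint : ∀ {u : E n → ℝ}, Continuous u → ∀ R : ℝ, IntegrableOn u (Metric.ball (0 : E n) R) :=
    fun hu R => (hu.continuousOn.integrableOn_compact (isCompact_closedBall (0 : E n) R)).mono_set
      Metric.ball_subset_closedBall
  set om : ℝ := (volume (Metric.ball (0 : E n) 1)).toReal with hom
  have hom0 : 0 < om :=
    ENNReal.toReal_pos (Metric.measure_ball_pos volume _ one_pos).ne' measure_ball_lt_top.ne
  have hvol : ∀ R : ℝ, 0 < R → (volume : Measure (E n)).real (Metric.ball 0 R) = om * R ^ n := by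
    intro R hR
    rw [Measure.real, Measure.addHaar_ball_of_pos _ _ hR, ENNReal.toReal_mul,
      ENNReal.toReal_ofReal (by positivity), finrank_euclideanSpace, Fintype.card_fin, mul_comm]
  have hball : ∀ R : ℝ, (riemVolume g (riemBall g 0 R)).toReal = ∫ x in Metric.ball (0 : E n) R, f x := by
    intro R
    have e : riemBall g 0 R = Metric.ball 0 R := by
      ext x
      simp [riemBall, hd]
    rw [e, riemVolume, ← ofReal_integral_eq_lintegral_ofReal (hint hfc R)
      (Eventually.of_forall fun x => Real.sqrt_nonneg _),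
      ENNReal.toReal_ofReal (integral_nonneg fun x => Real.sqrt_nonneg _)]
  unfold HasAsymptoticVolumeRatio
  simp only [hball, ← hom]
  rw [Metric.tendsto_atTop]
  intro ε hε
  obtain ⟨R₀, hR₀⟩ := hv (ε / 2) (half_pos hε)
  have huc : Continuous fun x => |f x - v| := (hfc.sub continuous_const).abs
  set K : ℝ := ∫ x in Metric.ball (0 : E n) R₀, |f x - v| with hK
  have hlim : Tendsto (fun R : ℝ => K / (om * R ^ n)) atTop (𝓝 0) :=
    tendsto_const_nhds.div_atTop
      ((tendsto_pow_atTop (by omega : n ≠ 0)).const_mul_atTop hom0)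
  obtain ⟨R₁, hR₁⟩ := eventually_atTop.mp (hlim.eventually (gt_mem_nhds (half_pos hε)))
  refine ⟨max R₁ 1, fun R hR => ?_⟩
  have hRpos : 0 < R := lt_of_lt_of_le one_pos ((le_max_right _ _).trans hR)
  have hD : 0 < om * R ^ n := by positivity
  have h1 := hR₁ R ((le_max_left _ _).trans hR)
  have hind : Integrable ((Metric.ball (0 : E n) R₀).indicator fun x => |f x - v|) :=
    (integrable_indicator_iff measurableSet_ball).mpr (hint huc R₀)
  have e1 : (∫ x in Metric.ball (0 : E n) R, f x) - v * (om * R ^ n) =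
      ∫ x in Metric.ball (0 : E n) R, (f x - v) := by
    rw [integral_sub (hint hfc R) (hint continuous_const R), setIntegral_const, hvol R hRpos,
      smul_eq_mul, mul_comm v]
  have e2 : |∫ x in Metric.ball (0 : E n) R, (f x - v)| ≤ ε / 2 * (om * R ^ n) + K := by
    calc |∫ x in Metric.ball (0 : E n) R, (f x - v)|
        ≤ ∫ x in Metric.ball (0 : E n) R, |f x - v| := abs_integral_le_integral_abs
      _ ≤ ∫ x in Metric.ball (0 : E n) R,
            (ε / 2 + (Metric.ball (0 : E n) R₀).indicator (fun x => |f x - v|) x) := by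
          refine integral_mono (hint huc R) ((hint continuous_const R).add hind.integrableOn)
            fun x => ?_
          by_cases hx : x ∈ Metric.ball (0 : E n) R₀
          · simp only [indicator_of_mem hx]
            linarith
          · simp only [indicator_of_notMem hx, add_zero]
            exact hR₀ x (by simpa using hx)
      _ = ε / 2 * (om * R ^ n) + ∫ x in Metric.ball (0 : E n) R,
            (Metric.ball (0 : E n) R₀).indicator (fun x => |f x - v|) x := by
          rw [integral_add (hint continuous_const R) hind.integrableOn, setIntegral_const,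
            hvol R hRpos, smul_eq_mul, mul_comm]
      _ ≤ ε / 2 * (om * R ^ n) + K := by
          refine add_le_add le_rfl ?_
          rw [hK, ← integral_indicator (μ := volume) (s := Metric.ball (0 : E n) R₀)
            measurableSet_ball]
          exact setIntegral_le_integral hind
            (Eventually.of_forall fun x => indicator_nonneg (fun _ _ => abs_nonneg _) x)
  rw [Real.dist_eq, div_sub' hD.ne', abs_div, abs_of_pos hD, div_lt_iff₀ hD, mul_comm _ v, e1]
  rw [div_lt_iff₀ hD] at h1
  linarith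

end Crest.Agent.R202
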