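import Crest.Agent.R202.Defs

/-!
# R202/FamilyAux: general calculus lemmas for `Family` (2-jets, Lipschitz bounds near a compact
set, Jacobi's formula, smoothness of determinant and inverse)
-/

open scoped ContDiff Topology Matrix
open Set Filter Metric

noncomputable section

namespace Crest.Agent.R202

section Jet

variable {A B C : Type} [NormedAddCommGroup A] [NormedSpace ℝ A] [NormedAddCommGroup B]
  [NormedSpace ℝ B] [NormedAddCommGroup C] [NormedSpace ℝ C]

/-- two `C²` germs with the same 2-jet -/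
structure FJet (u u' : A → B) (x : A) : Prop where
  s : ContDiffAt ℝ 2 u x
  s' : ContDiffAt ℝ 2 u' x
  j0 : u x = u' x
  j1 : fderiv ℝ u x = fderiv ℝ u' x
  j2 : fderiv ℝ (fderiv ℝ u) x = fderiv ℝ (fderiv ℝ u') x

theorem FJet.refl {u : A → B} {x : A} (h : ContDiffAt ℝ 2 u x) : FJet u u x :=
  ⟨h, h, rfl, rfl, rfl⟩

theorem famAux_ev_diff {u : A → B} {x : A} (h : ContDiffAt ℝ 2 u x) :
    ∀ᶠ y in 𝓝 x, DifferentiableAt ℝ u y := by
  have h1 : ∀ᶠ y in 𝓝 x, ContDiffAt ℝ 2 u y := h.eventually (by simp)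
  filter_upwards [h1] with y hy using hy.differentiableAt (by simp)

theorem famAux_diff_fderiv {u : A → B} {x : A} (h : ContDiffAt ℝ 2 u x) :
    DifferentiableAt ℝ (fderiv ℝ u) x :=
  (h.fderiv_right (m := 1) (by norm_num)).differentiableAt (by simp)

theorem famAux_fderiv2_comp {u : A → B} {F : B → C} {x : A} (hu : ContDiffAt ℝ 2 u x)
    (hF : ContDiffAt ℝ 2 F (u x)) :
    fderiv ℝ (fderiv ℝ (F ∘ u)) x
      = ((ContinuousLinearMap.compL ℝ A B C (fderiv ℝ F (u x))).comp (fderiv ℝ (fderiv ℝ u) x)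
        + ((ContinuousLinearMap.compL ℝ A B C).flip (fderiv ℝ u x)).comp
          ((fderiv ℝ (fderiv ℝ F) (u x)).comp (fderiv ℝ u x))) := by
  have h1 : fderiv ℝ (F ∘ u) =ᶠ[𝓝 x] fun y => (fderiv ℝ F (u y)).comp (fderiv ℝ u y) := by
    filter_upwards [famAux_ev_diff hu, hu.continuousAt.eventually (famAux_ev_diff hF)] with y h1 h2
    exact fderiv_comp y h2 h1
  rw [h1.fderiv_eq]
  have h2 : HasFDerivAt (fun y => fderiv ℝ F (u y))
      ((fderiv ℝ (fderiv ℝ F) (u x)).comp (fderiv ℝ u x)) x :=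
    (famAux_diff_fderiv hF).hasFDerivAt.comp x (hu.differentiableAt (by simp)).hasFDerivAt
  exact (h2.clm_comp (famAux_diff_fderiv hu).hasFDerivAt).fderiv

theorem FJet.comp {u u' : A → B} {F F' : B → C} {x : A} (hF : FJet F F' (u x))
    (hu : FJet u u' x) : FJet (F ∘ u) (F' ∘ u') x := by
  have hF' : ContDiffAt ℝ 2 F' (u' x) := hu.j0 ▸ hF.s'
  refine ⟨hF.s.comp x hu.s, hF'.comp x hu.s', ?_, ?_, ?_⟩
  · simp only [Function.comp, ← hu.j0, hF.j0]
  · rw [fderiv_comp x (hF.s.differentiableAt (by simp)) (hu.s.differentiableAt (by simp)),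
      fderiv_comp x (hF'.differentiableAt (by simp)) (hu.s'.differentiableAt (by simp)),
      ← hu.j0, hF.j1, hu.j1]
  · rw [famAux_fderiv2_comp hu.s hF.s, famAux_fderiv2_comp hu.s' hF', ← hu.j0, hF.j1, hF.j2,
      hu.j1, hu.j2]

theorem famAux_fderiv2_add {u w : A → B} {x : A} (hu : ContDiffAt ℝ 2 u x)
    (hw : ContDiffAt ℝ 2 w x) :
    fderiv ℝ (fderiv ℝ (fun y => u y + w y)) x
      = fderiv ℝ (fderiv ℝ u) x + fderiv ℝ (fderiv ℝ w) x := by
  have h1 : fderiv ℝ (fun y => u y + w y) =ᶠ[𝓝 x] fun y => fderiv ℝ u y + fderiv ℝ w y := by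
    filter_upwards [famAux_ev_diff hu, famAux_ev_diff hw] with y h1 h2
    exact fderiv_fun_add h1 h2
  rw [h1.fderiv_eq]
  exact fderiv_fun_add (famAux_diff_fderiv hu) (famAux_diff_fderiv hw)

theorem FJet.add {u u' w w' : A → B} {x : A} (hu : FJet u u' x) (hw : FJet w w' x) :
    FJet (fun y => u y + w y) (fun y => u' y + w' y) x := by
  refine ⟨hu.s.add hw.s, hu.s'.add hw.s', by rw [hu.j0, hw.j0], ?_, ?_⟩
  · rw [fderiv_fun_add (hu.s.differentiableAt (by simp)) (hw.s.differentiableAt (by simp)),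
      fderiv_fun_add (hu.s'.differentiableAt (by simp)) (hw.s'.differentiableAt (by simp)),
      hu.j1, hw.j1]
  · rw [famAux_fderiv2_add hu.s hw.s, famAux_fderiv2_add hu.s' hw.s', hu.j2, hw.j2]

theorem FJet.prodMk {u u' : A → B} {w w' : A → C} {x : A} (hu : FJet u u' x) (hw : FJet w w' x) :
    FJet (fun y => (u y, w y)) (fun y => (u' y, w' y)) x := by
  have h1 : FJet ((ContinuousLinearMap.inl ℝ B C) ∘ u) ((ContinuousLinearMap.inl ℝ B C) ∘ u') x :=
    (FJet.refl (ContinuousLinearMap.inl ℝ B C).contDiff.contDiffAt).comp hu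
  have h2 : FJet ((ContinuousLinearMap.inr ℝ B C) ∘ w) ((ContinuousLinearMap.inr ℝ B C) ∘ w') x :=
    (FJet.refl (ContinuousLinearMap.inr ℝ B C).contDiff.contDiffAt).comp hw
  simpa using h1.add h2

theorem famAux_diff_deriv {u : ℝ → B} {x : ℝ} (h : ContDiffAt ℝ 2 u x) :
    DifferentiableAt ℝ (deriv u) x := by
  have h1 : deriv u = fun y => fderiv ℝ u y 1 := rfl
  rw [h1]
  exact (famAux_diff_fderiv h).clm_apply (differentiableAt_const _)

theorem FJet.of_deriv {u u' : ℝ → B} {x : ℝ} (hu : ContDiffAt ℝ 2 u x) (hu' : ContDiffAt ℝ 2 u' x)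
    (h0 : u x = u' x) (h1 : deriv u x = deriv u' x)
    (h2 : deriv (deriv u) x = deriv (deriv u') x) : FJet u u' x := by
  refine ⟨hu, hu', h0, ?_, ?_⟩
  · ext; simpa using h1
  · have key : ∀ w : ℝ → B, ContDiffAt ℝ 2 w x →
        fderiv ℝ (fderiv ℝ w) x 1 1 = deriv (deriv w) x := fun w hw => by
      have h3 : deriv w = fun y => fderiv ℝ w y 1 := rfl
      rw [h3, deriv, fderiv_clm_apply (famAux_diff_fderiv hw) (differentiableAt_const _)]
      simp
    ext
    rw [key u hu, key u' hu', h2]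

/-- A `C¹` function is uniformly Lipschitz near the points of a compact set. -/
theorem famAux_lip {f : A → B} {S : Set A} (hS : IsCompact S)
    (hf : ∀ z ∈ S, ContDiffAt ℝ 1 f z) :
    ∃ δ > 0, ∃ L : ℝ, 0 ≤ L ∧ ∀ z₀ ∈ S, ∀ z z', ‖z - z₀‖ ≤ δ → ‖z' - z₀‖ ≤ δ →
      ‖f z - f z'‖ ≤ L * ‖z - z'‖ := by
  have key : ∃ δ > 0, ∃ L : NNReal, ∀ z₀ ∈ S, LipschitzOnWith L f (closedBall z₀ δ) := by
    refine hS.induction_on
      (p := fun s => ∃ δ > 0, ∃ L : NNReal, ∀ z₀ ∈ s, LipschitzOnWith L f (closedBall z₀ δ))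
      ⟨1, one_pos, 0, fun _ h => h.elim⟩ ?_ ?_ ?_
    · rintro s t hst ⟨δ, hδ, L, h⟩
      exact ⟨δ, hδ, L, fun z hz => h z (hst hz)⟩
    · rintro s t ⟨δ, hδ, L, h⟩ ⟨δ', hδ', L', h'⟩
      refine ⟨min δ δ', lt_min hδ hδ', max L L', ?_⟩
      rintro z (hz | hz)
      · exact ((h z hz).mono (closedBall_subset_closedBall (min_le_left _ _))).weaken
          (le_max_left _ _)
      · exact ((h' z hz).mono (closedBall_subset_closedBall (min_le_right _ _))).weaken
          (le_max_right _ _)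
    · intro x hx
      obtain ⟨L, t, ht, hL⟩ := (hf x hx).exists_lipschitzOnWith
      obtain ⟨ρ, hρ, hρt⟩ := Metric.mem_nhds_iff.1 ht
      refine ⟨ball x (ρ / 2), mem_nhdsWithin_of_mem_nhds (ball_mem_nhds x (half_pos hρ)),
        ρ / 4, by positivity, L, fun z hz => hL.mono fun y hy => hρt ?_⟩
      rw [mem_ball] at hz ⊢
      rw [mem_closedBall] at hy
      linarith [dist_triangle y z x]
  obtain ⟨δ, hδ, L, h⟩ := key
  refine ⟨δ, hδ, L, L.2, fun z₀ hz₀ z z' hz hz' => ?_⟩
  have := (h z₀ hz₀).dist_le_mul z (by rwa [mem_closedBall, dist_eq_norm]) z'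
    (by rwa [mem_closedBall, dist_eq_norm])
  rwa [dist_eq_norm, dist_eq_norm] at this

end Jet

section Det

open Matrix

variable {ι : Type} [Fintype ι] [DecidableEq ι]

/-- Jacobi's formula (copied from `R72/Deriv`). -/
theorem famAux_hasDerivAt_det {X : ℝ → Matrix ι ι ℝ} {X' : Matrix ι ι ℝ} {r : ℝ}
    (h : ∀ i j, HasDerivAt (fun s => X s i j) (X' i j) r) :
    HasDerivAt (fun s => (X s).det) ((adjugate (X r) * X').trace) r := by
  have h1 : HasDerivAt
      (fun s => ∑ σ : Equiv.Perm ι, ((Equiv.Perm.sign σ : ℤ) : ℝ) * ∏ i, X s (σ i) i)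
      (∑ σ : Equiv.Perm ι, ((Equiv.Perm.sign σ : ℤ) : ℝ) *
        ∑ i, (∏ j ∈ Finset.univ.erase i, X r (σ j) j) • X' (σ i) i) r :=
    HasDerivAt.fun_sum fun σ _ =>
      (HasDerivAt.fun_finsetProd (f := fun i s => X s (σ i) i) fun i _ => h (σ i) i).const_mul _
  have h2 : (adjugate (X r) * X').trace = ∑ σ : Equiv.Perm ι, ((Equiv.Perm.sign σ : ℤ) : ℝ) *
      ∑ i, (∏ j ∈ Finset.univ.erase i, X r (σ j) j) • X' (σ i) i := by
    simp only [Finset.mul_sum]
    rw [Finset.sum_comm]
    refine Finset.sum_congr rfl fun i _ => ?_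
    have h3 : (adjugate (X r) * X').diag i = cramer (X r) (fun k => X' k i) i := by
      rw [cramer_eq_adjugate_mulVec]
      rfl
    rw [h3, cramer_apply, det_apply']
    refine Finset.sum_congr rfl fun σ _ => ?_
    congr 1
    rw [← Finset.mul_prod_erase _ _ (Finset.mem_univ i), updateCol_self, smul_eq_mul, mul_comm]
    congr 1
    exact Finset.prod_congr rfl fun j hj => updateCol_ne (Finset.mem_erase.1 hj).1
  rw [h2]
  simpa only [det_apply'] using h1

theorem famAux_hasDerivAt_log_det {X : ℝ → Matrix ι ι ℝ} {X' : Matrix ι ι ℝ} {r : ℝ}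
    (h : ∀ i j, HasDerivAt (fun s => X s i j) (X' i j) r) (hd : (X r).det ≠ 0) :
    HasDerivAt (fun s => Real.log (X s).det) (((X r)⁻¹ * X').trace) r := by
  have h1 := (famAux_hasDerivAt_det h).log hd
  convert h1 using 1
  rw [inv_def, Ring.inverse_eq_inv', smul_mul_assoc, trace_smul, smul_eq_mul, div_eq_inv_mul]

variable {A : Type} [NormedAddCommGroup A] [NormedSpace ℝ A]

theorem famAux_contDiffAt_det {M : A → Matrix ι ι ℝ} {x : A}
    (h : ∀ i j, ContDiffAt ℝ ∞ (fun y => M y i j) x) :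
    ContDiffAt ℝ ∞ (fun y => (M y).det) x := by
  simp only [Matrix.det_apply']
  exact ContDiffAt.sum fun σ _ => contDiffAt_const.mul (contDiffAt_prod fun i _ => h _ _)

theorem famAux_contDiffAt_inv {M : A → Matrix ι ι ℝ} {x : A}
    (h : ∀ i j, ContDiffAt ℝ ∞ (fun y => M y i j) x) (hd : (M x).det ≠ 0) (i j : ι) :
    ContDiffAt ℝ ∞ (fun y => (M y)⁻¹ i j) x := by
  have h1 : ContDiffAt ℝ ∞ (fun y => ((M y).updateRow j (Pi.single i 1)).det) x := by
    refine famAux_contDiffAt_det fun a b => ?_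
    simp only [Matrix.updateRow_apply]
    split_ifs
    · exact contDiffAt_const
    · exact h a b
  have h2 := ((famAux_contDiffAt_det h).inv hd).mul h1
  simp only [inv_def, Ring.inverse_eq_inv', Matrix.smul_apply, adjugate_apply, smul_eq_mul]
  exact h2

end Det

section Alg

variable {n : ℕ} {P : Type} [NormedAddCommGroup P] [NormedSpace ℝ P]

theorem family_norm_sq (x : E n) : ‖x‖ ^ 2 = ∑ i, x i * x i := by
  rw [EuclideanSpace.norm_sq_eq]
  exact Finset.sum_congr rfl fun i _ => by rw [Real.norm_eq_abs, sq_abs, sq]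

theorem family_prj_transpose (x : E n) : (prj x)ᵀ = prj x := by
  ext i j; simp [mul_comm]

theorem family_mul_prj {x : E n} {K : Mat n} (hr : mv K x = 0) : K * prj x = 0 := by
  ext i j
  have h := congrArg (fun v : E n => v i) hr
  simp only [mv_apply, PiLp.zero_apply] at h
  simp only [Matrix.mul_apply, prj_apply, Matrix.zero_apply]
  calc ∑ k, K i k * (x k * x j / ‖x‖ ^ 2) = (∑ k, K i k * x k) * (x j / ‖x‖ ^ 2) := by
        rw [Finset.sum_mul]; exact Finset.sum_congr rfl fun k _ => by ring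
    _ = 0 := by rw [h, zero_mul]

theorem family_prj_mul {x : E n} {K : Mat n} (hK : Kᵀ = K) (hr : mv K x = 0) :
    prj x * K = 0 := by
  have h := congrArg Matrix.transpose (family_mul_prj hr)
  rwa [Matrix.transpose_mul, family_prj_transpose, hK, Matrix.transpose_zero] at h

theorem family_mv_prj {x : E n} (hx : x ≠ 0) : mv (prj x) x = x := by
  ext i
  have h0 : ‖x‖ ^ 2 ≠ 0 := pow_ne_zero 2 (norm_ne_zero_iff.2 hx)
  simp only [mv_apply, prj_apply]
  calc ∑ k, x i * x k / ‖x‖ ^ 2 * x k = x i / ‖x‖ ^ 2 * ∑ k, x k * x k := by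
        rw [Finset.mul_sum]; exact Finset.sum_congr rfl fun k _ => by ring
    _ = x i := by rw [← family_norm_sq]; field_simp

theorem family_prj_mul_prj {x : E n} (hx : x ≠ 0) : prj x * prj x = prj x := by
  have h : mv (1 - prj x) x = 0 := by
    have h1 := family_mv_prj hx
    ext i
    have h2 := congrArg (fun v : E n => v i) h1
    simp only [mv_apply] at h2
    simp only [mv_apply, Matrix.sub_apply, sub_mul, Finset.sum_sub_distrib, h2, PiLp.zero_apply]
    simp [Matrix.one_apply]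
  have h2 := family_mul_prj h
  rw [sub_mul, one_mul, sub_eq_zero] at h2
  exact h2.symm

theorem family_trace_prj {x : E n} (hx : x ≠ 0) : (prj x).trace = 1 := by
  have h0 : ‖x‖ ^ 2 ≠ 0 := pow_ne_zero 2 (norm_ne_zero_iff.2 hx)
  simp only [Matrix.trace, Matrix.diag, prj_apply]
  rw [← Finset.sum_div, ← family_norm_sq, div_self h0]

theorem family_prj_smul {t : ℝ} (ht : t ≠ 0) (x : E n) : prj (t • x) = prj x := by
  ext i j
  simp only [prj_apply, PiLp.smul_apply, smul_eq_mul, norm_smul, mul_pow, Real.norm_eq_abs, sq_abs]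
  by_cases hx : ‖x‖ = 0
  · simp [hx]
  · field_simp

theorem family_pos_dim {x : E n} (hx : x ≠ 0) : 1 ≤ n := by
  rcases Nat.eq_zero_or_pos n with h | h
  · subst h; exact absurd (Subsingleton.elim x 0) hx
  · exact h

theorem family_det_scale {x : E n} (hx : x ≠ 0) (a : ℝ) :
    (prj x + a • (1 - prj x)).det = a ^ (n - 1) := by
  have h0 : ‖x‖ ^ 2 ≠ 0 := pow_ne_zero 2 (norm_ne_zero_iff.2 hx)
  have key : ∀ a : ℝ, a ≠ 0 → (prj x + a • (1 - prj x)).det = a ^ (n - 1) := fun a ha => by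
    have h1 : prj x + a • (1 - prj x) = a • (1 + Matrix.replicateCol Unit
        (fun i => (1 - a) / a / ‖x‖ ^ 2 * x i) * Matrix.replicateRow Unit (fun j => x j)) := by
      ext i j
      simp only [Matrix.add_apply, Matrix.smul_apply, Matrix.sub_apply, prj_apply, smul_eq_mul,
        Matrix.mul_apply, Matrix.replicateCol_apply, Matrix.replicateRow_apply,
        Finset.univ_unique, Finset.sum_const, Finset.card_singleton, one_smul]
      field_simp
      ring
    rw [h1, Matrix.det_smul, Matrix.det_one_add_replicateCol_mul_replicateRow, Fintype.card_fin]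
    have h2 : (fun j => x j) ⬝ᵥ (fun i => (1 - a) / a / ‖x‖ ^ 2 * x i) = (1 - a) / a := by
      simp only [dotProduct]
      calc ∑ i, x i * ((1 - a) / a / ‖x‖ ^ 2 * x i) = (1 - a) / a / ‖x‖ ^ 2 * ∑ i, x i * x i := by
            rw [Finset.mul_sum]; exact Finset.sum_congr rfl fun k _ => by ring
        _ = (1 - a) / a := by rw [← family_norm_sq]; field_simp
    rw [h2]
    obtain ⟨m, rfl⟩ : ∃ m, n = m + 1 := ⟨n - 1, by have := family_pos_dim hx; omega⟩
    simp only [Nat.add_sub_cancel]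
    field_simp
    ring
  have hc : Continuous fun a : ℝ => (prj x + a • (1 - prj x)).det := by fun_prop
  have := Continuous.ext_on (dense_compl_singleton (0 : ℝ)) hc (continuous_pow (n - 1))
    fun a ha => key a ha
  exact congrFun this a

theorem family_factor {x : E n} (hx : x ≠ 0) {K : Mat n} (hK : Kᵀ = K) (hr : mv K x = 0) (a : ℝ) :
    prj x + a ^ 2 • K = (prj x + a • (1 - prj x)) * (prj x + K) * (prj x + a • (1 - prj x)) := by
  have h1 := family_prj_mul_prj hx
  have h2 := family_mul_prj hr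
  have h3 := family_prj_mul hK hr
  have h4 : (prj x + a • (1 - prj x)) * (prj x + K) = prj x + a • K := by
    simp only [add_mul, mul_add, smul_mul_assoc, sub_mul, one_mul, h1, h3, sub_self, smul_zero,
      add_zero, sub_zero, zero_add]
  rw [h4]
  simp only [add_mul, mul_add, smul_mul_assoc, mul_smul_comm, mul_sub, mul_one, h1, h2,
    smul_zero, add_zero, add_sub_cancel_left, smul_smul, sq]

/-- `π + a² K = (π + a Π)(π + K)(π + a Π)` when `K` is symmetric and kills `x` -/
theorem det_rad {x : E n} (hx : x ≠ 0) {K : Mat n} (hK : Kᵀ = K) (hr : mv K x = 0) (a : ℝ) :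
    (prj x + a ^ 2 • K).det = a ^ (2 * (n - 1)) * (prj x + K).det := by
  rw [family_factor hx hK hr a, Matrix.det_mul, Matrix.det_mul, family_det_scale hx]
  ring

theorem family_symm_of_posDef {x : E n} {K : Mat n} (hp : (prj x + K).PosDef) : Kᵀ = K := by
  have h : (prj x + K)ᵀ = prj x + K := by
    have := hp.isHermitian
    rwa [Matrix.IsHermitian, Matrix.conjTranspose_eq_transpose_of_trivial] at this
  rw [Matrix.transpose_add, family_prj_transpose] at h
  exact add_left_cancel h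

theorem posDef_rad {x : E n} (hx : x ≠ 0) {K : Mat n} (hr : mv K x = 0)
    (hp : (prj x + K).PosDef) {a : ℝ} (ha : a ≠ 0) : (prj x + a ^ 2 • K).PosDef := by
  rw [family_factor hx (family_symm_of_posDef hp) hr a]
  have hu : IsUnit (prj x + a • (1 - prj x)) := by
    rw [Matrix.isUnit_iff_isUnit_det, family_det_scale hx]
    exact (pow_ne_zero _ ha).isUnit
  have h := hp.conjTranspose_mul_mul_same (B := prj x + a • (1 - prj x))
    (Matrix.mulVec_injective_iff_isUnit.2 hu)
  have ht : (prj x + a • (1 - prj x))ᴴ = prj x + a • (1 - prj x) := by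
    rw [Matrix.conjTranspose_eq_transpose_of_trivial, Matrix.transpose_add, Matrix.transpose_smul,
      Matrix.transpose_sub, Matrix.transpose_one, family_prj_transpose]
  rwa [ht] at h

theorem family_inv_mul_prj {x : E n} (hx : x ≠ 0) {K : Mat n} (hr : mv K x = 0)
    (hp : (prj x + K).PosDef) : (prj x + K)⁻¹ * prj x = prj x := by
  have h1 : (prj x + K)⁻¹ * (prj x + K) = 1 :=
    Matrix.nonsing_inv_mul _ hp.det_pos.ne'.isUnit
  calc (prj x + K)⁻¹ * prj x = (prj x + K)⁻¹ * ((prj x + K) * prj x) := by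
        rw [add_mul, family_prj_mul_prj hx, family_mul_prj hr, add_zero]
    _ = prj x := by rw [← mul_assoc, h1, one_mul]

theorem family_inv_mul_self {x : E n} (hx : x ≠ 0) {K : Mat n} (hr : mv K x = 0)
    (hp : (prj x + K).PosDef) : (prj x + K)⁻¹ * K = 1 - prj x := by
  have h1 : (prj x + K)⁻¹ * (prj x + K) = 1 :=
    Matrix.nonsing_inv_mul _ hp.det_pos.ne'.isUnit
  rw [mul_add, family_inv_mul_prj hx hr hp] at h1
  rw [← h1]; abel

/-- `(π + a² K)⁻¹ = π + a⁻² ((π + K)⁻¹ - π)` -/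
theorem inv_rad {x : E n} (hx : x ≠ 0) {K : Mat n} (hr : mv K x = 0)
    (hp : (prj x + K).PosDef) {a : ℝ} (ha : a ≠ 0) :
    (prj x + a ^ 2 • K)⁻¹ = prj x + (a ^ 2)⁻¹ • ((prj x + K)⁻¹ - prj x) := by
  refine Matrix.inv_eq_left_inv ?_
  have h1 := family_prj_mul_prj hx
  have h3 := family_prj_mul (family_symm_of_posDef hp) hr
  have h4 := family_inv_mul_prj hx hr hp
  have h5 := family_inv_mul_self hx hr hp
  have h6 : a ^ 2 * (a ^ 2)⁻¹ = 1 := mul_inv_cancel₀ (pow_ne_zero 2 ha)
  simp only [add_mul, mul_add, smul_mul_assoc, mul_smul_comm, sub_mul, h1, h3, h4, h5, sub_self,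
    smul_zero, add_zero, sub_zero, zero_add, smul_smul, h6, one_smul]
  abel

theorem Fam.symm {H : P → E n → Mat n} {O : Set P} (hF : Fam H O) {c : P} (hc : c ∈ O) {x : E n}
    (hx : x ≠ 0) : (H c x)ᵀ = H c x :=
  family_symm_of_posDef (hF.pos c hc x hx)

end Alg

end Crest.Agent.R202
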