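import Crest.Agent.R202.Radial
import Crest.Agent.R202.FamilyAux

/-!
# R202/Family: positivity of the Ricci tensor for slowly varying families

Recipe for `ric_pos_fam`.  Let `r = |x|`, `x₀ = x/r`.  By `ricci_comp_smul` it suffices to treat
`g_r y = g (r y) = π y + φ(|y|)² H (c (τ (r|y|))) y` at `x₀`, `φ s = ψ(rs)/(rs)`.  Its 2-jet at
`x₀` is that of the model
`G p y = π y + (a₀ + a₁ (|y|-1) + a₂ (|y|-1)²/2)² H (c₀ + (|y|-1) c₁ + (|y|-1)²/2 c₂) y`,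
`p = (a₀,a₁,a₂,c₀,c₁,c₂)` the Taylor coefficients at `s = 1` (`ricci_jet_congr`):
`a₀ = ψ/r → b`, `a₁ = β - a₀ → 0`, `a₂ = (r/ψ) β' - 2 a₁ → 0`, `c₁ = (r/ψ) c'`,
`c₂ = (r/ψ)² (c'' - β c')`, and `1 ≤ r/ψ ≤ 1/b`.  `Φ(p,x) = ricci (G p) x` is smooth near the compact
set `{(b,0,0,c₀,0,0) | c₀ ∈ K} × sphere` (`ricci_param_smooth`), hence uniformly continuous and
Lipschitz on a compact neighbourhood.  So (i) tangentially `ric ≥ μ/2 |v|²`; (ii) the mixed part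
vanishes for `c₁ = c₂ = 0` (`ric_mixed`), so it is `≤ C (‖c₁‖+‖c₂‖) |v|`; (iii) `ric_radial` with
`det_rad` gives `ric x₀ x₀ = (r/ψ)² (-(n-1)β' - Θ'' - βΘ') - ¼ tr ((π+H)⁻¹ H')²` exactly, where
`H' = D_c H · c₁`.  Finally `s² A + 2 s B + D > 0` when `A μ/2 |w|² > B²`, `D ≥ μ/2 |w|²`, `A > 0`.

The algebraic lemmas `det_rad`, `posDef_rad`, `inv_rad`, `Fam.symm` are in `FamilyAux`.
-/

open scoped ContDiff Topology Matrix RealInnerProductSpace
open Set Filter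
open Crest.GeometryTopology.CoordMetric Crest.GeometryTopology.ChartCurvature

noncomputable section

namespace Crest.Agent.R202

variable {n : ℕ} {P : Type} [NormedAddCommGroup P] [NormedSpace ℝ P]

/-- `π y + a² H c y` as a function of `((a, c), y)` -/
def famF (H : P → E n → Mat n) (z : (ℝ × P) × E n) : Mat n := prj z.2 + z.1.1 ^ 2 • H z.1.2 z.2

/-- the metric `π y + φ(|y|)² H (γ |y|) y`, `Γ = (φ, γ)` -/
def famM (H : P → E n → Mat n) (Γ : ℝ → ℝ × P) : MetricField n := fun y => famF H (Γ ‖y‖, y)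

/-- the quadratic Taylor polynomial at `1` -/
def famT {V : Type} [NormedAddCommGroup V] [NormedSpace ℝ V] (q : V × V × V) (s : ℝ) : V :=
  q.1 + (s - 1) • q.2.1 + ((s - 1) ^ 2 / 2) • q.2.2

theorem family_prj_smooth {x : E n} (hx : x ≠ 0) (i j : Fin n) :
    ContDiffAt ℝ ∞ (fun y : E n => prj y i j) x := by
  have h0 : ‖x‖ ^ 2 ≠ 0 := pow_ne_zero 2 (norm_ne_zero_iff.2 hx)
  have hc : ∀ k, ContDiff ℝ ∞ (fun y : E n => y k) := fun k =>
    (EuclideanSpace.proj k : E n →L[ℝ] ℝ).contDiff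
  exact ((hc i).contDiffAt.mul (hc j).contDiffAt).div (contDiff_norm_sq ℝ).contDiffAt h0

theorem Fam.smoothAt {H : P → E n → Mat n} {O : Set P} (hF : Fam H O) {z : P × E n}
    (h1 : z.1 ∈ O) (h2 : z.2 ≠ 0) (i j : Fin n) :
    ContDiffAt ℝ ∞ (fun z : P × E n => H z.1 z.2 i j) z :=
  (hF.smooth i j).contDiffAt ((hF.isOpen.prod isOpen_ne).mem_nhds ⟨h1, h2⟩)

theorem famF_smooth {H : P → E n → Mat n} {O : Set P} (hF : Fam H O) {z : (ℝ × P) × E n}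
    (h1 : z.1.2 ∈ O) (h2 : z.2 ≠ 0) (i j : Fin n) :
    ContDiffAt ℝ ∞ (fun z : (ℝ × P) × E n => famF H z i j) z := by
  have ha : ContDiffAt ℝ ∞ (fun z : (ℝ × P) × E n => prj z.2 i j) z :=
    (family_prj_smooth h2 i j).comp z contDiffAt_snd
  have hb : ContDiffAt ℝ ∞ (fun z : (ℝ × P) × E n => H z.1.2 z.2 i j) z :=
    (hF.smoothAt (z := (z.1.2, z.2)) h1 h2 i j).comp z
      ((contDiffAt_snd.comp z contDiffAt_fst).prodMk contDiffAt_snd)
  have hc : ContDiffAt ℝ ∞ (fun z : (ℝ × P) × E n => z.1.1 ^ 2) z :=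
    (contDiffAt_fst.comp z contDiffAt_fst).pow 2
  exact ha.add (hc.mul hb)

theorem famF_posDef {H : P → E n → Mat n} {O : Set P} (hF : Fam H O) {z : (ℝ × P) × E n}
    (h0 : z.1.1 ≠ 0) (h1 : z.1.2 ∈ O) (h2 : z.2 ≠ 0) : (famF H z).PosDef :=
  posDef_rad h2 (hF.rad _ _) (hF.pos _ h1 _ h2) h0

theorem family_curve_smooth {V : Type} [NormedAddCommGroup V] [NormedSpace ℝ V] {Γ : ℝ → V}
    (hΓ : ContDiffOn ℝ ∞ Γ (Ioi 0)) {x : E n} (hx : x ≠ 0) :
    ContDiffAt ℝ ∞ (fun y : E n => Γ ‖y‖) x :=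
  (hΓ.contDiffAt (Ioi_mem_nhds (norm_pos_iff.2 hx))).comp x (contDiffAt_norm ℝ hx)

theorem riemAt_famM {H : P → E n → Mat n} {O : Set P} (hF : Fam H O) {Γ : ℝ → ℝ × P}
    (hΓ : ContDiffOn ℝ ∞ Γ (Ioi 0)) {x : E n} (hx : x ≠ 0) (h0 : (Γ ‖x‖).1 ≠ 0)
    (h1 : (Γ ‖x‖).2 ∈ O) : RiemAt (famM H Γ) x := by
  refine ⟨{y : E n | y ≠ 0} ∩ (fun y : E n => Γ ‖y‖) ⁻¹' ({a : ℝ | a ≠ 0} ×ˢ O),
    ⟨hx, h0, h1⟩, ?_, ?_, ?_⟩
  · refine ContinuousOn.isOpen_inter_preimage ?_ isOpen_ne (isOpen_ne.prod hF.isOpen)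
    exact fun y hy => (family_curve_smooth hΓ hy).continuousAt.continuousWithinAt
  · intro i j y hy
    exact (ContDiffAt.comp (f := fun y : E n => (Γ ‖y‖, y)) y
      (famF_smooth hF (z := (Γ ‖y‖, y)) hy.2.2 hy.1 i j)
      ((family_curve_smooth hΓ hy.1).prodMk contDiffAt_id)).contDiffWithinAt
  · intro y hy
    exact famF_posDef hF (z := (Γ ‖y‖, y)) hy.2.1 hy.2.2 hy.1

theorem family_riemAt_congr {g g' : MetricField n} {x : E n} (h : RiemAt g x) (hx : x ≠ 0)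
    (he : ∀ y, y ≠ 0 → g' y = g y) : RiemAt g' x := by
  obtain ⟨U, hxU, hU⟩ := h
  refine ⟨U ∩ {y | y ≠ 0}, ⟨hxU, hx⟩, hU.isOpen.inter isOpen_ne, fun i j => ?_, fun y hy => ?_⟩
  · exact ((hU.contDiffOn i j).mono inter_subset_left).congr fun y hy => by rw [he y hy.2]
  · rw [he y hy.2]; exact hU.posDef y hy.1

theorem family_mv_add (A B : Mat n) (x : E n) : mv (A + B) x = mv A x + mv B x := by
  ext i; simp [add_mul, Finset.sum_add_distrib]

theorem family_mv_smul (a : ℝ) (A : Mat n) (x : E n) : mv (a • A) x = a • mv A x := by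
  ext i; simp [Finset.mul_sum, mul_assoc]

theorem mv_famF {H : P → E n → Mat n} {O : Set P} (hF : Fam H O) (a : ℝ × P) {y : E n}
    (hy : y ≠ 0) : mv (famF H (a, y)) y = y := by
  simp only [famF]
  rw [family_mv_add, family_mv_smul, hF.rad, family_mv_prj hy, smul_zero, add_zero]

theorem Fam.riemAt_cone {H : P → E n → Mat n} {O : Set P} (hF : Fam H O) {c : P} (hc : c ∈ O)
    {x : E n} (hx : x ≠ 0) {a : ℝ} (ha : a ≠ 0) : RiemAt (cone a (H c)) x :=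
  riemAt_famM hF (Γ := fun _ => (a, c)) contDiffOn_const hx ha hc

theorem Fam.riemAt_radM {H : P → E n → Mat n} {O : Set P} (hF : Fam H O) {ψ : ℝ → ℝ}
    {c : ℝ → P} {x : E n} (hx : x ≠ 0) (hψ : ContDiffOn ℝ ∞ ψ (Ioi 0))
    (hψ0 : ∀ r, 0 < r → 0 < ψ r) (hc : ContDiffOn ℝ ∞ c (Ioi 0)) (hO : c ‖x‖ ∈ O) :
    RiemAt (radM ψ c H) x := by
  have hr : 0 < ‖x‖ := norm_pos_iff.2 hx
  have h := riemAt_famM hF (Γ := fun s => (ψ s / s, c s))
    ((hψ.div contDiffOn_id fun s hs => ne_of_gt hs).prodMk hc) hx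
    (div_pos (hψ0 _ hr) hr).ne' hO
  refine family_riemAt_congr h hx fun y hy => ?_
  simp only [radM, if_neg hy, famM, famF]

theorem Fam.mv_radM {H : P → E n → Mat n} {O : Set P} (hF : Fam H O) (ψ : ℝ → ℝ) (c : ℝ → P)
    (x : E n) : mv (radM ψ c H x) x = x := by
  by_cases hx : x = 0
  · subst hx; ext i; simp
  · simp only [radM, if_neg hx]
    exact mv_famF hF (ψ ‖x‖ / ‖x‖, c ‖x‖) hx

section Taylor

variable {V : Type} [NormedAddCommGroup V] [NormedSpace ℝ V]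

theorem famT_smooth : ContDiff ℝ ∞ (fun z : (V × V × V) × ℝ => famT z.1 z.2) := by
  unfold famT; fun_prop

theorem famT_contDiff (q : V × V × V) : ContDiff ℝ ∞ (famT q) := by
  unfold famT; fun_prop

@[simp] theorem famT_one (q : V × V × V) : famT q 1 = q.1 := by simp [famT]

theorem famT_deriv (q : V × V × V) : deriv (famT q) = fun s => q.2.1 + (s - 1) • q.2.2 := by
  funext s
  have h1 : HasDerivAt (fun s : ℝ => s - 1) 1 s := (hasDerivAt_id s).sub_const 1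
  have h2 : HasDerivAt (fun s : ℝ => (s - 1) ^ 2 / 2) (s - 1) s := by
    refine ((h1.fun_pow 2).div_const 2).congr_deriv ?_
    norm_num
  have h3 := ((h1.smul_const q.2.1).const_add q.1).fun_add (h2.smul_const q.2.2)
  rw [one_smul] at h3
  exact h3.deriv

theorem famT_deriv2 (q : V × V × V) : deriv (deriv (famT q)) 1 = q.2.2 := by
  rw [famT_deriv]
  have h1 : HasDerivAt (fun s : ℝ => s - 1) 1 (1 : ℝ) := (hasDerivAt_id 1).sub_const 1
  have h3 := (h1.smul_const q.2.2).const_add q.2.1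
  rw [one_smul] at h3
  exact h3.deriv

end Taylor

theorem family_two_le : (2 : WithTop ℕ∞) ≤ ∞ := by norm_cast

theorem family_one_le : (1 : WithTop ℕ∞) ≤ ∞ := by norm_cast

/-- the Ricci tensor at a unit vector only depends on the 2-jet of `Γ` at `1` -/
theorem ricci_famM_jet {H : P → E n → Mat n} {O : Set P} (hF : Fam H O) {Γ : ℝ → ℝ × P}
    (hΓ : ContDiffOn ℝ ∞ Γ (Ioi 0)) {x : E n} (hx : ‖x‖ = 1) (h0 : (Γ 1).1 ≠ 0)
    (h1 : (Γ 1).2 ∈ O) :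
    ricci (famM H Γ) x = ricci (famM H (famT (Γ 1, deriv Γ 1, deriv (deriv Γ) 1))) x := by
  have hx0 : x ≠ 0 := by rintro rfl; simp at hx
  set q := (Γ 1, deriv Γ 1, deriv (deriv Γ) 1) with hq
  have hJ : FJet Γ (famT q) ‖x‖ := by
    rw [hx]
    refine FJet.of_deriv ((hΓ.contDiffAt (Ioi_mem_nhds one_pos)).of_le family_two_le)
      ((famT_contDiff q).contDiffAt.of_le family_two_le) (by simp [hq]) ?_ ?_
    · rw [famT_deriv]; simp [hq]
    · rw [famT_deriv2]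
  have hJ2 : FJet (fun y : E n => (Γ ‖y‖, y)) (fun y : E n => (famT q ‖y‖, y)) x :=
    (hJ.comp (FJet.refl (contDiffAt_norm ℝ hx0))).prodMk (FJet.refl contDiffAt_id)
  have hJ3 : ∀ i j, FJet (fun y => famM H Γ y i j) (fun y => famM H (famT q) y i j) x :=
    fun i j => FJet.comp (u := fun y : E n => (Γ ‖y‖, y))
      (FJet.refl ((famF_smooth hF (z := (Γ ‖x‖, x)) (by rwa [hx]) hx0 i j).of_le
        family_two_le)) hJ2
  refine ricci_jet_congr (riemAt_famM hF hΓ hx0 (by rwa [hx]) (by rwa [hx]))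
    (riemAt_famM hF (famT_contDiff q).contDiffOn hx0 (by simpa [hx, hq] using h0)
      (by simpa [hx, hq] using h1)) ?_ (fun i j => (hJ3 i j).j1) (fun i j => (hJ3 i j).j2)
  ext i j
  exact (hJ3 i j).j0

/-- the parameter space of the models -/
abbrev FamQ (P : Type) : Type := (ℝ × P) × (ℝ × P) × (ℝ × P)

/-- the derivative of `H` in the parameter -/
def famD (H : P → E n → Mat n) (c c₁ : P) (x : E n) : Mat n :=
  Matrix.of fun i j => fderiv ℝ (fun z : P × E n => H z.1 z.2 i j) (c, x) (c₁, 0)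

/-- `(π + H)⁻¹ H'` -/
def famW (H : P → E n → Mat n) (c c₁ : P) (x : E n) : Mat n := (prj x + H c x)⁻¹ * famD H c c₁ x

theorem famPhi_smooth {H : P → E n → Mat n} {O : Set P} (hF : Fam H O) {q : FamQ P} {x : E n}
    (hx : ‖x‖ = 1) (h0 : q.1.1 ≠ 0) (h1 : q.1.2 ∈ O) (i j : Fin n) :
    ContDiffAt ℝ ∞ (fun z : FamQ P × E n => ricci (famM H (famT z.1)) z.2 i j) (q, x) := by
  have hx0 : x ≠ 0 := by rintro rfl; simp at hx
  refine ricci_param_smooth (G := fun q : FamQ P => famM H (famT q)) (fun i j => ?_) ?_ i j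
  · have h2 : ContDiffAt ℝ ∞ (fun z : FamQ P × E n => famT z.1 ‖z.2‖) (q, x) :=
      famT_smooth.contDiffAt.comp (q, x)
        (contDiffAt_fst.prodMk ((contDiffAt_norm ℝ hx0).comp (q, x) contDiffAt_snd))
    exact (famF_smooth hF (z := (famT q ‖x‖, x)) (by simpa [hx] using h1) hx0 i j).comp (q, x)
      (h2.prodMk contDiffAt_snd)
  · exact (famF_posDef hF (z := (famT q ‖x‖, x)) (by simpa [hx] using h0)
      (by simpa [hx] using h1) hx0).det_pos.ne'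

theorem famW_smooth {H : P → E n → Mat n} {O : Set P} (hF : Fam H O) {q : FamQ P} {x : E n}
    (hx : x ≠ 0) (h1 : q.1.2 ∈ O) (i j : Fin n) :
    ContDiffAt ℝ ∞ (fun z : FamQ P × E n => famW H z.1.1.2 z.1.2.1.2 z.2 i j) (q, x) := by
  have hp : ContDiffAt ℝ ∞ (fun z : FamQ P × E n => (z.1.1.2, z.2)) (q, x) := by fun_prop
  simp only [famW, Matrix.mul_apply]
  refine ContDiffAt.sum fun k _ => ContDiffAt.mul ?_ ?_
  · refine famAux_contDiffAt_inv (M := fun z : FamQ P × E n => prj z.2 + H z.1.1.2 z.2)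
      (fun a b => ?_) (hF.pos _ h1 _ hx).det_pos.ne' i k
    exact ((family_prj_smooth hx a b).comp (q, x) contDiffAt_snd).add
      ((hF.smoothAt (z := (q.1.2, x)) h1 hx a b).comp (q, x) hp)
  · have h2 := ((hF.smoothAt (z := (q.1.2, x)) h1 hx k j).fderiv_right (m := ∞)
      (by simp)).comp (q, x) hp
    exact h2.clm_apply (by fun_prop)

/-- uniform Lipschitz bounds for the models -/
theorem famM_lip {H : P → E n → Mat n} {O : Set P} (hF : Fam H O) {K : Set P} (hK : IsCompact K)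
    (hKO : K ⊆ O) {a : ℝ} (ha : a ≠ 0) :
    ∃ δ > 0, ∃ L : ℝ, 0 ≤ L ∧ ∀ c₀ ∈ K, ∀ x : E n, ‖x‖ = 1 → ∀ q q' : FamQ P,
      ‖q - ((a, c₀), 0, 0)‖ ≤ δ → ‖q' - ((a, c₀), 0, 0)‖ ≤ δ → ∀ i j,
        |ricci (famM H (famT q)) x i j - ricci (famM H (famT q')) x i j| ≤ L * ‖q - q'‖ ∧
        |famW H q.1.2 q.2.1.2 x i j - famW H q'.1.2 q'.2.1.2 x i j| ≤ L * ‖q - q'‖ := by
  let f : FamQ P × E n → (Fin n → Fin n → ℝ) × (Fin n → Fin n → ℝ) := fun z =>
    (fun i j => ricci (famM H (famT z.1)) z.2 i j, fun i j => famW H z.1.1.2 z.1.2.1.2 z.2 i j)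
  have hS : IsCompact (((fun c : P => (((a, c), 0, 0) : FamQ P)) '' K) ×ˢ
      Metric.sphere (0 : E n) 1) :=
    (hK.image (by fun_prop)).prod (isCompact_sphere 0 1)
  obtain ⟨δ, hδ, L, hL, h⟩ := famAux_lip (f := f) hS (by
    rintro ⟨q, x⟩ ⟨⟨c, hc, rfl⟩, hx⟩
    have hx1 : ‖x‖ = 1 := by simpa using hx
    have hx0 : x ≠ 0 := by rintro rfl; simp at hx1
    refine ContDiffAt.prodMk ?_ ?_
    · exact contDiffAt_pi.2 fun i => contDiffAt_pi.2 fun j =>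
        (famPhi_smooth hF hx1 ha (hKO hc) i j).of_le family_one_le
    · exact contDiffAt_pi.2 fun i => contDiffAt_pi.2 fun j =>
        (famW_smooth hF hx0 (hKO hc) i j).of_le family_one_le)
  refine ⟨δ, hδ, L, hL, fun c₀ hc₀ x hx q q' hq hq' i j => ?_⟩
  have h1 := h (((a, c₀), 0, 0), x) ⟨⟨c₀, hc₀, rfl⟩, by simpa using hx⟩ (q, x) (q', x)
    (by simpa [Prod.norm_def, hδ.le] using hq) (by simpa [Prod.norm_def, hδ.le] using hq')
  have h2 : ‖((q, x) : FamQ P × E n) - (q', x)‖ = ‖q - q'‖ := by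
    rw [Prod.mk_sub_mk, sub_self, Prod.norm_mk, norm_zero, max_eq_left (norm_nonneg _)]
  rw [h2] at h1
  constructor
  · exact ((norm_le_pi_norm ((f (q, x) - f (q', x)).1 i) j).trans
      ((norm_le_pi_norm (f (q, x) - f (q', x)).1 i).trans (norm_fst_le _))).trans h1
  · exact ((norm_le_pi_norm ((f (q, x) - f (q', x)).2 i) j).trans
      ((norm_le_pi_norm (f (q, x) - f (q', x)).2 i).trans (norm_snd_le _))).trans h1

theorem family_bil_le {A : Fin n → Fin n → ℝ} {M : ℝ} (h : ∀ i j, |A i j| ≤ M) (v w : E n) :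
    |∑ i, ∑ j, A i j * v i * w j| ≤ (n : ℝ) ^ 2 * M * (‖v‖ * ‖w‖) := by
  have hv : ∀ (u : E n) i, |u i| ≤ ‖u‖ := fun u i => by
    simpa using PiLp.norm_apply_le u i
  calc |∑ i, ∑ j, A i j * v i * w j| ≤ ∑ i, |∑ j, A i j * v i * w j| := Finset.abs_sum_le_sum_abs _ _
    _ ≤ ∑ _i : Fin n, ∑ _j : Fin n, M * (‖v‖ * ‖w‖) := by
        refine Finset.sum_le_sum fun i _ => (Finset.abs_sum_le_sum_abs _ _).trans
          (Finset.sum_le_sum fun j _ => ?_)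
        rw [abs_mul, abs_mul, mul_assoc]
        exact mul_le_mul (h i j) (mul_le_mul (hv v i) (hv w j) (abs_nonneg _) (norm_nonneg _))
          (by positivity) ((abs_nonneg _).trans (h i j))
    _ = (n : ℝ) ^ 2 * M * (‖v‖ * ‖w‖) := by simp; ring

theorem family_ric_sub_le {g g' : MetricField n} {x : E n} {M : ℝ}
    (h : ∀ i j, |ricci g x i j - ricci g' x i j| ≤ M) (v w : E n) :
    |ric g x v w - ric g' x v w| ≤ (n : ℝ) ^ 2 * M * (‖v‖ * ‖w‖) := by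
  have h1 := family_bil_le h v w
  have h2 : ric g x v w - ric g' x v w = ∑ i, ∑ j, (ricci g x i j - ricci g' x i j) * v i * w j := by
    simp only [ric, sub_mul, Finset.sum_sub_distrib]
  rwa [h2]

theorem famM_const (H : P → E n → Mat n) (a : ℝ) (c : P) :
    famM H (famT ((a, c), 0, 0)) = cone a (H c) := by
  funext y
  simp [famM, famF, famT, cone]

/-- Tangential positivity at one parameter persists nearby (`ricci_param_smooth` and compactness of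
the sphere). -/
theorem pos_ball [FiniteDimensional ℝ P] {a : ℝ} (ha : a ≠ 0) {H : P → E n → Mat n} {O : Set P}
    (hF : Fam H O) {c₀ : P} (hc : c₀ ∈ O) {μ : ℝ} (hμ : 0 < μ)
    (hpos : ∀ x v : E n, ‖x‖ = 1 → ⟪x, v⟫ = 0 → μ * ‖v‖ ^ 2 ≤ ric (cone a (H c₀)) x v v) :
    ∃ ε > 0, ∀ c, ‖c - c₀‖ ≤ ε → c ∈ O ∧ ∀ x v : E n, ‖x‖ = 1 → ⟪x, v⟫ = 0 →
      μ / 2 * ‖v‖ ^ 2 ≤ ric (cone a (H c)) x v v := by
  obtain ⟨δ, hδ, L, hL, h⟩ := famM_lip hF (isCompact_singleton (x := c₀))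
    (singleton_subset_iff.2 hc) ha
  obtain ⟨ρ, hρ, hρO⟩ := Metric.nhds_basis_closedBall.mem_iff.1 (hF.isOpen.mem_nhds hc)
  have hD : 0 < (n : ℝ) ^ 2 * L + 1 := by positivity
  refine ⟨min (min δ ρ) (μ / 2 / ((n : ℝ) ^ 2 * L + 1)), lt_min (lt_min hδ hρ) (by positivity),
    fun c hcc => ⟨hρO ?_, fun x v hx hv => ?_⟩⟩
  · rw [Metric.mem_closedBall, dist_eq_norm]
    exact hcc.trans ((min_le_left _ _).trans (min_le_right _ _))
  · have hn : ‖(((a, c), 0, 0) : FamQ P) - ((a, c₀), 0, 0)‖ = ‖c - c₀‖ := by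
      simp [Prod.norm_def]
    have h1 := family_ric_sub_le (fun i j => (h c₀ rfl x hx ((a, c), 0, 0) ((a, c₀), 0, 0)
      (hn ▸ hcc.trans ((min_le_left _ _).trans (min_le_left _ _))) (by simpa using hδ.le) i j).1)
      v v
    rw [famM_const, famM_const, hn] at h1
    have h2 := hpos x v hx hv
    have h3 : ‖c - c₀‖ * ((n : ℝ) ^ 2 * L + 1) ≤ μ / 2 :=
      (le_div_iff₀ hD).1 (hcc.trans (min_le_right _ _))
    have h4 : (n : ℝ) ^ 2 * (L * ‖c - c₀‖) ≤ μ / 2 := by nlinarith [norm_nonneg (c - c₀)]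
    have h5 := mul_le_mul_of_nonneg_right h4 (mul_nonneg (norm_nonneg v) (norm_nonneg v))
    have h6 := (abs_le.1 h1).1
    nlinarith

theorem famD_hasDerivAt {H : P → E n → Mat n} {O : Set P} (hF : Fam H O) {γ : ℝ → P} {t : ℝ}
    {c₁ : P} (hγ : HasDerivAt γ c₁ t) (h1 : γ t ∈ O) {x : E n} (hx : x ≠ 0) (i j : Fin n) :
    HasDerivAt (fun s => H (γ s) x i j) (famD H (γ t) c₁ x i j) t := by
  have h2 := ((hF.smoothAt (z := (γ t, x)) h1 hx i j).differentiableAt (by simp)).hasFDerivAt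
  exact h2.comp_hasDerivAt (f := fun s => (γ s, x)) t (hγ.prodMk (hasDerivAt_const t x))

theorem family_deriv_mul_zero {X : ℝ → Mat n} {X' A B : Mat n} {t : ℝ}
    (h : ∀ i j, HasDerivAt (fun s => X s i j) (X' i j) t)
    (h0 : ∀ᶠ s in 𝓝 t, A * X s * B = 0) : A * X' * B = 0 := by
  ext i j
  have h1 : HasDerivAt (fun s => (A * X s * B) i j) ((A * X' * B) i j) t := by
    simp only [Matrix.mul_apply]
    exact HasDerivAt.fun_sum fun k _ =>
      (HasDerivAt.fun_sum fun l _ => (h l k).const_mul (A i l)).mul_const (B k j)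
  have h2 : (fun s => (A * X s * B) i j) =ᶠ[𝓝 t] fun _ => (0 : ℝ) := by
    filter_upwards [h0] with s hs
    rw [hs]; rfl
  exact h1.unique ((hasDerivAt_const t (0 : ℝ)).congr_of_eventuallyEq h2)

theorem family_lTh_smooth {H : P → E n → Mat n} {O : Set P} (hF : Fam H O) {γ : ℝ → P} {t : ℝ}
    (hγ : ContDiffAt ℝ ∞ γ t) (h1 : γ t ∈ O) {x : E n} (hx : x ≠ 0) :
    ContDiffAt ℝ ∞ (fun s => lTh H (γ s) x) t := by
  refine contDiffAt_const.mul (ContDiffAt.log ?_ (hF.pos _ h1 _ hx).det_pos.ne')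
  refine famAux_contDiffAt_det (M := fun s => prj x + H (γ s) x) fun i j => ?_
  exact contDiffAt_const.add (ContDiffAt.comp (f := fun s => (γ s, x)) t
    (hF.smoothAt (z := (γ t, x)) h1 hx i j) (hγ.prodMk contDiffAt_const))

theorem famM_smul {H : P → E n → Mat n} {O : Set P} (hF : Fam H O) (Γ : ℝ → ℝ × P) {x : E n}
    (hx : ‖x‖ = 1) {t : ℝ} (ht : 0 < t) :
    famM H Γ (t • x) = prj x + (Γ t).1 ^ 2 • H (Γ t).2 x := by
  simp only [famM, famF, norm_smul, hx, mul_one, Real.norm_eq_abs, abs_of_pos ht,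
    family_prj_smul ht.ne', hF.hom _ _ _ ht]

/-- the radial Ricci curvature of the model, exactly -/
theorem ric_famM_radial {H : P → E n → Mat n} {O : Set P} (hF : Fam H O) {φ : ℝ → ℝ} {γ : ℝ → P}
    (hφ : ContDiffOn ℝ ∞ φ (Ioi 0)) (hγ : ContDiffOn ℝ ∞ γ (Ioi 0)) {x : E n} (hx : ‖x‖ = 1)
    (h0 : 0 < φ 1) (h1 : γ 1 ∈ O) :
    ric (famM H fun s => (φ s, γ s)) x x x
      = -((n : ℝ) - 1) * ((2 * deriv φ 1 + deriv (deriv φ) 1) / φ 1)
        - 2 * deriv (fun s => lTh H (γ s) x) 1 * (1 + deriv φ 1 / φ 1)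
        - deriv (deriv fun s => lTh H (γ s) x) 1
        - (1 / 4) * (famW H (γ 1) (deriv γ 1) x * famW H (γ 1) (deriv γ 1) x).trace := by
  have hx0 : x ≠ 0 := by rintro rfl; simp at hx
  have hn := family_pos_dim hx0
  set g := famM H fun s => (φ s, γ s) with hg
  set θ : ℝ → ℝ := fun s => lTh H (γ s) x with hθ
  have hR : RiemAt g x := riemAt_famM hF (hφ.prodMk hγ) hx0 (by simpa [hx] using h0.ne')
    (by simpa [hx] using h1)
  have hrad : ∀ᶠ y in 𝓝 x, mv (g y) y = y := by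
    filter_upwards [isOpen_ne.mem_nhds hx0] with y hy using mv_famF hF _ hy
  have hφ1 : ContDiffAt ℝ ∞ φ 1 := hφ.contDiffAt (Ioi_mem_nhds one_pos)
  have hγ1 : ContDiffAt ℝ ∞ γ 1 := hγ.contDiffAt (Ioi_mem_nhds one_pos)
  have hθ1 : ContDiffAt ℝ ∞ θ 1 := family_lTh_smooth hF hγ1 h1 hx0
  have hev : ∀ᶠ t in 𝓝 (1 : ℝ), 0 < t ∧ 0 < φ t ∧ γ t ∈ O :=
    (eventually_gt_nhds one_pos).and
      ((hφ1.continuousAt.eventually (Ioi_mem_nhds h0)).and
        (hγ1.continuousAt.eventually (hF.isOpen.mem_nhds h1)))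
  have hcast : ((2 * (n - 1) : ℕ) : ℝ) = 2 * ((n : ℝ) - 1) := by
    rw [Nat.cast_mul, Nat.cast_sub hn]; norm_num
  -- the logarithm of the determinant along the ray
  have hL : (fun t : ℝ => Real.log (g (t • x)).det)
      =ᶠ[𝓝 1] fun t => 2 * ((n : ℝ) - 1) * Real.log (φ t) + 2 * θ t := by
    filter_upwards [hev] with t ht
    rw [hg, famM_smul hF _ hx ht.1, det_rad hx0 (hF.symm ht.2.2 hx0) (hF.rad _ _),
      Real.log_mul (pow_ne_zero _ ht.2.1.ne') (hF.pos _ ht.2.2 _ hx0).det_pos.ne', Real.log_pow,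
      hcast]
    simp only [hθ, lTh]
    ring
  have hL1 : deriv (fun t : ℝ => Real.log (g (t • x)).det)
      =ᶠ[𝓝 1] fun t => 2 * ((n : ℝ) - 1) * (deriv φ t / φ t) + 2 * deriv θ t := by
    filter_upwards [hL.deriv, hev, famAux_ev_diff (hφ1.of_le family_two_le),
      famAux_ev_diff (hθ1.of_le family_two_le)] with t h2 ht h3 h4
    rw [h2]
    exact (((h3.hasDerivAt.log ht.2.1.ne').const_mul _).fun_add (h4.hasDerivAt.const_mul 2)).deriv
  have hφd := (hφ1.differentiableAt (by simp)).hasDerivAt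
  have hγd := (hγ1.differentiableAt (by simp)).hasDerivAt
  have hL2 : deriv (deriv (fun t : ℝ => Real.log (g (t • x)).det)) 1
      = 2 * ((n : ℝ) - 1) * ((deriv (deriv φ) 1 * φ 1 - deriv φ 1 * deriv φ 1) / φ 1 ^ 2)
        + 2 * deriv (deriv θ) 1 := by
    rw [hL1.deriv_eq]
    exact ((((famAux_diff_deriv (hφ1.of_le family_two_le)).hasDerivAt.fun_div hφd
      h0.ne').const_mul _).fun_add
        ((famAux_diff_deriv (hθ1.of_le family_two_le)).hasDerivAt.const_mul 2)).deriv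
  -- the first radial derivative
  set D := famD H (γ 1) (deriv γ 1) x with hD
  have hDd : ∀ i j, HasDerivAt (fun s => H (γ s) x i j) (D i j) 1 :=
    famD_hasDerivAt hF hγd h1 hx0
  have hrd : rd1 g x = (2 * φ 1 * deriv φ 1) • H (γ 1) x + φ 1 ^ 2 • D := by
    ext i j
    have h2 : (fun t : ℝ => g (t • x) i j)
        =ᶠ[𝓝 1] fun t => prj x i j + φ t ^ 2 * H (γ t) x i j := by
      filter_upwards [hev] with t ht
      rw [hg, famM_smul hF _ hx ht.1]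
      rfl
    simp only [rd1, Matrix.of_apply]
    rw [h2.deriv_eq, (((hφd.fun_pow 2).fun_mul (hDd i j)).const_add _).deriv]
    simp
  have hgx : g x = prj x + φ 1 ^ 2 • H (γ 1) x := by
    have := famM_smul hF (fun s => (φ s, γ s)) hx one_pos
    rwa [one_smul] at this
  have hp := hF.pos _ h1 _ hx0
  have hDπ : D * prj x = 0 := by
    have := family_deriv_mul_zero (A := 1) (B := prj x) hDd
      (Eventually.of_forall fun s => by rw [one_mul, family_mul_prj (hF.rad _ _)])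
    rwa [one_mul] at this
  have hπD : prj x * D = 0 := by
    have := family_deriv_mul_zero (A := prj x) (B := 1) hDd (by
      filter_upwards [hev] with s hs
      rw [mul_one, family_prj_mul (hF.symm hs.2.2 hx0) (hF.rad _ _)])
    rwa [mul_one] at this
  set W := famW H (γ 1) (deriv γ 1) x with hW
  have hW' : W = (prj x + H (γ 1) x)⁻¹ * D := rfl
  have hθd : deriv θ 1 = (1 / 2) * W.trace := by
    have h2 := famAux_hasDerivAt_log_det (X := fun s => prj x + H (γ s) x) (X' := D) (r := 1)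
      (fun i j => (hDd i j).const_add _) hp.det_pos.ne'
    exact (h2.const_mul (1 / 2)).deriv
  have hS : (g x)⁻¹ * rd1 g x = (2 * (deriv φ 1 / φ 1)) • (1 - prj x) + W := by
    have h3 := family_prj_mul (hF.symm h1 hx0) (hF.rad (γ 1) x)
    have h5 := family_inv_mul_self hx0 (hF.rad (γ 1) x) hp
    have h6 : φ 1 ^ 2 * (φ 1 ^ 2)⁻¹ = 1 := mul_inv_cancel₀ (pow_ne_zero 2 h0.ne')
    have h7 : 2 * φ 1 * deriv φ 1 * (φ 1 ^ 2)⁻¹ = 2 * (deriv φ 1 / φ 1) := by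
      field_simp
    rw [hgx, inv_rad hx0 (hF.rad _ _) hp h0.ne', hrd, hW']
    simp only [add_mul, mul_add, smul_mul_assoc, mul_smul_comm, sub_mul, h3, h5, hπD,
      sub_zero, zero_add, smul_smul, h6, h7, one_smul]
  have hWπ : W * prj x = 0 := by rw [hW', mul_assoc, hDπ, mul_zero]
  have hT : ((g x)⁻¹ * rd1 g x * ((g x)⁻¹ * rd1 g x)).trace
      = 4 * (deriv φ 1 / φ 1) ^ 2 * ((n : ℝ) - 1) + 4 * (deriv φ 1 / φ 1) * W.trace
        + (W * W).trace := by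
    have h2 : (1 - prj x) * (1 - prj x) = 1 - prj x := by
      rw [mul_sub, sub_mul, sub_mul, family_prj_mul_prj hx0]; simp
    have h3 : W * (1 - prj x) = W := by rw [mul_sub, hWπ, mul_one, sub_zero]
    have h4 : ((1 - prj x) * W).trace = W.trace := by rw [Matrix.trace_mul_comm, h3]
    have h5 : (1 - prj x).trace = (n : ℝ) - 1 := by
      rw [Matrix.trace_sub, Matrix.trace_one, family_trace_prj hx0, Fintype.card_fin]
    rw [hS]
    simp only [add_mul, mul_add, smul_mul_assoc, mul_smul_comm, h2, h3, Matrix.trace_add,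
      Matrix.trace_smul, h4, h5, smul_eq_mul]
    ring
  rw [ric_radial hR hrad, hL1.eq_of_nhds, hL2, hT, hθd]
  field_simp
  ring

/-- first and second derivative of `s ↦ u (τ (r s))` at `1` -/
theorem family_time_deriv {b : ℝ} {β ψ τ : ℝ → ℝ} (hT : Tm b β ψ τ) {V : Type}
    [NormedAddCommGroup V] [NormedSpace ℝ V] {u : ℝ → V} {r : ℝ} (hr : 0 < r)
    (hu : ContDiffAt ℝ 2 u (τ r)) :
    deriv (fun s => u (τ (r * s))) 1 = (r / ψ r) • deriv u (τ r) ∧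
    deriv (deriv fun s => u (τ (r * s))) 1
      = (r / ψ r) ^ 2 • (deriv (deriv u) (τ r) - β (τ r) • deriv u (τ r)) := by
  have hψ0 : ∀ s, 0 < s → 0 < ψ s := fun s hs => (mul_pos hT.b_pos hs).trans_le (hT.ψ_ge s hs)
  have hm : ∀ s : ℝ, HasDerivAt (fun s : ℝ => r * s) r s := fun s => by
    simpa using (hasDerivAt_id s).const_mul r
  have hτ : ∀ s : ℝ, 0 < s → HasDerivAt (fun s => τ (r * s)) ((ψ (r * s))⁻¹ * r) s := fun s hs =>
    (hT.dτ _ (mul_pos hr hs)).comp s (hm s)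
  have hc : ContinuousAt (fun s => τ (r * s)) 1 := (hτ 1 one_pos).continuousAt
  have hu' : ContDiffAt ℝ 2 u (τ (r * 1)) := by rwa [mul_one]
  have h1 : deriv (fun s => u (τ (r * s)))
      =ᶠ[𝓝 1] fun s => ((ψ (r * s))⁻¹ * r) • deriv u (τ (r * s)) := by
    filter_upwards [hc.eventually (famAux_ev_diff hu'), Ioi_mem_nhds (one_pos (α := ℝ))]
      with s h2 hs
    exact (h2.hasDerivAt.scomp s (hτ s hs)).deriv
  constructor
  · rw [h1.eq_of_nhds, mul_one, div_eq_inv_mul]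
  · rw [h1.deriv_eq]
    have h2 : HasDerivAt (fun s => ψ (r * s)) (β (τ (r * 1)) * r) 1 :=
      (hT.dψ _ (mul_pos hr one_pos)).comp 1 (hm 1)
    have h3 := ((h2.fun_inv (hψ0 _ (mul_pos hr one_pos)).ne').mul_const r).fun_smul
      ((famAux_diff_deriv hu').hasDerivAt.scomp 1 (hτ 1 one_pos))
    have h4 := (hψ0 r hr).ne'
    refine h3.deriv.trans ?_
    simp only [Function.comp, mul_one, smul_smul, smul_sub]
    rw [sub_eq_add_neg, ← neg_smul]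
    congr 2 <;> field_simp

theorem family_phi_deriv {b : ℝ} {β ψ τ : ℝ → ℝ} (hT : Tm b β ψ τ) {r : ℝ} (hr : 0 < r) :
    deriv (fun s => ψ (r * s) / (r * s)) 1 = β (τ r) - ψ r / r ∧
    deriv (deriv fun s => ψ (r * s) / (r * s)) 1
      = r / ψ r * deriv β (τ r) - 2 * (β (τ r) - ψ r / r) := by
  have hm : ∀ s : ℝ, HasDerivAt (fun s : ℝ => r * s) r s := fun s => by
    simpa using (hasDerivAt_id s).const_mul r
  have hψ : ∀ s : ℝ, 0 < s → HasDerivAt (fun s => ψ (r * s)) (β (τ (r * s)) * r) s := fun s hs =>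
    (hT.dψ _ (mul_pos hr hs)).comp s (hm s)
  have h1 : deriv (fun s => ψ (r * s) / (r * s))
      =ᶠ[𝓝 1] fun s => (β (τ (r * s)) * r * (r * s) - ψ (r * s) * r) / (r * s) ^ 2 := by
    filter_upwards [Ioi_mem_nhds (one_pos (α := ℝ))] with s hs
    exact ((hψ s hs).fun_div (hm s) (mul_pos hr hs).ne').deriv
  constructor
  · rw [h1.eq_of_nhds, mul_one]
    field_simp
  · rw [h1.deriv_eq]
    have hβ : DifferentiableAt ℝ (fun s => β (τ (r * s))) 1 :=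
      (hT.β_smooth.differentiable (by simp) _).comp 1
        ((hT.dτ _ (mul_pos hr one_pos)).comp 1 (hm 1)).differentiableAt
    have h2 := hβ.hasDerivAt
    rw [(family_time_deriv hT hr (hT.β_smooth.contDiffAt.of_le family_two_le)).1] at h2
    have h3 := (((h2.mul_const r).fun_mul (hm 1)).fun_sub ((hψ 1 one_pos).mul_const r)).fun_div
      ((hm 1).fun_pow 2) (pow_ne_zero 2 (mul_pos hr one_pos).ne')
    refine h3.deriv.trans ?_
    simp only [mul_one, smul_eq_mul]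
    norm_num
    field_simp

theorem family_ric_expand (g : MetricField n) (y x w : E n) (s : ℝ) :
    ric g y (s • x + w) (s • x + w)
      = s ^ 2 * ric g y x x + s * ric g y x w + s * ric g y w x + ric g y w w := by
  simp only [ric, Finset.mul_sum, ← Finset.sum_add_distrib]
  refine Finset.sum_congr rfl fun i _ => Finset.sum_congr rfl fun j _ => ?_
  simp only [PiLp.add_apply, PiLp.smul_apply, smul_eq_mul]
  ring

theorem family_final {G : MetricField n} {x : E n} (hx : ‖x‖ = 1) (hR : RiemAt G x)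
    {A B m : ℝ} (hA : A < ric G x x x) (hA0 : 0 ≤ A)
    (hB : ∀ w, ⟪x, w⟫ = 0 → |ric G x x w| ≤ B * ‖w‖)
    (hD : ∀ w, ⟪x, w⟫ = 0 → m * ‖w‖ ^ 2 ≤ ric G x w w) (hm : 0 < m) (hAB : B ^ 2 ≤ A * m)
    {v : E n} (hv : v ≠ 0) : 0 < ric G x v v := by
  set s : ℝ := ⟪x, v⟫ with hs
  set w : E n := v - s • x with hw
  have hxw : ⟪x, w⟫ = 0 := by
    rw [hw, inner_sub_right, inner_smul_right, real_inner_self_eq_norm_sq, hx, ← hs]; ring
  have hv' : v = s • x + w := by rw [hw]; abel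
  have hpos : 0 < ric G x x x := hA0.trans_lt hA
  rw [hv', family_ric_expand, hR.ric_symm w x]
  have h1 := hB w hxw
  have h2 := hD w hxw
  by_cases hw0 : w = 0
  · have hs0 : s ≠ 0 := by
      intro h
      apply hv
      rw [hv', h, hw0]; simp
    rw [hw0, norm_zero, mul_zero] at h1
    rw [hw0, norm_zero] at h2
    have h3 : ric G x x 0 = 0 := abs_nonpos_iff.1 h1
    rw [hw0, h3]
    have : 0 < s ^ 2 * ric G x x x := by positivity
    linarith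
  · have hw1 : 0 < ‖w‖ ^ 2 := by positivity
    have h3 : ric G x x w ^ 2 ≤ (B * ‖w‖) ^ 2 := sq_le_sq' (abs_le.1 h1).1 (abs_le.1 h1).2
    have h4 : B ^ 2 * ‖w‖ ^ 2 ≤ A * m * ‖w‖ ^ 2 := mul_le_mul_of_nonneg_right hAB hw1.le
    have h5 : A * (m * ‖w‖ ^ 2) < ric G x x x * (m * ‖w‖ ^ 2) :=
      mul_lt_mul_of_pos_right hA (mul_pos hm hw1)
    have h6 : ric G x x x * (m * ‖w‖ ^ 2) ≤ ric G x x x * ric G x w w :=
      mul_le_mul_of_nonneg_left h2 hpos.le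
    have h7 : 0 < ric G x x x * (s ^ 2 * ric G x x x + s * ric G x x w + s * ric G x x w
        + ric G x w w) := by
      nlinarith [sq_nonneg (s * ric G x x x + ric G x x w)]
    exact (pos_iff_pos_of_mul_pos h7).1 hpos

theorem family_deriv_prod {φ : ℝ → ℝ} {γ : ℝ → P} {t : ℝ} (hφ : ContDiffAt ℝ 2 φ t)
    (hγ : ContDiffAt ℝ 2 γ t) :
    deriv (fun s => (φ s, γ s)) t = (deriv φ t, deriv γ t) ∧
    deriv (deriv fun s => (φ s, γ s)) t = (deriv (deriv φ) t, deriv (deriv γ) t) := by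
  have h1 : deriv (fun s => (φ s, γ s)) =ᶠ[𝓝 t] fun s => (deriv φ s, deriv γ s) := by
    filter_upwards [famAux_ev_diff hφ, famAux_ev_diff hγ] with s h1 h2
    exact (h1.hasDerivAt.prodMk h2.hasDerivAt).deriv
  refine ⟨h1.eq_of_nhds, ?_⟩
  rw [h1.deriv_eq]
  exact ((famAux_diff_deriv hφ).hasDerivAt.prodMk (famAux_diff_deriv hγ).hasDerivAt).deriv

theorem family_trace_sq_le {W : Mat n} {M : ℝ} (h : ∀ i j, |W i j| ≤ M) :
    (W * W).trace ≤ (n : ℝ) ^ 2 * M ^ 2 := by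
  simp only [Matrix.trace, Matrix.diag, Matrix.mul_apply]
  calc ∑ i, ∑ j, W i j * W j i ≤ ∑ _i : Fin n, ∑ _j : Fin n, M ^ 2 := by
        refine Finset.sum_le_sum fun i _ => Finset.sum_le_sum fun j _ => (le_abs_self _).trans ?_
        rw [abs_mul, sq]
        exact mul_le_mul (h i j) (h j i) (abs_nonneg _) ((abs_nonneg _).trans (h i j))
    _ = (n : ℝ) ^ 2 * M ^ 2 := by simp; ring

theorem famW_zero (H : P → E n → Mat n) (c : P) (x : E n) : famW H c 0 x = 0 := by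
  have : famD H c 0 x = 0 := by
    ext i j
    simp only [famD, Matrix.of_apply, Matrix.zero_apply]
    exact map_zero _
  rw [famW, this, mul_zero]

/-- The estimates for a model whose 2-jet is close to that of a cone. -/
theorem famM_est {H : P → E n → Mat n} {O : Set P} (hF : Fam H O) {K : Set P} (hK : IsCompact K)
    (hKO : K ⊆ O) {b : ℝ} (hb : 0 < b) {μ : ℝ} (hμ : 0 < μ)
    (hpos : ∀ c ∈ K, ∀ x v : E n, ‖x‖ = 1 → ⟪x, v⟫ = 0 →
      μ * ‖v‖ ^ 2 ≤ ric (cone b (H c)) x v v) :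
    ∃ δ > 0, ∃ L : ℝ, 0 ≤ L ∧ ∀ c₀ ∈ K, ∀ x : E n, ‖x‖ = 1 → ∀ (φ : ℝ → ℝ) (γ : ℝ → P),
      ContDiffOn ℝ ∞ φ (Ioi 0) → ContDiffOn ℝ ∞ γ (Ioi 0) → 0 < φ 1 → γ 1 ∈ O →
      |φ 1 - b| ≤ δ → |deriv φ 1| ≤ δ → |deriv (deriv φ) 1| ≤ δ →
      ‖γ 1 - c₀‖ ≤ δ → ‖deriv γ 1‖ ≤ δ → ‖deriv (deriv γ) 1‖ ≤ δ →
      (∀ w, ⟪x, w⟫ = 0 → μ / 2 * ‖w‖ ^ 2 ≤ ric (famM H fun s => (φ s, γ s)) x w w) ∧
      (∀ w, ⟪x, w⟫ = 0 → |ric (famM H fun s => (φ s, γ s)) x x w|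
        ≤ L * max ‖deriv γ 1‖ ‖deriv (deriv γ) 1‖ * ‖w‖) ∧
      (famW H (γ 1) (deriv γ 1) x * famW H (γ 1) (deriv γ 1) x).trace
        ≤ L ^ 2 * ‖deriv γ 1‖ ^ 2 := by
  obtain ⟨δ, hδ, L, hL, h⟩ := famM_lip hF hK hKO hb.ne'
  have hD : 0 < (n : ℝ) ^ 2 * L + 1 := by positivity
  refine ⟨min δ (μ / 2 / ((n : ℝ) ^ 2 * L + 1)), lt_min hδ (by positivity), (n : ℝ) ^ 2 * L,
    by positivity, ?_⟩
  intro c₀ hc₀ x hx φ γ hφ hγ h0 h1 e0 e1 e2 f0 f1 f2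
  have hx0 : x ≠ 0 := by rintro rfl; simp at hx
  have hn : (1 : ℝ) ≤ n := by exact_mod_cast family_pos_dim hx0
  obtain ⟨d1, d2⟩ := family_deriv_prod
    ((hφ.contDiffAt (Ioi_mem_nhds one_pos)).of_le family_two_le)
    ((hγ.contDiffAt (Ioi_mem_nhds one_pos)).of_le family_two_le)
  have hjet := ricci_famM_jet hF (hφ.prodMk hγ) hx h0.ne' h1
  rw [d1, d2] at hjet
  set δ' := min δ (μ / 2 / ((n : ℝ) ^ 2 * L + 1)) with hδ'
  have hδ0 : 0 ≤ δ' := (abs_nonneg _).trans e0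
  set a₀ := φ 1
  set a₁ := deriv φ 1
  set a₂ := deriv (deriv φ) 1
  set c₁ := deriv γ 1
  set c₂ := deriv (deriv γ) 1
  have hric : ∀ v w, ric (famM H fun s => (φ s, γ s)) x v w
      = ric (famM H (famT ((a₀, γ 1), (a₁, c₁), (a₂, c₂)))) x v w := fun v w => by
    simp only [ric, hjet]
  have hq : ‖(((a₀, γ 1), (a₁, c₁), (a₂, c₂)) : FamQ P) - ((b, c₀), 0, 0)‖ ≤ δ' := by
    simp only [Prod.mk_sub_mk, sub_zero, Prod.norm_mk, Real.norm_eq_abs, max_le_iff]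
    exact ⟨⟨e0, f0⟩, ⟨e1, f1⟩, e2, f2⟩
  have hq' : ‖(((a₀, γ 1), (a₁, 0), (a₂, 0)) : FamQ P) - ((b, c₀), 0, 0)‖ ≤ δ' := by
    simp only [Prod.mk_sub_mk, sub_zero, Prod.norm_mk, Real.norm_eq_abs, max_le_iff, norm_zero]
    exact ⟨⟨e0, f0⟩, ⟨e1, hδ0⟩, e2, hδ0⟩
  have hq'' : ‖(((a₀, γ 1), (a₁, 0), (a₂, c₂)) : FamQ P) - ((b, c₀), 0, 0)‖ ≤ δ' := by
    simp only [Prod.mk_sub_mk, sub_zero, Prod.norm_mk, Real.norm_eq_abs, max_le_iff, norm_zero]
    exact ⟨⟨e0, f0⟩, ⟨e1, hδ0⟩, e2, f2⟩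
  have hle : δ' ≤ δ := min_le_left _ _
  refine ⟨fun w hw => ?_, fun w hw => ?_, ?_⟩
  · have h2 := family_ric_sub_le (fun i j => (h c₀ hc₀ x hx _ ((b, c₀), 0, 0)
      (hq.trans hle) (by simpa using hδ.le) i j).1) w w
    rw [famM_const, ← hric] at h2
    have h3 := hpos c₀ hc₀ x w hx hw
    set d := ‖(((a₀, γ 1), (a₁, c₁), (a₂, c₂)) : FamQ P) - ((b, c₀), 0, 0)‖
    have h4 : d * ((n : ℝ) ^ 2 * L + 1) ≤ μ / 2 :=
      (le_div_iff₀ hD).1 (hq.trans (min_le_right _ _))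
    have hd0 : 0 ≤ d := norm_nonneg _
    have h5 : (n : ℝ) ^ 2 * (L * d) ≤ μ / 2 := by nlinarith
    have h6 := mul_le_mul_of_nonneg_right h5 (mul_nonneg (norm_nonneg w) (norm_nonneg w))
    have h7 := (abs_le.1 h2).1
    nlinarith
  · have h2 := family_ric_sub_le (fun i j => (h c₀ hc₀ x hx _ _
      (hq.trans hle) (hq'.trans hle) i j).1) x w
    have h3 : ric (famM H (famT ((a₀, γ 1), (a₁, 0), (a₂, 0)))) x x w = 0 := by
      refine ric_mixed (φ := fun s => (famT (((a₀, γ 1), (a₁, 0), (a₂, 0)) : FamQ P) s).1)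
        (K := H (γ 1)) hx0
        (riemAt_famM hF (famT_contDiff _).contDiffOn hx0 (by simpa [hx] using h0.ne')
          (by simpa [hx] using h1))
        (famT_contDiff _).fst.contDiffAt (by simpa [hx] using h0.ne') (hF.hom _) (hF.rad _)
        (Eventually.of_forall fun y => ?_) hw
      simp [famM, famF, famT]
    have h4 : ‖(((a₀, γ 1), (a₁, c₁), (a₂, c₂)) : FamQ P) - ((a₀, γ 1), (a₁, 0), (a₂, 0))‖
        = max ‖c₁‖ ‖c₂‖ := by
      simp [Prod.norm_def]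
    rw [h3, sub_zero, h4, ← hric, hx, one_mul] at h2
    simpa only [mul_assoc] using h2
  · have h4 : ‖(((a₀, γ 1), (a₁, c₁), (a₂, c₂)) : FamQ P) - ((a₀, γ 1), (a₁, 0), (a₂, c₂))‖
        = ‖c₁‖ := by
      simp [Prod.norm_def]
    have h2 : ∀ i j, |famW H (γ 1) c₁ x i j| ≤ L * ‖c₁‖ := fun i j => by
      have h3 := (h c₀ hc₀ x hx _ _ (hq.trans hle) (hq''.trans hle) i j).2
      simpa only [famW_zero, Matrix.zero_apply, sub_zero, h4] using h3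
    refine (family_trace_sq_le h2).trans ?_
    have h5 : (n : ℝ) ^ 2 ≤ ((n : ℝ) ^ 2) ^ 2 := by nlinarith [one_le_pow₀ (n := 2) hn]
    have h6 := mul_le_mul_of_nonneg_right h5 (sq_nonneg (L * ‖c₁‖))
    nlinarith

theorem family_arith1 {k b δ u₁ u₂ L μ : ℝ} (hb : 0 < b) (hb1 : b < 1) (hδ : 0 < δ) (hμ : 0 < μ)
    (hk1 : 1 ≤ k) (hkb : k * b ≤ 1) (h1 : 0 ≤ u₁) (h2 : 0 ≤ u₂) (h3 : u₁ ≤ δ * b ^ 2 / 2)
    (h4 : u₂ ≤ δ * b ^ 2 / 2) :
    k * u₁ ≤ k ^ 2 * (u₁ + u₂) ∧ k ^ 2 * (u₁ + u₂) ≤ δ ∧ δ * b ≤ δ ∧ δ * b ^ 2 / 2 ≤ δ ∧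
      k * (δ * b / 5) ≤ δ / 5 ∧
      (L * (k ^ 2 * (u₁ + u₂))) ^ 2 ≤ 4 * L ^ 2 / (μ * b ^ 4) * (u₁ ^ 2 + u₂ ^ 2) * (μ / 2) := by
  have hk0 : 0 < k := one_pos.trans_le hk1
  have hkb2 : k ^ 2 * b ^ 2 ≤ 1 := by nlinarith [mul_pos hk0 hb]
  have hδb : δ * b ≤ δ := by nlinarith
  refine ⟨by nlinarith [mul_nonneg hk0.le h1], ?_, hδb, by nlinarith [mul_pos hδ hb],
    by nlinarith, ?_⟩
  · have h5 : u₁ + u₂ ≤ δ * b ^ 2 := by linarith
    have h6 := mul_le_mul_of_nonneg_left h5 (sq_nonneg k)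
    nlinarith
  · have e1 : 4 * L ^ 2 / (μ * b ^ 4) * (u₁ ^ 2 + u₂ ^ 2) * (μ / 2) * b ^ 4
        = 2 * L ^ 2 * (u₁ ^ 2 + u₂ ^ 2) := by
      field_simp; ring
    have e2 : (u₁ + u₂) ^ 2 ≤ 2 * (u₁ ^ 2 + u₂ ^ 2) := by nlinarith [sq_nonneg (u₁ - u₂)]
    have e3 : (k ^ 2 * b ^ 2) ^ 2 ≤ 1 := pow_le_one₀ (by positivity) hkb2
    have e5 : (k ^ 2 * b ^ 2) ^ 2 * (u₁ + u₂) ^ 2 ≤ 1 * (2 * (u₁ ^ 2 + u₂ ^ 2)) :=
      mul_le_mul e3 e2 (sq_nonneg _) zero_le_one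
    have e6 := mul_le_mul_of_nonneg_left e5 (sq_nonneg L)
    refine le_of_mul_le_mul_right (a := b ^ 4) ?_ (by positivity)
    rw [e1]
    linarith

theorem family_arith2 {k u₁ u₂ L C₁ m β β' θ₁ θ₂ w : ℝ} (hk1 : 1 ≤ k) (hC : 0 ≤ C₁)
    (hmain : (L ^ 2 / 4 + C₁) * (u₁ ^ 2 + u₂ ^ 2) + θ₂ + β * θ₁ < -m * β')
    (hw : w ≤ L ^ 2 * (k * u₁) ^ 2) :
    C₁ * (u₁ ^ 2 + u₂ ^ 2)
      < -m * (k ^ 2 * β') - 2 * (k * θ₁) * (k * β) - k ^ 2 * (θ₂ - β * θ₁) - 1 / 4 * w := by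
  have h1 := mul_lt_mul_of_pos_left hmain (pow_pos (one_pos.trans_le hk1) 2)
  have h2 : C₁ * (u₁ ^ 2 + u₂ ^ 2) ≤ k ^ 2 * (C₁ * (u₁ ^ 2 + u₂ ^ 2)) :=
    le_mul_of_one_le_left (by positivity) (one_le_pow₀ hk1)
  have h3 : 0 ≤ L ^ 2 * k ^ 2 * u₂ ^ 2 := by positivity
  linarith

theorem ric_pos_fam [FiniteDimensional ℝ P] {b : ℝ} {β ψ τ : ℝ → ℝ} (hT : Tm b β ψ τ)
    {H : P → E n → Mat n} {O : Set P} (hF : Fam H O) {K : Set P} (hK : IsCompact K)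
    (hKO : K ⊆ O) {μ : ℝ} (hμ : 0 < μ)
    (hpos : ∀ c ∈ K, ∀ x v : E n, ‖x‖ = 1 → ⟪x, v⟫ = 0 →
      μ * ‖v‖ ^ 2 ≤ ric (cone b (H c)) x v v) :
    ∃ ε > 0, ∃ C T : ℝ, (∀ c₀ ∈ K, ∀ c, ‖c - c₀‖ ≤ ε → c ∈ O) ∧
      ∀ c : ℝ → P, ContDiff ℝ ∞ c → ∀ x : E n, x ≠ 0 → T ≤ τ ‖x‖ →
        (∃ c₀ ∈ K, ‖c (τ ‖x‖) - c₀‖ ≤ ε) → ‖deriv c (τ ‖x‖)‖ ≤ ε →
        ‖deriv (deriv c) (τ ‖x‖)‖ ≤ ε →
        C * (‖deriv c (τ ‖x‖)‖ ^ 2 + ‖deriv (deriv c) (τ ‖x‖)‖ ^ 2)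
          + deriv (deriv fun s => lTh H (c s) x) (τ ‖x‖)
          + β (τ ‖x‖) * deriv (fun s => lTh H (c s) x) (τ ‖x‖)
          < -((n : ℝ) - 1) * deriv β (τ ‖x‖) →
        ∀ v : E n, v ≠ 0 → 0 < ric (radM ψ (c ∘ τ) H) x v v := by
  have hb := hT.b_pos
  have hb1 := hT.b_lt
  obtain ⟨δ, hδ, L, hL, h⟩ := famM_est hF hK hKO hb hμ hpos
  obtain ⟨ρ, hρ, hρO⟩ := hK.exists_cthickening_subset_open hF.isOpen hKO
  have hO : ∀ c₀ ∈ K, ∀ c, ‖c - c₀‖ ≤ min ρ (δ * b ^ 2 / 2) → c ∈ O := fun c₀ hc₀ c hc =>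
    hρO (Metric.mem_cthickening_of_dist_le c c₀ ρ K hc₀
      (by rw [dist_eq_norm]; exact hc.trans (min_le_left _ _)))
  have hη : 0 < δ * b / 5 := by positivity
  obtain ⟨R, hR⟩ := eventually_atTop.1 (hT.ψ_lim.eventually (Metric.closedBall_mem_nhds b hη))
  obtain ⟨T₁, hT₁⟩ := eventually_atTop.1 ((hT.β_lim.eventually
    (Metric.closedBall_mem_nhds b hη)).and (hT.dβ_lim.eventually (Metric.closedBall_mem_nhds 0 hη)))
  refine ⟨min ρ (δ * b ^ 2 / 2), lt_min hρ (by positivity), L ^ 2 / 4 + 4 * L ^ 2 / (μ * b ^ 4),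
    max (max 1 (R / b)) T₁, hO, ?_⟩
  rintro c hc x hx hτ ⟨c₀, hc₀, hcc⟩ hc1 hc2 hmain v hv
  set r := ‖x‖ with hr
  have hr0 : 0 < r := norm_pos_iff.2 hx
  have hψ0 : ∀ s, 0 < s → 0 < ψ s := fun s hs => (mul_pos hb hs).trans_le (hT.ψ_ge s hs)
  have hτ1 : 1 ≤ τ r := ((le_max_left _ _).trans (le_max_left _ _)).trans hτ
  have hr1 : 1 ≤ r := by
    by_contra h'
    have h1 := hT.τ_eq r hr0 (not_le.1 h').le
    have h2 := Real.log_nonpos hr0.le (not_le.1 h').le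
    linarith
  have hRr : R ≤ r := by
    have h1 : R / b ≤ τ r := ((le_max_right _ _).trans (le_max_left _ _)).trans hτ
    have h2 := (div_le_iff₀ hb).1 h1
    have h3 := Real.add_one_le_exp (b * τ r)
    have h4 := hT.τ_le r hr1
    linarith
  have e0 : |ψ r / r - b| ≤ δ * b / 5 := by simpa [Real.dist_eq] using hR r hRr
  obtain ⟨e1, e2⟩ := hT₁ (τ r) ((le_max_right _ _).trans hτ)
  rw [Real.dist_eq] at e1 e2
  rw [sub_zero] at e2
  have hβ1 : β (τ r) ≤ 1 := (hT.β_anti (by linarith : (0 : ℝ) ≤ τ r)).trans_eq (hT.β_one 0 le_rfl)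
  have hβ0 : 0 ≤ β (τ r) := hb.le.trans (hT.β_ge _)
  -- the ratio `k = r / ψ r`
  set k := r / ψ r with hk
  have hk1 : 1 ≤ k := (one_le_div (hψ0 r hr0)).2 (hT.ψ_le r hr0)
  have hkb : k * b ≤ 1 := by
    rw [hk, div_mul_eq_mul_div, div_le_one (hψ0 r hr0), mul_comm]
    exact hT.ψ_ge r hr0
  have hk0 : 0 < k := one_pos.trans_le hk1
  -- rescaling
  set x₀ : E n := r⁻¹ • x with hx₀
  have hx1 : ‖x₀‖ = 1 := by
    rw [hx₀, norm_smul, norm_inv, Real.norm_eq_abs, abs_of_pos hr0, inv_mul_cancel₀ hr0.ne']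
  have hxx : r • x₀ = x := by rw [hx₀, smul_smul, mul_inv_cancel₀ hr0.ne', one_smul]
  have hx00 : x₀ ≠ 0 := by rintro h0; simp [h0] at hx1
  have hcO : c (τ r) ∈ O := hO c₀ hc₀ _ hcc
  set φ : ℝ → ℝ := fun s => ψ (r * s) / (r * s) with hφ
  set γ : ℝ → P := fun s => c (τ (r * s)) with hγ
  have hmul : ContDiffOn ℝ ∞ (fun s : ℝ => r * s) (Ioi 0) := by fun_prop
  have hmaps : MapsTo (fun s : ℝ => r * s) (Ioi 0) (Ioi 0) := fun s hs => mul_pos hr0 hs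
  have hφs : ContDiffOn ℝ ∞ φ (Ioi 0) :=
    (hT.ψ_smooth.comp hmul hmaps).div hmul fun s hs => (mul_pos hr0 hs).ne'
  have hγs : ContDiffOn ℝ ∞ γ (Ioi 0) := hc.comp_contDiffOn (hT.τ_smooth.comp hmul hmaps)
  have hφ1 : φ 1 = ψ r / r := by simp [hφ]
  have hγ1 : γ 1 = c (τ r) := by simp [hγ]
  have hφpos : 0 < φ 1 := by rw [hφ1]; exact div_pos (hψ0 r hr0) hr0
  have hscale : ric (famM H fun s => (φ s, γ s)) x₀ v v
      = r ^ 2 * ric (radM ψ (c ∘ τ) H) x v v := by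
    have h1 : RiemAt (radM ψ (c ∘ τ) H) (r • x₀) := by
      rw [hxx]
      exact hF.riemAt_radM hx hT.ψ_smooth hψ0 (hc.comp_contDiffOn hT.τ_smooth) hcO
    have h2 : (famM H fun s => (φ s, γ s)) =ᶠ[𝓝 x₀] fun y => radM ψ (c ∘ τ) H (r • y) := by
      filter_upwards [isOpen_ne.mem_nhds hx00] with y hy
      simp only [radM, if_neg (smul_ne_zero hr0.ne' hy), famM, famF, hφ, hγ, norm_smul,
        Real.norm_eq_abs, abs_of_pos hr0, family_prj_smul hr0.ne', hF.hom _ _ _ hr0,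
        Function.comp]
    simp only [ric, ricci_congr h2, ricci_comp_smul h1, hxx, Finset.mul_sum, mul_assoc]
  suffices hs : 0 < ric (famM H fun s => (φ s, γ s)) x₀ v v by
    rw [hscale] at hs
    exact (pos_iff_pos_of_mul_pos hs).1 (by positivity)
  obtain ⟨p1, p2⟩ := family_phi_deriv hT hr0
  obtain ⟨q1, q2⟩ := family_time_deriv hT hr0 (u := c) (hc.contDiffAt.of_le family_two_le)
  obtain ⟨t1, t2⟩ := family_time_deriv hT hr0 (u := fun s => lTh H (c s) x)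
    ((family_lTh_smooth hF hc.contDiffAt hcO hx).of_le family_two_le)
  have hθ : (fun s => lTh H (γ s) x₀) = fun s => lTh H (c (τ (r * s))) x := by
    funext s
    simp only [lTh, hγ, hx₀, family_prj_smul (inv_pos.2 hr0).ne', hF.hom _ _ _ (inv_pos.2 hr0)]
  rw [← hφ] at p1 p2
  rw [← hγ, ← hk] at q1 q2
  rw [← hk] at p2 t1 t2
  set u₁ := ‖deriv c (τ r)‖ with hu₁
  set u₂ := ‖deriv (deriv c) (τ r)‖ with hu₂
  have hu₁0 : 0 ≤ u₁ := norm_nonneg _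
  have hu₂0 : 0 ≤ u₂ := norm_nonneg _
  have n1 : ‖deriv γ 1‖ = k * u₁ := by rw [q1, norm_smul, Real.norm_eq_abs, abs_of_pos hk0]
  have n2 : ‖deriv (deriv γ) 1‖ ≤ k ^ 2 * (u₁ + u₂) := by
    rw [q2, norm_smul, Real.norm_eq_abs, abs_of_pos (by positivity)]
    refine mul_le_mul_of_nonneg_left ((norm_sub_le _ _).trans ?_) (by positivity)
    rw [norm_smul, Real.norm_eq_abs, abs_of_nonneg hβ0]
    linarith [mul_le_of_le_one_left hu₁0 hβ1]
  obtain ⟨n3, n4, hδb, hδb2, hkδ, hAB⟩ := family_arith1 (L := L) hb hb1 hδ hμ hk1 hkb hu₁0 hu₂0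
    (hc1.trans (min_le_right _ _)) (hc2.trans (min_le_right _ _))
  have a1 : |β (τ r) - ψ r / r| ≤ 2 * (δ * b / 5) := by
    rw [abs_le] at e0 e1 ⊢
    constructor <;> linarith [e0.1, e0.2, e1.1, e1.2]
  have a2 : |k * deriv β (τ r)| ≤ δ / 5 := by
    rw [abs_mul, abs_of_pos hk0]
    exact (mul_le_mul_of_nonneg_left e2 hk0.le).trans hkδ
  obtain ⟨hD, hB, hW⟩ := h c₀ hc₀ x₀ hx1 φ γ hφs hγs hφpos (hγ1 ▸ hcO)
    (by rw [hφ1]; linarith) (by rw [p1]; linarith)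
    (by
      rw [p2]
      rw [abs_le] at a1 a2 ⊢
      constructor <;> linarith [a1.1, a1.2, a2.1, a2.2])
    (by rw [hγ1]; exact (hcc.trans (min_le_right _ _)).trans hδb2)
    (by rw [n1]; linarith) (n2.trans n4)
  have hA := ric_famM_radial hF hφs hγs hx1 hφpos (hγ1 ▸ hcO)
  rw [hθ, t1, t2, p1, p2, hφ1] at hA
  have hψr := (hψ0 r hr0).ne'
  have hA1 : (2 * (β (τ r) - ψ r / r) + (k * deriv β (τ r) - 2 * (β (τ r) - ψ r / r))) / (ψ r / r)
      = k ^ 2 * deriv β (τ r) := by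
    rw [hk]; field_simp; ring
  have hA2 : 1 + (β (τ r) - ψ r / r) / (ψ r / r) = k * β (τ r) := by
    rw [hk]; field_simp; ring
  rw [hA1, hA2, smul_eq_mul, smul_eq_mul, smul_eq_mul] at hA
  refine family_final hx1 (riemAt_famM hF (hφs.prodMk hγs) hx00 (by simpa [hx1] using hφpos.ne')
    (by simpa [hx1, hγ1] using hcO)) ?_ (by positivity) (fun w hw => (hB w hw).trans ?_) hD
    (half_pos hμ) hAB hv
  · rw [n1] at hW
    rw [hA]
    exact family_arith2 hk1 (by positivity) hmain hW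
  · refine mul_le_mul_of_nonneg_right (mul_le_mul_of_nonneg_left (max_le ?_ n2) hL)
      (norm_nonneg w)
    rw [n1]; exact n3

end Crest.Agent.R202
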