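import Crest.Agent.R202.Defs

/-!
# R202/Lap: divergence calculus
-/

open scoped ContDiff Topology Matrix RealInnerProductSpace
open Set Filter
open Crest.GeometryTopology.CoordMetric Crest.GeometryTopology.ChartCurvature

noncomputable section

namespace Crest.Agent.R202

variable {n : ℕ}

theorem lap_clm_eq_sum (L : E n →L[ℝ] ℝ) (v : E n) :
    L v = ∑ i, v i * L (EuclideanSpace.single i 1) := by
  conv_lhs => rw [← (EuclideanSpace.basisFun (Fin n) ℝ).sum_repr v]
  simp [map_sum, map_smul]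

theorem lap_diff_coord {V : E n → E n} {x : E n} (hV : DifferentiableAt ℝ V x) (i : Fin n) :
    DifferentiableAt ℝ (fun y => V y i) x :=
  (EuclideanSpace.proj i : E n →L[ℝ] ℝ).differentiableAt.comp x hV

theorem lap_pderiv_coord (i j : Fin n) (x : E n) :
    pderiv i (fun y : E n => y j) x = if j = i then 1 else 0 := by
  have h : HasFDerivAt (fun y : E n => y j) (EuclideanSpace.proj j : E n →L[ℝ] ℝ) x :=
    (EuclideanSpace.proj j : E n →L[ℝ] ℝ).hasFDerivAt
  unfold pderiv
  rw [h.fderiv]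
  simp

theorem fderiv_eq_inner_grd (f : E n → ℝ) (x v : E n) : fderiv ℝ f x v = ⟪grd f x, v⟫ := by
  rw [lap_clm_eq_sum, PiLp.inner_apply]
  refine Finset.sum_congr rfl fun i _ => ?_
  simp [grd, pderiv]

theorem dv_congr {V W : E n → E n} {x : E n} (h : V =ᶠ[𝓝 x] W) : dv V x = dv W x := by
  unfold dv pderiv
  refine Finset.sum_congr rfl fun i _ => ?_
  have : (fun y => V y i) =ᶠ[𝓝 x] fun y => W y i := h.mono fun y hy => by simp only [hy]
  rw [this.fderiv_eq]

theorem laplace_of_field {g : MetricField n} {f : E n → ℝ} {x : E n} {V : E n → E n}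
    (hV : ∀ᶠ y in 𝓝 x, Real.sqrt (g y).det • mv (g y)⁻¹ (grd f y) = V y) :
    laplaceBeltrami g f x = 1 / Real.sqrt (g x).det * dv V x := by
  rw [← dv_congr (V := fun y => Real.sqrt (g y).det • mv (g y)⁻¹ (grd f y)) hV]
  rfl

theorem dv_add {V W : E n → E n} {x : E n} (hV : DifferentiableAt ℝ V x)
    (hW : DifferentiableAt ℝ W x) : dv (fun y => V y + W y) x = dv V x + dv W x := by
  unfold dv pderiv
  rw [← Finset.sum_add_distrib]
  refine Finset.sum_congr rfl fun i _ => ?_
  have : (fun y => (V y + W y) i) = fun y => V y i + W y i := by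
    funext y; simp
  rw [this, fderiv_fun_add (lap_diff_coord hV i) (lap_diff_coord hW i)]
  simp

theorem dv_sum {ι : Type} (s : Finset ι) {V : ι → E n → E n} {x : E n}
    (hV : ∀ k ∈ s, DifferentiableAt ℝ (V k) x) :
    dv (fun y => ∑ k ∈ s, V k y) x = ∑ k ∈ s, dv (V k) x := by
  unfold dv pderiv
  rw [Finset.sum_comm]
  refine Finset.sum_congr rfl fun i _ => ?_
  have : (fun y => (∑ k ∈ s, V k y) i) = fun y => ∑ k ∈ s, V k y i := by
    funext y; simp
  rw [this, fderiv_fun_sum fun k hk => lap_diff_coord (hV k hk) i]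
  simp

theorem dv_smul {φ : E n → ℝ} {V : E n → E n} {x : E n} (hφ : DifferentiableAt ℝ φ x)
    (hV : DifferentiableAt ℝ V x) :
    dv (fun y => φ y • V y) x = fderiv ℝ φ x (V x) + φ x * dv V x := by
  unfold dv pderiv
  rw [lap_clm_eq_sum (fderiv ℝ φ x) (V x), Finset.mul_sum, ← Finset.sum_add_distrib]
  refine Finset.sum_congr rfl fun i _ => ?_
  have : (fun y => (φ y • V y) i) = fun y => φ y * V y i := by
    funext y; simp
  rw [this, fderiv_fun_mul hφ (lap_diff_coord hV i)]
  simp [add_comm]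

theorem dv_id (x : E n) : dv (fun y => y) x = n := by
  unfold dv
  simp [lap_pderiv_coord]

theorem differentiable_mv (B : Mat n) : Differentiable ℝ (fun y : E n => mv B y) := by
  rw [differentiable_euclidean]
  intro i
  simp only [mv_apply]
  fun_prop

theorem dv_mv (B : Mat n) (x : E n) : dv (fun y => mv B y) x = B.trace := by
  unfold dv
  rw [Matrix.trace]
  refine Finset.sum_congr rfl fun i _ => ?_
  have h : HasFDerivAt (fun y : E n => ∑ j, B i j * y j)
      (∑ j, B i j • (EuclideanSpace.proj j : E n →L[ℝ] ℝ)) x :=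
    HasFDerivAt.fun_sum fun j _ =>
      ((EuclideanSpace.proj j : E n →L[ℝ] ℝ).hasFDerivAt).const_mul (B i j)
  simp only [mv_apply]
  unfold pderiv
  rw [h.fderiv]
  simp

theorem differentiableAt_grd {f : E n → ℝ} {x : E n} (hf : ContDiffAt ℝ ∞ f x) :
    DifferentiableAt ℝ (grd f) x := by
  rw [differentiableAt_euclidean]
  intro i
  have h1 : ContDiffAt ℝ 1 (fderiv ℝ f) x := hf.fderiv_right (WithTop.coe_le_coe.mpr (le_top : ((1 : ℕ∞) + 1) ≤ ⊤))
  have h2 : DifferentiableAt ℝ (fderiv ℝ f) x := h1.differentiableAt one_ne_zero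
  exact h2.clm_apply (differentiableAt_const _)

theorem dv_grd (f : E n → ℝ) (x : E n) : dv (grd f) x = ∑ i, pderiv i (pderiv i f) x := rfl

theorem laplace_flat {g : MetricField n} {x : E n} (hg : ∀ᶠ y in 𝓝 x, g y = 1) (f : E n → ℝ) :
    laplaceBeltrami g f x = ∑ i, pderiv i (pderiv i f) x := by
  rw [laplace_of_field (V := grd f), hg.self_of_nhds, dv_grd]
  · simp
  · filter_upwards [hg] with y hy
    rw [hy]
    simp [mv]

theorem mv_prj (y v : E n) : mv (prj y) v = (⟪y, v⟫ / ‖y‖ ^ 2) • y := by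
  ext i
  simp only [mv_apply, prj_apply, PiLp.smul_apply, smul_eq_mul, PiLp.inner_apply,
    Finset.sum_div, Finset.sum_mul]
  refine Finset.sum_congr rfl fun j _ => ?_
  simp only [RCLike.inner_apply, conj_trivial]
  ring

/-- derivative of a radial function -/
theorem hasFDerivAt_radial {w : ℝ → ℝ} {w' : ℝ} {x : E n} (hx : x ≠ 0)
    (hw : HasDerivAt w w' ‖x‖) :
    HasFDerivAt (fun y : E n => w ‖y‖) ((w' / ‖x‖) • innerSL ℝ x) x := by
  have hn : ‖x‖ ≠ 0 := norm_ne_zero_iff.mpr hx
  have h1 : HasFDerivAt (fun y : E n => ‖y‖ ^ 2) (2 • innerSL ℝ x) x :=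
    (hasStrictFDerivAt_norm_sq x).hasFDerivAt
  have h2 := h1.sqrt (pow_ne_zero 2 hn)
  have h3 : HasFDerivAt (fun y : E n => ‖y‖) ((1 / ‖x‖) • innerSL ℝ x) x := by
    simp only [Real.sqrt_sq (norm_nonneg _)] at h2
    refine h2.congr_fderiv ?_
    rw [← Nat.cast_smul_eq_nsmul ℝ, smul_smul]
    congr 1
    field_simp
    norm_num
  have h4 := hw.comp_hasFDerivAt x h3
  refine h4.congr_fderiv ?_
  rw [smul_smul]
  congr 1
  ring

end Crest.Agent.R202
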