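import Crest.Agent.R202.OdeDefs

/-!
# R202/Lie: generation of the block diagonal matrix Lie algebra

The bracket is the commutator `X * Y - Y * X`.
-/

open scoped Matrix
open Set

noncomputable section

namespace Crest.Agent.R202

variable {W : Type} [Fintype W] [DecidableEq W]

/-- the projection onto degree `l` -/
def prD (d : W → ℕ) (l : ℕ) : Matrix W W ℝ := Matrix.diagonal fun i => if d i = l then 1 else 0

/-- the Lie algebra generated by `𝒳` and the block scalars -/
def genL (d : W → ℕ) (𝒳 : Set (Matrix W W ℝ)) : Submodule ℝ (Matrix W W ℝ) :=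
  sInf {S | (∀ X ∈ S, ∀ Y ∈ S, X * Y - Y * X ∈ S) ∧ (∀ X ∈ 𝒳, X ∈ S) ∧ ∀ l, prD d l ∈ S}

theorem genL_le {d : W → ℕ} {𝒳 : Set (Matrix W W ℝ)} {S : Submodule ℝ (Matrix W W ℝ)}
    (h1 : ∀ X ∈ S, ∀ Y ∈ S, X * Y - Y * X ∈ S) (h2 : ∀ X ∈ 𝒳, X ∈ S) (h3 : ∀ l, prD d l ∈ S) :
    genL d 𝒳 ≤ S := sInf_le ⟨h1, h2, h3⟩

theorem genL_lie {d : W → ℕ} {𝒳 : Set (Matrix W W ℝ)} {X Y : Matrix W W ℝ} (hX : X ∈ genL d 𝒳)
    (hY : Y ∈ genL d 𝒳) : X * Y - Y * X ∈ genL d 𝒳 :=
  Submodule.mem_sInf.2 fun S hS =>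
    hS.1 X (Submodule.mem_sInf.1 hX S hS) Y (Submodule.mem_sInf.1 hY S hS)

theorem mem_genL {d : W → ℕ} {𝒳 : Set (Matrix W W ℝ)} {X : Matrix W W ℝ} (hX : X ∈ 𝒳) :
    X ∈ genL d 𝒳 := Submodule.mem_sInf.2 fun _ hS => hS.2.1 X hX

theorem prD_mem_genL (d : W → ℕ) (𝒳 : Set (Matrix W W ℝ)) (l : ℕ) : prD d l ∈ genL d 𝒳 :=
  Submodule.mem_sInf.2 fun _ hS => hS.2.2 l

/-- `𝒳` and the block scalars generate all block diagonal matrices -/
def Gen (d : W → ℕ) (𝒳 : Set (Matrix W W ℝ)) : Prop := ∀ A, Blk d A → A ∈ genL d 𝒳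

/-- `X` is not a scalar on the block of degree `l` -/
def NonSc (d : W → ℕ) (l : ℕ) (X : Matrix W W ℝ) : Prop :=
  ∃ i j, d i = l ∧ d j = l ∧ ((i ≠ j ∧ X i j ≠ 0) ∨ X i i ≠ X j j)

theorem blk_of_mem_genL {d : W → ℕ} {𝒳 : Set (Matrix W W ℝ)} (h : ∀ X ∈ 𝒳, Blk d X)
    {A : Matrix W W ℝ} (hA : A ∈ genL d 𝒳) : Blk d A := by
  let S : Submodule ℝ (Matrix W W ℝ) :=
    { carrier := {A | Blk d A}
      add_mem' := fun {X Y} hX hY i j hij => by
        rw [Matrix.add_apply, hX i j hij, hY i j hij, add_zero]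
      zero_mem' := fun _ _ _ => rfl
      smul_mem' := fun c X hX i j hij => by
        rw [Matrix.smul_apply, hX i j hij, smul_zero] }
  have hm : ∀ X Y : Matrix W W ℝ, Blk d X → Blk d Y → Blk d (X * Y) := fun X Y hX hY i j hij => by
    rw [Matrix.mul_apply]
    refine Finset.sum_eq_zero fun k _ => ?_
    by_cases hk : d i = d k
    · rw [hY k j (hk ▸ hij), mul_zero]
    · rw [hX i k hk, zero_mul]
  refine genL_le (S := S) (fun X hX Y hY => S.sub_mem (hm X Y hX hY) (hm Y X hY hX)) h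
    (fun l i j hij => ?_) hA
  exact Matrix.diagonal_apply_ne _ fun e => hij (e ▸ rfl)

/-- elementary matrix -/
abbrev lieE (i j : W) : Matrix W W ℝ := Matrix.single i j 1

theorem lieE_mul_same (i j k : W) : (lieE i j : Matrix W W ℝ) * lieE j k = lieE i k := by
  rw [Matrix.single_mul_single_same, one_mul]

theorem lieE_mul_ne (i : W) {j k : W} (h : j ≠ k) (l : W) :
    (lieE i j : Matrix W W ℝ) * lieE k l = 0 := Matrix.single_mul_single_of_ne _ _ _ _ h _

theorem lieE_mul_mul (i j k l : W) (X : Matrix W W ℝ) :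
    lieE i j * X * lieE k l = X j k • lieE i l := by
  rw [Matrix.single_mul_mul_single, Matrix.smul_single, one_mul, mul_one, smul_eq_mul, mul_one]

theorem lie_mem_of_smul {S : Submodule ℝ (Matrix W W ℝ)} {c : ℝ} (hc : c ≠ 0) {X : Matrix W W ℝ}
    (h : c • X ∈ S) : X ∈ S := (S.smul_mem_iff hc).1 h

theorem lie_eq_sum (A : Matrix W W ℝ) : A = ∑ i, ∑ j, A i j • lieE i j := by
  conv_lhs => rw [Matrix.matrix_eq_sum_single A]
  simp only [Matrix.smul_single, smul_eq_mul, mul_one]

theorem lie_mem_of_E {S : Submodule ℝ (Matrix W W ℝ)} (h : ∀ i j, lieE i j ∈ S) (A : Matrix W W ℝ) :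
    A ∈ S := by
  rw [lie_eq_sum A]
  exact S.sum_mem fun i _ => S.sum_mem fun j _ => S.smul_mem _ (h i j)

/-- A subspace stable under brackets with all matrices and containing a non-scalar matrix contains
all elementary matrices `E i j`, `i ≠ j`, and `E i i - E j j` (bracket twice with `E j i`). -/
theorem sl_le_of_ideal (S : Submodule ℝ (Matrix W W ℝ))
    (hS : ∀ X ∈ S, ∀ A : Matrix W W ℝ, A * X - X * A ∈ S) {X : Matrix W W ℝ} (hX : X ∈ S)
    (hn : ∃ i j, (i ≠ j ∧ X i j ≠ 0) ∨ X i i ≠ X j j) {A : Matrix W W ℝ} (hA : A.trace = 0) :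
    A ∈ S := by
  have a1 : ∀ Y ∈ S, ∀ i j, i ≠ j → Y i j ≠ 0 → lieE j i ∈ S := fun Y hY i j hij hne => by
    have h := hS _ (hS Y hY (lieE j i)) (lieE j i)
    have e : lieE j i * (lieE j i * Y - Y * lieE j i) - (lieE j i * Y - Y * lieE j i) * lieE j i =
        (lieE j i * lieE j i) * Y - (2 : ℝ) • (lieE j i * Y * lieE j i) + Y * (lieE j i * lieE j i) := by
      rw [two_smul]
      noncomm_ring
    rw [e, lieE_mul_ne j hij, lieE_mul_mul, zero_mul, mul_zero, add_zero, zero_sub, smul_smul] at h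
    exact lie_mem_of_smul (mul_ne_zero two_ne_zero hne) (S.neg_mem_iff.1 h)
  obtain ⟨p, q, hpq, hE⟩ : ∃ p q, p ≠ q ∧ lieE p q ∈ S := by
    obtain ⟨i, j, h | h⟩ := hn
    · exact ⟨j, i, h.1.symm, a1 X hX i j h.1 h.2⟩
    · have hij : i ≠ j := fun e => h (e ▸ rfl)
      refine ⟨j, i, hij.symm, a1 _ (hS X hX (lieE i j)) i j hij ?_⟩
      rw [Matrix.sub_apply, Matrix.single_mul_apply_same, Matrix.mul_single_apply_same, one_mul,
        mul_one]
      exact sub_ne_zero.2 (Ne.symm h)
  have c1 : ∀ p q a : W, lieE p q ∈ S → a ≠ q → lieE a q ∈ S := fun p q a h ha => by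
    have := hS _ h (lieE a p)
    rwa [lieE_mul_same, lieE_mul_ne p ha.symm, sub_zero] at this
  have c2 : ∀ p q b : W, lieE p q ∈ S → b ≠ p → lieE p b ∈ S := fun p q b h hb => by
    have := hS _ h (lieE q b)
    rwa [lieE_mul_same, lieE_mul_ne q hb, zero_sub, S.neg_mem_iff] at this
  have c3 : lieE q p ∈ S := by
    have h := hS _ hE (lieE q p)
    rw [lieE_mul_same, lieE_mul_same] at h
    have h2 := hS _ h (lieE p q)
    refine lie_mem_of_smul (c := 1) one_ne_zero ?_
    have h3 := hS _ h (lieE q p)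
    rw [mul_sub, sub_mul, lieE_mul_same, lieE_mul_same, lieE_mul_ne q hpq, lieE_mul_ne p hpq,
      zero_sub, sub_zero, ← neg_add', S.neg_mem_iff, ← two_smul ℝ] at h3
    rw [one_smul]
    exact lie_mem_of_smul two_ne_zero h3
  have hoff : ∀ a b : W, a ≠ b → lieE a b ∈ S := fun a b hab => by
    by_cases ha : a = q
    · subst ha
      exact c2 _ _ b c3 hab.symm
    · exact c2 _ _ b (c1 _ _ a hE ha) hab.symm
  have hd : ∀ a : W, lieE a a - lieE p p ∈ S := fun a => by
    by_cases ha : a = p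
    · rw [ha, sub_self]
      exact S.zero_mem
    · have := hS _ (hoff p a (Ne.symm ha)) (lieE a p)
      rwa [lieE_mul_same, lieE_mul_same] at this
  have e : A = ∑ i, ∑ j, A i j • (lieE i j - if i = j then lieE p p else 0) := by
    simp only [smul_sub, Finset.sum_sub_distrib, smul_ite, smul_zero, Finset.sum_ite_eq,
      Finset.mem_univ, if_true]
    rw [← lie_eq_sum A, ← Finset.sum_smul]
    have : ∑ i, A i i = 0 := hA
    rw [this, zero_smul, sub_zero]
  rw [e]
  refine S.sum_mem fun i _ => S.sum_mem fun j _ => S.smul_mem _ ?_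
  by_cases hij : i = j
  · rw [if_pos hij, ← hij]
    exact hd i
  · rw [if_neg hij, sub_zero]
    exact hoff i j hij

/-- A bracket closed subspace containing all antisymmetric matrices, `1` and a non-scalar
symmetric matrix is everything. -/
theorem top_of_so (S : Submodule ℝ (Matrix W W ℝ)) (hS : ∀ X ∈ S, ∀ Y ∈ S, X * Y - Y * X ∈ S)
    (hso : ∀ A : Matrix W W ℝ, Aᵀ = -A → A ∈ S) (h1 : (1 : Matrix W W ℝ) ∈ S)
    {X : Matrix W W ℝ} (hX : X ∈ S) (hs : Xᵀ = X)
    (hn : ∃ i j, (i ≠ j ∧ X i j ≠ 0) ∨ X i i ≠ X j j) (A : Matrix W W ℝ) : A ∈ S := by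
  have hF : ∀ i j : W, lieE i j - lieE j i ∈ S := fun i j => hso _ (by
    rw [Matrix.transpose_sub, Matrix.transpose_single, Matrix.transpose_single, neg_sub])
  have key : ∀ Y ∈ S, ∀ i j : W, i ≠ j → (Y i j + Y j i ≠ 0 ∨ Y i i ≠ Y j j) →
      lieE i i - lieE j j ∈ S ∧ lieE i j + lieE j i ∈ S := fun Y hY i j hij hne => by
    set F : Matrix W W ℝ := lieE i j - lieE j i with hFd
    set D : Matrix W W ℝ := lieE i i - lieE j j with hD
    set T : Matrix W W ℝ := lieE i j + lieE j i with hT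
    have hFS : F ∈ S := hF i j
    have f2 : F * F = -(lieE i i + lieE j j) := by
      rw [hFd, mul_sub, sub_mul, sub_mul, lieE_mul_same, lieE_mul_same, lieE_mul_ne i hij.symm,
        lieE_mul_ne j hij]
      abel
    have f3 : F * F * F + F = 0 := by
      rw [f2, hFd, neg_mul, mul_sub, add_mul, add_mul, lieE_mul_same, lieE_mul_same,
        lieE_mul_ne j hij.symm, lieE_mul_ne i hij]
      abel
    have fT : F * T - T * F = (2 : ℝ) • D := by
      rw [hFd, hT, hD, two_smul]
      simp only [mul_sub, sub_mul, mul_add, add_mul, lieE_mul_same, lieE_mul_ne _ hij,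
        lieE_mul_ne _ hij.symm]
      abel
    have fD : F * D - D * F = (-2 : ℝ) • T := by
      rw [hFd, hT, hD, neg_smul, two_smul]
      simp only [mul_sub, sub_mul, lieE_mul_same, lieE_mul_ne _ hij, lieE_mul_ne _ hij.symm]
      abel
    have g1 := hS F hFS Y hY
    have g4 := S.add_mem (hS F hFS _ (hS F hFS _ g1)) g1
    have e : F * (F * (F * Y - Y * F) - (F * Y - Y * F) * F) -
        (F * (F * Y - Y * F) - (F * Y - Y * F) * F) * F + (F * Y - Y * F) =
        (F * F * F + F) * Y - (3 : ℝ) • (F * F * Y * F - F * Y * (F * F)) - Y * (F * F * F + F) := by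
      rw [show (3 : ℝ) = 1 + 1 + 1 by norm_num, add_smul, add_smul, one_smul]
      noncomm_ring
    have e2 : F * F * Y * F - F * Y * (F * F) =
        (Y i j + Y j i) • D - (Y i i - Y j j) • T := by
      rw [f2, hFd, hD, hT]
      simp only [neg_mul, mul_neg, mul_sub, sub_mul, mul_add, add_mul, lieE_mul_mul, add_smul,
        sub_smul, smul_add, smul_sub]
      abel
    rw [e, f3, e2, zero_mul, mul_zero, sub_zero, zero_sub, S.neg_mem_iff] at g4
    have u1 := lie_mem_of_smul three_ne_zero g4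
    have u2 := hS F hFS _ u1
    have e3 : F * ((Y i j + Y j i) • D - (Y i i - Y j j) • T) -
        ((Y i j + Y j i) • D - (Y i i - Y j j) • T) * F =
        (Y i j + Y j i) • (F * D - D * F) - (Y i i - Y j j) • (F * T - T * F) := by
      simp only [mul_sub, sub_mul, Matrix.mul_smul, Matrix.smul_mul, smul_sub]
      abel
    rw [e3, fD, fT] at u2
    set a := Y i j + Y j i
    set b := Y i i - Y j j with hb
    have hab : a ^ 2 + b ^ 2 ≠ 0 := by
      rcases hne with h | h
      · positivity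
      · have : b ≠ 0 := sub_ne_zero.2 h
        positivity
    have hDS : D ∈ S := by
      refine lie_mem_of_smul hab ?_
      have := S.sub_mem (S.smul_mem a u1) (S.smul_mem (b / 2) u2)
      convert this using 1
      module
    refine ⟨hDS, lie_mem_of_smul (c := -2) (by norm_num) ?_⟩
    rw [← fD]
    exact hS F hFS D hDS
  obtain ⟨i, j, hij, hD⟩ : ∃ i j : W, i ≠ j ∧ lieE i i - lieE j j ∈ S := by
    obtain ⟨i, j, h | h⟩ := hn
    · refine ⟨i, j, h.1, (key X hX i j h.1 (Or.inl ?_)).1⟩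
      have : X j i = X i j := by
        conv_lhs => rw [← hs]
        rfl
      rw [this, ← two_mul]
      exact mul_ne_zero two_ne_zero h.2
    · have hij : i ≠ j := fun e => h (e ▸ rfl)
      exact ⟨i, j, hij, (key X hX i j hij (Or.inr h)).1⟩
  have step : ∀ a b c : W, a ≠ b → lieE a a - lieE b b ∈ S → a ≠ c →
      lieE a a - lieE c c ∈ S ∧ lieE a c + lieE c a ∈ S := fun a b c hab h hac => by
    refine key _ h a c hac (Or.inr ?_)
    simp only [Matrix.sub_apply, Matrix.single_apply, and_self, if_true, hab.symm, hac, if_false]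
    split_ifs <;> norm_num
  have all : ∀ a c : W, a ≠ c → lieE a a - lieE c c ∈ S ∧ lieE a c + lieE c a ∈ S := fun a c hac => by
    by_cases ha : a = i
    · subst ha
      exact step a j c hij hD hac
    · have h := (step i j a hij hD (Ne.symm ha)).1
      rw [← neg_sub, S.neg_mem_iff] at h
      exact step a i c ha h hac
  refine lie_mem_of_E (fun a c => ?_) A
  by_cases hac : a = c
  · subst hac
    have h2 : ∑ c, (lieE a a - lieE c c : Matrix W W ℝ) ∈ S := S.sum_mem fun c _ => by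
      by_cases h : a = c
      · rw [h, sub_self]
        exact S.zero_mem
      · exact (all a c h).1
    have h3 := S.add_mem h2 h1
    rw [Finset.sum_sub_distrib, Matrix.sum_single_one, sub_add_cancel, Finset.sum_const,
      ← Nat.cast_smul_eq_nsmul ℝ] at h3
    refine lie_mem_of_smul ?_ h3
    exact Nat.cast_ne_zero.2 (Finset.card_pos.2 ⟨a, Finset.mem_univ a⟩).ne'
  · have := S.add_mem (all a c hac).2 (hF a c)
    rw [add_add_sub_cancel, ← two_smul ℝ] at this
    exact lie_mem_of_smul two_ne_zero this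

/-- A bracket closed subspace containing all symmetric matrices is everything. -/
theorem top_of_symm (S : Submodule ℝ (Matrix W W ℝ)) (hS : ∀ X ∈ S, ∀ Y ∈ S, X * Y - Y * X ∈ S)
    (hs : ∀ A : Matrix W W ℝ, Aᵀ = A → A ∈ S) (A : Matrix W W ℝ) : A ∈ S := by
  have hd : ∀ a : W, lieE a a ∈ S := fun a => hs _ (Matrix.transpose_single _ _ _)
  refine lie_mem_of_E (fun a c => ?_) A
  by_cases hac : a = c
  · exact hac ▸ hd a
  · have hT : lieE a c + lieE c a ∈ S := hs _ (by
      rw [Matrix.transpose_add, Matrix.transpose_single, Matrix.transpose_single, add_comm])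
    have h := hS _ (hd a) _ hT
    rw [mul_add, add_mul, lieE_mul_same, lieE_mul_same, lieE_mul_ne a hac, lieE_mul_ne a (Ne.symm hac),
      add_zero, zero_add] at h
    have := S.add_mem hT h
    rw [add_add_sub_cancel, ← two_smul ℝ] at this
    exact lie_mem_of_smul two_ne_zero this

/-- restriction to the block of degree `l` -/
def lieRes (d : W → ℕ) (l : ℕ) : Matrix W W ℝ →ₗ[ℝ] Matrix {i // d i = l} {i // d i = l} ℝ where
  toFun X := X.submatrix Subtype.val Subtype.val
  map_add' _ _ := rfl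
  map_smul' _ _ := rfl

/-- extension by zero -/
def lieExt (d : W → ℕ) (l : ℕ) : Matrix {i // d i = l} {i // d i = l} ℝ →ₗ[ℝ] Matrix W W ℝ where
  toFun B := Matrix.of fun i j => if h : d i = l ∧ d j = l then B ⟨i, h.1⟩ ⟨j, h.2⟩ else 0
  map_add' B C := by
    ext i j
    simp only [Matrix.of_apply, Matrix.add_apply]
    split_ifs <;> simp
  map_smul' c B := by
    ext i j
    simp only [Matrix.of_apply, Matrix.smul_apply, RingHom.id_apply]
    split_ifs <;> simp

omit [Fintype W] [DecidableEq W] in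
theorem lieExt_apply (d : W → ℕ) (l : ℕ) (B : Matrix {i // d i = l} {i // d i = l} ℝ) (i j : W) :
    lieExt d l B i j = if h : d i = l ∧ d j = l then B ⟨i, h.1⟩ ⟨j, h.2⟩ else 0 := rfl

omit [Fintype W] [DecidableEq W] in
theorem lieRes_ext (d : W → ℕ) (l : ℕ) (B : Matrix {i // d i = l} {i // d i = l} ℝ) :
    lieRes d l (lieExt d l B) = B := by
  ext i j
  show lieExt d l B i j = _
  rw [lieExt_apply, dif_pos ⟨i.2, j.2⟩]

omit [Fintype W] [DecidableEq W] in
theorem lieExt_res (d : W → ℕ) (l : ℕ) (A : Matrix W W ℝ) (i j : W) :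
    lieExt d l (lieRes d l A) i j = if d i = l ∧ d j = l then A i j else 0 := by
  rw [lieExt_apply]
  split_ifs <;> rfl

omit [Fintype W] [DecidableEq W] in
theorem lie_blk_ext (d : W → ℕ) (l : ℕ) (B : Matrix {i // d i = l} {i // d i = l} ℝ) :
    Blk d (lieExt d l B) := fun i j hij => by
  rw [lieExt_apply, dif_neg fun h => hij (h.1.trans h.2.symm)]

omit [DecidableEq W] in
theorem lieRes_mul {d : W → ℕ} (l : ℕ) {X Y : Matrix W W ℝ} (h : Blk d X ∨ Blk d Y) :
    lieRes d l (X * Y) = lieRes d l X * lieRes d l Y := by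
  ext i j
  show (X * Y) i j = _
  rw [Matrix.mul_apply, Matrix.mul_apply,
    ← Fintype.sum_subtype_add_sum_subtype (fun k => d k = l) fun k => X i k * Y k j]
  have : ∑ k : {k // ¬d k = l}, X i k * Y k j = 0 := Finset.sum_eq_zero fun k _ => by
    rcases h with h | h
    · rw [h i k fun e => k.2 (e.symm.trans i.2), zero_mul]
    · rw [h k j fun e => k.2 (e.trans j.2), mul_zero]
  rw [this, add_zero]
  rfl

theorem lieRes_prD (d : W → ℕ) (l : ℕ) : lieRes d l (prD d l) = 1 := by
  ext i j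
  show prD d l i j = _
  rw [prD, Matrix.diagonal_apply, Matrix.one_apply, if_pos i.2]
  simp only [Subtype.ext_iff]

theorem lieExt_one (d : W → ℕ) (l : ℕ) : lieExt d l 1 = prD d l := by
  ext i j
  rw [← lieRes_prD, lieExt_res]
  split_ifs with h
  · rfl
  · rw [prD, Matrix.diagonal_apply]
    split_ifs with h1 h2
    · exact absurd ⟨h2, h1 ▸ h2⟩ h
    · rfl
    · rfl

omit [DecidableEq W] in
theorem lieExt_lie {d : W → ℕ} (l : ℕ) {Y : Matrix W W ℝ} (hY : Blk d Y)
    (B : Matrix {i // d i = l} {i // d i = l} ℝ) :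
    Y * lieExt d l B - lieExt d l B * Y = lieExt d l (lieRes d l Y * B - B * lieRes d l Y) := by
  have e : lieRes d l Y * B - B * lieRes d l Y =
      lieRes d l (Y * lieExt d l B - lieExt d l B * Y) := by
    rw [map_sub, lieRes_mul l (Or.inl hY), lieRes_mul l (Or.inr hY), lieRes_ext]
  ext i j
  rw [e, lieExt_res]
  split_ifs with h
  · rfl
  · rw [Matrix.sub_apply, Matrix.mul_apply, Matrix.mul_apply, Finset.sum_eq_zero, Finset.sum_eq_zero,
      sub_zero]
    · intro k _
      by_cases hk : d k = d j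
      · rw [lieExt_apply, dif_neg fun h' => h ⟨h'.1, hk ▸ h'.2⟩, zero_mul]
      · rw [hY k j hk, mul_zero]
    · intro k _
      by_cases hk : d i = d k
      · rw [lieExt_apply, dif_neg fun h' => h ⟨hk ▸ h'.1, h'.2⟩, mul_zero]
      · rw [hY i k hk, zero_mul]

omit [Fintype W] [DecidableEq W] in
theorem lie_blk_sum {d : W → ℕ} {A : Matrix W W ℝ} (hA : Blk d A) {N : ℕ} (hN : ∀ i, d i < N) :
    A = ∑ l ∈ Finset.range N, lieExt d l (lieRes d l A) := by
  ext i j
  rw [Matrix.sum_apply, Finset.sum_eq_single_of_mem (d i) (Finset.mem_range.2 (hN i))]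
  · rw [lieExt_res]
    split_ifs with h
    · rfl
    · exact hA i j fun e => h ⟨rfl, e.symm⟩
  · intro l _ hl
    rw [lieExt_res, if_neg fun h => hl h.1.symm]

/-- Downward induction on the degree: the elements of `genL` supported on the block `l` form an
ideal of the full matrix algebra of the block. -/
theorem gen_of_blocks {d : W → ℕ} {𝒳 : Set (Matrix W W ℝ)} (h : ∀ X ∈ 𝒳, Blk d X)
    (h1 : ∀ l, ∀ A : Matrix W W ℝ, ∃ X ∈ genL d 𝒳, ∀ i j, d i = l → d j = l → X i j = A i j)
    (h2 : ∀ i, ∃ X ∈ genL d 𝒳, (∀ j k, d j < d i → X j k = 0) ∧ NonSc d (d i) X) : Gen d 𝒳 := by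
  obtain ⟨N, hN⟩ : ∃ N, ∀ i, d i < N :=
    ⟨Finset.univ.sup d + 1, fun i => Nat.lt_succ_of_le (Finset.le_sup (Finset.mem_univ i))⟩
  have main : ∀ m l, N ≤ l + m → ∀ B, lieExt d l B ∈ genL d 𝒳 := by
    intro m
    induction m with
    | zero =>
      intro l hl B
      have : lieExt d l B = 0 := by
        ext i j
        rw [lieExt_apply, dif_neg fun h' => by have := hN i; omega]
        rfl
      rw [this]
      exact Submodule.zero_mem _
    | succ m ih =>
      intro l hl B
      by_cases hex : ∃ i, d i = l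
      swap
      · have : lieExt d l B = 0 := by
          ext i j
          rw [lieExt_apply, dif_neg fun h' => hex ⟨i, h'.1⟩]
          rfl
        rw [this]
        exact Submodule.zero_mem _
      obtain ⟨i0, hi0⟩ := hex
      obtain ⟨X, hX, hX0, hXn⟩ := h2 i0
      rw [hi0] at hX0 hXn
      have hXb := blk_of_mem_genL h hX
      have hXl : lieExt d l (lieRes d l X) ∈ genL d 𝒳 := by
        have hl' : l ∈ Finset.range N := Finset.mem_range.2 (hi0 ▸ hN i0)
        have e := lie_blk_sum hXb hN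
        rw [← Finset.add_sum_erase _ _ hl'] at e
        rw [eq_sub_of_add_eq e.symm]
        refine Submodule.sub_mem _ hX (Submodule.sum_mem _ fun l' hl'' => ?_)
        rcases lt_or_gt_of_ne (Finset.ne_of_mem_erase hl'') with hlt | hlt
        · have : lieExt d l' (lieRes d l' X) = 0 := by
            ext i j
            rw [lieExt_res]
            split_ifs with h'
            · exact hX0 i j (h'.1 ▸ hlt)
            · rfl
          rw [this]
          exact Submodule.zero_mem _
        · exact ih l' (by omega) _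
      let S := (genL d 𝒳).comap (lieExt d l)
      have hS : ∀ Z ∈ S, ∀ A, A * Z - Z * A ∈ S := fun Z hZ A => by
        obtain ⟨Y, hY, hYA⟩ := h1 l (lieExt d l A)
        have e : lieRes d l Y = A := by
          rw [← lieRes_ext d l A]
          ext i j
          exact hYA i j i.2 j.2
        have := genL_lie hY (Submodule.mem_comap.1 hZ)
        rw [lieExt_lie l (blk_of_mem_genL h hY), e] at this
        exact this
      have hn : ∃ i j : {i // d i = l}, (i ≠ j ∧ lieRes d l X i j ≠ 0) ∨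
          lieRes d l X i i ≠ lieRes d l X j j := by
        obtain ⟨i, j, hi, hj, hh⟩ := hXn
        refine ⟨⟨i, hi⟩, ⟨j, hj⟩, hh.imp (fun h' => ⟨fun e => h'.1 (congrArg Subtype.val e), h'.2⟩) id⟩
      have hc : (Fintype.card {i // d i = l} : ℝ) ≠ 0 :=
        Nat.cast_ne_zero.2 (Fintype.card_pos_iff.2 ⟨⟨i0, hi0⟩⟩).ne'
      have h0 : B - (B.trace / Fintype.card {i // d i = l}) • (1 : Matrix _ _ ℝ) ∈ S :=
        sl_le_of_ideal S hS (X := lieRes d l X) hXl hn (by
          rw [Matrix.trace_sub, Matrix.trace_smul, Matrix.trace_one, smul_eq_mul,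
            div_mul_cancel₀ _ hc, sub_self])
      have h1' : (1 : Matrix _ _ ℝ) ∈ S := by
        rw [Submodule.mem_comap, lieExt_one]
        exact prD_mem_genL d 𝒳 l
      have := S.add_mem h0 (S.smul_mem (B.trace / Fintype.card {i // d i = l}) h1')
      rwa [sub_add_cancel] at this
  intro A hA
  rw [lie_blk_sum hA hN]
  exact Submodule.sum_mem _ fun l _ => main N l (Nat.le_add_left _ _) _

/-- the block of degree `l` of the elements of `genL`, as a bracket closed subspace; use it with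
`top_of_so`, `top_of_symm` to get `h1` -/
theorem block_top {d : W → ℕ} {𝒳 : Set (Matrix W W ℝ)} (h : ∀ X ∈ 𝒳, Blk d X) (l : ℕ)
    (htop : ∀ S : Submodule ℝ (Matrix {i // d i = l} {i // d i = l} ℝ),
      (∀ X ∈ S, ∀ Y ∈ S, X * Y - Y * X ∈ S) → (1 : Matrix _ _ ℝ) ∈ S →
      (∀ X ∈ genL d 𝒳, X.submatrix Subtype.val Subtype.val ∈ S) → ∀ A, A ∈ S)
    (A : Matrix W W ℝ) : ∃ X ∈ genL d 𝒳, ∀ i j, d i = l → d j = l → X i j = A i j := by
  have := htop ((genL d 𝒳).map (lieRes d l)) ?_ ⟨_, prD_mem_genL d 𝒳 l, lieRes_prD d l⟩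
    (fun X hX => ⟨X, hX, rfl⟩) (lieRes d l A)
  · obtain ⟨X, hX, e⟩ := this
    exact ⟨X, hX, fun i j hi hj => congrFun (congrFun e ⟨i, hi⟩) ⟨j, hj⟩⟩
  · rintro _ ⟨X, hX, rfl⟩ _ ⟨Y, hY, rfl⟩
    refine ⟨_, genL_lie hX hY, ?_⟩
    rw [map_sub, lieRes_mul l (Or.inl (blk_of_mem_genL h hX)),
      lieRes_mul l (Or.inr (blk_of_mem_genL h hX))]

end Crest.Agent.R202
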