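import Crest.Agent.R202.Radial

/-!
# R202/Round: Ricci tensor of `dr² + ψ² g_round`

`g = φ² 1 + (1 - φ²) π`, `φ = ψ(r)/r`, `g⁻¹ = φ⁻² 1 + (1 - φ⁻²) π`.  Near `x` the Christoffel
symbols are `Γᵏᵢⱼ = α (yᵢ δₖⱼ + yⱼ δₖᵢ) + β δᵢⱼ yₖ + γ yᵢ yⱼ yₖ` with `α = ψ'/(ψ r) - 1/r²`,
`β = 1/r² - ψψ'/r³`, `γ = -(2α + β)/r²`; this is inserted in the definition of `ricci`.
-/

open scoped ContDiff Topology Matrix RealInnerProductSpace
open Set Filter
open Crest.GeometryTopology.CoordMetric Crest.GeometryTopology.ChartCurvature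

noncomputable section

namespace Crest.Agent.R202

variable {n : ℕ}

/-- Kronecker delta -/
def Round_dl (i j : Fin n) : ℝ := if i = j then 1 else 0

theorem Round_dl_comm (i j : Fin n) : Round_dl i j = Round_dl j i := by
  unfold Round_dl
  by_cases h : i = j
  · simp [h]
  · simp [h, Ne.symm h]

theorem Round_dl_self (i : Fin n) : Round_dl i i = 1 := by simp [Round_dl]

theorem Round_sum_dl (i : Fin n) (f : Fin n → ℝ) : ∑ k, Round_dl k i * f k = f i := by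
  simp [Round_dl]

theorem Round_sum_sq (x : E n) : ∑ k, x k * x k = ‖x‖ ^ 2 := by
  rw [EuclideanSpace.real_norm_sq_eq]
  exact Finset.sum_congr rfl fun k _ => by ring

theorem Round_inner (x v : E n) : ⟪x, v⟫ = ∑ k, x k * v k := by
  rw [PiLp.inner_apply]
  exact Finset.sum_congr rfl fun k _ => by simp [mul_comm]

theorem Round_one_apply (i j : Fin n) : (1 : Mat n) i j = Round_dl i j := by
  simp [Round_dl, Matrix.one_apply]

/-- the generic sum -/
theorem Round_sum (x : E n) (i j : Fin n) (c0 c1 c2 c3 c4 : ℝ) :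
    ∑ k, (c0 + c1 * (x k * x k) + c2 * (Round_dl k j * x k) + c3 * (Round_dl k i * x k)
      + c4 * (Round_dl k i * Round_dl k j))
      = n * c0 + c1 * ‖x‖ ^ 2 + c2 * x j + c3 * x i + c4 * Round_dl i j := by
  simp only [Finset.sum_add_distrib, ← Finset.mul_sum, Round_sum_dl, Round_sum_sq,
    Finset.sum_const, Finset.card_univ, Fintype.card_fin, nsmul_eq_mul]

/-! ### the projection -/

theorem Round_prj_mul {y : E n} (hy : y ≠ 0) : prj y * prj y = prj y := by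
  ext i j
  have hn : ‖y‖ ^ 2 ≠ 0 := pow_ne_zero _ (norm_ne_zero_iff.mpr hy)
  simp only [Matrix.mul_apply, prj_apply]
  have : ∀ k, y i * y k / ‖y‖ ^ 2 * (y k * y j / ‖y‖ ^ 2)
      = y i * y j / (‖y‖ ^ 2 * ‖y‖ ^ 2) * (y k * y k) := fun k => by
    field_simp
  simp only [this, ← Finset.mul_sum, Round_sum_sq]
  field_simp

theorem Round_mul {y : E n} (hy : y ≠ 0) (a b : ℝ) :
    (prj y + a • (1 - prj y)) * (prj y + b • (1 - prj y)) = prj y + (a * b) • (1 - prj y) := by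
  have h := Round_prj_mul hy
  simp only [add_mul, mul_add, smul_mul_assoc, mul_smul_comm, sub_mul, mul_sub, h, one_mul,
    mul_one, sub_self, smul_zero, add_zero]
  module

theorem Round_inv {y : E n} (hy : y ≠ 0) {a : ℝ} (ha : a ≠ 0) :
    (prj y + a • (1 - prj y))⁻¹ = prj y + a⁻¹ • (1 - prj y) := by
  apply Matrix.inv_eq_left_inv
  rw [Round_mul hy, inv_mul_cancel₀ ha, one_smul, add_sub_cancel]

theorem posDef_round {y : E n} (hy : y ≠ 0) {a : ℝ} (ha : a ≠ 0) :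
    (prj y + a ^ 2 • (1 - prj y)).PosDef := by
  have hs : (prj y + a • (1 - prj y))ᴴ = prj y + a • (1 - prj y) := by
    ext i j
    simp [Matrix.conjTranspose_apply, Round_one_apply, Round_dl_comm i j, mul_comm]
  have hu : IsUnit (prj y + a • (1 - prj y)) := by
    have h1 : (prj y + a • (1 - prj y)) * (prj y + a⁻¹ • (1 - prj y)) = 1 := by
      rw [Round_mul hy, mul_inv_cancel₀ ha, one_smul, add_sub_cancel]
    exact IsUnit.of_mul_eq_one _ h1
  have h := Matrix.PosDef.conjTranspose_mul_self (prj y + a • (1 - prj y))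
    (Matrix.mulVec_injective_of_isUnit hu)
  rwa [hs, Round_mul hy, ← sq] at h

/-! ### a small calculus of partial derivatives -/

/-- `f` is differentiable at `x` with partial derivatives `d` -/
def Round_HD (f : E n → ℝ) (x : E n) (d : Fin n → ℝ) : Prop :=
  DifferentiableAt ℝ f x ∧ ∀ m, pderiv m f x = d m

theorem Round_HD.of_has {f : E n → ℝ} {x : E n} {d : Fin n → ℝ} {L : E n →L[ℝ] ℝ}
    (h : HasFDerivAt f L x) (hd : ∀ m, L (EuclideanSpace.single m 1) = d m) : Round_HD f x d :=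
  ⟨h.differentiableAt, fun m => by rw [pderiv, h.fderiv, hd]⟩

theorem Round_HD.const (c : ℝ) (x : E n) : Round_HD (fun _ => c) x (fun _ => 0) :=
  Round_HD.of_has (hasFDerivAt_const c x) fun _ => rfl

theorem Round_HD.coord (i : Fin n) (x : E n) :
    Round_HD (fun z : E n => z i) x (fun m => Round_dl m i) := by
  refine Round_HD.of_has (EuclideanSpace.proj (𝕜 := ℝ) i).hasFDerivAt fun m => ?_
  simp [Round_dl, eq_comm]

theorem Round_HD.add {f g : E n → ℝ} {x : E n} {d e : Fin n → ℝ} (hf : Round_HD f x d)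
    (hg : Round_HD g x e) : Round_HD (fun z => f z + g z) x (fun m => d m + e m) := by
  refine Round_HD.of_has (hf.1.hasFDerivAt.add hg.1.hasFDerivAt) fun m => ?_
  have h1 := hf.2 m
  have h2 := hg.2 m
  rw [pderiv] at h1 h2
  simp [h1, h2]

theorem Round_HD.mul {f g : E n → ℝ} {x : E n} {d e : Fin n → ℝ} (hf : Round_HD f x d)
    (hg : Round_HD g x e) :
    Round_HD (fun z => f z * g z) x (fun m => d m * g x + f x * e m) := by
  refine Round_HD.of_has (hf.1.hasFDerivAt.mul hg.1.hasFDerivAt) fun m => ?_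
  have h1 := hf.2 m
  have h2 := hg.2 m
  rw [pderiv] at h1 h2
  simp [h1, h2]
  ring

theorem Round_HD.sum {ι : Type} (s : Finset ι) {f : ι → E n → ℝ} {x : E n} {d : ι → Fin n → ℝ}
    (hf : ∀ k, Round_HD (f k) x (d k)) :
    Round_HD (fun z => ∑ k ∈ s, f k z) x (fun m => ∑ k ∈ s, d k m) := by
  refine Round_HD.of_has (HasFDerivAt.fun_sum fun k _ => (hf k).1.hasFDerivAt) fun m => ?_
  rw [_root_.sum_apply]
  exact Finset.sum_congr rfl fun k _ => (hf k).2 m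

theorem Round_HD.congr {f g : E n → ℝ} {x : E n} {d : Fin n → ℝ} (hf : Round_HD f x d)
    (h : g =ᶠ[𝓝 x] f) : Round_HD g x d :=
  ⟨hf.1.congr_of_eventuallyEq h, fun m => by rw [pderiv, h.fderiv_eq]; exact hf.2 m⟩

theorem Round_HD.rad {f : ℝ → ℝ} {f' : ℝ} {x : E n} (hx : x ≠ 0) (hf : HasDerivAt f f' ‖x‖) :
    Round_HD (fun z : E n => f ‖z‖) x (fun m => f' / ‖x‖ * x m) := by
  have hn : ‖x‖ ≠ 0 := norm_ne_zero_iff.mpr hx
  have h1 : HasFDerivAt (fun z : E n => ‖z‖ ^ 2) (2 • innerSL ℝ x) x :=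
    (hasStrictFDerivAt_norm_sq x).hasFDerivAt
  have h2 := h1.sqrt (pow_ne_zero 2 hn)
  have h3 : (fun z : E n => Real.sqrt (‖z‖ ^ 2)) = fun z => ‖z‖ := by
    funext z
    exact Real.sqrt_sq (norm_nonneg z)
  rw [h3, Real.sqrt_sq (norm_nonneg x)] at h2
  refine Round_HD.of_has (hf.comp_hasFDerivAt x h2) fun m => ?_
  simp [EuclideanSpace.inner_single_right]
  field_simp

/-! ### Christoffel symbols -/

/-- the shape of the Christoffel symbols -/
def Round_Gm (a b c : ℝ) (y : E n) (k i j : Fin n) : ℝ :=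
  a * (y i * Round_dl k j + y j * Round_dl k i) + b * (Round_dl i j * y k) + c * (y i * y j * y k)

theorem Round_chris {g : MetricField n} {y : E n} (hy : y ≠ 0) {A B : ℝ → ℝ} {A' B' Ai C : ℝ}
    (hA : HasDerivAt A A' ‖y‖) (hB : HasDerivAt B B' ‖y‖)
    (hg : ∀ i j, (fun z => g z i j) =ᶠ[𝓝 y] fun z => A ‖z‖ * Round_dl i j + B ‖z‖ * (z i * z j))
    (hi : ∀ k l, (g y)⁻¹ k l = Ai * Round_dl l k + C * (y k * y l))
    (hC : Ai + C * ‖y‖ ^ 2 = 1) (k i j : Fin n) :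
    christoffel g y k i j
      = Round_Gm (Ai * (A' / ‖y‖) / 2) (B ‖y‖ - A' / ‖y‖ / 2) (B' / ‖y‖ / 2 + C * (A' / ‖y‖))
          y k i j := by
  have hd : ∀ m i j, pderiv m (fun z => g z i j) y
      = A' / ‖y‖ * y m * Round_dl i j + B' / ‖y‖ * y m * (y i * y j)
        + B ‖y‖ * (Round_dl m i * y j + y i * Round_dl m j) := by
    intro m i j
    have h := (((Round_HD.rad hy hA).mul (Round_HD.const (Round_dl i j) y)).add
      ((Round_HD.rad hy hB).mul ((Round_HD.coord i y).mul (Round_HD.coord j y)))).congr (hg i j)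
    rw [h.2 m]
    ring
  set A1 := A' / ‖y‖
  set B1 := B' / ‖y‖
  -- the bracket
  have hT : ∀ l, pderiv i (fun z => g z j l) y + pderiv j (fun z => g z i l) y
      - pderiv l (fun z => g z i j) y
      = A1 * (y i * Round_dl l j + y j * Round_dl l i - y l * Round_dl i j)
        + B1 * (y i * y j * y l) + 2 * B ‖y‖ * (Round_dl i j * y l) := by
    intro l
    rw [hd, hd, hd, Round_dl_comm j l, Round_dl_comm i l, Round_dl_comm j i]
    ring
  unfold christoffel inverseField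
  simp only [hT, hi]
  have h1 : ∀ l, (Ai * Round_dl l k + C * (y k * y l))
      * (A1 * (y i * Round_dl l j + y j * Round_dl l i - y l * Round_dl i j)
        + B1 * (y i * y j * y l) + 2 * B ‖y‖ * (Round_dl i j * y l))
      = Round_dl l k * (Ai * (A1 * (y i * Round_dl l j + y j * Round_dl l i - y l * Round_dl i j)
          + B1 * (y i * y j * y l) + 2 * B ‖y‖ * (Round_dl i j * y l)))
        + (0 + (C * y k * (B1 * (y i * y j) + (2 * B ‖y‖ - A1) * Round_dl i j)) * (y l * y l)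
          + (C * y k * A1 * y i) * (Round_dl l j * y l)
          + (C * y k * A1 * y j) * (Round_dl l i * y l)
          + 0 * (Round_dl l i * Round_dl l j)) := fun l => by ring
  simp only [h1]
  rw [Finset.sum_add_distrib, Round_sum_dl, Round_sum]
  have hAi : Ai = 1 - C * ‖y‖ ^ 2 := by linarith
  unfold Round_Gm
  rw [hAi]
  ring

/-! ### the Ricci tensor from the shape of the Christoffel symbols -/

theorem Round_Gm_HD {x : E n} (hx : x ≠ 0) {α β γ : ℝ → ℝ} {α' β' γ' : ℝ}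
    (hα : HasDerivAt α α' ‖x‖) (hβ : HasDerivAt β β' ‖x‖) (hγ : HasDerivAt γ γ' ‖x‖)
    (k i j : Fin n) :
    Round_HD (fun y => Round_Gm (α ‖y‖) (β ‖y‖) (γ ‖y‖) y k i j) x fun m =>
      α' / ‖x‖ * x m * (x i * Round_dl k j + x j * Round_dl k i)
        + α ‖x‖ * (Round_dl m i * Round_dl k j + Round_dl m j * Round_dl k i)
        + β' / ‖x‖ * x m * (Round_dl i j * x k) + β ‖x‖ * (Round_dl i j * Round_dl m k)
        + γ' / ‖x‖ * x m * (x i * x j * x k)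
        + γ ‖x‖ * (Round_dl m i * x j * x k + x i * Round_dl m j * x k
          + x i * x j * Round_dl m k) := by
  have h := (((Round_HD.rad hx hα).mul
      (((Round_HD.coord i x).mul (Round_HD.const (Round_dl k j) x)).add
        ((Round_HD.coord j x).mul (Round_HD.const (Round_dl k i) x)))).add
    ((Round_HD.rad hx hβ).mul ((Round_HD.const (Round_dl i j) x).mul (Round_HD.coord k x)))).add
    ((Round_HD.rad hx hγ).mul (((Round_HD.coord i x).mul (Round_HD.coord j x)).mul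
      (Round_HD.coord k x)))
  refine ⟨h.1, fun m => ?_⟩
  refine (h.2 m).trans ?_
  ring

theorem Round_Gm_trace (a b c : ℝ) (x : E n) (l : Fin n) :
    ∑ k, Round_Gm a b c x k k l = ((n + 1) * a + b + c * ‖x‖ ^ 2) * x l := by
  have h : ∀ k, Round_Gm a b c x k k l = a * x l + (c * x l) * (x k * x k)
      + (a + b) * (Round_dl k l * x k) + 0 * (Round_dl k l * x k)
      + 0 * (Round_dl k l * Round_dl k l) := fun k => by
    unfold Round_Gm
    rw [Round_dl_self]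
    ring
  simp only [h]
  rw [Round_sum]
  ring

theorem Round_Gm_rad (a b c : ℝ) (x : E n) (i j : Fin n) :
    ∑ l, x l * Round_Gm a b c x l i j
      = b * ‖x‖ ^ 2 * Round_dl i j + (2 * a + c * ‖x‖ ^ 2) * (x i * x j) := by
  have h : ∀ l, x l * Round_Gm a b c x l i j = 0 + (b * Round_dl i j + c * (x i * x j)) * (x l * x l)
      + (a * x i) * (Round_dl l j * x l) + (a * x j) * (Round_dl l i * x l)
      + 0 * (Round_dl l i * Round_dl l j) := fun l => by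
    unfold Round_Gm
    ring
  simp only [h]
  rw [Round_sum]
  ring

theorem Round_Gm_apply (a b c : ℝ) (x : E n) (k j : Fin n) (u : Fin n → ℝ) :
    ∑ l, Round_Gm a b c x k j l * u l
      = a * x j * u k + b * x k * u j + (a * Round_dl k j + c * (x j * x k)) * ∑ l, x l * u l := by
  have h : ∀ l, Round_Gm a b c x k j l * u l = Round_dl l k * (a * x j * u l)
      + Round_dl l j * (b * x k * u l)
      + (a * Round_dl k j + c * (x j * x k)) * (x l * u l) := fun l => by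
    unfold Round_Gm
    rw [Round_dl_comm k l, Round_dl_comm j l]
    ring
  simp only [h, Finset.sum_add_distrib, Round_sum_dl, ← Finset.mul_sum]

theorem Round_Gm_sq (a b c : ℝ) (x : E n) (i j : Fin n) :
    ∑ k, ∑ l, Round_Gm a b c x k j l * Round_Gm a b c x l k i
      = 2 * a * b * ‖x‖ ^ 2 * Round_dl i j
        + (a ^ 2 * (n + 3) + 2 * a * b + 4 * a * c * ‖x‖ ^ 2 + b ^ 2 + 2 * b * c * ‖x‖ ^ 2
          + c ^ 2 * (‖x‖ ^ 2) ^ 2) * (x i * x j) := by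
  have h : ∀ k, ∑ l, Round_Gm a b c x k j l * Round_Gm a b c x l k i
      = a * a * (x i * x j)
        + (a * c * (x i * x j) + a * b * Round_dl i j + b * c * (x i * x j)
          + c * (2 * a + c * ‖x‖ ^ 2) * (x i * x j)) * (x k * x k)
        + (a * b * x i + a * (2 * a + c * ‖x‖ ^ 2) * x i) * (Round_dl k j * x k)
        + (a * (a + b) * x j + b * b * x j + c * b * ‖x‖ ^ 2 * x j) * (Round_dl k i * x k)
        + (a * b * ‖x‖ ^ 2) * (Round_dl k i * Round_dl k j) := fun k => by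
    rw [Round_Gm_apply, Round_Gm_rad]
    unfold Round_Gm
    rw [Round_dl_self, Round_dl_comm j k, Round_dl_comm j i]
    ring
  simp only [h]
  rw [Round_sum]
  ring

theorem Round_ricci {g : MetricField n} {x : E n} (hx : x ≠ 0) {α β γ : ℝ → ℝ} {α' β' γ' : ℝ}
    (hα : HasDerivAt α α' ‖x‖) (hβ : HasDerivAt β β' ‖x‖) (hγ : HasDerivAt γ γ' ‖x‖)
    (hg : ∀ᶠ y in 𝓝 x, ∀ k i j,
      christoffel g y k i j = Round_Gm (α ‖y‖) (β ‖y‖) (γ ‖y‖) y k i j) (i j : Fin n) :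
    ricci g x i j
      = (2 * α ‖x‖ + β' / ‖x‖ * ‖x‖ ^ 2 + n * β ‖x‖
          + ((n + 1) * α ‖x‖ + β ‖x‖ + γ ‖x‖ * ‖x‖ ^ 2) * (β ‖x‖ * ‖x‖ ^ 2 - 1)
          - 2 * α ‖x‖ * β ‖x‖ * ‖x‖ ^ 2) * Round_dl i j
        + ((1 - n) * (α' / ‖x‖) - β' / ‖x‖ + n * γ ‖x‖
          + ((n + 1) * α ‖x‖ + β ‖x‖ + γ ‖x‖ * ‖x‖ ^ 2) * (2 * α ‖x‖ + γ ‖x‖ * ‖x‖ ^ 2)
          - (α ‖x‖ ^ 2 * (n + 3) + 2 * α ‖x‖ * β ‖x‖ + 4 * α ‖x‖ * γ ‖x‖ * ‖x‖ ^ 2 + β ‖x‖ ^ 2
            + 2 * β ‖x‖ * γ ‖x‖ * ‖x‖ ^ 2 + γ ‖x‖ ^ 2 * (‖x‖ ^ 2) ^ 2)) * (x i * x j) := by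
  have hH := fun k i j => (Round_Gm_HD hx hα hβ hγ k i j).congr
    (g := fun y => christoffel g y k i j) (hg.mono fun y hy => hy k i j)
  have h0 := hg.self_of_nhds
  have hS := (Round_HD.sum Finset.univ fun k => hH k k i).2 j
  set a := α ‖x‖
  set b := β ‖x‖
  set c := γ ‖x‖
  set a1 := α' / ‖x‖
  set b1 := β' / ‖x‖
  set c1 := γ' / ‖x‖
  have h1 : ∀ k, pderiv k (fun y => christoffel g y k i j) x
      = (b * Round_dl i j + c * (x i * x j)) + (b1 * Round_dl i j + c1 * (x i * x j)) * (x k * x k)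
        + (a1 * x i + c * x i) * (Round_dl k j * x k)
        + (a1 * x j + c * x j) * (Round_dl k i * x k)
        + (2 * a) * (Round_dl k i * Round_dl k j) := fun k => by
    rw [(hH k i j).2 k]
    beta_reduce
    rw [Round_dl_self]
    ring
  have h2 : pderiv j (fun y => ∑ k, christoffel g y k k i) x
      = ∑ k, ((a1 * (x i * x j) + a * Round_dl i j)
        + (c1 * (x i * x j) + c * Round_dl i j) * (x k * x k)
        + (2 * c * x i) * (Round_dl k j * x k)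
        + (a1 * x j + b1 * x j) * (Round_dl k i * x k)
        + (a + b) * (Round_dl k i * Round_dl k j)) := by
    rw [hS]
    refine Finset.sum_congr rfl fun k _ => ?_
    rw [Round_dl_self, Round_dl_comm j k, Round_dl_comm j i]
    ring
  have h3 : ∑ k, ∑ l, Round_Gm a b c x k k l * Round_Gm a b c x l i j
      = ((n + 1) * a + b + c * ‖x‖ ^ 2)
        * (b * ‖x‖ ^ 2 * Round_dl i j + (2 * a + c * ‖x‖ ^ 2) * (x i * x j)) := by
    rw [Finset.sum_comm, ← Round_Gm_rad, Finset.mul_sum]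
    refine Finset.sum_congr rfl fun l _ => ?_
    rw [← Finset.sum_mul, Round_Gm_trace]
    ring
  unfold ricci
  simp only [h0, h1]
  rw [h2, h3, Round_Gm_sq, Round_sum, Round_sum]
  ring

theorem Round_ric_contract (x v : E n) (P Q : ℝ) :
    ∑ i, ∑ j, (P * Round_dl i j + Q * (x i * x j)) * v i * v j
      = P * ‖v‖ ^ 2 + Q * ⟪x, v⟫ ^ 2 := by
  have h : ∀ i j, (P * Round_dl i j + Q * (x i * x j)) * v i * v j
      = Round_dl j i * (P * (v i * v j)) + Q * (x i * v i) * (x j * v j) := fun i j => by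
    rw [Round_dl_comm j i]
    ring
  simp only [h, Finset.sum_add_distrib, Round_sum_dl, ← Finset.mul_sum, ← Finset.sum_mul,
    Round_sum_sq, ← Round_inner]
  ring

/-- the Christoffel symbols of the round warped metric -/
theorem Round_chris_round {ψ : ℝ → ℝ} {y : E n} (hy : y ≠ 0) (hψ : DifferentiableAt ℝ ψ ‖y‖)
    (hψ0 : ψ ‖y‖ ≠ 0) (k i j : Fin n) :
    christoffel (fun y => prj y + (ψ ‖y‖ / ‖y‖) ^ 2 • (1 - prj y)) y k i j
      = Round_Gm (deriv ψ ‖y‖ / (ψ ‖y‖ * ‖y‖) - 1 / ‖y‖ ^ 2)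
          (1 / ‖y‖ ^ 2 - ψ ‖y‖ * deriv ψ ‖y‖ / ‖y‖ ^ 3)
          (-(2 * (deriv ψ ‖y‖ / (ψ ‖y‖ * ‖y‖) - 1 / ‖y‖ ^ 2)
            + (1 / ‖y‖ ^ 2 - ψ ‖y‖ * deriv ψ ‖y‖ / ‖y‖ ^ 3)) / ‖y‖ ^ 2) y k i j := by
  have hn : ‖y‖ ≠ 0 := norm_ne_zero_iff.mpr hy
  have hq : HasDerivAt (fun r => ψ r / r) ((deriv ψ ‖y‖ * ‖y‖ - ψ ‖y‖ * 1) / ‖y‖ ^ 2) ‖y‖ :=
    hψ.hasDerivAt.div (hasDerivAt_id' _) hn
  have hA : HasDerivAt (fun r => (ψ r / r) ^ 2)
      (2 * (ψ ‖y‖ / ‖y‖) * ((deriv ψ ‖y‖ * ‖y‖ - ψ ‖y‖ * 1) / ‖y‖ ^ 2)) ‖y‖ := by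
    have := hq.pow 2
    refine this.congr_deriv ?_
    simp
  have hr2 : HasDerivAt (fun r : ℝ => r ^ 2) (2 * ‖y‖) ‖y‖ := by
    simpa using hasDerivAt_pow 2 ‖y‖
  have hB := (hA.const_sub 1).div hr2 (pow_ne_zero 2 hn)
  have ha : (ψ ‖y‖ / ‖y‖) ^ 2 ≠ 0 := pow_ne_zero 2 (div_ne_zero hψ0 hn)
  have h := Round_chris (g := fun y => prj y + (ψ ‖y‖ / ‖y‖) ^ 2 • (1 - prj y)) hy
    (Ai := ((ψ ‖y‖ / ‖y‖) ^ 2)⁻¹) (C := (1 - ((ψ ‖y‖ / ‖y‖) ^ 2)⁻¹) / ‖y‖ ^ 2) hA hB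
    (fun i j => Eventually.of_forall fun z => by
      simp only [Matrix.add_apply, Matrix.smul_apply, Matrix.sub_apply, prj_apply,
        Round_one_apply, smul_eq_mul, Pi.div_apply]
      ring)
    (fun k l => by
      rw [Round_inv hy ha]
      simp only [Matrix.add_apply, Matrix.smul_apply, Matrix.sub_apply, prj_apply,
        Round_one_apply, smul_eq_mul, Round_dl_comm k l]
      ring)
    (by field_simp; ring) k i j
  rw [h]
  congr 1
  · field_simp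
  · simp only [Pi.div_apply]
    field_simp
    ring
  · field_simp
    ring

theorem ric_round {ψ : ℝ → ℝ} {x : E n} (hx : x ≠ 0) (hψ : ContDiffAt ℝ ∞ ψ ‖x‖)
    (hψ0 : 0 < ψ ‖x‖) (v : E n) :
    ric (fun y => prj y + (ψ ‖y‖ / ‖y‖) ^ 2 • (1 - prj y)) x v v
      = -((n : ℝ) - 1) * deriv (deriv ψ) ‖x‖ / ψ ‖x‖ * (⟪x, v⟫ / ‖x‖) ^ 2
        + (((n : ℝ) - 2) * (1 - deriv ψ ‖x‖ ^ 2) - ψ ‖x‖ * deriv (deriv ψ) ‖x‖) / ‖x‖ ^ 2
          * (‖v‖ ^ 2 - (⟪x, v⟫ / ‖x‖) ^ 2) := by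
  have hn : ‖x‖ ≠ 0 := norm_ne_zero_iff.mpr hx
  have hp : ψ ‖x‖ ≠ 0 := hψ0.ne'
  have hψ2 : ContDiffAt ℝ 2 ψ ‖x‖ := hψ.of_le (by
    change ((2 : ℕ∞) : WithTop ℕ∞) ≤ ((⊤ : ℕ∞) : WithTop ℕ∞)
    exact_mod_cast le_top)
  have hd1 : HasDerivAt ψ (deriv ψ ‖x‖) ‖x‖ :=
    (hψ2.differentiableAt (by norm_num)).hasDerivAt
  have hd2 : HasDerivAt (deriv ψ) (deriv (deriv ψ) ‖x‖) ‖x‖ := by
    have : ContDiffAt ℝ 1 (deriv ψ) ‖x‖ := hψ2.derivWithin (by norm_num)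
    exact (this.differentiableAt (by norm_num)).hasDerivAt
  have hr2 : HasDerivAt (fun r : ℝ => r ^ 2) (2 * ‖x‖) ‖x‖ := by
    simpa using hasDerivAt_pow 2 ‖x‖
  have hr3 : HasDerivAt (fun r : ℝ => r ^ 3) (3 * ‖x‖ ^ 2) ‖x‖ := by
    simpa using hasDerivAt_pow 3 ‖x‖
  have hi2 : HasDerivAt (fun r : ℝ => 1 / r ^ 2) (-2 / ‖x‖ ^ 3) ‖x‖ := by
    refine ((hasDerivAt_const _ (1 : ℝ)).div hr2 (pow_ne_zero 2 hn)).congr_deriv ?_
    field_simp
    ring
  have hα : HasDerivAt (fun r => deriv ψ r / (ψ r * r) - 1 / r ^ 2)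
      ((deriv (deriv ψ) ‖x‖ * (ψ ‖x‖ * ‖x‖)
        - deriv ψ ‖x‖ * (deriv ψ ‖x‖ * ‖x‖ + ψ ‖x‖ * 1)) / (ψ ‖x‖ * ‖x‖) ^ 2 - -2 / ‖x‖ ^ 3) ‖x‖ :=
    (hd2.div (hd1.mul (hasDerivAt_id' _)) (mul_ne_zero hp hn)).sub hi2
  have hβ : HasDerivAt (fun r => 1 / r ^ 2 - ψ r * deriv ψ r / r ^ 3)
      (-2 / ‖x‖ ^ 3 - ((deriv ψ ‖x‖ * deriv ψ ‖x‖ + ψ ‖x‖ * deriv (deriv ψ) ‖x‖) * ‖x‖ ^ 3
        - ψ ‖x‖ * deriv ψ ‖x‖ * (3 * ‖x‖ ^ 2)) / (‖x‖ ^ 3) ^ 2) ‖x‖ :=
    hi2.sub ((hd1.mul hd2).div hr3 (pow_ne_zero 3 hn))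
  have hγ := (((hα.const_mul 2).add hβ).neg).div hr2 (pow_ne_zero 2 hn)
  have hcn : ContinuousAt (fun y : E n => ‖y‖) x := continuous_norm.continuousAt
  have e1 : ∀ᶠ y in 𝓝 x, y ≠ 0 := isOpen_ne.mem_nhds hx
  have e2 : ∀ᶠ y : E n in 𝓝 x, DifferentiableAt ℝ ψ ‖y‖ :=
    hcn.eventually ((hψ2.eventually (by simp)).mono fun r hr => hr.differentiableAt (by norm_num))
  have e3 : ∀ᶠ y : E n in 𝓝 x, ψ ‖y‖ ≠ 0 :=
    hcn.eventually (hd1.continuousAt.eventually_ne hp)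
  have h := Round_ricci (g := fun y => prj y + (ψ ‖y‖ / ‖y‖) ^ 2 • (1 - prj y)) hx hα hβ hγ
    (by
      filter_upwards [e1, e2, e3] with y h1 h2 h3 k i j
      exact Round_chris_round h1 h2 h3 k i j)
  unfold ric
  simp only [h]
  rw [Round_ric_contract]
  simp only [Pi.div_apply, Pi.neg_apply, Pi.add_apply]
  field_simp
  ring

end Crest.Agent.R202
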