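import Crest.Agent.R202.Family
import Crest.Agent.R202.Round
import Crest.Agent.R202.Dist

/-!
# R202/Metric: all geometric properties of `radM ψ (c ∘ τ) H`

`metric_main`: take `ε, C, T` from `ric_pos_fam`, `T := max T 1`.  On `|x| < 1` the metric is `1`
(`c (τ r) = 0`, `ψ r = r`; `τ r = log r ≤ 0`).  Where `τ |x| < T'` it is the round one near `x`
(`ricci_congr`, `ric_round`, `ψ ψ'' = β'(τ) ≤ 0`, `0 < β ≤ 1`); where `τ |x| ≥ T'` use `ric_pos_fam`.
Lower bound `g ≥ c₀`: `π + H c` is uniformly positive on (closed `ε`-neighbourhood of `K`) × sphere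
and `b ≤ ψ/r ≤ 1`.  `√det g = (ψ/r)^(n-1) exp (lTh)` by `det_rad`.
-/

open scoped ContDiff Topology Matrix RealInnerProductSpace
open Set Filter
open Crest.GeometryTopology.CoordMetric Crest.GeometryTopology.ChartCurvature

noncomputable section

namespace Crest.Agent.R202

variable {n : ℕ} {P : Type} [NormedAddCommGroup P] [NormedSpace ℝ P]

/-- the geometric part of both statements -/
structure GoodM (g : MetricField n) (v : ℝ) : Prop where
  riem : IsRiemannianOn g univ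
  compl : IsCompleteOn g univ
  eucl : ∀ x : E n, ‖x‖ < 1 → g x = 1
  nonneg : RicciNonnegOn g univ
  pos : ∃ R : ℝ, ∀ x : E n, R < ‖x‖ → ∀ w : E n, w ≠ 0 → 0 < ric g x w w
  avr : HasAsymptoticVolumeRatio g v
  dist : ∀ x, riemDist g univ 0 x = ‖x‖

theorem Metric_bil_add (A B : Mat n) (v w : E n) : bil (A + B) v w = bil A v w + bil B v w := by
  simp only [bil, Matrix.add_apply, add_mul, Finset.sum_add_distrib]

theorem Metric_bil_smul (a : ℝ) (A : Mat n) (v w : E n) : bil (a • A) v w = a * bil A v w := by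
  simp only [bil, Matrix.smul_apply, smul_eq_mul, Finset.mul_sum, mul_assoc]

theorem Metric_bil_one (v : E n) : bil (1 : Mat n) v v = ‖v‖ ^ 2 := by
  rw [EuclideanSpace.real_norm_sq_eq]
  simp only [bil, Matrix.one_apply, ite_mul, one_mul, zero_mul, Finset.sum_ite_eq, Finset.mem_univ,
    if_true, sq]

theorem Metric_bil_scale (A : Mat n) (a : ℝ) (v : E n) :
    bil A (a • v) (a • v) = a ^ 2 * bil A v v := by
  simp only [bil, PiLp.smul_apply, smul_eq_mul, Finset.mul_sum]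
  exact Finset.sum_congr rfl fun i _ => Finset.sum_congr rfl fun j _ => by ring

theorem Metric_bil_prj (x v : E n) : 0 ≤ bil (prj x) v v := by
  have : bil (prj x) v v = (∑ i, x i * v i) ^ 2 / ‖x‖ ^ 2 := by
    simp only [bil, prj_apply, sq (∑ i, x i * v i), Finset.sum_mul_sum, Finset.sum_div]
    exact Finset.sum_congr rfl fun i _ => Finset.sum_congr rfl fun j _ => by ring
  rw [this]; positivity

theorem Metric_bil_pos {A : Mat n} (hA : A.PosDef) {v : E n} (hv : v ≠ 0) : 0 < bil A v v := by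
  have h := hA.dotProduct_mulVec_pos (x := v.ofLp) fun h0 => hv (by ext i; exact congrFun h0 i)
  refine h.trans_eq ?_
  simp only [bil, dotProduct, Matrix.mulVec, star_trivial, Finset.mul_sum]
  exact Finset.sum_congr rfl fun i _ => Finset.sum_congr rfl fun j _ => by ring

theorem Metric_prj_smul (x : E n) {t : ℝ} (ht : 0 < t) : prj (t • x) = prj x := by
  ext i j
  simp only [prj_apply, PiLp.smul_apply, smul_eq_mul, norm_smul, Real.norm_eq_abs, mul_pow, sq_abs]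
  by_cases hx : ‖x‖ = 0
  · simp [hx]
  · field_simp

/-- uniform positivity of `π + H c` on a compact set of parameters -/
theorem Metric_lower {H : P → E n → Mat n} {O : Set P} (hF : Fam H O) {S : Set P}
    (hS : IsCompact S) (hSO : S ⊆ O) :
    ∃ m > 0, ∀ c ∈ S, ∀ x : E n, x ≠ 0 → ∀ v : E n, m * ‖v‖ ^ 2 ≤ bil (prj x + H c x) v v := by
  have hne : ∀ y ∈ Metric.sphere (0 : E n) 1, y ≠ 0 := fun y hy h0 => by simp [h0] at hy
  have hc : ContinuousOn (fun z : (P × E n) × E n => bil (prj z.1.2 + H z.1.1 z.1.2) z.2 z.2)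
      ((S ×ˢ Metric.sphere (0 : E n) 1) ×ˢ Metric.sphere (0 : E n) 1) := by
    unfold bil
    refine continuousOn_finsetSum _ fun i _ => continuousOn_finsetSum _ fun j _ => ?_
    refine ContinuousOn.mul (ContinuousOn.mul ?_ (by fun_prop)) (by fun_prop)
    simp only [Matrix.add_apply, prj_apply]
    refine ContinuousOn.add (ContinuousOn.div (by fun_prop) (by fun_prop) fun z hz => ?_) ?_
    · exact pow_ne_zero _ (norm_ne_zero_iff.2 (hne _ hz.1.2))
    · exact (hF.smooth i j).continuousOn.comp continuous_fst.continuousOn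
        fun z hz => ⟨hSO hz.1.1, hne _ hz.1.2⟩
  obtain ⟨m, hm, h⟩ := ((hS.prod (isCompact_sphere _ _)).prod (isCompact_sphere _ _)).exists_forall_le'
    hc (a := 0) fun z hz => Metric_bil_pos (hF.pos _ (hSO hz.1.1) _ (hne _ hz.1.2)) (hne _ hz.2)
  refine ⟨m, hm, fun c hc x hx v => ?_⟩
  by_cases hv : v = 0
  · simp [hv, bil]
  have hx' : 0 < ‖x‖ := norm_pos_iff.2 hx
  have hv' : 0 < ‖v‖ := norm_pos_iff.2 hv
  have hu : ∀ y : E n, 0 < ‖y‖ → ‖y‖⁻¹ • y ∈ Metric.sphere (0 : E n) 1 := fun y hy => by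
    rw [mem_sphere_zero_iff_norm, norm_smul, norm_inv, norm_norm, inv_mul_cancel₀ hy.ne']
  have h1 := h ((c, ‖x‖⁻¹ • x), ‖v‖⁻¹ • v) ⟨⟨hc, hu x hx'⟩, hu v hv'⟩
  simp only [Metric_prj_smul x (inv_pos.2 hx'), hF.hom c x _ (inv_pos.2 hx'),
    Metric_bil_scale] at h1
  rw [inv_pow, ← div_eq_inv_mul, le_div_iff₀ (by positivity)] at h1
  exact h1

theorem Metric_ricci_const (A : Mat n) (x : E n) : ricci (fun _ => A) x = fun _ _ => 0 := by
  have : ∀ y k i j, christoffel (fun _ : E n => A) y k i j = 0 := fun y k i j => by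
    simp [christoffel, pderiv]
  funext i j
  simp [ricci, this, pderiv]

theorem Metric_β_le {b : ℝ} {β ψ τ : ℝ → ℝ} (hT : Tm b β ψ τ) (t : ℝ) : β t ≤ 1 :=
  (hT.β_anti (min_le_left t 0)).trans_eq (hT.β_one _ (min_le_right t 0))

theorem Metric_ψ_pos {b : ℝ} {β ψ τ : ℝ → ℝ} (hT : Tm b β ψ τ) (r : ℝ) (hr : 0 < r) : 0 < ψ r :=
  (mul_pos hT.b_pos hr).trans_le (hT.ψ_ge r hr)

theorem Metric_hasDerivAt_β {b : ℝ} {β ψ τ : ℝ → ℝ} (hT : Tm b β ψ τ) (t : ℝ) :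
    HasDerivAt β (deriv β t) t := (hT.β_smooth.differentiable (by simp) t).hasDerivAt

theorem Metric_ddψ {b : ℝ} {β ψ τ : ℝ → ℝ} (hT : Tm b β ψ τ) {r : ℝ} (hr : 0 < r) :
    deriv (deriv ψ) r = deriv β (τ r) * (ψ r)⁻¹ := by
  have h : deriv ψ =ᶠ[𝓝 r] fun s => β (τ s) :=
    (lt_mem_nhds hr).mono fun s hs => (hT.dψ s hs).deriv
  rw [h.deriv_eq]
  exact ((Metric_hasDerivAt_β hT (τ r)).comp r (hT.dτ r hr)).deriv

/-- the round region -/
theorem Metric_round_nonneg (hn : 2 ≤ n) {b : ℝ} {β ψ τ : ℝ → ℝ} (hT : Tm b β ψ τ) {x : E n}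
    (hx : x ≠ 0) (v : E n) :
    0 ≤ ric (fun y => prj y + (ψ ‖y‖ / ‖y‖) ^ 2 • (1 - prj y)) x v v := by
  have hr : 0 < ‖x‖ := norm_pos_iff.2 hx
  have hψ := Metric_ψ_pos hT _ hr
  rw [ric_round hx (hT.ψ_smooth.contDiffAt (Ioi_mem_nhds hr)) hψ, Metric_ddψ hT hr,
    (hT.dψ _ hr).deriv]
  have h1 : deriv β (τ ‖x‖) ≤ 0 := hT.β_anti.deriv_nonpos
  have h2 : (2 : ℝ) ≤ n := by exact_mod_cast hn
  have h3 : β (τ ‖x‖) ^ 2 ≤ 1 :=
    pow_le_one₀ (hT.b_pos.le.trans (hT.β_ge _)) (Metric_β_le hT _)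
  have h4 : (⟪x, v⟫ / ‖x‖) ^ 2 ≤ ‖v‖ ^ 2 := by
    rw [div_pow, div_le_iff₀ (by positivity), ← sq_abs, mul_comm, ← mul_pow]
    exact pow_le_pow_left₀ (abs_nonneg _) (abs_real_inner_le_norm x v) 2
  have h5 : 0 ≤ -(deriv β (τ ‖x‖) * (ψ ‖x‖)⁻¹) := by
    rw [← neg_mul]; exact mul_nonneg (neg_nonneg.2 h1) (inv_pos.2 hψ).le
  refine add_nonneg (mul_nonneg (div_nonneg ?_ hψ.le) (sq_nonneg _))
    (mul_nonneg (div_nonneg ?_ (sq_nonneg _)) (sub_nonneg.2 h4))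
  · nlinarith
  · have := mul_nonneg (sub_nonneg.2 h2) (sub_nonneg.2 h3)
    have := mul_nonneg hψ.le h5
    nlinarith

theorem metric_main [FiniteDimensional ℝ P] (hn : 2 ≤ n) {b : ℝ} {β ψ τ : ℝ → ℝ}
    (hT : Tm b β ψ τ) {H : P → E n → Mat n} {O : Set P} (hF : Fam H O)
    (h0 : ∀ x, x ≠ 0 → H 0 x = 1 - prj x) {K : Set P} (hK : IsCompact K) (hKO : K ⊆ O)
    (h0K : (0 : P) ∈ K) {μ : ℝ} (hμ : 0 < μ)
    (hpos : ∀ c ∈ K, ∀ x v : E n, ‖x‖ = 1 → ⟪x, v⟫ = 0 →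
      μ * ‖v‖ ^ 2 ≤ ric (cone b (H c)) x v v) :
    ∃ ε > 0, ∃ C T : ℝ, 0 ≤ C ∧ 1 ≤ T ∧ (∀ c₀ ∈ K, ∀ c, ‖c - c₀‖ ≤ ε → c ∈ O) ∧
      ∀ c : ℝ → P, ContDiff ℝ ∞ c → ∀ T', T ≤ T' → (∀ t ≤ T', c t = 0) →
        (∀ t, T' ≤ t → (∃ c₀ ∈ K, ‖c t - c₀‖ ≤ ε) ∧ ‖deriv c t‖ ≤ ε ∧ ‖deriv (deriv c) t‖ ≤ ε ∧
          ∀ x : E n, x ≠ 0 → C * (‖deriv c t‖ ^ 2 + ‖deriv (deriv c) t‖ ^ 2)
            + deriv (deriv fun s => lTh H (c s) x) t + β t * deriv (fun s => lTh H (c s) x) t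
            < -((n : ℝ) - 1) * deriv β t) →
        (∀ η > 0, ∃ T'', ∀ t, T'' ≤ t → ∀ x : E n, x ≠ 0 → |lTh H (c t) x| ≤ η) →
        GoodM (radM ψ (c ∘ τ) H) (b ^ (n - 1)) := by
  obtain ⟨ε, hε, C, T, hO, hric⟩ := ric_pos_fam hT hF hK hKO hμ hpos
  refine ⟨ε, hε, max C 0, max T 1, le_max_right _ _, le_max_right _ _, hO,
    fun c hc T' hT' hc0 hc1 hl => ?_⟩
  have hT1 : (1 : ℝ) ≤ T' := (le_max_right _ _).trans hT'
  have hN : ∀ t, ∃ c₀ ∈ K, ‖c t - c₀‖ ≤ ε := fun t => by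
    rcases le_total t T' with h | h
    · exact ⟨0, h0K, by simp [hc0 t h, hε.le]⟩
    · exact (hc1 t h).1
  have hcO : ∀ t, c t ∈ O := fun t => by
    obtain ⟨c₀, h1, h2⟩ := hN t
    exact hO c₀ h1 _ h2
  have hne : ∀ x : E n, x ≠ 0 → radM ψ (c ∘ τ) H x =
      prj x + (ψ ‖x‖ / ‖x‖) ^ 2 • H (c (τ ‖x‖)) x := fun x hx => if_neg hx
  have heu : ∀ x : E n, ‖x‖ < 1 → radM ψ (c ∘ τ) H x = 1 := fun x hx => by
    by_cases h : x = 0
    · exact if_pos h
    have hr : 0 < ‖x‖ := norm_pos_iff.2 h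
    have : τ ‖x‖ ≤ T' := by
      rw [hT.τ_eq _ hr hx.le]
      exact (Real.log_nonpos hr.le hx.le).trans (zero_le_one.trans hT1)
    rw [hne x h, hc0 _ this, h0 x h, hT.ψ_eq _ hr hx.le, div_self hr.ne']
    simp
  have hev0 : radM ψ (c ∘ τ) H =ᶠ[𝓝 (0 : E n)] fun _ => 1 :=
    Filter.mem_of_superset (Metric.ball_mem_nhds (0 : E n) one_pos) fun y hy =>
      heu y (by simpa using hy)
  have hat : ∀ x : E n, x ≠ 0 → RiemAt (radM ψ (c ∘ τ) H) x := fun x hx =>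
    hF.riemAt_radM hx hT.ψ_smooth (Metric_ψ_pos hT) (hc.comp_contDiffOn hT.τ_smooth) (hcO _)
  have hriem : IsRiemannianOn (radM ψ (c ∘ τ) H) univ := by
    refine ⟨isOpen_univ, fun i j x _ => ContDiffAt.contDiffWithinAt ?_, fun x _ => ?_⟩
    · by_cases hx : x = 0
      · subst hx
        exact (contDiffAt_const (c := (1 : Mat n) i j)).congr_of_eventuallyEq
          (hev0.mono fun y hy => by simp only [hy])
      · obtain ⟨U, hU, h⟩ := hat x hx
        exact (h.contDiffOn i j).contDiffAt (h.isOpen.mem_nhds hU)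
    · by_cases hx : x = 0
      · rw [heu x (by simp [hx])]; exact Matrix.PosDef.one
      · obtain ⟨U, hU, h⟩ := hat x hx
        exact h.posDef x hU
  have hdist := riemDist_zero hriem (hF.mv_radM ψ (c ∘ τ))
  have hbig : ∀ x : E n, x ≠ 0 → T' ≤ τ ‖x‖ → ∀ v : E n, v ≠ 0 →
      0 < ric (radM ψ (c ∘ τ) H) x v v := fun x hx ht => by
    obtain ⟨h1, h2, h3, h4⟩ := hc1 _ ht
    refine hric c hc x hx (((le_max_left _ _).trans hT').trans ht) h1 h2 h3 ?_
    refine lt_of_le_of_lt ?_ (h4 x hx)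
    have := mul_le_mul_of_nonneg_right (le_max_left C 0)
      (add_nonneg (sq_nonneg ‖deriv c (τ ‖x‖)‖) (sq_nonneg ‖deriv (deriv c) (τ ‖x‖)‖))
    linarith
  have hφ : ∀ r, 0 < r → b ≤ ψ r / r ∧ ψ r / r ≤ 1 := fun r hr =>
    ⟨(le_div_iff₀ hr).2 (hT.ψ_ge r hr), (div_le_one hr).2 (hT.ψ_le r hr)⟩
  refine ⟨hriem, ?_, heu, fun x _ v => ?_, ?_, ?_, hdist⟩
  · have := FiniteDimensional.proper_real P
    obtain ⟨m, hm, hlow⟩ := Metric_lower hF
      (S := (fun p : P × P => p.1 + p.2) '' (K ×ˢ Metric.closedBall 0 ε))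
      ((hK.prod (isCompact_closedBall _ _)).image (by fun_prop)) (by
        rintro _ ⟨⟨p, q⟩, ⟨hp, hq⟩, rfl⟩
        exact hO p hp _ (by simpa using hq))
    refine complete_of_lower hriem (c := min 1 (b ^ 2 * m))
      (lt_min one_pos (mul_pos (pow_pos hT.b_pos 2) hm)) fun y v => ?_
    change _ ≤ bil (radM ψ (c ∘ τ) H y) v v
    by_cases hy : y = 0
    · rw [heu y (by simp [hy]), Metric_bil_one]
      exact (mul_le_mul_of_nonneg_right (min_le_left _ _) (sq_nonneg _)).trans_eq (one_mul _)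
    obtain ⟨c₀, h1, h2⟩ := hN (τ ‖y‖)
    have h3 := hlow (c (τ ‖y‖)) ⟨(c₀, c (τ ‖y‖) - c₀), ⟨h1, by simpa using h2⟩, by simp⟩ y hy v
    obtain ⟨h4, h5⟩ := hφ _ (norm_pos_iff.2 hy)
    have h6 : b ^ 2 ≤ (ψ ‖y‖ / ‖y‖) ^ 2 := pow_le_pow_left₀ hT.b_pos.le h4 2
    have h7 : (ψ ‖y‖ / ‖y‖) ^ 2 ≤ 1 := pow_le_one₀ (hT.b_pos.le.trans h4) h5
    rw [Metric_bil_add] at h3
    rw [hne y hy, Metric_bil_add, Metric_bil_smul]
    have h8 := mul_le_mul_of_nonneg_right (min_le_right 1 (b ^ 2 * m)) (sq_nonneg ‖v‖)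
    have h9 := mul_le_mul_of_nonneg_left h3 (sq_nonneg (ψ ‖y‖ / ‖y‖))
    have h10 := mul_le_mul_of_nonneg_right h6 (mul_nonneg hm.le (sq_nonneg ‖v‖))
    have h11 := mul_nonneg (sub_nonneg.2 h7) (Metric_bil_prj y v)
    nlinarith
  · change 0 ≤ ric (radM ψ (c ∘ τ) H) x v v
    by_cases hx : x = 0
    · subst hx
      simp [ric, ricci_congr hev0, Metric_ricci_const]
    rcases lt_or_ge (τ ‖x‖) T' with ht | ht
    · have hcont : ContinuousAt (fun y : E n => τ ‖y‖) x :=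
        (hT.dτ _ (norm_pos_iff.2 hx)).continuousAt.comp continuous_norm.continuousAt
      have hev : radM ψ (c ∘ τ) H =ᶠ[𝓝 x]
          fun y => prj y + (ψ ‖y‖ / ‖y‖) ^ 2 • (1 - prj y) := by
        filter_upwards [hcont.eventually (gt_mem_nhds ht), isOpen_ne.mem_nhds hx] with y h1 h2
        rw [hne y h2, hc0 _ h1.le, h0 y h2]
      have := Metric_round_nonneg hn hT hx v
      unfold ric at this ⊢
      rwa [ricci_congr hev]
    · by_cases hv : v = 0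
      · simp [ric, hv]
      · exact (hbig x hx ht v hv).le
  · obtain ⟨R, hR⟩ := Filter.eventually_atTop.1 (hT.τ_lim.eventually_ge_atTop T')
    refine ⟨max R 0, fun x hx => hbig x ?_ (hR _ ((le_max_left _ _).trans hx.le))⟩
    exact norm_pos_iff.1 ((le_max_right _ _).trans_lt hx)
  · refine avr_of_tendsto (by omega) hriem hdist fun η hη => ?_
    have hcont : ContinuousAt (fun z : ℝ × ℝ => z.1 ^ (n - 1) * Real.exp z.2) (b, 0) := by fun_prop
    obtain ⟨δ, hδ, hδ'⟩ := Metric.continuousAt_iff.1 hcont η hη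
    obtain ⟨T'', hT''⟩ := hl (δ / 2) (half_pos hδ)
    obtain ⟨R, hR⟩ := Filter.eventually_atTop.1 ((hT.τ_lim.eventually_ge_atTop T'').and
      (((Metric.tendsto_nhds.1 hT.ψ_lim) δ hδ).and (eventually_gt_atTop 0)))
    refine ⟨R, fun x hx => ?_⟩
    obtain ⟨h1, h2, h3⟩ := hR _ hx
    have hx0 : x ≠ 0 := norm_pos_iff.1 h3
    have h4 := hδ' (x := (ψ ‖x‖ / ‖x‖, lTh H (c (τ ‖x‖)) x)) (by
      rw [Prod.dist_eq, max_lt_iff]
      exact ⟨h2, by simpa using (hT'' _ h1 x hx0).trans_lt (half_lt_self hδ)⟩)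
    have h5 : Real.sqrt (radM ψ (c ∘ τ) H x).det =
        (ψ ‖x‖ / ‖x‖) ^ (n - 1) * Real.exp (lTh H (c (τ ‖x‖)) x) := by
      have hp := (hF.pos _ (hcO (τ ‖x‖)) x hx0).det_pos
      have hq : 0 ≤ (ψ ‖x‖ / ‖x‖) ^ (n - 1) := pow_nonneg (hT.b_pos.le.trans (hφ _ h3).1) _
      rw [hne x hx0, det_rad hx0 (hF.symm (hcO _) hx0) (hF.rad _ _), pow_mul',
        Real.sqrt_mul (sq_nonneg _), Real.sqrt_sq hq, lTh, one_div, ← div_eq_inv_mul, Real.exp_half,
        Real.exp_log hp]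
    rw [h5]
    simpa [Real.dist_eq] using h4.le

/-- tangential Ricci curvature of the round cone (`ric_round` with `ψ r = b r`) -/
theorem ric_cone_round {b : ℝ} (hb : 0 < b) {h : E n → Mat n} (hh : ∀ x, x ≠ 0 → h x = 1 - prj x)
    {x v : E n} (hx : ‖x‖ = 1) (hv : ⟪x, v⟫ = 0) :
    ric (cone b h) x v v = ((n : ℝ) - 2) * (1 - b ^ 2) * ‖v‖ ^ 2 := by
  have hx0 : x ≠ 0 := fun h0 => by simp [h0] at hx
  have hev : cone b h =ᶠ[𝓝 x] fun y => prj y + ((fun r => b * r) ‖y‖ / ‖y‖) ^ 2 • (1 - prj y) := by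
    filter_upwards [isOpen_ne.mem_nhds hx0] with y hy
    simp only [cone, hh y hy, mul_div_cancel_right₀ b (norm_ne_zero_iff.2 hy)]
  have h1 := ric_round (ψ := fun r => b * r) hx0 (by fun_prop) (by simpa [hx] using hb) v
  have h2 : deriv (fun r : ℝ => b * r) = fun _ => b := by
    funext r; simp
  unfold ric at h1 ⊢
  rw [ricci_congr hev, h1, h2, hv, hx]
  simp

/-- first and second derivatives of a function that is smooth at a point -/
theorem Metric_d12 {f : ℝ → ℝ} {s : ℝ} (hf : ContDiffAt ℝ ∞ f s) :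
    (∀ᶠ t in 𝓝 s, HasDerivAt f (deriv f t) t) ∧ HasDerivAt (deriv f) (deriv (deriv f) s) s := by
  refine ⟨((hf.of_le (m := 1) (by simp)).eventually (by simp)).mono fun t ht =>
    (ht.differentiableAt one_ne_zero).hasDerivAt, ?_⟩
  exact ((hf.derivWithin (m := 1) (WithTop.coe_le_coe.2 (le_top : (1 + 1 : ℕ∞) ≤ ⊤))).differentiableAt
    one_ne_zero).hasDerivAt

theorem Metric_rd {b : ℝ} {β ψ τ : ℝ → ℝ} (hT : Tm b β ψ τ) {r : ℝ} (hr : 0 < r) {f : ℝ → ℝ}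
    (hf : ContDiffAt ℝ ∞ f (τ r)) (p : ℝ) {e : ℝ → ℝ}
    (he : e =ᶠ[𝓝 1] fun t => p + (ψ (t * r) / (t * r)) ^ 2 * f (τ (t * r))) :
    deriv e 1 = 2 * (ψ r / r) * (β (τ r) - ψ r / r) * f (τ r) + ψ r / r * deriv f (τ r) ∧
    deriv (deriv e) 1 = (2 * (β (τ r) - ψ r / r) ^ 2 + 2 * deriv β (τ r)
        - 4 * (ψ r / r) * (β (τ r) - ψ r / r)) * f (τ r)
      + (3 * β (τ r) - 4 * (ψ r / r)) * deriv f (τ r) + deriv (deriv f) (τ r) := by
  obtain ⟨hf1, hf2⟩ := Metric_d12 hf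
  have hm : ∀ t : ℝ, HasDerivAt (fun t : ℝ => t * r) r t := fun t => by
    simpa using (hasDerivAt_id t).mul_const r
  have hs : ∀ t : ℝ, 0 < t → HasDerivAt (fun t : ℝ => τ (t * r)) ((ψ (t * r))⁻¹ * r) t :=
    fun t ht => (hT.dτ _ (mul_pos ht hr)).comp t (hm t)
  have hφ : ∀ t : ℝ, 0 < t → HasDerivAt (fun t : ℝ => ψ (t * r) / (t * r))
      ((β (τ (t * r)) - ψ (t * r) / (t * r)) / t) t := fun t ht => by
    have := ((hT.dψ _ (mul_pos ht hr)).comp t (hm t)).div (hm t) (mul_pos ht hr).ne'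
    refine this.congr_deriv ?_
    simp only [Function.comp]
    field_simp
  have hs1 : Tendsto (fun t : ℝ => τ (t * r)) (𝓝 1) (𝓝 (τ r)) := by
    simpa using (hs 1 one_pos).continuousAt.tendsto
  have hd : deriv e =ᶠ[𝓝 1] fun t =>
      2 * (ψ (t * r) / (t * r)) * (β (τ (t * r)) - ψ (t * r) / (t * r)) / t * f (τ (t * r))
        + ψ (t * r) / (t * r) / t * deriv f (τ (t * r)) := by
    refine he.deriv.trans ?_
    filter_upwards [hs1.eventually hf1, lt_mem_nhds one_pos] with t h1 ht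
    have hψ := Metric_ψ_pos hT _ (mul_pos ht hr)
    have := ((((hφ t ht).pow 2).mul (h1.comp t (hs t ht))).const_add p).deriv
    refine Eq.trans this ?_
    simp only [Function.comp, Pi.pow_apply, Nat.cast_ofNat, Nat.add_one_sub_one, pow_one]
    field_simp
  refine ⟨by simpa using hd.eq_of_nhds, ?_⟩
  rw [hd.deriv_eq]
  have hψ := Metric_ψ_pos hT _ hr
  have e1 : HasDerivAt f (deriv f (τ r)) (τ (1 * r)) := by simpa using hf1.self_of_nhds
  have e2 : HasDerivAt (deriv f) (deriv (deriv f) (τ r)) (τ (1 * r)) := by simpa using hf2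
  have hβ := (Metric_hasDerivAt_β hT (τ (1 * r))).comp 1 (hs 1 one_pos)
  have := ((((((hφ 1 one_pos).const_mul 2).mul (hβ.sub (hφ 1 one_pos))).div (hasDerivAt_id 1)
    one_ne_zero).mul (e1.comp 1 (hs 1 one_pos))).add
      (((hφ 1 one_pos).div (hasDerivAt_id 1) one_ne_zero).mul (e2.comp 1 (hs 1 one_pos)))).deriv
  refine Eq.trans this ?_
  simp only [Function.comp, Pi.mul_apply, Pi.sub_apply, Pi.div_apply, id, one_mul]
  field_simp
  ring

theorem Metric_prj_mul_prj {x : E n} (hx : x ≠ 0) : prj x * prj x = prj x := by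
  ext i j
  have h : ‖x‖ ^ 2 ≠ 0 := pow_ne_zero _ (norm_ne_zero_iff.2 hx)
  have : ∑ k, x i * x k / ‖x‖ ^ 2 * (x k * x j / ‖x‖ ^ 2) =
      (x i * x j / ‖x‖ ^ 2 / ‖x‖ ^ 2) * ∑ k, x k ^ 2 := by
    rw [Finset.mul_sum]; exact Finset.sum_congr rfl fun k _ => by ring
  simp only [Matrix.mul_apply, prj_apply]
  rw [this, ← EuclideanSpace.real_norm_sq_eq, div_mul_cancel₀ _ h]

theorem Metric_mul_prj {x : E n} {A : Mat n} (h : ∀ i, ∑ j, A i j * x j = 0) : A * prj x = 0 := by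
  ext i j
  have : ∑ k, A i k * (x k * x j / ‖x‖ ^ 2) = (∑ k, A i k * x k) * (x j / ‖x‖ ^ 2) := by
    rw [Finset.sum_mul]; exact Finset.sum_congr rfl fun k _ => by ring
  simp only [Matrix.mul_apply, prj_apply, this, h, zero_mul, Matrix.zero_apply]

theorem Metric_prj_mul {x : E n} {A : Mat n} (hA : Aᵀ = A) (h : A * prj x = 0) : prj x * A = 0 := by
  have h1 : (prj x)ᵀ = prj x := by
    ext i j; simp only [Matrix.transpose_apply, prj_apply, mul_comm]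
  have := congrArg Matrix.transpose h
  rwa [Matrix.transpose_mul, hA, h1, Matrix.transpose_zero] at this

theorem Metric_alg {π A B M : Mat n} (h1 : (π + A) * M = 1) (h2 : M * (π + A) = 1)
    (hπ : π * π = π) (hA : A * π = 0) (hA' : π * A = 0) (hB : B * π = 0) (hB' : π * B = 0)
    {a : ℝ} (ha : a ≠ 0) (d : ℝ) :
    ((2 * a * d) • A + a • B) * (π + (a ^ 2)⁻¹ • (M - π)) * ((2 * a * d) • A + a • B) =
      (4 * d ^ 2) • A + (4 * d) • B + B * M * B := by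
  have e1 : π * M = π := by
    have : π * ((π + A) * M) = π * M := by rw [← mul_assoc, mul_add, hπ, hA', add_zero]
    rw [← this, h1, mul_one]
  have e2 : M * π = π := by
    have : M * (π + A) * π = M * π := by rw [mul_assoc, add_mul, hπ, hA, add_zero]
    rw [← this, h2, one_mul]
  have e3 : A * M = 1 - π := by rw [← h1, add_mul, e1, add_sub_cancel_left]
  have e4 : M * A = 1 - π := by rw [← h2, mul_add, e2, add_sub_cancel_left]
  have e5 : A * M * A = A := by rw [e3, sub_mul, one_mul, hA', sub_zero]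
  have e6 : A * M * B = B := by rw [e3, sub_mul, one_mul, hB', sub_zero]
  have e7 : B * M * A = B := by rw [mul_assoc, e4, mul_sub, mul_one, hB, sub_zero]
  simp only [add_mul, mul_add, smul_mul_assoc, mul_smul_comm, mul_sub, hA, hB, e5, e6, e7,
    smul_zero, sub_zero, zero_add, smul_add, smul_smul]
  match_scalars <;> field_simp <;> ring

/-- radial sectional curvature in the time `τ` (from `secNumer_radial`, `inv_rad`) -/
theorem secNumer_radM {b : ℝ} {β ψ τ : ℝ → ℝ} (hT : Tm b β ψ τ) {H : P → E n → Mat n}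
    {O : Set P} (hF : Fam H O) {c : ℝ → P} (hc : ContDiff ℝ ∞ c) {x : E n} (hx : x ≠ 0)
    (hO : c (τ ‖x‖) ∈ O) (w : E n) :
    secNumer (radM ψ (c ∘ τ) H) x x w
      = -deriv β (τ ‖x‖) * bil (H (c (τ ‖x‖)) x) w w
        - (1 / 2) * β (τ ‖x‖) * deriv (fun s => bil (H (c s) x) w w) (τ ‖x‖)
        - (1 / 2) * deriv (deriv fun s => bil (H (c s) x) w w) (τ ‖x‖)
        + (1 / 4) * bil ((Matrix.of fun i j => deriv (fun s => H (c s) x i j) (τ ‖x‖))
            * (prj x + H (c (τ ‖x‖)) x)⁻¹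
            * (Matrix.of fun i j => deriv (fun s => H (c s) x i j) (τ ‖x‖))) w w := by
  have hr : 0 < ‖x‖ := norm_pos_iff.2 hx
  have hψ := Metric_ψ_pos hT _ hr
  have ha : ψ ‖x‖ / ‖x‖ ≠ 0 := (div_pos hψ hr).ne'
  have hs : ∀ i j, ContDiffAt ℝ ∞ (fun s => H (c s) x i j) (τ ‖x‖) := fun i j =>
    ((hF.smooth i j).contDiffAt (x := (c (τ ‖x‖), x))
      ((hF.isOpen.prod isOpen_ne).mem_nhds ⟨hO, hx⟩)).comp (τ ‖x‖)
      (f := fun s => (c s, x)) (hc.contDiffAt.prodMk contDiffAt_const)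
  have hev : ∀ i j, (fun t : ℝ => radM ψ (c ∘ τ) H (t • x) i j) =ᶠ[𝓝 1] fun t =>
      prj x i j + (ψ (t * ‖x‖) / (t * ‖x‖)) ^ 2 * H (c (τ (t * ‖x‖))) x i j := fun i j => by
    filter_upwards [lt_mem_nhds one_pos] with t ht
    have : ‖t • x‖ = t * ‖x‖ := by rw [norm_smul, Real.norm_of_nonneg ht.le]
    simp only [radM, if_neg (smul_ne_zero ht.ne' hx), Metric_prj_smul x ht, hF.hom _ x t ht, this,
      Matrix.add_apply, Matrix.smul_apply, smul_eq_mul, Function.comp]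
  set A : Mat n := H (c (τ ‖x‖)) x with hA
  set B : Mat n := Matrix.of fun i j => deriv (fun s => H (c s) x i j) (τ ‖x‖) with hB
  set D : Mat n := Matrix.of fun i j => deriv (deriv fun s => H (c s) x i j) (τ ‖x‖) with hD
  have h1 : rd1 (radM ψ (c ∘ τ) H) x =
      (2 * (ψ ‖x‖ / ‖x‖) * (β (τ ‖x‖) - ψ ‖x‖ / ‖x‖)) • A + (ψ ‖x‖ / ‖x‖) • B := by
    ext i j
    exact (Metric_rd hT hr (hs i j) _ (hev i j)).1
  have h2 : rd2 (radM ψ (c ∘ τ) H) x = (2 * (β (τ ‖x‖) - ψ ‖x‖ / ‖x‖) ^ 2 + 2 * deriv β (τ ‖x‖)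
        - 4 * (ψ ‖x‖ / ‖x‖) * (β (τ ‖x‖) - ψ ‖x‖ / ‖x‖)) • A
      + (3 * β (τ ‖x‖) - 4 * (ψ ‖x‖ / ‖x‖)) • B + D := by
    ext i j
    exact (Metric_rd hT hr (hs i j) _ (hev i j)).2
  have hall : ∀ᶠ s in 𝓝 (τ ‖x‖), ∀ i j, HasDerivAt (fun s => H (c s) x i j)
      (deriv (fun s => H (c s) x i j) s) s :=
    eventually_all.2 fun i => eventually_all.2 fun j => (Metric_d12 (hs i j)).1
  have hd : (deriv fun s => bil (H (c s) x) w w) =ᶠ[𝓝 (τ ‖x‖)] fun s =>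
      ∑ i, ∑ j, deriv (fun s => H (c s) x i j) s * w i * w j :=
    hall.mono fun s h => (HasDerivAt.fun_sum fun i _ => HasDerivAt.fun_sum fun j _ =>
      ((h i j).mul_const (w i)).mul_const (w j)).deriv
  have h3 : deriv (fun s => bil (H (c s) x) w w) (τ ‖x‖) = bil B w w := hd.eq_of_nhds
  have h4 : deriv (deriv fun s => bil (H (c s) x) w w) (τ ‖x‖) = bil D w w := by
    rw [hd.deriv_eq]
    exact (HasDerivAt.fun_sum fun i _ => HasDerivAt.fun_sum fun j _ =>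
      (((Metric_d12 (hs i j)).2).mul_const (w i)).mul_const (w j)).deriv
  have hrad : ∀ s i, ∑ j, H (c s) x i j * x j = 0 := fun s i => by
    simpa using congrArg (fun v : E n => v i) (hF.rad (c s) x)
  have hAπ : A * prj x = 0 := Metric_mul_prj (hrad _)
  have hBπ : B * prj x = 0 := Metric_mul_prj fun i => by
    have := (HasDerivAt.fun_sum fun j (_ : j ∈ Finset.univ) =>
      (hall.self_of_nhds i j).mul_const (x j)).deriv
    simp only [hrad, deriv_const'] at this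
    exact this.symm
  have hBt : Bᵀ = B := by
    ext i j
    refine Filter.EventuallyEq.deriv_eq ?_
    filter_upwards [hc.continuous.continuousAt.eventually (hF.isOpen.mem_nhds hO)] with s h
    exact congrFun (congrFun (hF.symm h hx) i) j
  have hp := hF.pos _ hO x hx
  have hu : IsUnit (prj x + A).det := (Matrix.isUnit_iff_isUnit_det _).1 hp.isUnit
  have hg : radM ψ (c ∘ τ) H x = prj x + (ψ ‖x‖ / ‖x‖) ^ 2 • A := if_neg hx
  have hriem : RiemAt (radM ψ (c ∘ τ) H) x :=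
    hF.riemAt_radM hx hT.ψ_smooth (Metric_ψ_pos hT) (hc.comp_contDiffOn hT.τ_smooth) hO
  rw [secNumer_radial hriem (Eventually.of_forall (hF.mv_radM ψ (c ∘ τ))), h1, h2, h3, h4, hg,
    inv_rad hx (hF.rad _ _) hp ha, Metric_alg (Matrix.mul_nonsing_inv _ hu)
      (Matrix.nonsing_inv_mul _ hu) (Metric_prj_mul_prj hx) hAπ
      (Metric_prj_mul (hF.symm hO hx) hAπ) hBπ (Metric_prj_mul hBt hBπ) ha]
  simp only [Metric_bil_add, Metric_bil_smul]
  ring

end Crest.Agent.R202
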