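import Crest.Agent.R202.OdeDefs

/-!
# R202/OdeData: matrix data of phases and kicks

The modes are `M ⊕ H` (controlled, high); the columns `W` of the solution family are embedded in
`M` by `e`.  All norms are `L²` operator norms.
-/

open scoped ContDiff Topology Matrix Matrix.Norms.L2Operator
open Set Filter

noncomputable section

namespace Crest.Agent.R202

variable {Y M H W : Type}

/-- column `c` of a family of states -/
def fam (A : Matrix M W ℝ) (A' : Matrix H W ℝ) (A'' : Matrix (M ⊕ H) W ℝ) (c : W) :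
    St (M ⊕ H) := (Sum.elim (fun i => A i c) (fun i => A' i c), fun i => A'' i c)

/-- the inclusion matrix -/
def inc [DecidableEq M] (e : W → M) : Matrix M W ℝ := fun i a => if i = e a then 1 else 0

/-- the part of a matrix that connects different degrees -/
def off (dM : M → ℕ) (e : W → M) (A : Matrix M W ℝ) : Matrix M W ℝ :=
  fun i a => if dM i = dM (e a) then 0 else A i a

/-- data of a phase -/
structure PhF (Y M H W : Type) where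
  XM : Y → Matrix M W ℝ
  XH : Y → Matrix H W ℝ
  D : Y → Matrix M W ℝ
  m : Y → Matrix (M ⊕ H) W ℝ
  Δ : Y → Matrix W W ℝ
  Δi : Y → Matrix W W ℝ
  XdM : Y → Matrix M (M ⊕ H) ℝ
  XdH : Y → Matrix H (M ⊕ H) ℝ
  Md : Y → Matrix (M ⊕ H) (M ⊕ H) ℝ
  Hh : Y → Matrix H H ℝ
  Dh : Y → Matrix M H ℝ
  Mh : Y → Matrix (M ⊕ H) H ℝ

/-- data of a kick -/
structure KkF (Y M H : Type) where
  Pz : Y → Matrix M M ℝ
  Pd : Y → Matrix M (M ⊕ H) ℝ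
  Ph : Y → Matrix M H ℝ
  Mz : Y → Matrix (M ⊕ H) M ℝ
  Md : Y → Matrix (M ⊕ H) (M ⊕ H) ℝ
  Mh : Y → Matrix (M ⊕ H) H ℝ
  Hz : Y → Matrix H M ℝ
  Hd : Y → Matrix H (M ⊕ H) ℝ
  Hh : Y → Matrix H H ℝ

variable [Fintype M] [DecidableEq M] [Fintype H] [DecidableEq H] [Fintype W] [DecidableEq W]

structure PhF.Good [TopologicalSpace Y] (P : PhF Y M H W) (θ C : ℝ) : Prop where
  cXM : Continuous P.XM
  cXH : Continuous P.XH
  cD : Continuous P.D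
  cm : Continuous P.m
  cΔ : Continuous P.Δ
  cΔi : Continuous P.Δi
  cXdM : Continuous P.XdM
  cXdH : Continuous P.XdH
  cMd : Continuous P.Md
  cHh : Continuous P.Hh
  cDh : Continuous P.Dh
  cMh : Continuous P.Mh
  inv : ∀ y, P.Δi y * P.Δ y = 1
  nXM : ∀ y, ‖P.XM y‖ ≤ θ
  nXH : ∀ y, ‖P.XH y‖ ≤ θ
  nD : ∀ y, ‖P.D y‖ ≤ θ
  nm : ∀ y, ‖P.m y‖ ≤ θ
  nΔi : ∀ y, ‖P.Δi y‖ ≤ C
  nXdM : ∀ y, ‖P.XdM y‖ ≤ θ
  nXdH : ∀ y, ‖P.XdH y‖ ≤ θ
  nMd : ∀ y, ‖P.Md y‖ ≤ θ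
  nHh : ∀ y, ‖P.Hh y‖ * ‖P.Δ y‖ ≤ θ
  nDh : ∀ y, ‖P.Dh y‖ ≤ θ
  nMh : ∀ y, ‖P.Mh y‖ ≤ θ

structure KkF.Good [TopologicalSpace Y] (K : KkF Y M H) (η C : ℝ) : Prop where
  cPz : Continuous K.Pz
  cPd : Continuous K.Pd
  cPh : Continuous K.Ph
  cMz : Continuous K.Mz
  cMd : Continuous K.Md
  cMh : Continuous K.Mh
  cHz : Continuous K.Hz
  cHd : Continuous K.Hd
  cHh : Continuous K.Hh
  nPz : ∀ y, ‖K.Pz y - 1‖ ≤ C * η
  nPd : ∀ y, ‖K.Pd y‖ ≤ C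
  nPh : ∀ y, ‖K.Ph y‖ ≤ C
  nMz : ∀ y, ‖K.Mz y‖ ≤ C * η
  nMd : ∀ y, ‖K.Md y‖ ≤ C
  nMh : ∀ y, ‖K.Mh y‖ ≤ C
  nHz : ∀ y, ‖K.Hz y‖ ≤ C * η
  nHd : ∀ y, ‖K.Hd y‖ ≤ C
  nHh : ∀ y, ‖K.Hh y‖ ≤ C

/-- what a phase does to families (`om` is the free growth during the preceding kick) -/
def PhF.Act (P : PhF Y M H W) (B : Bg) (d : M ⊕ H → ℕ) (e : W → M) (om : ℕ → ℝ)
    (R Q : ℝ → Matrix (M ⊕ H) (M ⊕ H) ℝ) (s t : ℝ) (y : Y) : Prop :=
  ∀ (T : Matrix W W ℝ) (d' : Matrix (M ⊕ H) W ℝ) (h : Matrix H W ℝ) (c : W),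
    B.Rel d R Q s t
      (fam (Matrix.diagonal (fun i => om (d (Sum.inl i))) * ((inc e + P.XM y) * T + P.XdM y * d'))
        (P.XH y * T + P.XdH y * d' + P.Hh y * h) d' c)
      (fam ((inc e + P.D y) * P.Δ y * T + P.Dh y * h) h
        (P.m y * P.Δ y * T + P.Md y * d' + P.Mh y * h) c)

/-- what a kick does to families -/
def KkF.Act (K : KkF Y M H) (W : Type) (B : Bg) (d : M ⊕ H → ℕ)
    (R Q : ℝ → Matrix (M ⊕ H) (M ⊕ H) ℝ) (s t : ℝ) (y : Y) : Prop :=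
  ∀ (z : Matrix M W ℝ) (d' : Matrix (M ⊕ H) W ℝ) (h : Matrix H W ℝ) (c : W),
    B.Rel d R Q s t
      (fam z (K.Hz y * z + K.Hd y * d' + K.Hh y * h) d' c)
      (fam (Matrix.diagonal (fun i => Real.exp (B.Ip (d (Sum.inl i)) s t))
          * (K.Pz y * z + K.Pd y * d' + K.Ph y * h)) h (K.Mz y * z + K.Md y * d' + K.Mh y * h) c)

/-- normalised `xp` on `M` at the end of a phase -/
def PhF.zz (P : PhF Y M H W) (e : W → M) (y : Y) (h : Matrix H W ℝ) : Matrix M W ℝ :=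
  inc e + P.D y + P.Dh y * h

/-- normalised `xm` at the end of a phase -/
def PhF.dd (P : PhF Y M H W) (y : Y) (h : Matrix H W ℝ) (d' : Matrix (M ⊕ H) W ℝ)
    (T : Matrix W W ℝ) : Matrix (M ⊕ H) W ℝ :=
  P.m y + P.Mh y * h + P.Md y * d' * (T⁻¹ * P.Δi y)

/-- `xp` on `H` at the start of a phase -/
def PhF.hh (P : PhF Y M H W) (y : Y) (h : Matrix H W ℝ) (d' : Matrix (M ⊕ H) W ℝ)
    (T : Matrix W W ℝ) : Matrix H W ℝ :=
  P.XH y * T + P.XdH y * d' + P.Hh y * (h * P.Δ y * T)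

/-- first order kernel of a kick -/
def kerN {ι : Type} (B : Bg) (d : ι → ℕ) (R Q : ℝ → Matrix ι ι ℝ) (s : ℝ) (i a : ι) (r : ℝ) : ℝ :=
  Real.sqrt (d i) / Real.sqrt (d a) * Real.exp (B.Ip (d a) s r - B.Ip (d i) s r)
    * (Q r i a - B.bm (d i) r * B.bp (d a) r * R r i a) / (B.bp (d i) r - B.bm (d i) r)

end Crest.Agent.R202
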