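import Crest.Agent.R202.OdeBasic
import Crest.Agent.R202.OdeData

/-!
# R202/OdeNorm: the `L²` operator norm and `n2`
-/

open scoped ContDiff Topology Matrix Matrix.Norms.L2Operator
open Set Filter

noncomputable section

namespace Crest.Agent.R202

variable {m n k : Type} [Fintype m] [Fintype n] [DecidableEq n] [Fintype k] [DecidableEq k]

theorem OdeNorm_n2_eq (x : m → ℝ) : n2 x = ‖(WithLp.toLp 2 x : EuclideanSpace ℝ m)‖ ^ 2 := by
  rw [EuclideanSpace.real_norm_sq_eq]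
  rfl

theorem OdeNorm_n2_nonneg (x : m → ℝ) : 0 ≤ n2 x := Finset.sum_nonneg fun _ _ => sq_nonneg _

theorem n2_mulVec_le (A : Matrix m n ℝ) (v : n → ℝ) : n2 (A *ᵥ v) ≤ ‖A‖ ^ 2 * n2 v := by
  rw [OdeNorm_n2_eq, OdeNorm_n2_eq, ← mul_pow]
  exact pow_le_pow_left₀ (norm_nonneg _) (A.l2_opNorm_mulVec (WithLp.toLp 2 v)) 2

theorem opNorm_le_of_n2 {A : Matrix m n ℝ} {c : ℝ} (hc : 0 ≤ c)
    (h : ∀ v, n2 (A *ᵥ v) ≤ c ^ 2 * n2 v) : ‖A‖ ≤ c := by
  rw [Matrix.l2_opNorm_def]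
  refine ContinuousLinearMap.opNorm_le_bound _ hc fun x => ?_
  refine (sq_le_sq₀ (norm_nonneg _) (by positivity)).1 ?_
  have h1 := h x.ofLp
  rw [OdeNorm_n2_eq, OdeNorm_n2_eq, ← mul_pow] at h1
  exact h1

theorem abs_entry_le (A : Matrix m n ℝ) (i : m) (j : n) : |A i j| ≤ ‖A‖ := by
  have h1 := n2_mulVec_le A (Pi.single j 1)
  have h2 : n2 (Pi.single j (1 : ℝ) : n → ℝ) = 1 := by
    simp [n2, Pi.single_apply]
  have h3 : (A *ᵥ Pi.single j 1) i ^ 2 ≤ n2 (A *ᵥ Pi.single j 1) :=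
    Finset.single_le_sum (f := fun i => (A *ᵥ Pi.single j 1) i ^ 2) (fun _ _ => sq_nonneg _)
      (Finset.mem_univ i)
  rw [h2, mul_one] at h1
  have h4 : (A *ᵥ Pi.single j 1) i = A i j := by simp
  rw [h4] at h3
  exact abs_le_of_sq_le_sq (h3.trans h1) (norm_nonneg _)

theorem n2_col_le (A : Matrix m n ℝ) (j : n) : n2 (fun i => A i j) ≤ ‖A‖ ^ 2 := by
  have h1 := n2_mulVec_le A (Pi.single j 1)
  have h2 : n2 (Pi.single j (1 : ℝ) : n → ℝ) = 1 := by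
    simp [n2, Pi.single_apply]
  have h4 : A *ᵥ Pi.single j 1 = fun i => A i j := by
    funext i
    simp
  rwa [h2, mul_one, h4] at h1

theorem opNorm_le_of_col {A : Matrix m n ℝ} {c : ℝ} (hc : 0 ≤ c)
    (h : ∀ j, n2 (fun i => A i j) ≤ c ^ 2) : ‖A‖ ≤ Fintype.card n * c := by
  refine opNorm_le_of_n2 (by positivity) fun v => ?_
  have h1 : n2 (A *ᵥ v) ≤ (∑ j, n2 fun i => A i j) * n2 v := by
    unfold n2
    rw [Finset.sum_comm, Finset.sum_mul]
    exact Finset.sum_le_sum fun i _ => Finset.sum_mul_sq_le_sq_mul_sq _ _ _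
  have h2 : (∑ j, n2 fun i => A i j) ≤ Fintype.card n * c ^ 2 := by
    refine (Finset.sum_le_sum fun j _ => h j).trans ?_
    simp
  have h3 : (Fintype.card n : ℝ) ≤ (Fintype.card n : ℝ) ^ 2 := by
    exact_mod_cast Nat.le_self_pow two_ne_zero _
  refine h1.trans (mul_le_mul_of_nonneg_right (h2.trans ?_) (OdeNorm_n2_nonneg v))
  rw [mul_pow]
  exact mul_le_mul_of_nonneg_right h3 (sq_nonneg c)

theorem opNorm_le_of_entry {A : Matrix m n ℝ} {c : ℝ} (hc : 0 ≤ c) (h : ∀ i j, |A i j| ≤ c) :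
    ‖A‖ ≤ Fintype.card m * Fintype.card n * c := by
  have h3 : (Fintype.card m : ℝ) ≤ (Fintype.card m : ℝ) ^ 2 := by
    exact_mod_cast Nat.le_self_pow two_ne_zero _
  refine (opNorm_le_of_col (c := Fintype.card m * c) (by positivity) fun j => ?_).trans
    (le_of_eq (by ring))
  have h1 : (n2 fun i => A i j) ≤ ∑ _i : m, c ^ 2 :=
    Finset.sum_le_sum fun i _ => sq_le_sq' (abs_le.1 (h i j)).1 (abs_le.1 (h i j)).2
  refine h1.trans ?_
  rw [Finset.sum_const, nsmul_eq_mul, Finset.card_univ, mul_pow]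
  exact mul_le_mul_of_nonneg_right h3 (sq_nonneg c)

theorem opNorm_mul_le (A : Matrix m n ℝ) (A' : Matrix n k ℝ) : ‖A * A'‖ ≤ ‖A‖ * ‖A'‖ :=
  Matrix.l2_opNorm_mul A A'

theorem opNorm_one_le : ‖(1 : Matrix n n ℝ)‖ ≤ 1 := by
  exact opNorm_le_of_n2 zero_le_one fun v => by simp

theorem opNorm_diagonal_le {w : n → ℝ} {c : ℝ} (hc : 0 ≤ c) (h : ∀ i, |w i| ≤ c) :
    ‖Matrix.diagonal w‖ ≤ c := by
  rw [Matrix.l2_opNorm_diagonal]
  exact (pi_norm_le_iff_of_nonneg hc).2 h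

theorem opNorm_inc_le {e : k → n} (he : Function.Injective e) : ‖inc e‖ ≤ 1 := by
  have h1 : (inc e)ᴴ * inc e = (1 : Matrix k k ℝ) := by
    ext a b
    simp only [Matrix.mul_apply, Matrix.conjTranspose_apply, inc, star_trivial, Matrix.one_apply]
    rw [Finset.sum_eq_single (e a) (fun i _ hi => by simp [hi]) (by simp)]
    simp [he.eq_iff]
  have h2 := Matrix.l2_opNorm_conjTranspose_mul_self (inc e)
  rw [h1] at h2
  have h3 := opNorm_one_le (n := k)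
  nlinarith [norm_nonneg (inc e)]

theorem opNorm_submatrix_le [DecidableEq m] {m' : Type} [Fintype m'] (A : Matrix m n ℝ)
    {f : m' → m} {f' : k → n} (hf : Function.Injective f) (hf' : Function.Injective f') :
    ‖A.submatrix f f'‖ ≤ ‖A‖ := by
  classical
  have h1 : A.submatrix f f' = (inc f)ᴴ * (A * inc f') := by
    ext a b
    simp [Matrix.mul_apply, inc]
  have h2 := opNorm_inc_le hf
  have h3 := opNorm_inc_le hf'
  rw [h1]
  refine (opNorm_mul_le _ _).trans ?_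
  rw [Matrix.l2_opNorm_conjTranspose]
  refine (mul_le_of_le_one_left (norm_nonneg _) h2).trans ((opNorm_mul_le _ _).trans ?_)
  exact mul_le_of_le_one_right (norm_nonneg _) h3

/-- Neumann series bound -/
theorem inv_of_near_one {T : Matrix n n ℝ} (h : ‖T - 1‖ ≤ 1 / 2) :
    IsUnit T.det ∧ ‖T⁻¹‖ ≤ 2 ∧ ‖T⁻¹ - 1‖ ≤ 2 * ‖T - 1‖ := by
  have hdet : T.det ≠ 0 := by
    intro h0
    obtain ⟨v, hv, hTv⟩ := Matrix.exists_mulVec_eq_zero_iff.2 h0
    have h1 := n2_mulVec_le (T - 1) v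
    have h2 : n2 ((T - 1) *ᵥ v) = n2 v := by
      rw [Matrix.sub_mulVec, hTv, Matrix.one_mulVec]
      simp [n2]
    have h3 : ‖T - 1‖ ^ 2 ≤ (1 / 2) ^ 2 := pow_le_pow_left₀ (norm_nonneg _) h 2
    have h4 := OdeNorm_n2_nonneg v
    have h5 : n2 v = 0 := by nlinarith [mul_le_mul_of_nonneg_right h3 h4]
    refine hv (funext fun i => ?_)
    have h6 := (Finset.sum_eq_zero_iff_of_nonneg fun i _ => sq_nonneg (v i)).1 h5 i
      (Finset.mem_univ i)
    exact pow_eq_zero_iff two_ne_zero |>.1 h6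
  have hu : IsUnit T.det := hdet.isUnit
  have h1 : T⁻¹ - 1 = -(T⁻¹ * (T - 1)) := by
    rw [Matrix.mul_sub, Matrix.nonsing_inv_mul T hu, Matrix.mul_one, neg_sub]
  have h2 : ‖T⁻¹ - 1‖ ≤ ‖T⁻¹‖ * ‖T - 1‖ := by
    rw [h1, norm_neg]
    exact opNorm_mul_le _ _
  have h3 : ‖T⁻¹‖ ≤ ‖T⁻¹ - 1‖ + 1 := by
    have h4 := norm_add_le (T⁻¹ - 1) 1
    rw [sub_add_cancel] at h4
    linarith [opNorm_one_le (n := n)]
  have h4 : ‖T⁻¹‖ ≤ 2 := by
    linarith [mul_le_mul_of_nonneg_left h (norm_nonneg T⁻¹)]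
  exact ⟨hu, h4, h2.trans (mul_le_mul_of_nonneg_right h4 (norm_nonneg _))⟩

theorem continuousOn_inv_near_one :
    ContinuousOn (fun T : Matrix n n ℝ => T⁻¹) {T | ‖T - 1‖ ≤ 1 / 2} := by
  intro T hT
  refine (continuousAt_matrix_inv T ?_).continuousWithinAt
  rw [Ring.inverse_eq_inv']
  exact continuousAt_inv₀ (inv_of_near_one hT).1.ne_zero

end Crest.Agent.R202
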