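import Crest.Agent.R202.Ctrl
import Crest.Agent.R202.OdeNorm

/-!
# R202/NineAlg: three small kicks and two diagonal phases make a swap
-/

open scoped Matrix Matrix.Norms.L2Operator

noncomputable section

namespace Crest.Agent.R202

variable {W : Type} [Fintype W] [DecidableEq W]

/-- `x_a += η_a x_{τ a}` for `p a` -/
def Uab (p : W → Prop) [DecidablePred p] (τ : Equiv.Perm W) (η : W → ℝ) : Matrix W W ℝ :=
  fun i j => if p i ∧ j = τ i then η i else 0

/-- `x_{τ a} += η_a x_a` for `p a` -/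
def Lba (p : W → Prop) [DecidablePred p] (τ : Equiv.Perm W) (η : W → ℝ) : Matrix W W ℝ :=
  fun i j => if p j ∧ i = τ j then η j else 0

theorem NineAlg_U (p : W → Prop) [DecidablePred p] (τ : Equiv.Perm W) (η x : W → ℝ) (i : W) :
    (Uab p τ η *ᵥ x) i = if p i then η i * x (τ i) else 0 := by
  simp only [Matrix.mulVec, dotProduct, Uab]
  rw [Finset.sum_eq_single (τ i) (fun j _ hj => by simp [hj]) (by simp)]
  simp

theorem NineAlg_L (p : W → Prop) [DecidablePred p] (τ : Equiv.Perm W) (hτ : ∀ i, τ (τ i) = i)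
    (η x : W → ℝ) (i : W) :
    (Lba p τ η *ᵥ x) i = if p (τ i) then η (τ i) * x (τ i) else 0 := by
  simp only [Matrix.mulVec, dotProduct, Lba]
  rw [Finset.sum_eq_single (τ i) (fun j _ hj => ?_) (by simp)]
  · simp [hτ]
  · rw [if_neg, zero_mul]
    rintro ⟨-, rfl⟩
    exact hj (hτ j).symm

theorem NineAlg_S (τ : Equiv.Perm W) (hτ : ∀ i, τ (τ i) = i) (ε x : W → ℝ) (i : W) :
    (sperm τ ε *ᵥ x) i = ε (τ i) * x (τ i) := by
  simp only [Matrix.mulVec, dotProduct, sperm]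
  rw [Finset.sum_eq_single (τ i) (fun j _ hj => ?_) (by simp)]
  · simp [hτ]
  · rw [if_neg, zero_mul]
    rintro rfl
    exact hj (hτ j).symm

theorem NineAlg_mul_sperm {M : Type} (A : Matrix M W ℝ) (ρ : Equiv.Perm W) (f : W → ℝ) (i : M) (j : W) :
    (A * sperm ρ f) i j = A i (ρ j) * f j := by
  simp only [Matrix.mul_apply, sperm]
  rw [Finset.sum_eq_single (ρ j) (fun b _ hb => by simp [hb]) (by simp)]
  simp

theorem swap_identity (p : W → Prop) [DecidablePred p] (τ : Equiv.Perm W)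
    (hτ : ∀ i, τ (τ i) = i) (hp : ∀ i, p i → ¬ p (τ i)) (hfix : ∀ i, ¬ p i → ¬ p (τ i) → τ i = i)
    {φ ψ : W → ℝ} (hφ : ∀ i, φ i ≠ 0) (hψ : ∀ i, ψ i ≠ 0) {η : ℝ} (hη : η ≠ 0) :
    (1 + Uab p τ fun a => η * φ a * ψ a / (ψ (τ a) * φ (τ a))) * Matrix.diagonal ψ
      * (1 + Lba p τ fun a => -φ (τ a) / (η * φ a)) * Matrix.diagonal φ * (1 + Uab p τ fun _ => η)
      = sperm τ fun i => if p i then -(ψ (τ i) * φ (τ i)) / η
          else if p (τ i) then φ (τ i) * ψ (τ i) * η else φ i * ψ i := by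
  refine Matrix.ext_of_mulVec_single fun c => ?_
  generalize (Pi.single c 1 : W → ℝ) = x
  funext i
  simp only [← Matrix.mulVec_mulVec, Matrix.add_mulVec, Matrix.one_mulVec, Pi.add_apply,
    NineAlg_U, NineAlg_L p τ hτ, NineAlg_S τ hτ, Matrix.mulVec_diagonal, hτ]
  have h1 := hφ i
  have h2 := hφ (τ i)
  have h3 := hψ i
  have h4 := hψ (τ i)
  by_cases hi : p i
  · simp only [hi, hp i hi, if_true, if_false]
    field_simp
    ring
  · by_cases hj : p (τ i)
    · simp only [hi, hj, if_true, if_false]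
      field_simp
      ring
    · simp only [hi, hfix i hi hj, if_false]
      ring

theorem diagonal_mul_sperm (w : W → ℝ) (ρ : Equiv.Perm W) (ε : W → ℝ) :
    Matrix.diagonal w * sperm ρ ε = sperm ρ fun j => w (ρ j) * ε j := by
  ext i j
  rw [Matrix.diagonal_mul]
  unfold sperm
  split_ifs with h
  · rw [h]
  · rw [mul_zero]

theorem sperm_mul_sperm (ρ τ : Equiv.Perm W) (f g : W → ℝ) :
    sperm ρ f * sperm τ g = sperm (ρ * τ) fun j => f (τ j) * g j := by
  ext i j
  rw [NineAlg_mul_sperm]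
  unfold sperm
  rw [Equiv.Perm.mul_apply]
  split_ifs
  · rfl
  · rw [zero_mul]

theorem n2_col_mul_sperm {M : Type} [Fintype M] (A : Matrix M W ℝ) (ρ : Equiv.Perm W) (f : W → ℝ)
    (c : W) : n2 (fun i => (A * sperm ρ f) i c) ≤ ‖A‖ ^ 2 * f c ^ 2 := by
  have h : n2 (fun i => (A * sperm ρ f) i c) = n2 (fun i => A i (ρ c)) * f c ^ 2 := by
    simp only [NineAlg_mul_sperm, n2, Finset.sum_mul, mul_pow]
  rw [h]
  exact mul_le_mul_of_nonneg_right (n2_col_le A _) (sq_nonneg _)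

theorem norm_Uab_le (p : W → Prop) [DecidablePred p] (τ : Equiv.Perm W) {η : W → ℝ} {c : ℝ}
    (hc : 0 ≤ c) (h : ∀ a, p a → |η a| ≤ c) :
    ‖Uab p τ η‖ ≤ Fintype.card W * Fintype.card W * c := by
  refine opNorm_le_of_entry hc fun i j => ?_
  unfold Uab
  split_ifs with hij
  · exact h i hij.1
  · rwa [abs_zero]

theorem norm_Lba_le (p : W → Prop) [DecidablePred p] (τ : Equiv.Perm W) {η : W → ℝ} {c : ℝ}
    (hc : 0 ≤ c) (h : ∀ a, p a → |η a| ≤ c) :
    ‖Lba p τ η‖ ≤ Fintype.card W * Fintype.card W * c := by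
  refine opNorm_le_of_entry hc fun i j => ?_
  unfold Lba
  split_ifs with hij
  · exact h j hij.1
  · rwa [abs_zero]

/-- matrices without entries inside the degree blocks -/
def OffB (d : W → ℕ) (A : Matrix W W ℝ) : Prop := ∀ a a', d a = d a' → A a a' = 0

theorem offB_Uab {d : W → ℕ} (p : W → Prop) [DecidablePred p] (τ : Equiv.Perm W) (η : W → ℝ)
    (h : ∀ a, p a → d (τ a) ≠ d a) : OffB d (Uab p τ η) ∧ OffB d (Lba p τ η) := by
  refine ⟨fun a a' haa => if_neg ?_, fun a a' haa => if_neg ?_⟩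
  · rintro ⟨h1, rfl⟩
    exact h a h1 haa.symm
  · rintro ⟨h1, rfl⟩
    exact h a' h1 haa

theorem OffB.mul_blk {d : W → ℕ} {A K : Matrix W W ℝ} (hA : OffB d A) (hK : Blk d K) :
    OffB d (A * K) ∧ OffB d (K * A) := by
  refine ⟨fun a a' haa => ?_, fun a a' haa => ?_⟩
  · rw [Matrix.mul_apply]
    refine Finset.sum_eq_zero fun b _ => ?_
    by_cases hb : d a = d b
    · rw [hA a b hb, zero_mul]
    · rw [hK b a' fun e => hb (haa.trans e.symm), mul_zero]
  · rw [Matrix.mul_apply]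
    refine Finset.sum_eq_zero fun b _ => ?_
    by_cases hb : d a = d b
    · rw [hA b a' (hb.symm.trans haa), mul_zero]
    · rw [hK a b hb, zero_mul]

theorem Blk.mul {d : W → ℕ} {A K : Matrix W W ℝ} (hA : Blk d A) (hK : Blk d K) :
    Blk d (A * K) := by
  exact ctrl_blk_mul hA hK

theorem Blk.inv {d : W → ℕ} {K : Matrix W W ℝ} (hK : Blk d K) : Blk d K⁻¹ := by
  by_cases hu : IsUnit K.det
  · refine ctrl_blk_iff.2 fun l => ?_
    have h := (ctrl_blk_iff.1 hK l).eq
    have h1 := Matrix.nonsing_inv_mul K hu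
    have h2 := Matrix.mul_nonsing_inv K hu
    calc prD d l * K⁻¹ = K⁻¹ * (K * prD d l) * K⁻¹ := by rw [← Matrix.mul_assoc, h1, Matrix.one_mul]
      _ = K⁻¹ * prD d l := by
        rw [← h, Matrix.mul_assoc, Matrix.mul_assoc, h2, Matrix.mul_one]
  · rw [Matrix.nonsing_inv_apply_not_isUnit K hu]
    exact fun _ _ _ => rfl

theorem blk_one (d : W → ℕ) : Blk d (1 : Matrix W W ℝ) := by
  exact fun i j h => Matrix.one_apply_ne fun e => h (congrArg d e)

theorem blk_sperm {d : W → ℕ} {ρ : Equiv.Perm W} (h : ∀ i, d (ρ i) = d i) (ε : W → ℝ) :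
    Blk d (sperm ρ ε) := by
  refine fun i j hij => if_neg ?_
  rintro rfl
  exact hij (h j)

theorem blk_diagonal (d : W → ℕ) (w : W → ℝ) : Blk d (Matrix.diagonal w) := by
  exact fun i j h => Matrix.diagonal_apply_ne _ fun e => h (congrArg d e)

theorem Blk.comm_diagonal {d : W → ℕ} {K : Matrix W W ℝ} (hK : Blk d K) (w : ℕ → ℝ) :
    Matrix.diagonal (fun i => w (d i)) * K = K * Matrix.diagonal fun i => w (d i) := by
  ext i j
  rw [Matrix.diagonal_mul, Matrix.mul_diagonal]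
  by_cases h : d i = d j
  · rw [h, mul_comm]
  · rw [hK i j h, mul_zero, zero_mul]

end Crest.Agent.R202
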