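import Crest.Agent.R202.SMat

/-!
# R202/NineC: the stage layout and the truncated matrices
-/

open scoped ContDiff Topology Matrix
open Set Filter

noncomputable section

namespace Crest.Agent.R202

/-- the truncated matrices -/
def Rt (Y : I0 → Pl 3) {K : ℕ} (ρ : Fin K → Pl 3) (L N : ℕ) (c : Fin K → ℝ) :
    Matrix (MI L ⊕ HI L N) (MI L ⊕ HI L N) ℝ := (RR Y ρ c).submatrix (emb L N) (emb L N)

def Qt (Y : I0 → Pl 3) {K : ℕ} (a : Fin K → Fin 3 → Pl 3) (L N : ℕ) (c : Fin K → ℝ) :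
    Matrix (MI L ⊕ HI L N) (MI L ⊕ HI L N) ℝ := (QQ Y a c).submatrix (emb L N) (emb L N)

/-- the degrees of the truncated system -/
def dt (L N : ℕ) (i : MI L ⊕ HI L N) : ℕ := dg (emb L N i)

def clamp {K : ℕ} (ζ : Fin K → ℝ) (j : Fin K) : ℝ := max (-1) (min 1 (ζ j))

theorem continuous_clamp {K : ℕ} : Continuous (clamp : (Fin K → ℝ) → Fin K → ℝ) := by
  refine continuous_pi fun j => ?_
  exact continuous_const.max (continuous_const.min (continuous_apply j))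

theorem abs_clamp_le {K : ℕ} (ζ : Fin K → ℝ) (j : Fin K) : |clamp ζ j| ≤ 1 := by
  rw [abs_le, clamp]
  exact ⟨le_max_left _ _, max_le (by norm_num) (min_le_left _ _)⟩

theorem clamp_eq {K : ℕ} {ζ : Fin K → ℝ} (h : ‖ζ‖ ≤ 1) : clamp ζ = ζ := by
  funext j
  have h1 := abs_le.1 ((norm_le_pi_norm ζ j).trans h)
  rw [clamp, min_eq_right h1.2, max_eq_right h1.1]

theorem continuous_Rt (Y : I0 → Pl 3) {K : ℕ} (ρ : Fin K → Pl 3) (L N : ℕ) :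
    Continuous (Rt Y ρ L N) := by
  refine continuous_pi fun i => continuous_pi fun j => ?_
  simp only [Rt, RR, Matrix.submatrix_apply, Matrix.sum_apply, Matrix.smul_apply, smul_eq_mul]
  fun_prop

theorem continuous_Qt (Y : I0 → Pl 3) {K : ℕ} (a : Fin K → Fin 3 → Pl 3) (L N : ℕ) :
    Continuous (Qt Y a L N) := by
  refine continuous_pi fun i => continuous_pi fun j => ?_
  simp only [Qt, QQ, Matrix.submatrix_apply, Matrix.sum_apply, Matrix.add_apply, Matrix.smul_apply,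
    smul_eq_mul]
  fun_prop

theorem Rt_zero (Y : I0 → Pl 3) {K : ℕ} (ρ : Fin K → Pl 3) (L N : ℕ) : Rt Y ρ L N 0 = 0 := by
  ext i j
  simp [Rt, RR]

theorem Qt_zero (Y : I0 → Pl 3) {K : ℕ} (a : Fin K → Fin 3 → Pl 3) (L N : ℕ) :
    Qt Y a L N 0 = 0 := by
  ext i j
  simp [Qt, QQ]

theorem NineC_pb_sum {ι κ : Type} [Fintype ι] [DecidableEq ι] {d : ι → ℕ} (s : Finset κ)
    {δ : κ → ℝ} {R Q : κ → Matrix ι ι ℝ} (h : ∀ k, Pb d (δ k) (R k) (Q k)) :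
    Pb d (∑ k ∈ s, δ k) (∑ k ∈ s, R k) (∑ k ∈ s, Q k) := by
  classical
  induction s using Finset.induction_on with
  | empty => simpa using Pb.zero d
  | insert k s hk ih =>
    rw [Finset.sum_insert hk, Finset.sum_insert hk, Finset.sum_insert hk]
    exact (h k).add ih

theorem NineC_pb_one {ι : Type} [Fintype ι] [DecidableEq ι] {d : ι → ℕ} {C δ c : ℝ}
    {R Q₁ Q₂ : Matrix ι ι ℝ} (hC : 0 ≤ C) (h₁ : Pb d C R Q₁) (h₂ : Pb d C 0 Q₂) (hδ : δ ≤ 1)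
    (hc : |c| ≤ δ) : Pb d (2 * C * δ) (c • R) (c • Q₁ + c ^ 2 • Q₂) := by
  have h := (h₁.smul c).add (h₂.smul (c ^ 2))
  rw [smul_zero, add_zero] at h
  refine h.mono ?_
  have h0 := abs_nonneg c
  have h3 : |c ^ 2| ≤ δ := by
    rw [abs_pow]
    nlinarith
  nlinarith [mul_le_mul_of_nonneg_right hc hC, mul_le_mul_of_nonneg_right h3 hC]

/-- small parameters give small perturbations -/
theorem SB.pb_small {Y : I0 → Pl 3} (h : SB Y) {K : ℕ} (ρ : Fin K → Pl 3)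
    (a : Fin K → Fin 3 → Pl 3) : ∃ C : ℝ, 0 ≤ C ∧ ∀ (L N : ℕ) (c : Fin K → ℝ) (δ : ℝ), δ ≤ 1 →
      ‖c‖ ≤ δ → Pb (dt L N) (C * δ) (Rt Y ρ L N c) (Qt Y a L N c) := by
  choose C hC0 hC using fun k => h.pb (ρ k) (a k)
  refine ⟨∑ k, 2 * C k, Finset.sum_nonneg fun k _ => by linarith [hC0 k], fun L N c δ hδ hc => ?_⟩
  have e1 : Rt Y ρ L N c = ∑ k, c k • (mR Y (ρ k)).submatrix (emb L N) (emb L N) := by
    ext i j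
    simp [Rt, RR, Matrix.sum_apply]
  have e2 : Qt Y a L N c = ∑ k, (c k • (mQ1 Y (a k)).submatrix (emb L N) (emb L N)
      + c k ^ 2 • (mQ2 Y (a k)).submatrix (emb L N) (emb L N)) := by
    ext i j
    simp [Qt, QQ, Matrix.sum_apply]
  rw [e1, e2, Finset.sum_mul]
  exact NineC_pb_sum _ fun k => NineC_pb_one (hC0 k) (hC k _ _ (emb_injective L N)).1
    (hC k _ _ (emb_injective L N)).2 hδ ((norm_le_pi_norm c k).trans hc)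

theorem SB.pb_QD {Y : I0 → Pl 3} (h : SB Y) {δ : ℝ} (hδ : 0 < δ) : ∃ κ₀ > 0, κ₀ ≤ 1 ∧
    ∀ (ι : Type) [Fintype ι] [DecidableEq ι] (e : ι → I0), Function.Injective e →
      ∀ κ ∈ Icc 0 κ₀, Pb (fun i => dg (e i)) δ 0 ((QD Y κ).submatrix e e) := by
  obtain ⟨C, hC0, hC⟩ := h.pb 0 aD
  refine ⟨min 1 (δ / (2 * C + 1)), lt_min one_pos (by positivity), min_le_left _ _,
    fun ι _ _ e he κ hκ => ?_⟩
  have h1 := NineC_pb_one (c := κ) hC0 (hC ι e he).1 (hC ι e he).2 (min_le_left 1 (δ / (2 * C + 1)))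
    (by rw [abs_of_nonneg hκ.1]; exact hκ.2)
  have e1 : κ • (mR Y 0).submatrix e e = 0 := by
    rw [mR_zero]
    ext i j
    simp
  have e2 : (QD Y κ).submatrix e e = κ • (mQ1 Y aD).submatrix e e + κ ^ 2 • (mQ2 Y aD).submatrix e e := by
    ext i j
    simp [QD]
  rw [e1] at h1
  rw [e2]
  refine h1.mono ?_
  have h2 : min 1 (δ / (2 * C + 1)) * (2 * C + 1) ≤ δ := by
    rw [← le_div_iff₀ (by positivity)]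
    exact min_le_right _ _
  have h3 : 0 ≤ min 1 (δ / (2 * C + 1)) := le_min zero_le_one (by positivity)
  nlinarith

namespace Lay

variable (Λ : Lay)

theorem gρ_zero (ρ₂ : Fin Λ.K₂ → Pl 3) (ρz : Fin Λ.Kz → Pl 3) : Λ.gρ ρ₂ ρz 0 = 0 := rfl

theorem ga_zero (az : Fin Λ.Kz → Fin 3 → Pl 3) : Λ.ga az 0 = aD := rfl

theorem gρ_II (ρ₂ : Fin Λ.K₂ → Pl 3) (ρz : Fin Λ.Kz → Pl 3) (j : Fin Λ.K₂) :
    Λ.gρ ρ₂ ρz (Fin.castAdd Λ.Kz j).succ = ρ₂ j := by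
  simp [gρ]

theorem ga_II (az : Fin Λ.Kz → Fin 3 → Pl 3) (j : Fin Λ.K₂) :
    Λ.ga az (Fin.castAdd Λ.Kz j).succ = 0 := by
  simp [ga]

theorem gρ_K (ρ₂ : Fin Λ.K₂ → Pl 3) (ρz : Fin Λ.Kz → Pl 3) (j : Fin Λ.Kz) :
    Λ.gρ ρ₂ ρz (Fin.natAdd Λ.K₂ j).succ = ρz j := by
  simp [gρ]

theorem ga_K (az : Fin Λ.Kz → Fin 3 → Pl 3) (j : Fin Λ.Kz) :
    Λ.ga az (Fin.natAdd Λ.K₂ j).succ = az j := by
  simp [ga]

theorem continuous_cII (k : ℕ) : Continuous fun z : (Fin Λ.K₂ → ℝ) × ℝ => Λ.cII k z.1 z.2 := by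
  unfold cII slots
  refine continuous_finsetSum _ fun j _ => Continuous.smul (bmp_smooth.continuous.comp (by fun_prop)) ?_
  exact (continuous_single (Fin.castAdd Λ.Kz j).succ).comp (by fun_prop)

theorem continuous_cK (k : ℕ) (s : ℝ) :
    Continuous fun z : (Fin Λ.Kz → ℝ) × ℝ => Λ.cK k s z.1 z.2 := by
  unfold cK slots
  refine continuous_finsetSum _ fun j _ => Continuous.smul (bmp_smooth.continuous.comp (by fun_prop)) ?_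
  exact (continuous_single (Fin.natAdd Λ.K₂ j).succ).comp (by fun_prop)
theorem NineC_cI_eq (k : ℕ) : Λ.cI k = fun t =>
    (Λ.κB * plat (Λ.b₁ k) (Λ.b₂ k) ((k : ℝ) ^ 11) t) • (Pi.single 0 1 : Fin Λ.N → ℝ) := by
  funext t
  rw [cI, ← Pi.single_smul, smul_eq_mul, mul_one]

theorem NineC_contDiff_cII (k : ℕ) (θ : Fin Λ.K₂ → ℝ) : ContDiff ℝ ∞ (Λ.cII k θ) :=
  slots_smooth _ _ _

theorem NineC_contDiff_cK (k : ℕ) (s : ℝ) (ζ : Fin Λ.Kz → ℝ) : ContDiff ℝ ∞ (Λ.cK k s ζ) :=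
  slots_smooth _ _ _


theorem contDiff_cI (k : ℕ) : ContDiff ℝ ∞ (Λ.cI k) := by
  rw [NineC_cI_eq]
  exact (contDiff_const.mul (plat_smooth _ _ _)).smul contDiff_const

theorem contDiff_c9 (k : ℕ) (θ : Fin Λ.K₂ → ℝ) (ζ : Fin 3 → Fin Λ.Kz → ℝ) :
    ContDiff ℝ ∞ (Λ.c9 k θ ζ) := by
  exact ((((Λ.NineC_contDiff_cII k θ).add (Λ.NineC_contDiff_cK k _ _)).add (Λ.contDiff_cI k)).add
    (Λ.NineC_contDiff_cK k _ _)).add (Λ.NineC_contDiff_cK k _ _)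

/-- the active part of stage `k` ends well before the end of the stage -/
theorem exists_fit : ∃ k₁ : ℕ, 1 ≤ k₁ ∧ ∀ k, k₁ ≤ k →
    Λ.e₃ k + Λ.Kz + (k + 1) + 1 ≤ ((k : ℝ) + 1) ^ 14 := by
  refine ⟨Λ.CA + Λ.K₂ + 3 * Λ.Kz + 10, by omega, fun k hk => ?_⟩
  have hk' : (Λ.CA : ℝ) + Λ.K₂ + 3 * Λ.Kz + 10 ≤ k := by exact_mod_cast hk
  have hCA : (0 : ℝ) ≤ Λ.CA := Nat.cast_nonneg _
  have hK : (0 : ℝ) ≤ Λ.K₂ := Nat.cast_nonneg _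
  have hZ : (0 : ℝ) ≤ Λ.Kz := Nat.cast_nonneg _
  have h1 : (1 : ℝ) ≤ k := by linarith
  have p1 : (k : ℝ) ^ 11 ≤ (k : ℝ) ^ 12 := pow_le_pow_right₀ h1 (by norm_num)
  have p2 : (k : ℝ) ≤ (k : ℝ) ^ 12 := le_self_pow₀ h1 (by norm_num)
  have p3 : (1 : ℝ) ≤ (k : ℝ) ^ 12 := one_le_pow₀ h1
  have p4 : (k : ℝ) ^ 14 + (k : ℝ) * (k : ℝ) ^ 12 ≤ ((k : ℝ) + 1) ^ 14 := by
    have : (k : ℝ) ^ 13 ≤ ((k : ℝ) + 1) ^ 13 := pow_le_pow_left₀ (by linarith) (by linarith) 13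
    calc (k : ℝ) ^ 14 + (k : ℝ) * (k : ℝ) ^ 12 = ((k : ℝ) + 1) * (k : ℝ) ^ 13 := by ring
      _ ≤ ((k : ℝ) + 1) * ((k : ℝ) + 1) ^ 13 := mul_le_mul_of_nonneg_left this (by linarith)
      _ = _ := by ring
  have p5 := mul_le_mul_of_nonneg_right hk' (by linarith : (0 : ℝ) ≤ (k : ℝ) ^ 12)
  have p6 := mul_le_mul_of_nonneg_left p1 hK
  have p7 := mul_le_mul_of_nonneg_left p3 hZ
  simp only [e₃, e₂, b₂, b₁, e₁, a₁, a₀]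
  nlinarith
/-- the order of the break points -/
theorem NineC_ord {k : ℕ} (hk : 1 ≤ k) :
    (k : ℝ) ^ 14 < Λ.a₀ k ∧ Λ.a₀ k ≤ Λ.a₁ k ∧ Λ.a₁ k < Λ.e₁ k ∧ Λ.e₁ k ≤ Λ.e₁ k + Λ.Kz ∧
      Λ.e₁ k + Λ.Kz < Λ.b₁ k ∧ Λ.b₁ k + (k : ℝ) ^ 11 < Λ.b₂ k - (k : ℝ) ^ 11 ∧ Λ.b₂ k < Λ.e₂ k ∧
      Λ.e₂ k + Λ.Kz ≤ Λ.e₃ k ∧ (1 : ℝ) ≤ (k : ℝ) ^ 11 := by
  have h1 : (1 : ℝ) ≤ k := by exact_mod_cast hk
  have hCA : (0 : ℝ) ≤ Λ.CA := Nat.cast_nonneg _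
  have hK : (0 : ℝ) ≤ Λ.K₂ := Nat.cast_nonneg _
  have hZ : (0 : ℝ) ≤ Λ.Kz := Nat.cast_nonneg _
  have p1 : (1 : ℝ) ≤ (k : ℝ) ^ 11 := one_le_pow₀ h1
  have p2 : (1 : ℝ) ≤ (k : ℝ) ^ 12 := one_le_pow₀ h1
  have p3 : 0 ≤ (Λ.K₂ : ℝ) * (k : ℝ) ^ 11 := by positivity
  have p4 : 0 ≤ (Λ.CA : ℝ) * (k : ℝ) ^ 12 := by positivity
  simp only [e₃, e₂, b₂, b₁, e₁, a₁, a₀]
  refine ⟨?_, ?_, ?_, ?_, ?_, ?_, ?_, ?_, p1⟩ <;> linarith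

theorem NineC_cII_le {k : ℕ} (hk : 1 ≤ k) (θ : Fin Λ.K₂ → ℝ) {t : ℝ} (ht : t ≤ Λ.a₀ k) :
    Λ.cII k θ t = 0 :=
  slots_of_le (by linarith [(Λ.NineC_ord hk).2.2.2.2.2.2.2.2]) _ ht

theorem NineC_cII_ge {k : ℕ} (hk : 1 ≤ k) (θ : Fin Λ.K₂ → ℝ) {t : ℝ} (ht : Λ.a₁ k ≤ t) :
    Λ.cII k θ t = 0 :=
  slots_of_ge (by linarith [(Λ.NineC_ord hk).2.2.2.2.2.2.2.2]) _ ht

theorem NineC_cK_le (k : ℕ) {s : ℝ} (ζ : Fin Λ.Kz → ℝ) {t : ℝ} (ht : t ≤ s) : Λ.cK k s ζ t = 0 :=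
  slots_of_le one_pos _ ht

theorem NineC_cK_ge (k : ℕ) {s : ℝ} (ζ : Fin Λ.Kz → ℝ) {t : ℝ} (ht : s + Λ.Kz ≤ t) :
    Λ.cK k s ζ t = 0 :=
  slots_of_ge one_pos _ (by rwa [mul_one])

theorem NineC_cI_le {k : ℕ} (hk : 1 ≤ k) {t : ℝ} (ht : t ≤ Λ.b₁ k) : Λ.cI k t = 0 := by
  rw [cI, plat_of_le (by linarith [(Λ.NineC_ord hk).2.2.2.2.2.2.2.2]) ht, mul_zero, Pi.single_zero]

theorem NineC_cI_ge {k : ℕ} (hk : 1 ≤ k) {t : ℝ} (ht : Λ.b₂ k ≤ t) : Λ.cI k t = 0 := by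
  rw [cI, plat_of_ge (by linarith [(Λ.NineC_ord hk).2.2.2.2.2.2.2.2]) ht, mul_zero, Pi.single_zero]

theorem NineC_p0 {k : ℕ} (hk : 1 ≤ k) (θ : Fin Λ.K₂ → ℝ) (ζ : Fin 3 → Fin Λ.Kz → ℝ) {t : ℝ}
    (ht : t ≤ Λ.e₁ k) : Λ.c9 k θ ζ t = Λ.cII k θ t := by
  obtain ⟨o1, o2, o3, o4, o5, o6, o7, o8, o9⟩ := Λ.NineC_ord hk
  rw [c9, Λ.NineC_cK_le k _ ht, Λ.NineC_cI_le hk (by linarith), Λ.NineC_cK_le k _ (by linarith),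
    Λ.NineC_cK_le k _ (by linarith)]
  simp

theorem NineC_p1 {k : ℕ} (hk : 1 ≤ k) (θ : Fin Λ.K₂ → ℝ) (ζ : Fin 3 → Fin Λ.Kz → ℝ) {t : ℝ}
    (ht : Λ.e₁ k ≤ t) (ht' : t ≤ Λ.e₁ k + Λ.Kz) : Λ.c9 k θ ζ t = Λ.cK k (Λ.e₁ k) (ζ 0) t := by
  obtain ⟨o1, o2, o3, o4, o5, o6, o7, o8, o9⟩ := Λ.NineC_ord hk
  rw [c9, Λ.NineC_cII_ge hk _ (by linarith), Λ.NineC_cI_le hk (by linarith),
    Λ.NineC_cK_le k (ζ 1) (by linarith), Λ.NineC_cK_le k (ζ 2) (by linarith)]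
  simp

theorem NineC_p2 {k : ℕ} (hk : 1 ≤ k) (θ : Fin Λ.K₂ → ℝ) (ζ : Fin 3 → Fin Λ.Kz → ℝ) {t : ℝ}
    (ht : Λ.e₁ k + Λ.Kz ≤ t) (ht' : t ≤ Λ.e₂ k) : Λ.c9 k θ ζ t = Λ.cI k t := by
  obtain ⟨o1, o2, o3, o4, o5, o6, o7, o8, o9⟩ := Λ.NineC_ord hk
  rw [c9, Λ.NineC_cII_ge hk _ (by linarith), Λ.NineC_cK_ge k (ζ 0) ht,
    Λ.NineC_cK_le k (ζ 1) ht', Λ.NineC_cK_le k (ζ 2) (by linarith)]
  simp

theorem NineC_p3 {k : ℕ} (hk : 1 ≤ k) (θ : Fin Λ.K₂ → ℝ) (ζ : Fin 3 → Fin Λ.Kz → ℝ) {t : ℝ}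
    (ht : Λ.e₂ k ≤ t) (ht' : t ≤ Λ.e₃ k) : Λ.c9 k θ ζ t = Λ.cK k (Λ.e₂ k) (ζ 1) t := by
  obtain ⟨o1, o2, o3, o4, o5, o6, o7, o8, o9⟩ := Λ.NineC_ord hk
  rw [c9, Λ.NineC_cII_ge hk _ (by linarith), Λ.NineC_cK_ge k (ζ 0) (by linarith),
    Λ.NineC_cI_ge hk (by linarith), Λ.NineC_cK_le k (ζ 2) ht']
  simp

theorem NineC_p4 {k : ℕ} (hk : 1 ≤ k) (θ : Fin Λ.K₂ → ℝ) (ζ : Fin 3 → Fin Λ.Kz → ℝ) {t : ℝ}
    (ht : Λ.e₂ k + Λ.Kz ≤ t) : Λ.c9 k θ ζ t = Λ.cK k (Λ.e₃ k) (ζ 2) t := by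
  obtain ⟨o1, o2, o3, o4, o5, o6, o7, o8, o9⟩ := Λ.NineC_ord hk
  rw [c9, Λ.NineC_cII_ge hk _ (by linarith), Λ.NineC_cK_ge k (ζ 0) (by linarith),
    Λ.NineC_cI_ge hk (by linarith), Λ.NineC_cK_ge k (ζ 1) ht]
  simp

theorem NineC_sgl_slots {N K : ℕ} {a len : ℝ} (hl : 0 < len) (i : Fin K → Fin (N + 1))
    (x : Fin K → ℝ) (t : ℝ) :
    Sgl (slots a len (fun j => (Pi.single (i j) (x j) : Fin (N + 1) → ℝ)) t) := by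
  rcases slots_single hl (fun j => (Pi.single (i j) (x j) : Fin (N + 1) → ℝ)) t (a := a) with h | ⟨j, h⟩
  · exact ⟨0, 0, by rw [h, Pi.single_zero]⟩
  · exact ⟨i j, _, by rw [h, ← Pi.single_smul]⟩

theorem NineC_sgl {k : ℕ} (hk : 1 ≤ k) (θ : Fin Λ.K₂ → ℝ) (ζ : Fin 3 → Fin Λ.Kz → ℝ) (t : ℝ) :
    Sgl (Λ.c9 k θ ζ t) := by
  obtain ⟨o1, o2, o3, o4, o5, o6, o7, o8, o9⟩ := Λ.NineC_ord hk
  rcases le_total t (Λ.e₁ k) with h0 | h0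
  · rw [Λ.NineC_p0 hk _ _ h0]
    exact NineC_sgl_slots (by linarith) _ _ _
  rcases le_total t (Λ.e₁ k + Λ.Kz) with h1 | h1
  · rw [Λ.NineC_p1 hk _ _ h0 h1]
    exact NineC_sgl_slots one_pos _ _ _
  rcases le_total t (Λ.e₂ k) with h2 | h2
  · rw [Λ.NineC_p2 hk _ _ h1 h2]
    exact ⟨0, _, rfl⟩
  rcases le_total t (Λ.e₃ k) with h3 | h3
  · rw [Λ.NineC_p3 hk _ _ h2 h3]
    exact NineC_sgl_slots one_pos _ _ _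
  · rw [Λ.NineC_p4 hk _ _ (by linarith)]
    exact NineC_sgl_slots one_pos _ _ _


theorem exists_isGl {k₀ : ℕ} (hk₀ : 1 ≤ k₀)
    (hfit : ∀ k, k₀ ≤ k → Λ.e₃ k + Λ.Kz + (k + 1) + 1 ≤ ((k : ℝ) + 1) ^ 14)
    (θ : ℕ → Fin Λ.K₂ → ℝ) (ζ : ℕ → Fin 3 → Fin Λ.Kz → ℝ) : ∃ c, Λ.IsGl k₀ θ ζ c := by
  refine exists_glue k₀ (fun k => Λ.c9 k (θ k) (ζ k)) (fun k _ => Λ.contDiff_c9 k _ _)
    fun k hk t ht => ?_
  have hk1 := hk₀.trans hk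
  obtain ⟨o1, o2, o3, o4, o5, o6, o7, o8, o9⟩ := Λ.NineC_ord hk1
  rcases ht with ht | ht
  · have ht' : t ≤ Λ.a₀ k := ht
    rw [Λ.NineC_p0 hk1 _ _ (by linarith), Λ.NineC_cII_le hk1 _ ht']
  · have h1 := hfit k hk
    have h2 : (0 : ℝ) ≤ k := Nat.cast_nonneg _
    rw [Λ.NineC_p4 hk1 _ _ (by linarith), Λ.NineC_cK_ge k _ (by linarith)]

variable {Λ} {k₀ : ℕ} {θ : ℕ → Fin Λ.K₂ → ℝ} {ζ : ℕ → Fin 3 → Fin Λ.Kz → ℝ}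
  {c : ℝ → Fin Λ.N → ℝ}

/-- the glued function on the six pieces of a stage -/
theorem IsGl.pieces (h : Λ.IsGl k₀ θ ζ c) (hk₀ : 1 ≤ k₀)
    (hfit : ∀ k, k₀ ≤ k → Λ.e₃ k + Λ.Kz + (k + 1) + 1 ≤ ((k : ℝ) + 1) ^ 14) :
    (∀ t ≤ Λ.e₁ k₀, c t = Λ.cII k₀ (θ k₀) t) ∧ ∀ k, k₀ ≤ k →
      (∀ t ∈ Icc (Λ.e₁ k) (Λ.e₁ k + Λ.Kz), c t = Λ.cK k (Λ.e₁ k) (ζ k 0) t) ∧
      (∀ t ∈ Icc (Λ.e₁ k + Λ.Kz) (Λ.e₂ k), c t = Λ.cI k t) ∧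
      (∀ t ∈ Icc (Λ.e₂ k) (Λ.e₂ k + Λ.Kz), c t = Λ.cK k (Λ.e₂ k) (ζ k 1) t) ∧
      (∀ t ∈ Icc (Λ.e₂ k + Λ.Kz) (Λ.e₃ k), c t = 0) ∧
      (∀ t ∈ Icc (Λ.e₃ k) (Λ.e₃ k + Λ.Kz), c t = Λ.cK k (Λ.e₃ k) (ζ k 2) t) ∧
      ∀ t ∈ Icc (Λ.e₃ k + Λ.Kz) (Λ.e₁ (k + 1)), c t = Λ.cII (k + 1) (θ (k + 1)) t := by
  have key : ∀ k, k₀ ≤ k → ∀ t : ℝ, (k : ℝ) ^ 14 ≤ t → t ≤ Λ.e₃ k + Λ.Kz + (k + 1) + 1 →
      c t = Λ.c9 k (θ k) (ζ k) t := fun k hk t h1 h2 =>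
    (h.2.2 k hk t ⟨h1, h2.trans (hfit k hk)⟩).eq_of_nhds
  have key0 : ∀ k, k₀ ≤ k → ∀ t : ℝ, (k : ℝ) ^ 14 ≤ t → t ≤ Λ.e₁ k → c t = Λ.cII k (θ k) t := by
    intro k hk t h1 h2
    obtain ⟨o1, o2, o3, o4, o5, o6, o7, o8, o9⟩ := Λ.NineC_ord (hk₀.trans hk)
    have h3 : (0 : ℝ) ≤ k := Nat.cast_nonneg _
    rw [key k hk t h1 (by linarith), Λ.NineC_p0 (hk₀.trans hk) _ _ h2]
  refine ⟨fun t ht => ?_, fun k hk => ?_⟩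
  · rcases le_total t ((k₀ : ℝ) ^ 14) with h1 | h1
    · rw [h.2.1 t h1, Λ.NineC_cII_le hk₀ _ (by linarith [(Λ.NineC_ord hk₀).1])]
    · exact key0 k₀ le_rfl t h1 ht
  have hk1 := hk₀.trans hk
  obtain ⟨o1, o2, o3, o4, o5, o6, o7, o8, o9⟩ := Λ.NineC_ord hk1
  have h3 : (0 : ℝ) ≤ k := Nat.cast_nonneg _
  refine ⟨fun t ht => ?_, fun t ht => ?_, fun t ht => ?_, fun t ht => ?_, fun t ht => ?_,
    fun t ht => ?_⟩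
  · rw [key k hk t (by linarith [ht.1]) (by linarith [ht.2]), Λ.NineC_p1 hk1 _ _ ht.1 ht.2]
  · rw [key k hk t (by linarith [ht.1]) (by linarith [ht.2]), Λ.NineC_p2 hk1 _ _ ht.1 ht.2]
  · rw [key k hk t (by linarith [ht.1]) (by linarith [ht.2]),
      Λ.NineC_p3 hk1 _ _ ht.1 (by linarith [ht.2])]
  · rw [key k hk t (by linarith [ht.1]) (by linarith [ht.2]), Λ.NineC_p4 hk1 _ _ ht.1,
      Λ.NineC_cK_le k _ ht.2]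
  · rw [key k hk t (by linarith [ht.1]) (by linarith [ht.2]),
      Λ.NineC_p4 hk1 _ _ (by linarith [ht.1])]
  · have hk2 : k₀ ≤ k + 1 := hk.trans (Nat.le_succ k)
    rcases le_total t (((k : ℝ) + 1) ^ 14) with h1 | h1
    · have h4 := (Λ.NineC_ord (hk₀.trans hk2)).1
      push_cast at h4
      rw [(h.2.2 k hk t ⟨by linarith [ht.1], h1⟩).eq_of_nhds,
        Λ.NineC_p4 hk1 _ _ (by linarith [ht.1]), Λ.NineC_cK_ge k _ ht.1,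
        Λ.NineC_cII_le (hk₀.trans hk2) _ (by linarith)]
    · exact key0 (k + 1) hk2 t (by push_cast; exact h1) ht.2

theorem IsGl.sgl (h : Λ.IsGl k₀ θ ζ c) (hk₀ : 1 ≤ k₀) (t : ℝ) : Sgl (c t) := by
  rcases le_total t ((k₀ : ℝ) ^ 14) with h1 | h1
  · exact ⟨0, 0, by rw [h.2.1 t h1, Pi.single_zero]⟩
  · obtain ⟨k, hk, ht⟩ := exists_stage h1
    rw [(h.2.2 k hk t ht).eq_of_nhds]
    exact Λ.NineC_sgl (hk₀.trans hk) _ _ _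

theorem IsGl.ramp (h : Λ.IsGl k₀ θ ζ c) (hk₀ : 1 ≤ k₀)
    (hfit : ∀ k, k₀ ≤ k → Λ.e₃ k + Λ.Kz + (k + 1) + 1 ≤ ((k : ℝ) + 1) ^ 14) {k : ℕ} (hk : k₀ ≤ k) :
    ∀ t ∈ Icc (Λ.b₁ k) (Λ.b₁ k + (k : ℝ) ^ 11),
      c =ᶠ[𝓝 t] fun r => Pi.single 0 (Λ.κB * rmp ((r - Λ.b₁ k) / (k : ℝ) ^ 11)) := by
  intro t ht
  have hk1 := hk₀.trans hk
  obtain ⟨o1, o2, o3, o4, o5, o6, o7, o8, o9⟩ := Λ.NineC_ord hk1
  have h3 : (0 : ℝ) ≤ k := Nat.cast_nonneg _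
  have h4 := hfit k hk
  filter_upwards [h.2.2 k hk t ⟨by linarith [ht.1], by linarith [ht.2]⟩,
    Ioo_mem_nhds (show Λ.e₁ k + Λ.Kz < t by linarith [ht.1]) (show t < Λ.e₂ k by linarith [ht.2]),
    plat_eventually_up (a := Λ.b₁ k) (a' := Λ.b₂ k) (len := (k : ℝ) ^ 11) (t := t) (by linarith)
      (by linarith [ht.2])] with s h1 h2 h5
  rw [h1, Λ.NineC_p2 hk1 _ _ h2.1.le h2.2.le, cI, h5]

/-- the part of `c9` made of slots -/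
def NineC_S (Λ : Lay) (k : ℕ) (θ : Fin Λ.K₂ → ℝ) (ζ : Fin 3 → Fin Λ.Kz → ℝ) (t : ℝ) : Fin Λ.N → ℝ :=
  Λ.cII k θ t + Λ.cK k (Λ.e₁ k) (ζ 0) t + Λ.cK k (Λ.e₂ k) (ζ 1) t + Λ.cK k (Λ.e₃ k) (ζ 2) t

theorem NineC_c9_eq (Λ : Lay) (k : ℕ) (θ : Fin Λ.K₂ → ℝ) (ζ : Fin 3 → Fin Λ.Kz → ℝ) :
    Λ.c9 k θ ζ = fun t => Λ.NineC_S k θ ζ t + Λ.cI k t := by
  funext t
  rw [c9, NineC_S]
  abel

theorem NineC_contDiff_S (Λ : Lay) (k : ℕ) (θ : Fin Λ.K₂ → ℝ) (ζ : Fin 3 → Fin Λ.Kz → ℝ) :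
    ContDiff ℝ ∞ (Λ.NineC_S k θ ζ) :=
  (((Λ.NineC_contDiff_cII k θ).add (Λ.NineC_contDiff_cK k _ _)).add
    (Λ.NineC_contDiff_cK k _ _)).add (Λ.NineC_contDiff_cK k _ _)

theorem NineC_S_zero (Λ : Lay) (k : ℕ) (θ : Fin Λ.K₂ → ℝ) (ζ : Fin 3 → Fin Λ.Kz → ℝ) (t : ℝ) :
    Λ.NineC_S k θ ζ t 0 = 0 := by
  simp [NineC_S, cII, cK, slots, Finset.sum_apply, (Fin.succ_ne_zero _).symm]

theorem NineC_deriv_add {P : Type} [NormedAddCommGroup P] [NormedSpace ℝ P] {f g : ℝ → P}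
    (hf : ContDiff ℝ ∞ f) (hg : ContDiff ℝ ∞ g) :
    deriv (fun t => f t + g t) = fun t => deriv f t + deriv g t :=
  funext fun t => deriv_fun_add (hf.differentiable (by simp) t) (hg.differentiable (by simp) t)

theorem NineC_deriv_apply {N : ℕ} {f : ℝ → Fin N → ℝ} (hf : ContDiff ℝ ∞ f) (j : Fin N) :
    deriv (fun t => f t j) = fun t => deriv f t j :=
  funext fun t => (hasDerivAt_pi.1 (hf.differentiable (by simp) t).hasDerivAt j).deriv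

/-- sizes of a function and of two derivatives -/
def NineC_Bd {P : Type} [NormedAddCommGroup P] [NormedSpace ℝ P] (f : ℝ → P) (x y : ℝ) : Prop :=
  ContDiff ℝ ∞ f ∧ ∀ t, ‖f t‖ ≤ x ∧ ‖deriv f t‖ ≤ y ∧ ‖deriv (deriv f) t‖ ≤ y

theorem NineC_Bd.add {P : Type} [NormedAddCommGroup P] [NormedSpace ℝ P] {f g : ℝ → P}
    {x y x' y' : ℝ} (hf : NineC_Bd f x y) (hg : NineC_Bd g x' y') :
    NineC_Bd (fun t => f t + g t) (x + x') (y + y') := by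
  refine ⟨hf.1.add hg.1, fun t => ⟨?_, ?_, ?_⟩⟩
  · exact (norm_add_le _ _).trans (add_le_add (hf.2 t).1 (hg.2 t).1)
  · rw [NineC_deriv_add hf.1 hg.1]
    exact (norm_add_le _ _).trans (add_le_add (hf.2 t).2.1 (hg.2 t).2.1)
  · rw [NineC_deriv_add hf.1 hg.1, NineC_deriv_add (contDiff_infty_iff_deriv.1 hf.1).2
      (contDiff_infty_iff_deriv.1 hg.1).2]
    exact (norm_add_le _ _).trans (add_le_add (hf.2 t).2.2 (hg.2 t).2.2)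

theorem NineC_Bd.mono {P : Type} [NormedAddCommGroup P] [NormedSpace ℝ P] {f : ℝ → P}
    {x y x' y' : ℝ} (hf : NineC_Bd f x y) (hx : x ≤ x') (hy : y ≤ y') : NineC_Bd f x' y' :=
  ⟨hf.1, fun t => ⟨(hf.2 t).1.trans hx, (hf.2 t).2.1.trans hy, (hf.2 t).2.2.trans hy⟩⟩

theorem NineC_S_bound (Λ : Lay) : ∃ B : ℝ, 1 ≤ B ∧ ∀ (k : ℕ) (θ : Fin Λ.K₂ → ℝ)
    (ζ : Fin 3 → Fin Λ.Kz → ℝ) (M : ℝ), 1 ≤ k → 0 ≤ M → (∀ j, |θ j| ≤ M) → (∀ r j, |ζ r j| ≤ M) →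
    NineC_Bd (Λ.NineC_S k θ ζ) (B * M / (k : ℝ) ^ 11) (B * M / (k : ℝ) ^ 22) := by
  obtain ⟨B, hB1, hB⟩ := exists_slots_bound (P := Fin Λ.N → ℝ)
  refine ⟨4 * B, by linarith, fun k θ ζ M hk hM hθ hζ => ?_⟩
  have h1 : (1 : ℝ) ≤ k := by exact_mod_cast hk
  have p1 : (1 : ℝ) ≤ (k : ℝ) ^ 11 := one_le_pow₀ h1
  have p2 : (k : ℝ) ^ 11 ≤ (k : ℝ) ^ 22 := pow_le_pow_right₀ h1 (by norm_num)
  have hBM : 0 ≤ B * M := by positivity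
  have hII : NineC_Bd (Λ.cII k θ) (B * M / (k : ℝ) ^ 11) (B * M / (k : ℝ) ^ 22) := by
    refine ⟨Λ.NineC_contDiff_cII k θ, fun t => ?_⟩
    obtain ⟨b0, b1, b2⟩ := hB Λ.K₂ (Λ.a₀ k) ((k : ℝ) ^ 11) (fun j =>
      (Pi.single (Fin.castAdd Λ.Kz j).succ (θ j / (k : ℝ) ^ 11) : Fin Λ.N → ℝ)) (M / (k : ℝ) ^ 11) p1
      (by positivity) (fun j => by
        rw [Pi.norm_single, Real.norm_eq_abs, abs_div, abs_of_pos (by positivity : 0 < (k : ℝ) ^ 11)]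
        exact div_le_div_of_nonneg_right (hθ j) (by positivity)) t
    have e1 : B * (M / (k : ℝ) ^ 11) / (k : ℝ) ^ 11 = B * M / (k : ℝ) ^ 22 := by
      field_simp
    refine ⟨b0.trans_eq (by ring), b1.trans_eq e1, b2.trans ?_⟩
    rw [← e1]
    exact div_le_div_of_nonneg_left (by positivity) (by positivity) (by nlinarith)
  have hK : ∀ s r, NineC_Bd (Λ.cK k s (ζ r)) (B * M / (k : ℝ) ^ 11) (B * M / (k : ℝ) ^ 22) := by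
    refine fun s r => ⟨Λ.NineC_contDiff_cK k s _, fun t => ?_⟩
    obtain ⟨b0, b1, b2⟩ := hB Λ.Kz s 1 (fun j =>
      (Pi.single (Fin.natAdd Λ.K₂ j).succ (ζ r j / (k : ℝ) ^ 22) : Fin Λ.N → ℝ)) (M / (k : ℝ) ^ 22)
      le_rfl (by positivity) (fun j => by
        rw [Pi.norm_single, Real.norm_eq_abs, abs_div, abs_of_pos (by positivity : 0 < (k : ℝ) ^ 22)]
        exact div_le_div_of_nonneg_right (hζ r j) (by positivity)) t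
    refine ⟨b0.trans ?_, b1.trans_eq (by ring), b2.trans_eq (by ring)⟩
    rw [← mul_div_assoc]
    exact div_le_div_of_nonneg_left hBM (by positivity) p2
  exact (((hII.add (hK _ 0)).add (hK _ 1)).add (hK _ 2)).mono (le_of_eq (by ring)) (le_of_eq (by ring))

theorem NineC_cI_bound (Λ : Lay) (hκ : 0 ≤ Λ.κB) : ∃ B : ℝ, 0 ≤ B ∧ ∀ k : ℕ, 1 ≤ k →
    NineC_Bd (Λ.cI k) Λ.κB (B / (k : ℝ) ^ 11) := by
  obtain ⟨B, hB1, hB⟩ := exists_plat_bound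
  refine ⟨Λ.κB * B, by positivity, fun k hk => ⟨Λ.contDiff_cI k, fun t => ?_⟩⟩
  have h1 : (1 : ℝ) ≤ k := by exact_mod_cast hk
  have p1 : (1 : ℝ) ≤ (k : ℝ) ^ 11 := one_le_pow₀ h1
  have hd : ∀ f : ℝ → ℝ, ContDiff ℝ ∞ f →
      deriv (fun t => (Λ.κB * f t) • (Pi.single 0 1 : Fin Λ.N → ℝ)) =
        fun t => (Λ.κB * deriv f t) • (Pi.single 0 1 : Fin Λ.N → ℝ) := fun f hf => funext fun t =>
    (((hf.differentiable (by simp) t).hasDerivAt.const_mul Λ.κB).smul_const _).deriv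
  have hn : ∀ x : ℝ, ‖(Λ.κB * x) • (Pi.single 0 1 : Fin Λ.N → ℝ)‖ = Λ.κB * |x| := fun x => by
    rw [norm_smul, Pi.norm_single, norm_one, mul_one, Real.norm_eq_abs, abs_mul, abs_of_nonneg hκ]
  obtain ⟨b1, b2⟩ := hB (Λ.b₁ k) (Λ.b₂ k) ((k : ℝ) ^ 11) t p1
  have b0 := plat_mem (Λ.b₁ k) (Λ.b₂ k) ((k : ℝ) ^ 11) t
  rw [NineC_cI_eq, hd _ (plat_smooth _ _ _), hd _ (contDiff_infty_iff_deriv.1 (plat_smooth _ _ _)).2]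
  simp only [hn]
  refine ⟨?_, ?_, ?_⟩
  · rw [abs_of_nonneg b0.1]
    exact mul_le_of_le_one_right hκ b0.2
  · rw [mul_div_assoc]
    exact mul_le_mul_of_nonneg_left b1 hκ
  · rw [mul_div_assoc]
    refine mul_le_mul_of_nonneg_left (b2.trans ?_) hκ
    exact div_le_div_of_nonneg_left (by linarith) (by positivity) (by nlinarith)

/-- sizes of the parameters and of their derivatives -/
theorem exists_c_bound (Λ : Lay) (hκ : 0 ≤ Λ.κB) (Θ : ℝ) : ∃ A : ℝ, 0 ≤ A ∧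
    ∀ (k₀ : ℕ) (θ : ℕ → Fin Λ.K₂ → ℝ) (ζ : ℕ → Fin 3 → Fin Λ.Kz → ℝ) (c : ℝ → Fin Λ.N → ℝ),
    1 ≤ k₀ → Λ.IsGl k₀ θ ζ c → (∀ k j, |θ k j| ≤ Θ) → (∀ k r j, |ζ k r j| ≤ 1) →
    ∀ k, k₀ ≤ k → ∀ t ∈ Icc ((k : ℝ) ^ 14) (((k : ℝ) + 1) ^ 14),
      c t 0 ∈ Icc 0 Λ.κB ∧ (c t = Pi.single 0 (c t 0) ∨ ‖c t‖ ≤ A / (k : ℝ) ^ 11) ∧
      ‖deriv c t‖ ≤ A / (k : ℝ) ^ 11 ∧ ‖deriv (deriv c) t‖ ≤ A / (k : ℝ) ^ 11 ∧
      ∀ j, j ≠ 0 → |c t j| ≤ A / (k : ℝ) ^ 11 ∧ |deriv (fun s => c s j) t| ≤ A / (k : ℝ) ^ 22 ∧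
        |deriv (deriv fun s => c s j) t| ≤ A / (k : ℝ) ^ 22 := by
  obtain ⟨B, hB1, hB⟩ := Λ.NineC_S_bound
  obtain ⟨B', hB'0, hB'⟩ := Λ.NineC_cI_bound hκ
  have hM : 0 ≤ max Θ 1 := le_max_of_le_right zero_le_one
  refine ⟨B * max Θ 1 + B', by positivity, fun k₀ θ ζ c hk₀ h hθ hζ k hk t ht => ?_⟩
  have hk1 := hk₀.trans hk
  obtain ⟨o1, o2, o3, o4, o5, o6, o7, o8, o9⟩ := Λ.NineC_ord hk1
  have h1 : (1 : ℝ) ≤ k := by exact_mod_cast hk1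
  have p2 : (k : ℝ) ^ 11 ≤ (k : ℝ) ^ 22 := pow_le_pow_right₀ h1 (by norm_num)
  have hS := hB k (θ k) (ζ k) (max Θ 1) hk1 hM (fun j => (hθ k j).trans (le_max_left _ _))
    fun r j => (hζ k r j).trans (le_max_right _ _)
  have hBM : 0 ≤ B * max Θ 1 := by positivity
  have l1 : B * max Θ 1 / (k : ℝ) ^ 11 ≤ (B * max Θ 1 + B') / (k : ℝ) ^ 11 :=
    div_le_div_of_nonneg_right (by linarith) (by positivity)
  have l2 : B * max Θ 1 / (k : ℝ) ^ 22 ≤ (B * max Θ 1 + B') / (k : ℝ) ^ 22 :=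
    div_le_div_of_nonneg_right (by linarith) (by positivity)
  have l3 : B * max Θ 1 / (k : ℝ) ^ 22 + B' / (k : ℝ) ^ 11 ≤ (B * max Θ 1 + B') / (k : ℝ) ^ 11 := by
    rw [add_div]
    exact add_le_add (div_le_div_of_nonneg_left hBM (by positivity) p2) le_rfl
  have hc := h.2.2 k hk t ht
  have hc0 : c t = Λ.c9 k (θ k) (ζ k) t := hc.eq_of_nhds
  have hA := (hS.add (hB' k hk1)).2 t
  rw [← NineC_c9_eq, ← hc.deriv_eq, ← hc.deriv.deriv_eq] at hA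
  have e0 : c t 0 = Λ.κB * plat (Λ.b₁ k) (Λ.b₂ k) ((k : ℝ) ^ 11) t := by
    rw [hc0, NineC_c9_eq]
    simp only [Pi.add_apply, NineC_S_zero, zero_add, cI, Pi.single_eq_same]
  refine ⟨?_, ?_, hA.2.1.trans l3, hA.2.2.trans l3, fun j hj => ?_⟩
  · have b0 := plat_mem (Λ.b₁ k) (Λ.b₂ k) ((k : ℝ) ^ 11) t
    rw [e0]
    exact ⟨mul_nonneg hκ b0.1, mul_le_of_le_one_right hκ b0.2⟩
  · by_cases h2 : Λ.b₁ k ≤ t ∧ t ≤ Λ.b₂ k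
    · left
      rw [e0, hc0, Λ.NineC_p2 hk1 _ _ (by linarith [h2.1]) (by linarith [h2.2]), cI]
    · right
      have h3 : Λ.cI k t = 0 := by
        rcases not_and_or.1 h2 with h3 | h3
        · exact Λ.NineC_cI_le hk1 (not_le.1 h3).le
        · exact Λ.NineC_cI_ge hk1 (not_le.1 h3).le
      rw [hc0, NineC_c9_eq]
      simp only [h3, add_zero]
      exact (hS.2 t).1.trans l1
  · have hj' : (fun s => c s j) =ᶠ[𝓝 t] fun s => Λ.NineC_S k (θ k) (ζ k) s j := hc.mono fun s hs => by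
      simp only [hs, NineC_c9_eq, Pi.add_apply, cI, Pi.single_eq_of_ne hj, add_zero]
    rw [hj'.deriv.deriv_eq, hj'.deriv_eq, hj'.eq_of_nhds, NineC_deriv_apply hS.1,
      NineC_deriv_apply (contDiff_infty_iff_deriv.1 hS.1).2]
    exact ⟨(norm_le_pi_norm _ j).trans ((hS.2 t).1.trans l1),
      (norm_le_pi_norm _ j).trans ((hS.2 t).2.1.trans l2),
      (norm_le_pi_norm _ j).trans ((hS.2 t).2.2.trans l2)⟩

theorem NineC_S_sub (Λ : Lay) (k : ℕ) (θ θ' : Fin Λ.K₂ → ℝ) (ζ ζ' : Fin 3 → Fin Λ.Kz → ℝ) (t : ℝ) :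
    Λ.c9 k θ ζ t - Λ.c9 k θ' ζ' t = Λ.NineC_S k (θ - θ') (ζ - ζ') t := by
  simp only [c9, NineC_S, cII, cK, slots, Pi.sub_apply, sub_div, Pi.single_sub, smul_sub,
    Finset.sum_sub_distrib]
  abel

/-- the glued functions converge when the parameters do -/
theorem IsGl.tendsto {F : Filter ℕ} {θ' : ℕ → ℕ → Fin Λ.K₂ → ℝ}
    {ζ' : ℕ → ℕ → Fin 3 → Fin Λ.Kz → ℝ} {c' : ℕ → ℝ → Fin Λ.N → ℝ} (hk₀ : 1 ≤ k₀)
    (h : Λ.IsGl k₀ θ ζ c) (h' : ∀ n, Λ.IsGl k₀ (θ' n) (ζ' n) (c' n))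
    (hθ : ∀ k j, Tendsto (fun n => θ' n k j) F (𝓝 (θ k j)))
    (hζ : ∀ k r j, Tendsto (fun n => ζ' n k r j) F (𝓝 (ζ k r j))) (j : Fin Λ.N) :
    TendstoLocallyUniformly (fun n t => c' n t j) (fun t => c t j) F := by
  obtain ⟨B, hB1, hB⟩ := Λ.NineC_S_bound
  refine Metric.tendstoLocallyUniformly_iff.2 fun ε hε x => ⟨Iio (x + 1), Iio_mem_nhds (by linarith), ?_⟩
  obtain ⟨K, hK⟩ := exists_nat_ge (x + 1)
  have hη : 0 < ε / (2 * B) := by positivity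
  have h1 : ∀ᶠ n in F, ∀ k ∈ Finset.range (K + 1), (∀ j, |(θ k - θ' n k) j| ≤ ε / (2 * B)) ∧
      ∀ r j, |(ζ k - ζ' n k) r j| ≤ ε / (2 * B) := by
    refine (eventually_all_finset _).2 fun k _ => Eventually.and (eventually_all.2 fun j => ?_)
      (eventually_all.2 fun r => eventually_all.2 fun j => ?_)
    · filter_upwards [Metric.tendsto_nhds.1 (hθ k j) _ hη] with n hn
      rw [Real.dist_eq, abs_sub_comm] at hn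
      exact hn.le
    · filter_upwards [Metric.tendsto_nhds.1 (hζ k r j) _ hη] with n hn
      rw [Real.dist_eq, abs_sub_comm] at hn
      exact hn.le
  filter_upwards [h1] with n hn y hy
  rcases le_total y ((k₀ : ℝ) ^ 14) with h2 | h2
  · rw [h.2.1 y h2, (h' n).2.1 y h2, dist_self]
    exact hε
  · obtain ⟨k, hk, ht⟩ := exists_stage h2
    have hk1 := hk₀.trans hk
    have h3 : (1 : ℝ) ≤ k := by exact_mod_cast hk1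
    have h4 : k ≤ K := by
      have : (k : ℝ) ≤ K := (le_self_pow₀ h3 (by norm_num)).trans (ht.1.trans (hy.le.trans hK))
      exact_mod_cast this
    obtain ⟨h5, h6⟩ := hn k (Finset.mem_range.2 (by omega))
    have h7 := ((hB k _ _ _ hk1 hη.le h5 h6).2 y).1
    rw [(h.2.2 k hk y ht).eq_of_nhds, ((h' n).2.2 k hk y ht).eq_of_nhds, Real.dist_eq, ← Pi.sub_apply,
      NineC_S_sub]
    refine ((norm_le_pi_norm _ j).trans h7).trans_lt ?_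
    have p1 : (1 : ℝ) ≤ (k : ℝ) ^ 11 := one_le_pow₀ h3
    have e1 : B * (ε / (2 * B)) = ε / 2 := by field_simp
    rw [e1]
    exact (div_le_self (by positivity) p1).trans_lt (by linarith)

end Lay

end Crest.Agent.R202
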