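import Crest.Agent.R202.OdeFlow
import Crest.Agent.R202.OdeNorm

/-!
# R202/NineChain: from the matching equations to global solutions

Let `A 0 = Δ₀` and `A (j+1) = Δ_{j+1} T_{j+1} A j`.  Apply `PhF.Act` for phase `j+1` with
`(T (j+1) A j, d' (j+1) A j, h (j+1) Δ T A j)` and `KkF.Act` for kick `j` with
`(zz A j, dd A j, hh A j)`; the matching equations say that the states agree at the junctions
(`dd * Δ T = m Δ T + Mh h Δ T + Md d'` since `T⁻¹ Δi Δ T = 1`).  Then follow a global solution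
(`Bg.exists_sol`) with `Rel.st_eq`, `Rel.congr`.
-/

open scoped ContDiff Topology Matrix Matrix.Norms.L2Operator
open Set Filter

noncomputable section

namespace Crest.Agent.R202

/-- the amplitudes at the ends of the phases -/
def amp {W : Type} [Fintype W] (Δ T : ℕ → Matrix W W ℝ) : ℕ → Matrix W W ℝ
  | 0 => Δ 0
  | j + 1 => Δ (j + 1) * T (j + 1) * amp Δ T j

theorem nineChain_phase {B : Bg} {M H W Y : Type} [Fintype M] [DecidableEq M] [Fintype H]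
    [DecidableEq H] [Fintype W] [DecidableEq W] {d : M ⊕ H → ℕ} {e : W → M} {P : PhF Y M H W}
    {om : ℕ → ℝ} {R Q : ℝ → Matrix (M ⊕ H) (M ⊕ H) ℝ} {s t : ℝ} {y : Y}
    (hP : P.Act B d e om R Q s t y) (hΔ : P.Δi y * P.Δ y = 1) {T : Matrix W W ℝ}
    (hT : IsUnit T.det) (h : Matrix H W ℝ) (d' : Matrix (M ⊕ H) W ℝ) (A : Matrix W W ℝ) (c : W) :
    B.Rel d R Q s t
      (fam (Matrix.diagonal (fun i => om (d (Sum.inl i)))
        * (((inc e + P.XM y) * T + P.XdM y * d') * A)) (P.hh y h d' T * A) (d' * A) c)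
      (fam (P.zz e y h * (P.Δ y * T * A)) (h * (P.Δ y * T * A))
        (P.dd y h d' T * (P.Δ y * T * A)) c) := by
  have e1 : T⁻¹ * (P.Δi y * (P.Δ y * (T * A))) = A := by
    rw [← Matrix.mul_assoc (P.Δi y), hΔ, Matrix.one_mul, ← Matrix.mul_assoc,
      Matrix.nonsing_inv_mul T hT, Matrix.one_mul]
  have := hP (T * A) (d' * A) (h * (P.Δ y * T * A)) c
  simp only [PhF.hh, PhF.zz, PhF.dd, Matrix.add_mul, Matrix.mul_assoc, e1] at this ⊢
  rwa [add_right_comm (P.m y * _)] at this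

theorem chain (B : Bg) {M H W Y Z : Type} [Fintype M] [DecidableEq M] [Fintype H] [DecidableEq H]
    [Fintype W] [DecidableEq W] {d : M ⊕ H → ℕ} (hd : ∀ i, 1 ≤ d i) (e : W → M) (Kn : ℕ)
    (P : ℕ → PhF Y M H W) (Kk : ℕ → KkF Z M H) (om : ℕ → ℕ → ℝ) (s t : ℕ → ℝ)
    {R Q : ℝ → Matrix (M ⊕ H) (M ⊕ H) ℝ} (hR : Continuous R) (hQ : Continuous Q)
    (y : ℕ → Y) (ζ : ℕ → Z) (T : ℕ → Matrix W W ℝ) (h : ℕ → Matrix H W ℝ)
    (d' : ℕ → Matrix (M ⊕ H) W ℝ) (hT0 : T 0 = 1) (hd0 : d' 0 = 0) (hom0 : ∀ l, om 0 l = 1)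
    (hP : ∀ j, j ≤ Kn → s j ≤ t j ∧ (P j).Act B d e (om j) R Q (s j) (t j) (y j) ∧
      (P j).Δi (y j) * (P j).Δ (y j) = 1 ∧ IsUnit (T j).det)
    (hK : ∀ j, j < Kn → t j ≤ s (j + 1) ∧ (Kk j).Act W B d R Q (t j) (s (j + 1)) (ζ j) ∧
      (∀ l, om (j + 1) l = Real.exp (B.Ip l (t j) (s (j + 1)))) ∧
      (Kk j).Pz (ζ j) * (P j).zz e (y j) (h j)
          + (Kk j).Pd (ζ j) * (P j).dd (y j) (h j) (d' j) (T j)
          + (Kk j).Ph (ζ j) * (P (j + 1)).hh (y (j + 1)) (h (j + 1)) (d' (j + 1)) (T (j + 1))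
        = (inc e + (P (j + 1)).XM (y (j + 1))) * T (j + 1)
          + (P (j + 1)).XdM (y (j + 1)) * d' (j + 1) ∧
      (Kk j).Mz (ζ j) * (P j).zz e (y j) (h j)
          + (Kk j).Md (ζ j) * (P j).dd (y j) (h j) (d' j) (T j)
          + (Kk j).Mh (ζ j) * (P (j + 1)).hh (y (j + 1)) (h (j + 1)) (d' (j + 1)) (T (j + 1))
        = d' (j + 1) ∧
      (Kk j).Hz (ζ j) * (P j).zz e (y j) (h j)
          + (Kk j).Hd (ζ j) * (P j).dd (y j) (h j) (d' j) (T j)
          + (Kk j).Hh (ζ j) * (P (j + 1)).hh (y (j + 1)) (h (j + 1)) (d' (j + 1)) (T (j + 1))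
        = h j) (c : W) :
    ∃ u p, B.Sol d R Q univ u p ∧ B.xm d u p (s 0) = 0 ∧
      (∀ i, B.xp d u p (s 0) (Sum.inl i) = (inc e + (P 0).XM (y 0)) i c) ∧
      ∀ j, j ≤ Kn → B.xp d u p (t j) = Sum.elim
        (fun i => ((P j).zz e (y j) (h j) * amp (fun j => (P j).Δ (y j)) T j) i c)
        (fun i => (h j * amp (fun j => (P j).Δ (y j)) T j) i c) := by
  obtain ⟨u, p, hs, h0⟩ := B.exists_sol hd hR hQ (s 0)
    (fam (Matrix.diagonal (fun i => om 0 (d (Sum.inl i)))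
      * (((inc e + (P 0).XM (y 0)) * T 0 + (P 0).XdM (y 0) * d' 0) * (1 : Matrix W W ℝ)))
      ((P 0).hh (y 0) (h 0) (d' 0) (T 0) * (1 : Matrix W W ℝ)) (d' 0 * (1 : Matrix W W ℝ)) c)
  have key : ∀ j, j ≤ Kn → B.st d u p (t j) =
      fam ((P j).zz e (y j) (h j) * amp (fun j => (P j).Δ (y j)) T j)
        (h j * amp (fun j => (P j).Δ (y j)) T j)
        ((P j).dd (y j) (h j) (d' j) (T j) * amp (fun j => (P j).Δ (y j)) T j) c := by
    intro j
    induction j with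
    | zero =>
      intro hj
      obtain ⟨h1, h2, h3, h4⟩ := hP 0 hj
      have := (nineChain_phase h2 h3 h4 (h 0) (d' 0) 1 c).st_eq hd h1 hR.continuousOn
        hQ.continuousOn (hs.mono (subset_univ _)) h0
      have e0 : (P 0).Δ (y 0) * T 0 * 1 = amp (fun j => (P j).Δ (y j)) T 0 := by
        rw [hT0, Matrix.mul_one, Matrix.mul_one, amp]
      rwa [e0] at this
    | succ j ih =>
      intro hj
      obtain ⟨h1, h2, h3, h4⟩ := hP (j + 1) hj
      obtain ⟨k1, k2, k3, k4, k5, k6⟩ := hK j hj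
      have k7 := k2 ((P j).zz e (y j) (h j) * amp (fun j => (P j).Δ (y j)) T j)
        ((P j).dd (y j) (h j) (d' j) (T j) * amp (fun j => (P j).Δ (y j)) T j)
        ((P (j + 1)).hh (y (j + 1)) (h (j + 1)) (d' (j + 1)) (T (j + 1))
          * amp (fun j => (P j).Δ (y j)) T j) c
      simp only [← Matrix.mul_assoc, ← Matrix.add_mul, k4, k5, k6, ← k3] at k7
      rw [Matrix.mul_assoc (Matrix.diagonal _)] at k7
      exact (nineChain_phase h2 h3 h4 (h (j + 1)) (d' (j + 1)) _ c).st_eq hd h1 hR.continuousOn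
        hQ.continuousOn (hs.mono (subset_univ _)) (k7.st_eq hd k1 hR.continuousOn hQ.continuousOn
          (hs.mono (subset_univ _)) (ih (Nat.le_of_succ_le hj)))
  refine ⟨u, p, hs, ?_, fun i => ?_, fun j hj => congrArg Prod.fst (key j hj)⟩
  · refine (congrArg Prod.snd h0).trans ?_
    funext i
    simp [fam, hd0]
  · refine (congrFun (congrArg Prod.fst h0) (Sum.inl i)).trans ?_
    simp [fam, hd0, hT0, hom0]

theorem PhF.Act.congr {B : Bg} {M H W Y : Type} [Fintype M] [DecidableEq M] [Fintype H]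
    [DecidableEq H] [Fintype W] [DecidableEq W] {d : M ⊕ H → ℕ} {e : W → M} {P : PhF Y M H W}
    {om : ℕ → ℝ} {R Q R' Q' : ℝ → Matrix (M ⊕ H) (M ⊕ H) ℝ} {s t : ℝ} {y : Y}
    (h : P.Act B d e om R Q s t y) (hR : ∀ r ∈ Icc s t, R' r = R r)
    (hQ : ∀ r ∈ Icc s t, Q' r = Q r) : P.Act B d e om R' Q' s t y :=
  fun T d' h' c => (h T d' h' c).congr hR hQ

theorem KkF.Act.congr {B : Bg} {M H W Y : Type} [Fintype M] [DecidableEq M] [Fintype H]
    [DecidableEq H] {d : M ⊕ H → ℕ} {K : KkF Y M H}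
    {R Q R' Q' : ℝ → Matrix (M ⊕ H) (M ⊕ H) ℝ} {s t : ℝ} {y : Y}
    (h : K.Act W B d R Q s t y) (hR : ∀ r ∈ Icc s t, R' r = R r)
    (hQ : ∀ r ∈ Icc s t, Q' r = Q r) : K.Act W B d R' Q' s t y :=
  fun z d' h' c => (h z d' h' c).congr hR hQ

end Crest.Agent.R202
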