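import Crest.Agent.R202.SDefs

/-!
# R202/NineLim: limits of truncated solutions along an ultrafilter

Bounded families converge along `𝒰` (`IsCompact.ultrafilter_le_nhds`).  On `[-T,T]` the
derivatives are eventually bounded, so the families are eventually equi-Lipschitz and the
convergence is uniform (finite nets); the right hand sides are finite sums, so they converge
uniformly too; `hasDerivAt_of_tendstoUniformlyOn` / `hasDerivAt_of_tendstoLocallyUniformlyOn`.
-/

open scoped ContDiff Topology Matrix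
open Set Filter

noncomputable section

namespace Crest.Agent.R202

theorem eq_i0_of_dg {i : I0} (h : ¬ 1 ≤ dg i) : i = i0 := by
  obtain ⟨⟨l, m⟩, hlm⟩ := i
  simp only [dg] at h
  simp only at hlm
  have hl : l = 0 := by omega
  have hm : m = 0 := by omega
  subst hl hm
  rfl

/-- eventually bounded on bounded intervals -/
def nineLimEB (l : Filter ℕ) (F : ℕ → ℝ → ℝ) : Prop :=
  ∀ T : ℝ, ∃ C : ℝ, ∀ᶠ n in l, ∀ t, |t| ≤ T → |F n t| ≤ C

theorem nineLim_cont_bd {g : ℝ → ℝ} (hg : Continuous g) (T : ℝ) :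
    ∃ C : ℝ, ∀ t, |t| ≤ T → |g t| ≤ C := by
  obtain ⟨C, hC⟩ := (isCompact_Icc (a := -T) (b := T)).exists_bound_of_continuousOn
    hg.continuousOn
  exact ⟨C, fun t ht => hC t (abs_le.1 ht)⟩

theorem nineLimEB.add {l : Filter ℕ} {F G : ℕ → ℝ → ℝ} (hF : nineLimEB l F)
    (hG : nineLimEB l G) : nineLimEB l fun n t => F n t + G n t := by
  intro T
  obtain ⟨C, hC⟩ := hF T
  obtain ⟨C', hC'⟩ := hG T
  refine ⟨C + C', ?_⟩
  filter_upwards [hC, hC'] with n h1 h2 t ht
  exact (abs_add_le _ _).trans (add_le_add (h1 t ht) (h2 t ht))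

theorem nineLimEB.mul {l : Filter ℕ} {F G : ℕ → ℝ → ℝ} (hF : nineLimEB l F)
    (hG : nineLimEB l G) : nineLimEB l fun n t => F n t * G n t := by
  intro T
  obtain ⟨C, hC⟩ := hF T
  obtain ⟨C', hC'⟩ := hG T
  refine ⟨C * C', ?_⟩
  filter_upwards [hC, hC'] with n h1 h2 t ht
  rw [abs_mul]
  exact mul_le_mul (h1 t ht) (h2 t ht) (abs_nonneg _) ((abs_nonneg _).trans (h1 t ht))

theorem nineLimEB_const {l : Filter ℕ} {g : ℝ → ℝ} (hg : Continuous g) :
    nineLimEB l fun _ t => g t := by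
  intro T
  obtain ⟨C, hC⟩ := nineLim_cont_bd hg T
  exact ⟨C, Eventually.of_forall fun _ => hC⟩

theorem nineLimEB_sum {l : Filter ℕ} {ι : Type*} (s : Finset ι) {F : ι → ℕ → ℝ → ℝ}
    (hF : ∀ j, nineLimEB l (F j)) : nineLimEB l fun n t => ∑ j ∈ s, F j n t := by
  classical
  induction s using Finset.induction_on with
  | empty => simpa using nineLimEB_const (l := l) (continuous_const (y := (0 : ℝ)))
  | insert a s ha ih => simpa [Finset.sum_insert ha] using (hF a).add ih

theorem nineLimEB_of_tlu {l : Filter ℕ} {F : ℕ → ℝ → ℝ} {g : ℝ → ℝ}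
    (h : TendstoLocallyUniformly F g l) (hg : Continuous g) : nineLimEB l F := by
  intro T
  obtain ⟨C, hC⟩ := nineLim_cont_bd hg T
  have h1 := Metric.tendstoUniformlyOn_iff.1
    (tendstoLocallyUniformly_iff_forall_isCompact.1 h _ (isCompact_Icc (a := -T) (b := T))) 1
    one_pos
  refine ⟨C + 1, ?_⟩
  filter_upwards [h1] with n hn t ht
  have h2 := hn t (abs_le.1 ht)
  have h3 := hC t ht
  rw [Real.dist_eq, abs_lt] at h2
  rw [abs_le] at h3 ⊢
  constructor <;> linarith [h2.1, h2.2, h3.1, h3.2]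

theorem nineLim_tlu_const {l : Filter ℕ} (g : ℝ → ℝ) :
    TendstoLocallyUniformly (fun _ t => g t) g l := by
  refine Metric.tendstoLocallyUniformly_iff.2 fun ε hε x => ⟨univ, univ_mem, ?_⟩
  exact Eventually.of_forall fun n y _ => by simpa using hε

theorem nineLim_tlu_sum {l : Filter ℕ} {ι : Type*} (s : Finset ι) {F : ι → ℕ → ℝ → ℝ}
    {g : ι → ℝ → ℝ} (hF : ∀ j, TendstoLocallyUniformly (F j) (g j) l) :
    TendstoLocallyUniformly (fun n t => ∑ j ∈ s, F j n t) (fun t => ∑ j ∈ s, g j t) l := by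
  classical
  induction s using Finset.induction_on with
  | empty => simpa using nineLim_tlu_const (l := l) (fun _ => (0 : ℝ))
  | insert a s ha ih =>
    simp only [Finset.sum_insert ha]
    exact (hF a).fun_add ih

/-- pointwise convergence and eventually bounded derivatives give locally uniform convergence -/
theorem nineLim_tlu {l : Filter ℕ} [l.NeBot] {F F' : ℕ → ℝ → ℝ} {g : ℝ → ℝ}
    (hd : ∀ᶠ n in l, ∀ t, HasDerivAt (F n) (F' n t) t) (hb : nineLimEB l F')
    (hg : ∀ t, Tendsto (fun n => F n t) l (𝓝 (g t))) :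
    TendstoLocallyUniformly F g l ∧ Continuous g := by
  have key : TendstoLocallyUniformly F g l := by
    refine Metric.tendstoLocallyUniformly_iff.2 fun ε hε x => ?_
    obtain ⟨C, hC⟩ := hb (|x| + 1)
    set C' : ℝ := max C 0 + 1 with hC'
    have hC'pos : 0 < C' := by positivity
    set δ : ℝ := min 1 (ε / (4 * C')) with hδ
    have hδpos : 0 < δ := by positivity
    have hlip : ∀ᶠ n in l, ∀ y ∈ Metric.ball x δ, |F n y - F n x| ≤ ε / 4 := by
      filter_upwards [hd, hC] with n h1 h2 y hy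
      have hb1 : ∀ z ∈ Metric.ball x δ, ‖F' n z‖ ≤ C' := by
        intro z hz
        have hz0 : |z - x| < δ := by simpa [Real.dist_eq] using hz
        have hz' : |z - x| < 1 := lt_of_lt_of_le hz0 (min_le_left _ _)
        have : |z| ≤ |x| + 1 := by
          have := abs_add_le (z - x) x
          rw [sub_add_cancel] at this
          linarith
        have h3 := h2 z this
        rw [Real.norm_eq_abs]
        have := le_max_left C 0
        linarith
      have h4 := (convex_ball x δ).norm_image_sub_le_of_norm_hasDerivWithin_le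
        (f := F n) (f' := F' n) (fun z _ => (h1 z).hasDerivWithinAt) hb1
        (Metric.mem_ball_self hδpos) hy
      rw [Real.norm_eq_abs, Real.norm_eq_abs] at h4
      have hy0 : |y - x| < δ := by simpa [Real.dist_eq] using hy
      have h5 : |y - x| ≤ ε / (4 * C') := hy0.le.trans (min_le_right _ _)
      calc |F n y - F n x| ≤ C' * |y - x| := h4
        _ ≤ C' * (ε / (4 * C')) := by gcongr
        _ = ε / 4 := by field_simp
    have hglip : ∀ y ∈ Metric.ball x δ, |g y - g x| ≤ ε / 4 := by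
      intro y hy
      refine le_of_tendsto ((hg y).sub (hg x)).abs ?_
      filter_upwards [hlip] with n hn using hn y hy
    have hx : ∀ᶠ n in l, dist (F n x) (g x) < ε / 4 :=
      Metric.tendsto_nhds.1 (hg x) _ (by positivity)
    refine ⟨Metric.ball x δ, Metric.ball_mem_nhds x hδpos, ?_⟩
    filter_upwards [hlip, hx] with n h1 h2 y hy
    have h3 := abs_le.1 (h1 y hy)
    have h4 := abs_le.1 (hglip y hy)
    rw [Real.dist_eq, abs_lt] at h2 ⊢
    constructor <;> linarith [h2.1, h2.2, h3.1, h3.2, h4.1, h4.2]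
  refine ⟨key, key.continuous (Eventually.frequently ?_)⟩
  filter_upwards [hd] with n hn
  exact continuous_iff_continuousAt.2 fun t => (hn t).continuousAt

theorem nineLim_lim (𝒰 : Ultrafilter ℕ) {f : ℕ → ℝ} {B : ℝ}
    (h : ∀ᶠ n in (𝒰 : Filter ℕ), |f n| ≤ B) : ∃ a, Tendsto f 𝒰 (𝓝 a) := by
  obtain ⟨a, -, ha⟩ := (isCompact_Icc (a := -B) (b := B)).ultrafilter_le_nhds (𝒰.map f) (by
    rw [Ultrafilter.coe_map, le_principal_iff, mem_map]
    filter_upwards [h] with n hn using abs_le.1 hn)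
  exact ⟨a, ha⟩

theorem limit9 {β : ℝ → ℝ} (hβ : Continuous β) {D : ℕ} (𝒰 : Ultrafilter ℕ)
    {R Q : ℕ → ℝ → Matrix I0 I0 ℝ} {R' Q' : ℝ → Matrix I0 I0 ℝ} {u p : ℕ → ℝ → I0 → ℝ}
    {Bd : ℝ → I0 → ℝ}
    (hR : ∀ i j, TendstoLocallyUniformly (fun n t => R n t i j) (fun t => R' t i j) 𝒰)
    (hQ : ∀ i j, TendstoLocallyUniformly (fun n t => Q n t i j) (fun t => Q' t i j) 𝒰)
    (hR' : ∀ i j, Continuous fun t => R' t i j) (hQ' : ∀ i j, Continuous fun t => Q' t i j)
    (hs : ∀ i, 1 ≤ dg i → ∀ᶠ n in (𝒰 : Filter ℕ), ISol β D (R n) (Q n) {i} (u n) (p n))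
    (h0 : ∀ n t, u n t i0 = 0 ∧ p n t i0 = 0)
    (hb : ∀ T : ℝ, ∀ᶠ n in (𝒰 : Filter ℕ), ∀ t, |t| ≤ T → ∀ i,
      |u n t i| ≤ Bd t i ∧ |p n t i| ≤ Bd t i)
    (hBd : ∀ i, Continuous fun t => Bd t i) :
    ∃ u' p', ISol β D R' Q' {i | 1 ≤ dg i} u' p' ∧ ∀ t i,
      Tendsto (fun n => u n t i) 𝒰 (𝓝 (u' t i)) ∧ Tendsto (fun n => p n t i) 𝒰 (𝓝 (p' t i)) := by
  have hu1 : ∀ t i, ∃ a, Tendsto (fun n => u n t i) 𝒰 (𝓝 a) := fun t i =>
    nineLim_lim 𝒰 (B := Bd t i) ((hb |t|).mono fun n hn => (hn t le_rfl i).1)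
  have hp1 : ∀ t i, ∃ a, Tendsto (fun n => p n t i) 𝒰 (𝓝 a) := fun t i =>
    nineLim_lim 𝒰 (B := Bd t i) ((hb |t|).mono fun n hn => (hn t le_rfl i).2)
  choose u' hu' using hu1
  choose p' hp' using hp1
  -- local bounds
  have hub : ∀ i, nineLimEB 𝒰 fun n t => u n t i := by
    intro i T
    obtain ⟨C, hC⟩ := nineLim_cont_bd (hBd i) T
    exact ⟨C, (hb T).mono fun n hn t ht =>
      (hn t ht i).1.trans ((le_abs_self _).trans (hC t ht))⟩
  have hpb : ∀ i, nineLimEB 𝒰 fun n t => p n t i := by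
    intro i T
    obtain ⟨C, hC⟩ := nineLim_cont_bd (hBd i) T
    exact ⟨C, (hb T).mono fun n hn t ht =>
      (hn t ht i).2.trans ((le_abs_self _).trans (hC t ht))⟩
  have hdub : ∀ i, nineLimEB 𝒰 fun n t => p n t i + act D (R n t) (p n t) i := fun i =>
    (hpb i).add (nineLimEB_sum _ fun j => (nineLimEB_of_tlu (hR i j) (hR' i j)).mul (hpb j))
  have hdpb : ∀ i, nineLimEB 𝒰 fun n t =>
      -β t * p n t i + lam 1 (dg i) * u n t i + act D (Q n t) (u n t) i := fun i =>
    (((nineLimEB_const hβ.neg).mul (hpb i)).add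
      ((nineLimEB_const continuous_const).mul (hub i))).add
      (nineLimEB_sum _ fun j => (nineLimEB_of_tlu (hQ i j) (hQ' i j)).mul (hub j))
  have hz : nineLimEB 𝒰 fun _ _ => 0 := nineLimEB_const continuous_const
  -- locally uniform convergence
  have hul : ∀ i, TendstoLocallyUniformly (fun n t => u n t i) (fun t => u' t i) 𝒰 ∧
      Continuous fun t => u' t i := by
    intro i
    by_cases hi : 1 ≤ dg i
    · exact nineLim_tlu ((hs i hi).mono fun n hn t => hn.du i rfl t) (hdub i) fun t => hu' t i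
    · obtain rfl := eq_i0_of_dg hi
      refine nineLim_tlu (Eventually.of_forall fun n t => ?_) hz fun t => hu' t i0
      simpa [(h0 n _).1] using hasDerivAt_const t (0 : ℝ)
  have hpl : ∀ i, TendstoLocallyUniformly (fun n t => p n t i) (fun t => p' t i) 𝒰 ∧
      Continuous fun t => p' t i := by
    intro i
    by_cases hi : 1 ≤ dg i
    · exact nineLim_tlu ((hs i hi).mono fun n hn t => hn.dp i rfl t) (hdpb i) fun t => hp' t i
    · obtain rfl := eq_i0_of_dg hi
      refine nineLim_tlu (Eventually.of_forall fun n t => ?_) hz fun t => hp' t i0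
      simpa [(h0 n _).2] using hasDerivAt_const t (0 : ℝ)
  refine ⟨u', p', ⟨fun i hi t => ?_, fun i hi t => ?_⟩, fun t i => ⟨hu' t i, hp' t i⟩⟩
  · have h1 : TendstoLocallyUniformly (fun n t => p n t i + act D (R n t) (p n t) i)
        (fun t => p' t i + act D (R' t) (p' t) i) 𝒰 :=
      (hpl i).1.fun_add
        (nineLim_tlu_sum _ fun j => (hR i j).fun_mul₀ (hpl j).1 (hR' i j) (hpl j).2)
    exact hasDerivAt_of_tendstoLocallyUniformlyOn (l := (𝒰 : Filter ℕ)) isOpen_univ
      (f := fun n t => u n t i) h1.tendstoLocallyUniformlyOn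
      ((hs i hi).mono fun n hn t _ => hn.du i rfl t) (fun t _ => hu' t i) (mem_univ t)
  · have h1 : TendstoLocallyUniformly
        (fun n t => -β t * p n t i + lam 1 (dg i) * u n t i + act D (Q n t) (u n t) i)
        (fun t => -β t * p' t i + lam 1 (dg i) * u' t i + act D (Q' t) (u' t) i) 𝒰 :=
      (((nineLim_tlu_const fun t => -β t).fun_mul₀ (hpl i).1 hβ.neg (hpl i).2).fun_add
        ((nineLim_tlu_const fun _ => lam 1 (dg i)).fun_mul₀ (hul i).1 continuous_const
          (hul i).2)).fun_add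
        (nineLim_tlu_sum _ fun j => (hQ i j).fun_mul₀ (hul j).1 (hQ' i j) (hul j).2)
    exact hasDerivAt_of_tendstoLocallyUniformlyOn (l := (𝒰 : Filter ℕ)) isOpen_univ
      (f := fun n t => p n t i) h1.tendstoLocallyUniformlyOn
      ((hs i hi).mono fun n hn t _ => hn.dp i rfl t) (fun t _ => hp' t i) (mem_univ t)

end Crest.Agent.R202
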