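import Crest.Agent.R202.SMat

/-!
# R202/SBound: zonal modes go up, the top mode goes down

`zonal_nonneg`: for `F = Σ v i Y i` zonal, `L₂ F = 0`, so the `op1` form vanishes (`Lv_crs_aD`) and
the `op2` form is `sI (nP (Lv F)²) ≥ 0`.
`top_test`: `f = C + t z S`, `(C,S) = zri μ`, `t = -4/κ`; `v i = sI (Y i * f)`.  `z S` is harmonic of
degree `μ + 1`; the support of `v` lies in the sector of `top μ` (`L₂²`-eigenvalue and `rf`-parity).
On the sphere, with `s = 1 - z²`, `D = Lv aD`: `D C = -μ z C`, `D S = -μ z S`, `D z = s`.  For a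
polynomial `φ(z)`, `sI (φ C S) = 0` and `sI (φ C²) = sI (φ S²) =: ⟨φ⟩` (`zri_sq`, `Lop_zri`,
`sI_mul_Lop`).  Moments: `sI (D g) = 2 sI (z g)` (from `sI_Lop`) applied to `g = z^(2j+1) s^μ` gives
`(2μ+3) ⟨z²⟩ = ⟨1⟩`, `(2μ+5) ⟨z⁴⟩ = 3 ⟨z²⟩`.  Then `q₀ = μ(μ+1)⟨1⟩ + t²(μ+1)(μ+2)⟨z²⟩`,
`q₁ = 2 t μ ⟨s⟩`, `q₂ = ⟨s (μ² z² + t² (s - μ z²)²)⟩ ≤ μ² ⟨z²⟩ + 2 t² (⟨1⟩ + μ² ⟨z⁴⟩)`,
`|f|² = ⟨1⟩ + t² ⟨z²⟩`, and `q₀ + κ q₁ + κ² q₂ ≤ μ(μ-2)|f|²` as soon as
`μ (5 - κ²/2) ≥ 60 + 40/κ²`.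
-/

open scoped ContDiff Topology Matrix
open Set Filter MvPolynomial

noncomputable section

namespace Crest.Agent.R202

variable {Y : I0 → Pl 3}

theorem SBound_Lv_comb (a : Fin 3 → Pl 3) (s : Finset I0) (v : I0 → ℝ) :
    Lv a (∑ i ∈ s, v i • Y i) = ∑ i ∈ s, v i • Lv a (Y i) := by
  simp only [Lv, map_sum, map_smul, Finset.mul_sum, Finset.smul_sum, mul_smul_comm]
  exact Finset.sum_comm

theorem SBound_sI_comb (s : Finset I0) (v : I0 → ℝ) (ρ : Pl 3) (A B : I0 → Pl 3) :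
    sI (ρ * (∑ i ∈ s, v i • A i) * ∑ j ∈ s, v j • B j) =
      ∑ i ∈ s, ∑ j ∈ s, sI (ρ * A i * B j) * v i * v j := by
  rw [mul_assoc, Finset.sum_mul_sum, Finset.mul_sum, sI_sum]
  refine Finset.sum_congr rfl fun i _ => ?_
  rw [Finset.mul_sum, sI_sum]
  refine Finset.sum_congr rfl fun j _ => ?_
  rw [smul_mul_smul_comm, mul_smul_comm, sI_smul, ← mul_assoc]
  ring

theorem SBound_quad (κ : ℝ) (s : Finset I0) (v : I0 → ℝ) {F : Pl 3} (hF : F = ∑ i ∈ s, v i • Y i) :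
    ∑ i ∈ s, ∑ j ∈ s, QD Y κ i j * v i * v j =
      κ * (2 * sI (Lv aD F * Lv (crs aD) F)) + κ ^ 2 * sI (nP aD * Lv aD F * Lv aD F) := by
  have h1 := SBound_sI_comb s v 1 (fun i => Lv aD (Y i)) (fun i => Lv (crs aD) (Y i))
  have h2 := SBound_sI_comb s v 1 (fun i => Lv (crs aD) (Y i)) (fun i => Lv aD (Y i))
  have h3 := SBound_sI_comb s v (nP aD) (fun i => Lv aD (Y i)) (fun i => Lv aD (Y i))
  simp only [← SBound_Lv_comb, ← hF, one_mul] at h1 h2 h3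
  rw [mul_comm] at h2
  rw [two_mul, h3]
  nth_rewrite 1 [h1]
  rw [h2]
  simp only [Finset.mul_sum, ← Finset.sum_add_distrib]
  refine Finset.sum_congr rfl fun i _ => Finset.sum_congr rfl fun j _ => ?_
  simp only [QD, mQ1, mQ2, Matrix.add_apply, Matrix.smul_apply, smul_eq_mul, sI_mul_op1,
    sI_mul_op2, sI_add]
  ring

theorem SBound_sphere {x : E 3} (hx : ‖x‖ = 1) : x 0 ^ 2 + x 1 ^ 2 + x 2 ^ 2 = 1 := by
  have := EuclideanSpace.real_norm_sq_eq x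
  rw [hx, Fin.sum_univ_three] at this
  linarith

theorem SBound_D_mul (P Q : Pl 3) : Lv aD (P * Q) = Lv aD P * Q + P * Lv aD Q := by
  simp only [Lv_aD, Lop_mul]
  ring

theorem SBound_D_add (P Q : Pl 3) : Lv aD (P + Q) = Lv aD P + Lv aD Q := by
  simp only [Lv_aD, map_add]
  ring

theorem SBound_D_sub (P Q : Pl 3) : Lv aD (P - Q) = Lv aD P - Lv aD Q := by
  simp only [Lv_aD, map_sub]
  ring

theorem SBound_D_smul (c : ℝ) (P : Pl 3) : Lv aD (c • P) = c • Lv aD P := by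
  simp only [Lv_aD, map_smul, mul_smul_comm, smul_sub]

theorem SBound_Lop_X :
    (Lop 0 (X 0) = 0 ∧ Lop 0 (X 1) = -X 2 ∧ Lop 0 (X 2) = X 1) ∧
    (Lop 1 (X 0) = X 2 ∧ Lop 1 (X 1) = 0 ∧ Lop 1 (X 2) = -X 0) ∧ Lop 2 (X 2) = 0 := by
  have e1 : (0 : Fin 3) + 1 = 1 := rfl
  have e2 : (0 : Fin 3) + 2 = 2 := rfl
  have e3 : (1 : Fin 3) + 1 = 2 := rfl
  have e4 : (1 : Fin 3) + 2 = 0 := rfl
  have e5 : (2 : Fin 3) + 1 = 0 := rfl
  have e6 : (2 : Fin 3) + 2 = 1 := rfl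
  simp only [Lop_apply, e1, e2, e3, e4, e5, e6]
  simp [pderiv_X]

theorem SBound_D_X : Lv aD (X 0) = -(X 2 * X 0) ∧ Lv aD (X 1) = -(X 2 * X 1) ∧
    Lv aD (X 2) = X 0 ^ 2 + X 1 ^ 2 := by
  obtain ⟨⟨h1, h2, h3⟩, ⟨h4, h5, h6⟩, -⟩ := SBound_Lop_X
  simp only [Lv_aD, h1, h2, h3, h4, h5, h6]
  refine ⟨by ring, by ring, by ring⟩

theorem SBound_D_one : Lv aD 1 = 0 := by
  have := SBound_D_mul 1 1
  simp only [mul_one, one_mul] at this
  exact left_eq_add.1 this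

theorem SBound_D_zri (l : ℕ) : Lv aD (zri l).1 = -(C (l : ℝ) * X 2 * (zri l).1) ∧
    Lv aD (zri l).2 = -(C (l : ℝ) * X 2 * (zri l).2) := by
  obtain ⟨h0, h1, -⟩ := SBound_D_X
  induction l with
  | zero =>
    refine ⟨by simp [zri, SBound_D_one], ?_⟩
    simp [zri, Lv]
  | succ l ih =>
    simp only [zri, SBound_D_sub, SBound_D_add, SBound_D_mul, h0, h1, ih.1, ih.2, Nat.cast_add,
      Nat.cast_one, map_add, map_one]
    exact ⟨by ring, by ring⟩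

theorem SBound_pderiv_zri (l : ℕ) : pderiv 2 (zri l).1 = 0 ∧ pderiv 2 (zri l).2 = 0 := by
  induction l with
  | zero => simp [zri]
  | succ l ih => simp [zri, ih.1, ih.2, pderiv_X]

theorem SBound_zS_mem (l : ℕ) : X 2 * (zri l).2 ∈ Hm ℝ 3 (l + 1) := by
  obtain ⟨h1, h2⟩ := Submodule.mem_inf.1 (zri_mem l).2
  refine Submodule.mem_inf.2 ⟨?_, ?_⟩
  · rw [mem_homogeneousSubmodule] at h1 ⊢
    rw [add_comm]
    exact (isHomogeneous_X ℝ 2).mul h1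
  · rw [LinearMap.mem_ker] at h2 ⊢
    rw [pb_lapP_X_mul, h2, (SBound_pderiv_zri l).2]
    simp

theorem SBound_rf_zri (l : ℕ) (x : E 3) :
    ev (zri l).1 (rf x) = ev (zri l).1 x ∧ ev (zri l).2 (rf x) = -ev (zri l).2 x := by
  induction l with
  | zero => simp [zri, ev]
  | succ l ih =>
    obtain ⟨h1, h2⟩ := ih
    simp only [ev] at h1 h2
    simp only [zri, ev, map_sub, map_add, map_mul, eval_X, h1, h2]
    simp only [rf, Matrix.cons_val_zero, Matrix.cons_val_one]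
    exact ⟨by ring, by ring⟩

theorem SBound_sI_D (g : Pl 3) : sI (Lv aD g) = 2 * sI (X 2 * g) := by
  obtain ⟨⟨-, h2, -⟩, ⟨h4, -, -⟩, -⟩ := SBound_Lop_X
  rw [Lv_aD, sI_sub, sI_mul_Lop, sI_mul_Lop, h2, h4, neg_mul, sI_neg]
  ring

theorem SBound_Lop_zpow (k : ℕ) : Lop 2 (X 2 ^ k) = 0 := by
  induction k with
  | zero =>
    have := Lop_mul 2 1 1
    simp only [mul_one, one_mul] at this
    rw [pow_zero]
    exact left_eq_add.1 this
  | succ k ih => rw [pow_succ, Lop_mul, ih, SBound_Lop_X.2.2]; simp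

theorem SBound_sI_C_mul (c : ℝ) (P : Pl 3) : sI (C c * P) = c * sI P := by
  rw [← smul_eq_C_mul, sI_smul]

theorem SBound_CS {μ : ℕ} (hμ : 1 ≤ μ) (k : ℕ) :
    sI (X 2 ^ k * ((zri μ).1 * (zri μ).2)) = 0 ∧
      sI (X 2 ^ k * (zri μ).2 ^ 2) = sI (X 2 ^ k * (zri μ).1 ^ 2) := by
  have hμ' : (μ : ℝ) ≠ 0 := by positivity
  obtain ⟨h1, h2⟩ := Lop_zri μ
  have e1 := sI_Lop 2 (X 2 ^ k * ((zri μ).1 * (zri μ).1))
  have e2 := sI_Lop 2 (X 2 ^ k * ((zri μ).1 * (zri μ).2))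
  simp only [Lop_mul, SBound_Lop_zpow, h1, h2, zero_mul, zero_add, smul_eq_C_mul] at e1 e2
  have e3 : X 2 ^ k * (C (-(μ : ℝ)) * (zri μ).2 * (zri μ).1 + (zri μ).1 * (C (-(μ : ℝ)) * (zri μ).2))
      = C (-2 * (μ : ℝ)) * (X 2 ^ k * ((zri μ).1 * (zri μ).2)) := by
    simp only [map_mul, map_neg, map_ofNat]
    ring
  have e4 : X 2 ^ k * (C (-(μ : ℝ)) * (zri μ).2 * (zri μ).2 + (zri μ).1 * (C (μ : ℝ) * (zri μ).1))
      = C (μ : ℝ) * (X 2 ^ k * (zri μ).1 ^ 2 - X 2 ^ k * (zri μ).2 ^ 2) := by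
    simp only [map_neg]
    ring
  rw [e3, SBound_sI_C_mul] at e1
  rw [e4, SBound_sI_C_mul, sI_sub] at e2
  refine ⟨(mul_eq_zero.1 e1).resolve_left (by simpa using hμ'), ?_⟩
  have := (mul_eq_zero.1 e2).resolve_left hμ'
  linarith

theorem SBound_D_zpow (k : ℕ) :
    Lv aD (X 2 ^ (k + 1)) = C ((k : ℝ) + 1) * X 2 ^ k * (X 0 ^ 2 + X 1 ^ 2) := by
  induction k with
  | zero => simp [SBound_D_X.2.2]
  | succ k ih =>
    rw [pow_succ, SBound_D_mul, ih, SBound_D_X.2.2]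
    simp only [Nat.cast_add, Nat.cast_one, map_add, map_one]
    ring

theorem SBound_moment (μ k : ℕ) : ((k : ℝ) + 1) * sI (X 2 ^ k * (zri μ).1 ^ 2) =
    (2 * μ + k + 3) * sI (X 2 ^ (k + 2) * (zri μ).1 ^ 2) := by
  have e1 := SBound_sI_D (X 2 ^ (k + 1) * ((zri μ).1 * (zri μ).1))
  rw [SBound_D_mul, SBound_D_mul, SBound_D_zpow, (SBound_D_zri μ).1] at e1
  have e2 : sI (X 2 * (X 2 ^ (k + 1) * ((zri μ).1 * (zri μ).1))) =
      sI (X 2 ^ (k + 2) * (zri μ).1 ^ 2) := by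
    congr 1
    ring
  rw [e2, sI_congr (Q := C ((k : ℝ) + 1) * (X 2 ^ k * (zri μ).1 ^ 2) -
    C (2 * μ + k + 1 : ℝ) * (X 2 ^ (k + 2) * (zri μ).1 ^ 2)), sI_sub, SBound_sI_C_mul,
    SBound_sI_C_mul] at e1
  · linarith
  · intro x hx
    have h := SBound_sphere hx
    simp only [ev, map_add, map_sub, map_mul, map_neg, map_pow, eval_C, eval_X]
    have h' : x 0 ^ 2 + x 1 ^ 2 = 1 - x 2 ^ 2 := by linarith
    rw [h']
    ring

theorem SBound_expand (h : SB Y) {P : Pl 3} {l N : ℕ} (hP : P ∈ Hm ℝ 3 l) (hl : l ≤ N) :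
    ∑ j ∈ lowI N, sI (Y j * P) • Y j = P := by
  conv_rhs => rw [h.expandH hP]
  symm
  refine Finset.sum_subset (fun j hj => ?_) fun j hj hj' => ?_
  · simp only [Finset.mem_filter, mem_lowI] at hj ⊢
    omega
  · have : dg j ≠ l := fun e => hj' (by simp [e])
    rw [sI_mul_of_ne (h.mem j) hP this, zero_smul]

theorem SBound_L2 (h : SB Y) (i : I0) : Lop 2 (Lop 2 (Y i)) = (-((i.1.2 : ℝ) ^ 2)) • Y i := by
  have e : ngI (ngI i) = i := by
    apply Subtype.ext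
    simp [ngI]
  rw [h.L3, map_smul, h.L3, e, smul_smul]
  congr 1
  simp only [ngI, Int.cast_neg]
  ring

theorem SBound_sec (h : SB Y) {f : Pl 3} {μ : ℕ} (hL : Lop 2 (Lop 2 f) = (-((μ : ℝ) ^ 2)) • f)
    (hr : ∀ x, ev f (rf x) = ev f x) {i : I0} (hi : sI (Y i * f) ≠ 0) : sec i = sec (top μ) := by
  have e1 : sI (Y i * Lop 2 (Lop 2 f)) = sI (Lop 2 (Lop 2 (Y i)) * f) := by
    rw [sI_mul_Lop, sI_mul_Lop, neg_neg]
  rw [hL, SBound_L2 h, mul_smul_comm, smul_mul_assoc, sI_smul, sI_smul] at e1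
  have e2 : ((i.1.2 : ℤ) : ℝ) ^ 2 = (μ : ℝ) ^ 2 := by
    have := mul_right_cancel₀ hi e1
    linarith
  have e3 : i.1.2.natAbs = μ := by
    have : i.1.2 ^ 2 = (μ : ℤ) ^ 2 := by exact_mod_cast e2
    have := Int.natAbs_eq_iff_sq_eq.2 this
    simpa using this
  have e4 : sI (Y i * f) = sgn i * sI (Y i * f) := by
    conv_lhs => rw [sI, ← sF_rf]
    rw [sI, ← sF_const_mul]
    congr 1
    funext x
    rw [ev_mul, ev_mul, hr, h.refl]
    ring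
  have e5 : sgn i = 1 := by
    have : (1 : ℝ) = sgn i := mul_right_cancel₀ hi (by rw [one_mul]; exact e4)
    exact_mod_cast this.symm
  have e6 : sgn (top μ) = 1 := by
    simp [sgn, top, ← two_mul]
  rw [sec, sec, e3, e5, e6]
  simp [top]

theorem SB.zonal_nonneg (h : SB Y) (κ : ℝ) (N : ℕ) (v : I0 → ℝ)
    (hv : ∀ i, v i ≠ 0 → i.1.2 = 0) :
    0 ≤ ∑ i ∈ lowI N, ∑ j ∈ lowI N, QD Y κ i j * v i * v j := by
  rw [SBound_quad κ (lowI N) v rfl]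
  have h1 : Lop 2 (∑ i ∈ lowI N, v i • Y i) = 0 := by
    rw [map_sum]
    refine Finset.sum_eq_zero fun i _ => ?_
    by_cases hi : v i = 0
    · simp [hi]
    · rw [map_smul, h.L3, hv i hi]
      simp
  rw [Lv_crs_aD, h1, mul_zero, neg_zero, mul_zero, sI_zero, mul_zero, mul_zero, zero_add]
  refine mul_nonneg (sq_nonneg _) ?_
  rw [← sI_zero]
  refine sI_mono fun x _ => ?_
  rw [mul_assoc, ev_mul, ev_mul]
  refine le_of_eq_of_le (by simp [ev]) (mul_nonneg ?_ (mul_self_nonneg _))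
  simp only [nP, ev, map_sum, map_pow]
  exact Finset.sum_nonneg fun k _ => sq_nonneg _

theorem SB.top_test (h : SB Y) {κ : ℝ} (hκ : 0 < κ) (hκ1 : κ ≤ 1) :
    ∃ l₀ : ℕ, 1 ≤ l₀ ∧ ∀ μ : ℕ, l₀ ≤ μ → ∃ v : I0 → ℝ, v ≠ 0 ∧
      (∀ i, v i ≠ 0 → (sec i = sec (top μ) ∧ 1 ≤ dg i) ∧ dg i ≤ μ + 1) ∧
      ∑ i ∈ lowI (μ + 1), lam 1 (dg i) * v i ^ 2
        + ∑ i ∈ lowI (μ + 1), ∑ j ∈ lowI (μ + 1), QD Y κ i j * v i * v j
        ≤ (μ : ℝ) * (μ - 2) * ∑ i ∈ lowI (μ + 1), v i ^ 2 := by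
  set t : ℝ := -4 / κ with ht
  have hκt : κ * t = -4 := by rw [ht]; field_simp
  refine ⟨⌈t ^ 2⌉₊ + 11, by omega, fun μ hμ => ?_⟩
  have hμ1 : 1 ≤ μ := by omega
  have hμt : t ^ 2 + 11 ≤ μ := by
    have h1 := Nat.le_ceil (t ^ 2)
    have h2 : ((⌈t ^ 2⌉₊ + 11 : ℕ) : ℝ) ≤ μ := by exact_mod_cast hμ
    push_cast at h2
    linarith
  have hCm := (zri_mem μ).1
  have hZm := SBound_zS_mem μ
  obtain ⟨hL1, hL2⟩ := Lop_zri μ
  obtain ⟨hD1, hD2⟩ := SBound_D_zri μ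
  have hrf := SBound_rf_zri μ
  have hCS := SBound_CS hμ1
  have m0 := SBound_moment μ 0
  have m2 := SBound_moment μ 2
  have ha0 : 0 < sI (X 2 ^ 0 * (zri μ).1 ^ 2) := by
    obtain ⟨c, hc, hc1, -⟩ := h.top_eq μ hμ1
    have h1 := h.orth (top μ) (top μ)
    rw [if_pos rfl, hc1, smul_mul_smul_comm, sI_smul] at h1
    rw [pow_zero, one_mul, sq]
    by_contra hneg
    have := mul_nonneg (mul_self_nonneg c) (neg_nonneg.2 (not_lt.1 hneg))
    linarith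
  generalize (zri μ).1 = P at *
  generalize (zri μ).2 = S at *
  set f : Pl 3 := P + t • (X 2 * S) with hf
  have hv : ∀ i, sI (Y i * f) = sI (Y i * P) + t * sI (Y i * (X 2 * S)) := fun i => by
    rw [hf, mul_add, mul_smul_comm, sI_add, sI_smul]
  have hdeg : f.totalDegree ≤ μ + 1 := by
    have h1 : P.IsHomogeneous μ := (Submodule.mem_inf.1 hCm).1
    have h2 : (X 2 * S).IsHomogeneous (μ + 1) := (Submodule.mem_inf.1 hZm).1
    refine (totalDegree_add _ _).trans (max_le (h1.totalDegree_le.trans (Nat.le_succ _)) ?_)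
    exact (totalDegree_smul_le _ _).trans h2.totalDegree_le
  have hF : f = ∑ i ∈ lowI (μ + 1), sI (Y i * f) • Y i := by
    simp only [hv, add_smul, mul_smul, Finset.sum_add_distrib, ← Finset.smul_sum]
    rw [SBound_expand h hCm (Nat.le_succ _), SBound_expand h hZm le_rfl]
  have hz : Lop 2 (X 2) = 0 := SBound_Lop_X.2.2
  have hLf : Lop 2 f = (-(μ : ℝ)) • S + t • (X 2 * ((μ : ℝ) • P)) := by
    rw [hf, map_add, map_smul, Lop_mul, hL1, hL2, hz, zero_mul, zero_add]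
  have hPZ : sI (P * (X 2 * S)) = 0 := sI_mul_of_ne hCm hZm (by omega)
  set a0 := sI (X 2 ^ 0 * P ^ 2) with ha0d
  set a2 := sI (X 2 ^ 2 * P ^ 2) with ha2d
  set a4 := sI (X 2 ^ 4 * P ^ 2) with ha4d
  have hPP : sI (P * P) = a0 := by rw [ha0d, pow_zero, one_mul, sq]
  have hZZ : sI (X 2 * S * (X 2 * S)) = a2 := by
    rw [ha2d, ← (hCS 2).2]
    congr 1
    ring
  have hbil : ∀ α β : ℝ, sI (f * (α • P + β • (X 2 * S))) = α * a0 + t * β * a2 := by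
    intro α β
    simp only [hf, mul_add, add_mul, mul_smul_comm, smul_mul_assoc, sI_add, sI_smul, hPP, hZZ, hPZ,
      mul_comm (X 2 * S) P]
    ring
  have hn : ∑ i ∈ lowI (μ + 1), sI (Y i * f) ^ 2 = a0 + t ^ 2 * a2 := by
    have h1 := h.parseval (Q := f) hdeg
    have h2 := hbil 1 t
    rw [one_smul, ← hf] at h2
    simp only [sq]
    rw [← h1, h2]
    ring
  have hq0 : ∑ i ∈ lowI (μ + 1), lam 1 (dg i) * sI (Y i * f) ^ 2 =
      lam 1 μ * a0 + t ^ 2 * lam 1 (μ + 1) * a2 := by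
    have h1 := h.parseval (Q := lam 1 μ • P + (t * lam 1 (μ + 1)) • (X 2 * S)) hdeg
    rw [hbil] at h1
    have h2 : ∀ i, sI (Y i * (lam 1 μ • P + (t * lam 1 (μ + 1)) • (X 2 * S))) =
        lam 1 (dg i) * sI (Y i * f) := by
      intro i
      rw [hv, mul_add, mul_smul_comm, mul_smul_comm, sI_add, sI_smul, sI_smul]
      by_cases e1 : dg i = μ
      · rw [sI_mul_of_ne (h.mem i) hZm (by omega), e1]
        ring
      · rw [sI_mul_of_ne (h.mem i) hCm e1]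
        by_cases e2 : dg i = μ + 1
        · rw [e2]
          ring
        · rw [sI_mul_of_ne (h.mem i) hZm e2]
          ring
    simp only [h2] at h1
    rw [show t ^ 2 * lam 1 (μ + 1) * a2 = t * (t * lam 1 (μ + 1)) * a2 by ring, h1]
    exact Finset.sum_congr rfl fun i _ => by ring
  have hDf : Lv aD f = -(C (μ : ℝ) * X 2 * P) +
      t • ((X 0 ^ 2 + X 1 ^ 2) * S + X 2 * -(C (μ : ℝ) * X 2 * S)) := by
    rw [hf, SBound_D_add, SBound_D_smul, SBound_D_mul, hD1, hD2, SBound_D_X.2.2]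
  have hq1 : sI (Lv aD f * Lv (crs aD) f) = t * μ * (a0 - a2) := by
    rw [Lv_crs_aD, hLf, hDf, sI_congr (Q :=
      C (-(μ : ℝ) ^ 2 - t ^ 2 * μ) * (X 2 ^ 1 * (P * S)) +
      C (t ^ 2 * μ * (μ + 1)) * (X 2 ^ 3 * (P * S)) + C (t * μ) * (X 2 ^ 0 * S ^ 2) +
      C (-(t * μ * (μ + 1))) * (X 2 ^ 2 * S ^ 2) + C (t * μ ^ 2) * (X 2 ^ 2 * P ^ 2))]
    · simp only [sI_add, SBound_sI_C_mul, (hCS _).1, (hCS _).2]
      ring
    · intro x hx
      have h := SBound_sphere hx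
      simp only [ev, map_add, map_mul, map_neg, map_pow, eval_C, eval_X, smul_eq_C_mul,
        Fin.sum_univ_three]
      have h' : x 0 ^ 2 + x 1 ^ 2 = 1 - x 2 ^ 2 := by linarith
      rw [h']
      ring
  have hq2 : sI (nP aD * Lv aD f * Lv aD f) ≤ μ ^ 2 * a2 + t ^ 2 * (a0 + μ ^ 2 * a4) := by
    rw [nP_aD, hDf]
    refine (sI_mono (Q :=
      C ((μ : ℝ) ^ 2) * (X 2 ^ 2 * P ^ 2) + C (-(2 * t * μ)) * (X 2 ^ 1 * (P * S)) +
      C (2 * t * μ * (μ + 1)) * (X 2 ^ 3 * (P * S)) + C (t ^ 2) * (X 2 ^ 0 * S ^ 2) +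
      C (t ^ 2 * μ ^ 2) * (X 2 ^ 4 * S ^ 2)) ?_).trans (le_of_eq ?_)
    · intro x hx
      have h := SBound_sphere hx
      simp only [ev, map_add, map_mul, map_neg, map_pow, eval_C, eval_X, smul_eq_C_mul,
        Fin.sum_univ_three]
      have h' : x 0 ^ 2 + x 1 ^ 2 = 1 - x 2 ^ 2 := by linarith
      have hs : 0 ≤ 1 - x 2 ^ 2 := by rw [← h']; positivity
      rw [h']
      generalize eval (fun i => x i) P = p
      generalize eval (fun i => x i) S = s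
      generalize x 2 = z at hs
      have hμ0 : (0 : ℝ) ≤ μ := Nat.cast_nonneg _
      have h1 : 0 ≤ z ^ 2 * (-(μ * z * p) + t * ((1 - z ^ 2) * s + z * -(μ * z * s))) ^ 2 := by
        positivity
      have h2 : 0 ≤ (t * s) ^ 2 * (z ^ 2 * (1 + (1 - z ^ 2)) + 2 * (1 - z ^ 2) * (μ * z ^ 2)) := by
        positivity
      nlinarith [h1, h2]
    · simp only [sI_add, SBound_sI_C_mul, (hCS _).1, (hCS _).2]
      ring
  simp only [Nat.cast_zero, zero_add, add_zero, one_mul, Nat.cast_ofNat] at m0 m2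
  have hμ0 : (1 : ℝ) ≤ μ := by exact_mod_cast hμ1
  have ha2 : 0 < a2 := by
    by_contra hneg
    have := mul_nonneg (show (0 : ℝ) ≤ 2 * μ + 3 by positivity) (neg_nonneg.2 (not_lt.1 hneg))
    linarith
  have ha4 : 0 ≤ a4 := by
    by_contra hneg
    have := mul_pos (show (0 : ℝ) < 2 * μ + 2 + 3 by positivity) (neg_pos.2 (not_le.1 hneg))
    linarith
  refine ⟨fun i => sI (Y i * f), fun h0 => ?_, fun i hi => ?_, ?_⟩
  · have h1 : ∀ i, sI (Y i * f) = 0 := fun i => congrFun h0 i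
    simp only [h1] at hn
    have : 0 ≤ t ^ 2 * a2 := by positivity
    simp at hn
    linarith
  · have hd : dg i = μ ∨ dg i = μ + 1 := by
      by_contra hc
      rw [not_or] at hc
      exact hi (by
        simp only
        rw [hv, sI_mul_of_ne (h.mem i) hCm hc.1, sI_mul_of_ne (h.mem i) hZm hc.2]; ring)
    refine ⟨⟨SBound_sec h ?_ (fun x => ?_) hi, by omega⟩, by omega⟩
    · rw [hLf, map_add, map_smul, map_smul, Lop_mul, map_smul, hL1, hL2, hz, hf]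
      simp only [smul_eq_C_mul, map_neg, map_pow]
      ring
    · rw [hf, ev_add, ev_add, ev_smul, ev_smul, ev_mul, ev_mul, (hrf x).1, (hrf x).2]
      simp [ev, rf]
  · rw [hq0, hn, SBound_quad κ _ _ hF, hq1]
    have h1 : κ ^ 2 * sI (nP aD * Lv aD f * Lv aD f) ≤
        κ ^ 2 * (μ ^ 2 * a2 + t ^ 2 * (a0 + μ ^ 2 * a4)) := by gcongr
    have h2 : κ ^ 2 * (μ ^ 2 * a2 + t ^ 2 * (a0 + μ ^ 2 * a4)) =
        κ ^ 2 * (μ ^ 2 * a2) + 16 * (a0 + μ ^ 2 * a4) := by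
      have : κ ^ 2 * t ^ 2 = 16 := by rw [← mul_pow, hκt]; norm_num
      rw [← this]
      ring
    have h3 : κ ^ 2 * (μ ^ 2 * a2) ≤ μ ^ 2 * a2 :=
      mul_le_of_le_one_left (by positivity) (pow_le_one₀ hκ.le hκ1)
    have h4 : κ * (2 * (t * μ * (a0 - a2))) = -8 * μ * (a0 - a2) := by
      have : κ * (2 * (t * μ * (a0 - a2))) = 2 * (κ * t) * μ * (a0 - a2) := by ring
      rw [this, hκt]
      ring
    have h5 : 2 * (μ ^ 2 * a4) ≤ 3 * (μ * a2) := by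
      have : 0 ≤ μ * a4 := by positivity
      have h6 : μ * ((2 + 1) * a2) = μ * ((2 * μ + 2 + 3) * a4) := by rw [m2]
      nlinarith
    have h7 : 0 ≤ a2 * (μ * (9 * μ - 97 - 7 * t ^ 2) + (μ - 1) * (48 + 2 * t ^ 2)) := by
      have : 0 ≤ 9 * μ - 97 - 7 * t ^ 2 := by nlinarith [sq_nonneg t]
      have : 0 ≤ (μ : ℝ) - 1 := by linarith
      positivity
    rw [h4]
    simp only [lam, Nat.cast_add, Nat.cast_one]
    rw [m0] at h1 h2 ⊢
    nlinarith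

end Crest.Agent.R202
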