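import Crest.Agent.R202.SSimpleAux

/-!
# R202/SSimple: the eigenvalues of the axisymmetric deformation are simple in each sector

Let `F = ser τ Y (fun _ => v)` (`τ = 0`, `tame_const`), `μ' = |m|` of the sector, `D = Lv aD`,
`L = Lop 2`, `s = x₀² + x₁²`, `ε = sgn`.  The equation holds for all `i` (outside the sector by
`mQ_aD_eq_zero`, for `i0` by `mQ_i0`), so by `ser_expand` the series of
`(op0 + κ op1 aD + κ² op2 aD) Y` equals `μ F`.  On the sphere `s Σ Lₖ² = D² + L²`,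
`Σₖ Lₖ (aD k φ) = D φ - 2 z φ`, `D s = -2 z s`, `Σₖ Lₖ (crs aD k φ) = -L φ`, hence
`s (op0 + κ op1 + κ² op2) f = -D ((1 + κ² s²) D f) - L² f + κ (D (s L f) + s L D f)`
(prove it for polynomials `f`, evaluated on the sphere; `[L, D] = 0`).  Along
`p(η) = (sech η, 0, tanh η)`, `p' = Σ aD k (p) Bₖ p`, so `d/dη (ser P w ∘ p) = ser (D P) w ∘ p`
(`Lf_ser`, `ser_mul`).  With `A = F ∘ p`, `Bf = (L F) ∘ p` (`L² F = -μ'² F`, `L F` has the coefficients
of another decaying solution, or just apply `L` to the identity), `E = 1 + κ² s²`: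
`-(E A')' + μ'² A + κ ((s Bf)' + s Bf') = μ s A`,
`-(E Bf')' + μ'² Bf - κ μ'² ((s A)' + s A') = μ s Bf`.
For two solutions, with `f = μ' A - i Bf`, `W = E (f₁ f₂' - f₂ f₁')` has `W' = 2 i κ μ' s W / E`, so
`|W|` is constant, and `W → 0` as `η → ∞` (`|D P| ≤ sech η · |L P|`, `abs_ser_le`); so `W = 0`.  At
`η = 0` the point is fixed by `rf`: for `ε = 1`, `A'(0) = Bf(0) = 0`, for `ε = -1`,
`A(0) = Bf'(0) = 0`; so `W(0) = 0` says that the two remaining Cauchy data are linearly dependent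
in `ℝ²`; a combination has zero Cauchy data, so `A = Bf = 0` (ODE uniqueness), then `F = 0` on the
sphere minus the poles (along rotations about the axis `F'' = -μ'² F`), and `sF_ser` gives the
coefficients.  For `μ' = 0`, `Bf = 0` and `W = E (A₁ A₂' - A₂ A₁')` is constant.
-/

open scoped ContDiff Topology Matrix
open Set Filter MvPolynomial

noncomputable section

namespace Crest.Agent.R202

/-! ### Curves on the sphere -/

theorem ss_hasDerivAt {a b c : ℝ → ℝ} {a' b' c' t : ℝ} (ha : HasDerivAt a a' t)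
    (hb : HasDerivAt b b' t) (hc : HasDerivAt c c' t) :
    HasDerivAt (fun t => (WithLp.toLp 2 ![a t, b t, c t] : E 3)) (WithLp.toLp 2 ![a', b', c']) t := by
  have h : HasDerivAt (fun t => ![a t, b t, c t]) ![a', b', c'] t := by
    refine hasDerivAt_pi.2 fun i => ?_
    fin_cases i
    exacts [ha, hb, hc]
  exact (PiLp.hasFDerivAt_toLp (𝕜 := ℝ) 2 _).comp_hasDerivAt t h

theorem ss_norm_sq (x : E 3) : ‖x‖ ^ 2 = x 0 ^ 2 + x 1 ^ 2 + x 2 ^ 2 := by
  rw [EuclideanSpace.real_norm_sq_eq, Fin.sum_univ_three]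

theorem ss_norm_one {x : E 3} : ‖x‖ = 1 ↔ x 0 ^ 2 + x 1 ^ 2 + x 2 ^ 2 = 1 := by
  rw [← ss_norm_sq, pow_eq_one_iff_of_nonneg (norm_nonneg x) two_ne_zero]

theorem ss_ne {x : E 3} (hx : ‖x‖ = 1) : x ≠ 0 := by
  rintro rfl
  simp at hx

/-- `sech` -/
def ssc (η : ℝ) : ℝ := (Real.cosh η)⁻¹

/-- `tanh` -/
def ssz (η : ℝ) : ℝ := Real.sinh η / Real.cosh η

theorem ssc_pos (η : ℝ) : 0 < ssc η := inv_pos.2 (Real.cosh_pos η)

theorem ssc_sq_add (η : ℝ) : ssc η ^ 2 + ssz η ^ 2 = 1 := by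
  have := (Real.cosh_pos η).ne'
  rw [ssc, ssz]
  field_simp
  rw [Real.cosh_sq]
  ring

theorem hasDerivAt_ssc (η : ℝ) : HasDerivAt ssc (-(ssc η * ssz η)) η := by
  have := (Real.cosh_pos η).ne'
  refine ((Real.hasDerivAt_cosh η).fun_inv this).congr_deriv ?_
  rw [ssc, ssz]
  field_simp

theorem hasDerivAt_ssz (η : ℝ) : HasDerivAt ssz (ssc η ^ 2) η := by
  have := (Real.cosh_pos η).ne'
  refine ((Real.hasDerivAt_sinh η).fun_div (Real.hasDerivAt_cosh η) this).congr_deriv ?_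
  rw [ssc]
  field_simp
  rw [Real.cosh_sq]
  ring

theorem tendsto_ssc : Tendsto ssc atTop (𝓝 0) := by
  refine tendsto_inv_atTop_zero.comp ?_
  refine tendsto_atTop_mono (fun η => ?_) (Real.tendsto_exp_atTop.atTop_div_const two_pos)
  rw [Real.cosh_eq]
  linarith [Real.exp_pos (-η)]

/-- the meridian -/
def ssMer (η : ℝ) : E 3 := WithLp.toLp 2 ![ssc η, 0, ssz η]

/-- the rotation about the axis -/
def ssRot (x : E 3) (φ : ℝ) : E 3 :=
  WithLp.toLp 2 ![Real.cos φ * x 0 - Real.sin φ * x 1, Real.sin φ * x 0 + Real.cos φ * x 1, x 2]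

theorem norm_ssMer (η : ℝ) : ‖ssMer η‖ = 1 := by
  rw [ss_norm_one]
  simpa [ssMer] using ssc_sq_add η

theorem ssRot_s (x : E 3) (φ : ℝ) : ssRot x φ 0 ^ 2 + ssRot x φ 1 ^ 2 = x 0 ^ 2 + x 1 ^ 2 := by
  simp only [ssRot, Matrix.cons_val_zero, Matrix.cons_val_one]
  linear_combination (x 0 ^ 2 + x 1 ^ 2) * Real.sin_sq_add_cos_sq φ

theorem ssRot_z (x : E 3) (φ : ℝ) : ssRot x φ 2 = x 2 := rfl

theorem norm_ssRot {x : E 3} (hx : ‖x‖ = 1) (φ : ℝ) : ‖ssRot x φ‖ = 1 := by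
  rw [ss_norm_one] at hx ⊢
  rw [ssRot_s, ssRot_z, hx]

theorem ssRot_zero (x : E 3) : ssRot x 0 = x := by
  ext i
  fin_cases i <;> simp [ssRot]

theorem rf_ssMer (η : ℝ) : rf (ssMer η) = ssMer (-η) := by
  ext i
  fin_cases i <;> simp [rf, ssMer, ssc, ssz, neg_div]

theorem hasDerivAt_ssMer (η : ℝ) : HasDerivAt ssMer
    (∑ k, (![ssMer η 1, -ssMer η 0, 0] : Fin 3 → ℝ) k • mv (Bm k) (ssMer η)) η := by
  refine (ss_hasDerivAt (hasDerivAt_ssc η) (hasDerivAt_const η (0 : ℝ))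
    (hasDerivAt_ssz η)).congr_deriv ?_
  ext i
  fin_cases i <;> simp [Fin.sum_univ_three, ssMer, Bm, sq]

theorem hasDerivAt_ssRot (x : E 3) (φ : ℝ) : HasDerivAt (ssRot x)
    (∑ k, (![0, 0, 1] : Fin 3 → ℝ) k • mv (Bm k) (ssRot x φ)) φ := by
  refine (ss_hasDerivAt (((Real.hasDerivAt_cos φ).mul_const _).fun_sub
    ((Real.hasDerivAt_sin φ).mul_const _)) (((Real.hasDerivAt_sin φ).mul_const _).fun_add
    ((Real.hasDerivAt_cos φ).mul_const _)) (hasDerivAt_const φ (x 2))).congr_deriv ?_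
  ext i
  fin_cases i <;> simp [Fin.sum_univ_three, ssRot, Bm] <;> ring

theorem exists_rot_mer {x : E 3} (hx : ‖x‖ = 1) (hs : x 0 ^ 2 + x 1 ^ 2 ≠ 0) :
    ∃ η φ, x = ssRot (ssMer η) φ := by
  rw [ss_norm_one] at hx
  set ζ : ℂ := ⟨x 0, x 1⟩ with hζ
  have hρ : ‖ζ‖ ^ 2 = x 0 ^ 2 + x 1 ^ 2 := by
    rw [Complex.sq_norm, Complex.normSq_apply]
    ring
  have hρ0 : 0 < ‖ζ‖ := by
    refine lt_of_le_of_ne (norm_nonneg _) fun h0 => hs ?_
    rw [← hρ, ← h0]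
    ring
  have hcosh : Real.cosh (Real.arsinh (x 2 / ‖ζ‖)) = ‖ζ‖⁻¹ := by
    rw [Real.cosh_arsinh, Real.sqrt_eq_iff_mul_self_eq (by positivity) (by positivity)]
    field_simp
    linarith
  have h1 : ssc (Real.arsinh (x 2 / ‖ζ‖)) = ‖ζ‖ := by rw [ssc, hcosh, inv_inv]
  have h2 : ssz (Real.arsinh (x 2 / ‖ζ‖)) = x 2 := by
    rw [ssz, hcosh, Real.sinh_arsinh]
    field_simp
  refine ⟨Real.arsinh (x 2 / ‖ζ‖), ζ.arg, ?_⟩
  have h3 : ‖ζ‖ * Real.cos ζ.arg = x 0 := Complex.norm_mul_cos_arg ζ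
  have h4 : ‖ζ‖ * Real.sin ζ.arg = x 1 := Complex.norm_mul_sin_arg ζ
  ext i
  fin_cases i
  · simp [ssRot, ssMer, h1, ← h3, mul_comm]
  · simp [ssRot, ssMer, h1, ← h4, mul_comm]
  · simp [ssRot, ssMer, h2]

/-! ### Series with constant coefficients -/

/-- the series with constant coefficients -/
def ssS (v : I0 → ℝ) (P : I0 → Pl 3) : E 3 → ℝ := ser (fun _ => 0) P fun _ => v

section series

variable {Y P Q : I0 → Pl 3} {v w : I0 → ℝ} {x y : E 3}

theorem ss_evn (ρ : Pl 3) (hx : ‖x‖ = 1) : evn ρ x = ev ρ x := by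
  rw [evn, hx, inv_one, one_smul]

theorem ssS_eq (hx : ‖x‖ = 1) : ssS v P x = ∑' i, v i * ev (P i) x := by
  simp only [ssS, ser, ss_evn _ hx]

theorem ssS_hasSum (h : SB Y) (hP : Good P) (hv : Dc fun _ => v) (hx : ‖x‖ = 1) :
    HasSum (fun i => v i * ev (P i) x) (ssS v P x) := by
  have := h.summable_ser hP hv 0 (ss_ne hx)
  simp only [ss_evn _ hx] at this
  rw [ssS_eq hx]
  exact this.hasSum

theorem ssS_of_hasSum (hx : ‖x‖ = 1) {f : I0 → ℝ} {a : ℝ} (hf : HasSum f a)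
    (he : ∀ i, v i * ev (P i) x = f i) : ssS v P x = a := by
  rw [ssS_eq hx, ← hf.tsum_eq]
  exact tsum_congr he

theorem ss_unique {f g : I0 → ℝ} {a b : ℝ} (hf : HasSum f a) (hg : HasSum g b)
    (he : ∀ i, f i = g i) : a = b := by
  rw [funext he] at hf
  exact hf.unique hg

theorem ssS_comb (h : SB Y) (hP : Good P) (hv : Dc fun _ => v) (hw : Dc fun _ => w) (hx : ‖x‖ = 1)
    (s t : ℝ) : ssS (fun i => s * v i + t * w i) P x = s * ssS v P x + t * ssS w P x :=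
  ssS_of_hasSum hx (((ssS_hasSum h hP hv hx).mul_left s).add ((ssS_hasSum h hP hw hx).mul_left t))
    fun i => by ring

theorem ssS_congr (hx : ‖x‖ = 1) (hy : ‖y‖ = 1) {c : ℝ}
    (he : ∀ i, v i ≠ 0 → ev (P i) x = c * ev (Q i) y) : ssS v P x = c * ssS v Q y := by
  rw [ssS_eq hx, ssS_eq hy, ← tsum_mul_left]
  refine tsum_congr fun i => ?_
  by_cases hi : v i = 0
  · simp [hi]
  · rw [he i hi]
    ring

theorem good_ssD (h : SB Y) (hP : Good P) : Good fun i => ssD (P i) := by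
  simp only [ssD, sub_eq_add_neg]
  exact ((h.good_Lop hP 0).mul (X 1)).add ((h.good_Lop hP 1).mul (X 0)).neg

theorem ssS_D (h : SB Y) (hP : Good P) (hv : Dc fun _ => v) (hx : ‖x‖ = 1) :
    ssS v (fun i => ssD (P i)) x =
      x 1 * ssS v (fun i => Lop 0 (P i)) x - x 0 * ssS v (fun i => Lop 1 (P i)) x :=
  ssS_of_hasSum hx (((ssS_hasSum h (h.good_Lop hP 0) hv hx).mul_left _).sub
    ((ssS_hasSum h (h.good_Lop hP 1) hv hx).mul_left _)) fun i => by
      simp only [ssD, ev, map_sub, map_mul, eval_X]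
      ring

theorem ssS_differentiableAt (h : SB Y) (hP : Good P) (hv : Tame fun _ => v) (hx : x ≠ 0) :
    DifferentiableAt ℝ (ssS v P) x :=
  ((h.contDiffOn_ser contDiffOn_const hP hv).contDiffAt (isOpen_ne.mem_nhds hx)).differentiableAt
    (by simp)

theorem ssS_deriv (h : SB Y) (hP : Good P) (hv : Tame fun _ => v) {c : ℝ → E 3} {t : ℝ}
    {a : Fin 3 → ℝ} (hx : c t ≠ 0) (hc : HasDerivAt c (∑ k, a k • mv (Bm k) (c t)) t) :
    HasDerivAt (fun t => ssS v P (c t)) (∑ k, a k * ssS v (fun i => Lop k (P i)) (c t)) t := by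
  refine ((ssS_differentiableAt h hP hv hx).hasFDerivAt.comp_hasDerivAt t hc).congr_deriv ?_
  rw [map_sum]
  refine Finset.sum_congr rfl fun k _ => ?_
  rw [map_smul, smul_eq_mul]
  exact congrArg _ (h.Lf_ser contDiffOn_const hP hv k hx)

theorem ssS_mer (h : SB Y) (hP : Good P) (hv : Tame fun _ => v) (η : ℝ) :
    HasDerivAt (fun η => ssS v P (ssMer η)) (ssS v (fun i => ssD (P i)) (ssMer η)) η := by
  refine (ssS_deriv h hP hv (ss_ne (norm_ssMer η)) (hasDerivAt_ssMer η)).congr_deriv ?_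
  rw [ssS_D h hP hv.dc (norm_ssMer η), Fin.sum_univ_three]
  simp only [Matrix.cons_val_zero, Matrix.cons_val_one, Matrix.cons_val]
  ring

theorem ssS_rot (h : SB Y) (hP : Good P) (hv : Tame fun _ => v) (hx : ‖x‖ = 1) (φ : ℝ) :
    HasDerivAt (fun φ => ssS v P (ssRot x φ)) (ssS v (fun i => Lop 2 (P i)) (ssRot x φ)) φ := by
  refine (ssS_deriv h hP hv (ss_ne (norm_ssRot hx φ)) (hasDerivAt_ssRot x φ)).congr_deriv ?_
  simp [Fin.sum_univ_three]

theorem ss_LL (h : SB Y) (i : I0) :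
    Lop 2 (Lop 2 (Y i)) = (-(((sec i).1 : ℝ) ^ 2)) • Y i := by
  have h1 : ngI (ngI i) = i := by
    ext <;> simp [ngI]
  have h2 : ((sec i).1 : ℝ) ^ 2 = (i.1.2 : ℝ) ^ 2 := by
    simp only [sec]
    rw [← Int.cast_natCast, Int.natCast_natAbs, Int.cast_abs, sq_abs]
  rw [h.L3, map_smul, h.L3, h1, smul_smul, h2]
  congr 1
  simp only [ngI, Int.cast_neg]
  ring

theorem ss_sgn_ngI (i : I0) : (i.1.2 : ℝ) * sgn (ngI i) = -(i.1.2 * sgn i) := by
  rcases lt_trichotomy i.1.2 0 with h | h | h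
  · simp [sgn, ngI, h, h.le]
  · simp [h]
  · simp [sgn, ngI, h, not_lt.2 h.le]

theorem ss_sgn (i : I0) : sgn i = 1 ∨ sgn i = -1 := by
  unfold sgn
  rcases neg_one_pow_eq_or ℤ (i.1.1 + i.1.2.natAbs) with h | h <;> rw [h] <;> split_ifs <;> simp

theorem ss_refl_L (h : SB Y) (i : I0) (x : E 3) :
    ev (Lop 2 (Y i)) (rf x) = -sgn i * ev (Lop 2 (Y i)) x := by
  rw [h.L3, ev_smul, ev_smul, h.refl]
  linear_combination -ev (Y (ngI i)) x * ss_sgn_ngI i

end series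

/-! ### Eigenvectors -/

/-- a decaying eigenvector in the sector `σ` -/
structure SEig (Y : I0 → Pl 3) (D : ℕ) (σ : ℕ × ℤ) (κ μ : ℝ) (v : I0 → ℝ) : Prop where
  supp : ∀ i, v i ≠ 0 → sec i = σ
  dec : ∃ c > 0, ∃ M, ∀ i, |v i| ≤ M * Real.exp (-(c * dg i))
  eq : ∀ i, lam 1 (dg i) * v i + act D (QD Y κ) v i = μ * v i

section eig

variable {Y : I0 → Pl 3} {D : ℕ} {σ : ℕ × ℤ} {κ μ : ℝ} {v w : I0 → ℝ} {x : E 3}

theorem SEig.mk' (h : SB Y) (hs : ∀ i, ¬ (sec i = σ ∧ 1 ≤ dg i) → v i = 0) {c M : ℝ} (hc : 0 < c)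
    (hM : ∀ i, |v i| ≤ M * Real.exp (-(c * dg i)))
    (hv : ∀ i, sec i = σ ∧ 1 ≤ dg i → lam 1 (dg i) * v i + act D (QD Y κ) v i = μ * v i) :
    SEig Y D σ κ μ v := by
  refine ⟨fun i hi => (not_imp_comm.1 (hs i) hi).1, ⟨c, hc, M, hM⟩, fun i => ?_⟩
  by_cases hi : sec i = σ ∧ 1 ≤ dg i
  · exact hv i hi
  rw [hs i hi, mul_zero, mul_zero, zero_add]
  refine Finset.sum_eq_zero fun j _ => ?_
  by_cases hj : v j = 0
  · rw [hj, mul_zero]
  have hj' := (not_imp_comm.1 (hs j) hj).1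
  have key : mQ1 Y aD i j = 0 ∧ mQ2 Y aD i j = 0 := by
    by_cases hij : sec i = sec j
    · have h0 : i = i0 := by
        obtain ⟨⟨l, m⟩, hlm⟩ := i
        have : l = 0 := by
          by_contra hl
          exact hi ⟨hij.trans hj', Nat.one_le_iff_ne_zero.2 hl⟩
        subst this
        have : m = 0 := by simpa using hlm
        subst this
        rfl
      rw [h0]
      exact ⟨(h.mQ_i0 aD j).2.1, (h.mQ_i0 aD j).2.2.2⟩
    · exact h.mQ_aD_eq_zero hij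
  simp [QD, key.1, key.2]

theorem SEig.tame (e : SEig Y D σ κ μ v) : Tame fun _ => v := by
  obtain ⟨c, hc, M, hM⟩ := e.dec
  exact tame_const hc hM

theorem SEig.dc (e : SEig Y D σ κ μ v) : Dc fun _ => v := e.tame.dc

theorem SEig.comb (e : SEig Y D σ κ μ v) (e' : SEig Y D σ κ μ w) (s t : ℝ) :
    SEig Y D σ κ μ fun i => s * v i + t * w i := by
  refine ⟨fun i hi => ?_, ?_, fun i => ?_⟩
  · by_contra hn
    have h1 : v i = 0 := by_contra fun h => hn (e.supp i h)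
    have h2 : w i = 0 := by_contra fun h => hn (e'.supp i h)
    simp [h1, h2] at hi
  · obtain ⟨c, hc, M, hM⟩ := e.dec
    obtain ⟨c', hc', M', hM'⟩ := e'.dec
    refine ⟨min c c', lt_min hc hc', |s| * |M| + |t| * |M'|, fun i => ?_⟩
    have h0 : (0 : ℝ) ≤ dg i := Nat.cast_nonneg _
    have h1 : |v i| ≤ |M| * Real.exp (-(min c c' * dg i)) := by
      refine (hM i).trans ?_
      gcongr
      exacts [le_abs_self _, min_le_left _ _]
    have h2 : |w i| ≤ |M'| * Real.exp (-(min c c' * dg i)) := by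
      refine (hM' i).trans ?_
      gcongr
      exacts [le_abs_self _, min_le_right _ _]
    refine (abs_add_le _ _).trans ?_
    rw [abs_mul, abs_mul, add_mul, mul_assoc, mul_assoc]
    gcongr
  · have : act D (QD Y κ) (fun i => s * v i + t * w i) i =
        s * act D (QD Y κ) v i + t * act D (QD Y κ) w i := by
      simp only [act, Finset.mul_sum, ← Finset.sum_add_distrib]
      exact Finset.sum_congr rfl fun j _ => by ring
    rw [this]
    linear_combination s * e.eq i + t * e'.eq i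

theorem SEig.LL (e : SEig Y D σ κ μ v) (h : SB Y) (hx : ‖x‖ = 1) :
    ssS v (fun i => Lop 2 (Lop 2 (Y i))) x = -((σ.1 : ℝ) ^ 2) * ssS v Y x :=
  ssS_congr hx hx fun i hi => by rw [ss_LL h, ev_smul, e.supp i hi]

theorem SEig.DLL (e : SEig Y D σ κ μ v) (h : SB Y) (hx : ‖x‖ = 1) :
    ssS v (fun i => ssD (Lop 2 (Lop 2 (Y i)))) x =
      -((σ.1 : ℝ) ^ 2) * ssS v (fun i => ssD (Y i)) x :=
  ssS_congr hx hx fun i hi => by rw [ss_LL h, ssD_smul, ev_smul, e.supp i hi]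

variable (h : SB Y) (hD : BandI D (mQ1 Y aD) ∧ BandI D (mQ2 Y aD))
  (hD' : ∀ P : Pl 3, (op1 aD P).totalDegree ≤ P.totalDegree + D ∧
    (op2 aD P).totalDegree ≤ P.totalDegree + D)
include h hD hD'

theorem SEig.eqA (e : SEig Y D σ κ μ v) (hx : ‖x‖ = 1) :
    (1 + κ ^ 2 * (x 0 ^ 2 + x 1 ^ 2) ^ 2) * ssS v (fun i => ssD (ssD (Y i))) x =
      ((σ.1 : ℝ) ^ 2 - μ * (x 0 ^ 2 + x 1 ^ 2)) * ssS v Y x
      + 2 * κ * (x 0 ^ 2 + x 1 ^ 2) * (ssS v (fun i => ssD (Lop 2 (Y i))) x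
        - x 2 * ssS v (fun i => Lop 2 (Y i)) x)
      + 4 * κ ^ 2 * x 2 * (x 0 ^ 2 + x 1 ^ 2) ^ 2 * ssS v (fun i => ssD (Y i)) x := by
  have gY := h.good
  have gL := h.good_Lop gY 2
  have hv := e.dc
  have hr := ss_norm_one.1 hx
  have sD := ssS_hasSum h (good_ssD h gY) hv hx
  have sDD := ssS_hasSum h (good_ssD h (good_ssD h gY)) hv hx
  have sL := ssS_hasSum h gL hv hx
  have sLL := ssS_hasSum h (h.good_Lop gL 2) hv hx
  have sDL := ssS_hasSum h (good_ssD h gL) hv hx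
  have s0 := ssS_hasSum h gY hv.lam hx
  have s1 := ssS_hasSum h gY (hv.act hD.1) hx
  have s2 := ssS_hasSum h gY (hv.act hD.2) hx
  have sY := ssS_hasSum h gY hv hx
  have e1 : ssS v (fun i => op1 aD (Y i)) x = ssS (act D (mQ1 Y aD) v) Y x :=
    h.ser_expand hD.1 (fun _ _ => rfl)
      (fun j => (hD' _).1.trans (Nat.add_le_add_right (h.totalDegree_le j) D)) hv (ss_ne hx)
  have e2 : ssS v (fun i => op2 aD (Y i)) x = ssS (act D (mQ2 Y aD) v) Y x :=
    h.ser_expand hD.2 (fun _ _ => rfl)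
      (fun j => (hD' _).2.trans (Nat.add_le_add_right (h.totalDegree_le j) D)) hv (ss_ne hx)
  have f1 : ssS v (fun i => op1 aD (Y i)) x = 2 * ssS v (fun i => ssD (Lop 2 (Y i))) x
      - 2 * x 2 * ssS v (fun i => Lop 2 (Y i)) x :=
    ssS_of_hasSum hx ((sDL.mul_left _).sub (sL.mul_left _)) fun i => by
      rw [ss_op1]
      simp only [ev, Fin.sum_univ_three, map_sub, map_mul, map_add, map_pow, eval_X, map_ofNat, hr]
      ring
  have f2 : ssS v (fun i => op2 aD (Y i)) x =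
      4 * x 2 * (x 0 ^ 2 + x 1 ^ 2) * ssS v (fun i => ssD (Y i)) x
        - (x 0 ^ 2 + x 1 ^ 2) * ssS v (fun i => ssD (ssD (Y i))) x :=
    ssS_of_hasSum hx ((sD.mul_left _).sub (sDD.mul_left _)) fun i => by
      rw [ss_op2]
      simp only [ev, Fin.sum_univ_three, map_sub, map_mul, map_add, map_pow, map_neg, eval_X,
        map_ofNat, hr]
      ring
  have f0 : (x 0 ^ 2 + x 1 ^ 2) * ssS (fun i => lam 1 (dg i) * v i) Y x =
      -(ssS v (fun i => ssD (ssD (Y i))) x + ssS v (fun i => Lop 2 (Lop 2 (Y i))) x) := by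
    refine ss_unique (s0.mul_left _) (sDD.add sLL).neg fun i => ?_
    have := congrArg (fun P => ev P x) (ss_op0 (Y i))
    rw [op0_of_mem (h.mem i)] at this
    simp only [ev_mul, ev_smul] at this
    simp only [ev, Fin.sum_univ_three, map_mul, map_add, map_pow, map_neg, eval_X, hr] at this ⊢
    linear_combination v i * this
  have g : ssS (fun i => lam 1 (dg i) * v i) Y x + κ * ssS (act D (mQ1 Y aD) v) Y x
      + κ ^ 2 * ssS (act D (mQ2 Y aD) v) Y x = μ * ssS v Y x := by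
    refine ss_unique ((s0.add (s1.mul_left _)).add (s2.mul_left _)) (sY.mul_left _) fun i => ?_
    have h1 : act D (QD Y κ) v i = κ * act D (mQ1 Y aD) v i + κ ^ 2 * act D (mQ2 Y aD) v i := by
      simp only [act, QD, Finset.mul_sum, ← Finset.sum_add_distrib, Matrix.add_apply,
        Matrix.smul_apply, smul_eq_mul]
      exact Finset.sum_congr rfl fun j _ => by ring
    have h2 := e.eq i
    rw [h1] at h2
    linear_combination ev (Y i) x * h2
  rw [e.LL h hx] at f0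
  rw [← e1, ← e2, f1, f2] at g
  linear_combination f0 - (x 0 ^ 2 + x 1 ^ 2) * g

theorem SEig.eqB (e : SEig Y D σ κ μ v) (hx : ‖x‖ = 1) :
    (1 + κ ^ 2 * (x 0 ^ 2 + x 1 ^ 2) ^ 2) * ssS v (fun i => ssD (ssD (Lop 2 (Y i)))) x =
      ((σ.1 : ℝ) ^ 2 - μ * (x 0 ^ 2 + x 1 ^ 2)) * ssS v (fun i => Lop 2 (Y i)) x
      - 2 * κ * (x 0 ^ 2 + x 1 ^ 2) * (σ.1 : ℝ) ^ 2 * (ssS v (fun i => ssD (Y i)) x
        - x 2 * ssS v Y x)
      + 4 * κ ^ 2 * x 2 * (x 0 ^ 2 + x 1 ^ 2) ^ 2 * ssS v (fun i => ssD (Lop 2 (Y i))) x := by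
  have gY := h.good
  have gL := h.good_Lop gY 2
  have hv := e.tame
  have d1 := (ssS_rot h (good_ssD h (good_ssD h gY)) hv hx 0).const_mul
    (1 + κ ^ 2 * (x 0 ^ 2 + x 1 ^ 2) ^ 2)
  have d2 := (((ssS_rot h gY hv hx 0).const_mul ((σ.1 : ℝ) ^ 2 - μ * (x 0 ^ 2 + x 1 ^ 2))).fun_add
    (((ssS_rot h (good_ssD h gL) hv hx 0).fun_sub
      ((ssS_rot h gL hv hx 0).const_mul (x 2))).const_mul (2 * κ * (x 0 ^ 2 + x 1 ^ 2)))).fun_add
    ((ssS_rot h (good_ssD h gY) hv hx 0).const_mul (4 * κ ^ 2 * x 2 * (x 0 ^ 2 + x 1 ^ 2) ^ 2))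
  have key := d1.unique (d2.congr_of_eventuallyEq (Eventually.of_forall fun φ => by
    have := e.eqA h hD hD' (norm_ssRot hx φ)
    rwa [ssRot_s, ssRot_z] at this))
  simp only [ssRot_zero, ss_L_D] at key
  rw [e.LL h hx, e.DLL h hx] at key
  linear_combination key

theorem SEig.sol (e : SEig Y D σ κ μ v) :
    SSol σ.1 κ μ (fun η => ssc η ^ 2) ssz (fun η => 1 + κ ^ 2 * (ssc η ^ 2) ^ 2) ssc
      (fun η => ssS v Y (ssMer η)) (fun η => ssS v (fun i => ssD (Y i)) (ssMer η))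
      (fun η => ssS v (fun i => Lop 2 (Y i)) (ssMer η))
      (fun η => ssS v (fun i => ssD (Lop 2 (Y i))) (ssMer η)) := by
  have gY := h.good
  have gL := h.good_Lop gY 2
  have hv := e.tame
  have hE : ∀ η, HasDerivAt (fun η => 1 + κ ^ 2 * (ssc η ^ 2) ^ 2)
      (-(4 * κ ^ 2 * ssz η * (ssc η ^ 2) ^ 2)) η := fun η => by
    refine (((((hasDerivAt_ssc η).fun_pow 2).fun_pow 2).const_mul (κ ^ 2)).const_add 1).congr_deriv ?_
    simp only [Nat.cast_ofNat, Nat.add_one_sub_one, pow_one]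
    ring
  have p0 : ∀ η, ssMer η 0 = ssc η := fun _ => rfl
  have p1 : ∀ η, ssMer η 1 = 0 := fun _ => rfl
  have p2 : ∀ η, ssMer η 2 = ssz η := fun _ => rfl
  refine ⟨ssS_mer h gY hv, ssS_mer h gL hv, fun η => ?_, fun η => ?_, ?_⟩
  · refine ((hE η).fun_mul (ssS_mer h (good_ssD h gY) hv η)).congr_deriv ?_
    have := e.eqA h hD hD' (norm_ssMer η)
    rw [p0, p1, p2] at this
    linear_combination this
  · refine ((hE η).fun_mul (ssS_mer h (good_ssD h gL) hv η)).congr_deriv ?_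
    have := e.eqB h hD hD' (norm_ssMer η)
    rw [p0, p1, p2] at this
    linear_combination this
  · obtain ⟨c, hc, M, hM⟩ := e.dec
    have bd : ∀ {P : I0 → Pl 3}, Good P → ∃ C : ℝ, ∀ η, |ssS v P (ssMer η)| ≤ C := fun hP => by
      obtain ⟨C, -, hC⟩ := h.abs_ser_le hP hc
      exact ⟨C * M, fun η => hC _ _ _ M (ss_ne (norm_ssMer η)) hM⟩
    have bdD : ∀ {P : I0 → Pl 3}, Good P → ∃ C : ℝ, ∀ η,
        |ssS v (fun i => ssD (P i)) (ssMer η)| ≤ C * ssc η := fun hP => by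
      obtain ⟨C, hC⟩ := bd (h.good_Lop hP 1)
      refine ⟨C, fun η => ?_⟩
      rw [ssS_D h hP hv.dc (norm_ssMer η), p0, p1, zero_mul, zero_sub, abs_neg, abs_mul,
        abs_of_pos (ssc_pos η), mul_comm]
      exact mul_le_mul_of_nonneg_right (hC η) (ssc_pos η).le
    obtain ⟨C₁, h₁⟩ := bd gY
    obtain ⟨C₂, h₂⟩ := bd gL
    obtain ⟨C₃, h₃⟩ := bdD gY
    obtain ⟨C₄, h₄⟩ := bdD gL
    refine ⟨max (max C₁ C₂) (max C₃ C₄), fun η => ⟨(h₁ η).trans (by simp), (h₂ η).trans (by simp),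
      (h₃ η).trans ?_, (h₄ η).trans ?_⟩⟩
    · exact mul_le_mul_of_nonneg_right (by simp) (ssc_pos η).le
    · exact mul_le_mul_of_nonneg_right (by simp) (ssc_pos η).le

omit hD hD' in
theorem SEig.par (e : SEig Y D σ κ μ v) (η : ℝ) :
    ssS v Y (ssMer (-η)) = σ.2 * ssS v Y (ssMer η) ∧
      ssS v (fun i => Lop 2 (Y i)) (ssMer (-η)) = -σ.2 * ssS v (fun i => Lop 2 (Y i)) (ssMer η) := by
  refine ⟨ssS_congr (norm_ssMer _) (norm_ssMer _) fun i hi => ?_,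
    ssS_congr (norm_ssMer _) (norm_ssMer _) fun i hi => ?_⟩
  · rw [← rf_ssMer, h.refl, ← e.supp i hi]
    rfl
  · rw [← rf_ssMer, ss_refl_L h, ← e.supp i hi]
    rfl

theorem SEig.zero (e : SEig Y D σ κ μ v) (h1 : ssS v Y (ssMer 0) = 0)
    (h2 : ssS v (fun i => ssD (Y i)) (ssMer 0) = 0)
    (h3 : ssS v (fun i => Lop 2 (Y i)) (ssMer 0) = 0)
    (h4 : ssS v (fun i => ssD (Lop 2 (Y i))) (ssMer 0) = 0) (i : I0) : v i = 0 := by
  have gY := h.good
  have gL := h.good_Lop gY 2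
  have hv := e.tame
  have hpos : ∀ η, 0 ≤ η → ssS v Y (ssMer η) = 0 ∧ ssS v (fun i => Lop 2 (Y i)) (ssMer η) = 0 :=
    fun η hη => (e.sol h hD hD').zero (fun η => le_add_of_nonneg_right (by positivity))
      (fun η => by
        rw [abs_of_nonneg (sq_nonneg _)]
        linarith [ssc_sq_add η, sq_nonneg (ssz η)])
      (fun η => by
        rw [← sq_le_one_iff_abs_le_one]
        linarith [ssc_sq_add η, sq_nonneg (ssc η)]) h1 h2 h3 h4 hη
  have hmer : ∀ η, ssS v Y (ssMer η) = 0 ∧ ssS v (fun i => Lop 2 (Y i)) (ssMer η) = 0 := fun η => by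
    rcases le_total 0 η with hη | hη
    · exact hpos η hη
    · have h5 := e.par h (-η)
      have h6 := hpos (-η) (neg_nonneg.2 hη)
      rw [neg_neg, h6.1, h6.2, mul_zero, mul_zero] at h5
      exact h5
  have hgen : ∀ x : E 3, ‖x‖ = 1 → x 0 ^ 2 + x 1 ^ 2 ≠ 0 → ssS v Y x = 0 := fun x hx hs => by
    obtain ⟨η, φ, rfl⟩ := exists_rot_mer hx hs
    refine ss_rot_zero (m := σ.1) (ssS_rot h gY hv (norm_ssMer η)) (fun φ => ?_) ?_ ?_ φ
    · have := ssS_rot h gL hv (norm_ssMer η) φ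
      rwa [e.LL h (norm_ssRot (norm_ssMer η) φ)] at this
    · rw [ssRot_zero]
      exact (hmer η).1
    · rw [ssRot_zero]
      exact (hmer η).2
  have hall : ∀ x : E 3, ‖x‖ = 1 → ssS v Y x = 0 := fun x hx => by
    by_cases hs : x 0 ^ 2 + x 1 ^ 2 = 0
    swap
    · exact hgen x hx hs
    have hr := ss_norm_one.1 hx
    have x0 : x 0 = 0 := by nlinarith [sq_nonneg (x 0), sq_nonneg (x 1)]
    have x1 : x 1 = 0 := by nlinarith [sq_nonneg (x 0), sq_nonneg (x 1)]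
    set c : ℝ → E 3 := fun t => WithLp.toLp 2 ![Real.sin t, 0, x 2 * Real.cos t] with hc
    have c0 : c 0 = x := by
      ext i
      fin_cases i <;> simp [hc, x0, x1]
    have hcc : ContinuousAt c 0 := (ss_hasDerivAt (Real.hasDerivAt_sin 0)
      (hasDerivAt_const 0 (0 : ℝ)) ((Real.hasDerivAt_cos 0).const_mul _)).continuousAt
    have t1 : Tendsto (fun t => ssS v Y (c t)) (𝓝[>] 0) (𝓝 (ssS v Y x)) := by
      have h5 := (ssS_differentiableAt h gY hv (ss_ne hx)).continuousAt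
      rw [← c0] at h5 ⊢
      exact (h5.tendsto.comp hcc.tendsto).mono_left nhdsWithin_le_nhds
    refine tendsto_nhds_unique t1 (tendsto_const_nhds.congr' ?_)
    filter_upwards [Ioo_mem_nhdsGT Real.pi_pos] with t ht
    refine (hgen _ ?_ ?_).symm
    · rw [ss_norm_one]
      change Real.sin t ^ 2 + 0 ^ 2 + (x 2 * Real.cos t) ^ 2 = 1
      linear_combination Real.sin_sq_add_cos_sq t + Real.cos t ^ 2 * (hr - hs)
    · change Real.sin t ^ 2 + 0 ^ 2 ≠ 0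
      have := Real.sin_pos_of_pos_of_lt_pi ht.1 ht.2
      positivity
  have key := h.sF_ser (τ := fun _ => 0) hv.dc i one_pos
  rw [← key, sF_congr (g := fun _ => 0 * 0) fun x hx => ?_, sF_const_mul 0 fun _ => 0, zero_mul]
  rw [one_smul]
  change _ * ssS v Y x = _
  rw [hall x hx, mul_zero, mul_zero]

theorem SEig.dep (e : SEig Y D σ κ μ v) (e' : SEig Y D σ κ μ w) : ∃ s t : ℝ, (s ≠ 0 ∨ t ≠ 0) ∧
    s * ssS v Y (ssMer 0) + t * ssS w Y (ssMer 0) = 0 ∧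
    s * ssS v (fun i => ssD (Y i)) (ssMer 0) + t * ssS w (fun i => ssD (Y i)) (ssMer 0) = 0 ∧
    s * ssS v (fun i => Lop 2 (Y i)) (ssMer 0) + t * ssS w (fun i => Lop 2 (Y i)) (ssMer 0) = 0 ∧
    s * ssS v (fun i => ssD (Lop 2 (Y i))) (ssMer 0)
      + t * ssS w (fun i => ssD (Lop 2 (Y i))) (ssMer 0) = 0 := by
  have hE : ∀ η, |1 + κ ^ 2 * (ssc η ^ 2) ^ 2| ≤ 1 + κ ^ 2 := fun η => by
    rw [abs_of_nonneg (by positivity)]
    have h1 : ssc η ^ 2 ≤ 1 := by linarith [ssc_sq_add η, sq_nonneg (ssz η)]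
    have h2 : (ssc η ^ 2) ^ 2 ≤ 1 := pow_le_one₀ (sq_nonneg _) h1
    nlinarith [sq_nonneg κ]
  have hE0 : 1 + κ ^ 2 * (ssc 0 ^ 2) ^ 2 ≠ 0 := by positivity
  have S := e.sol h hD hD'
  have S' := e'.sol h hD hD'
  by_cases hm : σ.1 = 0
  · have hB : ∀ {u : I0 → ℝ}, SEig Y D σ κ μ u → ∀ η,
        ssS u (fun i => Lop 2 (Y i)) (ssMer η) = 0 ∧
          ssS u (fun i => ssD (Lop 2 (Y i))) (ssMer η) = 0 := fun {u} eu η => by
      have h0 : ∀ i, u i ≠ 0 → Lop 2 (Y i) = (0 : ℝ) • Y i := fun i hi => by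
        have h1 : i.1.2.natAbs = 0 := (congrArg Prod.fst (eu.supp i hi)).trans hm
        rw [h.L3, Int.natAbs_eq_zero.1 h1]
        simp
      constructor
      · rw [ssS_congr (norm_ssMer η) (norm_ssMer η) (Q := Y) (c := 0) fun i hi => by
          rw [h0 i hi, ev_smul], zero_mul]
      · rw [ssS_congr (norm_ssMer η) (norm_ssMer η) (Q := fun i => ssD (Y i)) (c := 0) fun i hi => by
          rw [h0 i hi, ssD_smul, ev_smul], zero_mul]
    obtain ⟨s, t, hst, h1, h2⟩ := ss_dep (S.wr0 S' hE hE0 tendsto_ssc (hB e) (hB e'))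
    refine ⟨s, t, hst, h1, h2, ?_, ?_⟩
    · rw [(hB e 0).1, (hB e' 0).1, mul_zero, mul_zero, add_zero]
    · rw [(hB e 0).2, (hB e' 0).2, mul_zero, mul_zero, add_zero]
  have W := S.wr S' hE hE0 tendsto_ssc (Nat.cast_ne_zero.2 hm)
  have even : ∀ {f f' : ℝ → ℝ}, (∀ η, HasDerivAt f (f' η) η) → (∀ η, f (-η) = f η) → f' 0 = 0 :=
    fun {f f'} hf hp => by
      have h1 : HasDerivAt (fun η => f (-η)) (f' (-0) * -1) 0 :=
        (hf (-0)).comp (0 : ℝ) (hasDerivAt_neg (0 : ℝ))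
      rw [funext hp, neg_zero] at h1
      linarith [h1.unique (hf 0)]
  by_cases hε : σ.2 = 1
  · have hp : ∀ {u : I0 → ℝ}, SEig Y D σ κ μ u → ssS u (fun i => ssD (Y i)) (ssMer 0) = 0 ∧
        ssS u (fun i => Lop 2 (Y i)) (ssMer 0) = 0 := fun {u} eu => by
      refine ⟨even (eu.sol h hD hD').dA fun η => ?_, ?_⟩
      · rw [(eu.par h η).1, hε, Int.cast_one, one_mul]
      · have := (eu.par h 0).2
        rw [neg_zero, hε, Int.cast_one] at this
        linarith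
    simp only [(hp e).1, (hp e).2, (hp e').1, (hp e').2, mul_zero, add_zero, sub_zero] at W ⊢
    obtain ⟨s, t, hst, h1, h2⟩ := ss_dep W
    exact ⟨s, t, hst, h1, trivial, trivial, h2⟩
  by_cases hε' : σ.2 = -1
  · have hp : ∀ {u : I0 → ℝ}, SEig Y D σ κ μ u → ssS u Y (ssMer 0) = 0 ∧
        ssS u (fun i => ssD (Lop 2 (Y i))) (ssMer 0) = 0 := fun {u} eu => by
      refine ⟨?_, even (eu.sol h hD hD').dB fun η => ?_⟩
      · have := (eu.par h 0).1
        rw [neg_zero, hε', Int.cast_neg, Int.cast_one] at this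
        linarith
      · rw [(eu.par h η).2, hε', Int.cast_neg, Int.cast_one, neg_neg, one_mul]
    simp only [(hp e).1, (hp e).2, (hp e').1, (hp e').2, mul_zero, add_zero, sub_zero,
      zero_add] at W ⊢
    obtain ⟨s, t, hst, h1, h2⟩ := ss_dep W
    exact ⟨s, t, hst, trivial, h2, h1, trivial⟩
  · have h0 : v = fun _ => 0 := funext fun i => by_contra fun hi => by
      have h1 : sgn i = σ.2 := congrArg Prod.snd (e.supp i hi)
      rcases ss_sgn i with h2 | h2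
      exacts [hε (h1 ▸ h2), hε' (h1 ▸ h2)]
    refine ⟨1, 0, Or.inl one_ne_zero, ?_⟩
    simp [h0, ssS, ser]

end eig

theorem SB.simple {Y : I0 → Pl 3} (h : SB Y) {D : ℕ} (hD : BandI D (mQ1 Y aD) ∧ BandI D (mQ2 Y aD))
    (hD' : ∀ P : Pl 3, (op1 aD P).totalDegree ≤ P.totalDegree + D ∧
      (op2 aD P).totalDegree ≤ P.totalDegree + D)
    (σ : ℕ × ℤ) (κ μ c M : ℝ) (v w : I0 → ℝ) (hc : 0 < c)
    (hs : ∀ i, ¬ (sec i = σ ∧ 1 ≤ dg i) → v i = 0 ∧ w i = 0)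
    (hM : ∀ i, |v i| ≤ M * Real.exp (-(c * dg i)) ∧ |w i| ≤ M * Real.exp (-(c * dg i)))
    (hv : ∀ i, sec i = σ ∧ 1 ≤ dg i → lam 1 (dg i) * v i + act D (QD Y κ) v i = μ * v i)
    (hw : ∀ i, sec i = σ ∧ 1 ≤ dg i → lam 1 (dg i) * w i + act D (QD Y κ) w i = μ * w i) :
    ∃ s t : ℝ, (s ≠ 0 ∨ t ≠ 0) ∧ ∀ i, s * v i + t * w i = 0 := by
  have ev := SEig.mk' h (fun i hi => (hs i hi).1) hc (fun i => (hM i).1) hv
  have ew := SEig.mk' h (fun i hi => (hs i hi).2) hc (fun i => (hM i).2) hw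
  obtain ⟨s, t, hst, h1, h2, h3, h4⟩ := ev.dep h hD hD' ew
  refine ⟨s, t, hst, fun i => ?_⟩
  have gY := h.good
  have gL := h.good_Lop gY 2
  have hp := norm_ssMer 0
  refine (ev.comb ew s t).zero h hD hD' ?_ ?_ ?_ ?_ i
  · rw [ssS_comb h gY ev.dc ew.dc hp, h1]
  · rw [ssS_comb h (good_ssD h gY) ev.dc ew.dc hp, h2]
  · rw [ssS_comb h gL ev.dc ew.dc hp, h3]
  · rw [ssS_comb h (good_ssD h gL) ev.dc ew.dc hp, h4]

end Crest.Agent.R202
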