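import Crest.Agent.R202.Spec
import Crest.Agent.R202.SSimple
import Crest.Agent.R202.SBound

/-!
# R202/SCuts: the cut functions

`l₀` from `top_test`.  Let `x* = (5/4) λ_L + 1 < (3/4) λ_{2L+1}`, `γs = rt b x*`.  For a sector `σ`
of a mode of degree in `[1, 2L]` and a level `l`, `branches` (with `S = {sec = σ, 1 ≤ dg}`,
`exists_sec_gt`, `SB.simple`) gives `lo < hi`.  `select_cut` is applied to `(lo, min hi x*)` for
the upper cuts, `(lo, hi)` for the lower cuts, `(max lo x*, hi)` for the cuts at `2L`; end point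
constraints: `γu (top (l+1))` below and `γl (zon l)` above the level `x = l²`
(`lo κB ≤ (l+1)(l-1)` by `top_test`, `hi κB ≥ l (l+1)` by `zonal_nonneg`).  For the remaining
`σ` (all its modes have degree `> 2L`) take the constant `γs`; the gap follows from
`v · (A - x*) v ≥ ((3/4) λ_{2L+1} - x*) |v|²`.  Finally take the minimum `g` and the maxima `γM`,
`N₀` over finitely many data.
-/

open scoped ContDiff Topology Matrix
open Set Filter MvPolynomial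

noncomputable section

namespace Crest.Agent.R202

theorem SCuts_pos_min {a b : ℝ} (hab : a ≤ b) {f : ℝ → ℝ} (hf : ContinuousOn f (Icc a b))
    (h : ∀ t ∈ Icc a b, 0 < f t) : ∃ g : ℝ, 0 < g ∧ ∀ t ∈ Icc a b, g ≤ f t := by
  obtain ⟨t, ht, hm⟩ := isCompact_Icc.exists_isMinOn (nonempty_Icc.2 hab) hf
  exact ⟨f t, h t ht, fun u hu => hm hu⟩

/-- a smooth cut between two continuous functions with an end point constraint
(`(1-w) lo + w hi` with a constant `w`, `rt b`, Weierstrass approximation) -/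
theorem select_cut {b κB : ℝ} (hb : 0 < b) (hκB : 0 ≤ κB) {lo hi : ℝ → ℝ}
    (hlo : ContinuousOn lo (Icc 0 κB)) (hhi : ContinuousOn hi (Icc 0 κB))
    (h : ∀ κ ∈ Icc 0 κB, 0 ≤ lo κ ∧ lo κ < hi κ) {x y : ℝ} (hxy : x < y) (hx : x < hi κB)
    (hy : lo κB < y) :
    ∃ (γ : ℝ → ℝ) (g M : ℝ), ContDiff ℝ 1 γ ∧ 0 < g ∧ x + g ≤ γ κB * (b + γ κB) ∧
      γ κB * (b + γ κB) + g ≤ y ∧ ∀ κ ∈ Icc 0 κB, 0 ≤ γ κ ∧ γ κ ≤ M ∧ |deriv γ κ| ≤ M ∧
        lo κ + 2 * g ≤ γ κ * (b + γ κ) ∧ γ κ * (b + γ κ) + 2 * g ≤ hi κ := by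
  have hB : κB ∈ Icc 0 κB := ⟨hκB, le_rfl⟩
  obtain ⟨z, hz1, hz2⟩ : ∃ z, max x (lo κB) < z ∧ z < min y (hi κB) :=
    exists_between (max_lt (lt_min hxy hx) (lt_min hy (h κB hB).2))
  rw [max_lt_iff] at hz1
  rw [lt_min_iff] at hz2
  have hz0 : 0 ≤ z := (h κB hB).1.trans hz1.2.le
  have hmono : ∀ {u v : ℝ}, 0 ≤ u → u < v → rt b u < rt b v := fun {u v} hu huv => by
    rw [rt_lt_iff hb hu (rt_nonneg (hu.trans huv.le)), rt_sq (hu.trans huv.le)]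
    exact huv
  set A : ℝ → ℝ := fun κ => rt b (lo κ) with hA
  set Cc : ℝ → ℝ := fun κ => rt b (hi κ) with hC
  have hAc : ContinuousOn A (Icc 0 κB) := (continuous_rt b).comp_continuousOn hlo
  have hCc : ContinuousOn Cc (Icc 0 κB) := (continuous_rt b).comp_continuousOn hhi
  have hAC : ∀ κ ∈ Icc 0 κB, A κ < Cc κ := fun κ hκ => hmono (h κ hκ).1 (h κ hκ).2
  have h1 : A κB < rt b z := hmono (h κB hB).1 hz1.2
  have h2 : rt b z < Cc κB := hmono hz0 hz2.2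
  set w : ℝ := (rt b z - A κB) / (Cc κB - A κB) with hw
  have hd : 0 < Cc κB - A κB := by linarith
  have hw0 : 0 < w := div_pos (by linarith) hd
  have hw1 : w < 1 := (div_lt_one hd).2 (by linarith)
  set r : ℝ → ℝ := fun κ => (1 - w) * A κ + w * Cc κ with hr
  have hrc : ContinuousOn r (Icc 0 κB) :=
    (continuousOn_const.mul hAc).add (continuousOn_const.mul hCc)
  have hrB : r κB = rt b z := by
    have : w * (Cc κB - A κB) = rt b z - A κB := div_mul_cancel₀ _ hd.ne'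
    simp only [hr]
    linarith
  obtain ⟨ε₁, hε₁, H₁⟩ := SCuts_pos_min hκB (hrc.sub hAc) fun κ hκ => by
    have := mul_pos hw0 (sub_pos.2 (hAC κ hκ))
    simp only [hr, Pi.sub_apply]
    linarith
  obtain ⟨ε₂, hε₂, H₂⟩ := SCuts_pos_min hκB (hCc.sub hrc) fun κ hκ => by
    have := mul_pos (sub_pos.2 hw1) (sub_pos.2 (hAC κ hκ))
    simp only [hr, Pi.sub_apply]
    linarith
  have hcont : ContinuousAt (fun t : ℝ => t * (b + t)) (rt b z) := by fun_prop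
  have hval : rt b z * (b + rt b z) = z := by linarith [rt_sq (b := b) hz0]
  obtain ⟨ε₃, hε₃, H₃⟩ := Metric.eventually_nhds_iff.1
    (hcont.eventually (Ioo_mem_nhds (a := x) (b := y) (hz1.1.trans_eq hval.symm)
      (hval.trans_lt hz2.1)))
  obtain ⟨p, hp⟩ := exists_polynomial_near_of_continuousOn 0 κB r hrc (min ε₁ (min ε₂ ε₃))
    (lt_min hε₁ (lt_min hε₂ hε₃))
  set γ : ℝ → ℝ := fun t => p.eval t with hγ
  have hsm : ContDiff ℝ 1 γ := by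
    have := p.contDiff_aeval (𝕜 := ℝ) 1
    simpa [Polynomial.coe_aeval_eq_eval] using this
  have hγc : Continuous γ := hsm.continuous
  have hγd : Continuous (deriv γ) := hsm.continuous_deriv le_rfl
  have hbt : ∀ κ ∈ Icc 0 κB, A κ < γ κ ∧ γ κ < Cc κ := fun κ hκ => by
    have h3 := abs_lt.1 (hp κ hκ)
    have h4 := H₁ κ hκ
    have h5 := H₂ κ hκ
    have h6 := min_le_left ε₁ (min ε₂ ε₃)
    have h7 := (min_le_right ε₁ (min ε₂ ε₃)).trans (min_le_left ε₂ ε₃)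
    simp only [Pi.sub_apply] at h4 h5
    constructor <;> simp only [hγ] <;> linarith [h3.1, h3.2]
  have hγ0 : ∀ κ ∈ Icc 0 κB, 0 ≤ γ κ := fun κ hκ =>
    (rt_nonneg (h κ hκ).1).trans (hbt κ hκ).1.le
  have hGc : Continuous fun κ => γ κ * (b + γ κ) := by fun_prop
  obtain ⟨g₁, hg₁, G₁⟩ := SCuts_pos_min hκB (hGc.continuousOn.sub hlo) fun κ hκ => by
    have := (rt_lt_iff hb (h κ hκ).1 (hγ0 κ hκ)).1 (hbt κ hκ).1
    simp only [Pi.sub_apply]
    linarith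
  obtain ⟨g₂, hg₂, G₂⟩ := SCuts_pos_min hκB (hhi.sub hGc.continuousOn) fun κ hκ => by
    have := (lt_rt_iff hb ((h κ hκ).1.trans (h κ hκ).2.le) (hγ0 κ hκ)).1 (hbt κ hκ).2
    simp only [Pi.sub_apply]
    linarith
  have hend : γ κB * (b + γ κB) ∈ Ioo x y := by
    refine H₃ ?_
    rw [Real.dist_eq, ← hrB]
    exact (hp κB hB).trans_le ((min_le_right _ _).trans (min_le_right _ _))
  obtain ⟨M₁, hM₁⟩ := isCompact_Icc.exists_bound_of_continuousOn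
    (hγc.continuousOn (s := Icc 0 κB))
  obtain ⟨M₂, hM₂⟩ := isCompact_Icc.exists_bound_of_continuousOn
    (hγd.continuousOn (s := Icc 0 κB))
  set g : ℝ := min (min (g₁ / 2) (g₂ / 2))
    (min (γ κB * (b + γ κB) - x) (y - γ κB * (b + γ κB))) with hg
  have e1 : g ≤ g₁ / 2 := (min_le_left _ _).trans (min_le_left _ _)
  have e2 : g ≤ g₂ / 2 := (min_le_left _ _).trans (min_le_right _ _)
  have e3 : g ≤ γ κB * (b + γ κB) - x := (min_le_right _ _).trans (min_le_left _ _)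
  have e4 : g ≤ y - γ κB * (b + γ κB) := (min_le_right _ _).trans (min_le_right _ _)
  refine ⟨γ, g, max M₁ M₂, hsm, lt_min (lt_min (by linarith) (by linarith))
    (lt_min (by linarith [hend.1]) (by linarith [hend.2])), by linarith, by linarith,
    fun κ hκ => ⟨hγ0 κ hκ, ?_, ?_, ?_, ?_⟩⟩
  · exact (le_abs_self _).trans ((hM₁ κ hκ).trans (le_max_left _ _))
  · exact (hM₂ κ hκ).trans (le_max_right _ _)
  · have := G₁ κ hκ
    simp only [Pi.sub_apply] at this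
    linarith
  · have := G₂ κ hκ
    simp only [Pi.sub_apply] at this
    linarith

/-- small `g`, large `γM`, large `N₀` -/
def SCutsF : Filter (ℝ × ℝ × ℕ) := (𝓝[>] (0 : ℝ)) ×ˢ ((atTop : Filter ℝ) ×ˢ (atTop : Filter ℕ))

instance SCuts_neBot : SCutsF.NeBot := by
  unfold SCutsF
  infer_instance

theorem SCuts_ev {g : ℝ} (hg : 0 < g) (M : ℝ) (N : ℕ) :
    ∀ᶠ p in SCutsF, (0 < p.1 ∧ p.1 ≤ g) ∧ M ≤ p.2.1 ∧ N ≤ p.2.2 :=
  Eventually.prod_mk (pa := fun x => 0 < x ∧ x ≤ g) (pb := fun q : ℝ × ℕ => M ≤ q.1 ∧ N ≤ q.2)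
    (Ioc_mem_nhdsGT hg) ((eventually_ge_atTop M).prod_mk (eventually_ge_atTop N))

theorem SCuts_mono {Y : I0 → Pl 3} {b κB g M g' M' : ℝ} {N N' : ℕ} {σ : ℕ × ℤ} {l : ℕ}
    {γ : ℝ → ℝ} (h : Adm Y b κB g M N σ l γ) (h0 : 0 ≤ g') (hg : g' ≤ g) (hM : M ≤ M')
    (hN : N ≤ N') : Adm Y b κB g' M' N' σ l γ where
  smooth := h.smooth
  bd := fun κ hκ => ⟨(h.bd κ hκ).1, (h.bd κ hκ).2.1.trans hM, (h.bd κ hκ).2.2.trans hM⟩
  pos := h.pos
  gap := fun L n hn hL κ hκ v hv =>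
    (mul_le_mul_of_nonneg_right (pow_le_pow_left₀ h0 hg 2) (n2_nonneg v)).trans
      (h.gap L n (hN.trans hn) hL κ hκ v hv)

theorem SCuts_lam_mono {l l' : ℕ} (h : l ≤ l') : lam 1 l ≤ lam 1 l' := by
  have h1 : (l : ℝ) ≤ l' := by exact_mod_cast h
  have h2 : (0 : ℝ) ≤ l := by positivity
  unfold lam
  nlinarith

/-- the branches of a sector -/
theorem SCuts_branches {Y : I0 → Pl 3} (h : SB Y) {b κB : ℝ} (hκ : 0 < κB)
    (hPb : ∀ (ι : Type) [Fintype ι] [DecidableEq ι] (e : ι → I0), Function.Injective e →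
      ∀ κ ∈ Icc 0 κB, Pb (fun i => dg (e i)) (1 / 4) 0 ((QD Y κ).submatrix e e))
    (a : I0) (l : ℕ) :
    ∃ lo hi : ℝ → ℝ, ContinuousOn lo (Icc 0 κB) ∧ ContinuousOn hi (Icc 0 κB) ∧
      (∀ κ ∈ Icc 0 κB, 0 ≤ lo κ ∧ lo κ < hi κ ∧ lo κ ≤ 5 / 4 * lam 1 l ∧
        3 / 4 * lam 1 (l + 1) ≤ hi κ) ∧
      (∀ (γ : ℝ → ℝ) (g M : ℝ), ContDiff ℝ 1 γ → 0 < g →
        (∀ κ ∈ Icc 0 κB, 0 ≤ γ κ ∧ γ κ ≤ M ∧ |deriv γ κ| ≤ M ∧
          lo κ + 2 * g ≤ γ κ * (b + γ κ) ∧ γ κ * (b + γ κ) + 2 * g ≤ hi κ) →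
        ∀ᶠ p in SCutsF, Adm Y b κB p.1 p.2.1 p.2.2 (sec a) l γ) ∧
      (a.1.2 = 0 → lam 1 (l + 1) ≤ hi κB) ∧
      (1 ≤ l → a = top l → ∀ (x : ℝ) (N : ℕ) (v : I0 → ℝ), v ≠ 0 →
        (∀ i, v i ≠ 0 → (sec i = sec a ∧ 1 ≤ dg i) ∧ dg i ≤ N) →
        ∑ i ∈ lowI N, lam 1 (dg i) * v i ^ 2
          + ∑ i ∈ lowI N, ∑ j ∈ lowI N, QD Y κB i j * v i * v j
          ≤ x * ∑ i ∈ lowI N, v i ^ 2 → lo κB ≤ x) := by
  obtain ⟨D, hD⟩ := h.bandI_mQ aD
  obtain ⟨hD1, hD2, hD3⟩ := hD D le_rfl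
  obtain ⟨C, -, hC⟩ := h.pb 0 aD
  have hB : κB ∈ Icc 0 κB := ⟨hκ.le, le_rfl⟩
  obtain ⟨lo, hi, c1, c2, p1, p2, p3, p4, p5⟩ := branches dg lowI (fun N i => mem_lowI)
    {i | sec i = sec a ∧ 1 ≤ dg i} (fun i hi => hi.2)
    (fun N => by
      obtain ⟨j, hj, hj'⟩ := exists_sec_gt a N
      exact ⟨j, ⟨hj, by omega⟩, hj'⟩)
    (mQ1 Y aD) (mQ2 Y aD) (mQ1_symm aD) (mQ2_symm aD) D
    (fun i j hij => ⟨(hD1.1 i j hij).1, (hD2.1 i j hij).1⟩) κB C hκ.le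
    (fun ι _ _ e he => by
      have h1 := hC ι e he
      rw [mR_zero, Matrix.submatrix_zero] at h1
      exact ⟨h1.1, h1.2, hPb ι e he⟩)
    (fun κ _ μ c M v w hc hs hM hv hw =>
      h.simple ⟨hD1, hD2⟩ hD3 (sec a) κ μ c M v w hc hs hM hv hw) l
  refine ⟨lo, hi, c1, c2, p1, fun γ g M hsm hg H => ?_, fun ha => ?_, fun hl ha x N v hv hs H => ?_⟩
  · obtain ⟨N₀, hN₀⟩ := p3 g hg
    have hA : Adm Y b κB g M N₀ (sec a) l γ :=
      { smooth := hsm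
        bd := fun κ hκ => ⟨(H κ hκ).1, (H κ hκ).2.1, (H κ hκ).2.2.1⟩
        pos := fun i hi hi1 => by
          have h0 := H 0 ⟨le_rfl, hκ.le⟩
          exact p2 _ (by linarith [h0.2.2.2.1]) (by linarith [h0.2.2.2.2]) i ⟨hi, hi1⟩
        gap := fun L N hN hL κ hκ v hv =>
          hN₀ N hN (MI L ⊕ HI L N) (emb L N) (emb_injective L N)
            (fun i hi => by rw [mem_range_emb hL]; exact and_iff_right hi.2) κ hκ _
            (H κ hκ).2.2.2.1 (H κ hκ).2.2.2.2 v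
            (fun i hi => hv i fun hs => hi ⟨hs, one_le_dg_emb L N i⟩) }
    exact (SCuts_ev hg M N₀).mono fun p hp => SCuts_mono hA hp.1.1.le hp.1.2 hp.2.1 hp.2.2
  · refine p4 κB hB _ fun N v hv => ?_
    have h1 := h.zonal_nonneg κB N v fun i hi => by
      have h2 : (sec i).1 = (sec a).1 := by rw [(hv i hi).1.1]
      simp only [sec, ha, Int.natAbs_zero, Int.natAbs_eq_zero] at h2
      exact h2
    have h2 : lam 1 (l + 1) * ∑ i ∈ lowI N, v i ^ 2 ≤ ∑ i ∈ lowI N, lam 1 (dg i) * v i ^ 2 := by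
      rw [Finset.mul_sum]
      refine Finset.sum_le_sum fun i _ => ?_
      by_cases hi : v i = 0
      · simp [hi]
      · exact mul_le_mul_of_nonneg_right (SCuts_lam_mono (hv i hi).2.1) (sq_nonneg _)
    exact h2.trans (le_add_of_nonneg_right h1)
  · have hdg : dg a = l := by rw [ha]; rfl
    refine p5 a ⟨rfl, hdg ▸ hl⟩ (fun i hi => ⟨fun hil => eq_of_sec_of_dg hi.1 ?_, fun e => ?_⟩)
      κB hB x N v hv hs H
    · have h2 : (sec i).1 = (sec a).1 := by rw [hi.1]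
      have h3 : (sec a).1 = l := by rw [ha]; simp [sec, top]
      have h4 : (sec i).1 ≤ dg i := i.2
      omega
    · rw [e, hdg]

/-- the constant cut for the sectors without low modes -/
theorem SCuts_const {Y : I0 → Pl 3} {b κB : ℝ}
    (hPb : ∀ (ι : Type) [Fintype ι] [DecidableEq ι] (e : ι → I0), Function.Injective e →
      ∀ κ ∈ Icc 0 κB, Pb (fun i => dg (e i)) (1 / 4) 0 ((QD Y κ).submatrix e e))
    {x : ℝ} (hx : 0 ≤ x) {l : ℕ} (hxl : x < 3 / 4 * lam 1 (l + 1)) {σ : ℕ × ℤ}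
    (hσ : ∀ i, sec i = σ → 1 ≤ dg i → l < dg i) :
    Adm Y b κB (3 / 4 * lam 1 (l + 1) - x) (rt b x) 0 σ l fun _ => rt b x := by
  have hval : rt b x * (b + rt b x) = x := by linarith [rt_sq (b := b) hx]
  refine ⟨contDiff_const, fun κ _ => ⟨rt_nonneg hx, le_rfl, by simpa using rt_nonneg hx⟩,
    fun i hi hi1 => ?_, fun L N _ _ κ hκ v hv => ?_⟩
  · have h1 := SCuts_lam_mono (hσ i hi hi1 : l + 1 ≤ dg i)
    rw [hval]
    exact iff_of_true (by linarith) (hσ i hi hi1)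
  · rw [hval]
    set g := 3 / 4 * lam 1 (l + 1) - x with hg
    have hg0 : 0 < g := by linarith
    set Q := (QD Y κ).submatrix (emb L N) (emb L N) with hQ
    set w : MI L ⊕ HI L N → ℝ := fun i => (lam 1 (dg (emb L N i)) - x) * v i + (Q *ᵥ v) i with hw
    have h1 := (hPb _ (emb L N) (emb_injective L N) κ hκ).2 v v
    have h2 : ∑ i, v i * w i = ∑ i, (lam 1 (dg (emb L N i)) - x) * v i ^ 2 + v ⬝ᵥ Q *ᵥ v := by
      simp only [hw, dotProduct, ← Finset.sum_add_distrib]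
      exact Finset.sum_congr rfl fun i _ => by ring
    have h3 : g * n2 v + 1 / 4 * nV (fun i => dg (emb L N i)) v
        ≤ ∑ i, (lam 1 (dg (emb L N i)) - x) * v i ^ 2 := by
      simp only [n2, nV, Finset.mul_sum, ← Finset.sum_add_distrib]
      refine Finset.sum_le_sum fun i _ => ?_
      by_cases hi : v i = 0
      · simp [hi]
      · have h4 : sec (emb L N i) = σ := by_contra fun hne => hi (hv i hne)
        have h5 := SCuts_lam_mono (hσ _ h4 (one_le_dg_emb L N i) : l + 1 ≤ dg (emb L N i))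
        have h6 : ((dg (emb L N i) : ℕ) : ℝ) ^ 2 ≤ lam 1 (dg (emb L N i)) := by
          unfold lam
          have : (0 : ℝ) ≤ (dg (emb L N i) : ℕ) := by positivity
          nlinarith
        have h7 : g + 1 / 4 * ((dg (emb L N i) : ℕ) : ℝ) ^ 2 ≤ lam 1 (dg (emb L N i)) - x := by
          rw [hg]; linarith
        nlinarith [mul_le_mul_of_nonneg_right h7 (sq_nonneg (v i))]
    have h4 : g * n2 v ≤ ∑ i, v i * w i := by
      have := neg_abs_le (v ⬝ᵥ Q *ᵥ v)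
      rw [h2]
      linarith
    have h5 : 0 ≤ n2 w - 2 * g * ∑ i, v i * w i + g ^ 2 * n2 v := by
      have : ∑ i, (w i - g * v i) ^ 2 = n2 w - 2 * g * ∑ i, v i * w i + g ^ 2 * n2 v := by
        simp only [n2, Finset.mul_sum, ← Finset.sum_add_distrib, ← Finset.sum_sub_distrib]
        exact Finset.sum_congr rfl fun i _ => by ring
      rw [← this]
      exact Finset.sum_nonneg fun i _ => sq_nonneg _
    nlinarith [mul_le_mul_of_nonneg_left h4 hg0.le]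

theorem SB.exists_cuts {Y : I0 → Pl 3} (h : SB Y) {b κB : ℝ} (hb : 0 < b) (hκ : 0 < κB)
    (hκ1 : κB ≤ 1)
    (hPb : ∀ (ι : Type) [Fintype ι] [DecidableEq ι] (e : ι → I0), Function.Injective e →
      ∀ κ ∈ Icc 0 κB, Pb (fun i => dg (e i)) (1 / 4) 0 ((QD Y κ).submatrix e e)) :
    ∃ l₀ : ℕ, 1 ≤ l₀ ∧ ∀ L, 1 ≤ L → ∃ g γM γs N₀ γu γl γh,
      Cuts Y b κB l₀ L g γM γs N₀ γu γl γh := by
  classical
  obtain ⟨l₀, hl₀, Ht⟩ := h.top_test hκ hκ1
  refine ⟨l₀, hl₀, fun L hL => ?_⟩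
  have hB : κB ∈ Icc 0 κB := ⟨hκ.le, le_rfl⟩
  have hlamL : 0 ≤ lam 1 L := by unfold lam; positivity
  set x : ℝ := 5 / 4 * lam 1 L + 1 with hx
  have hx0 : 0 < x := by linarith
  have hx1 : x < 3 / 4 * lam 1 (2 * L + 1) := by
    have : (0 : ℝ) ≤ L := by positivity
    simp only [hx, lam]
    push_cast
    nlinarith
  -- upper cuts
  have Hu : ∀ a : I0, ∃ γ : ℝ → ℝ, 1 ≤ dg a → dg a ≤ L →
      (∀ᶠ p in SCutsF, Adm Y b κB p.1 p.2.1 p.2.2 (sec a) (dg a) γ) ∧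
      (∀ κ ∈ Icc 0 κB, γ κ ≤ rt b x) ∧
      ∀ l, l₀ ≤ l → a = top (l + 1) → γ κB < rt b ((l : ℝ) ^ 2) := by
    intro a
    by_cases ha : 1 ≤ dg a ∧ dg a ≤ L
    swap
    · exact ⟨0, fun h1 h2 => absurd ⟨h1, h2⟩ ha⟩
    obtain ⟨lo, hi, c1, c2, p1, p2, -, p4⟩ := SCuts_branches h (b := b) hκ hPb a (dg a)
    obtain ⟨y, hy, hy'⟩ : ∃ y, lo κB < y ∧ ∀ l, l₀ ≤ l → a = top (l + 1) → y ≤ (l : ℝ) ^ 2 := by
      by_cases hc : ∃ l, l₀ ≤ l ∧ a = top (l + 1)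
      · obtain ⟨l, hl, e⟩ := hc
        have hdg : dg a = l + 1 := by rw [e]; rfl
        obtain ⟨v, hv, hs, H⟩ := Ht (l + 1) (by omega)
        have := p4 ha.1 (by rw [hdg, e]) _ _ v hv (by rw [e]; exact hs) H
        refine ⟨(l : ℝ) ^ 2, ?_, fun l' _ e' => ?_⟩
        · push_cast at this
          nlinarith
        · have hdg' : dg a = l' + 1 := by rw [e']; rfl
          rw [show l' = l by omega]
      · exact ⟨lo κB + 1, by linarith, fun l hl e => absurd ⟨l, hl, e⟩ hc⟩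
    have hlo : ∀ κ ∈ Icc 0 κB, lo κ < x := fun κ hκ => by
      have := (p1 κ hκ).2.2.1
      have := SCuts_lam_mono ha.2
      linarith
    obtain ⟨γ, g, M, hsm, hg, -, e2, H⟩ := select_cut hb hκ.le c1
      (hi := fun κ => min (hi κ) x) (c2.inf continuousOn_const)
      (fun κ hκ => ⟨(p1 κ hκ).1, lt_min (p1 κ hκ).2.1 (hlo κ hκ)⟩) (x := -1) (y := y)
      (by linarith [(p1 κB hB).1])
      (lt_min (by linarith [(p1 κB hB).1, (p1 κB hB).2.1]) (by linarith)) hy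
    refine ⟨γ, fun _ _ => ⟨p2 γ g M hsm hg fun κ hκ => ?_, fun κ hκ => ?_, fun l hl e => ?_⟩⟩
    · obtain ⟨h1, h2, h3, h4, h5⟩ := H κ hκ
      exact ⟨h1, h2, h3, h4, h5.trans (min_le_left _ _)⟩
    · obtain ⟨h1, -, -, -, h5⟩ := H κ hκ
      have h6 := h5.trans (min_le_right _ _)
      exact ((lt_rt_iff hb hx0.le h1).2 (by linarith)).le
    · have := hy' l hl e
      exact (lt_rt_iff hb (sq_nonneg _) (H κB hB).1).2 (by linarith)
  -- lower cuts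
  have Hl : ∀ a : I0, ∃ γ : ℝ → ℝ, 1 ≤ dg a →
      (∀ᶠ p in SCutsF, Adm Y b κB p.1 p.2.1 p.2.2 (sec a) (dg a - 1) γ) ∧
      ∀ l, a = zon l → rt b ((l : ℝ) ^ 2) < γ κB := by
    intro a
    by_cases ha : 1 ≤ dg a
    swap
    · exact ⟨0, fun h1 => absurd h1 ha⟩
    obtain ⟨lo, hi, c1, c2, p1, p2, p3, -⟩ := SCuts_branches h (b := b) hκ hPb a (dg a - 1)
    obtain ⟨z, hz, hz'⟩ : ∃ z, z < hi κB ∧ ∀ l, a = zon l → (l : ℝ) ^ 2 ≤ z := by
      by_cases hc : a.1.2 = 0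
      · have h1 := p3 hc
        rw [Nat.sub_add_cancel ha] at h1
        have h2 : (1 : ℝ) ≤ (dg a : ℕ) := by exact_mod_cast ha
        refine ⟨((dg a : ℕ) : ℝ) ^ 2, ?_, fun l e => ?_⟩
        · unfold lam at h1
          nlinarith
        · rw [e]; rfl
      · exact ⟨hi κB - 1, by linarith, fun l e => absurd (by rw [e]; rfl) hc⟩
    obtain ⟨γ, g, M, hsm, hg, e1, -, H⟩ := select_cut hb hκ.le c1 c2
      (fun κ hκ => ⟨(p1 κ hκ).1, (p1 κ hκ).2.1⟩) (x := z) (y := max z (lo κB) + 1)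
      (by linarith [le_max_left z (lo κB)]) hz (by linarith [le_max_right z (lo κB)])
    refine ⟨γ, fun _ => ⟨p2 γ g M hsm hg H, fun l e => ?_⟩⟩
    have := hz' l e
    exact (rt_lt_iff hb (sq_nonneg _) (H κB hB).1).2 (by linarith)
  -- cuts at `2 L`
  set T : Finset (ℕ × ℤ) := (lowI (2 * L)).image sec with hT
  have Hh : ∀ σ : ℕ × ℤ, ∃ γ : ℝ → ℝ, (∀ κ ∈ Icc 0 κB, rt b x ≤ γ κ) ∧
      (σ ∈ T → ∀ᶠ p in SCutsF, Adm Y b κB p.1 p.2.1 p.2.2 σ (2 * L) γ) ∧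
      (σ ∉ T → γ = fun _ => rt b x) := by
    intro σ
    by_cases hσ : σ ∈ T
    swap
    · exact ⟨fun _ => rt b x, fun _ _ => le_rfl, fun h1 => absurd h1 hσ, fun _ => rfl⟩
    obtain ⟨a, -, rfl⟩ := Finset.mem_image.1 hσ
    obtain ⟨lo, hi, c1, c2, p1, p2, -, -⟩ := SCuts_branches h (b := b) hκ hPb a (2 * L)
    have hhi : ∀ κ ∈ Icc 0 κB, x < hi κ := fun κ hκ => hx1.trans_le (p1 κ hκ).2.2.2
    obtain ⟨γ, g, M, hsm, hg, -, -, H⟩ := select_cut hb hκ.le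
      (lo := fun κ => max (lo κ) x) (c1.sup continuousOn_const) c2
      (fun κ hκ => ⟨hx0.le.trans (le_max_right _ _), max_lt (p1 κ hκ).2.1 (hhi κ hκ)⟩)
      (x := -1) (y := max (lo κB) x + 1) (by linarith [le_max_right (lo κB) x])
      (by linarith [hhi κB hB]) (by linarith)
    refine ⟨γ, fun κ hκ => ?_, fun _ => p2 γ g M hsm hg fun κ hκ => ?_, fun h1 => absurd hσ h1⟩
    · obtain ⟨h1, -, -, h4, -⟩ := H κ hκ
      have h6 := le_max_right (lo κ) x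
      exact (rt_le_iff hb hx0.le h1).2 (by linarith)
    · obtain ⟨h1, h2, h3, h4, h5⟩ := H κ hκ
      exact ⟨h1, h2, h3, by linarith [le_max_left (lo κ) x], h5⟩
  choose γu Hu using Hu
  choose γl Hl using Hl
  choose γh Hh using Hh
  have E1 : ∀ᶠ p in SCutsF, ∀ a ∈ lowI L, 1 ≤ dg a →
      Adm Y b κB p.1 p.2.1 p.2.2 (sec a) (dg a) (γu a) :=
    (eventually_all_finset _).2 fun a ha => eventually_imp_distrib_left.2 fun h1 =>
      (Hu a h1 (mem_lowI.1 ha)).1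
  have E2 : ∀ᶠ p in SCutsF, ∀ a ∈ lowI L, 1 ≤ dg a →
      Adm Y b κB p.1 p.2.1 p.2.2 (sec a) (dg a - 1) (γl a) :=
    (eventually_all_finset _).2 fun a ha => eventually_imp_distrib_left.2 fun h1 => (Hl a h1).1
  have E3 : ∀ᶠ p in SCutsF, ∀ σ ∈ T, Adm Y b κB p.1 p.2.1 p.2.2 σ (2 * L) (γh σ) :=
    (eventually_all_finset _).2 fun σ hσ => (Hh σ).2.1 hσ
  have E4 := SCuts_ev (sub_pos.2 hx1) (rt b x) 0
  have E5 : ∀ᶠ p in SCutsF, ∀ l ∈ Finset.range L, l₀ ≤ l →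
      γu (top (l + 1)) κB + p.1 ≤ γl (zon l) κB := by
    refine (eventually_all_finset _).2 fun l hl => eventually_imp_distrib_left.2 fun h1 => ?_
    have hl' := Finset.mem_range.1 hl
    have h2 := (Hu (top (l + 1)) (show 1 ≤ l + 1 by omega) (show l + 1 ≤ L by omega)).2.2 l h1 rfl
    have h3 := (Hl (zon l) (show 1 ≤ l by omega)).2 l rfl
    exact (SCuts_ev (sub_pos.2 (h2.trans h3)) 0 0).mono fun p hp => by linarith [hp.1.2]
  obtain ⟨p, e1, e2, e3, e4, e5⟩ := (E1.and (E2.and (E3.and (E4.and E5)))).exists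
  refine ⟨p.1, p.2.1, rt b x, p.2.2, γu, γl, γh, e4.1.1, fun a h1 h2 => e1 a (mem_lowI.2 h2) h1,
    fun a h1 h2 => e2 a (mem_lowI.2 h2) h1, fun σ => ?_, fun a h1 h2 => (Hu a h1 h2).2.1,
    fun σ => (Hh σ).1, fun l h1 h2 => e5 l (Finset.mem_range.2 h2) h1⟩
  by_cases hσ : σ ∈ T
  · exact e3 σ hσ
  · rw [(Hh σ).2.2 hσ]
    refine SCuts_mono (SCuts_const hPb hx0.le hx1 fun i hi _ => ?_) e4.1.1.le e4.1.2 e4.2.1
      e4.2.2
    by_contra hn
    exact hσ (Finset.mem_image.2 ⟨i, mem_lowI.2 (not_lt.1 hn), hi⟩)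

end Crest.Agent.R202
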