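import Crest.Agent.R202.NineFin
import Crest.Agent.R202.NineLim
import Crest.Agent.R202.SCuts

/-!
# R202/NineDyn: the infinite system

`decay9`: for `t ≤ e₁ (k₀ + n) - 2` choose the first `i` with `t + 2 ≤ e₁ (k₀ + i)` and apply
`agmon` on `[min (t - 2) (a₀ k₀ - k₀), e₁ (k₀ + i)]` (`xm` vanishes before `a₀ k₀ - k₀` by
`Sol.free`; `Pb δ₁` by `exists_c_bound`, `pb_small` and the plateau hypothesis; `Band` by
`exists_band`), then `avg_perm`, `sum_pow_twelve_le` and `(k₀+i)^14 ≤ t + C (k₀+i)^13`.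
`dyn9`: take `N = n + N₀ + 2L`, `n → ∞` along `Filter.hyperfilter ℕ`; the parameters converge
(compact boxes), `exists_isGl`, `IsGl.tendsto`; extend the solutions by zero
(`Function.extend (emb _ _) · 0`, `act_extend`, `mem_range_emb`) and apply `limit9` for each `a`.
At `t₁ = a₀ k₀ - k₀` one has `√d u = xp`, so the matrix `√(d a') u^a t₁ a'` is within `ε` of `1`
(`inv_of_near_one`, `opNorm_le_of_entry`).  `setup9` collects `pb_QD`, `exists_cuts`, `phI`,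
`exists_cyc`, `gen9`, `control`, `span9`, with `CA = 2 ⌈γM⌉ + 2`.
-/

open scoped ContDiff Topology Matrix
open Set Filter

noncomputable section

namespace Crest.Agent.R202

theorem setup9 {Y : I0 → Pl 3} (h : SB Y) (B : Bg) (hB : B.β₀ = 1) (hb : B.b < 1) :
    ∃ κ₀ > 0, κ₀ ≤ 1 ∧ ∀ κB, 0 < κB → κB ≤ κ₀ → ∃ l₀ : ℕ, 1 ≤ l₀ ∧ ∀ L, l₀ ≤ L →
      ∃ (Λ : Lay) (ρ₂ : Fin Λ.K₂ → Pl 3) (ρz : Fin Λ.Kz → Pl 3) (az : Fin Λ.Kz → Fin 3 → Pl 3)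
        (τ ρ : Equiv.Perm (MI L)) (Θ : ℝ) (N₀ : ℕ), Λ.κB = κB ∧
        Setup Y B l₀ L Λ ρ₂ ρz az τ ρ Θ N₀ ∧ (∀ i, dg i.1 < l₀ → (ρ * τ) i = i) ∧
        ∀ i, l₀ ≤ dg i.1 →
          ((ρ * τ) ^ (Finset.univ.filter fun j : MI L => l₀ ≤ dg j.1).card) i = i ∧
          ∀ f : MI L → ℝ,
            ∑ j ∈ Finset.range (Finset.univ.filter fun j : MI L => l₀ ≤ dg j.1).card,
              f (((ρ * τ) ^ j) i) = ∑ j ∈ Finset.univ.filter (fun j : MI L => l₀ ≤ dg j.1), f j := by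
  obtain ⟨δ₁, hδ₁, hI⟩ := phI B hB
  obtain ⟨κ₀, hκ₀, hκ₀1, hQD⟩ := h.pb_QD (δ := min δ₁ (1 / 4)) (lt_min hδ₁ (by norm_num))
  refine ⟨κ₀, hκ₀, hκ₀1, fun κB hκB hκB' => ?_⟩
  have hQD' : ∀ δ, min δ₁ (1 / 4) ≤ δ → ∀ (ι : Type) [Fintype ι] [DecidableEq ι] (e : ι → I0),
      Function.Injective e →
      ∀ κ ∈ Icc 0 κB, Pb (fun i => dg (e i)) δ 0 ((QD Y κ).submatrix e e) :=
    fun δ hδ ι _ _ e he κ hκ => (hQD ι e he κ ⟨hκ.1, hκ.2.trans hκB'⟩).mono hδ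
  obtain ⟨l₀, hl₀, hcuts⟩ := h.exists_cuts B.b_pos hκB (hκB'.trans hκ₀1)
    (hQD' _ (min_le_right _ _))
  refine ⟨l₀, hl₀, fun L hL => ?_⟩
  obtain ⟨g, γM, γs, N₀, γu, γl, γh, hC⟩ := hcuts L (hl₀.trans hL)
  obtain ⟨τ, ρ, h1, h2, h3, h4, h5, h6⟩ := exists_cyc hl₀ hL
  obtain ⟨ε, K, X, r, Θ, θ, s, c1, c2, c3, -, c5, c6, c7, c8, c9⟩ :=
    control (d := fun i : MI L => dg i.1) (𝒳 := range (gII B Y L))
      (by rintro _ ⟨ρ, rfl⟩; exact blk_gII B L ρ) (gen9 h B L) ρ h4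
  choose ρ₂ hρ₂ using c2
  obtain ⟨Kz, ρz, az, 𝓡, h𝓡⟩ := span9 h B hB hb L
  refine ⟨⟨K, Kz, 2 * ⌈γM⌉₊ + 2, κB⟩, ρ₂, ρz, az, τ, ρ, Θ, max N₀ (2 * L), rfl,
    ⟨h, h1, h2, h3, h4, ⟨ε, r, θ, s, c1, c3, c5, c6, c7, c8, fun y hy => ?_⟩, ⟨𝓡, h𝓡⟩,
      fun Co hCo => ?_, by simp⟩, h5, h6⟩
  · simpa only [hρ₂] using c9 y hy
  · obtain ⟨C, hC1, k₁, hk⟩ := hI h l₀ L ⟨K, Kz, 2 * ⌈γM⌉₊ + 2, κB⟩ ρ₂ ρz az Co hCo hκB.le
      (hκB'.trans hκ₀1) (hQD' _ (min_le_left _ _)) g γM γs N₀ γu γl γh hC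
    refine ⟨C, hC1, k₁, fun k hk' N om hN hom => ?_⟩
    obtain ⟨P, φ, p1, p2, p3, p4⟩ := hk k hk' N om ((le_max_left _ _).trans hN)
      ((le_max_right _ _).trans hN) hom
    refine ⟨P, φ, p1, p2, fun a => ⟨(p3 a).1, (p3 a).2.trans ?_⟩, p4⟩
    refine Real.exp_le_exp.2 (mul_le_mul_of_nonneg_right ?_ (by positivity))
    have := Nat.le_ceil γM
    push_cast
    linarith

theorem NineDyn_e₁_ge (Λ : Lay) (k : ℕ) : (k : ℝ) ^ 14 + 1 + k ≤ Λ.e₁ k := by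
  unfold Lay.e₁ Lay.a₁ Lay.a₀
  have : (0 : ℝ) ≤ Λ.K₂ * (k : ℝ) ^ 11 := by positivity
  linarith

theorem NineDyn_t₁ (Λ : Lay) {k : ℕ} (hk : 1 ≤ k) :
    0 ≤ Λ.a₀ k - k ∧ Λ.a₀ k - k ≤ (k : ℝ) ^ 14 := by
  have h1 : (1 : ℝ) ≤ k := by exact_mod_cast hk
  have h2 : (k : ℝ) ≤ (k : ℝ) ^ 14 := le_self_pow₀ h1 (by norm_num)
  unfold Lay.a₀
  constructor <;> linarith

/-- `xm` vanishes before the first stage -/
theorem NineDyn_xm {B : Bg} {Y : I0 → Pl 3} {K : ℕ} {ρ : Fin K → Pl 3} {a : Fin K → Fin 3 → Pl 3}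
    {L N : ℕ} {c : ℝ → Fin K → ℝ} {u p : ℝ → MI L ⊕ HI L N → ℝ} {s t : ℝ} (hst : s ≤ t)
    (hc : ∀ r, r ≤ t → c r = 0)
    (hsol : B.Sol (dt L N) (fun t => Rt Y ρ L N (c t)) (fun t => Qt Y a L N (c t)) univ u p)
    (h0 : B.xm (dt L N) u p t = 0) : B.xm (dt L N) u p s = 0 := by
  funext i
  have h1 := (Bg.Sol.free (hsol.mono (subset_univ (Icc s t))) hst
    (fun r hr => by simp only [hc r hr.2, Rt_zero]) (fun r hr => by simp only [hc r hr.2, Qt_zero])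
    i).2
  rw [h0] at h1
  simp only [Pi.zero_apply] at h1 ⊢
  rcases mul_eq_zero.1 h1.symm with h | h
  · exact absurd h (Real.exp_pos _).ne'
  · exact h

theorem NineDyn_pow {η : ℝ} (hη : 0 < η) (Λ : Lay) (k₀ : ℕ) : ∃ C : ℝ, ∀ (t : ℝ) (i : ℕ),
    (∀ j, j < i → ¬ t + 2 ≤ Λ.e₁ (k₀ + j)) → ((k₀ + i : ℕ) : ℝ) ^ 14 ≤ (1 + η) * max t 0 + C := by
  obtain ⟨C, hC⟩ := avg_small 14 hη
  refine ⟨(k₀ : ℝ) ^ 14 + (1 + η) + |C|, fun t i hi => ?_⟩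
  have hm : 0 ≤ max t 0 := le_max_right _ _
  have hm' : t ≤ max t 0 := le_max_left _ _
  have hk : (0 : ℝ) ≤ (k₀ : ℝ) ^ 14 := by positivity
  have hC0 := abs_nonneg C
  have hC1 := le_abs_self C
  rcases i with _ | i
  · simp only [Nat.add_zero]
    nlinarith
  · have h1 := not_le.1 (hi i (Nat.lt_succ_self i))
    have h2 := NineDyn_e₁_ge Λ (k₀ + i)
    have h0 : (0 : ℝ) ≤ ((k₀ + i : ℕ) : ℝ) := Nat.cast_nonneg _
    have h3 := avg_w_le h0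
    have h4 := hC _ h0
    have h5 : ((k₀ + (i + 1) : ℕ) : ℝ) = ((k₀ + i : ℕ) : ℝ) + 1 := by push_cast; ring
    rw [h5]
    have h6 : ((k₀ + i : ℕ) : ℝ) ^ 14 ≤ max t 0 + 1 := by linarith
    nlinarith [mul_le_mul_of_nonneg_left h6 hη.le]

theorem NineDyn_abs_le {κ d u C E : ℝ} (hC : 0 ≤ C)
    (h : Real.exp (2 * κ * d) * u ^ 2 ≤ C * Real.exp (2 * E)) :
    |u| ≤ Real.sqrt C * Real.exp E * Real.exp (-(κ * d)) := by
  refine abs_le_of_sq_le_sq' ?_ (by positivity) |> fun h => abs_le.2 h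
  have h1 : Real.exp (-(κ * d)) ^ 2 * Real.exp (2 * κ * d) = 1 := by
    rw [← Real.exp_nat_mul, ← Real.exp_add]
    simp only [Nat.cast_ofNat]
    rw [show 2 * -(κ * d) + 2 * κ * d = 0 by ring, Real.exp_zero]
  have h2 : Real.exp (2 * E) = Real.exp E ^ 2 := by
    rw [← Real.exp_nat_mul]; simp
  calc u ^ 2 = Real.exp (-(κ * d)) ^ 2 * (Real.exp (2 * κ * d) * u ^ 2) := by
        rw [← mul_assoc, h1, one_mul]
    _ ≤ Real.exp (-(κ * d)) ^ 2 * (C * Real.exp (2 * E)) :=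
        mul_le_mul_of_nonneg_left h (by positivity)
    _ = (Real.sqrt C * Real.exp E * Real.exp (-(κ * d))) ^ 2 := by
        rw [mul_pow, mul_pow, Real.sq_sqrt hC, h2]; ring

theorem decay9 (B : Bg) : ∃ δ₁ > 0, ∀ {Y : I0 → Pl 3}, SB Y → ∀ (L : ℕ) (Λ : Lay)
    (ρ₂ : Fin Λ.K₂ → Pl 3) (ρz : Fin Λ.Kz → Pl 3) (az : Fin Λ.Kz → Fin 3 → Pl 3)
    (σ : Equiv.Perm (MI L)) (Θ A abar : ℝ), 0 ≤ Λ.κB → 0 ≤ abar →
    (∀ (ι : Type) [Fintype ι] [DecidableEq ι] (e : ι → I0), Function.Injective e →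
      ∀ κ ∈ Icc 0 Λ.κB, Pb (fun i => dg (e i)) δ₁ 0 ((QD Y κ).submatrix e e)) →
    (∀ i, ∃ m : ℕ, 0 < m ∧ (σ ^ m) i = i ∧
      ∑ j ∈ Finset.range m, B.a (dg ((σ ^ j) i).1) ≤ m * abar) →
    ∃ κ > 0, ∃ k₁ : ℕ, ∀ k₀, k₁ ≤ k₀ → ∀ ε > 0, ∃ C : ℝ, ∀ (N n : ℕ) (θ : ℕ → Fin Λ.K₂ → ℝ)
      (ζ : ℕ → Fin 3 → Fin Λ.Kz → ℝ) (c : ℝ → Fin Λ.N → ℝ) (a : MI L)
      (u p : ℝ → MI (2 * L) ⊕ HI (2 * L) N → ℝ), (∀ k j, |θ k j| ≤ Θ) →
      (∀ k r j, |ζ k r j| ≤ 1) → Λ.IsGl k₀ θ ζ c →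
      B.Sol (dt (2 * L) N) (fun t => Rt Y (Λ.gρ ρ₂ ρz) (2 * L) N (c t))
        (fun t => Qt Y (Λ.ga az) (2 * L) N (c t)) univ u p →
      B.xm (dt (2 * L) N) u p (Λ.a₀ k₀ - k₀) = 0 →
      (∀ i, i ≤ n → n2 (B.xp (dt (2 * L) N) u p (Λ.e₁ (k₀ + i))) ≤ Real.exp (2 *
        (∑ j ∈ Finset.range i, (B.a (dg ((σ ^ j) a).1)
          * (((k₀ + j : ℕ) + 1 : ℝ) ^ 14 - ((k₀ + j : ℕ) : ℝ) ^ 14)
          + A * ((k₀ + j : ℕ) : ℝ) ^ 12) + A * (k₀ : ℝ) ^ 12))) →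
      ∀ t, t + 2 ≤ Λ.e₁ (k₀ + n) → ∀ i,
        |u t i| ≤ C * Real.exp ((abar + ε) * max t 0) * Real.exp (-(κ * dt (2 * L) N i)) ∧
        |p t i| ≤ C * Real.exp ((abar + ε) * max t 0) * Real.exp (-(κ * dt (2 * L) N i)) := by
  obtain ⟨δ₁, hδ₁, hag⟩ := agmon B
  refine ⟨δ₁, hδ₁, fun {Y} h L Λ ρ₂ ρz az σ Θ A abar hκB habar hQD horb => ?_⟩
  obtain ⟨D, -, hD⟩ := h.exists_band (Λ.gρ ρ₂ ρz) (Λ.ga az)
  obtain ⟨κ, hκ, C₀, hC₀, hag⟩ := hag D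
  obtain ⟨C₁, hC₁, hsm⟩ := h.pb_small (Λ.gρ ρ₂ ρz) (Λ.ga az)
  obtain ⟨A₁, hA₁, hcb⟩ := Λ.exists_c_bound hκB Θ
  obtain ⟨k₁, hk₁⟩ := exists_nat_ge (A₁ + C₁ * A₁ / δ₁ + 1)
  have hq : 0 ≤ C₁ * A₁ / δ₁ := by positivity
  refine ⟨κ, hκ, k₁, fun k₀ hk₀ ε hε => ?_⟩
  have hk₀1 : 1 ≤ k₀ := by
    have : (1 : ℝ) ≤ k₁ := by linarith
    exact le_trans (by exact_mod_cast this) hk₀
  obtain ⟨C₂, hC₂⟩ := avg_perm σ (fun i : MI L => B.a (dg i.1)) abar habar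
    (fun i => (Nat.cast_nonneg _).trans (B.le_a _)) horb k₀ (ε := ε / 4) (by positivity)
  obtain ⟨C₃, hC₃⟩ := sum_pow_twelve_le |A| k₀ (ε := ε / 4) (by positivity)
  obtain ⟨C₄, hC₄⟩ := NineDyn_pow (η := ε / 2 / (abar + ε / 2)) (by positivity) Λ k₀
  refine ⟨Real.sqrt C₀ * Real.exp ((abar + ε / 2) * C₄ + C₂ + C₃ + A * (k₀ : ℝ) ^ 12),
    fun N n θ ζ c a u p hθ hζ hgl hsol hxm hxp t ht i => ?_⟩
  classical
  have hex : ∃ i, t + 2 ≤ Λ.e₁ (k₀ + i) := ⟨n, ht⟩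
  have hi1 := Nat.find_spec hex
  have hi2 : Nat.find hex ≤ n := Nat.find_min' hex ht
  have hi3 := hC₄ t (Nat.find hex) fun j hj => Nat.find_min hex hj
  generalize Nat.find hex = m at hi1 hi2 hi3
  have ht₁ := NineDyn_t₁ Λ hk₀1
  have hPb : ∀ r, Pb (dt (2 * L) N) δ₁ (Rt Y (Λ.gρ ρ₂ ρz) (2 * L) N (c r))
      (Qt Y (Λ.ga az) (2 * L) N (c r)) := by
    intro r
    rcases le_total r ((k₀ : ℝ) ^ 14) with hr | hr
    · rw [hgl.2.1 r hr, Rt_zero, Qt_zero]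
      exact (Pb.zero _).mono hδ₁.le
    · obtain ⟨k, hk, hrk⟩ := exists_stage hr
      obtain ⟨h1, h2, -⟩ := hcb k₀ θ ζ c hk₀1 hgl hθ hζ k hk r hrk
      rcases h2 with h2 | h2
      · rw [h2]
        have e1 : Rt Y (Λ.gρ ρ₂ ρz) (2 * L) N (Pi.single 0 (c r 0)) = 0 := by
          rw [Rt, RR_single, Lay.gρ_zero, mR_zero, smul_zero]
          rfl
        have e2 : Qt Y (Λ.ga az) (2 * L) N (Pi.single 0 (c r 0))
            = (QD Y (c r 0)).submatrix (emb (2 * L) N) (emb (2 * L) N) := by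
          rw [Qt, QQ_single, Lay.ga_zero, QD]
        rw [e1, e2]
        exact hQD _ _ (emb_injective _ _) _ h1
      · have hk1 : (k₁ : ℝ) ≤ k := by exact_mod_cast hk₀.trans hk
        have hk2 : (k : ℝ) ≤ (k : ℝ) ^ 11 := le_self_pow₀ (by linarith) (by norm_num)
        have hk3 : (0 : ℝ) < (k : ℝ) ^ 11 := by linarith
        refine (hsm (2 * L) N (c r) _ ((div_le_one hk3).2 (by linarith)) h2).mono ?_
        rw [← mul_div_assoc, div_le_iff₀ hk3]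
        have h3 : C₁ * A₁ / δ₁ ≤ (k : ℝ) ^ 11 := by linarith
        rw [div_le_iff₀ hδ₁] at h3
        linarith
  have hA := hag _ (dt (2 * L) N) (one_le_dg_emb _ _)
    (fun t => Rt Y (Λ.gρ ρ₂ ρz) (2 * L) N (c t)) (fun t => Qt Y (Λ.ga az) (2 * L) N (c t))
    (min (t - 2) (Λ.a₀ k₀ - k₀)) (Λ.e₁ (k₀ + m)) u p (hsol.mono (subset_univ _))
    (fun r _ => ⟨hPb r, (hD (c r)).1.band _, (hD (c r)).2.band _⟩) t
    (by linarith [min_le_left (t - 2) (Λ.a₀ k₀ - k₀)]) hi1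
  rw [NineDyn_xm (min_le_right _ _) (fun r hr => hgl.2.1 r (hr.trans ht₁.2)) hsol hxm] at hA
  have hz : n2 (0 : MI (2 * L) ⊕ HI (2 * L) N → ℝ) = 0 := by simp [n2]
  rw [hz, add_zero] at hA
  have hE : ∑ j ∈ Finset.range m, (B.a (dg ((σ ^ j) a).1)
        * (((k₀ + j : ℕ) + 1 : ℝ) ^ 14 - ((k₀ + j : ℕ) : ℝ) ^ 14)
        + A * ((k₀ + j : ℕ) : ℝ) ^ 12) + A * (k₀ : ℝ) ^ 12
      ≤ (abar + ε / 2) * C₄ + C₂ + C₃ + A * (k₀ : ℝ) ^ 12 + (abar + ε) * max t 0 := by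
    rw [Finset.sum_add_distrib]
    have h1 := hC₂ a m
    have h2 := hC₃ m
    have h3 : ∑ j ∈ Finset.range m, A * ((k₀ + j : ℕ) : ℝ) ^ 12
        ≤ ∑ j ∈ Finset.range m, |A| * ((k₀ + j : ℕ) : ℝ) ^ 12 :=
      Finset.sum_le_sum fun j _ => mul_le_mul_of_nonneg_right (le_abs_self A) (by positivity)
    have h4 : 0 ≤ |A| * ((k₀ + m : ℕ) + 1 : ℝ) ^ 13 := by positivity
    have h5 := mul_le_mul_of_nonneg_left hi3 (show 0 ≤ abar + ε / 2 by positivity)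
    have h6 : (abar + ε / 2) * ((1 + ε / 2 / (abar + ε / 2)) * max t 0 + C₄)
        = (abar + ε) * max t 0 + (abar + ε / 2) * C₄ := by
      have : abar + ε / 2 ≠ 0 := by positivity
      field_simp
      ring
    rw [h6] at h5
    linarith
  have hF := hA.trans (mul_le_mul_of_nonneg_left ((hxp m hi2).trans
    (Real.exp_le_exp.2 (mul_le_mul_of_nonneg_left hE zero_le_two))) hC₀)
  have hG := (Finset.single_le_sum (f := fun i => Real.exp (2 * κ * dt (2 * L) N i)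
    * (u t i ^ 2 + p t i ^ 2)) (fun i _ => by positivity) (Finset.mem_univ i)).trans hF
  have he := Real.exp_pos (2 * κ * dt (2 * L) N i)
  constructor
  · have := NineDyn_abs_le (κ := κ) (d := dt (2 * L) N i) (u := u t i) hC₀
      (le_trans (by nlinarith [sq_nonneg (p t i)]) hG)
    rwa [Real.exp_add, ← mul_assoc] at this
  · have := NineDyn_abs_le (κ := κ) (d := dt (2 * L) N i) (u := p t i) hC₀
      (le_trans (by nlinarith [sq_nonneg (u t i)]) hG)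
    rwa [Real.exp_add, ← mul_assoc] at this

theorem NineDyn_ulim (𝒰 : Ultrafilter ℕ) {f : ℕ → ℝ} {M : ℝ} (h : ∀ n, |f n| ≤ M) :
    ∃ x, |x| ≤ M ∧ Tendsto f 𝒰 (𝓝 x) := by
  obtain ⟨x, hx, hx'⟩ := (isCompact_Icc (a := -M) (b := M)).ultrafilter_le_nhds' (𝒰.map f)
    (by
      rw [Ultrafilter.mem_map]
      exact Filter.univ_mem' fun n => abs_le.1 (h n))
  exact ⟨x, abs_le.2 hx, hx'⟩

theorem NineDyn_tlu {K : ℕ} {F : Filter ℕ} {c' : ℕ → ℝ → Fin K → ℝ} {c : ℝ → Fin K → ℝ}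
    (hc : Continuous c)
    (h : ∀ j, TendstoLocallyUniformly (fun n t => c' n t j) (fun t => c t j) F)
    {G : (Fin K → ℝ) → ℝ} (hG : Continuous G) :
    TendstoLocallyUniformly (fun n t => G (c' n t)) (fun t => G (c t)) F := by
  rw [tendstoLocallyUniformly_iff_forall_tendsto]
  intro x
  have h0 : Tendsto (fun y : ℕ × ℝ => c y.2) (F ×ˢ 𝓝 x) (𝓝 (c x)) :=
    (hc.tendsto x).comp tendsto_snd
  have h1 : Tendsto (fun y : ℕ × ℝ => c' y.1 y.2) (F ×ˢ 𝓝 x) (𝓝 (c x)) := by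
    rw [tendsto_pi_nhds]
    intro j
    exact (tendsto_pi_nhds.1 h0 j).congr_uniformity
      (tendstoLocallyUniformly_iff_forall_tendsto.1 (h j) x)
  exact (((hG.tendsto _).comp h0).prodMk_nhds ((hG.tendsto _).comp h1)).mono_right
    (nhds_le_uniformity _)

theorem NineDyn_cont_RR (Y : I0 → Pl 3) {K : ℕ} (ρ : Fin K → Pl 3) (i j : I0) :
    Continuous fun c : Fin K → ℝ => RR Y ρ c i j := by
  simp only [RR, Matrix.sum_apply, Matrix.smul_apply, smul_eq_mul]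
  fun_prop

theorem NineDyn_cont_QQ (Y : I0 → Pl 3) {K : ℕ} (a : Fin K → Fin 3 → Pl 3) (i j : I0) :
    Continuous fun c : Fin K → ℝ => QQ Y a c i j := by
  simp only [QQ, Matrix.sum_apply, Matrix.add_apply, Matrix.smul_apply, smul_eq_mul]
  fun_prop

open scoped Matrix.Norms.L2Operator in
theorem NineDyn_det (W : Type) [Fintype W] [DecidableEq W] : ∃ ε > 0, ∀ T : Matrix W W ℝ,
    (∀ i j, |T i j - (1 : Matrix W W ℝ) i j| ≤ ε) → T.det ≠ 0 := by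
  refine ⟨1 / (2 * ((Fintype.card W : ℝ) * Fintype.card W + 1)), by positivity, fun T hT => ?_⟩
  have h1 := opNorm_le_of_entry (A := T - 1) (by positivity) hT
  refine (inv_of_near_one (h1.trans ?_)).1.ne_zero
  rw [mul_one_div, div_le_div_iff₀ (by positivity) (by positivity)]
  linarith

/-- a truncated solution extended by zero solves the equations of the modes in the range -/
theorem NineDyn_isol {B : Bg} (hB : B.β₀ = 1) {D L N : ℕ} {R Q : ℝ → Matrix I0 I0 ℝ}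
    (hR : ∀ t, BandI D (R t)) (hQ : ∀ t, BandI D (Q t)) {u p : ℝ → MI L ⊕ HI L N → ℝ}
    (hsol : B.Sol (dt L N) (fun t => (R t).submatrix (emb L N) (emb L N))
      (fun t => (Q t).submatrix (emb L N) (emb L N)) univ u p) {i : I0}
    (hi : i ∈ range (emb L N)) :
    ISol B.β D R Q {i} (fun t => Function.extend (emb L N) (u t) 0)
      (fun t => Function.extend (emb L N) (p t) 0) := by
  obtain ⟨i, rfl⟩ := hi
  have he := emb_injective L N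
  constructor
  · rintro _ rfl t
    simp only [he.extend_apply, act_extend (hR t) he]
    exact hasDerivAt_pi.1 (hsol.du t (mem_univ t)) i
  · rintro _ rfl t
    simp only [he.extend_apply, act_extend (hQ t) he]
    have := hasDerivAt_pi.1 (hsol.dp t (mem_univ t)) i
    rw [hB] at this
    exact this

theorem NineDyn_ext {L N : ℕ} (v w : MI L ⊕ HI L N → ℝ) {P : I0 → ℝ → ℝ → Prop}
    (h0 : ∀ i, P i 0 0) (h1 : ∀ i, P (emb L N i) (v i) (w i)) (i : I0) :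
    P i (Function.extend (emb L N) v 0 i) (Function.extend (emb L N) w 0 i) := by
  by_cases hi : ∃ a, emb L N a = i
  · obtain ⟨a, rfl⟩ := hi
    rw [(emb_injective L N).extend_apply, (emb_injective L N).extend_apply]
    exact h1 a
  · rw [Function.extend_apply' _ _ _ hi, Function.extend_apply' _ _ _ hi]
    exact h0 i

theorem NineDyn_ext_i0 {L N : ℕ} (v : MI L ⊕ HI L N → ℝ) :
    Function.extend (emb L N) v 0 i0 = 0 := by
  rw [Function.extend_apply']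
  · rfl
  · rintro ⟨a, ha⟩
    have := one_le_dg_emb L N a
    rw [ha] at this
    exact absurd this (by decide)

theorem dyn9 {Y : I0 → Pl 3} (h : SB Y) (B : Bg) (hB : B.β₀ = 1) (hb : B.b < 1) :
    ∃ κ₀ > 0, κ₀ ≤ 1 ∧ ∀ κB, 0 < κB → κB ≤ κ₀ → ∃ l₀ : ℕ, ∀ (L : ℕ) (abar x : ℝ), l₀ ≤ L →
      (l₀ : ℝ) + 1 ≤ abar → abar < x →
      ∑ j ∈ Finset.univ.filter (fun j : MI L => l₀ ≤ dg j.1), ((dg j.1 : ℝ) + 1 / 6)
        ≤ (Finset.univ.filter fun j : MI L => l₀ ≤ dg j.1).card * abar →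
      ∃ (Λ : Lay) (ρ₂ : Fin Λ.K₂ → Pl 3) (ρz : Fin Λ.Kz → Pl 3) (az : Fin Λ.Kz → Fin 3 → Pl 3)
        (Θ : ℝ), Λ.κB = κB ∧ ∀ k₁ : ℕ, ∃ k₀, k₁ ≤ k₀ ∧ ∃ (θ : ℕ → Fin Λ.K₂ → ℝ)
        (ζ : ℕ → Fin 3 → Fin Λ.Kz → ℝ) (c : ℝ → Fin Λ.N → ℝ), (∀ k j, |θ k j| ≤ Θ) ∧
        (∀ k r j, |ζ k r j| ≤ 1) ∧ Λ.IsGl k₀ θ ζ c ∧
        ∃ (u p : MI L → ℝ → I0 → ℝ) (κ C t₁ : ℝ), 0 < κ ∧
          (Matrix.of fun a' a : MI L => u a t₁ a'.1).det ≠ 0 ∧ ∀ a, ∀ D,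
          (∀ c', BandI D (RR Y (Λ.gρ ρ₂ ρz) c') ∧ BandI D (QQ Y (Λ.ga az) c')) →
          ISol B.β D (fun t => RR Y (Λ.gρ ρ₂ ρz) (c t)) (fun t => QQ Y (Λ.ga az) (c t))
            {i | 1 ≤ dg i} (u a) (p a) ∧ (∀ t, p a t i0 = 0) ∧
          (∀ t ≤ 0, ∀ i, 1 ≤ dg i → u a t i = Real.exp (dg i * t) * u a 0 i) ∧
          ∀ t i, 1 ≤ dg i → |u a t i| ≤ C * Real.exp (x * max t 0) * Real.exp (-(κ * dg i)) ∧
            |p a t i| ≤ C * Real.exp (x * max t 0) * Real.exp (-(κ * dg i)) := by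
  obtain ⟨κ₀, hκ₀, hκ₀1, hset⟩ := setup9 h B hB hb
  obtain ⟨δ₁, hδ₁, hdec⟩ := decay9 B
  obtain ⟨κ₁, hκ₁, -, hQD⟩ := h.pb_QD hδ₁
  refine ⟨min κ₀ κ₁, lt_min hκ₀ hκ₁, (min_le_left _ _).trans hκ₀1, fun κB hκB hκB' => ?_⟩
  obtain ⟨l₀, -, hset⟩ := hset κB hκB (hκB'.trans (min_le_left _ _))
  refine ⟨l₀, fun L abar x hL hab hx havg => ?_⟩
  obtain ⟨Λ, ρ₂, ρz, az, τ, ρ, Θ, N₀, hΛ, hS, hfix, hcyc⟩ := hset L hL
  refine ⟨Λ, ρ₂, ρz, az, Θ, hΛ, fun k₁ => ?_⟩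
  obtain ⟨ε₀, hε₀, hdet⟩ := NineDyn_det (MI L)
  obtain ⟨A, k₂, hfin⟩ := fin9 hS hε₀
  have hl₀ : (0 : ℝ) ≤ l₀ := Nat.cast_nonneg _
  obtain ⟨κ, hκ, k₃, hdec⟩ := hdec h L Λ ρ₂ ρz az (ρ * τ) Θ A abar (by rw [hΛ]; exact hκB.le)
    (by linarith)
    (fun ι _ _ e he κ hκ => hQD ι e he κ
      ⟨hκ.1, hκ.2.trans (by rw [hΛ]; exact hκB'.trans (min_le_right _ _))⟩)
    (fun i => by
      rcases lt_or_ge (dg i.1) l₀ with hi | hi
      · refine ⟨1, one_pos, by rw [pow_one, hfix i hi], ?_⟩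
        have h1 := B.a_le (dg i.1)
        have h2 : (dg i.1 : ℝ) ≤ l₀ := by exact_mod_cast hi.le
        simp only [Finset.range_one, Finset.sum_singleton, pow_zero, Equiv.Perm.one_apply,
          Nat.cast_one, one_mul]
        linarith
      · refine ⟨_, Finset.card_pos.2 ⟨i, by simpa using hi⟩, (hcyc i hi).1, ?_⟩
        rw [(hcyc i hi).2 fun j => B.a (dg j.1)]
        exact (Finset.sum_le_sum fun j _ => B.a_le _).trans havg)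
  obtain ⟨k₄, hk₄, hfit⟩ := Λ.exists_fit
  obtain ⟨k₀, e1, e2, e3, e4⟩ : ∃ k₀, k₁ ≤ k₀ ∧ k₂ ≤ k₀ ∧ k₃ ≤ k₀ ∧ k₄ ≤ k₀ :=
    ⟨k₁ + k₂ + k₃ + k₄, by omega, by omega, by omega, by omega⟩
  have hk₀ : 1 ≤ k₀ := hk₄.trans e4
  have hfit' : ∀ k, k₀ ≤ k → Λ.e₃ k + Λ.Kz + (k + 1) + 1 ≤ ((k : ℝ) + 1) ^ 14 :=
    fun k hk => hfit k (e4.trans hk)
  obtain ⟨C, hC⟩ := hdec k₀ e3 (x - abar) (by linarith)
  rw [show abar + (x - abar) = x by ring] at hC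
  refine ⟨k₀, e1, ?_⟩
  choose θ ζ hθ hζ hsol using fun n : ℕ => hfin k₀ e2 (n + N₀ + 2 * L) (by omega) n
  choose c hc using fun n : ℕ => Λ.exists_isGl hk₀ hfit' (θ n) (ζ n)
  choose u p s1 s2 s3 s4 using fun (n : ℕ) (a : MI L) => hsol n (c n) (hc n) a
  set 𝒰 : Ultrafilter ℕ := Filter.hyperfilter ℕ with h𝒰
  have hU : (𝒰 : Filter ℕ) ≤ atTop := Nat.hyperfilter_le_atTop
  choose θ' hθ' hθt using fun k j => NineDyn_ulim 𝒰 (f := fun n => θ n k j) fun n => hθ n k j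
  choose ζ' hζ' hζt using
    fun k r j => NineDyn_ulim 𝒰 (f := fun n => ζ n k r j) fun n => hζ n k r j
  obtain ⟨c', hc'⟩ := Λ.exists_isGl hk₀ hfit' θ' ζ'
  have hct := Lay.IsGl.tendsto hk₀ hc' hc hθt hζt
  have hcc : Continuous c' := hc'.1.continuous
  have ht₁ := NineDyn_t₁ Λ hk₀
  have hbd : ∀ (a : MI L) (T : ℝ), ∀ᶠ n in (𝒰 : Filter ℕ), ∀ t, |t| ≤ T → ∀ i,
      |Function.extend (emb (2 * L) (n + N₀ + 2 * L)) (u n a t) 0 i|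
        ≤ |C| * Real.exp (x * max t 0) * Real.exp (-(κ * dg i)) ∧
      |Function.extend (emb (2 * L) (n + N₀ + 2 * L)) (p n a t) 0 i|
        ≤ |C| * Real.exp (x * max t 0) * Real.exp (-(κ * dg i)) := by
    intro a T
    obtain ⟨n₀, hn₀⟩ := exists_nat_ge (T + 2)
    refine hU ((eventually_ge_atTop n₀).mono fun n hn t ht i => ?_)
    have h1 : t + 2 ≤ Λ.e₁ (k₀ + n) := by
      have h2 := NineDyn_e₁_ge Λ (k₀ + n)
      have h3 : (n₀ : ℝ) ≤ ((k₀ + n : ℕ) : ℝ) := by exact_mod_cast hn.trans (Nat.le_add_left _ _)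
      have h4 : (0 : ℝ) ≤ ((k₀ + n : ℕ) : ℝ) ^ 14 := by positivity
      linarith [le_abs_self t]
    have h2 := hC _ n (θ n) (ζ n) (c n) _ (u n a) (p n a) (hθ n) (hζ n) (hc n) (s1 n a) (s2 n a)
      (s4 n a) t h1
    refine NineDyn_ext (P := fun i y z =>
      |y| ≤ |C| * Real.exp (x * max t 0) * Real.exp (-(κ * dg i)) ∧
      |z| ≤ |C| * Real.exp (x * max t 0) * Real.exp (-(κ * dg i))) _ _ (fun i => ?_)
      (fun i => ?_) i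
    · rw [abs_zero]
      constructor <;> positivity
    · have h3 : C * Real.exp (x * max t 0) * Real.exp (-(κ * dt (2 * L) (n + N₀ + 2 * L) i))
          ≤ |C| * Real.exp (x * max t 0) * Real.exp (-(κ * dg (emb (2 * L) (n + N₀ + 2 * L) i))) :=
        mul_le_mul_of_nonneg_right (mul_le_mul_of_nonneg_right (le_abs_self C) (by positivity))
          (by positivity)
      exact ⟨(h2 i).1.trans h3, (h2 i).2.trans h3⟩
  have hlim : ∀ (a : MI L) (D : ℕ),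
      (∀ c', BandI D (RR Y (Λ.gρ ρ₂ ρz) c') ∧ BandI D (QQ Y (Λ.ga az) c')) →
      ∃ u' p', ISol B.β D (fun t => RR Y (Λ.gρ ρ₂ ρz) (c' t)) (fun t => QQ Y (Λ.ga az) (c' t))
        {i | 1 ≤ dg i} u' p' ∧ ∀ t i,
        Tendsto (fun n => Function.extend (emb (2 * L) (n + N₀ + 2 * L)) (u n a t) 0 i) 𝒰
          (𝓝 (u' t i)) ∧
        Tendsto (fun n => Function.extend (emb (2 * L) (n + N₀ + 2 * L)) (p n a t) 0 i) 𝒰
          (𝓝 (p' t i)) := by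
    intro a D hD
    refine limit9 B.β_smooth.continuous 𝒰 (R := fun n t => RR Y (Λ.gρ ρ₂ ρz) (c n t))
      (Q := fun n t => QQ Y (Λ.ga az) (c n t))
      (u := fun n t => Function.extend (emb (2 * L) (n + N₀ + 2 * L)) (u n a t) 0)
      (p := fun n t => Function.extend (emb (2 * L) (n + N₀ + 2 * L)) (p n a t) 0)
      (Bd := fun t i => |C| * Real.exp (x * max t 0) * Real.exp (-(κ * dg i)))
      (fun i j => NineDyn_tlu hcc hct (NineDyn_cont_RR Y _ i j))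
      (fun i j => NineDyn_tlu hcc hct (NineDyn_cont_QQ Y _ i j))
      (fun i j => (NineDyn_cont_RR Y _ i j).comp hcc)
      (fun i j => (NineDyn_cont_QQ Y _ i j).comp hcc) (fun i hi => ?_)
      (fun n t => ⟨NineDyn_ext_i0 _, NineDyn_ext_i0 _⟩) (hbd a) (fun i => by fun_prop)
    refine hU ((eventually_ge_atTop (dg i)).mono fun n hn => ?_)
    exact NineDyn_isol hB (fun t => (hD _).1) (fun t => (hD _).2) (s1 n a)
      ((mem_range_emb (by omega) i).2 ⟨hi, by omega⟩)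
  obtain ⟨D₀, -, hD₀⟩ := h.exists_band (Λ.gρ ρ₂ ρz) (Λ.ga az)
  choose u' p' _ hup using fun a => hlim a D₀ hD₀
  refine ⟨θ', ζ', c', hθ', hζ', hc', u', p', κ, |C|, Λ.a₀ k₀ - k₀, hκ, ?_, fun a D hD => ⟨?_, ?_,
    ?_, ?_⟩⟩
  · have h1 := hdet (Matrix.diagonal (fun a' : MI L => Real.sqrt (dg a'.1))
      * Matrix.of fun a' a : MI L => u' a (Λ.a₀ k₀ - k₀) a'.1) fun a' a => by
        rw [Matrix.diagonal_mul, Matrix.of_apply]
        refine le_of_tendsto' ((((hup a (Λ.a₀ k₀ - k₀) a'.1).1.const_mul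
          (Real.sqrt (dg a'.1))).sub_const _).abs) fun n => ?_
        have h2 := s3 n a a'
        have h3 := congrFun (s2 n a) (Sum.inl (eW L a'))
        have h4 := B.sqrt_mul_u (dg a'.1) (Λ.a₀ k₀ - k₀)
          (u n a (Λ.a₀ k₀ - k₀) (Sum.inl (eW L a'))) (p n a (Λ.a₀ k₀ - k₀) (Sum.inl (eW L a')))
        have h5 : Function.extend (emb (2 * L) (n + N₀ + 2 * L)) (u n a (Λ.a₀ k₀ - k₀)) 0 a'.1
            = u n a (Λ.a₀ k₀ - k₀) (Sum.inl (eW L a')) :=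
          (emb_injective _ _).extend_apply _ _ (Sum.inl (eW L a'))
        rw [h5, h4]
        change B.xm1 (dg a'.1) _ _ _ = 0 at h3
        rw [h3, add_zero]
        exact h2
    rw [Matrix.det_mul] at h1
    exact right_ne_zero_of_mul h1
  · obtain ⟨u'', p'', h1, h2⟩ := hlim a D hD
    have h3 : u'' = u' a := funext fun t => funext fun i =>
      tendsto_nhds_unique (h2 t i).1 (hup a t i).1
    have h4 : p'' = p' a := funext fun t => funext fun i =>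
      tendsto_nhds_unique (h2 t i).2 (hup a t i).2
    rwa [h3, h4] at h1
  · intro t
    have h1 := (hup a t i0).2
    simp only [NineDyn_ext_i0] at h1
    exact tendsto_nhds_unique h1 tendsto_const_nhds
  · intro t ht i _
    refine tendsto_nhds_unique (hup a t i).1
      (((hup a 0 i).1.const_mul (Real.exp (dg i * t))).congr fun n => ?_)
    have hz : ∀ r : ℝ, r ≤ (k₀ : ℝ) ^ 14 → c n r = 0 := (hc n).2.1
    have hk : (0 : ℝ) ≤ (k₀ : ℝ) ^ 14 := by positivity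
    have h1 := NineDyn_xm ht₁.1 (fun r hr => hz r (hr.trans ht₁.2)) (s1 n a) (s2 n a)
    have h2 := Bg.Sol.of_nonpos (one_le_dg_emb _ _) ((s1 n a).mono (subset_univ (Iic 0)))
      (fun r hr => by simp only [hz r (hr.trans hk), Rt_zero])
      (fun r hr => by simp only [hz r (hr.trans hk), Qt_zero]) h1 ht
    exact NineDyn_ext (P := fun i y z => Real.exp (dg i * t) * y = z) _ _ (fun i => by simp)
      (fun i => (h2 i).symm) i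
  · intro t i _
    exact ⟨le_of_tendsto (hup a t i).1.abs ((hbd a |t|).mono fun n hn => (hn t le_rfl i).1),
      le_of_tendsto (hup a t i).2.abs ((hbd a |t|).mono fun n hn => (hn t le_rfl i).2)⟩

end Crest.Agent.R202
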