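import Crest.Agent.R202.OdeNorm
import Crest.Agent.Lib.Brouwer.Basic

/-!
# R202/OdeMatch: solving the matching equations by Brouwer's theorem

Unknowns `(y j, K j, ζ j, h j, d' j)` for `j ≤ Kn` in the product of `Ys j`,
`{Blk K, ‖K - 1‖ ≤ C₁ η j}`, and closed unit balls (extend to `ℕ` by `K = 1`, `h = 0` for
`j ≥ Kn`, `d' 0 = 0`; `y j` arbitrary for `j > Kn`).  With `T (j+1) = K j + Off j K`, `T 0 = 1`,
`z, dd, hh` as in the statement and `Ξ = Pz z + Pd dd + Ph hh - XM T - XdM d'` (indices as below)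
the update is `y ↦ upd`, `K ↦ (a', a) ↦ if same degree then Ξ (e a') a else 0`,
`ζ ↦ 𝓡 (𝓛 ζ - η⁻¹ • off (Ξ - inc e * T))`, `h ↦ Hz z + Hd dd + Hh hh`, `d' ↦ Mz z + Md dd + Mh hh`.
All errors other than `off (Pz * inc e) - η 𝓛 ζ` are `O(η²)`.  At a fixed point `𝓛 ζ = 𝓛 𝓡 (…)`
forces `off (Ξ - inc e * T) = 0`, and the equation for `K` kills the remaining entries.
Use `exists_fixedPoint_of_isCompact_convex` (e.g. in a product of `Fin (Kn+1) → Matrix …` with any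
norm; the topologies agree).
-/

open scoped ContDiff Topology Matrix Matrix.Norms.L2Operator
open Set Filter

noncomputable section

namespace Crest.Agent.R202

/-- Brouwer's theorem for finite sequences -/
theorem OdeMatch_seq {V : Type} [NormedAddCommGroup V] [NormedSpace ℝ V] [FiniteDimensional ℝ V]
    (N : ℕ) (v₀ : V) (S : ℕ → Set V)
    (hS : ∀ j, j ≤ N → IsCompact (S j) ∧ Convex ℝ (S j) ∧ (S j).Nonempty)
    (F : ℕ → (ℕ → V) → V)
    (hc : ∀ j, j ≤ N → ContinuousOn (F j) {x | (∀ j, j ≤ N → x j ∈ S j) ∧ ∀ j, N < j → x j = v₀})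
    (hm : ∀ x : ℕ → V, (∀ j, j ≤ N → x j ∈ S j) ∧ (∀ j, N < j → x j = v₀) →
      ∀ j, j ≤ N → F j x ∈ S j) :
    ∃ x : ℕ → V, ((∀ j, j ≤ N → x j ∈ S j) ∧ ∀ j, N < j → x j = v₀) ∧
      ∀ j, j ≤ N → F j x = x j := by
  let ex : (Fin (N + 1) → V) → ℕ → V := fun u j => if h : j < N + 1 then u ⟨j, h⟩ else v₀
  have hex : Continuous ex := by
    refine continuous_pi fun j => ?_
    by_cases h : j < N + 1
    · simp only [ex, dif_pos h]; exact continuous_apply _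
    · simp only [ex, dif_neg h]; exact continuous_const
  have hmem : ∀ u ∈ Set.pi univ (fun j : Fin (N + 1) => S j),
      (∀ j, j ≤ N → ex u j ∈ S j) ∧ ∀ j, N < j → ex u j = v₀ := by
    intro u hu
    refine ⟨fun j hj => ?_, fun j hj => ?_⟩
    · have h : j < N + 1 := Nat.lt_succ_of_le hj
      simp only [ex, dif_pos h]
      exact hu ⟨j, h⟩ (mem_univ _)
    · simp only [ex, dif_neg (by omega : ¬ j < N + 1)]
  obtain ⟨u, hu, hfix⟩ := Crest.Agent.Lib.Brouwer.exists_fixedPoint_of_isCompact_convex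
    (K := Set.pi univ (fun j : Fin (N + 1) => S j))
    (isCompact_univ_pi fun j => (hS j (Nat.le_of_lt_succ j.2)).1)
    (convex_pi fun j _ => (hS j (Nat.le_of_lt_succ j.2)).2.1)
    (univ_pi_nonempty_iff.2 fun j => (hS j (Nat.le_of_lt_succ j.2)).2.2)
    (fun u j => F j (ex u))
    (continuousOn_pi.2 fun j => (hc j (Nat.le_of_lt_succ j.2)).comp hex.continuousOn hmem)
    (fun u hu j _ => hm _ (hmem u hu) j (Nat.le_of_lt_succ j.2))
  refine ⟨ex u, hmem u hu, fun j hj => ?_⟩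
  have h : j < N + 1 := Nat.lt_succ_of_le hj
  have := congrFun hfix ⟨j, h⟩
  simp only [ex, dif_pos h] at this ⊢
  exact this

section Aux

variable {M H W Y : Type} [Fintype M] [DecidableEq M] [Fintype H] [DecidableEq H] [Fintype W]
  [DecidableEq W]

theorem OdeMatch_nm {m n k : Type} [Fintype m] [Fintype n] [DecidableEq n] [Fintype k]
    [DecidableEq k] {A : Matrix m n ℝ} {B : Matrix n k ℝ} {a b : ℝ} (hA : ‖A‖ ≤ a) (hB : ‖B‖ ≤ b) :
    ‖A * B‖ ≤ a * b :=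
  (opNorm_mul_le A B).trans (mul_le_mul hA hB (norm_nonneg _) ((norm_nonneg _).trans hA))

theorem OdeMatch_nT {T : Matrix W W ℝ} {c : ℝ} (h : ‖T - 1‖ ≤ c) : ‖T‖ ≤ c + 1 := by
  have := norm_add_le (T - 1) 1
  rw [sub_add_cancel] at this
  linarith [opNorm_one_le (n := W)]

theorem OdeMatch_ph [TopologicalSpace Y] {P : PhF Y M H W} {θ C₀ C ε : ℝ} (hP : P.Good θ C₀)
    (hC : C₀ ≤ C) (hC1 : 1 ≤ C) (hθ : θ ≤ ε) (e : W → M) (y : Y) {h : Matrix H W ℝ}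
    {d : Matrix (M ⊕ H) W ℝ} {T : Matrix W W ℝ} (hh : ‖h‖ ≤ 1) (hd : ‖d‖ ≤ 1)
    (hT : ‖T - 1‖ ≤ 1 / 2) :
    ‖P.zz e y h - inc e‖ ≤ 2 * ε ∧ ‖P.dd y h d T‖ ≤ 4 * C * ε ∧ ‖P.hh y h d T‖ ≤ 4 * ε ∧
      ‖P.XM y * T + P.XdM y * d‖ ≤ 3 * ε := by
  have hε : 0 ≤ ε := (norm_nonneg _).trans ((hP.nD y).trans hθ)
  have hT' := OdeMatch_nT hT
  refine ⟨?_, ?_, ?_, ?_⟩
  · have e1 : P.zz e y h - inc e = P.D y + P.Dh y * h := by unfold PhF.zz; abel
    rw [e1]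
    linarith [norm_add_le (P.D y) (P.Dh y * h), hP.nD y, OdeMatch_nm (hP.nDh y) hh]
  · unfold PhF.dd
    have h1 := OdeMatch_nm (OdeMatch_nm ((hP.nMd y).trans hθ) hd)
      (OdeMatch_nm (inv_of_near_one hT).2.1 ((hP.nΔi y).trans hC))
    have h2 := norm_add₃_le (a := P.m y) (b := P.Mh y * h) (c := P.Md y * d * (T⁻¹ * P.Δi y))
    have h3 := mul_le_mul_of_nonneg_right hC1 hε
    linarith [hP.nm y, OdeMatch_nm (hP.nMh y) hh]
  · unfold PhF.hh
    have h1 := OdeMatch_nm (le_refl ‖P.Hh y‖) (OdeMatch_nm (OdeMatch_nm hh (le_refl ‖P.Δ y‖)) hT')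
    have h2 := norm_add₃_le (a := P.XH y * T) (b := P.XdH y * d) (c := P.Hh y * (h * P.Δ y * T))
    linarith [hP.nHh y, OdeMatch_nm ((hP.nXH y).trans hθ) hT', OdeMatch_nm (hP.nXdH y) hd]
  · linarith [norm_add_le (P.XM y * T) (P.XdM y * d), OdeMatch_nm ((hP.nXM y).trans hθ) hT',
      OdeMatch_nm (hP.nXdM y) hd]

theorem OdeMatch_three {m : Type} [Fintype m] {A : Matrix m M ℝ} {B : Matrix m (M ⊕ H) ℝ}
    {D : Matrix m H ℝ} {z : Matrix M W ℝ} {d : Matrix (M ⊕ H) W ℝ} {h : Matrix H W ℝ} {C η : ℝ}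
    {e : W → M} (he : Function.Injective e) (hC : 1 ≤ C) (h0 : 0 ≤ η) (h1 : η ≤ 1)
    (hA : ‖A‖ ≤ C * η) (hB : ‖B‖ ≤ C) (hD : ‖D‖ ≤ C) (hz : ‖z - inc e‖ ≤ 2 * η ^ 2)
    (hd : ‖d‖ ≤ 4 * C * η ^ 2) (hh : ‖h‖ ≤ 4 * η ^ 2) :
    ‖A * z + B * d + D * h‖ ≤ 11 * C ^ 2 * η := by
  have k0 : η ^ 2 ≤ η := by nlinarith
  have k1 : ‖z‖ ≤ 3 := by
    have := norm_add_le (z - inc e) (inc e)
    rw [sub_add_cancel] at this
    linarith [opNorm_inc_le he]
  have k2 := norm_add₃_le (a := A * z) (b := B * d) (c := D * h)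
  have k3 := OdeMatch_nm hA k1
  have k4 := OdeMatch_nm hB hd
  have k5 := OdeMatch_nm hD hh
  have k6 : C ≤ C ^ 2 := by nlinarith
  have k7 := mul_le_mul_of_nonneg_right k6 h0
  have k8 := mul_le_mul_of_nonneg_left k0 (by positivity : 0 ≤ C ^ 2)
  have k9 := mul_le_mul_of_nonneg_left k0 (by linarith : 0 ≤ C)
  nlinarith

theorem OdeMatch_xi {A : Matrix M M ℝ} {B : Matrix M (M ⊕ H) ℝ}
    {D : Matrix M H ℝ} {z X : Matrix M W ℝ} {d : Matrix (M ⊕ H) W ℝ} {h : Matrix H W ℝ} {C η : ℝ}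
    {e : W → M} (hC : 1 ≤ C) (h1 : η ≤ 1)
    (hA : ‖A - 1‖ ≤ C * η) (hB : ‖B‖ ≤ C) (hD : ‖D‖ ≤ C) (hz : ‖z - inc e‖ ≤ 2 * η ^ 2)
    (hd : ‖d‖ ≤ 4 * C * η ^ 2) (hh : ‖h‖ ≤ 4 * η ^ 2) (hX : ‖X‖ ≤ 3 * η ^ 2) :
    ‖A * z + B * d + D * h - X - A * inc e‖ ≤ 15 * C ^ 2 * η ^ 2 := by
  have e1 : A * z + B * d + D * h - X - A * inc e = A * (z - inc e) + B * d + D * h - X := by
    rw [Matrix.mul_sub]; abel
  have k1 : ‖A‖ ≤ 2 * C := by
    have := mul_le_mul_of_nonneg_left h1 (by linarith : 0 ≤ C)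
    linarith [OdeMatch_nT hA]
  have k2 := norm_add₃_le (a := A * (z - inc e)) (b := B * d) (c := D * h)
  have k3 := OdeMatch_nm k1 hz
  have k4 := OdeMatch_nm hB hd
  have k5 := OdeMatch_nm hD hh
  have k6 : C ≤ C ^ 2 := by nlinarith
  have k7 := mul_le_mul_of_nonneg_right k6 (sq_nonneg η)
  have k8 := mul_le_mul_of_nonneg_right hC (sq_nonneg η)
  have k9 := norm_sub_le (A * (z - inc e) + B * d + D * h) X
  rw [e1]
  nlinarith

theorem OdeMatch_cont [TopologicalSpace Y] {P : PhF Y M H W} {θ C₀ : ℝ} (hP : P.Good θ C₀)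
    (e : W → M) {α : Type} [TopologicalSpace α] {y : α → Y} {h : α → Matrix H W ℝ}
    {d : α → Matrix (M ⊕ H) W ℝ} {T : α → Matrix W W ℝ} (cy : Continuous y) (ch : Continuous h)
    (cd : Continuous d) (cT : Continuous T) (hT : ∀ a, ‖T a - 1‖ ≤ 1 / 2) :
    Continuous (fun a => P.zz e (y a) (h a)) ∧
      Continuous (fun a => P.dd (y a) (h a) (d a) (T a)) ∧
      Continuous (fun a => P.hh (y a) (h a) (d a) (T a)) ∧
      Continuous (fun a => P.XM (y a) * T a + P.XdM (y a) * d a) := by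
  have cTi : Continuous fun a => (T a)⁻¹ := continuousOn_inv_near_one.comp_continuous cT hT
  refine ⟨?_, ?_, ?_, ?_⟩
  · exact (continuous_const.add (hP.cD.comp cy)).add ((hP.cDh.comp cy).matrix_mul ch)
  · exact ((hP.cm.comp cy).add ((hP.cMh.comp cy).matrix_mul ch)).add
      (((hP.cMd.comp cy).matrix_mul cd).matrix_mul (cTi.matrix_mul (hP.cΔi.comp cy)))
  · exact (((hP.cXH.comp cy).matrix_mul cT).add ((hP.cXdH.comp cy).matrix_mul cd)).add
      ((hP.cHh.comp cy).matrix_mul ((ch.matrix_mul (hP.cΔ.comp cy)).matrix_mul cT))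
  · exact ((hP.cXM.comp cy).matrix_mul cT).add ((hP.cXdM.comp cy).matrix_mul cd)

/-- the part of `Ξ` that defines the new `K` -/
def OdeMatch_blk (dM : M → ℕ) (e : W → M) (A : Matrix M W ℝ) : Matrix W W ℝ :=
  fun a' a => if dM (e a') = dM (e a) then A (e a') a else 0

/-- the matrices `T` -/
def OdeMatch_T (Off : ℕ → (ℕ → Matrix W W ℝ) → Matrix W W ℝ) (K : ℕ → Matrix W W ℝ) :
    ℕ → Matrix W W ℝ
  | 0 => 1
  | j + 1 => K j + Off j K

omit [Fintype M] [DecidableEq M] [Fintype W] [DecidableEq W] in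
theorem OdeMatch_cont_off (dM : M → ℕ) (e : W → M) : Continuous (off dM e) := by
  refine continuous_matrix fun i a => ?_
  unfold off
  split_ifs
  · exact continuous_const
  · exact continuous_id.matrix_elem i a

omit [Fintype M] [DecidableEq M] [Fintype W] [DecidableEq W] in
theorem OdeMatch_cont_blk (dM : M → ℕ) (e : W → M) : Continuous (OdeMatch_blk dM e) := by
  refine continuous_matrix fun i a => ?_
  unfold OdeMatch_blk
  split_ifs
  · exact continuous_id.matrix_elem _ a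
  · exact continuous_const

omit [DecidableEq M] in
theorem OdeMatch_off_le (dM : M → ℕ) (e : W → M) (A : Matrix M W ℝ) :
    ‖off dM e A‖ ≤ Fintype.card M * Fintype.card W * ‖A‖ := by
  refine opNorm_le_of_entry (norm_nonneg _) fun i a => ?_
  unfold off
  split_ifs
  · simp
  · exact abs_entry_le A i a

theorem OdeMatch_blk_le (dM : M → ℕ) {e : W → M} (he : Function.Injective e) (A : Matrix M W ℝ) :
    ‖OdeMatch_blk dM e A - 1‖ ≤ Fintype.card W * Fintype.card W * ‖A - inc e‖ := by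
  refine opNorm_le_of_entry (norm_nonneg _) fun a' a => ?_
  rw [Matrix.sub_apply]
  unfold OdeMatch_blk
  split_ifs with h
  · have h1 := abs_entry_le (A - inc e) (e a') a
    have h2 : inc e (e a') a = (1 : Matrix W W ℝ) a' a := by
      simp [inc, Matrix.one_apply, he.eq_iff]
    rwa [Matrix.sub_apply, h2] at h1
  · rw [Matrix.one_apply_ne (fun h1 => h (by rw [h1]))]
    simp

omit [Fintype M] in
theorem OdeMatch_inc_mul {e : W → M} (he : Function.Injective e) (K : Matrix W W ℝ) (a' a : W) :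
    (inc e * K) (e a') a = K a' a := by
  simp [Matrix.mul_apply, inc, he.eq_iff]

omit [Fintype M] in
theorem OdeMatch_off_inc {dM : M → ℕ} {e : W → M} (he : Function.Injective e) {K : Matrix W W ℝ}
    (hK : Blk (fun a => dM (e a)) K) : off dM e (inc e * K) = 0 := by
  ext i a
  unfold off
  split_ifs with h
  · rfl
  · by_cases hi : ∃ a', e a' = i
    · obtain ⟨a', rfl⟩ := hi
      rw [OdeMatch_inc_mul he]
      exact hK a' a h
    · rw [Matrix.mul_apply, Matrix.zero_apply]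
      refine Finset.sum_eq_zero fun a' _ => ?_
      have : ¬ i = e a' := fun h1 => hi ⟨a', h1.symm⟩
      simp [inc, this]

omit [Fintype M] [DecidableEq M] [Fintype W] [DecidableEq W] in
theorem OdeMatch_off_lin (dM : M → ℕ) (e : W → M) (A B : Matrix M W ℝ) (c : ℝ) :
    off dM e (A - c • off dM e B) = off dM e A - c • off dM e B := by
  ext i a
  simp only [off, Matrix.sub_apply, Matrix.smul_apply, smul_eq_mul]
  split_ifs <;> simp

omit [Fintype M] [DecidableEq M] [Fintype W] [DecidableEq W] in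
theorem OdeMatch_off_split (dM : M → ℕ) (e : W → M) (A B D E : Matrix M W ℝ) :
    off dM e (A - (D + E)) = off dM e B + off dM e (A - B) - off dM e D - off dM e E := by
  ext i a
  simp only [off, Matrix.sub_apply, Matrix.add_apply]
  split_ifs <;> ring

theorem OdeMatch_zeta {dM : M → ℕ} {e : W → M} (he : Function.Injective e)
    {Ξ B L : Matrix M W ℝ} {K O : Matrix W W ℝ} {C η η₀ : ℝ} (hC : 1 ≤ C) (h0 : 0 < η)
    (h1 : η ≤ η₀) (hK : Blk (fun a => dM (e a)) K) (hO : ‖O‖ ≤ C * η ^ 2)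
    (hΞ : ‖Ξ - B‖ ≤ 15 * C ^ 2 * η ^ 2) (hB : ‖off dM e B - η • L‖ ≤ η₀ * η) :
    ‖L - η⁻¹ • off dM e (Ξ - inc e * (K + O))‖ ≤
      (1 + 16 * C ^ 2 * (Fintype.card M * Fintype.card W)) * η₀ := by
  have e1 : L - η⁻¹ • off dM e (Ξ - inc e * (K + O)) =
      -η⁻¹ • (off dM e B - η • L + off dM e (Ξ - B) - off dM e (inc e * O)) := by
    rw [Matrix.mul_add, OdeMatch_off_split dM e Ξ B, OdeMatch_off_inc he hK]
    ext i a
    simp only [Matrix.sub_apply, Matrix.add_apply, Matrix.smul_apply, smul_eq_mul,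
      Matrix.zero_apply]
    field_simp
    ring
  set c : ℝ := Fintype.card M * Fintype.card W with hc
  have hc0 : 0 ≤ c := by positivity
  have k1 := (OdeMatch_off_le dM e (Ξ - B)).trans (mul_le_mul_of_nonneg_left hΞ hc0)
  have k2 := (OdeMatch_off_le dM e (inc e * O)).trans
    (mul_le_mul_of_nonneg_left (OdeMatch_nm (opNorm_inc_le he) hO) hc0)
  have k3 := norm_sub_le (off dM e B - η • L + off dM e (Ξ - B)) (off dM e (inc e * O))
  have k4 := norm_add_le (off dM e B - η • L) (off dM e (Ξ - B))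
  rw [e1, norm_smul, norm_neg, norm_inv, Real.norm_of_nonneg h0.le, inv_mul_le_iff₀ h0]
  have k5 : C ≤ C ^ 2 := by nlinarith
  have k6 : η ^ 2 ≤ η * η₀ := by nlinarith
  have k7 := mul_le_mul_of_nonneg_left k6 (by positivity : 0 ≤ c * C ^ 2)
  have k8 := mul_le_mul_of_nonneg_left k5 (by positivity : 0 ≤ c * η ^ 2)
  nlinarith

theorem OdeMatch_KS (d : W → ℕ) {r : ℝ} (hr : 0 ≤ r) :
    IsCompact {K : Matrix W W ℝ | Blk d K ∧ ‖K - 1‖ ≤ r} ∧
      Convex ℝ {K : Matrix W W ℝ | Blk d K ∧ ‖K - 1‖ ≤ r} ∧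
      {K : Matrix W W ℝ | Blk d K ∧ ‖K - 1‖ ≤ r}.Nonempty := by
  have e : {K : Matrix W W ℝ | Blk d K ∧ ‖K - 1‖ ≤ r} =
      Metric.closedBall 1 r ∩ {K : Matrix W W ℝ | Blk d K} := by
    ext K
    simp only [mem_inter_iff, mem_closedBall_iff_norm]
    exact and_comm
  have := FiniteDimensional.proper_real (Matrix W W ℝ)
  refine ⟨?_, ?_, 1, fun i j h => Matrix.one_apply_ne fun h1 => h (by rw [h1]), by simpa using hr⟩
  · rw [e]
    refine (isCompact_closedBall _ _).inter_right ?_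
    have e2 : {K : Matrix W W ℝ | Blk d K} = ⋂ i, ⋂ j, ⋂ _ : d i ≠ d j, {K | K i j = 0} := by
      ext K; simp [Blk]
    rw [e2]
    exact isClosed_iInter fun i => isClosed_iInter fun j => isClosed_iInter fun _ =>
      isClosed_eq (continuous_id.matrix_elem i j) continuous_const
  · rw [e]
    refine (convex_closedBall _ _).inter fun K hK K' hK' a b _ _ _ i j h => ?_
    simp [hK i j h, hK' i j h]

theorem OdeMatch_ball {V : Type} [NormedAddCommGroup V] [NormedSpace ℝ V] [FiniteDimensional ℝ V]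
    {r : ℝ} (hr : 0 ≤ r) : IsCompact {v : V | ‖v‖ ≤ r} ∧ Convex ℝ {v : V | ‖v‖ ≤ r} ∧
      {v : V | ‖v‖ ≤ r}.Nonempty := by
  have e : {v : V | ‖v‖ ≤ r} = Metric.closedBall 0 r := by
    ext v; exact mem_closedBall_zero_iff.symm
  have := FiniteDimensional.proper_real V
  rw [e]
  exact ⟨isCompact_closedBall _ _, convex_closedBall _ _, Metric.nonempty_closedBall.2 hr⟩

theorem OdeMatch_prod {V V' : Type} [TopologicalSpace V] [TopologicalSpace V'] [AddCommGroup V]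
    [AddCommGroup V'] [Module ℝ V] [Module ℝ V'] {S : Set V} {S' : Set V'}
    (h : IsCompact S ∧ Convex ℝ S ∧ S.Nonempty) (h' : IsCompact S' ∧ Convex ℝ S' ∧ S'.Nonempty) :
    IsCompact (S ×ˢ S') ∧ Convex ℝ (S ×ˢ S') ∧ (S ×ˢ S').Nonempty :=
  ⟨h.1.prod h'.1, h.2.1.prod h'.2.1, h.2.2.prod h'.2.2⟩

end Aux

/-- the unknowns of one step -/
abbrev OdeMatch_V (M H W : Type) (Kz : ℕ) : Type :=
  Matrix W W ℝ × Matrix W W ℝ × (Fin Kz → ℝ) × Matrix H W ℝ × Matrix (M ⊕ H) W ℝ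

theorem matching (M W : Type) [Fintype M] [DecidableEq M] [Fintype W] [DecidableEq W]
    (dM : M → ℕ) (e : W → M) (he : Function.Injective e)
    (hcl : ∀ i a, dM i = dM (e a) → ∃ a', e a' = i) (Kz : ℕ)
    (𝓛 : (Fin Kz → ℝ) →ₗ[ℝ] Matrix M W ℝ) (𝓡 : Matrix M W ℝ →ₗ[ℝ] (Fin Kz → ℝ))
    (h𝓛 : ∀ ζ, off dM e (𝓛 ζ) = 𝓛 ζ) (h𝓡 : ∀ A, off dM e A = A → 𝓛 (𝓡 A) = A) (C₀ : ℝ) :
    ∃ η₀ > 0, ∃ C₁ : ℝ, 0 ≤ C₁ ∧ C₁ * η₀ ≤ 1 / 4 ∧
    ∀ (H : Type) [Fintype H] [DecidableEq H] (Kn : ℕ)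
    (P : ℕ → PhF (Matrix W W ℝ) M H W) (Kk : ℕ → KkF (Fin Kz → ℝ) M H) (η θ : ℕ → ℝ)
    (Ys : ℕ → Set (Matrix W W ℝ)) (Off : ℕ → (ℕ → Matrix W W ℝ) → Matrix W W ℝ)
    (upd : ℕ → (ℕ → Matrix W W ℝ) × (ℕ → Matrix W W ℝ) → Matrix W W ℝ),
    (∀ j, j ≤ Kn → (P j).Good (θ j) C₀ ∧ IsCompact (Ys j) ∧ Convex ℝ (Ys j) ∧ (Ys j).Nonempty ∧
      ContinuousOn (upd j) {x | ∀ i, ‖x.2 i - 1‖ ≤ 1 / 4} ∧
      ∀ y K, (∀ i, i ≤ Kn → y i ∈ Ys i) →
        (∀ i, i < Kn → Blk (fun a => dM (e a)) (K i) ∧ ‖K i - 1‖ ≤ C₁ * η i) →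
        (∀ i, Kn ≤ i → K i = 1) → upd j (y, K) ∈ Ys j) →
    (∀ j, j < Kn → 0 < η j ∧ η j ≤ η₀ ∧ θ j ≤ η j ^ 2 ∧ θ (j + 1) ≤ η j ^ 2 ∧
      (Kk j).Good (η j) C₀ ∧
      (∀ ζ, ‖ζ‖ ≤ 1 → ‖off dM e ((Kk j).Pz ζ * inc e) - η j • 𝓛 ζ‖ ≤ η₀ * η j) ∧
      ContinuousOn (Off j) {K | ∀ i, ‖K i - 1‖ ≤ 1 / 4} ∧
      ∀ K : ℕ → Matrix W W ℝ, (∀ i, Blk (fun a => dM (e a)) (K i) ∧ ‖K i - 1‖ ≤ 1 / 4) →
        ‖Off j K‖ ≤ C₀ * η j ^ 2 ∧ ∀ a a', dM (e a) = dM (e a') → Off j K a a' = 0) →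
    ∃ (y K T : ℕ → Matrix W W ℝ) (ζ : ℕ → Fin Kz → ℝ) (h : ℕ → Matrix H W ℝ)
      (d' : ℕ → Matrix (M ⊕ H) W ℝ),
      T 0 = 1 ∧ d' 0 = 0 ∧ h Kn = 0 ∧ (∀ j, Kn ≤ j → K j = 1) ∧
      (∀ j, j ≤ Kn → y j ∈ Ys j ∧ upd j (y, K) = y j ∧ ‖T j - 1‖ ≤ 1 / 2 ∧ ‖h j‖ ≤ 1 ∧
        ‖d' j‖ ≤ 1) ∧
      ∀ j, j < Kn → Blk (fun a => dM (e a)) (K j) ∧ ‖K j - 1‖ ≤ C₁ * η j ∧ ‖ζ j‖ ≤ 1 ∧
        T (j + 1) = K j + Off j K ∧
        (Kk j).Pz (ζ j) * (P j).zz e (y j) (h j)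
            + (Kk j).Pd (ζ j) * (P j).dd (y j) (h j) (d' j) (T j)
            + (Kk j).Ph (ζ j) * (P (j + 1)).hh (y (j + 1)) (h (j + 1)) (d' (j + 1)) (T (j + 1))
          = (inc e + (P (j + 1)).XM (y (j + 1))) * T (j + 1)
            + (P (j + 1)).XdM (y (j + 1)) * d' (j + 1) ∧
        (Kk j).Mz (ζ j) * (P j).zz e (y j) (h j)
            + (Kk j).Md (ζ j) * (P j).dd (y j) (h j) (d' j) (T j)
            + (Kk j).Mh (ζ j) * (P (j + 1)).hh (y (j + 1)) (h (j + 1)) (d' (j + 1)) (T (j + 1))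
          = d' (j + 1) ∧
        (Kk j).Hz (ζ j) * (P j).zz e (y j) (h j)
            + (Kk j).Hd (ζ j) * (P j).dd (y j) (h j) (d' j) (T j)
            + (Kk j).Hh (ζ j) * (P (j + 1)).hh (y (j + 1)) (h (j + 1)) (d' (j + 1)) (T (j + 1))
          = h j := by
  obtain ⟨R, hR0, hR⟩ : ∃ R : ℝ, 0 ≤ R ∧ ∀ A, ‖𝓡 A‖ ≤ R * ‖A‖ :=
    ⟨‖LinearMap.toContinuousLinearMap 𝓡‖, ContinuousLinearMap.opNorm_nonneg _,
      fun A => (LinearMap.toContinuousLinearMap 𝓡).le_opNorm A⟩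
  obtain ⟨C, hC, hC1⟩ : ∃ C, C₀ ≤ C ∧ 1 ≤ C := ⟨max C₀ 1, le_max_left _ _, le_max_right _ _⟩
  obtain ⟨C₁, hC₁⟩ : ∃ c : ℝ, c = Fintype.card W * Fintype.card W * (16 * C ^ 2) := ⟨_, rfl⟩
  obtain ⟨R₁, hR₁⟩ : ∃ c : ℝ, c = 1 + 16 * C ^ 2 * (Fintype.card M * Fintype.card W) := ⟨_, rfl⟩
  have hC₁0 : 0 ≤ C₁ := by rw [hC₁]; positivity
  have hR₁0 : 0 ≤ R * R₁ := by rw [hR₁]; positivity
  have hCC : C ≤ C ^ 2 := by nlinarith
  obtain ⟨η₀, hη₀, hG⟩ : ∃ η₀ : ℝ, 0 < η₀ ∧ (4 * C₁ + 11 * C ^ 2 + R * R₁) * η₀ = 1 :=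
    ⟨(4 * C₁ + 11 * C ^ 2 + R * R₁)⁻¹, inv_pos.2 (by linarith),
      mul_inv_cancel₀ (ne_of_gt (by linarith))⟩
  have p1 := mul_nonneg hC₁0 hη₀.le
  have p2 := mul_nonneg hR₁0 hη₀.le
  have p3 := mul_le_mul_of_nonneg_right hCC hη₀.le
  have p4 := mul_le_mul_of_nonneg_right hC1 hη₀.le
  have g1 : C₁ * η₀ ≤ 1 / 4 := by linarith
  have g2 : 11 * C ^ 2 * η₀ ≤ 1 := by linarith
  have g3 : R * (R₁ * η₀) ≤ 1 := by linarith
  have g4 : η₀ ≤ 1 := by linarith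
  have g5 : C * η₀ ≤ 1 / 4 := by linarith
  refine ⟨η₀, hη₀, C₁, hC₁0, g1, ?_⟩
  intro H _ _ Kn P Kk η θ Ys Off upd hA hB
  let S : ℕ → Set (OdeMatch_V M H W Kz) := fun j => Ys j ×ˢ
    {K | Blk (fun a => dM (e a)) K ∧ ‖K - 1‖ ≤ if j < Kn then C₁ * η j else 0} ×ˢ
    {v | ‖v‖ ≤ 1} ×ˢ {v | ‖v‖ ≤ if j < Kn then 1 else 0} ×ˢ {v | ‖v‖ ≤ if j = 0 then 0 else 1}
  let D : Set (ℕ → OdeMatch_V M H W Kz) :=
    {x | (∀ j, j ≤ Kn → x j ∈ S j) ∧ ∀ j, Kn < j → x j = (1, 1, 0, 0, 0)}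
  let T : (ℕ → OdeMatch_V M H W Kz) → ℕ → Matrix W W ℝ := fun x =>
    OdeMatch_T Off fun i => (x i).2.1
  let z : (ℕ → OdeMatch_V M H W Kz) → ℕ → Matrix M W ℝ := fun x j =>
    (P j).zz e (x j).1 (x j).2.2.2.1
  let dd : (ℕ → OdeMatch_V M H W Kz) → ℕ → Matrix (M ⊕ H) W ℝ := fun x j =>
    (P j).dd (x j).1 (x j).2.2.2.1 (x j).2.2.2.2 (T x j)
  let hh : (ℕ → OdeMatch_V M H W Kz) → ℕ → Matrix H W ℝ := fun x j =>
    (P j).hh (x j).1 (x j).2.2.2.1 (x j).2.2.2.2 (T x j)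
  let XX : (ℕ → OdeMatch_V M H W Kz) → ℕ → Matrix M W ℝ := fun x j =>
    (P j).XM (x j).1 * T x j + (P j).XdM (x j).1 * (x j).2.2.2.2
  let Ξ : (ℕ → OdeMatch_V M H W Kz) → ℕ → Matrix M W ℝ := fun x j =>
    (Kk j).Pz (x j).2.2.1 * z x j + (Kk j).Pd (x j).2.2.1 * dd x j +
      (Kk j).Ph (x j).2.2.1 * hh x (j + 1) - XX x (j + 1)
  let hN : (ℕ → OdeMatch_V M H W Kz) → ℕ → Matrix H W ℝ := fun x j =>
    (Kk j).Hz (x j).2.2.1 * z x j + (Kk j).Hd (x j).2.2.1 * dd x j +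
      (Kk j).Hh (x j).2.2.1 * hh x (j + 1)
  let dN : (ℕ → OdeMatch_V M H W Kz) → ℕ → Matrix (M ⊕ H) W ℝ := fun x j =>
    (Kk j).Mz (x j).2.2.1 * z x j + (Kk j).Md (x j).2.2.1 * dd x j +
      (Kk j).Mh (x j).2.2.1 * hh x (j + 1)
  let AA : (ℕ → OdeMatch_V M H W Kz) → ℕ → Matrix M W ℝ := fun x j =>
    𝓛 (x j).2.2.1 - (η j)⁻¹ • off dM e (Ξ x j - inc e * T x (j + 1))
  let F : ℕ → (ℕ → OdeMatch_V M H W Kz) → OdeMatch_V M H W Kz := fun j x =>
    (upd j (fun i => (x i).1, fun i => (x i).2.1),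
      if j < Kn then OdeMatch_blk dM e (Ξ x j) else 1,
      if j < Kn then 𝓡 (AA x j) else 0,
      if j < Kn then hN x j else 0,
      if j = 0 then 0 else dN x (j - 1))
  have hblk1 : Blk (fun a => dM (e a)) (1 : Matrix W W ℝ) :=
    fun i j h => Matrix.one_apply_ne fun h1 => h (by rw [h1])
  -- facts on `D`
  have fy : ∀ x ∈ D, ∀ j, j ≤ Kn → (x j).1 ∈ Ys j := fun x hx j hj => (hx.1 j hj).1
  have fK : ∀ x ∈ D, ∀ j, j < Kn →
      Blk (fun a => dM (e a)) (x j).2.1 ∧ ‖(x j).2.1 - 1‖ ≤ C₁ * η j := fun x hx j hj => by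
    have := (hx.1 j hj.le).2.1
    rwa [mem_ofPred_eq, if_pos hj] at this
  have fK1 : ∀ x ∈ D, ∀ j, Kn ≤ j → (x j).2.1 = 1 := fun x hx j hj => by
    rcases hj.eq_or_lt with rfl | hj
    · have := (hx.1 Kn le_rfl).2.1.2
      rwa [if_neg (lt_irrefl _), norm_le_zero_iff, sub_eq_zero] at this
    · rw [hx.2 j hj]
  have fK4 : ∀ x ∈ D, ∀ j,
      Blk (fun a => dM (e a)) (x j).2.1 ∧ ‖(x j).2.1 - 1‖ ≤ 1 / 4 := fun x hx j => by
    rcases lt_or_ge j Kn with hj | hj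
    · exact ⟨(fK x hx j hj).1, (fK x hx j hj).2.trans
        ((mul_le_mul_of_nonneg_left (hB j hj).2.1 hC₁0).trans g1)⟩
    · rw [fK1 x hx j hj]
      exact ⟨hblk1, by simp⟩
  have fζ : ∀ x ∈ D, ∀ j, j ≤ Kn → ‖(x j).2.2.1‖ ≤ 1 := fun x hx j hj => (hx.1 j hj).2.2.1
  have fh : ∀ x ∈ D, ∀ j, j ≤ Kn → ‖(x j).2.2.2.1‖ ≤ 1 := fun x hx j hj =>
    le_trans (hx.1 j hj).2.2.2.1 (by split_ifs <;> norm_num)
  have fd : ∀ x ∈ D, ∀ j, j ≤ Kn → ‖(x j).2.2.2.2‖ ≤ 1 := fun x hx j hj =>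
    le_trans (hx.1 j hj).2.2.2.2 (by split_ifs <;> norm_num)
  have fO : ∀ x ∈ D, ∀ j, j < Kn → ‖Off j fun i => (x i).2.1‖ ≤ C * η j ^ 2 := fun x hx j hj =>
    ((hB j hj).2.2.2.2.2.2.2 _ (fK4 x hx)).1.trans (mul_le_mul_of_nonneg_right hC (sq_nonneg _))
  have fT : ∀ x ∈ D, ∀ j, j ≤ Kn → ‖T x j - 1‖ ≤ 1 / 2 := fun x hx j hj => by
    cases j with
    | zero => simp [T, OdeMatch_T]
    | succ j =>
      have hj' : j < Kn := hj
      have e1 : T x (j + 1) - 1 = (x j).2.1 - 1 + Off j fun i => (x i).2.1 := by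
        show (x j).2.1 + (Off j fun i => (x i).2.1) - 1 = _
        abel
      have h1 := norm_add_le ((x j).2.1 - 1) (Off j fun i => (x i).2.1)
      obtain ⟨h2, h3, -⟩ := hB j hj'
      have h4 : η j ^ 2 ≤ η₀ := by nlinarith
      have h5 := mul_le_mul_of_nonneg_left h4 (by linarith : 0 ≤ C)
      rw [e1]
      linarith [fO x hx j hj', (fK4 x hx j).2]
  have est : ∀ x ∈ D, ∀ j, j < Kn →
      ‖Ξ x j - (Kk j).Pz (x j).2.2.1 * inc e‖ ≤ 15 * C ^ 2 * η j ^ 2 ∧ ‖hN x j‖ ≤ 1 ∧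
        ‖dN x j‖ ≤ 1 := fun x hx j hj => by
    obtain ⟨h1, h2, h3, h4, h5, -⟩ := hB j hj
    obtain ⟨k1, k2, -, -⟩ := OdeMatch_ph (hA j hj.le).1 hC hC1 h3 e (x j).1 (fh x hx j hj.le)
      (fd x hx j hj.le) (fT x hx j hj.le)
    obtain ⟨-, -, k3, k4⟩ := OdeMatch_ph (hA (j + 1) hj).1 hC hC1 h4 e (x (j + 1)).1
      (fh x hx (j + 1) hj) (fd x hx (j + 1) hj) (fT x hx (j + 1) hj)
    have h6 := mul_le_mul_of_nonneg_right hC h1.le
    have h7 : 11 * C ^ 2 * η j ≤ 1 :=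
      (mul_le_mul_of_nonneg_left h2 (by positivity)).trans g2
    exact ⟨OdeMatch_xi hC1 (h2.trans g4) ((h5.nPz _).trans h6) ((h5.nPd _).trans hC)
        ((h5.nPh _).trans hC) k1 k2 k3 k4,
      (OdeMatch_three he hC1 h1.le (h2.trans g4) ((h5.nHz _).trans h6) ((h5.nHd _).trans hC)
        ((h5.nHh _).trans hC) k1 k2 k3).trans h7,
      (OdeMatch_three he hC1 h1.le (h2.trans g4) ((h5.nMz _).trans h6) ((h5.nMd _).trans hC)
        ((h5.nMh _).trans hC) k1 k2 k3).trans h7⟩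
  -- continuity on `D`
  have cx : ∀ i, Continuous fun a : D => a.1 i := fun i =>
    (continuous_apply i).comp continuous_subtype_val
  have cT : ∀ j, j ≤ Kn → Continuous fun a : D => T a.1 j := fun j hj => by
    cases j with
    | zero => exact continuous_const
    | succ j =>
      exact (cx j).snd.fst.add ((hB j hj).2.2.2.2.2.2.1.comp_continuous
        (continuous_pi fun i => (cx i).snd.fst) fun a i => (fK4 a.1 a.2 i).2)
  have cP : ∀ j, j ≤ Kn → Continuous (fun a : D => z a.1 j) ∧ Continuous (fun a : D => dd a.1 j) ∧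
      Continuous (fun a : D => hh a.1 j) ∧ Continuous (fun a : D => XX a.1 j) := fun j hj =>
    OdeMatch_cont (hA j hj).1 e (cx j).fst (cx j).snd.snd.snd.fst (cx j).snd.snd.snd.snd (cT j hj)
      fun a => fT a.1 a.2 j hj
  have cN : ∀ j, j < Kn → Continuous (fun a : D => Ξ a.1 j) ∧ Continuous (fun a : D => hN a.1 j) ∧
      Continuous (fun a : D => dN a.1 j) := fun j hj => by
    obtain ⟨-, -, -, -, h5, -⟩ := hB j hj
    obtain ⟨k1, k2, -, -⟩ := cP j hj.le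
    obtain ⟨-, -, k3, k4⟩ := cP (j + 1) hj
    have cζ := (cx j).snd.snd.fst
    exact ⟨((((h5.cPz.comp cζ).matrix_mul k1).add ((h5.cPd.comp cζ).matrix_mul k2)).add
        ((h5.cPh.comp cζ).matrix_mul k3)).sub k4,
      (((h5.cHz.comp cζ).matrix_mul k1).add ((h5.cHd.comp cζ).matrix_mul k2)).add
        ((h5.cHh.comp cζ).matrix_mul k3),
      (((h5.cMz.comp cζ).matrix_mul k1).add ((h5.cMd.comp cζ).matrix_mul k2)).add
        ((h5.cMh.comp cζ).matrix_mul k3)⟩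
  have hS : ∀ j, j ≤ Kn → IsCompact (S j) ∧ Convex ℝ (S j) ∧ (S j).Nonempty := fun j hj => by
    refine OdeMatch_prod ⟨(hA j hj).2.1, (hA j hj).2.2.1, (hA j hj).2.2.2.1⟩
      (OdeMatch_prod (OdeMatch_KS _ ?_) (OdeMatch_prod (OdeMatch_ball zero_le_one)
        (OdeMatch_prod (OdeMatch_ball ?_) (OdeMatch_ball ?_))))
    · split_ifs with h
      · exact mul_nonneg hC₁0 (hB j h).1.le
      · exact le_rfl
    · split_ifs <;> norm_num
    · split_ifs <;> norm_num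
  have hc : ∀ j, j ≤ Kn → ContinuousOn (F j) D := fun j hj => by
    rw [continuousOn_iff_continuous_domRestrict]
    refine Continuous.prodMk ?_ (Continuous.prodMk ?_ (Continuous.prodMk ?_
      (Continuous.prodMk ?_ ?_)))
    · exact (hA j hj).2.2.2.2.1.comp_continuous
        ((continuous_pi fun i => (cx i).fst).prodMk (continuous_pi fun i => (cx i).snd.fst))
        fun a i => (fK4 a.1 a.2 i).2
    · split_ifs with h
      · exact (OdeMatch_cont_blk dM e).comp (cN j h).1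
      · exact continuous_const
    · split_ifs with h
      · exact 𝓡.continuous_of_finiteDimensional.comp
          ((𝓛.continuous_of_finiteDimensional.comp (cx j).snd.snd.fst).sub
            (((OdeMatch_cont_off dM e).comp
              ((cN j h).1.sub (continuous_const.matrix_mul (cT (j + 1) h)))).const_smul
                (η j)⁻¹))
      · exact continuous_const
    · split_ifs with h
      · exact (cN j h).2.1
      · exact continuous_const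
    · split_ifs with h
      · exact continuous_const
      · exact (cN (j - 1) (by omega)).2.2
  have hm : ∀ x ∈ D, ∀ j, j ≤ Kn → F j x ∈ S j := fun x hx j hj => by
    refine ⟨(hA j hj).2.2.2.2.2 _ _ (fy x hx) (fK x hx) (fK1 x hx), ?_, ?_, ?_, ?_⟩
    · show Blk _ (if j < Kn then OdeMatch_blk dM e (Ξ x j) else 1) ∧
        ‖(if j < Kn then OdeMatch_blk dM e (Ξ x j) else 1) - 1‖ ≤ if j < Kn then C₁ * η j else 0
      split_ifs with h
      · refine ⟨fun a a' h1 => if_neg h1, (OdeMatch_blk_le dM he _).trans ?_⟩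
        obtain ⟨h1, h2, -, -, h5, -⟩ := hB j h
        have k1 := (est x hx j h).1
        have k2 := OdeMatch_nm ((h5.nPz (x j).2.2.1).trans (mul_le_mul_of_nonneg_right hC h1.le))
          (opNorm_inc_le he)
        have k3 := norm_add_le (Ξ x j - (Kk j).Pz (x j).2.2.1 * inc e)
          (((Kk j).Pz (x j).2.2.1 - 1) * inc e)
        rw [Matrix.sub_mul, Matrix.one_mul, sub_add_sub_cancel] at k3
        rw [Matrix.sub_mul, Matrix.one_mul] at k2
        have k4 : η j ^ 2 ≤ η j := by nlinarith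
        have k5 := mul_le_mul_of_nonneg_left k4 (sq_nonneg C)
        have k6 := mul_le_mul_of_nonneg_right hCC h1.le
        rw [hC₁, mul_assoc _ (16 * C ^ 2)]
        exact mul_le_mul_of_nonneg_left (by linarith) (by positivity)
      · exact ⟨hblk1, by simp⟩
    · show ‖if j < Kn then 𝓡 (AA x j) else 0‖ ≤ 1
      split_ifs with h
      · obtain ⟨h1, h2, -, -, -, h6, -⟩ := hB j h
        have k1 : ‖AA x j‖ ≤ R₁ * η₀ := by
          rw [hR₁]
          exact OdeMatch_zeta he hC1 h1 h2 (fK x hx j h).1 (fO x hx j h) (est x hx j h).1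
            (h6 _ (fζ x hx j hj))
        exact ((hR _).trans (mul_le_mul_of_nonneg_left k1 hR0)).trans g3
      · simp
    · show ‖if j < Kn then hN x j else 0‖ ≤ if j < Kn then 1 else 0
      split_ifs with h
      · exact (est x hx j h).2.1
      · simp
    · show ‖if j = 0 then 0 else dN x (j - 1)‖ ≤ if j = 0 then 0 else 1
      split_ifs with h
      · simp
      · exact (est x hx (j - 1) (by omega)).2.2
  obtain ⟨x, hx, hfix⟩ := OdeMatch_seq Kn (1, 1, 0, 0, 0) S hS F hc hm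
  have hxD : x ∈ D := hx
  refine ⟨fun i => (x i).1, fun i => (x i).2.1, T x, fun i => (x i).2.2.1, fun i => (x i).2.2.2.1,
    fun i => (x i).2.2.2.2, rfl, ?_, ?_, fK1 x hxD, fun j hj => ⟨fy x hxD j hj,
      congrArg Prod.fst (hfix j hj), fT x hxD j hj, fh x hxD j hj, fd x hxD j hj⟩,
    fun j hj => ⟨(fK x hxD j hj).1, (fK x hxD j hj).2, fζ x hxD j hj.le, rfl, ?_, ?_, ?_⟩⟩
  · have := (hx.1 0 (Nat.zero_le _)).2.2.2.2
    rwa [mem_ofPred_eq, if_pos rfl, norm_le_zero_iff] at this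
  · have := (hx.1 Kn le_rfl).2.2.2.1
    rwa [mem_ofPred_eq, if_neg (lt_irrefl _), norm_le_zero_iff] at this
  · have e1 : (if j < Kn then OdeMatch_blk dM e (Ξ x j) else 1) = (x j).2.1 :=
      congrArg (fun v => v.2.1) (hfix j hj.le)
    have e2 : (if j < Kn then 𝓡 (AA x j) else 0) = (x j).2.2.1 :=
      congrArg (fun v => v.2.2.1) (hfix j hj.le)
    rw [if_pos hj] at e1 e2
    have e3 : 𝓛 (𝓡 (AA x j)) = AA x j :=
      h𝓡 _ (by simp only [AA]; rw [OdeMatch_off_lin, h𝓛])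
    rw [e2] at e3
    have e4 : off dM e (Ξ x j - inc e * T x (j + 1)) = 0 := by
      have e5 : (η j)⁻¹ • off dM e (Ξ x j - inc e * T x (j + 1)) = 0 := sub_eq_self.1 e3.symm
      exact (smul_eq_zero.1 e5).resolve_left (inv_ne_zero (hB j hj).1.ne')
    have e5 : Ξ x j = inc e * T x (j + 1) := by
      ext i a
      by_cases h : dM i = dM (e a)
      · obtain ⟨a', rfl⟩ := hcl i a h
        rw [OdeMatch_inc_mul he]
        show _ = (x j).2.1 a' a + Off j (fun i => (x i).2.1) a' a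
        rw [((hB j hj).2.2.2.2.2.2.2 _ (fK4 x hxD)).2 a' a h, add_zero, ← e1]
        exact (if_pos h).symm
      · have := congrFun (congrFun e4 i) a
        simp only [off, if_neg h, Matrix.sub_apply, Matrix.zero_apply] at this
        exact sub_eq_zero.1 this
    rw [Matrix.add_mul, ← e5]
    exact (sub_add_cancel _ (XX x (j + 1))).symm.trans (add_assoc (Ξ x j) _ _).symm
  · have e1 : (if j + 1 = 0 then 0 else dN x (j + 1 - 1)) = (x (j + 1)).2.2.2.2 :=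
      congrArg (fun v => v.2.2.2.2) (hfix (j + 1) hj)
    rwa [if_neg (Nat.succ_ne_zero j)] at e1
  · have e1 : (if j < Kn then hN x j else 0) = (x j).2.2.2.1 :=
      congrArg (fun v => v.2.2.2.1) (hfix j hj.le)
    rwa [if_pos hj] at e1

end Crest.Agent.R202
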