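import Crest.Agent.R202.NineFinAux
import Crest.Agent.R202.NineChain
import Crest.Agent.R202.OdeMatch

/-!
# R202/NineFinCore: the matching problem for `n` stages
-/

open scoped Topology Matrix Matrix.Norms.L2Operator
open Set Filter

noncomputable section

namespace Crest.Agent.R202

theorem PhF.Good.mono {Y M H W : Type} [Fintype M] [DecidableEq M] [Fintype H] [DecidableEq H]
    [Fintype W] [DecidableEq W] [TopologicalSpace Y] {P : PhF Y M H W} {θ C θ' C' : ℝ}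
    (h : P.Good θ C) (hθ : θ ≤ θ') (hC : C ≤ C') : P.Good θ' C' :=
  ⟨h.cXM, h.cXH, h.cD, h.cm, h.cΔ, h.cΔi, h.cXdM, h.cXdH, h.cMd, h.cHh, h.cDh, h.cMh, h.inv,
    fun y => (h.nXM y).trans hθ, fun y => (h.nXH y).trans hθ, fun y => (h.nD y).trans hθ,
    fun y => (h.nm y).trans hθ, fun y => (h.nΔi y).trans hC, fun y => (h.nXdM y).trans hθ,
    fun y => (h.nXdH y).trans hθ, fun y => (h.nMd y).trans hθ, fun y => (h.nHh y).trans hθ,
    fun y => (h.nDh y).trans hθ, fun y => (h.nMh y).trans hθ⟩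

theorem KkF.Good.mono {Y M H : Type} [Fintype M] [DecidableEq M] [Fintype H] [DecidableEq H]
    [TopologicalSpace Y] {K : KkF Y M H} {η C C' : ℝ} (h : K.Good η C) (hη : 0 ≤ η)
    (hC : C ≤ C') : K.Good η C' :=
  have h1 := mul_le_mul_of_nonneg_right hC hη
  ⟨h.cPz, h.cPd, h.cPh, h.cMz, h.cMd, h.cMh, h.cHz, h.cHd, h.cHh,
    fun y => (h.nPz y).trans h1, fun y => (h.nPd y).trans hC, fun y => (h.nPh y).trans hC,
    fun y => (h.nMz y).trans h1, fun y => (h.nMd y).trans hC, fun y => (h.nMh y).trans hC,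
    fun y => (h.nHz y).trans h1, fun y => (h.nHd y).trans hC, fun y => (h.nHh y).trans hC⟩

variable {W : Type} [Fintype W] [DecidableEq W]

/-- the block parts of the two kicks before a slow phase -/
def nfKp (K : ℕ → Matrix W W ℝ) : ℕ → Matrix W W ℝ
  | 0 => 1
  | i + 1 => K (3 * i + 2) * K (3 * i + 1)

/-- the prescribed off-diagonal parts of the kicks -/
def nfOff (p : W → Prop) [DecidablePred p] (τ : Equiv.Perm W) (η : ℕ → ℝ) (φ ψ : ℕ → W → ℝ) :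
    ℕ → (ℕ → Matrix W W ℝ) → Matrix W W ℝ :=
  tri (fun i K => Uab p τ (fun _ => η i ^ 2) * K (3 * i))
    (fun i K => K (3 * i + 1) * Lba p τ fun a => -φ i (τ a) / (η i ^ 2 * φ i a))
    (fun i K => K (3 * i + 2) * K (3 * i + 1)
      * (Uab p τ fun a => η i ^ 2 * φ i a * ψ i a / (ψ i (τ a) * φ i (τ a))) * (K (3 * i + 1))⁻¹)

theorem nfOff_cont (p : W → Prop) [DecidablePred p] (τ : Equiv.Perm W) (η : ℕ → ℝ)
    (φ ψ : ℕ → W → ℝ) (j : ℕ) :
    ContinuousOn (nfOff p τ η φ ψ j) {K | ∀ i, ‖K i - 1‖ ≤ 1 / 4} := by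
  unfold nfOff
  obtain ⟨i, rfl | rfl | rfl⟩ := nat_tri j
  · rw [tri_zero]
    exact (continuous_const.matrix_mul (continuous_apply _)).continuousOn
  · rw [tri_one]
    exact ((continuous_apply _).matrix_mul continuous_const).continuousOn
  · rw [tri_two]
    have h1 : ContinuousOn (fun K : ℕ → Matrix W W ℝ => (K (3 * i + 1))⁻¹)
        {K | ∀ i, ‖K i - 1‖ ≤ 1 / 4} :=
      continuousOn_inv_near_one.comp (continuous_apply (3 * i + 1)).continuousOn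
        fun K hK => (hK _).trans (by norm_num : (1 / 4 : ℝ) ≤ 1 / 2)
    exact ContinuousOn.mul ((((continuous_apply _).matrix_mul (continuous_apply _)).matrix_mul
      continuous_const).continuousOn) h1

theorem nfOff_bd {d : W → ℕ} (p : W → Prop) [DecidablePred p] (τ : Equiv.Perm W)
    (hpd : ∀ a, p a → d (τ a) ≠ d a) {η : ℕ → ℝ} {φ ψ : ℕ → W → ℝ} (hη : ∀ i, 0 < η i)
    (hφ : ∀ i a, φ i a ≠ 0) (hψ : ∀ i a, ψ i a ≠ 0)
    (h1 : ∀ i a, p a → |φ i (τ a)| ≤ η i ^ 4 * |φ i a|)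
    (h2 : ∀ i a, p a → |φ i a| * |ψ i a| ≤ |ψ i (τ a)| * |φ i (τ a)|) (j : ℕ)
    (K : ℕ → Matrix W W ℝ) (hK : ∀ i, Blk d (K i) ∧ ‖K i - 1‖ ≤ 1 / 4) :
    ‖nfOff p τ η φ ψ j K‖ ≤ 4 * (Fintype.card W * Fintype.card W) * η (j / 3) ^ 2 ∧
      OffB d (nfOff p τ η φ ψ j K) := by
  have nK := fun i => nf_norm_le (hK i).2
  unfold nfOff
  obtain ⟨i, rfl | rfl | rfl⟩ := nat_tri j
  · rw [tri_zero, show 3 * i / 3 = i by omega]
    have a1 := norm_Uab_le p τ (η := fun _ => η i ^ 2) (sq_nonneg (η i)) fun a _ =>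
      (abs_of_nonneg (sq_nonneg _)).le
    refine ⟨(OdeMatch_nm a1 (nK _)).trans ?_, ((offB_Uab p τ _ hpd).1.mul_blk (hK _).1).1⟩
    have : 0 ≤ (Fintype.card W : ℝ) * Fintype.card W * η i ^ 2 := by positivity
    linarith
  · rw [tri_one, show (3 * i + 1) / 3 = i by omega]
    have a1 := norm_Lba_le p τ (η := fun a => -φ i (τ a) / (η i ^ 2 * φ i a)) (sq_nonneg (η i))
      fun a ha => by
        have b1 := abs_pos.2 (hφ i a)
        have b2 := pow_pos (hη i) 2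
        rw [abs_div, abs_neg, abs_mul, abs_of_pos b2, div_le_iff₀ (by positivity)]
        linarith [h1 i a ha]
    refine ⟨(OdeMatch_nm (nK _) a1).trans ?_, ((offB_Uab p τ _ hpd).2.mul_blk (hK _).1).2⟩
    have : 0 ≤ (Fintype.card W : ℝ) * Fintype.card W * η i ^ 2 := by positivity
    linarith
  · rw [tri_two, show (3 * i + 2) / 3 = i by omega]
    have a1 := norm_Uab_le p τ (η := fun a => η i ^ 2 * φ i a * ψ i a / (ψ i (τ a) * φ i (τ a)))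
      (sq_nonneg (η i)) fun a ha => by
        have b1 := abs_pos.2 (hφ i (τ a))
        have b3 := abs_pos.2 (hψ i (τ a))
        have b2 := pow_pos (hη i) 2
        rw [abs_div, abs_mul, abs_mul, abs_mul, abs_of_pos b2, div_le_iff₀ (by positivity),
          mul_assoc]
        exact mul_le_mul_of_nonneg_left (h2 i a ha) b2.le
    have a2 := (inv_of_near_one ((hK (3 * i + 1)).2.trans (by norm_num : (1 / 4 : ℝ) ≤ 1 / 2))).2.1
    refine ⟨(OdeMatch_nm (OdeMatch_nm (OdeMatch_nm (nK _) (nK _)) a1) a2).trans ?_,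
      ((((offB_Uab p τ _ hpd).1.mul_blk ((hK _).1.mul (hK _).1)).2).mul_blk (hK _).1.inv).1⟩
    have : 0 ≤ (Fintype.card W : ℝ) * Fintype.card W * η i ^ 2 := by positivity
    linarith

/-- the amplitudes at the ends of the slow phases -/
theorem nf_amp {d : W → ℕ} (p : W → Prop) [DecidablePred p] (τ ρ : Equiv.Perm W)
    (hτ : ∀ i, τ (τ i) = i) (hp : ∀ i, p i → ¬ p (τ i)) (hfix : ∀ i, ¬ p i → ¬ p (τ i) → τ i = i)
    (hρ : ∀ i, d (ρ i) = d i) {η γ : ℕ → ℝ} {φ : ℕ → W → ℝ} {ψ ω : ℕ → ℕ → ℝ} {f : ℕ → W → ℝ}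
    {b₀ : ℝ} (hη : ∀ i, 0 < η i ∧ η i ≤ 1) (hφ : ∀ i a, φ i a ≠ 0) (hψ : ∀ i a, ψ i (d a) ≠ 0)
    (hγ : ∀ i a, |φ i a| * |ψ i (d a)| ≤ η i ^ 2 * Real.exp (γ i))
    (hf0 : ∀ a, |f 0 a| ≤ Real.exp b₀) (hf : ∀ i a, |f (i + 1) a| ≤ Real.exp (ω i (d a))) {n : ℕ}
    {K T Δ : ℕ → Matrix W W ℝ} (hK : ∀ i, Blk d (K i) ∧ ‖K i - 1‖ ≤ 1 / 4)
    (hT : ∀ j, j < 3 * n → T (j + 1) = K j + nfOff p τ η φ (fun i a => ψ i (d a)) j K)
    (h1 : ∀ i, Δ (3 * i + 1) = Matrix.diagonal (φ i))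
    (h2 : ∀ i, Δ (3 * i + 2) = Matrix.diagonal fun a => ψ i (d a))
    (h3 : ∀ i, i ≤ n → K (3 * i) * Δ (3 * i) * nfKp K i = sperm ρ (f i)) (i : ℕ) (hi : i ≤ n) :
    ∃ F : W → ℝ, K (3 * i) * amp Δ T (3 * i) = sperm ((ρ * τ) ^ i * ρ) F ∧ ∀ c, |F c| ≤ Real.exp
      (b₀ + ∑ j ∈ Finset.range i, (ω j (d (((ρ * τ) ^ j) ((ρ * τ) (ρ c)))) + γ j)) := by
  induction i with
  | zero =>
    refine ⟨f 0, ?_, fun c => by simpa using hf0 c⟩
    have := h3 0 hi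
    rw [nfKp, Matrix.mul_one] at this
    rw [pow_zero, one_mul]
    exact this
  | succ i ih =>
    obtain ⟨F, hF1, hF2⟩ := ih (by omega)
    have e1 := hT (3 * i) (by omega)
    have e2 := hT (3 * i + 1) (by omega)
    have e3 := hT (3 * i + 2) (by omega)
    simp only [nfOff, tri_zero, tri_one, tri_two] at e1 e2 e3
    have hs := swap_identity p τ hτ hp hfix (hφ i) (hψ i) (pow_pos (hη i).1 2).ne'
    have hu := (inv_of_near_one ((hK (3 * i + 1)).2.trans (by norm_num : (1 / 4 : ℝ) ≤ 1 / 2))).1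
    have e4 := nf_stage (hK (3 * i + 1)).1 hu hF1 hs (h3 (i + 1) hi)
    rw [← e1, ← e2, ← e3, ← h1, ← h2, sperm_mul_sperm, sperm_mul_sperm,
      ← mul_assoc (ρ * τ), ← pow_succ'] at e4
    refine ⟨_, e4, fun c => ?_⟩
    set b := ((ρ * τ) ^ i * ρ) c with hb
    have e5 : d (((ρ * τ) ^ i) ((ρ * τ) (ρ c))) = d (τ b) := by
      rw [← hρ (τ b), hb, ← Equiv.Perm.mul_apply, ← pow_succ, pow_succ']
      rfl
    have hη2 : η i ^ 2 ≤ 1 := pow_le_one₀ (hη i).1.le (hη i).2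
    have hη3 := pow_pos (hη i).1 2
    have hγ' : ∀ a, |φ i a| * |ψ i (d a)| ≤ Real.exp (γ i) := fun a =>
      (hγ i a).trans (mul_le_of_le_one_left (Real.exp_pos _).le hη2)
    have g1 : |(if p b then -(ψ i (d (τ b)) * φ i (τ b)) / η i ^ 2
        else if p (τ b) then φ i (τ b) * ψ i (d (τ b)) * η i ^ 2 else φ i b * ψ i (d b))|
        ≤ Real.exp (γ i) := by
      split_ifs
      · rw [abs_div, abs_neg, abs_mul, abs_of_pos hη3, div_le_iff₀ hη3]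
        linarith [hγ i (τ b)]
      · rw [abs_mul, abs_mul, abs_of_pos hη3]
        exact (mul_le_of_le_one_right (by positivity) hη2).trans (hγ' _)
      · rw [abs_mul]
        exact hγ' _
    rw [Finset.sum_range_succ, e5, ← add_assoc, add_comm (b₀ + _), Real.exp_add,
      Real.exp_add (ω _ _), abs_mul, abs_mul]
    exact mul_le_mul (mul_le_mul (hf i _) g1 (abs_nonneg _) (Real.exp_pos _).le) (hF2 c)
      (abs_nonneg _) (by positivity)

/-- the update of the control parameters -/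
def nfUpd (d : W → ℕ) (P₀ : Matrix W W ℝ) (s : Matrix W W ℝ → ℕ → ℝ)
    (Δ : ℕ → Matrix W W ℝ → Matrix W W ℝ) (w : ℕ → ℕ → ℝ) :
    ℕ → (ℕ → Matrix W W ℝ) × (ℕ → Matrix W W ℝ) → Matrix W W ℝ :=
  tri (fun i x => P₀ - (x.2 (3 * i) * (Matrix.of fun a a' => Real.exp (s (x.1 (3 * i)) (d a))
    * (Δ i (x.1 (3 * i)) a a' / w i (d a))) * nfKp x.2 i - x.1 (3 * i))) (fun _ _ => 0)
    (fun _ _ => 0)

theorem nfUpd_cont (d : W → ℕ) (P₀ : Matrix W W ℝ) {s : Matrix W W ℝ → ℕ → ℝ}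
    (hs : ∀ l, Continuous fun y => s y l) {Δ : ℕ → Matrix W W ℝ → Matrix W W ℝ}
    (hΔ : ∀ i, Continuous (Δ i)) (w : ℕ → ℕ → ℝ) (j : ℕ) : Continuous (nfUpd d P₀ s Δ w j) := by
  unfold nfUpd
  obtain ⟨i, rfl | rfl | rfl⟩ := nat_tri j
  · rw [tri_zero]
    have c1 : Continuous fun x : (ℕ → Matrix W W ℝ) × (ℕ → Matrix W W ℝ) => x.1 (3 * i) :=
      (continuous_apply _).comp continuous_fst
    have c2 : ∀ j, Continuous fun x : (ℕ → Matrix W W ℝ) × (ℕ → Matrix W W ℝ) => x.2 j :=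
      fun j => (continuous_apply _).comp continuous_snd
    have c3 : Continuous fun x : (ℕ → Matrix W W ℝ) × (ℕ → Matrix W W ℝ) => nfKp x.2 i := by
      cases i with
      | zero => exact continuous_const
      | succ i => exact (c2 _).matrix_mul (c2 _)
    have c4 : Continuous fun y : Matrix W W ℝ => (Matrix.of fun a a' => Real.exp (s y (d a))
        * (Δ i y a a' / w i (d a)) : Matrix W W ℝ) :=
      continuous_matrix fun a a' => (Real.continuous_exp.comp (hs _)).mul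
        (((hΔ i).matrix_elem a a').div_const _)
    exact continuous_const.sub ((((c2 _).matrix_mul (c4.comp c1)).matrix_mul c3).sub c1)
  · rw [tri_one]
    exact continuous_const
  · rw [tri_two]
    exact continuous_const

theorem core9 (M : Type) [Fintype M] [DecidableEq M] (dM : M → ℕ) (e : W → M)
    (he : Function.Injective e) (hcl : ∀ i a, dM i = dM (e a) → ∃ a', e a' = i) (Kz : ℕ)
    (𝓛 : (Fin Kz → ℝ) →ₗ[ℝ] Matrix M W ℝ) (𝓡 : Matrix M W ℝ →ₗ[ℝ] (Fin Kz → ℝ))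
    (h𝓛 : ∀ ζ, off dM e (𝓛 ζ) = 𝓛 ζ) (h𝓡 : ∀ A, off dM e A = A → 𝓛 (𝓡 A) = A) (C₀ : ℝ)
    (p : W → Prop) [DecidablePred p] (τ ρ : Equiv.Perm W) (hτ : ∀ i, τ (τ i) = i)
    (hp : ∀ i, p i → ¬ p (τ i)) (hfix : ∀ i, ¬ p i → ¬ p (τ i) → τ i = i)
    (hpd : ∀ a, p a → dM (e (τ a)) ≠ dM (e a)) (hρ : ∀ i, dM (e (ρ i)) = dM (e i))
    {ε : W → ℝ} (hε : ∀ i, |ε i| = 1) {r Θ : ℝ} (hr : 0 < r) {s : Matrix W W ℝ → ℕ → ℝ}
    (hs : ∀ l, Continuous fun y => s y l) (hsΘ : ∀ y l, |s y l| ≤ Θ) :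
    ∃ η₁ > 0, ∃ ε₁ > 0, ∀ (H : Type) [Fintype H] [DecidableEq H] (n : ℕ)
      (P₁ P₂ P₃ : ℕ → PhF (Matrix W W ℝ) M H W) (Kk : ℕ → KkF (Fin Kz → ℝ) M H)
      (η θ γ : ℕ → ℝ) (w ψ ω : ℕ → ℕ → ℝ) (φ : ℕ → W → ℝ) (b₀ : ℝ),
      (∀ i, 0 < η i ∧ η i ≤ η₁ ∧ θ i ≤ η i ^ 2 ∧ θ (i + 1) ≤ η i ^ 2) →
      (∀ i, (P₁ i).Good (θ i) C₀ ∧ (P₂ i).Good (θ i) C₀ ∧ (P₃ i).Good (θ i) C₀) →
      (∀ j, (Kk j).Good (η (j / 3)) C₀ ∧ ∀ ζ, ‖ζ‖ ≤ 1 →
        ‖off dM e ((Kk j).Pz ζ * inc e) - η (j / 3) • 𝓛 ζ‖ ≤ η₁ * η (j / 3)) →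
      (∀ i y, Blk (fun a => dM (e a)) ((P₁ i).Δ y) ∧
        (y ∈ box (fun a => dM (e a)) (sperm ρ ε) r → ∀ a a', |Real.exp (s y (dM (e a)))
          * ((P₁ i).Δ y a a' / w i (dM (e a))) - y a a'| ≤ ε₁)) →
      (∀ i y, (P₂ i).Δ y = Matrix.diagonal (φ i)) →
      (∀ i y, (P₃ i).Δ y = Matrix.diagonal fun a => ψ i (dM (e a))) →
      (∀ i a, w i (dM (e a)) ≠ 0 ∧ φ i a ≠ 0 ∧ ψ i (dM (e a)) ≠ 0) →
      (∀ i a, p a → |φ i (τ a)| ≤ η i ^ 4 * |φ i a| ∧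
        |φ i a| * |ψ i (dM (e a))| ≤ |ψ i (dM (e (τ a)))| * |φ i (τ a)|) →
      (∀ i a, |φ i a| * |ψ i (dM (e a))| ≤ η i ^ 2 * Real.exp (γ i)) →
      (∀ a, |w 0 (dM (e a))| ≤ Real.exp b₀) →
      (∀ i a, |w (i + 1) (dM (e a))| ≤ Real.exp (ω i (dM (e a)))) →
      ∃ (y T : ℕ → Matrix W W ℝ) (ζ : ℕ → Fin Kz → ℝ) (h : ℕ → Matrix H W ℝ)
        (d' : ℕ → Matrix (M ⊕ H) W ℝ), T 0 = 1 ∧ d' 0 = 0 ∧ (∀ j, j ≤ 3 * n → IsUnit (T j).det) ∧
        (∀ j, j < 3 * n →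
          (Kk j).Pz (ζ j) * (tri P₁ P₂ P₃ j).zz e (y j) (h j)
              + (Kk j).Pd (ζ j) * (tri P₁ P₂ P₃ j).dd (y j) (h j) (d' j) (T j)
              + (Kk j).Ph (ζ j) * (tri P₁ P₂ P₃ (j + 1)).hh (y (j + 1)) (h (j + 1)) (d' (j + 1))
                (T (j + 1))
            = (inc e + (tri P₁ P₂ P₃ (j + 1)).XM (y (j + 1))) * T (j + 1)
              + (tri P₁ P₂ P₃ (j + 1)).XdM (y (j + 1)) * d' (j + 1) ∧
          (Kk j).Mz (ζ j) * (tri P₁ P₂ P₃ j).zz e (y j) (h j)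
              + (Kk j).Md (ζ j) * (tri P₁ P₂ P₃ j).dd (y j) (h j) (d' j) (T j)
              + (Kk j).Mh (ζ j) * (tri P₁ P₂ P₃ (j + 1)).hh (y (j + 1)) (h (j + 1)) (d' (j + 1))
                (T (j + 1))
            = d' (j + 1) ∧
          (Kk j).Hz (ζ j) * (tri P₁ P₂ P₃ j).zz e (y j) (h j)
              + (Kk j).Hd (ζ j) * (tri P₁ P₂ P₃ j).dd (y j) (h j) (d' j) (T j)
              + (Kk j).Hh (ζ j) * (tri P₁ P₂ P₃ (j + 1)).hh (y (j + 1)) (h (j + 1)) (d' (j + 1))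
                (T (j + 1))
            = h j) ∧
        ∀ i, i ≤ n → ∀ c, n2 (Sum.elim
          (fun m => ((tri P₁ P₂ P₃ (3 * i)).zz e (y (3 * i)) (h (3 * i))
            * amp (fun j => (tri P₁ P₂ P₃ j).Δ (y j)) T (3 * i)) m c)
          (fun m => (h (3 * i) * amp (fun j => (tri P₁ P₂ P₃ j).Δ (y j)) T (3 * i)) m c))
          ≤ Real.exp (2 * (b₀ + Θ + ∑ j ∈ Finset.range i,
            (ω j (dM (e (((ρ * τ) ^ j) ((ρ * τ) (ρ c))))) + Θ + γ j) + 2)) := by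
  set d : W → ℕ := fun a => dM (e a) with hd
  set q : ℝ := (Fintype.card W : ℝ) * Fintype.card W with hq
  have hq0 : 0 ≤ q := by positivity
  obtain ⟨η₀, hη₀, C₁, hC₁, hC₁η, hM⟩ := matching M W dM e he hcl Kz 𝓛 𝓡 h𝓛 h𝓡 (max C₀ (4 * q))
  obtain ⟨η₁, hη₁, k1, k2, k3⟩ : ∃ η₁ > 0, η₁ ≤ η₀ ∧ η₁ ≤ 1 ∧
      q * (5 * (C₁ * η₁) * (1 + r)) ≤ r / 2 := by
    have h1 : 0 < r / 2 / (q * (5 * C₁ * (1 + r)) + 1) := by positivity
    refine ⟨min (min η₀ 1) (r / 2 / (q * (5 * C₁ * (1 + r)) + 1)), lt_min (lt_min hη₀ one_pos) h1,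
      (min_le_left _ _).trans (min_le_left _ _), (min_le_left _ _).trans (min_le_right _ _), ?_⟩
    have h2 := min_le_right (min η₀ 1) (r / 2 / (q * (5 * C₁ * (1 + r)) + 1))
    have h3 := (lt_min (lt_min hη₀ one_pos) h1).le
    generalize min (min η₀ 1) (r / 2 / (q * (5 * C₁ * (1 + r)) + 1)) = x at h2 h3
    rw [le_div_iff₀ (by positivity)] at h2
    nlinarith
  obtain ⟨ε₁, hε₁, k4⟩ : ∃ ε₁ > 0, q * (3 * ε₁) ≤ r / 2 := by
    refine ⟨r / 2 / (3 * q + 1), by positivity, ?_⟩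
    have h3 : 0 < r / 2 / (3 * q + 1) := by positivity
    have h2 : r / 2 / (3 * q + 1) * (3 * q + 1) = r / 2 := div_mul_cancel₀ _ (by positivity)
    nlinarith
  refine ⟨η₁, hη₁, ε₁, hε₁, ?_⟩
  intro H _ _ n P₁ P₂ P₃ Kk η θ γ w ψ ω φ b₀ hη hP hK hΔ₁ hΔ₂ hΔ₃ hne hsw hγ hw0 hw
  have hκ : C₁ * η₁ ≤ 1 / 4 := (mul_le_mul_of_nonneg_left k1 hC₁).trans hC₁η
  have hκ0 : 0 ≤ C₁ * η₁ := by positivity
  have hP₀ : Blk d (sperm ρ ε) := blk_sperm hρ ε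
  have hP₀1 : ∀ i j, |sperm ρ ε i j| ≤ 1 := fun i j => by
    unfold sperm
    split_ifs
    · exact (hε j).le
    · simp
  have hG : ∀ j, (tri P₁ P₂ P₃ j).Good (θ (j / 3)) C₀ := fun j => by
    unfold tri
    split_ifs
    exacts [(hP _).1, (hP _).2.1, (hP _).2.2]
  have hKall : ∀ K : ℕ → Matrix W W ℝ, (∀ i, i < 3 * n → Blk d (K i) ∧ ‖K i - 1‖ ≤ C₁ * η (i / 3)) →
      (∀ i, 3 * n ≤ i → K i = 1) → ∀ i, Blk d (K i) ∧ ‖K i - 1‖ ≤ C₁ * η₁ := by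
    intro K h1 h2 i
    by_cases hi : i < 3 * n
    · exact ⟨(h1 i hi).1, (h1 i hi).2.trans (mul_le_mul_of_nonneg_left (hη _).2.1 hC₁)⟩
    · rw [h2 i (by omega), sub_self, norm_zero]
      exact ⟨blk_one d, hκ0⟩
  obtain ⟨y, K, T, ζ, h, d', hT0, hd0, -, hK1, hA, hB⟩ := hM H (3 * n) (tri P₁ P₂ P₃) Kk
    (fun j => η (j / 3)) (fun j => θ (j / 3))
    (tri (fun _ => box d (sperm ρ ε) r) (fun _ => {0}) fun _ => {0})
    (nfOff p τ η φ fun i a => ψ i (d a)) (nfUpd d (sperm ρ ε) s (fun i => (P₁ i).Δ) w)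
    (fun j _ => by
      refine ⟨(hG j).mono le_rfl (le_max_left _ _), ?_, ?_, ?_,
        (nfUpd_cont d _ hs (fun i => (hP i).1.cΔ) w j).continuousOn, fun y K hy h1 h2 => ?_⟩
      · unfold tri
        split_ifs
        exacts [isCompact_box _ _ _, isCompact_singleton, isCompact_singleton]
      · unfold tri
        split_ifs
        exacts [convex_box _ _ _, convex_singleton _, convex_singleton _]
      · unfold tri
        split_ifs
        exacts [⟨sperm ρ ε, hP₀, fun i j => by rw [sub_self, abs_zero]; exact hr.le⟩,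
          singleton_nonempty _, singleton_nonempty _]
      · have h3 := hKall K h1 h2
        unfold nfUpd
        obtain ⟨i, rfl | rfl | rfl⟩ := nat_tri j
        · have h4 := hy (3 * i) ‹_›
          rw [tri_zero] at h4
          rw [tri_zero, tri_zero]
          have h5 : Blk d (nfKp K i) ∧ ‖nfKp K i - 1‖ ≤ 3 * (C₁ * η₁) := by
            cases i with
            | zero => exact ⟨blk_one d, by rw [nfKp, sub_self, norm_zero]; positivity⟩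
            | succ i => exact ⟨(h3 _).1.mul (h3 _).1, nf_two_near hκ (h3 _).2 (h3 _).2⟩
          refine nf_upd_mem hP₀ hP₀1 h4 (fun a a' haa => ?_) (h3 _).1 h5.1 hκ0 hε₁.le hr.le
            (h3 _).2 h5.2 hκ ((hΔ₁ i _).2 h4) (by rw [← hq]; linarith)
          simp only [Matrix.of_apply, (hΔ₁ i _).1 a a' haa, zero_div, mul_zero]
        · rw [tri_one, tri_one]
          exact mem_singleton _
        · rw [tri_two, tri_two]
          exact mem_singleton _)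
    (fun j _ => by
      refine ⟨(hη _).1, (hη _).2.1.trans k1, (hη _).2.2.1, ?_,
        (hK j).1.mono (hη _).1.le (le_max_left _ _), fun ζ hζ => ((hK j).2 ζ hζ).trans
          (mul_le_mul_of_nonneg_right k1 (hη _).1.le), nfOff_cont _ _ _ _ _ j, fun K hK => ?_⟩
      · rcases (by omega : (j + 1) / 3 = j / 3 ∨ (j + 1) / 3 = j / 3 + 1) with h1 | h1
        · simp only [h1]
          exact (hη _).2.2.1
        · simp only [h1]
          exact (hη _).2.2.2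
      · obtain ⟨a1, a2⟩ := nfOff_bd (d := d) (ψ := fun i a => ψ i (d a)) p τ hpd
          (fun i => (hη i).1) (fun i a => (hne i a).2.1) (fun i a => (hne i a).2.2)
          (fun i a ha => (hsw i a ha).1) (fun i a ha => (hsw i a ha).2) j K hK
        exact ⟨a1.trans (mul_le_mul_of_nonneg_right (le_max_right _ _) (sq_nonneg _)), a2⟩)
  have hK2 := hKall K (fun i hi => ⟨(hB i hi).1, (hB i hi).2.1⟩) hK1
  have hK3 : ∀ i, Blk d (K i) ∧ ‖K i - 1‖ ≤ 1 / 4 := fun i => ⟨(hK2 i).1, (hK2 i).2.trans hκ⟩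
  refine ⟨y, T, ζ, h, d', hT0, hd0, fun j hj => (inv_of_near_one (hA j hj).2.2.1).1,
    fun j hj => (hB j hj).2.2.2.2, fun i hi c => ?_⟩
  have hf : ∀ i a x, |w i (d a)| ≤ Real.exp x →
      |w i (d a) * Real.exp (-s (y (3 * i)) (d a)) * ε a| ≤ Real.exp (x + Θ) := by
    intro i a x hx
    rw [abs_mul, hε, mul_one, abs_mul, Real.exp_add, abs_of_pos (Real.exp_pos _)]
    exact mul_le_mul hx (Real.exp_le_exp.2 ((neg_le_abs _).trans (hsΘ _ _))) (Real.exp_pos _).le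
      (Real.exp_pos _).le
  obtain ⟨F, hF1, hF2⟩ := nf_amp (d := d) p τ ρ hτ hp hfix hρ (η := η) (γ := γ) (φ := φ) (ψ := ψ)
    (ω := fun i l => ω i l + Θ) (b₀ := b₀ + Θ)
    (f := fun i a => w i (d a) * Real.exp (-s (y (3 * i)) (d a)) * ε a)
    (fun i => ⟨(hη i).1, (hη i).2.1.trans k2⟩) (fun i a => (hne i a).2.1)
    (fun i a => (hne i a).2.2) hγ (fun a => hf 0 a _ (hw0 a)) (fun i a => hf (i + 1) a _ (hw i a))
    (n := n) (K := K) (T := T) (Δ := fun j => (tri P₁ P₂ P₃ j).Δ (y j)) hK3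
    (fun j hj => (hB j hj).2.2.2.1) (fun i => by simp only [tri_one, hΔ₂])
    (fun i => by simp only [tri_two, hΔ₃]; rfl)
    (fun i hi => by
      have h1 := (hA (3 * i) (by omega)).2.1
      simp only [nfUpd, tri_zero] at h1 ⊢
      refine nf_fixed (hK3 _).1 (fun a => (hne i a).1) hρ ?_
      rw [sub_eq_iff_eq_add, add_sub_cancel] at h1
      exact h1.symm) i hi
  refine nf_col ?_ (hA _ (by omega)).2.2.2.1 (hK3 _).2 hF1 c (hF2 c)
  have g1 := hG (3 * i)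
  have g2 : θ (3 * i / 3) ≤ 1 :=
    (hη _).2.2.1.trans (pow_le_one₀ (hη _).1.le ((hη _).2.1.trans k2))
  have g3 := OdeMatch_nm (g1.nDh (y (3 * i))) (hA (3 * i) (by omega)).2.2.2.1
  have g4 := norm_add₃_le (a := inc e) (b := (tri P₁ P₂ P₃ (3 * i)).D (y (3 * i)))
    (c := (tri P₁ P₂ P₃ (3 * i)).Dh (y (3 * i)) * h (3 * i))
  unfold PhF.zz
  linarith [opNorm_inc_le he, g1.nD (y (3 * i))]

end Crest.Agent.R202
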