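import Crest.Agent.R202.OdeBasic
import Crest.Agent.Lib.LinODE.Dyson

/-!
# R202/OdeFlow: global solutions, uniqueness, Gronwall, scattering matrices

`exists_lin`: Picard iteration / Dyson series on `[-T,T]` or `IsPicardLindelof` on short intervals
plus gluing; continuity in the parameter by Gronwall (see `Lib/Riccati/Flow.lean` for the pattern).
`exists_scat`: the map (initial state) ↦ (data `inD`) is an injective endomorphism of a finite
dimensional space, depending continuously on `y`; invert it (`Matrix.inv` is continuous where the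
determinant does not vanish).
-/

set_option linter.unusedSectionVars false

open scoped ContDiff Topology Matrix
open Set Filter

noncomputable section

namespace Crest.Agent.R202

variable {ι : Type} [Fintype ι] [DecidableEq ι]

/-- a matrix as a continuous linear map -/
def flowMv (A : Matrix ι ι ℝ) : (ι → ℝ) →L[ℝ] (ι → ℝ) :=
  LinearMap.toContinuousLinearMap (Matrix.toLin' A)

/-- fundamental solution of a linear system, continuous in the parameter -/
theorem exists_lin {Y : Type} [TopologicalSpace Y] (A : Y → ℝ → Matrix ι ι ℝ)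
    (hA : Continuous fun z : Y × ℝ => A z.1 z.2) (t₀ : ℝ) :
    ∃ Φ : Y → ℝ → Matrix ι ι ℝ, (∀ y, Φ y t₀ = 1) ∧
      (∀ y t i j, HasDerivAt (fun s => Φ y s i j) ((A y t * Φ y t) i j) t) ∧
      ∀ t, Continuous fun y => Φ y t := by
  have hA' : Continuous fun z : Y × ℝ => flowMv (A z.1 z.2) :=
    continuous_clm_apply.2 fun x => hA.matrix_mulVec continuous_const
  choose x hx0 hxd hxc using fun j : ι =>
    Lib.LinODE.exists_sol (fun y t => flowMv (A y t)) hA' t₀ (Pi.single j 1)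
  refine ⟨fun y t => Matrix.of fun i j => x j y t i, fun y => ?_, fun y t i j => ?_, fun t => ?_⟩
  · ext i j
    simp [hx0, Matrix.one_apply, Pi.single_apply]
  · exact hasDerivAt_pi.1 (hxd j y t) i
  · exact continuous_matrix fun i j => (continuous_apply i).comp (hxc j t)

/-- solutions of linear systems with smooth coefficients are smooth -/
theorem contDiff_of_lin {A : ℝ → Matrix ι ι ℝ} (hA : ∀ i j, ContDiff ℝ ∞ fun t => A t i j)
    {x : ℝ → ι → ℝ} (hx : ∀ t, HasDerivAt x (A t *ᵥ x t) t) : ContDiff ℝ ∞ x := by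
  refine Lib.LinODE.contDiff_of_ode (f := fun z : ℝ × (ι → ℝ) => A z.1 *ᵥ z.2) ?_ hx
  refine contDiff_pi.2 fun i => ?_
  simp only [Matrix.mulVec, dotProduct]
  exact ContDiff.sum fun j _ =>
    ((hA i j).comp contDiff_fst).mul ((contDiff_apply ℝ ℝ j).comp contDiff_snd)

namespace Bg

variable {B : Bg} {d : ι → ℕ} {R Q : ℝ → Matrix ι ι ℝ} {u p u' p' : ℝ → ι → ℝ}

/-- the vector field of the system -/
def flowSys (B : Bg) (d : ι → ℕ) (R Q : Matrix ι ι ℝ) (t : ℝ) : St ι →L[ℝ] St ι :=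
  LinearMap.toContinuousLinearMap
    { toFun := fun w => (w.2 + R *ᵥ w.2,
        fun i => -B.β t * w.2 i + lam B.β₀ (d i) * w.1 i + (Q *ᵥ w.1) i)
      map_add' := fun v w => by
        ext i <;> simp [Matrix.mulVec_add] <;> ring
      map_smul' := fun c w => by
        ext i <;> simp [Matrix.mulVec_smul] <;> ring }

theorem flowSys_apply (B : Bg) (d : ι → ℕ) (R Q : Matrix ι ι ℝ) (t : ℝ) (w : St ι) :
    B.flowSys d R Q t w = (w.2 + R *ᵥ w.2,
      fun i => -B.β t * w.2 i + lam B.β₀ (d i) * w.1 i + (Q *ᵥ w.1) i) := rfl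

theorem flowSys_contOn (B : Bg) (d : ι → ℕ) {X : Type} [TopologicalSpace X]
    {R Q : X → Matrix ι ι ℝ} {τ : X → ℝ} {s : Set X} (hR : ContinuousOn R s)
    (hQ : ContinuousOn Q s) (hτ : ContinuousOn τ s) :
    ContinuousOn (fun z => B.flowSys d (R z) (Q z) (τ z)) s := by
  refine continuousOn_clm_apply.2 fun w => ?_
  simp only [flowSys_apply]
  have hm : ∀ v : ι → ℝ, Continuous fun A : Matrix ι ι ℝ => A *ᵥ v := fun v =>
    continuous_id.matrix_mulVec continuous_const
  refine (continuousOn_const.add ((hm _).comp_continuousOn hR)).prodMk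
    (continuousOn_pi.2 fun i => ?_)
  exact (((B.β_smooth.continuous.comp_continuousOn hτ).neg.mul continuousOn_const).add
    continuousOn_const).add (((continuous_apply i).comp (hm _)).comp_continuousOn hQ)

theorem flowSys_cont (B : Bg) (d : ι → ℕ) {X : Type} [TopologicalSpace X]
    {R Q : X → Matrix ι ι ℝ} {τ : X → ℝ} (hR : Continuous R) (hQ : Continuous Q)
    (hτ : Continuous τ) : Continuous fun z => B.flowSys d (R z) (Q z) (τ z) :=
  continuousOn_univ.1 (B.flowSys_contOn d hR.continuousOn hQ.continuousOn hτ.continuousOn)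

theorem flow_sol_iff {s : Set ℝ} : B.Sol d R Q s u p ↔
    ∀ t ∈ s, HasDerivAt (fun t => (u t, p t)) (B.flowSys d (R t) (Q t) t (u t, p t)) t :=
  ⟨fun h t ht => (h.du t ht).prodMk (h.dp t ht),
    fun h => ⟨fun t ht => (h t ht).fst, fun t ht => (h t ht).snd⟩⟩

theorem exists_sol (B : Bg) (hd : ∀ i, 1 ≤ d i) (hR : Continuous R) (hQ : Continuous Q) (t₀ : ℝ)
    (z : St ι) : ∃ u p, B.Sol d R Q univ u p ∧ B.st d u p t₀ = z := by
  obtain ⟨u₀, p₀, h1, h2⟩ := B.exists_up hd t₀ z
  have hc : Continuous fun w : Unit × ℝ => B.flowSys d (R w.2) (Q w.2) w.2 :=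
    B.flowSys_cont d (hR.comp continuous_snd) (hQ.comp continuous_snd) continuous_snd
  obtain ⟨x, hx0, hxd, -⟩ :=
    Lib.LinODE.exists_sol (fun (_ : Unit) t => B.flowSys d (R t) (Q t) t) hc t₀ (u₀, p₀)
  refine ⟨fun t => (x () t).1, fun t => (x () t).2, flow_sol_iff.2 fun t _ => hxd () t, ?_⟩
  ext i
  · simp only [st, xp, hx0]; exact h1 i
  · simp only [st, xm, hx0]; exact h2 i

theorem Sol.unique (hd : ∀ i, 1 ≤ d i) {t₁ t₂ : ℝ} (hR : ContinuousOn R (Icc t₁ t₂))
    (hQ : ContinuousOn Q (Icc t₁ t₂)) (h : B.Sol d R Q (Icc t₁ t₂) u p)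
    (h' : B.Sol d R Q (Icc t₁ t₂) u' p') {t₀ : ℝ} (ht₀ : t₀ ∈ Icc t₁ t₂)
    (h0 : B.st d u p t₀ = B.st d u' p' t₀) : ∀ t ∈ Icc t₁ t₂, u t = u' t ∧ p t = p' t := by
  intro t ht
  obtain ⟨e1, e2⟩ := B.eq_of_st_eq hd h0
  have := Lib.LinODE.unique_Icc (B.flowSys_contOn d hR hQ continuousOn_id) (flow_sol_iff.1 h)
    (flow_sol_iff.1 h') ht₀ (Prod.ext e1 e2) t ht
  exact ⟨congrArg Prod.fst this, congrArg Prod.snd this⟩

theorem Sol.contDiff (h : B.Sol d R Q univ u p) (hR : ∀ i j, ContDiff ℝ ∞ fun t => R t i j)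
    (hQ : ∀ i j, ContDiff ℝ ∞ fun t => Q t i j) : ContDiff ℝ ∞ u ∧ ContDiff ℝ ∞ p := by
  have key : ContDiff ℝ ∞ fun t => (u t, p t) := by
    refine Lib.LinODE.contDiff_of_ode
      (f := fun z : ℝ × St ι => B.flowSys d (R z.1) (Q z.1) z.1 z.2) ?_
      fun t => flow_sol_iff.1 h t trivial
    have h1 : ∀ j, ContDiff ℝ ∞ fun z : ℝ × St ι => z.2.1 j := fun j =>
      (contDiff_apply ℝ ℝ j).comp contDiff_snd.fst
    have h2 : ∀ j, ContDiff ℝ ∞ fun z : ℝ × St ι => z.2.2 j := fun j =>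
      (contDiff_apply ℝ ℝ j).comp contDiff_snd.snd
    simp only [flowSys_apply]
    refine ContDiff.prodMk (contDiff_pi.2 fun i => ?_) (contDiff_pi.2 fun i => ?_)
    · simp only [Pi.add_apply, Matrix.mulVec, dotProduct]
      exact (h2 i).add (ContDiff.sum fun j _ => ((hR i j).comp contDiff_fst).mul (h2 j))
    · simp only [Matrix.mulVec, dotProduct]
      exact (((B.β_smooth.comp contDiff_fst).neg.mul (h2 i)).add (contDiff_const.mul (h1 i))).add
        (ContDiff.sum fun j _ => ((hQ i j).comp contDiff_fst).mul (h1 j))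
  exact ⟨key.fst, key.snd⟩

/-- a solution follows the relation -/
theorem Rel.st_eq (hd : ∀ i, 1 ≤ d i) {t₁ t₂ : ℝ} (ht : t₁ ≤ t₂)
    (hR : ContinuousOn R (Icc t₁ t₂)) (hQ : ContinuousOn Q (Icc t₁ t₂)) {z z' : St ι}
    (h : B.Rel d R Q t₁ t₂ z z') (hs : B.Sol d R Q (Icc t₁ t₂) u p) (h0 : B.st d u p t₁ = z) :
    B.st d u p t₂ = z' := by
  obtain ⟨v, q, hv, h1, h2⟩ := h
  obtain ⟨e1, e2⟩ := hs.unique hd hR hQ hv (left_mem_Icc.2 ht) (h0.trans h1.symm) t₂
    (right_mem_Icc.2 ht)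
  rw [← h2]
  ext i <;> simp only [st, xp, xm, e1, e2]

theorem Rel.trans (hd : ∀ i, 1 ≤ d i) {t₁ t₂ t₃ : ℝ} (h12 : t₁ ≤ t₂) (h23 : t₂ ≤ t₃)
    (hR : Continuous R) (hQ : Continuous Q) {z₁ z₂ z₃ : St ι}
    (h : B.Rel d R Q t₁ t₂ z₁ z₂) (h' : B.Rel d R Q t₂ t₃ z₂ z₃) : B.Rel d R Q t₁ t₃ z₁ z₃ := by
  obtain ⟨v, q, hv, h0⟩ := B.exists_sol hd hR hQ t₁ z₁
  have e2 := h.st_eq hd h12 hR.continuousOn hQ.continuousOn (hv.mono (subset_univ _)) h0
  have e3 := h'.st_eq hd h23 hR.continuousOn hQ.continuousOn (hv.mono (subset_univ _)) e2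
  exact ⟨v, q, hv.mono (subset_univ _), h0, e3⟩

omit [DecidableEq ι] in
theorem flow_abs_mulVec_le {A : Matrix ι ι ℝ} {M N : ℝ} {x : ι → ℝ} (hA : ∀ i j, |A i j| ≤ M)
    (hx : ∀ i, |x i| ≤ N) (i : ι) : |(A *ᵥ x) i| ≤ Fintype.card ι * |M| * N := by
  calc |(A *ᵥ x) i| ≤ ∑ j, |A i j * x j| := Finset.abs_sum_le_sum_abs _ _
    _ ≤ ∑ _j : ι, |M| * N := Finset.sum_le_sum fun j _ => by
        rw [abs_mul]
        exact mul_le_mul ((hA i j).trans (le_abs_self M)) (hx j) (abs_nonneg _) (abs_nonneg _)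
    _ = _ := by simp [mul_assoc]

/-- crude growth bound for a fixed finite system -/
theorem gronwall (B : Bg) (hd : ∀ i, 1 ≤ d i) (M : ℝ) :
    ∃ C : ℝ, 0 ≤ C ∧ ∀ (R Q : ℝ → Matrix ι ι ℝ) (t₁ t₂ : ℝ) (u p : ℝ → ι → ℝ),
      (∀ t ∈ Icc t₁ t₂, ∀ i j, |R t i j| ≤ M ∧ |Q t i j| ≤ M) → B.Sol d R Q (Icc t₁ t₂) u p →
      ∀ t ∈ Icc t₁ t₂, n2 (u t) + n2 (p t)
        ≤ C * Real.exp (C * (t - t₁)) * (n2 (B.xp d u p t₁) + n2 (B.xm d u p t₁)) := by
  have hb := B.b_pos
  have hβ₀ : 0 < B.β₀ := hb.trans_le B.b_le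
  set c : ℝ := (Fintype.card ι : ℝ) with hc
  have hc0 : 0 ≤ c := Nat.cast_nonneg _
  set D : ℝ := ∑ i, (d i : ℝ) + B.β₀ + 1 with hD
  have hdD : ∀ i, (d i : ℝ) + B.β₀ + 1 ≤ D := fun i => by
    have := Finset.single_le_sum (f := fun i => (d i : ℝ)) (fun i _ => Nat.cast_nonneg _)
      (Finset.mem_univ i)
    linarith
  have hD1 : 1 ≤ D := by
    have : 0 ≤ ∑ i, (d i : ℝ) := Finset.sum_nonneg fun i _ => Nat.cast_nonneg _
    linarith
  set K : ℝ := 1 + D + D * D + c * |M| with hK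
  have hK0 : 0 ≤ K := by positivity
  refine ⟨2 * K + 8 * c * D ^ 2, by positivity, fun R Q t₁ t₂ u p hM h t ht => ?_⟩
  have hbound : ∀ s ∈ Ico t₁ t₂, ‖B.flowSys d (R s) (Q s) s (u s, p s)‖ ≤ K * ‖(u s, p s)‖ + 0 := by
    intro s hs
    have hs' := Ico_subset_Icc_self hs
    set N := ‖(u s, p s)‖
    have hN : 0 ≤ N := norm_nonneg _
    have hu : ∀ i, |u s i| ≤ N := fun i => (norm_le_pi_norm (u s) i).trans (norm_fst_le (u s, p s))
    have hp : ∀ i, |p s i| ≤ N := fun i => (norm_le_pi_norm (p s) i).trans (norm_snd_le (u s, p s))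
    have h1 := fun i => flow_abs_mulVec_le (fun i j => (hM s hs' i j).1) hp i
    have h2 := fun i => flow_abs_mulVec_le (fun i j => (hM s hs' i j).2) hu i
    have hDN : 0 ≤ D * N := by positivity
    have hDDN : 0 ≤ D * D * N := by positivity
    rw [flowSys_apply, add_zero, Prod.norm_def]
    refine max_le ((pi_norm_le_iff_of_nonneg (by positivity)).2 fun i => ?_)
      ((pi_norm_le_iff_of_nonneg (by positivity)).2 fun i => ?_)
    · refine (abs_add_le _ _).trans ?_
      have := hp i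
      have := h1 i
      simp only [hK]
      nlinarith
    · have hd0 : (0 : ℝ) ≤ d i := Nat.cast_nonneg _
      have a1 : |-B.β s * p s i| ≤ D * N := by
        rw [abs_mul, abs_neg, abs_of_pos (hb.trans_le (B.β_ge s))]
        exact mul_le_mul (by linarith [B.β_le s, hdD i]) (hp i) (abs_nonneg _) (by linarith)
      have a2 : |lam B.β₀ (d i) * u s i| ≤ D * D * N := by
        rw [abs_mul, lam, abs_of_nonneg (by positivity)]
        exact mul_le_mul (mul_le_mul (by linarith [hdD i]) (by linarith [hdD i]) (by positivity)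
          (by linarith)) (hu i) (abs_nonneg _) (by positivity)
      refine (abs_add_le _ _).trans ((add_le_add_left (abs_add_le _ _) _).trans ?_)
      have := h2 i
      simp only [hK]
      nlinarith
  have hg := norm_le_gronwallBound_of_norm_deriv_right_le (f := fun t => (u t, p t))
    (fun s hs => (flow_sol_iff.1 h s hs).continuousAt.continuousWithinAt)
    (fun s hs => (flow_sol_iff.1 h s (Ico_subset_Icc_self hs)).hasDerivWithinAt) le_rfl hbound t ht
  rw [gronwallBound_ε0] at hg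
  set S := n2 (B.xp d u p t₁) + n2 (B.xm d u p t₁) with hS
  have hS1 := n2_nonneg (B.xp d u p t₁)
  have hS2 := n2_nonneg (B.xm d u p t₁)
  have hS0 : 0 ≤ S := by positivity
  have hr : 0 ≤ Real.sqrt S := Real.sqrt_nonneg _
  have hxp : ∀ i, |B.xp d u p t₁ i| ≤ Real.sqrt S := fun i =>
    Real.abs_le_sqrt (by linarith [sq_le_n2 (B.xp d u p t₁) i])
  have hxm : ∀ i, |B.xm d u p t₁ i| ≤ Real.sqrt S := fun i =>
    Real.abs_le_sqrt (by linarith [sq_le_n2 (B.xm d u p t₁) i])
  have hsq : ∀ i (x : ℝ), |x| ≤ |Real.sqrt (d i) * x| := fun i x => by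
    rw [abs_mul, abs_of_nonneg (Real.sqrt_nonneg _)]
    exact le_mul_of_one_le_left (abs_nonneg _)
      (Real.one_le_sqrt.2 (by exact_mod_cast hd i))
  have h0 : ‖(u t₁, p t₁)‖ ≤ 2 * D * Real.sqrt S := by
    rw [Prod.norm_def]
    refine max_le ((pi_norm_le_iff_of_nonneg (by positivity)).2 fun i => ?_)
      ((pi_norm_le_iff_of_nonneg (by positivity)).2 fun i => ?_)
    · refine (hsq i _).trans ?_
      rw [B.sqrt_mul_u (d i) t₁ (u t₁ i) (p t₁ i)]
      refine (abs_add_le _ _).trans ?_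
      have := hxp i
      have := hxm i
      simp only [xp, xm] at *
      nlinarith
    · refine (hsq i _).trans ?_
      rw [B.sqrt_mul_p (d i) t₁ (u t₁ i) (p t₁ i)]
      refine (abs_add_le _ _).trans ?_
      have hd0 : (0 : ℝ) ≤ d i := Nat.cast_nonneg _
      have a1 : |B.bp (d i) t₁| ≤ D := by
        have := B.bp_ge (d i) t₁
        have := B.bp_le (d i) t₁
        have := B.a_le (d i)
        have := hdD i
        simp only [a] at *
        rw [abs_le]; constructor <;> linarith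
      have a2 : |B.bm (d i) t₁| ≤ D := by
        have := B.bm_ge (d i) t₁
        have := B.bm_le (d i) t₁
        have := B.le_a (d i)
        have := hdD i
        simp only [a] at *
        rw [abs_le]; constructor <;> linarith
      rw [abs_mul, abs_mul]
      have b1 := mul_le_mul a1 (hxp i) (abs_nonneg _) (by linarith)
      have b2 := mul_le_mul a2 (hxm i) (abs_nonneg _) (by linarith)
      simp only [xp, xm] at b1 b2
      linarith
  set N := ‖(u t, p t)‖
  have hN0 : 0 ≤ N := norm_nonneg _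
  have hn : ∀ x : ι → ℝ, ‖x‖ ≤ N → n2 x ≤ c * N ^ 2 := fun x hx => by
    calc n2 x ≤ ∑ _i : ι, N ^ 2 := Finset.sum_le_sum fun i _ => by
          rw [← sq_abs]
          exact pow_le_pow_left₀ (abs_nonneg _) ((norm_le_pi_norm x i).trans hx) 2
      _ = c * N ^ 2 := by simp [hc]
  have hN : N ≤ 2 * D * Real.sqrt S * Real.exp (K * (t - t₁)) :=
    hg.trans (mul_le_mul_of_nonneg_right h0 (Real.exp_pos _).le)
  have hN2 : N ^ 2 ≤ 4 * D ^ 2 * S * Real.exp (2 * K * (t - t₁)) := by
    refine (pow_le_pow_left₀ hN0 hN 2).trans_eq ?_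
    rw [mul_pow, mul_pow, Real.sq_sqrt hS0, ← Real.exp_nat_mul]
    push_cast
    ring_nf
  have ht0 : 0 ≤ t - t₁ := sub_nonneg.2 ht.1
  calc n2 (u t) + n2 (p t) ≤ 2 * c * N ^ 2 := by
        linarith [hn (u t) (norm_fst_le (u t, p t)), hn (p t) (norm_snd_le (u t, p t))]
    _ ≤ 2 * c * (4 * D ^ 2 * S * Real.exp (2 * K * (t - t₁))) := by gcongr
    _ = 8 * c * D ^ 2 * Real.exp (2 * K * (t - t₁)) * S := by ring
    _ ≤ _ := by
        have : 0 ≤ 8 * c * D ^ 2 := by positivity
        gcongr <;> linarith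

end Bg

/-- boundary data: `xp` on `U` at the end, the rest at the start -/
def inD (U : Set ι) (z z' : St ι) : St ι := (msk U z'.1 + msk Uᶜ z.1, z.2)

/-- the complementary data -/
def outD (U : Set ι) (z z' : St ι) : St ι := (msk U z.1 + msk Uᶜ z'.1, z'.2)

/-- the coordinates `(xp, xm)` as a linear map -/
def flowSt (B : Bg) (d : ι → ℕ) (t : ℝ) : St ι →L[ℝ] St ι :=
  LinearMap.toContinuousLinearMap
    { toFun := fun w => (fun i => B.xp1 (d i) t (w.1 i) (w.2 i),
        fun i => B.xm1 (d i) t (w.1 i) (w.2 i))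
      map_add' := fun v w => by
        ext i <;> simp [Bg.xp1, Bg.xm1] <;> ring
      map_smul' := fun c w => by
        ext i <;> simp [Bg.xp1, Bg.xm1] <;> ring }

/-- `inD` as a linear map -/
def flowIn (U : Set ι) : St ι × St ι →L[ℝ] St ι :=
  LinearMap.toContinuousLinearMap
    { toFun := fun w => inD U w.1 w.2
      map_add' := fun v w => by
        ext i <;> by_cases h : i ∈ U <;> simp [inD, msk, h]
      map_smul' := fun c w => by
        ext i <;> by_cases h : i ∈ U <;> simp [inD, msk, h] }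

/-- `outD` as a linear map -/
def flowOut (U : Set ι) : St ι × St ι →L[ℝ] St ι :=
  LinearMap.toContinuousLinearMap
    { toFun := fun w => outD U w.1 w.2
      map_add' := fun v w => by
        ext i <;> by_cases h : i ∈ U <;> simp [outD, msk, h]
      map_smul' := fun c w => by
        ext i <;> by_cases h : i ∈ U <;> simp [outD, msk, h] }

theorem flow_blocks (S : St ι →L[ℝ] St ι) (v : St ι) :
    S v = ((Matrix.of fun i j => (S (Pi.single j 1, 0)).1 i) *ᵥ v.1
        + (Matrix.of fun i j => (S (0, Pi.single j 1)).1 i) *ᵥ v.2,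
      (Matrix.of fun i j => (S (Pi.single j 1, 0)).2 i) *ᵥ v.1
        + (Matrix.of fun i j => (S (0, Pi.single j 1)).2 i) *ᵥ v.2) := by
  have hv : v = ∑ j, v.1 j • ((Pi.single j 1, 0) : St ι)
      + ∑ j, v.2 j • ((0, Pi.single j 1) : St ι) := by
    ext i <;> simp [Prod.fst_sum, Prod.snd_sum, Finset.sum_apply, Pi.single_apply]
  conv_lhs => rw [hv]
  simp only [map_add, map_sum, map_smul]
  ext i <;>
    simp [Prod.fst_sum, Prod.snd_sum, Finset.sum_apply, Matrix.mulVec, dotProduct, mul_comm]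

/-- Scattering matrices of a boundary value problem with uniqueness. -/
theorem exists_scat (B : Bg) {d : ι → ℕ} (hd : ∀ i, 1 ≤ d i) {Y : Type} [TopologicalSpace Y]
    {R Q : Y → ℝ → Matrix ι ι ℝ} (hR : Continuous fun z : Y × ℝ => R z.1 z.2)
    (hQ : Continuous fun z : Y × ℝ => Q z.1 z.2) {t₁ t₂ : ℝ} (ht : t₁ ≤ t₂) (U : Set ι)
    (huniq : ∀ y z z', B.Rel d (R y) (Q y) t₁ t₂ z z' → inD U z z' = 0 → z = 0) :
    ∃ Spp Spm Smp Smm : Y → Matrix ι ι ℝ, Continuous Spp ∧ Continuous Spm ∧ Continuous Smp ∧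
      Continuous Smm ∧ ∀ y, (∀ v : St ι, ∃ z z', B.Rel d (R y) (Q y) t₁ t₂ z z' ∧ inD U z z' = v) ∧
        ∀ z z', B.Rel d (R y) (Q y) t₁ t₂ z z' →
          outD U z z' = (Spp y *ᵥ (inD U z z').1 + Spm y *ᵥ (inD U z z').2,
            Smp y *ᵥ (inD U z z').1 + Smm y *ᵥ (inD U z z').2) := by
  have hc : Continuous fun z : Y × ℝ => B.flowSys d (R z.1 z.2) (Q z.1 z.2) z.2 :=
    B.flowSys_cont d hR hQ continuous_snd
  obtain ⟨Φ, hΦ0, hΦd, hΦc⟩ := Lib.LinODE.exists_sol
    (fun y t => ContinuousLinearMap.mul ℝ (St ι →L[ℝ] St ι) (B.flowSys d (R y t) (Q y t) t))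
    ((ContinuousLinearMap.mul ℝ (St ι →L[ℝ] St ι)).continuous.comp hc) t₁ 1
  have hsol : ∀ y w, B.Sol d (R y) (Q y) (Icc t₁ t₂) (fun t => (Φ y t w).1)
      (fun t => (Φ y t w).2) := fun y w => Bg.flow_sol_iff.2 fun t _ => by
    simpa using (hΦd y t).clm_apply (hasDerivAt_const t w)
  have hrel : ∀ y z z', B.Rel d (R y) (Q y) t₁ t₂ z z' ↔
      ∃ w, z = flowSt B d t₁ w ∧ z' = flowSt B d t₂ (Φ y t₂ w) := by
    intro y z z'
    have h1 : ∀ w, B.st d (fun t => (Φ y t w).1) (fun t => (Φ y t w).2) t₁ = flowSt B d t₁ w :=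
      fun w => by
        show flowSt B d t₁ (Φ y t₁ w) = _
        rw [hΦ0]; rfl
    constructor
    · intro h
      obtain ⟨u, p, -, h0, -⟩ := id h
      refine ⟨(u t₁, p t₁), h0.symm, ?_⟩
      exact (h.st_eq hd ht (hR.comp (continuous_const.prodMk continuous_id)).continuousOn
        (hQ.comp (continuous_const.prodMk continuous_id)).continuousOn (hsol y (u t₁, p t₁))
        ((h1 _).trans h0)).symm
    · rintro ⟨w, rfl, rfl⟩
      exact ⟨_, _, hsol y w, h1 w, rfl⟩
  set In : Y → St ι →L[ℝ] St ι := fun y =>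
    (flowIn U).comp ((flowSt B d t₁).prod ((flowSt B d t₂).comp (Φ y t₂))) with hIn
  set Out : Y → St ι →L[ℝ] St ι := fun y =>
    (flowOut U).comp ((flowSt B d t₁).prod ((flowSt B d t₂).comp (Φ y t₂))) with hOut
  have hInc : Continuous In := continuous_clm_apply.2 fun w =>
    (flowIn U).continuous.comp (continuous_const.prodMk
      ((flowSt B d t₂).continuous.comp ((hΦc t₂).clm_apply continuous_const)))
  have hOutc : Continuous Out := continuous_clm_apply.2 fun w =>
    (flowOut U).continuous.comp (continuous_const.prodMk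
      ((flowSt B d t₂).continuous.comp ((hΦc t₂).clm_apply continuous_const)))
  have hunit : ∀ y, IsUnit (In y) := fun y => by
    have hinj : Function.Injective (In y) := by
      refine (injective_iff_map_eq_zero (In y)).2 fun w hw => ?_
      have h0 := huniq y _ _ ((hrel y _ _).2 ⟨w, rfl, rfl⟩) hw
      obtain ⟨e1, e2⟩ := B.eq_of_st_eq hd (u := fun _ => w.1) (p := fun _ => w.2)
        (u' := fun _ => 0) (p' := fun _ => 0) (t := t₁)
        (h0.trans (map_zero (flowSt B d t₁)).symm)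
      exact Prod.ext e1 e2
    exact ContinuousLinearMap.isUnit_iff_bijective.2
      ⟨hinj, (LinearMap.injective_iff_surjective (f := (In y : St ι →ₗ[ℝ] St ι))).1 hinj⟩
  set S : Y → St ι →L[ℝ] St ι := fun y => Out y * Ring.inverse (In y) with hS
  have hSc : Continuous S := by
    refine hOutc.mul (continuous_iff_continuousAt.2 fun y => ?_)
    have := NormedRing.inverse_continuousAt (hunit y).unit
    exact ContinuousAt.comp (f := In) this hInc.continuousAt
  have hSw : ∀ w : St ι, Continuous fun y => S y w := fun w => hSc.clm_apply continuous_const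
  refine ⟨fun y => Matrix.of fun i j => (S y (Pi.single j 1, 0)).1 i,
    fun y => Matrix.of fun i j => (S y (0, Pi.single j 1)).1 i,
    fun y => Matrix.of fun i j => (S y (Pi.single j 1, 0)).2 i,
    fun y => Matrix.of fun i j => (S y (0, Pi.single j 1)).2 i,
    continuous_matrix fun i j => (continuous_apply i).comp (hSw _).fst,
    continuous_matrix fun i j => (continuous_apply i).comp (hSw _).fst,
    continuous_matrix fun i j => (continuous_apply i).comp (hSw _).snd,
    continuous_matrix fun i j => (continuous_apply i).comp (hSw _).snd, fun y => ⟨fun v => ?_, ?_⟩⟩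
  · obtain ⟨w, hw⟩ := (ContinuousLinearMap.isUnit_iff_bijective.1 (hunit y)).2 v
    exact ⟨_, _, (hrel y _ _).2 ⟨w, rfl, rfl⟩, hw⟩
  · intro z z' h
    obtain ⟨w, rfl, rfl⟩ := (hrel y _ _).1 h
    have e : Out y w = S y (In y w) := by
      show _ = (Out y * Ring.inverse (In y) * In y) w
      rw [mul_assoc, Ring.inverse_mul_cancel _ (hunit y), mul_one]
    exact e.trans (flow_blocks (S y) (In y w))

end Crest.Agent.R202
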