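import Crest.Agent.R202.OdeLyap
import Crest.Agent.R202.OdeFlow
import Crest.Agent.R202.OdeNorm

/-!
# R202/OdeKick: short weak perturbations

Take the scattering matrices (`exists_scat`) for `U = range inr = {L' < d}` (uniqueness from
`cut_diag`).  `lyap` with `U`, `L = ∅`, `γ = L' + 1/2` on subintervals bounds `xm`, `xp` on `H`
pointwise and `∫ nW` by `C (η² sup |ξ|² + |xm s|² + |xp_H t|²)`, where `ξ i = e^{-Ip} xp (inl i)`
solves `ξ' = kerN ξ + err`, `|err| ≤ C η √(nW xp_H + nW xm)`, `|kerN| ≤ C η`.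
-/

open scoped ContDiff Topology Matrix Matrix.Norms.L2Operator
open Set Filter

noncomputable section

namespace Crest.Agent.R202

/-- Cauchy–Schwarz -/
theorem OdeKick_cs {f g : ℝ → ℝ} {s r t Λ : ℝ} (hr : r ∈ Icc s t) (ht : t ≤ s + Λ)
    (hf : ContinuousOn f (Icc s t)) (hg : ContinuousOn g (Icc s t))
    (h : ∀ x ∈ Icc s t, f x ^ 2 ≤ g x) : (∫ x in s..r, f x) ^ 2 ≤ Λ * ∫ x in s..t, g x := by
  have hsub : Icc s r ⊆ Icc s t := Icc_subset_Icc_right hr.2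
  have hst : s ≤ t := hr.1.trans hr.2
  have i1 : IntervalIntegrable f MeasureTheory.volume s r :=
    (hf.mono hsub).intervalIntegrable_of_Icc hr.1
  have i2 : IntervalIntegrable (fun x => f x ^ 2) MeasureTheory.volume s r :=
    ((hf.pow 2).mono hsub).intervalIntegrable_of_Icc hr.1
  have i3 : IntervalIntegrable g MeasureTheory.volume s r :=
    (hg.mono hsub).intervalIntegrable_of_Icc hr.1
  have i4 : IntervalIntegrable g MeasureTheory.volume s t := hg.intervalIntegrable_of_Icc hst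
  have h0 : ∀ x ∈ Icc s t, 0 ≤ g x := fun x hx => (sq_nonneg _).trans (h x hx)
  have h1 : ∫ x in s..r, f x ^ 2 ≤ ∫ x in s..t, g x :=
    (intervalIntegral.integral_mono_on hr.1 i2 i3 fun x hx => h x (hsub hx)).trans
      (intervalIntegral.integral_mono_interval le_rfl hr.1 hr.2
        ((MeasureTheory.ae_restrict_iff' measurableSet_Ioc).2
          (Eventually.of_forall fun x hx => h0 x (Ioc_subset_Icc_self hx))) i4)
  have h2 : 0 ≤ ∫ x in s..t, g x := intervalIntegral.integral_nonneg hst h0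
  have h3 : 0 ≤ ∫ x in s..r, f x ^ 2 := intervalIntegral.integral_nonneg hr.1 fun _ _ => sq_nonneg _
  set A := ∫ x in s..r, f x with hA
  rcases hr.1.eq_or_lt with h4 | h4
  · have : A = 0 := by rw [hA, ← h4, intervalIntegral.integral_same]
    rw [this, zero_pow two_ne_zero]
    exact mul_nonneg (by linarith) h2
  · have h5 : 0 ≤ ∫ x in s..r, ((r - s) * f x - A) ^ 2 :=
      intervalIntegral.integral_nonneg hr.1 fun _ _ => sq_nonneg _
    have h6 : ∫ x in s..r, ((r - s) * f x - A) ^ 2 =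
        (r - s) ^ 2 * (∫ x in s..r, f x ^ 2) - 2 * (r - s) * A * A + (r - s) * A ^ 2 := by
      have e : ∀ x, ((r - s) * f x - A) ^ 2 =
          (r - s) ^ 2 * f x ^ 2 - 2 * (r - s) * A * f x + A ^ 2 := fun x => by ring
      simp only [e]
      rw [intervalIntegral.integral_add ((i2.const_mul _).sub (i1.const_mul _))
        intervalIntegrable_const, intervalIntegral.integral_sub (i2.const_mul _) (i1.const_mul _),
        intervalIntegral.integral_const_mul, intervalIntegral.integral_const_mul,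
        intervalIntegral.integral_const, smul_eq_mul]
    have h7 : A ^ 2 ≤ (r - s) * ∫ x in s..r, f x ^ 2 := by
      refine le_of_mul_le_mul_left ?_ (sub_pos.2 h4)
      nlinarith
    exact h7.trans (mul_le_mul (by linarith [hr.2]) h1 h3 (by linarith))

section Fo

variable {ι : Type} [Fintype ι] [DecidableEq ι]

/-- the forcing term of the equation for `xp` in terms of the state -/
def OdeKick_Fo (B : Bg) (d : ι → ℕ) (R Q : Matrix ι ι ℝ) (r : ℝ) (a b : ι → ℝ) (i : ι) : ℝ :=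
  Real.sqrt (d i) * ((Q *ᵥ fun j => (a j + b j) / Real.sqrt (d j)) i - B.bm (d i) r *
    (R *ᵥ fun j => (B.bp (d j) r * a j + B.bm (d j) r * b j) / Real.sqrt (d j)) i) /
      (B.bp (d i) r - B.bm (d i) r)

omit [DecidableEq ι] in
theorem OdeKick_Fo_sub (B : Bg) (d : ι → ℕ) (R Q : Matrix ι ι ℝ) (r : ℝ) (a a' b : ι → ℝ) (i : ι) :
    OdeKick_Fo B d R Q r a b i - OdeKick_Fo B d R Q r a' 0 i =
      OdeKick_Fo B d R Q r (a - a') b i := by
  unfold OdeKick_Fo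
  have e1 : (fun j => ((a - a') j + b j) / Real.sqrt (d j)) =
      (fun j => (a j + b j) / Real.sqrt (d j)) - fun j => (a' j + (0 : ι → ℝ) j) / Real.sqrt (d j) := by
    funext j
    simp only [Pi.sub_apply, Pi.zero_apply]
    ring
  have e2 : (fun j => (B.bp (d j) r * (a - a') j + B.bm (d j) r * b j) / Real.sqrt (d j)) =
      (fun j => (B.bp (d j) r * a j + B.bm (d j) r * b j) / Real.sqrt (d j)) -
        fun j => (B.bp (d j) r * a' j + B.bm (d j) r * (0 : ι → ℝ) j) / Real.sqrt (d j) := by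
    funext j
    simp only [Pi.sub_apply, Pi.zero_apply]
    ring
  rw [e1, e2, Matrix.mulVec_sub, Matrix.mulVec_sub]
  simp only [Pi.sub_apply]
  ring

omit [DecidableEq ι] in
theorem OdeKick_Fo_cont (B : Bg) (d : ι → ℕ) {R Q : ℝ → Matrix ι ι ℝ} (hR : Continuous R)
    (hQ : Continuous Q) {a b : ℝ → ι → ℝ} {S : Set ℝ} (ha : ∀ j, ContinuousOn (fun r => a r j) S)
    (hb : ∀ j, ContinuousOn (fun r => b r j) S) (i : ι) :
    ContinuousOn (fun r => OdeKick_Fo B d (R r) (Q r) r (a r) (b r) i) S := by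
  unfold OdeKick_Fo
  have h1 := fun l => (B.continuous_bp l).continuousOn (s := S)
  have h2 := fun l => (B.continuous_bm l).continuousOn (s := S)
  have h3 : ∀ i j, ContinuousOn (fun r => R r i j) S := fun i j =>
    (hR.matrix_elem i j).continuousOn
  have h4 : ∀ i j, ContinuousOn (fun r => Q r i j) S := fun i j =>
    (hQ.matrix_elem i j).continuousOn
  refine ContinuousOn.div (continuousOn_const.mul (ContinuousOn.sub ?_ ((h2 _).mul ?_)))
    ((h1 _).sub (h2 _)) fun r _ => ?_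
  · exact continuousOn_finset_sum _ fun j _ => (h4 i j).mul (((ha j).add (hb j)).div_const _)
  · exact continuousOn_finset_sum _ fun j _ =>
      (h3 i j).mul ((((h1 _).mul (ha j)).add ((h2 _).mul (hb j))).div_const _)
  · have := B.gap_ge (d i) r
    have := B.b_pos
    have : (0 : ℝ) ≤ d i := Nat.cast_nonneg _
    linarith

theorem OdeKick_deriv {B : Bg} {d : ι → ℕ} (hd : ∀ i, 1 ≤ d i) {R Q : ℝ → Matrix ι ι ℝ} {S : Set ℝ}
    {u p : ℝ → ι → ℝ} (h : B.Sol d R Q S u p) (s : ℝ) {r : ℝ} (hr : r ∈ S) (i : ι) :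
    HasDerivAt (fun r => Real.exp (-B.Ip (d i) s r) * B.xp d u p r i)
      (Real.exp (-B.Ip (d i) s r) *
        OdeKick_Fo B d (R r) (Q r) r (B.xp d u p r) (B.xm d u p r) i) r := by
  have h0 : ∀ j, Real.sqrt (d j) ≠ 0 := fun j =>
    (Real.sqrt_pos.2 (by exact_mod_cast hd j)).ne'
  have e1 : (fun j => (B.xp d u p r j + B.xm d u p r j) / Real.sqrt (d j)) = u r := by
    funext j
    rw [div_eq_iff (h0 j), mul_comm]
    exact (B.sqrt_mul_u _ _ _ _).symm
  have e2 : (fun j => (B.bp (d j) r * B.xp d u p r j + B.bm (d j) r * B.xm d u p r j) /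
      Real.sqrt (d j)) = p r := by
    funext j
    rw [div_eq_iff (h0 j), mul_comm (p r j)]
    exact (B.sqrt_mul_p _ _ _ _).symm
  unfold OdeKick_Fo
  rw [e1, e2]
  refine ((B.hasDerivAt_Ip (d i) s r).neg.exp.mul (h.hasDerivAt_xp hr i)).congr_deriv ?_
  simp only [Pi.neg_apply]
  ring

theorem OdeKick_Fo_sq (B : Bg) {d : ι → ℕ} (hd : ∀ i, 1 ≤ d i) {R Q : Matrix ι ι ℝ} {η : ℝ}
    (hη : 0 ≤ η) (h : Pb d η R Q) (r : ℝ) (a b : ι → ℝ) {i : ι} {L' : ℕ} (hi : d i ≤ L') :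
    OdeKick_Fo B d R Q r a b i ^ 2 ≤
      (4 * (L' : ℝ) ^ 2 + 4 * (L' + B.β₀) ^ 2 * (2 + B.β₀) ^ 2) * η ^ 2 * (nW d a + nW d b) := by
  have hβ : 0 < B.β₀ := B.b_pos.trans_le B.b_le
  have hd' : ∀ j, (1 : ℝ) ≤ d j := fun j => by exact_mod_cast hd j
  have hi' : (d i : ℝ) ≤ L' := by exact_mod_cast hi
  have hW : 0 ≤ nW d a + nW d b := by unfold nW; positivity
  have hbp : ∀ j, B.bp (d j) r ^ 2 ≤ ((2 + B.β₀) * d j) ^ 2 := fun j => by
    have h1 := B.bp_ge (d j) r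
    have h2 : B.bp (d j) r ≤ d j + 1 / 6 := (B.bp_le (d j) r).trans (B.a_le (d j))
    have h3 := hd' j
    exact pow_le_pow_left₀ (by linarith) (by nlinarith) 2
  have hbm0 : ∀ j, B.bm (d j) r ^ 2 ≤ (d j + B.β₀) ^ 2 := fun j => by
    have h1 := B.bm_ge (d j) r
    have h2 : B.bm (d j) r ≤ -(B.a (d j) + B.b) := B.bm_le (d j) r
    have h3 := B.le_a (d j)
    have h4 := B.b_pos
    have h5 := hd' j
    exact sq_le_sq' h1 (by linarith)
  have hbm : ∀ j, B.bm (d j) r ^ 2 ≤ ((2 + B.β₀) * d j) ^ 2 := fun j => by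
    have h3 := hd' j
    exact (hbm0 j).trans (pow_le_pow_left₀ (by linarith) (by nlinarith) 2)
  unfold OdeKick_Fo
  set uu : ι → ℝ := fun j => (a j + b j) / Real.sqrt (d j) with huu
  set pp : ι → ℝ := fun j => (B.bp (d j) r * a j + B.bm (d j) r * b j) / Real.sqrt (d j) with hpp
  have h1 : nV d uu ≤ 2 * (nW d a + nW d b) := by
    unfold nV nW
    rw [← Finset.sum_add_distrib, Finset.mul_sum]
    refine Finset.sum_le_sum fun j _ => ?_
    have h3 := hd' j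
    have e : (d j : ℝ) ^ 2 * uu j ^ 2 = d j * (a j + b j) ^ 2 := by
      simp only [huu, div_pow, Real.sq_sqrt (Nat.cast_nonneg (d j))]
      field_simp
    rw [e]
    nlinarith [mul_nonneg (Nat.cast_nonneg (α := ℝ) (d j)) (sq_nonneg (a j - b j))]
  have h2 : n2 pp ≤ 2 * (2 + B.β₀) ^ 2 * (nW d a + nW d b) := by
    unfold n2 nW
    rw [← Finset.sum_add_distrib, Finset.mul_sum]
    refine Finset.sum_le_sum fun j _ => ?_
    have h3 := hd' j
    simp only [hpp, div_pow, Real.sq_sqrt (Nat.cast_nonneg (d j))]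
    rw [div_le_iff₀ (by linarith)]
    have h4 := mul_le_mul_of_nonneg_right (hbp j) (sq_nonneg (a j))
    have h5 := mul_le_mul_of_nonneg_right (hbm j) (sq_nonneg (b j))
    nlinarith [sq_nonneg (B.bp (d j) r * a j - B.bm (d j) r * b j)]
  have h3 : (Q *ᵥ uu) i ^ 2 ≤ η ^ 2 * (L' ^ 2 * (2 * (nW d a + nW d b))) := by
    have h4 := h.abs_Q_le hη (Pi.single i 1) uu
    have e : nV d (Pi.single i 1) = (d i : ℝ) ^ 2 := by
      unfold nV
      rw [Finset.sum_eq_single i (fun j _ hj => by simp [hj]) (by simp)]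
      simp
    have h5 : 0 ≤ nV d uu := by unfold nV; positivity
    rw [single_one_dotProduct, e] at h4
    have h6 := pow_le_pow_left₀ (abs_nonneg _) h4 2
    rw [sq_abs, mul_pow, mul_pow, Real.sq_sqrt (sq_nonneg _), Real.sq_sqrt h5] at h6
    refine h6.trans ?_
    gcongr
  have h4 : (R *ᵥ pp) i ^ 2 ≤ η ^ 2 * (2 * (2 + B.β₀) ^ 2 * (nW d a + nW d b)) := by
    have h4 := h.abs_R_le hη (Pi.single i 1) pp
    have e : n2 (Pi.single i 1 : ι → ℝ) = 1 := by
      unfold n2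
      rw [Finset.sum_eq_single i (fun j _ hj => by simp [hj]) (by simp)]
      simp
    rw [single_one_dotProduct, e, Real.sqrt_one, one_mul] at h4
    have h6 := pow_le_pow_left₀ (abs_nonneg _) h4 2
    rw [sq_abs, mul_pow, Real.sq_sqrt (n2_nonneg _)] at h6
    refine h6.trans ?_
    gcongr
  have h5 : B.bm (d i) r ^ 2 ≤ (L' + B.β₀) ^ 2 :=
    (hbm0 i).trans (pow_le_pow_left₀ (by positivity) (by linarith) 2)
  have h6 := mul_le_mul h5 h4 (sq_nonneg _) (sq_nonneg _)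
  have h7 := B.gap_ge (d i) r
  have h8 := B.b_pos
  have h9 := hd' i
  have h10 : (d i : ℝ) ≤ (B.bp (d i) r - B.bm (d i) r) ^ 2 := by nlinarith
  rw [div_pow, mul_pow, Real.sq_sqrt (Nat.cast_nonneg _), div_le_iff₀ (by linarith), mul_comm]
  refine mul_le_mul ?_ h10 (Nat.cast_nonneg _) (by positivity)
  nlinarith [sq_nonneg ((Q *ᵥ uu) i + B.bm (d i) r * (R *ᵥ pp) i)]

end Fo

section sums

variable {M H : Type}

theorem OdeKick_mskU (x : M ⊕ H → ℝ) :
    msk (range Sum.inr) x = Sum.elim (0 : M → ℝ) fun j => x (Sum.inr j) := by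
  funext i
  rcases i with i | i <;> simp [msk]

theorem OdeKick_mskUc (x : M ⊕ H → ℝ) :
    msk (range Sum.inr)ᶜ x = Sum.elim (fun j => x (Sum.inl j)) (0 : H → ℝ) := by
  funext i
  rcases i with i | i <;> simp [msk]

theorem OdeKick_split (z : St (M ⊕ H)) : ∃ (a : M → ℝ) (b : H → ℝ) (m : M ⊕ H → ℝ),
    z = (Sum.elim a b, m) :=
  ⟨z.1 ∘ Sum.inl, z.1 ∘ Sum.inr, z.2, by rw [Sum.elim_comp_inl_inr]⟩

theorem OdeKick_inD (z z' : M → ℝ) (h h' : H → ℝ) (m m' : M ⊕ H → ℝ) :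
    inD (range Sum.inr) (Sum.elim z h', m) (Sum.elim z' h, m') = (Sum.elim z h, m) := by
  unfold inD
  rw [OdeKick_mskU, OdeKick_mskUc]
  congr 1
  funext i
  rcases i with i | i <;> simp

theorem OdeKick_outD (z z' : M → ℝ) (h h' : H → ℝ) (m m' : M ⊕ H → ℝ) :
    outD (range Sum.inr) (Sum.elim z h', m) (Sum.elim z' h, m') = (Sum.elim z' h', m') := by
  unfold outD
  rw [OdeKick_mskU, OdeKick_mskUc]
  congr 1
  funext i
  rcases i with i | i <;> simp

/-- free evolution of data on `M` -/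
def OdeKick_lift (B : Bg) (d : M ⊕ H → ℕ) (s r : ℝ) (z : M → ℝ) : M ⊕ H → ℝ :=
  Sum.elim (fun a => Real.exp (B.Ip (d (Sum.inl a)) s r) * z a) 0

variable [Fintype M] [Fintype H]

theorem OdeKick_ker [DecidableEq M] (B : Bg) (d : M ⊕ H → ℕ) (R Q : ℝ → Matrix (M ⊕ H) (M ⊕ H) ℝ)
    (s r : ℝ) (i : M ⊕ H) (a : M) :
    Real.exp (-B.Ip (d i) s r) *
      OdeKick_Fo B d (R r) (Q r) r (OdeKick_lift B d s r (Pi.single a 1)) 0 i =
      kerN B d R Q s i (Sum.inl a) r := by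
  unfold OdeKick_Fo kerN OdeKick_lift
  simp only [Matrix.mulVec, dotProduct, Fintype.sum_sum_type, Sum.elim_inl, Sum.elim_inr,
    Pi.zero_apply, mul_zero, add_zero, zero_div, Finset.sum_const_zero]
  rw [Finset.sum_eq_single a (fun j _ hj => by simp [hj]) (by simp),
    Finset.sum_eq_single a (fun j _ hj => by simp [hj]) (by simp), Pi.single_eq_same,
    Real.exp_sub, Real.exp_neg]
  ring

end sums

theorem OdeKick_alg {g C₀ K₃ K₄ K₅ e Z D A IM IH : ℝ} (hg : 0 < g) (hC : 0 ≤ C₀) (hK₃ : 0 ≤ K₃)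
    (hK₄ : K₄ = 2 / g * (1 + C₀ / g)) (hK₅ : K₅ = 2 * (K₃ + K₄)) (he : 0 ≤ e) (he1 : e ≤ 1)
    (he2 : K₅ * e ≤ 1) (hZ : 0 ≤ Z) (hD : 0 ≤ D) (hA : 0 ≤ A) (hM : 0 ≤ IM) (hH : 0 ≤ IH)
    (L1 : A + g / 2 * IH ≤ D + C₀ / g * (e * IM)) (X2 : IM ≤ K₃ * (Z + e * (IM + IH))) :
    IM + IH ≤ K₅ * (Z + D) ∧ e * (IM + IH) ≤ K₅ * (e * Z + D) ∧
      A ≤ (1 + C₀ / g * K₅) * (e * Z + D) ∧ IH ≤ 2 / g * ((1 + C₀ / g * K₅) * (e * Z + D)) := by
  have hCg : 0 ≤ C₀ / g := by positivity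
  have hK₄0 : 0 ≤ K₄ := by rw [hK₄]; positivity
  have hK₅0 : 0 ≤ K₅ := by rw [hK₅]; positivity
  have X3 : ∀ {N : ℝ}, g / 2 * IH ≤ N → IH ≤ 2 / g * N := fun {N} hN => by
    calc IH = 2 / g * (g / 2 * IH) := by field_simp
      _ ≤ _ := mul_le_mul_of_nonneg_left hN (by positivity)
  have h1 : e * IM ≤ e * (IM + IH) := mul_le_mul_of_nonneg_left (by linarith) he
  have hJ : 0 ≤ e * (IM + IH) := by positivity
  have X4 : IH ≤ K₄ * (D + e * (IM + IH)) := by
    rw [hK₄, mul_assoc]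
    refine X3 ?_
    have h2 := mul_le_mul_of_nonneg_left h1 hCg
    have h3 := mul_nonneg hCg hD
    linarith
  have X5 : IM + IH ≤ K₅ * (Z + D) := by
    have h1 := mul_le_mul_of_nonneg_right he2 (add_nonneg hM hH)
    have h2 := mul_nonneg hK₃ hD
    have h3 := mul_nonneg hK₄0 hZ
    rw [hK₅] at h1 ⊢
    linarith
  have X6 : e * (IM + IH) ≤ K₅ * (e * Z + D) := by
    have h1 := mul_le_mul_of_nonneg_left X5 he
    have h2 := mul_le_mul_of_nonneg_right he1 (mul_nonneg hK₅0 hD)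
    linarith
  have X7 : A + g / 2 * IH ≤ (1 + C₀ / g * K₅) * (e * Z + D) := by
    have h2 := mul_le_mul_of_nonneg_left (h1.trans X6) hCg
    have h3 := mul_nonneg he hZ
    linarith
  have hgI : 0 ≤ g / 2 * IH := by positivity
  exact ⟨X5, X6, by linarith, X3 (by linarith)⟩

set_option maxHeartbeats 1600000 in
theorem OdeKick_apriori (B : Bg) (M : Type) [Fintype M] [DecidableEq M] (L' : ℕ) (Λ : ℝ) :
    ∃ η₀ > 0, ∃ C : ℝ, 0 ≤ C ∧ ∀ (H : Type) [Fintype H] [DecidableEq H] (d : M ⊕ H → ℕ),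
    (∀ i, 1 ≤ d i) → (∀ i, d (Sum.inl i) ≤ L') → (∀ i, L' < d (Sum.inr i)) →
    ∀ (R Q : ℝ → Matrix (M ⊕ H) (M ⊕ H) ℝ), Continuous R → Continuous Q →
    ∀ s t η : ℝ, s ≤ t → t ≤ s + Λ → 0 ≤ η → η ≤ η₀ → (∀ r ∈ Icc s t, Pb d η (R r) (Q r)) →
    ∀ (z z' : M → ℝ) (h h' : H → ℝ) (m m' : M ⊕ H → ℝ),
    B.Rel d R Q s t (Sum.elim z h', m) (Sum.elim z' h, m') →
    n2 h' ≤ C * (η ^ 2 * n2 z + (n2 m + n2 h)) ∧ n2 m' ≤ C * (η ^ 2 * n2 z + (n2 m + n2 h)) ∧
      ∀ i, (Real.exp (-B.Ip (d (Sum.inl i)) s t) * z' i - z i) ^ 2 ≤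
          C * η ^ 2 * (n2 z + (n2 m + n2 h)) ∧
        (Real.exp (-B.Ip (d (Sum.inl i)) s t) * z' i - z i - ∫ r in s..t,
          Real.exp (-B.Ip (d (Sum.inl i)) s r) *
            OdeKick_Fo B d (R r) (Q r) r (OdeKick_lift B d s r z) 0 (Sum.inl i)) ^ 2 ≤
          C * η ^ 2 * (η ^ 2 * n2 z + (n2 m + n2 h)) := by
  obtain ⟨δ₀, hδ₀, C₀, hC₀, hly⟩ := lyap B
  have hβ : 0 < B.β₀ := B.b_pos.trans_le B.b_le
  obtain ⟨g, hg⟩ : ∃ g : ℝ, g = 1 / (3 * (L' + 1)) := ⟨_, rfl⟩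
  have hg0 : 0 < g := by rw [hg]; positivity
  have hg1 : g ≤ 1 := by
    rw [hg, div_le_one (by positivity)]
    linarith [Nat.cast_nonneg (α := ℝ) L']
  obtain ⟨K₁, hK₁⟩ : ∃ K₁ : ℝ, K₁ = 4 * (L' : ℝ) ^ 2 + 4 * (L' + B.β₀) ^ 2 * (2 + B.β₀) ^ 2 := ⟨_, rfl⟩
  have hK₁0 : 0 ≤ K₁ := by rw [hK₁]; positivity
  obtain ⟨E, hE⟩ : ∃ E : ℝ, E = Real.exp (2 * (L' + 1) * |Λ|) := ⟨_, rfl⟩
  have hE1 : 1 ≤ E := hE ▸ Real.one_le_exp (by positivity)
  have hE0 : 0 ≤ E := zero_le_one.trans hE1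
  obtain ⟨c, hc⟩ : ∃ c : ℝ, c = (Fintype.card M : ℝ) := ⟨_, rfl⟩
  have hc0 : 0 ≤ c := hc ▸ Nat.cast_nonneg _
  obtain ⟨K₂, hK₂⟩ : ∃ K₂ : ℝ, K₂ = |Λ| * (K₁ * E) := ⟨_, rfl⟩
  have hK₂0 : 0 ≤ K₂ := by rw [hK₂]; positivity
  obtain ⟨K₃, hK₃⟩ : ∃ K₃ : ℝ, K₃ = |Λ| * (L' * E * 2) * (1 + c * K₂) := ⟨_, rfl⟩
  have hK₃0 : 0 ≤ K₃ := by rw [hK₃]; positivity
  obtain ⟨K₄, hK₄⟩ : ∃ K₄ : ℝ, K₄ = 2 / g * (1 + C₀ / g) := ⟨_, rfl⟩
  have hK₄0 : 0 ≤ K₄ := by rw [hK₄]; positivity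
  obtain ⟨K₅, hK₅⟩ : ∃ K₅ : ℝ, K₅ = 2 * (K₃ + K₄) := ⟨_, rfl⟩
  have hK₅0 : 0 ≤ K₅ := by rw [hK₅]; positivity
  obtain ⟨K₆, hK₆⟩ : ∃ K₆ : ℝ, K₆ = 1 + C₀ / g * K₅ := ⟨_, rfl⟩
  have hK₆0 : 0 ≤ K₆ := by rw [hK₆]; positivity
  obtain ⟨K₇, hK₇⟩ : ∃ K₇ : ℝ, K₇ = |Λ| * (L' * E * (c * (K₂ * K₅))) + 2 / g * K₆ := ⟨_, rfl⟩
  have hK₇0 : 0 ≤ K₇ := by rw [hK₇]; positivity
  refine ⟨min (min (δ₀ * g) 1) (1 / (K₅ + 1)), by positivity, E * K₆ + K₂ * K₅ + K₂ * K₇,
    by positivity, ?_⟩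
  intro H _ _ d hd hM hH R Q hR hQ s t η hst htΛ hη hη₀ hPb z z' h h' m m' ⟨u, p, hsol, hs, ht⟩
  have hη1 : η ≤ δ₀ * g := hη₀.trans ((min_le_left _ _).trans (min_le_left _ _))
  have hη2 : η ≤ 1 := hη₀.trans ((min_le_left _ _).trans (min_le_right _ _))
  have hη3 : η ≤ 1 / (K₅ + 1) := hη₀.trans (min_le_right _ _)
  have hη4 : η ^ 2 ≤ 1 := pow_le_one₀ hη hη2
  have hη5 : K₅ * η ^ 2 ≤ 1 := by
    rw [le_div_iff₀ (by positivity)] at hη3
    have := mul_le_mul_of_nonneg_right hη2 (mul_nonneg hK₅0 hη)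
    linarith
  have hΛ : |Λ| = Λ := abs_of_nonneg (by linarith)
  have htΛ' : t ≤ s + |Λ| := by rwa [hΛ]
  have hxs : B.xp d u p s = Sum.elim z h' := congrArg Prod.fst hs
  have hms : B.xm d u p s = m := congrArg Prod.snd hs
  have hxt : B.xp d u p t = Sum.elim z' h := congrArg Prod.fst ht
  have hmt : B.xm d u p t = m' := congrArg Prod.snd ht
  have cx : ∀ j, ContinuousOn (fun r => B.xp d u p r j) (Icc s t) := fun j r hr =>
    (hsol.hasDerivAt_xp hr j).continuousAt.continuousWithinAt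
  have cy : ∀ j, ContinuousOn (fun r => B.xm d u p r j) (Icc s t) := fun j r hr =>
    (hsol.hasDerivAt_xm hr j).continuousAt.continuousWithinAt
  have hder := fun r (hr : r ∈ Icc s t) i => OdeKick_deriv hd hsol s hr (Sum.inl i)
  have hly' := hly (M ⊕ H) d hd R Q s t u p (range Sum.inr) ∅ (fun _ => L' + 1 / 2)
      (fun r => (L' + 1 / 2) * (r - s)) g η hst hsol (disjoint_empty _) hg0 hg1 hη hη1
      fun r hr => ⟨by simpa using ((hasDerivAt_id r).sub_const s).const_mul ((L' : ℝ) + 1 / 2),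
        by positivity, hPb r hr, by
          rintro _ ⟨j, rfl⟩
          have h2 : (L' : ℝ) + 1 ≤ d (Sum.inr j) := by exact_mod_cast hH j
          have h3 := B.bp_ge (d (Sum.inr j)) r
          have h4 : g * (L' + 1) = 1 / 3 := by rw [hg]; field_simp
          have h5 := mul_le_mul_of_nonneg_right hg1 (sub_nonneg.2 h2)
          linarith, fun i hi => hi.elim⟩
  rw [hs, ht] at hly'
  clear hly hs ht hsol
  generalize B.xp d u p = x at *
  generalize B.xm d u p = y at *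
  have cI : ∀ l, Continuous (B.Ip l s) := fun l =>
    continuous_iff_continuousAt.2 fun r => (B.hasDerivAt_Ip l s r).continuousAt
  obtain ⟨w, hw⟩ : ∃ w : ℝ → ℝ, w = fun r => Real.exp (-2 * ((L' + 1 / 2) * (r - s))) := ⟨_, rfl⟩
  have cw : Continuous w := by rw [hw]; fun_prop
  have hw0 : ∀ r, 0 < w r := fun r => hw ▸ Real.exp_pos _
  have hw1 : ∀ r ∈ Icc s t, w r ≤ 1 := fun r hr => hw ▸ Real.exp_le_one_iff.2 (by
    have : 0 ≤ ((L' : ℝ) + 1 / 2) * (r - s) := mul_nonneg (by positivity) (by linarith [hr.1])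
    linarith)
  have hw2 : ∀ r ∈ Icc s t, 1 ≤ E * w r := fun r hr => by
    rw [hE, hw, ← Real.exp_add]
    refine Real.one_le_exp ?_
    have h1 : ((L' : ℝ) + 1 / 2) * (r - s) ≤ (L' + 1) * |Λ| :=
      mul_le_mul (by linarith) (by linarith [hr.2]) (by linarith [hr.1]) (by positivity)
    linarith
  obtain ⟨NH, hNH⟩ : ∃ NH : ℝ → ℝ, NH = fun r => ∑ j, (d (Sum.inr j) : ℝ) * x r (Sum.inr j) ^ 2 + nW d (y r) := ⟨_, rfl⟩
  obtain ⟨NM, hNM⟩ : ∃ NM : ℝ → ℝ, NM = fun r => ∑ j, (d (Sum.inl j) : ℝ) * x r (Sum.inl j) ^ 2 := ⟨_, rfl⟩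
  have cNH : ContinuousOn NH (Icc s t) := hNH ▸
    (continuousOn_finset_sum _ fun j _ => continuousOn_const.mul ((cx _).pow 2)).add
      (continuousOn_finset_sum _ fun j _ => continuousOn_const.mul ((cy _).pow 2))
  have cNM : ContinuousOn NM (Icc s t) := hNM ▸
    continuousOn_finset_sum _ fun j _ => continuousOn_const.mul ((cx _).pow 2)
  have hNH0 : ∀ r, 0 ≤ NH r := fun r => by simp only [hNH, nW]; positivity
  have hNM0 : ∀ r, 0 ≤ NM r := fun r => by simp only [hNM]; positivity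
  have iH : IntervalIntegrable (fun r => w r * NH r) MeasureTheory.volume s t :=
    (cw.continuousOn.mul cNH).intervalIntegrable_of_Icc hst
  have iM : IntervalIntegrable (fun r => w r * NM r) MeasureTheory.volume s t :=
    (cw.continuousOn.mul cNM).intervalIntegrable_of_Icc hst
  obtain ⟨IH, hIH⟩ : ∃ IH, IH = ∫ r in s..t, w r * NH r := ⟨_, rfl⟩
  obtain ⟨IM, hIM⟩ : ∃ IM, IM = ∫ r in s..t, w r * NM r := ⟨_, rfl⟩
  have hIH0 : 0 ≤ IH :=
    hIH ▸ intervalIntegral.integral_nonneg hst fun r _ => mul_nonneg (hw0 r).le (hNH0 r)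
  have hIM0 : 0 ≤ IM :=
    hIM ▸ intervalIntegral.integral_nonneg hst fun r _ => mul_nonneg (hw0 r).le (hNM0 r)
  have hZ := n2_nonneg z
  have hm0 := n2_nonneg m
  have hh0 := n2_nonneg h
  have hm0' := n2_nonneg m'
  have hh0' := n2_nonneg h'
  -- the Lyapunov estimate
  have L1 : n2 h' + w t * n2 m' + g / 2 * IH ≤ (n2 m + n2 h) + C₀ / g * (η ^ 2 * IM) := by
    have h1 := hly'
    have e1 : ∀ a : M ⊕ H → ℝ, nW d (msk (range Sum.inr) a) =
        ∑ j, (d (Sum.inr j) : ℝ) * a (Sum.inr j) ^ 2 := fun a => by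
      simp [OdeKick_mskU, nW]
    have e2 : ∀ a : M ⊕ H → ℝ, nW d (msk (range Sum.inr)ᶜ a) =
        ∑ j, (d (Sum.inl j) : ℝ) * a (Sum.inl j) ^ 2 := fun a => by
      rw [OdeKick_mskUc]
      simp [nW]
    have e3 : ∀ (a : M → ℝ) (b : H → ℝ), n2 (msk (range Sum.inr) (Sum.elim a b)) = n2 b := fun a b => by
      simp [OdeKick_mskU, n2]
    have e4 : ∀ a : M ⊕ H → ℝ, n2 (msk ∅ a) = 0 := fun a => by simp [msk, n2]
    simp only [union_empty, e1, e2, lyF, e3, e4, sub_self, mul_zero, Real.exp_zero] at h1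
    have h2 := mul_le_mul_of_nonneg_right (hw1 t ⟨hst, le_rfl⟩) hh0
    have h3 : 1 * (n2 h' - 0 - n2 m) + g / 2 * IH ≤
        w t * (n2 h - 0 - n2 m') + C₀ * η ^ 2 / g * IM := by
      rw [hIH, hIM, hw, hNH, hNM]
      exact h1
    have e5 : C₀ * η ^ 2 / g * IM = C₀ / g * (η ^ 2 * IM) := by ring
    linarith
  -- the equation for `ξ`
  obtain ⟨ξ, hξ⟩ : ∃ ξ : M → ℝ → ℝ, ξ = fun i r => Real.exp (-B.Ip (d (Sum.inl i)) s r) * x r (Sum.inl i) := ⟨_, rfl⟩
  have hexp : ∀ l, ∀ r ∈ Icc s t, Real.exp (-B.Ip l s r) ^ 2 ≤ 1 := fun l r hr =>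
    pow_le_one₀ (Real.exp_pos _).le (Real.exp_le_one_iff.2 (by
      have h1 := B.Ip_ge l hr.1
      have h2 : 0 ≤ (l : ℝ) * (r - s) := mul_nonneg (Nat.cast_nonneg _) (by linarith [hr.1])
      linarith))
  have hexp' : ∀ i, ∀ r ∈ Icc s t, Real.exp (B.Ip (d (Sum.inl i)) s r) ^ 2 ≤ E := fun i r hr => by
    rw [← Real.exp_nat_mul, hE]
    refine Real.exp_le_exp.2 ?_
    have h1 := B.Ip_le (d (Sum.inl i)) hr.1
    have h2 := B.a_le (d (Sum.inl i))
    have h3 : (d (Sum.inl i) : ℝ) ≤ L' := by exact_mod_cast hM i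
    have h4 : B.a (d (Sum.inl i)) * (r - s) ≤ (L' + 1) * |Λ| :=
      mul_le_mul (by linarith) (by linarith [hr.2]) (by linarith [hr.1]) (by positivity)
    push_cast
    linarith
  have cF : ∀ i, ContinuousOn (fun r => Real.exp (-B.Ip (d (Sum.inl i)) s r) *
      OdeKick_Fo B d (R r) (Q r) r (x r) (y r) (Sum.inl i)) (Icc s t) := fun i =>
    (cI _).neg.rexp.continuousOn.mul (OdeKick_Fo_cont B d hR hQ cx cy _)
  have ftc : ∀ i, ∀ r ∈ Icc s t, ∫ r in s..r, Real.exp (-B.Ip (d (Sum.inl i)) s r) *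
      OdeKick_Fo B d (R r) (Q r) r (x r) (y r) (Sum.inl i) = ξ i r - z i := fun i r hr => by
    have hsub : Icc s r ⊆ Icc s t := Icc_subset_Icc_right hr.2
    rw [intervalIntegral.integral_eq_sub_of_hasDerivAt
      (fun v hv => hder v (hsub (uIcc_of_le hr.1 ▸ hv)) i)
      (((cF i).mono hsub).intervalIntegrable_of_Icc hr.1)]
    simp [hξ, Bg.Ip, hxs]
  have bF : ∀ i, ∀ r ∈ Icc s t, ∀ (a : M ⊕ H → ℝ) (N : ℝ), nW d a + nW d (y r) ≤ N →
      (Real.exp (-B.Ip (d (Sum.inl i)) s r) * OdeKick_Fo B d (R r) (Q r) r a (y r) (Sum.inl i)) ^ 2 ≤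
        K₁ * E * η ^ 2 * (w r * N) := fun i r hr a N hN => by
    have h1 := OdeKick_Fo_sq B hd hη (hPb r hr) r a (y r) (hM i)
    rw [← hK₁] at h1
    have h2 : 0 ≤ nW d a + nW d (y r) := by unfold nW; positivity
    rw [mul_pow]
    calc _ ≤ 1 * (K₁ * η ^ 2 * (nW d a + nW d (y r))) :=
          mul_le_mul (hexp _ r hr) h1 (sq_nonneg _) zero_le_one
      _ ≤ E * w r * (K₁ * η ^ 2 * N) :=
          mul_le_mul (hw2 r hr) (by gcongr) (by positivity) (by have := hw0 r; positivity)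
      _ = _ := by ring
  have X1 : ∀ i, ∀ r ∈ Icc s t, (ξ i r - z i) ^ 2 ≤ K₂ * (η ^ 2 * (IM + IH)) := fun i r hr => by
    rw [← ftc i r hr]
    refine (OdeKick_cs (g := fun r => K₁ * E * η ^ 2 * (w r * NM r + w r * NH r)) hr htΛ' (cF i)
      (continuousOn_const.mul ((cw.continuousOn.mul cNM).add (cw.continuousOn.mul cNH)))
      fun v hv => ?_).trans (le_of_eq ?_)
    · rw [← mul_add]
      refine bF i v hv _ _ (le_of_eq ?_)
      simp only [hNM, hNH, nW, Fintype.sum_sum_type, add_assoc]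
    · rw [intervalIntegral.integral_const_mul, intervalIntegral.integral_add iM iH, hK₂,
        ← hIM, ← hIH]
      ring
  have hxξ : ∀ i r, x r (Sum.inl i) = Real.exp (B.Ip (d (Sum.inl i)) s r) * ξ i r := fun i r => by
    simp only [hξ]
    rw [← mul_assoc, ← Real.exp_add, add_neg_cancel, Real.exp_zero, one_mul]
  have hsum : ∀ r ∈ Icc s t, ∀ v : M → ℝ, ∑ j, (d (Sum.inl j) : ℝ) *
      (Real.exp (B.Ip (d (Sum.inl j)) s r) * v j) ^ 2 ≤ L' * E * n2 v := fun r hr v => by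
    unfold n2
    rw [Finset.mul_sum]
    refine Finset.sum_le_sum fun j _ => ?_
    rw [mul_pow, ← mul_assoc]
    have h3 : (d (Sum.inl j) : ℝ) ≤ L' := by exact_mod_cast hM j
    have h4 := hexp' j r hr
    gcongr
  have hn2 : ∀ r ∈ Icc s t, n2 (fun i => ξ i r - z i) ≤ c * (K₂ * (η ^ 2 * (IM + IH))) := fun r hr => by
    refine (Finset.sum_le_card_nsmul _ _ _ fun i _ => X1 i r hr).trans ?_
    rw [Finset.card_univ, nsmul_eq_mul, hc]
  have hint : ∀ {F : ℝ → ℝ} {N : ℝ}, IntervalIntegrable (fun r => w r * F r) MeasureTheory.volume s t →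
      0 ≤ N → (∀ r ∈ Icc s t, F r ≤ N) → ∫ r in s..t, w r * F r ≤ |Λ| * N := by
    intro F N hF hN h1
    refine (intervalIntegral.integral_mono_on hst hF intervalIntegrable_const (g := fun _ => N)
      fun r hr => ?_).trans ?_
    · calc w r * F r ≤ w r * N := mul_le_mul_of_nonneg_left (h1 r hr) (hw0 r).le
        _ ≤ N := mul_le_of_le_one_left hN (hw1 r hr)
    · rw [intervalIntegral.integral_const, smul_eq_mul]
      exact mul_le_mul_of_nonneg_right (by linarith) hN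
  have hJ0 : 0 ≤ η ^ 2 * (IM + IH) := by positivity
  have X2 : IM ≤ K₃ * (n2 z + η ^ 2 * (IM + IH)) := by
    refine (hIM.le.trans <| hint iM (N := L' * E * (2 * (n2 z + c * (K₂ * (η ^ 2 * (IM + IH)))))) (by positivity)
      fun r hr => ?_).trans ?_
    · simp only [hNM, hxξ]
      refine (hsum r hr fun i => ξ i r).trans (mul_le_mul_of_nonneg_left ?_ (by positivity))
      have h1 : n2 (fun i => ξ i r) ≤ 2 * (n2 z + n2 fun i => ξ i r - z i) := by
        unfold n2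
        rw [← Finset.sum_add_distrib, Finset.mul_sum]
        exact Finset.sum_le_sum fun i _ => by linarith [sq_nonneg (ξ i r - 2 * z i)]
      linarith [hn2 r hr]
    · have h1 : n2 z + c * (K₂ * (η ^ 2 * (IM + IH))) ≤
          (1 + c * K₂) * (n2 z + η ^ 2 * (IM + IH)) := by
        have := mul_nonneg (mul_nonneg hc0 hK₂0) hZ
        linarith
      calc _ = |Λ| * (L' * E * 2) * (n2 z + c * (K₂ * (η ^ 2 * (IM + IH)))) := by ring
        _ ≤ |Λ| * (L' * E * 2) * ((1 + c * K₂) * (n2 z + η ^ 2 * (IM + IH))) := by gcongr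
        _ = _ := by rw [hK₃]; ring
  have hwt := mul_nonneg (hw0 t).le hm0'
  obtain ⟨X5, X6, X7, X8⟩ := OdeKick_alg hg0 hC₀ hK₃0 hK₄ hK₅ (sq_nonneg η) hη4 hη5 hZ
    (add_nonneg hm0 hh0) (add_nonneg hh0' hwt) hIM0 hIH0 L1 X2
  rw [← hK₆] at X7 X8
  have hT0 : 0 ≤ η ^ 2 * n2 z + (n2 m + n2 h) := by positivity
  generalize η ^ 2 * n2 z + (n2 m + n2 h) = T at X6 X7 X8 hT0 ⊢
  have hC1 : E * K₆ ≤ E * K₆ + K₂ * K₅ + K₂ * K₇ := by
    have := mul_nonneg hK₂0 hK₅0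
    have := mul_nonneg hK₂0 hK₇0
    linarith
  have hξt : ∀ i, Real.exp (-B.Ip (d (Sum.inl i)) s t) * z' i = ξ i t := fun i => by
    simp [hξ, hxt]
  refine ⟨?_, ?_, fun i => ⟨?_, ?_⟩⟩
  · calc n2 h' ≤ 1 * K₆ * T := by linarith
      _ ≤ _ := mul_le_mul_of_nonneg_right ((mul_le_mul_of_nonneg_right hE1 hK₆0).trans hC1) hT0
  · calc n2 m' ≤ E * w t * n2 m' := le_mul_of_one_le_left hm0' (hw2 t ⟨hst, le_rfl⟩)
      _ = E * (w t * n2 m') := by ring
      _ ≤ E * (K₆ * T) := mul_le_mul_of_nonneg_left (by linarith) (by linarith)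
      _ = E * K₆ * T := by ring
      _ ≤ _ := mul_le_mul_of_nonneg_right hC1 hT0
  · rw [hξt]
    calc _ ≤ K₂ * (η ^ 2 * (IM + IH)) := X1 i t ⟨hst, le_rfl⟩
      _ ≤ K₂ * (η ^ 2 * (K₅ * (n2 z + (n2 m + n2 h)))) := by gcongr
      _ = K₂ * K₅ * η ^ 2 * (n2 z + (n2 m + n2 h)) := by ring
      _ ≤ _ := by
          gcongr
          have := mul_nonneg hK₂0 hK₇0
          have : 0 ≤ E * K₆ := by positivity
          linarith
  · have cl : ∀ j, ContinuousOn (fun r => OdeKick_lift B d s r z j) (Icc s t) := by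
      rintro (j | j)
      · exact ((cI _).rexp.mul continuous_const).continuousOn
      · exact continuousOn_const
    have cG : ContinuousOn (fun r => Real.exp (-B.Ip (d (Sum.inl i)) s r) *
        OdeKick_Fo B d (R r) (Q r) r (OdeKick_lift B d s r z) 0 (Sum.inl i)) (Icc s t) :=
      (cI _).neg.rexp.continuousOn.mul (OdeKick_Fo_cont B d hR hQ (b := fun _ => 0) cl
        (fun _ => continuousOn_const) _)
    rw [hξt, ← ftc i t ⟨hst, le_rfl⟩, ← intervalIntegral.integral_sub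
      ((cF i).intervalIntegrable_of_Icc hst) (cG.intervalIntegrable_of_Icc hst)]
    obtain ⟨N, hN⟩ : ∃ N : ℝ, N = L' * E * (c * (K₂ * (K₅ * T))) := ⟨_, rfl⟩
    have iN : IntervalIntegrable (fun r => w r * N) MeasureTheory.volume s t :=
      (cw.mul continuous_const).intervalIntegrable _ _
    refine (OdeKick_cs (g := fun r => K₁ * E * η ^ 2 * (w r * N + w r * NH r)) ⟨hst, le_rfl⟩ htΛ'
      ((cF i).sub cG) (continuousOn_const.mul ((cw.continuousOn.mul continuousOn_const).add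
        (cw.continuousOn.mul cNH))) fun v hv => ?_).trans ?_
    · rw [Pi.sub_apply, ← mul_sub, OdeKick_Fo_sub, ← mul_add]
      refine bF i v hv _ _ ?_
      have h1 := hsum v hv fun i => ξ i v - z i
      have h2 : n2 (fun i => ξ i v - z i) ≤ c * (K₂ * (K₅ * T)) := (hn2 v hv).trans (by gcongr)
      have h3 := mul_le_mul_of_nonneg_left h2 (show 0 ≤ L' * E by positivity)
      have e : nW d (x v - OdeKick_lift B d s v z) = ∑ j, (d (Sum.inl j) : ℝ) *
          (Real.exp (B.Ip (d (Sum.inl j)) s v) * (ξ j v - z j)) ^ 2 +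
          ∑ j, (d (Sum.inr j) : ℝ) * x v (Sum.inr j) ^ 2 := by
        simp only [nW, Fintype.sum_sum_type, OdeKick_lift, Pi.sub_apply, Sum.elim_inl, Sum.elim_inr,
          Pi.zero_apply, sub_zero, hxξ, mul_sub]
      rw [e]
      simp only [hNH, hN]
      linarith
    · rw [intervalIntegral.integral_const_mul, intervalIntegral.integral_add iN iH, ← hIH]
      have h1 := hint (F := fun _ => N) iN (by rw [hN]; positivity) fun _ _ => le_rfl
      calc _ ≤ |Λ| * (K₁ * E * η ^ 2 * (|Λ| * N + 2 / g * (K₆ * T))) := by gcongr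
        _ = K₂ * K₇ * η ^ 2 * T := by rw [hK₂, hK₇, hN, hK₂]; ring
        _ ≤ _ := by
            gcongr
            have := mul_nonneg hK₂0 hK₅0
            have : 0 ≤ E * K₆ := by positivity
            linarith

theorem kick (B : Bg) (M : Type) [Fintype M] [DecidableEq M] (L' : ℕ) (Λ : ℝ) :
    ∃ η₀ > 0, ∃ C : ℝ, 0 ≤ C ∧ ∀ (H : Type) [Fintype H] [DecidableEq H] (d : M ⊕ H → ℕ),
    (∀ i, 1 ≤ d i) → (∀ i, d (Sum.inl i) ≤ L') → (∀ i, L' < d (Sum.inr i)) →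
    ∀ (Y : Type) [TopologicalSpace Y] (R Q : Y → ℝ → Matrix (M ⊕ H) (M ⊕ H) ℝ),
    (Continuous fun z : Y × ℝ => R z.1 z.2) → (Continuous fun z : Y × ℝ => Q z.1 z.2) →
    ∀ s t η : ℝ, s ≤ t → t ≤ s + Λ → 0 ≤ η → η ≤ η₀ →
    (∀ y, ∀ r ∈ Icc s t, Pb d η (R y r) (Q y r)) →
    ∃ K : KkF Y M H, K.Good η C ∧ (∀ y i a, |K.Pz y i a - (1 : Matrix M M ℝ) i a
        - ∫ r in s..t, kerN B d (R y) (Q y) s (Sum.inl i) (Sum.inl a) r| ≤ C * η ^ 2) ∧
      ∀ (W : Type) [Fintype W] [DecidableEq W] (y : Y), K.Act W B d (R y) (Q y) s t y := by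
  obtain ⟨η₀, hη₀, C, hC, hap⟩ := OdeKick_apriori B M L' Λ
  obtain ⟨c, hc⟩ : ∃ c : ℝ, c = (Fintype.card M : ℝ) := ⟨_, rfl⟩
  have hc0 : 0 ≤ c := hc ▸ Nat.cast_nonneg _
  obtain ⟨k, hk0, hk⟩ : ∃ k : ℝ, 0 ≤ k ∧ k ^ 2 = C * (c + 1) :=
    ⟨Real.sqrt (C * (c + 1)), Real.sqrt_nonneg _, Real.sq_sqrt (by positivity)⟩
  have hk1 : C ≤ k ^ 2 := by rw [hk]; linarith [mul_nonneg hC hc0]
  have hk2 : c * C ≤ k ^ 2 := by rw [hk]; linarith
  refine ⟨min η₀ 1, by positivity, k, hk0, ?_⟩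
  intro H _ _ d hd hM hH Y _ R Q hR hQ s t η hst htΛ hη hη1 hPb
  have hη2 : η ^ 2 ≤ 1 := pow_le_one₀ hη (hη1.trans (min_le_right _ _))
  have hap' := fun y => hap H d hd hM hH (R y) (Q y) (hR.comp (Continuous.prodMk_right y))
    (hQ.comp (Continuous.prodMk_right y)) s t η hst htΛ hη (hη1.trans (min_le_left _ _)) (hPb y)
  have z0 : ∀ (ι : Type) [Fintype ι], n2 (0 : ι → ℝ) = 0 := fun ι _ => by simp [n2]
  obtain ⟨Spp, Spm, Smp, Smm, c1, c2, c3, c4, hS⟩ := exists_scat B hd hR hQ hst (range Sum.inr) (by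
    intro y z₀ z₁ hrel hin
    obtain ⟨z, h', m, rfl⟩ := OdeKick_split z₀
    obtain ⟨z', h, m', rfl⟩ := OdeKick_split z₁
    rw [OdeKick_inD] at hin
    obtain rfl : m = 0 := congrArg Prod.snd hin
    obtain rfl : z = 0 := funext fun i => congrFun (congrArg Prod.fst hin) (Sum.inl i)
    obtain rfl : h = 0 := funext fun i => congrFun (congrArg Prod.fst hin) (Sum.inr i)
    have h1 := (hap' y _ _ _ _ _ _ hrel).1
    simp only [z0, mul_zero, add_zero] at h1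
    rw [n2_eq_zero h1, Sum.elim_zero_zero]
    rfl)
  let K : KkF Y M H :=
    { Pz := fun y i a => Real.exp (-B.Ip (d (Sum.inl i)) s t) * Spp y (Sum.inl i) (Sum.inl a)
      Pd := fun y i j => Real.exp (-B.Ip (d (Sum.inl i)) s t) * Spm y (Sum.inl i) j
      Ph := fun y i j => Real.exp (-B.Ip (d (Sum.inl i)) s t) * Spp y (Sum.inl i) (Sum.inr j)
      Mz := fun y i a => Smp y i (Sum.inl a)
      Md := Smm
      Mh := fun y i j => Smp y i (Sum.inr j)
      Hz := fun y j a => Spp y (Sum.inr j) (Sum.inl a)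
      Hd := fun y j i => Spm y (Sum.inr j) i
      Hh := fun y j j' => Spp y (Sum.inr j) (Sum.inr j') }
  have hee : ∀ a v : ℝ, Real.exp a * (Real.exp (-a) * v) = v := fun a v => by
    rw [← mul_assoc, ← Real.exp_add, add_neg_cancel, Real.exp_zero, one_mul]
  have hee' : ∀ a v : ℝ, Real.exp (-a) * (Real.exp a * v) = v := fun a v => by
    rw [← mul_assoc, ← Real.exp_add, neg_add_cancel, Real.exp_zero, one_mul]
  have main : ∀ y (z : M → ℝ) (m : M ⊕ H → ℝ) (h : H → ℝ), B.Rel d (R y) (Q y) s t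
      (Sum.elim z (K.Hz y *ᵥ z + K.Hd y *ᵥ m + K.Hh y *ᵥ h), m)
      (Sum.elim (fun i => Real.exp (B.Ip (d (Sum.inl i)) s t) *
        (K.Pz y *ᵥ z + K.Pd y *ᵥ m + K.Ph y *ᵥ h) i) h,
        K.Mz y *ᵥ z + K.Md y *ᵥ m + K.Mh y *ᵥ h) := by
    intro y z m h
    obtain ⟨z₀, z₁, hrel, hin⟩ := (hS y).1 (Sum.elim z h, m)
    have hout := (hS y).2 z₀ z₁ hrel
    rw [hin] at hout
    obtain ⟨z, h', m, rfl⟩ := OdeKick_split z₀
    obtain ⟨z', h, m', rfl⟩ := OdeKick_split z₁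
    rw [OdeKick_inD] at hin
    rw [OdeKick_outD] at hout
    obtain rfl : m = _ := congrArg Prod.snd hin
    obtain rfl : z = _ := funext fun i => congrFun (congrArg Prod.fst hin) (Sum.inl i)
    obtain rfl : h = _ := funext fun i => congrFun (congrArg Prod.fst hin) (Sum.inr i)
    have e1 : h' = K.Hz y *ᵥ z + K.Hd y *ᵥ m + K.Hh y *ᵥ h := by
      funext j
      have := congrFun (congrArg Prod.fst hout) (Sum.inr j)
      simp only [Sum.elim_inr, Pi.add_apply, Matrix.mulVec, dotProduct, Fintype.sum_sum_type,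
        Sum.elim_inl] at this
      simp only [K, Pi.add_apply, Matrix.mulVec, dotProduct, Fintype.sum_sum_type, this]
      ring
    have e2 : z' = fun i => Real.exp (B.Ip (d (Sum.inl i)) s t) *
        (K.Pz y *ᵥ z + K.Pd y *ᵥ m + K.Ph y *ᵥ h) i := by
      funext j
      have := congrFun (congrArg Prod.fst hout) (Sum.inl j)
      simp only [Sum.elim_inr, Pi.add_apply, Matrix.mulVec, dotProduct, Fintype.sum_sum_type,
        Sum.elim_inl] at this
      simp only [K, Pi.add_apply, Matrix.mulVec, dotProduct, Fintype.sum_sum_type, this, mul_assoc,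
        ← Finset.mul_sum, ← mul_add, hee]
      ring
    have e3 : m' = K.Mz y *ᵥ z + K.Md y *ᵥ m + K.Mh y *ᵥ h := by
      funext j
      have := congrFun (congrArg Prod.snd hout) j
      simp only [Sum.elim_inr, Pi.add_apply, Matrix.mulVec, dotProduct, Fintype.sum_sum_type,
        Sum.elim_inl] at this
      simp only [K, Pi.add_apply, Matrix.mulVec, dotProduct, Fintype.sum_sum_type, this]
      ring
    rw [← e1, ← e2, ← e3]
    exact hrel
  have est := fun y z m h => hap' y _ _ _ _ _ _ (main y z m h)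
  simp only [hee'] at est
  have b1 : ∀ {a N : ℝ}, 0 ≤ N → a ≤ C * N → a ≤ k ^ 2 * N := fun hN ha =>
    ha.trans (mul_le_mul_of_nonneg_right hk1 hN)
  have b2 : ∀ {a N : ℝ}, 0 ≤ N → a ≤ C * (η ^ 2 * N) → a ≤ (k * η) ^ 2 * N := fun {a N} hN ha => by
    rw [mul_pow, mul_assoc]
    exact b1 (by positivity) ha
  have b3 : ∀ {v : M → ℝ} {N : ℝ}, 0 ≤ N → (∀ i, v i ^ 2 ≤ C * η ^ 2 * N) →
      n2 v ≤ (k * η) ^ 2 * N := fun {v N} hN hv => by
    refine (Finset.sum_le_card_nsmul _ _ _ fun i _ => hv i).trans ?_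
    rw [Finset.card_univ, nsmul_eq_mul, ← hc, mul_pow, ← mul_assoc, ← mul_assoc]
    gcongr
  have b4 : ∀ {v : M → ℝ} {N : ℝ}, 0 ≤ N → (∀ i, v i ^ 2 ≤ C * η ^ 2 * N) →
      n2 v ≤ k ^ 2 * N := fun {v N} hN hv => by
    refine (b3 hN hv).trans (mul_le_mul_of_nonneg_right ?_ hN)
    rw [mul_pow]
    exact mul_le_of_le_one_right (sq_nonneg _) hη2
  have hkη : 0 ≤ k * η := mul_nonneg hk0 hη
  refine ⟨K, ⟨?_, ?_, ?_, ?_, c4, ?_, ?_, ?_, ?_, fun y => ?_, fun y => ?_, fun y => ?_, fun y => ?_,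
    fun y => ?_, fun y => ?_, fun y => ?_, fun y => ?_, fun y => ?_⟩, fun y i a => ?_,
    fun W _ _ y z d' h c => ?_⟩
  · exact continuous_matrix fun i j => continuous_const.mul (c1.matrix_elem _ _)
  · exact continuous_matrix fun i j => continuous_const.mul (c2.matrix_elem _ _)
  · exact continuous_matrix fun i j => continuous_const.mul (c1.matrix_elem _ _)
  · exact continuous_matrix fun i j => c3.matrix_elem _ _
  · exact continuous_matrix fun i j => c3.matrix_elem _ _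
  · exact continuous_matrix fun i j => c1.matrix_elem _ _
  · exact continuous_matrix fun i j => c2.matrix_elem _ _
  · exact continuous_matrix fun i j => c1.matrix_elem _ _
  · refine opNorm_le_of_n2 hkη fun v => b3 (n2_nonneg v) fun i => ?_
    simpa [z0, Matrix.sub_mulVec] using ((est y v 0 0).2.2 i).1
  · refine opNorm_le_of_n2 hk0 fun v => b4 (n2_nonneg v) fun i => ?_
    simpa [z0] using ((est y 0 v 0).2.2 i).1
  · refine opNorm_le_of_n2 hk0 fun v => b4 (n2_nonneg v) fun i => ?_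
    simpa [z0] using ((est y 0 0 v).2.2 i).1
  · refine opNorm_le_of_n2 hkη fun v => b2 (n2_nonneg v) ?_
    simpa [z0] using (est y v 0 0).2.1
  · refine opNorm_le_of_n2 hk0 fun v => b1 (n2_nonneg v) ?_
    simpa [z0] using (est y 0 v 0).2.1
  · refine opNorm_le_of_n2 hk0 fun v => b1 (n2_nonneg v) ?_
    simpa [z0] using (est y 0 0 v).2.1
  · refine opNorm_le_of_n2 hkη fun v => b2 (n2_nonneg v) ?_
    simpa [z0] using (est y v 0 0).1
  · refine opNorm_le_of_n2 hk0 fun v => b1 (n2_nonneg v) ?_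
    simpa [z0] using (est y 0 v 0).1
  · refine opNorm_le_of_n2 hk0 fun v => b1 (n2_nonneg v) ?_
    simpa [z0] using (est y 0 0 v).1
  · have h1 := ((est y (Pi.single a 1) 0 0).2.2 i).2
    have e : n2 (Pi.single a 1 : M → ℝ) = 1 := by
      unfold n2
      rw [Finset.sum_eq_single a (fun j _ hj => by simp [hj]) (by simp)]
      simp
    simp only [OdeKick_ker, z0, e, Matrix.mulVec_zero, add_zero, mul_one, Matrix.mulVec_single_one,
      Matrix.col_apply] at h1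
    refine abs_le_of_sq_le_sq ?_ (by positivity)
    rw [Matrix.one_apply, ← Pi.single_apply]
    refine h1.trans ?_
    calc C * η ^ 2 * η ^ 2 ≤ k ^ 2 * η ^ 2 * η ^ 2 := by gcongr
      _ = _ := by ring
  · have h1 := main y (fun i => z i c) (fun i => d' i c) fun i => h i c
    unfold fam
    simp only [Matrix.diagonal_mul]
    exact h1

end Crest.Agent.R202
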