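import Crest.Agent.R202.NineC
import Crest.Agent.R202.OdeKick

/-!
# R202/NineKick: the kicks

`kick` with `η' = C' η`, `η = k^(-22)` (`pb_small`, `exists_slots_bound`).  For `‖ζ‖ ≤ 1` and `r` in
slot `j` (`slots_of_mem`, `RR_single`, `QQ_single`) `R = η ζ j bmp • mR (ρz j)`,
`Q = η ζ j bmp • mQ1 (az j) + O(η²)`; by `Bg.lim` the kernel `kerN` is within `o(η)` of the integrand
defining `kL`, uniformly for `s ≥ k → ∞` (split the integral into the slots and substitute).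
-/

open scoped ContDiff Topology Matrix Matrix.Norms.L2Operator
open Set Filter

noncomputable section

namespace Crest.Agent.R202

theorem NineKick_good {Z M H : Type} [Fintype M] [DecidableEq M] [Fintype H] [DecidableEq H]
    [TopologicalSpace Z] {K : KkF Z M H} {η η' C C' : ℝ} (h : K.Good η' C) (h1 : C ≤ C')
    (h2 : C * η' ≤ C' * η) : K.Good η C' :=
  ⟨h.cPz, h.cPd, h.cPh, h.cMz, h.cMd, h.cMh, h.cHz, h.cHd, h.cHh, fun y => (h.nPz y).trans h2,
    fun y => (h.nPd y).trans h1, fun y => (h.nPh y).trans h1, fun y => (h.nMz y).trans h2,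
    fun y => (h.nMd y).trans h1, fun y => (h.nMh y).trans h1, fun y => (h.nHz y).trans h2,
    fun y => (h.nHd y).trans h1, fun y => (h.nHh y).trans h1⟩

theorem NineKick_bp (B : Bg) {l : ℕ} (hl : 1 ≤ l) : Tendsto (B.bp l) atTop (𝓝 (B.a l)) := by
  rw [Metric.tendsto_atTop]
  intro ε hε
  obtain ⟨T, hT⟩ := B.lim (ε / 2) (half_pos hε)
  refine ⟨T, fun t ht => ?_⟩
  have h1 := (hT t ht l hl).1
  have h2 := B.bp_le l t
  rw [Real.dist_eq, abs_lt]
  unfold Bg.a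
  constructor <;> linarith

theorem NineKick_bm (B : Bg) {l : ℕ} (hl : 1 ≤ l) :
    Tendsto (B.bm l) atTop (𝓝 (-(B.a l + B.b))) := by
  rw [Metric.tendsto_atTop]
  intro ε hε
  obtain ⟨T, hT⟩ := B.lim (ε / 2) (half_pos hε)
  refine ⟨T, fun t ht => ?_⟩
  have h1 := (hT t ht l hl).2
  have h2 := B.bm_le l t
  rw [Real.dist_eq, abs_lt]
  unfold Bg.a
  constructor <;> linarith

/-- times `s → ∞`, `r ∈ [s, s + K]` -/
def NineKick_F (K : ℝ) : Filter (ℝ × ℝ) :=
  comap Prod.fst atTop ⊓ 𝓟 {z | z.2 ∈ Icc z.1 (z.1 + K)}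

theorem NineKick_ev {K : ℝ} {p : ℝ × ℝ → Prop} :
    (∀ᶠ z in NineKick_F K, p z) ↔ ∀ᶠ s in atTop, ∀ r ∈ Icc s (s + K), p (s, r) := by
  rw [NineKick_F, eventually_inf_principal, eventually_comap]
  refine eventually_congr (Eventually.of_forall fun s => ⟨fun h r hr => h (s, r) rfl hr, ?_⟩)
  rintro h ⟨s, r⟩ rfl hr
  exact h r hr

theorem NineKick_snd (K : ℝ) : Tendsto Prod.snd (NineKick_F K) atTop := by
  rw [tendsto_atTop]
  intro T
  rw [NineKick_ev]
  filter_upwards [eventually_ge_atTop T] with s hs r hr using hs.trans hr.1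

theorem NineKick_Ip (B : Bg) {l : ℕ} (hl : 1 ≤ l) (K : ℝ) :
    Tendsto (fun z : ℝ × ℝ => B.Ip l z.1 z.2 - B.a l * (z.2 - z.1)) (NineKick_F K) (𝓝 0) := by
  rw [Metric.tendsto_nhds]
  intro ε hε
  obtain ⟨T, hT⟩ := B.lim (ε / (|K| + 1)) (by positivity)
  rw [NineKick_ev]
  filter_upwards [eventually_ge_atTop T] with s hs r hr
  have h1 := B.Ip_le l hr.1
  have h2 : (B.a l - ε / (|K| + 1)) * (r - s) ≤ B.Ip l s r := by
    have := intervalIntegral.integral_mono_on (μ := MeasureTheory.volume) hr.1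
      (intervalIntegrable_const (c := B.a l - ε / (|K| + 1)))
      ((B.continuous_bp l).intervalIntegrable s r) fun x hx => (hT x (hs.trans hx.1) l hl).1
    rw [intervalIntegral.integral_const, smul_eq_mul, mul_comm] at this
    exact this
  have h3 : ε / (|K| + 1) * (r - s) < ε := by
    rw [div_mul_eq_mul_div, div_lt_iff₀ (by positivity)]
    have := le_abs_self K
    exact mul_lt_mul_of_pos_left (by linarith [hr.2]) hε
  rw [dist_zero_right, Real.norm_eq_abs, abs_lt]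
  constructor <;> linarith

/-- the scalar kernel -/
def NineKick_G (B : Bg) (l l' : ℕ) (q ρ s r : ℝ) : ℝ :=
  Real.exp (B.Ip l' s r - B.Ip l s r) * ((q - B.bm l r * B.bp l' r * ρ) / (B.bp l r - B.bm l r))

/-- its limit -/
def NineKick_Gt (B : Bg) (l l' : ℕ) (q ρ u : ℝ) : ℝ :=
  Real.exp ((B.a l' - B.a l) * u) * ((q + (B.a l + B.b) * B.a l' * ρ) / (2 * B.a l + B.b))

theorem NineKick_exp_le (c : ℝ) {u K : ℝ} (h0 : 0 ≤ u) (hK : u ≤ K) :
    Real.exp (c * u) ≤ Real.exp (|c| * K) :=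
  Real.exp_le_exp.2 ((mul_le_mul_of_nonneg_right (le_abs_self c) h0).trans
    (mul_le_mul_of_nonneg_left hK (abs_nonneg c)))

theorem NineKick_lim (B : Bg) {l l' : ℕ} (hl : 1 ≤ l) (hl' : 1 ≤ l') (K q ρ : ℝ) :
    Tendsto (fun z : ℝ × ℝ => NineKick_G B l l' q ρ z.1 z.2 - NineKick_Gt B l l' q ρ (z.2 - z.1))
      (NineKick_F K) (𝓝 0) := by
  have hp := (NineKick_bp B hl).comp (NineKick_snd K)
  have hp' := (NineKick_bp B hl').comp (NineKick_snd K)
  have hm := (NineKick_bm B hl).comp (NineKick_snd K)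
  have hne : B.a l - -(B.a l + B.b) ≠ 0 := by
    have := B.le_a l
    have := B.b_pos
    have : (0 : ℝ) ≤ l := Nat.cast_nonneg _
    linarith
  have h1 := (((NineKick_Ip B hl' K).sub (NineKick_Ip B hl K)).rexp.mul
    ((((hm.mul hp').mul_const ρ).const_sub q).div (hp.sub hm) hne)).sub_const
      ((q + (B.a l + B.b) * B.a l' * ρ) / (2 * B.a l + B.b))
  have e : Real.exp (0 - 0) * ((q - -(B.a l + B.b) * B.a l' * ρ) / (B.a l - -(B.a l + B.b))) -
      (q + (B.a l + B.b) * B.a l' * ρ) / (2 * B.a l + B.b) = 0 := by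
    rw [sub_zero, Real.exp_zero, one_mul, sub_eq_zero]
    congr 1 <;> ring
  rw [e] at h1
  have h2 : IsBoundedUnder (· ≤ ·) (NineKick_F K)
      (norm ∘ fun z : ℝ × ℝ => Real.exp ((B.a l' - B.a l) * (z.2 - z.1))) := by
    refine ⟨Real.exp (|B.a l' - B.a l| * K), ?_⟩
    rw [eventually_map, NineKick_ev]
    refine Eventually.of_forall fun s r hr => ?_
    rw [Function.comp_apply, Real.norm_of_nonneg (Real.exp_pos _).le]
    exact NineKick_exp_le _ (by linarith [hr.1]) (by linarith [hr.2])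
  refine (Filter.isBoundedUnder_le_mul_tendsto_zero h2 h1).congr fun z => ?_
  simp only [NineKick_G, NineKick_Gt, Function.comp_apply, Pi.div_apply]
  rw [mul_sub, ← mul_assoc, ← Real.exp_add]
  congr 3
  ring

theorem NineKick_cG (B : Bg) (l l' : ℕ) (q ρ s : ℝ) : Continuous (NineKick_G B l l' q ρ s) := by
  have hI : ∀ l, Continuous (B.Ip l s) := fun l =>
    continuous_iff_continuousAt.2 fun t => (B.hasDerivAt_Ip l s t).continuousAt
  exact ((hI l').sub (hI l)).rexp.mul ((continuous_const.sub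
    (((B.continuous_bm l).mul (B.continuous_bp l')).mul continuous_const)).div
      ((B.continuous_bp l).sub (B.continuous_bm l)) fun r => (B.OdeBasic_gap_pos l r).ne')

theorem NineKick_int {K : ℕ} (j : Fin K) {f : ℝ → ℝ} (hf : Continuous f) (s : ℝ) :
    ∫ r in s..s + K, bmp (r - s - (j : ℕ)) * f (r - s) = ∫ t in (0 : ℝ)..1, bmp t * f (t + (j : ℕ)) := by
  have hc : Continuous fun t => bmp t * f (t + (j : ℕ)) :=
    bmp_smooth.continuous.mul (hf.comp (continuous_id.add continuous_const))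
  have h1 := intervalIntegral.integral_comp_sub_right (a := s) (b := s + K)
    (fun t => bmp t * f (t + (j : ℕ))) (s + (j : ℕ))
  have h2 : ((j : ℕ) : ℝ) + 1 ≤ K := by exact_mod_cast j.2
  have h3 : (0 : ℝ) ≤ (j : ℕ) := Nat.cast_nonneg _
  have h4 : ∫ t in s - (s + (j : ℕ))..0, bmp t * f (t + (j : ℕ)) = 0 := by
    refine intervalIntegral.integral_zero_ae (Eventually.of_forall fun t ht => ?_)
    rw [uIoc_of_le (by linarith)] at ht
    rw [bmp_of_nonpos ht.2, zero_mul]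
  have h5 : ∫ t in (1 : ℝ)..s + K - (s + (j : ℕ)), bmp t * f (t + (j : ℕ)) = 0 := by
    refine intervalIntegral.integral_zero_ae (Eventually.of_forall fun t ht => ?_)
    rw [uIoc_of_le (by linarith)] at ht
    rw [bmp_of_one_le ht.1.le, zero_mul]
  rw [← intervalIntegral.integral_add_adjacent_intervals (b := 0) (hc.intervalIntegrable _ _)
    (hc.intervalIntegrable _ _), ← intervalIntegral.integral_add_adjacent_intervals (a := 0) (b := 1)
    (hc.intervalIntegrable _ _) (hc.intervalIntegrable _ _), h4, h5, zero_add, add_zero] at h1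
  rw [← h1]
  refine intervalIntegral.integral_congr fun r _ => ?_
  rw [sub_sub, show r - (s + (j : ℕ)) + (j : ℕ) = r - s by ring]

theorem NineKick_eta : Tendsto (fun k : ℕ => 1 / (k : ℝ) ^ 22) atTop (𝓝 0) :=
  tendsto_const_nhds.div_atTop
    ((tendsto_pow_atTop (by norm_num)).comp tendsto_natCast_atTop_atTop)

/-- one slot -/
theorem NineKick_slot (B : Bg) {l l' : ℕ} (hl : 1 ≤ l) (hl' : 1 ≤ l') {K : ℕ} (j : Fin K)
    (q q' ρ : ℝ) {ε : ℝ} (hε : 0 < ε) : ∀ᶠ k : ℕ in atTop, ∀ s : ℝ, (k : ℝ) ≤ s → ∀ ζ : ℝ, |ζ| ≤ 1 →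
      |(∫ r in s..s + K, (bmp (r - s - (j : ℕ)) * (ζ / (k : ℝ) ^ 22) * NineKick_G B l l' q ρ s r
          + (bmp (r - s - (j : ℕ)) * (ζ / (k : ℝ) ^ 22)) ^ 2 * NineKick_G B l l' q' 0 s r))
        - 1 / (k : ℝ) ^ 22 * (ζ * ∫ t in (0 : ℝ)..1, bmp t * NineKick_Gt B l l' q ρ (t + (j : ℕ)))|
        ≤ ε * (1 / (k : ℝ) ^ 22) := by
  obtain ⟨b, hb1, hb⟩ := exists_bmp_bound
  have hb0 : 0 < b := by linarith
  have hK : (0 : ℝ) < K := by exact_mod_cast j.pos
  obtain ⟨M, hM⟩ : ∃ M, M = Real.exp (|B.a l' - B.a l| * K) *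
    |(q' + (B.a l + B.b) * B.a l' * 0) / (2 * B.a l + B.b)| + 1 := ⟨_, rfl⟩
  have hM0 : 0 < M := by rw [hM]; positivity
  have h1 := (Metric.tendsto_nhds.1 (NineKick_lim B hl hl' K q ρ) (ε / (2 * b * K))
    (by positivity)).and (Metric.tendsto_nhds.1 (NineKick_lim B hl hl' K q' 0) 1 one_pos)
  rw [NineKick_ev, eventually_atTop] at h1
  obtain ⟨T, hT⟩ := h1
  filter_upwards [tendsto_natCast_atTop_atTop.eventually (eventually_ge_atTop T),
    NineKick_eta.eventually (eventually_le_nhds (show 0 < ε / (2 * b ^ 2 * K * M) by positivity))]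
    with k hk1 hk2 s hs ζ hζ
  have hη0 : 0 ≤ 1 / (k : ℝ) ^ 22 := by positivity
  rw [div_eq_mul_one_div ζ]
  generalize 1 / (k : ℝ) ^ 22 = η at *
  have cGt : Continuous (NineKick_Gt B l l' q ρ) :=
    (continuous_const.mul continuous_id).rexp.mul continuous_const
  have cb : Continuous fun r => bmp (r - s - (j : ℕ)) :=
    bmp_smooth.continuous.comp ((continuous_id.sub continuous_const).sub continuous_const)
  rw [← NineKick_int j cGt s, ← mul_assoc, ← intervalIntegral.integral_const_mul,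
    ← intervalIntegral.integral_sub]
  rotate_left
  · exact (((cb.mul continuous_const).mul (NineKick_cG ..)).add
      (((cb.mul continuous_const).pow 2).mul (NineKick_cG ..))).intervalIntegrable _ _
  · exact (continuous_const.mul (cb.mul (cGt.comp
      (continuous_id.sub continuous_const)))).intervalIntegrable _ _
  rw [← Real.norm_eq_abs]
  refine (intervalIntegral.norm_integral_le_of_norm_le_const (C := ε * η / K)
    fun r hr => ?_).trans (le_of_eq ?_)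
  · rw [uIoc_of_le (by linarith)] at hr
    obtain ⟨h2, h3⟩ := hT s (hk1.trans hs) r ⟨hr.1.le, hr.2⟩
    simp only [dist_zero_right, Real.norm_eq_abs] at h2 h3
    have h4 : |NineKick_G B l l' q' 0 s r| ≤ M := by
      have h5 : |NineKick_Gt B l l' q' 0 (r - s)| ≤ M - 1 := by
        rw [hM, add_sub_cancel_right, NineKick_Gt, abs_mul, abs_of_pos (Real.exp_pos _)]
        exact mul_le_mul_of_nonneg_right
          (NineKick_exp_le _ (by linarith [hr.1]) (by linarith [hr.2])) (abs_nonneg _)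
      have := abs_sub_abs_le_abs_sub (NineKick_G B l l' q' 0 s r) (NineKick_Gt B l l' q' 0 (r - s))
      linarith
    have h6 : |bmp (r - s - (j : ℕ)) * (ζ * η)| ≤ b * η := by
      rw [abs_mul, abs_mul, abs_of_nonneg hη0]
      exact mul_le_mul (hb _).1 (mul_le_of_le_one_left hη0 hζ) (by positivity) hb0.le
    generalize NineKick_G B l l' q' 0 s r = G' at *
    generalize NineKick_G B l l' q ρ s r = G at *
    generalize NineKick_Gt B l l' q ρ (r - s) = Gt at *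
    have e : bmp (r - s - (j : ℕ)) * (ζ * η) * G + (bmp (r - s - (j : ℕ)) * (ζ * η)) ^ 2 * G' -
        η * ζ * (bmp (r - s - (j : ℕ)) * Gt) =
        bmp (r - s - (j : ℕ)) * (ζ * η) * (G - Gt) + (bmp (r - s - (j : ℕ)) * (ζ * η)) ^ 2 * G' := by
      ring
    rw [Real.norm_eq_abs, e]
    generalize bmp (r - s - (j : ℕ)) * (ζ * η) = x at *
    calc _ ≤ |x| * |G - Gt| + |x| ^ 2 * |G'| := by
          refine (abs_add_le _ _).trans ?_
          rw [abs_mul, abs_mul, abs_pow]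
      _ ≤ b * η * (ε / (2 * b * K)) + (b * η) ^ 2 * M := by gcongr
      _ = ε * η / K / 2 + b ^ 2 * M * η * η := by field_simp
      _ ≤ ε * η / K / 2 + b ^ 2 * M * η * (ε / (2 * b ^ 2 * K * M)) := by gcongr
      _ = _ := by field_simp; ring
  · rw [add_sub_cancel_left, abs_of_pos hK]
    field_simp

theorem NineKick_sum {K N : ℕ} {e : Fin K → Fin N} (he : Function.Injective e) (β x : Fin K → ℝ)
    {V : Type} [AddCommMonoid V] (F : Fin N → ℝ → V) (hF : ∀ i, F i 0 = 0) :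
    ∑ i, F i ((∑ j, β j • (Pi.single (e j) (x j) : Fin N → ℝ)) i) = ∑ j, F (e j) (β j * x j) := by
  refine (Fintype.sum_of_injective e he _ _ (fun i hi => ?_) fun j => ?_).symm
  · rw [Finset.sum_apply, Finset.sum_eq_zero, hF]
    intro j _
    rw [Pi.smul_apply, Pi.single_eq_of_ne fun h => hi ⟨j, h.symm⟩, smul_zero]
  · rw [Finset.sum_apply, Finset.sum_eq_single j]
    · rw [Pi.smul_apply, Pi.single_eq_same, smul_eq_mul]
    · intro j' _ hj
      rw [Pi.smul_apply, Pi.single_eq_of_ne (he.ne hj.symm), smul_zero]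
    · simp

theorem NineKick_ker (Y : I0 → Pl 3) (B : Bg) (L : ℕ) (Λ : Lay) (ρ₂ : Fin Λ.K₂ → Pl 3)
    (ρz : Fin Λ.Kz → Pl 3) (az : Fin Λ.Kz → Fin 3 → Pl 3) (k N : ℕ) (s : ℝ) (ζ : Fin Λ.Kz → ℝ)
    (i a : MI L) (r : ℝ) :
    kerN B (dt L N) (fun t => Rt Y (Λ.gρ ρ₂ ρz) L N (Λ.cK k s ζ t))
      (fun t => Qt Y (Λ.ga az) L N (Λ.cK k s ζ t)) s (Sum.inl i) (Sum.inl a) r =
      Real.sqrt (dg i.1) / Real.sqrt (dg a.1) * ∑ j : Fin Λ.Kz,
        (bmp (r - s - (j : ℕ)) * (ζ j / (k : ℝ) ^ 22) *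
          NineKick_G B (dg i.1) (dg a.1) (mQ1 Y (az j) i.1 a.1) (mR Y (ρz j) i.1 a.1) s r
        + (bmp (r - s - (j : ℕ)) * (ζ j / (k : ℝ) ^ 22)) ^ 2 *
          NineKick_G B (dg i.1) (dg a.1) (mQ2 Y (az j) i.1 a.1) 0 s r) := by
  have he : Function.Injective fun j : Fin Λ.Kz => (Fin.natAdd Λ.K₂ j).succ :=
    (Fin.succ_injective _).comp (Fin.natAdd_injective _ _)
  have hR : RR Y (Λ.gρ ρ₂ ρz) (Λ.cK k s ζ r) =
      ∑ j : Fin Λ.Kz, (bmp (r - s - (j : ℕ)) * (ζ j / (k : ℝ) ^ 22)) • mR Y (ρz j) := by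
    have := NineKick_sum he (fun j => bmp ((r - s) / 1 - (j : ℕ))) (fun j => ζ j / (k : ℝ) ^ 22)
      (fun i c => c • mR Y (Λ.gρ ρ₂ ρz i)) fun i => zero_smul _ _
    simp only [Lay.gρ_K] at this
    simpa only [RR, Lay.cK, slots, div_one] using this
  have hQ : QQ Y (Λ.ga az) (Λ.cK k s ζ r) =
      ∑ j : Fin Λ.Kz, ((bmp (r - s - (j : ℕ)) * (ζ j / (k : ℝ) ^ 22)) • mQ1 Y (az j) +
        (bmp (r - s - (j : ℕ)) * (ζ j / (k : ℝ) ^ 22)) ^ 2 • mQ2 Y (az j)) := by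
    have := NineKick_sum he (fun j => bmp ((r - s) / 1 - (j : ℕ))) (fun j => ζ j / (k : ℝ) ^ 22)
      (fun i c => c • mQ1 Y (Λ.ga az i) + c ^ 2 • mQ2 Y (Λ.ga az i)) fun i => by simp
    simp only [Lay.ga_K] at this
    simpa only [QQ, Lay.cK, slots, div_one] using this
  simp only [kerN, Rt, Qt, hR, hQ, Matrix.submatrix_apply, dt, emb, Sum.elim_inl, Matrix.sum_apply,
    Matrix.add_apply, Matrix.smul_apply, smul_eq_mul, NineKick_G]
  rw [Finset.mul_sum, ← Finset.sum_sub_distrib, Finset.mul_sum, Finset.sum_div, Finset.mul_sum]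
  exact Finset.sum_congr rfl fun j _ => by ring

theorem NineKick_entry (Y : I0 → Pl 3) (B : Bg) (L : ℕ) (Λ : Lay) (ρ₂ : Fin Λ.K₂ → Pl 3)
    (ρz : Fin Λ.Kz → Pl 3) (az : Fin Λ.Kz → Fin 3 → Pl 3) (i : MI (2 * L)) (a : MI L)
    (hia : dg i.1 ≠ dg a.1) {ε : ℝ} (hε : 0 < ε) :
    ∀ᶠ k : ℕ in atTop, ∀ (N : ℕ) (s : ℝ), (k : ℝ) ≤ s → ∀ ζ : Fin Λ.Kz → ℝ, ‖ζ‖ ≤ 1 →
      |(∫ r in s..s + Λ.Kz, kerN B (dt (2 * L) N)
          (fun t => Rt Y (Λ.gρ ρ₂ ρz) (2 * L) N (Λ.cK k s ζ t))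
          (fun t => Qt Y (Λ.ga az) (2 * L) N (Λ.cK k s ζ t)) s (Sum.inl i) (Sum.inl (eW L a)) r)
        - 1 / (k : ℝ) ^ 22 * kL B Y L ρz az ζ i a| ≤ ε * (1 / (k : ℝ) ^ 22) := by
  obtain ⟨A, hA⟩ : ∃ A, A = Real.sqrt (dg i.1) / Real.sqrt (dg a.1) := ⟨_, rfl⟩
  have hA0 : 0 ≤ A := by rw [hA]; positivity
  have h1 := eventually_all.2 fun j : Fin Λ.Kz => NineKick_slot B i.2.1 a.2.1 j
    (mQ1 Y (az j) i.1 a.1) (mQ2 Y (az j) i.1 a.1) (mR Y (ρz j) i.1 a.1)
    (show 0 < ε / (A * Λ.Kz + 1) by positivity)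
  filter_upwards [h1] with k hk N s hs ζ hζ
  have hη0 : 0 ≤ 1 / (k : ℝ) ^ 22 := by positivity
  have e1 : kL B Y L ρz az ζ i a = A * ∑ j : Fin Λ.Kz, ζ j * ∫ t in (0 : ℝ)..1, bmp t *
      NineKick_Gt B (dg i.1) (dg a.1) (mQ1 Y (az j) i.1 a.1) (mR Y (ρz j) i.1 a.1) (t + (j : ℕ)) := by
    have hne : ¬dg i.1 = dg (eW L a).1 := hia
    simp only [kL, LinearMap.sum_apply, LinearMap.smulRight_apply, LinearMap.proj_apply,
      Matrix.sum_apply, Matrix.smul_apply, smul_eq_mul, off, if_neg hne, NineKick_Gt, ← mul_assoc,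
      intervalIntegral.integral_mul_const, Finset.mul_sum, hA]
    exact Finset.sum_congr rfl fun j _ => by ring
  have cb : ∀ j : Fin Λ.Kz, Continuous fun r => bmp (r - s - (j : ℕ)) := fun j =>
    bmp_smooth.continuous.comp ((continuous_id.sub continuous_const).sub continuous_const)
  simp only [NineKick_ker]
  rw [intervalIntegral.integral_const_mul, intervalIntegral.integral_finsetSum, e1,
    mul_left_comm, Finset.mul_sum _ _ (1 / (k : ℝ) ^ 22)]
  swap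
  · exact fun j _ => ((((cb j).mul continuous_const).mul (NineKick_cG ..)).add
      ((((cb j).mul continuous_const).pow 2).mul (NineKick_cG ..))).intervalIntegrable _ _
  change |Real.sqrt (dg i.1) / Real.sqrt (dg a.1) * _ - _| ≤ _
  rw [← hA, ← mul_sub, ← Finset.sum_sub_distrib, abs_mul, abs_of_nonneg hA0]
  calc _ ≤ A * ∑ _j : Fin Λ.Kz, ε / (A * Λ.Kz + 1) * (1 / (k : ℝ) ^ 22) :=
        mul_le_mul_of_nonneg_left ((Finset.abs_sum_le_sum_abs _ _).trans
          (Finset.sum_le_sum fun j _ => hk j s hs (ζ j) ((norm_le_pi_norm ζ j).trans hζ))) hA0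
    _ = A * Λ.Kz / (A * Λ.Kz + 1) * (ε * (1 / (k : ℝ) ^ 22)) := by
        rw [Finset.sum_const, Finset.card_univ, Fintype.card_fin, nsmul_eq_mul]
        ring
    _ ≤ _ := mul_le_of_le_one_left (by positivity)
        (div_le_one_of_le₀ (by linarith) (by positivity))

theorem kick9 {Y : I0 → Pl 3} (h : SB Y) (B : Bg) (L : ℕ) (Λ : Lay) (ρ₂ : Fin Λ.K₂ → Pl 3)
    (ρz : Fin Λ.Kz → Pl 3) (az : Fin Λ.Kz → Fin 3 → Pl 3) :
    ∃ C : ℝ, 0 ≤ C ∧ ∀ η₀ > 0, ∃ k₁ : ℕ, ∀ k : ℕ, k₁ ≤ k → ∀ (N : ℕ) (s : ℝ), (k : ℝ) ≤ s →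
      ∃ K : KkF (Fin Λ.Kz → ℝ) (MI (2 * L)) (HI (2 * L) N), K.Good (1 / (k : ℝ) ^ 22) C ∧
        (∀ ζ, ‖ζ‖ ≤ 1 → ‖off (fun i => dg i.1) (eW L) (K.Pz ζ * inc (eW L))
          - (1 / (k : ℝ) ^ 22) • kL B Y L ρz az ζ‖ ≤ η₀ * (1 / (k : ℝ) ^ 22)) ∧
        ∀ ζ, K.Act (MI L) B (dt (2 * L) N)
          (fun t => Rt Y (Λ.gρ ρ₂ ρz) (2 * L) N (Λ.cK k s (clamp ζ) t))
          (fun t => Qt Y (Λ.ga az) (2 * L) N (Λ.cK k s (clamp ζ) t)) s (s + Λ.Kz) ζ := by
  obtain ⟨η₁, hη₁, C, hC, hkick⟩ := kick B (MI (2 * L)) (2 * L) Λ.Kz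
  obtain ⟨C₁, hC₁, hpb⟩ := h.pb_small (Λ.gρ ρ₂ ρz) (Λ.ga az)
  obtain ⟨b, hb1, hb⟩ := exists_slots_bound (P := Fin Λ.N → ℝ)
  have hb0 : 0 < b := by linarith
  refine ⟨C * (1 + C₁ * b), by positivity, fun η₀ hη₀ => ?_⟩
  obtain ⟨c, hc⟩ : ∃ c : ℝ, c = (Fintype.card (MI (2 * L)) : ℝ) * Fintype.card (MI L) := ⟨_, rfl⟩
  have hc0 : 0 ≤ c := by rw [hc]; positivity
  obtain ⟨ε, hε⟩ : ∃ ε : ℝ, ε = η₀ / (2 * (c + 1)) := ⟨_, rfl⟩
  have hε0 : 0 < ε := by rw [hε]; positivity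
  have h1 := eventually_all.2 fun i : MI (2 * L) => eventually_all.2 fun a : MI L =>
    eventually_all.2 fun hia : dg i.1 ≠ dg a.1 => NineKick_entry Y B L Λ ρ₂ ρz az i a hia hε0
  rw [← eventually_atTop]
  filter_upwards [h1, NineKick_eta.eventually (eventually_le_nhds (show 0 < 1 / b by positivity)),
    NineKick_eta.eventually (eventually_le_nhds (show 0 < η₁ / (C₁ * b + 1) by positivity)),
    NineKick_eta.eventually
      (eventually_le_nhds (show 0 < ε / (C * (C₁ * b) ^ 2 + 1) by positivity))]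
    with k hk1 hk2 hk3 hk4 N s hs
  have hη0 : 0 ≤ 1 / (k : ℝ) ^ 22 := by positivity
  have hcK : ∀ (ζ : Fin Λ.Kz → ℝ) (t : ℝ), ‖Λ.cK k s (clamp ζ) t‖ ≤ b * (1 / (k : ℝ) ^ 22) := by
    intro ζ t
    refine (hb _ _ _ _ _ le_rfl hη0 (fun j => ?_) t).1
    rw [Pi.norm_single, Real.norm_eq_abs, abs_div, abs_of_nonneg (show (0 : ℝ) ≤ (k : ℝ) ^ 22 by positivity)]
    exact div_le_div_of_nonneg_right (abs_clamp_le ζ j) (by positivity)
  have cc : Continuous fun z : (Fin Λ.Kz → ℝ) × ℝ => Λ.cK k s (clamp z.1) z.2 :=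
    (Λ.continuous_cK k s).comp ((continuous_clamp.comp continuous_fst).prodMk continuous_snd)
  generalize 1 / (k : ℝ) ^ 22 = η at *
  rw [le_div_iff₀ (by positivity)] at hk2 hk3 hk4
  obtain ⟨K, hK1, hK2, hK3⟩ := hkick (HI (2 * L) N) (dt (2 * L) N) (one_le_dg_emb _ _)
    (fun i => i.2.2) (fun i => i.2.1) (Fin Λ.Kz → ℝ)
    (fun ζ t => Rt Y (Λ.gρ ρ₂ ρz) (2 * L) N (Λ.cK k s (clamp ζ) t))
    (fun ζ t => Qt Y (Λ.ga az) (2 * L) N (Λ.cK k s (clamp ζ) t))
    ((continuous_Rt ..).comp cc) ((continuous_Qt ..).comp cc) s (s + Λ.Kz) (C₁ * (b * η))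
    (le_add_of_nonneg_right (Nat.cast_nonneg _)) le_rfl (by positivity) (by linarith)
    fun ζ r _ => hpb _ _ _ _ (by linarith) (hcK ζ r)
  refine ⟨K, NineKick_good hK1 (le_mul_of_one_le_right hC (le_add_of_nonneg_right (by positivity)))
    (by nlinarith [mul_nonneg hC hη0]), fun ζ hζ => ?_, hK3 (MI L)⟩
  refine (opNorm_le_of_entry (c := 2 * ε * η) (by positivity) fun i a => ?_).trans ?_
  · rw [Matrix.sub_apply, Matrix.smul_apply, smul_eq_mul]
    by_cases hia : dg i.1 = dg a.1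
    · have hia' : dg i.1 = dg (eW L a).1 := hia
      simp only [kL, LinearMap.sum_apply, LinearMap.smulRight_apply, Matrix.sum_apply,
        Matrix.smul_apply, off, if_pos hia', smul_zero, Finset.sum_const_zero, mul_zero, sub_zero,
        abs_zero]
      positivity
    · have hia' : ¬dg i.1 = dg (eW L a).1 := hia
      have h2 := hk1 i a hia N s hs ζ hζ
      have h3 := hK2 ζ i (eW L a)
      rw [clamp_eq hζ, Matrix.one_apply_ne fun h' => hia' (by rw [h']), sub_zero] at h3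
      have h4 : (K.Pz ζ * inc (eW L)) i a = K.Pz ζ i (eW L a) := by
        simp [Matrix.mul_apply, inc]
      have h5 : C * (C₁ * (b * η)) ^ 2 ≤ ε * η := by
        have := mul_le_mul_of_nonneg_right hk4 hη0
        nlinarith [sq_nonneg η]
      rw [off, if_neg hia', h4]
      refine (abs_sub_le _ _ _).trans ((add_le_add (h3.trans h5) h2).trans (le_of_eq ?_))
      ring
  · rw [← hc, hε]
    calc c * (2 * (η₀ / (2 * (c + 1))) * η) = c / (c + 1) * (η₀ * η) := by field_simp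
      _ ≤ _ := mul_le_of_le_one_left (by positivity)
          (div_le_one_of_le₀ (by linarith) (by positivity))

end Crest.Agent.R202
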