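import Crest.Agent.R202.OdeFlow
import Crest.Agent.R202.OdeNorm

/-!
# R202/OdePhaseAux: estimates for a phase with free buffers
-/

open scoped ContDiff Topology Matrix Matrix.Norms.L2Operator
open Set Filter

set_option linter.unusedSectionVars false

noncomputable section

namespace Crest.Agent.R202

variable {ι : Type} [Fintype ι] [DecidableEq ι]

theorem PH_mem {U : Set ι} {i : ι} (h : i ∈ U) (x : ι → ℝ) : msk U x i = x i :=
  indicator_of_mem h x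

theorem PH_not {U : Set ι} {i : ι} (h : i ∉ U) (x : ι → ℝ) : msk U x i = 0 :=
  indicator_of_notMem h x

theorem PH_univ (x : ι → ℝ) : msk univ x = x := indicator_univ x

theorem PH_n2_zero : n2 (0 : ι → ℝ) = 0 := by simp [n2]

theorem PH_msk_zero {U : Set ι} {x : ι → ℝ} (h : ∀ i ∈ U, x i = 0) : n2 (msk U x) = 0 := by
  have : msk U x = 0 := by
    funext i
    by_cases hi : i ∈ U
    · rw [PH_mem hi, h i hi]; rfl
    · rw [PH_not hi]; rfl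
  rw [this, PH_n2_zero]

theorem PH_cmp {U V : Set ι} {x y : ι → ℝ} {c : ℝ} (hc : 0 ≤ c)
    (h : ∀ i ∈ U, x i = 0 ∨ (i ∈ V ∧ x i ^ 2 ≤ c * y i ^ 2)) :
    n2 (msk U x) ≤ c * n2 (msk V y) := by
  unfold n2
  rw [Finset.mul_sum]
  refine Finset.sum_le_sum fun i _ => ?_
  by_cases hi : i ∈ U
  · rw [PH_mem hi]
    rcases h i hi with h0 | ⟨hV, h1⟩
    · rw [h0]; simpa using mul_nonneg hc (sq_nonneg _)
    · rwa [PH_mem hV]
  · rw [PH_not hi]; simpa using mul_nonneg hc (sq_nonneg _)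

theorem PH_up {w z a A : ℝ} (h : w = Real.exp a * z) (ha : a ≤ A) :
    w ^ 2 ≤ Real.exp (2 * A) * z ^ 2 := by
  rw [h, mul_pow, ← Real.exp_nat_mul]
  exact mul_le_mul_of_nonneg_right (Real.exp_le_exp.2 (by push_cast; linarith)) (sq_nonneg _)

theorem PH_down {w z a A : ℝ} (h : w = Real.exp a * z) (ha : A ≤ a) :
    z ^ 2 ≤ Real.exp (2 * -A) * w ^ 2 := by
  refine PH_up (a := -a) ?_ (by linarith)
  rw [h, ← mul_assoc, ← Real.exp_add]; simp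

theorem PH_zero {w z a : ℝ} (h : w = Real.exp a * z) : w = 0 ↔ z = 0 := by
  rw [h]; simp

/-- comparison sector by sector -/
theorem PH_sec {Sc : Type} (sec : ι → Sc) {x y : ι → ℝ} {c : ℝ}
    (h : ∀ σ, n2 (msk {i | sec i = σ} x) ≤ c * n2 (msk {i | sec i = σ} y)) : n2 x ≤ c * n2 y := by
  classical
  have e : ∀ x : ι → ℝ, n2 x = ∑ σ ∈ Finset.univ.image sec, n2 (msk {i | sec i = σ} x) := by
    intro x
    unfold n2
    rw [Finset.sum_comm]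
    refine Finset.sum_congr rfl fun i _ => ?_
    rw [Finset.sum_eq_single (sec i)]
    · rw [PH_mem (U := {j | sec j = sec i}) (i := i) rfl]
    · intro σ _ hσ
      rw [PH_not (U := {j | sec j = σ}) (i := i) (fun h => hσ (Eq.symm h))]; ring
    · intro h; exact absurd (Finset.mem_image_of_mem sec (Finset.mem_univ i)) h
  rw [e x, e y, Finset.mul_sum]
  exact Finset.sum_le_sum fun σ _ => h σ

theorem PH_comm (U V : Set ι) (x : ι → ℝ) : msk U (msk V x) = msk V (msk U x) := by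
  unfold msk
  rw [indicator_indicator, indicator_indicator, inter_comm]

theorem Cut.parts {U : Set ι} {G C : ℝ} {z z' : St ι} (h : Cut U G C z z') {A : ℝ}
    (hA : C * (n2 (msk U z'.1) + Real.exp (2 * G) * (n2 (msk Uᶜ z.1) + n2 z.2)) ≤ A) :
    Real.exp (2 * G) * n2 (msk U z.1) ≤ A ∧ n2 (msk Uᶜ z'.1) ≤ A ∧ n2 z'.2 ≤ A := by
  have h1 : 0 ≤ Real.exp (2 * G) * n2 (msk U z.1) := mul_nonneg (Real.exp_pos _).le (n2_nonneg _)
  have h2 := n2_nonneg (msk Uᶜ z'.1)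
  have h3 := n2_nonneg z'.2
  unfold Cut at h
  exact ⟨by linarith, by linarith, by linarith⟩

/-- the standing hypotheses on a phase -/
structure PhCtx {Y Sc : Type} [TopologicalSpace Y] (d : ι → ℕ) (sec : ι → Sc)
    (R Q : Y → ℝ → Matrix ι ι ℝ) (t₁ s₁ s₂ t₂ Bf : ℝ) : Prop where
  hd : ∀ i, 1 ≤ d i
  hR : Continuous fun z : Y × ℝ => R z.1 z.2
  hQ : Continuous fun z : Y × ℝ => Q z.1 z.2
  hB : 0 ≤ Bf
  h1 : t₁ + Bf ≤ s₁
  h2 : s₁ ≤ s₂
  h3 : s₂ + Bf ≤ t₂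
  free : ∀ y, ∀ r ∈ Icc t₁ s₁ ∪ Icc s₂ t₂, R y r = 0 ∧ Q y r = 0
  dec : ∀ y, ∀ r ∈ Icc s₁ s₂, ∀ σ, Dec {i | sec i = σ} (R y r) ∧ Dec {i | sec i = σ} (Q y r)

/-- the states at the inner ends of the buffers -/
structure PhIn (B : Bg) (d : ι → ℕ) (t₁ s₁ s₂ t₂ : ℝ) (z z' w w' : St ι) : Prop where
  p1 : ∀ i, w.1 i = Real.exp (B.Ip (d i) t₁ s₁) * z.1 i
  m1 : ∀ i, w.2 i = Real.exp (B.Im (d i) t₁ s₁) * z.2 i
  p2 : ∀ i, z'.1 i = Real.exp (B.Ip (d i) s₂ t₂) * w'.1 i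
  m2 : ∀ i, z'.2 i = Real.exp (B.Im (d i) s₂ t₂) * w'.2 i

theorem PhIn.supp {B : Bg} {d : ι → ℕ} {t₁ s₁ s₂ t₂ : ℝ} {z z' w w' : St ι}
    (h : PhIn B d t₁ s₁ s₂ t₂ z z' w w') {S : Set ι} (hs : Supp S z) : Supp S w := fun i hi =>
  ⟨(PH_zero (h.p1 i)).2 (hs i hi).1, (PH_zero (h.m1 i)).2 (hs i hi).2⟩

theorem PhIn.w2 {B : Bg} {d : ι → ℕ} {t₁ s₁ s₂ t₂ : ℝ} {z z' w w' : St ι}
    (h : PhIn B d t₁ s₁ s₂ t₂ z z' w w') (h0 : z.2 = 0) : n2 w.2 = 0 := by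
  have : w.2 = 0 := funext fun i => (PH_zero (h.m1 i)).2 (congrFun h0 i)
  rw [this, PH_n2_zero]

namespace PhCtx

variable {Y Sc : Type} [TopologicalSpace Y] {d : ι → ℕ} {sec : ι → Sc}
  {R Q : Y → ℝ → Matrix ι ι ℝ} {t₁ s₁ s₂ t₂ Bf : ℝ} {B : Bg} {y : Y} {z z' : St ι}

theorem le (h : PhCtx d sec R Q t₁ s₁ s₂ t₂ Bf) : t₁ ≤ t₂ := by
  linarith [h.hB, h.h1, h.h2, h.h3]

theorem split (h : PhCtx d sec R Q t₁ s₁ s₂ t₂ Bf) (hr : B.Rel d (R y) (Q y) t₁ t₂ z z') :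
    ∃ w w', B.Rel d (R y) (Q y) s₁ s₂ w w' ∧ PhIn B d t₁ s₁ s₂ t₂ z z' w w' := by
  obtain ⟨u, p, hs, rfl, rfl⟩ := hr
  have a1 : t₁ ≤ s₁ := by linarith [h.hB, h.h1]
  have a2 : s₂ ≤ t₂ := by linarith [h.hB, h.h3]
  have f1 := (hs.mono (Icc_subset_Icc le_rfl (h.h2.trans a2))).free a1
    (fun t ht => (h.free y t (Or.inl ht)).1) fun t ht => (h.free y t (Or.inl ht)).2
  have f2 := (hs.mono (Icc_subset_Icc (a1.trans h.h2) le_rfl)).free a2
    (fun t ht => (h.free y t (Or.inr ht)).1) fun t ht => (h.free y t (Or.inr ht)).2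
  exact ⟨B.st d u p s₁, B.st d u p s₂, ⟨u, p, hs.mono (Icc_subset_Icc a1 a2), rfl, rfl⟩,
    fun i => (f1 i).1, fun i => (f1 i).2, fun i => (f2 i).1, fun i => (f2 i).2⟩

theorem mask (h : PhCtx d sec R Q t₁ s₁ s₂ t₂ Bf) (hr : B.Rel d (R y) (Q y) t₁ t₂ z z') (σ : Sc) :
    B.Rel d (R y) (Q y) t₁ t₂ (msk {i | sec i = σ} z.1, msk {i | sec i = σ} z.2)
      (msk {i | sec i = σ} z'.1, msk {i | sec i = σ} z'.2) := by
  obtain ⟨u, p, hs, rfl, rfl⟩ := hr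
  have hdec : ∀ r ∈ Icc t₁ t₂, Dec {i | sec i = σ} (R y r) ∧ Dec {i | sec i = σ} (Q y r) := by
    intro r hr
    by_cases h1 : r ∈ Icc s₁ s₂
    · exact h.dec y r h1 σ
    · have h2 : r ∈ Icc t₁ s₁ ∪ Icc s₂ t₂ := by
        rcases le_total r s₁ with a | a
        · exact Or.inl ⟨hr.1, a⟩
        · exact Or.inr ⟨le_of_not_ge fun b => h1 ⟨a, b⟩, hr.2⟩
      rw [(h.free y r h2).1, (h.free y r h2).2]
      exact ⟨fun _ _ _ => rfl, fun _ _ _ => rfl⟩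
  exact ⟨_, _, hs.msk (fun t ht => (hdec t ht).1) fun t ht => (hdec t ht).2,
    Bg.st_msk _ _, Bg.st_msk _ _⟩

theorem supp (h : PhCtx d sec R Q t₁ s₁ s₂ t₂ Bf) (hr : B.Rel d (R y) (Q y) t₁ t₂ z z') {σ : Sc}
    (hs : Supp {i | sec i = σ} z) : Supp {i | sec i = σ} z' := by
  have h1 := h.mask hr σ
  have e : (msk {i | sec i = σ} z.1, msk {i | sec i = σ} z.2) = z := by
    refine Prod.ext (funext fun i => ?_) (funext fun i => ?_) <;>
      by_cases hi : i ∈ {i | sec i = σ}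
    · exact PH_mem hi _
    · exact (PH_not hi _).trans (hs i hi).1.symm
    · exact PH_mem hi _
    · exact (PH_not hi _).trans (hs i hi).2.symm
  rw [e] at h1
  obtain ⟨u, p, hsol, h0, rfl⟩ := hr
  have cR : Continuous (R y) := h.hR.comp (continuous_const.prodMk continuous_id)
  have cQ : Continuous (Q y) := h.hQ.comp (continuous_const.prodMk continuous_id)
  have h2 := h1.st_eq h.hd h.le cR.continuousOn cQ.continuousOn hsol h0
  intro i hi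
  rw [h2]
  exact ⟨PH_not hi _, PH_not hi _⟩

theorem ip1_ge (h : PhCtx d sec R Q t₁ s₁ s₂ t₂ Bf) (B : Bg) {k l : ℕ} (hk : k ≤ l) :
    k * (s₁ - t₁) ≤ B.Ip l t₁ s₁ := by
  have a : 0 ≤ s₁ - t₁ := by linarith [h.hB, h.h1]
  exact (mul_le_mul_of_nonneg_right (by exact_mod_cast hk) a).trans (B.Ip_ge l (by linarith))

theorem ip2_ge (h : PhCtx d sec R Q t₁ s₁ s₂ t₂ Bf) (B : Bg) {k l : ℕ} (hk : k ≤ l) :
    k * (t₂ - s₂) ≤ B.Ip l s₂ t₂ := by
  have a : 0 ≤ t₂ - s₂ := by linarith [h.hB, h.h3]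
  exact (mul_le_mul_of_nonneg_right (by exact_mod_cast hk) a).trans (B.Ip_ge l (by linarith))

theorem ip1_le (h : PhCtx d sec R Q t₁ s₁ s₂ t₂ Bf) (B : Bg) {k l : ℕ} (hk : l ≤ k) :
    B.Ip l t₁ s₁ ≤ (k + 1 / 6) * (s₁ - t₁) := by
  have a : 0 ≤ s₁ - t₁ := by linarith [h.hB, h.h1]
  have b : (l : ℝ) ≤ k := by exact_mod_cast hk
  exact (B.Ip_le l (by linarith)).trans (mul_le_mul_of_nonneg_right (by linarith [B.a_le l]) a)

theorem ip2_le (h : PhCtx d sec R Q t₁ s₁ s₂ t₂ Bf) (B : Bg) {k l : ℕ} (hk : l ≤ k) :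
    B.Ip l s₂ t₂ ≤ (k + 1 / 6) * (t₂ - s₂) := by
  have a : 0 ≤ t₂ - s₂ := by linarith [h.hB, h.h3]
  have b : (l : ℝ) ≤ k := by exact_mod_cast hk
  exact (B.Ip_le l (by linarith)).trans (mul_le_mul_of_nonneg_right (by linarith [B.a_le l]) a)

theorem im1_le (h : PhCtx d sec R Q t₁ s₁ s₂ t₂ Bf) (B : Bg) (i : ι) :
    B.Im (d i) t₁ s₁ ≤ -Bf := by
  have a : 0 ≤ s₁ - t₁ := by linarith [h.hB, h.h1]
  have b : (1 : ℝ) ≤ d i := by exact_mod_cast h.hd i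
  have c := B.Im_le (d i) (show t₁ ≤ s₁ by linarith)
  nlinarith [h.h1]

theorem im2_le (h : PhCtx d sec R Q t₁ s₁ s₂ t₂ Bf) (B : Bg) (i : ι) :
    B.Im (d i) s₂ t₂ ≤ -Bf := by
  have a : 0 ≤ t₂ - s₂ := by linarith [h.hB, h.h3]
  have b : (1 : ℝ) ≤ d i := by exact_mod_cast h.hd i
  have c := B.Im_le (d i) (show s₂ ≤ t₂ by linarith)
  nlinarith [h.h3]

end PhCtx

/-- `x ≤ e^a y`, `y ≤ C e^b X` -/
theorem PH_chain {x y a b c C X : ℝ} (hC : 0 ≤ C) (hX : 0 ≤ X) (h1 : x ≤ Real.exp a * y)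
    (h2 : y ≤ C * (Real.exp b * X)) (h3 : a + b ≤ c) : x ≤ C * Real.exp c * X := by
  calc x ≤ Real.exp a * (C * (Real.exp b * X)) :=
        h1.trans (mul_le_mul_of_nonneg_left h2 (Real.exp_pos _).le)
    _ = C * Real.exp (a + b) * X := by rw [Real.exp_add]; ring
    _ ≤ _ := mul_le_mul_of_nonneg_right
        (mul_le_mul_of_nonneg_left (Real.exp_le_exp.2 h3) hC) hX

theorem PH_div {x G A : ℝ} (h : Real.exp G * x ≤ A) : x ≤ Real.exp (-G) * A := by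
  have := mul_le_mul_of_nonneg_left h (Real.exp_pos (-G)).le
  rwa [← mul_assoc, ← Real.exp_add, neg_add_cancel, Real.exp_zero, one_mul] at this

namespace PhCtx

variable {Y Sc : Type} [TopologicalSpace Y] {d : ι → ℕ} {sec : ι → Sc}
  {R Q : Y → ℝ → Matrix ι ι ℝ} {t₁ s₁ s₂ t₂ Bf C₀ : ℝ} {B : Bg} {z z' w w' : St ι}

theorem end2 (h : PhCtx d sec R Q t₁ s₁ s₂ t₂ Bf) (hi : PhIn B d t₁ s₁ s₂ t₂ z z' w w') :
    n2 z'.2 ≤ Real.exp (2 * -Bf) * n2 w'.2 := by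
  have := PH_cmp (U := univ) (V := univ) (x := z'.2) (y := w'.2) (Real.exp_pos (2 * -Bf)).le
    fun i _ => Or.inr ⟨trivial, PH_up (hi.m2 i) (h.im2_le B i)⟩
  rwa [PH_univ, PH_univ] at this

/-- data `xm` at the start -/
theorem est1 (h : PhCtx d sec R Q t₁ s₁ s₂ t₂ Bf) (hC : 1 ≤ C₀)
    (hi : PhIn B d t₁ s₁ s₂ t₂ z z' w w') (hc : Cut univ 0 C₀ w w') (h0 : z'.1 = 0) :
    n2 z.1 ≤ C₀ * Real.exp (-Bf) * n2 z.2 ∧ n2 z'.2 ≤ C₀ * Real.exp (-Bf) * n2 z.2 := by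
  have a1 : n2 (msk univ w'.1) = 0 :=
    PH_msk_zero fun i _ => (PH_zero (hi.p2 i)).1 (congrFun h0 i)
  have a2 : n2 (msk univᶜ w.1) = 0 := PH_msk_zero fun i hi => absurd trivial hi
  have a3 := PH_cmp (U := univ) (V := univ) (x := w.2) (y := z.2) (Real.exp_pos (2 * -Bf)).le
    fun i _ => Or.inr ⟨trivial, PH_up (hi.m1 i) (h.im1_le B i)⟩
  rw [PH_univ, PH_univ] at a3
  obtain ⟨b1, -, b3⟩ := hc.parts (A := C₀ * (Real.exp (2 * -Bf) * n2 z.2)) (by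
    rw [a1, a2, mul_zero, Real.exp_zero]
    exact mul_le_mul_of_nonneg_left (by linarith) (by linarith))
  rw [mul_zero, Real.exp_zero, one_mul] at b1
  have a4 := PH_cmp (U := univ) (V := univ) (x := z.1) (y := w.1) (Real.exp_pos (2 * -0)).le
    fun i _ => Or.inr ⟨trivial, PH_down (hi.p1 i) (by simpa using h.ip1_ge B (Nat.zero_le (d i)))⟩
  rw [PH_univ] at a4
  exact ⟨PH_chain (by linarith) (n2_nonneg _) a4 b1 (by linarith [h.hB]),
    PH_chain (by linarith) (n2_nonneg _) (h.end2 hi) b3 (by linarith [h.hB])⟩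

/-- data `xp` of degree `> k` at the end -/
theorem est2 (h : PhCtx d sec R Q t₁ s₁ s₂ t₂ Bf) (hC : 1 ≤ C₀)
    (hi : PhIn B d t₁ s₁ s₂ t₂ z z' w w') {k : ℕ} {G : ℝ} (hc : Cut {i | k < d i} G C₀ w w')
    (h0 : z.2 = 0) (h1 : ∀ i, ¬ k < d i → z.1 i = 0) :
    n2 (msk {i | k < d i} z.1) ≤ C₀ * Real.exp (2 * -(G + (k + 1) * (s₁ - t₁ + (t₂ - s₂)))) *
        n2 (msk {i | k < d i} z'.1) ∧
      n2 (msk {i | k < d i}ᶜ z'.1) ≤ C₀ * Real.exp (-Bf) * n2 (msk {i | k < d i} z'.1) ∧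
      n2 z'.2 ≤ C₀ * Real.exp (-Bf) * n2 (msk {i | k < d i} z'.1) := by
  have T2 : Bf ≤ t₂ - s₂ := by linarith [h.h3]
  have hB := h.hB
  have hk : (0 : ℝ) ≤ k := Nat.cast_nonneg k
  have a1 := PH_cmp (U := {i | k < d i}) (V := {i | k < d i}) (x := w'.1) (y := z'.1)
    (Real.exp_pos (2 * -(((k + 1 : ℕ) : ℝ) * (t₂ - s₂)))).le
    fun i hi' => Or.inr ⟨hi', PH_down (hi.p2 i) (h.ip2_ge B (k := k + 1) hi')⟩
  have a2 : n2 (msk {i | k < d i}ᶜ w.1) = 0 :=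
    PH_msk_zero fun i hi' => (PH_zero (hi.p1 i)).2 (h1 i hi')
  obtain ⟨b1, b2, b3⟩ := hc.parts (A := C₀ * (Real.exp (2 * -(((k + 1 : ℕ) : ℝ) * (t₂ - s₂))) *
      n2 (msk {i | k < d i} z'.1))) (by
    rw [a2, hi.w2 h0, add_zero, mul_zero, add_zero]
    exact mul_le_mul_of_nonneg_left a1 (by linarith))
  have a3 := PH_cmp (U := {i | k < d i}) (V := {i | k < d i}) (x := z.1) (y := w.1)
    (Real.exp_pos (2 * -(((k + 1 : ℕ) : ℝ) * (s₁ - t₁)))).le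
    fun i hi' => Or.inr ⟨hi', PH_down (hi.p1 i) (h.ip1_ge B (k := k + 1) hi')⟩
  have a4 := PH_cmp (U := {i | k < d i}ᶜ) (V := {i | k < d i}ᶜ) (x := z'.1) (y := w'.1)
    (Real.exp_pos (2 * ((k + 1 / 6) * (t₂ - s₂)))).le
    fun i hi' => Or.inr ⟨hi', PH_up (hi.p2 i) (h.ip2_le B (k := k) (not_lt.1 hi'))⟩
  have a5 := a3.trans (mul_le_mul_of_nonneg_left (PH_div b1) (Real.exp_pos _).le)
  rw [← mul_assoc, ← Real.exp_add] at a5
  push_cast at a5 b2 b3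
  refine ⟨PH_chain (by linarith) (n2_nonneg _) a5 le_rfl (le_of_eq (by ring)),
    PH_chain (by linarith) (n2_nonneg _) a4 b2 (by linarith),
    PH_chain (by linarith) (n2_nonneg _) (h.end2 hi) b3 ?_⟩
  nlinarith

/-- a solution of column type, upper cut -/
theorem estU (h : PhCtx d sec R Q t₁ s₁ s₂ t₂ Bf) (hC : 1 ≤ C₀)
    (hi : PhIn B d t₁ s₁ s₂ t₂ z z' w w') {l : ℕ} {G : ℝ} (hc : Cut {i | l < d i} G C₀ w w')
    (h0 : z.2 = 0) (h1 : ∀ i, d i < l → z.1 i = 0) (h2 : ∀ i, l < d i → z'.1 i = 0) :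
    n2 (msk {i | l < d i} z.1) ≤ C₀ * Real.exp (-Bf) * n2 (msk {i | d i = l} z.1) ∧
      n2 (msk {i | d i = l} z'.1) ≤
        C₀ * Real.exp (2 * (G + B.Ip l t₁ s₁ + B.Ip l s₂ t₂)) * n2 (msk {i | d i = l} z.1) := by
  have T1 : Bf ≤ s₁ - t₁ := by linarith [h.h1]
  have hB := h.hB
  have a1 : n2 (msk {i | l < d i} w'.1) = 0 :=
    PH_msk_zero fun i hi' => (PH_zero (hi.p2 i)).1 (h2 i hi')
  have a2 := PH_cmp (U := {i | l < d i}ᶜ) (V := {i | d i = l}) (x := w.1) (y := z.1)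
    (Real.exp_pos (2 * B.Ip l t₁ s₁)).le fun i hi' => by
      rcases (not_lt.1 hi' : d i ≤ l).lt_or_eq with a | a
      · exact Or.inl ((PH_zero (hi.p1 i)).2 (h1 i a))
      · exact Or.inr ⟨a, PH_up (hi.p1 i) (by rw [a])⟩
  obtain ⟨b1, b2, -⟩ := hc.parts (A := C₀ * (Real.exp (2 * G + 2 * B.Ip l t₁ s₁) *
      n2 (msk {i | d i = l} z.1))) (by
    rw [a1, hi.w2 h0, add_zero, zero_add, Real.exp_add, mul_assoc (Real.exp _)]
    exact mul_le_mul_of_nonneg_left (mul_le_mul_of_nonneg_left a2 (Real.exp_pos _).le) (by linarith))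
  have a3 := PH_cmp (U := {i | l < d i}) (V := {i | l < d i}) (x := z.1) (y := w.1)
    (Real.exp_pos (2 * -(((l + 1 : ℕ) : ℝ) * (s₁ - t₁)))).le
    fun i hi' => Or.inr ⟨hi', PH_down (hi.p1 i) (h.ip1_ge B (k := l + 1) hi')⟩
  have a5 := a3.trans (mul_le_mul_of_nonneg_left (PH_div b1) (Real.exp_pos _).le)
  rw [← mul_assoc, ← Real.exp_add] at a5
  push_cast at a5
  have a4 := PH_cmp (U := {i | d i = l}) (V := {i | l < d i}ᶜ) (x := z'.1) (y := w'.1)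
    (Real.exp_pos (2 * B.Ip l s₂ t₂)).le fun i hi' =>
      Or.inr ⟨not_lt.2 (le_of_eq hi'), PH_up (hi.p2 i) (by rw [show d i = l from hi'])⟩
  have a6 := h.ip1_le B (le_refl l)
  exact ⟨PH_chain (by linarith) (n2_nonneg _) a5 le_rfl (by linarith),
    PH_chain (by linarith) (n2_nonneg _) a4 b2 (le_of_eq (by ring))⟩

/-- a solution of column type, lower cut -/
theorem estL (h : PhCtx d sec R Q t₁ s₁ s₂ t₂ Bf) (hC : 1 ≤ C₀)
    (hi : PhIn B d t₁ s₁ s₂ t₂ z z' w w') {l : ℕ} {G : ℝ} (hc : Cut {i | l ≤ d i} G C₀ w w')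
    (hall : Cut univ 0 C₀ w w')
    (h0 : z.2 = 0) (h1 : ∀ i, d i < l → z.1 i = 0) (h2 : ∀ i, l < d i → z'.1 i = 0) :
    Real.exp (2 * (G + B.Ip l t₁ s₁ + B.Ip l s₂ t₂)) * n2 (msk {i | d i = l} z.1) ≤
        C₀ * n2 (msk {i | d i = l} z'.1) ∧
      n2 (msk {i | d i = l}ᶜ z'.1) ≤ C₀ * Real.exp (-Bf) * n2 (msk {i | d i = l} z'.1) ∧
      n2 z'.2 ≤ C₀ * Real.exp (-Bf) * n2 (msk {i | d i = l} z'.1) ∧
      n2 (msk {i | d i = l} z.1) ≤ (2 * C₀) ^ 2 * n2 (msk {i | d i = l} z'.1) := by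
  have T2 : Bf ≤ t₂ - s₂ := by linarith [h.h3]
  have hB := h.hB
  have hl : (0 : ℝ) ≤ l := Nat.cast_nonneg l
  have hX := n2_nonneg (msk {i | d i = l} z'.1)
  have a1 := PH_cmp (U := {i | l ≤ d i}) (V := {i | d i = l}) (x := w'.1) (y := z'.1)
    (Real.exp_pos (2 * -B.Ip l s₂ t₂)).le fun i hi' => by
      rcases (show l ≤ d i from hi').lt_or_eq with a | a
      · exact Or.inl ((PH_zero (hi.p2 i)).1 (h2 i a))
      · exact Or.inr ⟨a.symm, PH_down (hi.p2 i) (by rw [a])⟩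
  have a2 : n2 (msk {i | l ≤ d i}ᶜ w.1) = 0 :=
    PH_msk_zero fun i hi' => (PH_zero (hi.p1 i)).2 (h1 i (not_le.1 hi'))
  obtain ⟨b1, b2, b3⟩ := hc.parts (A := C₀ * (Real.exp (2 * -B.Ip l s₂ t₂) *
      n2 (msk {i | d i = l} z'.1))) (by
    rw [a2, hi.w2 h0, add_zero, mul_zero, add_zero]
    exact mul_le_mul_of_nonneg_left a1 (by linarith))
  have a3 := PH_cmp (U := {i | d i = l}) (V := {i | l ≤ d i}) (x := z.1) (y := w.1)
    (Real.exp_pos (2 * -B.Ip l t₁ s₁)).le fun i hi' =>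
      Or.inr ⟨le_of_eq (Eq.symm hi'), PH_down (hi.p1 i) (by rw [show d i = l from hi'])⟩
  have a5 := a3.trans (mul_le_mul_of_nonneg_left (PH_div b1) (Real.exp_pos _).le)
  rw [← mul_assoc, ← Real.exp_add] at a5
  have a6 := PH_chain (c := -(2 * (G + B.Ip l t₁ s₁ + B.Ip l s₂ t₂))) (by linarith) hX a5 le_rfl
    (le_of_eq (by ring))
  have a7 := h.ip2_ge B (le_refl l)
  have a4 := PH_cmp (U := {i | d i = l}ᶜ) (V := {i | l ≤ d i}ᶜ) (x := z'.1) (y := w'.1)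
    (Real.exp_pos (2 * ((l - 5 / 6) * (t₂ - s₂)))).le fun i hi' => by
      rcases lt_or_gt_of_ne (show d i ≠ l from hi') with a | a
      · refine Or.inr ⟨not_le.2 a, PH_up (hi.p2 i) ((h.ip2_le B (le_refl (d i))).trans ?_)⟩
        have : (d i : ℝ) + 1 ≤ l := by exact_mod_cast a
        exact mul_le_mul_of_nonneg_right (by linarith) (by linarith)
      · exact Or.inl (h2 i a)
  have a8 : 0 ≤ B.Ip l s₂ t₂ := le_trans (mul_nonneg hl (by linarith)) a7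
  refine ⟨?_, PH_chain (by linarith) hX a4 b2 (by linarith),
    PH_chain (by linarith) hX (h.end2 hi) b3 (by linarith), ?_⟩
  · have := mul_le_mul_of_nonneg_left a6
      (Real.exp_pos (2 * (G + B.Ip l t₁ s₁ + B.Ip l s₂ t₂))).le
    refine this.trans (le_of_eq ?_)
    rw [Real.exp_neg]
    field_simp
  · have e1 : Real.exp (2 * -B.Ip l s₂ t₂) * n2 (msk {i | d i = l} z'.1) ≤
        n2 (msk {i | d i = l} z'.1) :=
      mul_le_of_le_one_left hX (Real.exp_le_one_iff.2 (by linarith))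
    have e2 := n2_msk_add {i | l ≤ d i} w'.1
    have e3 : n2 (msk univᶜ w.1) = 0 := PH_msk_zero fun i hi => absurd trivial hi
    have e4 := mul_le_mul_of_nonneg_left e1 (show 0 ≤ C₀ by linarith)
    obtain ⟨c1, -, -⟩ := hall.parts (A := C₀ * ((1 + C₀) * n2 (msk {i | d i = l} z'.1))) (by
      rw [e3, hi.w2 h0, add_zero, mul_zero, add_zero, PH_univ]
      exact mul_le_mul_of_nonneg_left (by linarith) (by linarith))
    rw [mul_zero, Real.exp_zero, one_mul] at c1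
    have e5 := PH_cmp (U := {i | d i = l}) (V := univ) (x := z.1) (y := w.1)
      (Real.exp_pos (2 * -0)).le fun i _ =>
        Or.inr ⟨trivial, PH_down (hi.p1 i) (by simpa using h.ip1_ge B (Nat.zero_le (d i)))⟩
    rw [neg_zero, mul_zero, Real.exp_zero, one_mul] at e5
    have e6 : C₀ * (1 + C₀) ≤ (2 * C₀) ^ 2 := by nlinarith
    nlinarith [mul_le_mul_of_nonneg_right e6 hX]

/-- `est2` summed over the sectors -/
theorem est2' {y : Y} (h : PhCtx d sec R Q t₁ s₁ s₂ t₂ Bf) (hC : 1 ≤ C₀) {k : ℕ} {Gs : ℝ}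
    (hH : ∀ w w', B.Rel d (R y) (Q y) s₁ s₂ w w' → ∀ σ, Supp {i | sec i = σ} w →
      ∃ G, Gs ≤ G ∧ Cut {i | k < d i} G C₀ w w')
    (hr : B.Rel d (R y) (Q y) t₁ t₂ z z') (h0 : z.2 = 0) (h1 : ∀ i, ¬ k < d i → z.1 i = 0) :
    n2 (msk {i | k < d i} z.1) ≤ C₀ * Real.exp (2 * -(Gs + (k + 1) * (s₁ - t₁ + (t₂ - s₂)))) *
        n2 (msk {i | k < d i} z'.1) ∧
      n2 (msk {i | k < d i}ᶜ z'.1) ≤ C₀ * Real.exp (-Bf) * n2 (msk {i | k < d i} z'.1) ∧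
      n2 z'.2 ≤ C₀ * Real.exp (-Bf) * n2 (msk {i | k < d i} z'.1) := by
  have key : ∀ σ, n2 (msk {i | sec i = σ} (msk {i | k < d i} z.1)) ≤
      C₀ * Real.exp (2 * -(Gs + (k + 1) * (s₁ - t₁ + (t₂ - s₂)))) *
        n2 (msk {i | sec i = σ} (msk {i | k < d i} z'.1)) ∧
      n2 (msk {i | sec i = σ} (msk {i | k < d i}ᶜ z'.1)) ≤
        C₀ * Real.exp (-Bf) * n2 (msk {i | sec i = σ} (msk {i | k < d i} z'.1)) ∧
      n2 (msk {i | sec i = σ} z'.2) ≤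
        C₀ * Real.exp (-Bf) * n2 (msk {i | sec i = σ} (msk {i | k < d i} z'.1)) := by
    intro σ
    obtain ⟨w, w', hw, hi⟩ := h.split (h.mask hr σ)
    obtain ⟨G, hG, hc⟩ := hH w w' hw σ (hi.supp fun i hi' => ⟨PH_not hi' _, PH_not hi' _⟩)
    obtain ⟨b1, b2, b3⟩ := h.est2 hC hi hc (by
      show msk _ z.2 = 0
      rw [h0]; exact indicator_zero' ..) (fun i hi' => by
      show msk _ z.1 i = 0
      by_cases hs : i ∈ {i | sec i = σ}
      · rw [PH_mem hs, h1 i hi']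
      · exact PH_not hs _)
    simp only [PH_comm _ {i | sec i = σ}] at b1 b2 b3
    refine ⟨b1.trans (mul_le_mul_of_nonneg_right (mul_le_mul_of_nonneg_left
      (Real.exp_le_exp.2 (by linarith)) (by linarith)) (n2_nonneg _)), b2, b3⟩
  exact ⟨PH_sec sec fun σ => (key σ).1, PH_sec sec fun σ => (key σ).2.1,
    PH_sec sec fun σ => (key σ).2.2⟩

/-- boundary value problems, unfolded -/
theorem scat (h : PhCtx d sec R Q t₁ s₁ s₂ t₂ Bf) (B : Bg) (U : Set ι)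
    (hu : ∀ y z z', B.Rel d (R y) (Q y) t₁ t₂ z z' → z.2 = 0 → (∀ i ∈ U, z'.1 i = 0) →
      (∀ i ∉ U, z.1 i = 0) → n2 (msk U z.1) ≤ 0) :
    ∃ Spp Spm Smp Smm : Y → Matrix ι ι ℝ, Continuous Spp ∧ Continuous Spm ∧ Continuous Smp ∧
      Continuous Smm ∧ ∀ y (v x : ι → ℝ), B.Rel d (R y) (Q y) t₁ t₂
        (msk U (Spp y *ᵥ v + Spm y *ᵥ x) + msk Uᶜ v, x)
        (msk U v + msk Uᶜ (Spp y *ᵥ v + Spm y *ᵥ x), Smp y *ᵥ v + Smm y *ᵥ x) := by
  have hin : ∀ (a b : ι → ℝ) i, (i ∈ U → (msk U a + msk Uᶜ b) i = a i) ∧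
      (i ∉ U → (msk U a + msk Uᶜ b) i = b i) := fun a b i =>
    ⟨fun hi => by rw [Pi.add_apply, PH_mem hi, PH_not (U := Uᶜ) (fun h => h hi), add_zero],
      fun hi => by rw [Pi.add_apply, PH_not hi, PH_mem (U := Uᶜ) hi, zero_add]⟩
  obtain ⟨Spp, Spm, Smp, Smm, c1, c2, c3, c4, H⟩ := exists_scat B h.hd h.hR h.hQ h.le U (by
    intro y z z' hr h0
    have e1 : msk U z'.1 + msk Uᶜ z.1 = 0 := congrArg Prod.fst h0
    have e2 : z.2 = 0 := congrArg Prod.snd h0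
    have e3 : ∀ i ∉ U, z.1 i = 0 := fun i hi => ((hin _ _ i).2 hi).symm.trans (congrFun e1 i)
    have e4 := n2_eq_zero (hu y z z' hr e2
      (fun i hi => ((hin _ _ i).1 hi).symm.trans (congrFun e1 i)) e3)
    refine Prod.ext (funext fun i => ?_) e2
    by_cases hi : i ∈ U
    · exact (PH_mem hi _).symm.trans (congrFun e4 i)
    · exact e3 i hi)
  refine ⟨Spp, Spm, Smp, Smm, c1, c2, c3, c4, fun y v x => ?_⟩
  obtain ⟨z, z', hr, hv⟩ := (H y).1 (v, x)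
  have ho := (H y).2 z z' hr
  rw [hv] at ho
  have e1 : msk U z'.1 + msk Uᶜ z.1 = v := congrArg Prod.fst hv
  have e2 : z.2 = x := congrArg Prod.snd hv
  have e3 : msk U z.1 + msk Uᶜ z'.1 = Spp y *ᵥ v + Spm y *ᵥ x := congrArg Prod.fst ho
  have e4 : z'.2 = Smp y *ᵥ v + Smm y *ᵥ x := congrArg Prod.snd ho
  convert hr using 1
  · refine Prod.ext (funext fun i => ?_) e2.symm
    by_cases hi : i ∈ U
    · exact ((hin _ _ i).1 hi).trans ((congrFun e3 i).symm.trans ((hin _ _ i).1 hi))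
    · exact ((hin _ _ i).2 hi).trans ((congrFun e1 i).symm.trans ((hin _ _ i).2 hi))
  · refine Prod.ext (funext fun i => ?_) e4.symm
    by_cases hi : i ∈ U
    · exact ((hin _ _ i).1 hi).trans ((congrFun e1 i).symm.trans ((hin _ _ i).1 hi))
    · exact ((hin _ _ i).2 hi).trans ((congrFun e3 i).symm.trans ((hin _ _ i).2 hi))

end PhCtx

theorem PH_sq {C₀ a : ℝ} (hC : 1 ≤ C₀) : C₀ * Real.exp (2 * a) ≤ (C₀ * Real.exp a) ^ 2 := by
  rw [mul_pow, ← Real.exp_nat_mul]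
  push_cast
  exact mul_le_mul_of_nonneg_right (by nlinarith) (Real.exp_pos _).le

theorem PH_sq' {C₀ Bf : ℝ} (hC : 1 ≤ C₀) :
    C₀ * Real.exp (-Bf) ≤ (C₀ * Real.exp (-Bf / 2)) ^ 2 := by
  have := PH_sq (a := -Bf / 2) hC
  rwa [show 2 * (-Bf / 2) = -Bf by ring] at this

theorem PH_msk0 (U : Set ι) : msk U (0 : ι → ℝ) = 0 := indicator_zero' ..

theorem PH_cont {Y : Type} [TopologicalSpace Y] (U : Set ι) {x : Y → ι → ℝ} (h : Continuous x) :
    Continuous fun y => msk U (x y) := by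
  refine continuous_pi fun i => ?_
  by_cases hi : i ∈ U
  · simp only [PH_mem hi]; exact (continuous_apply i).comp h
  · simp only [PH_not hi]; exact continuous_const

theorem PH_comp_le {κ : Type} [Fintype κ] {f : κ → ι} (hf : Function.Injective f) (x : ι → ℝ) :
    n2 (fun k => x (f k)) ≤ n2 x := by
  classical
  unfold n2
  rw [← Finset.sum_image (s := Finset.univ) (g := f) (f := fun i => x i ^ 2)
    fun a _ b _ hab => hf hab]
  exact Finset.sum_le_sum_of_subset_of_nonneg (Finset.subset_univ _) fun i _ _ => sq_nonneg _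

theorem PH_comp_eq {κ : Type} [Fintype κ] {f : κ → ι} (hf : Function.Injective f) {x : ι → ℝ}
    (hx : ∀ i, (∀ k, f k ≠ i) → x i = 0) : n2 x = n2 fun k => x (f k) := by
  classical
  unfold n2
  rw [← Finset.sum_image (s := Finset.univ) (g := f) (f := fun i => x i ^ 2)
    fun a _ b _ hab => hf hab]
  refine (Finset.sum_subset (Finset.subset_univ _) fun i _ hi => ?_).symm
  rw [hx i fun k hk => hi (Finset.mem_image.2 ⟨k, Finset.mem_univ _, hk⟩)]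
  ring

namespace PhCtx

variable {Y Sc : Type} [TopologicalSpace Y] {d : ι → ℕ} {sec : ι → Sc}
  {R Q : Y → ℝ → Matrix ι ι ℝ} {t₁ s₁ s₂ t₂ Bf C₀ : ℝ} {B : Bg} {z z' w w' : St ι}

/-- first problem: data `xm` at the start -/
theorem P1 (h : PhCtx d sec R Q t₁ s₁ s₂ t₂ Bf) (hC : 1 ≤ C₀)
    (hall : ∀ y w w', B.Rel d (R y) (Q y) s₁ s₂ w w' → Cut univ 0 C₀ w w') :
    ∃ X Md : Y → Matrix ι ι ℝ, Continuous X ∧ Continuous Md ∧ ∀ y,
      (∀ v, n2 (X y *ᵥ v) ≤ (C₀ * Real.exp (-Bf / 2)) ^ 2 * n2 v) ∧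
      ‖Md y‖ ≤ C₀ * Real.exp (-Bf / 2) ∧
      ∀ v, B.Rel d (R y) (Q y) t₁ t₂ (X y *ᵥ v, v) (0, Md y *ᵥ v) := by
  have est : ∀ y z z', B.Rel d (R y) (Q y) t₁ t₂ z z' → z'.1 = 0 →
      n2 z.1 ≤ (C₀ * Real.exp (-Bf / 2)) ^ 2 * n2 z.2 ∧
        n2 z'.2 ≤ (C₀ * Real.exp (-Bf / 2)) ^ 2 * n2 z.2 := by
    intro y z z' hr h0
    obtain ⟨w, w', hw, hi⟩ := h.split hr
    obtain ⟨a, b⟩ := h.est1 hC hi (hall y w w' hw) h0
    have c := mul_le_mul_of_nonneg_right (PH_sq' (Bf := Bf) hC) (n2_nonneg z.2)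
    exact ⟨a.trans c, b.trans c⟩
  obtain ⟨Spp, Spm, Smp, Smm, -, c2, -, c4, H⟩ := h.scat B univ (by
    intro y z z' hr h0 h1 _
    have := (est y z z' hr (funext fun i => h1 i trivial)).1
    rwa [h0, PH_n2_zero, mul_zero, ← PH_univ z.1] at this)
  have H' : ∀ y v, B.Rel d (R y) (Q y) t₁ t₂ (Spm y *ᵥ v, v) (0, Smm y *ᵥ v) := by
    intro y v
    have := H y 0 v
    have e : ∀ x : ι → ℝ, msk univᶜ x = 0 := fun x =>
      funext fun i => PH_not (U := univᶜ) (fun a => a trivial) _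
    simpa only [e, PH_univ, Matrix.mulVec_zero, zero_add, add_zero] using this
  exact ⟨Spm, Smm, c2, c4, fun y => ⟨fun v => (est y _ _ (H' y v) rfl).1,
    opNorm_le_of_n2 (by positivity) fun v => (est y _ _ (H' y v) rfl).2, H' y⟩⟩

/-- third problem: a column -/
theorem P3 (h : PhCtx d sec R Q t₁ s₁ s₂ t₂ Bf) (hC : 1 ≤ C₀) (i₀ : ι) (c G : ℝ)
    (hc : ∀ y w w', B.Rel d (R y) (Q y) s₁ s₂ w w' → Supp {i | sec i = sec i₀} w →
      Cut {i | d i₀ < d i} G C₀ w w') :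
    ∃ Z Z' N : Y → ι → ℝ, Continuous Z ∧ Continuous Z' ∧ Continuous N ∧ ∀ y,
      B.Rel d (R y) (Q y) t₁ t₂ (Z y, 0) (Z' y, N y) ∧ (∀ i, sec i ≠ sec i₀ → Z y i = 0) ∧
      (∀ i, d i ≤ d i₀ → Z y i = if i = i₀ then c else 0) ∧ (∀ i, d i₀ < d i → Z' y i = 0) ∧
      ∀ i, sec i ≠ sec i₀ → Z' y i = 0 := by
  set U : Set ι := {i | sec i = sec i₀ ∧ d i₀ < d i} with hU
  obtain ⟨Spp, Spm, Smp, Smm, c1, -, c3, -, H⟩ := h.scat B U (by
    intro y z z' hr h0 h1 h2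
    have hs : Supp {i | sec i = sec i₀} z := fun i hi =>
      ⟨h2 i fun hi' => hi hi'.1, congrFun h0 i⟩
    have hs' := h.supp hr hs
    obtain ⟨w, w', hw, hi⟩ := h.split hr
    have b := (h.estU hC hi (hc y w w' hw (hi.supp hs)) h0
      (fun i hi => h2 i fun hi' => absurd hi'.2 hi.le.not_gt) (fun i hi => by
        by_cases a : sec i = sec i₀
        · exact h1 i ⟨a, hi⟩
        · exact (hs' i a).1)).1
    rw [PH_msk_zero (U := {i | d i = d i₀}) (fun i hi => h2 i fun hi' =>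
      absurd hi'.2 (le_of_eq hi).not_gt), mul_zero] at b
    have b' := PH_cmp (U := U) (V := {i | d i₀ < d i}) (x := z.1) (y := z.1) zero_le_one
      fun i hi => Or.inr ⟨hi.2, by rw [one_mul]⟩
    linarith)
  set v : ι → ℝ := fun i => if i = i₀ then c else 0 with hv
  have hv0 : msk U v = 0 := funext fun i => by
    by_cases hi : i ∈ U
    · rw [PH_mem hi]; exact if_neg fun e => lt_irrefl _ (e ▸ hi.2)
    · exact PH_not hi _
  have H' : ∀ y, B.Rel d (R y) (Q y) t₁ t₂ (msk U (Spp y *ᵥ v) + msk Uᶜ v, 0)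
      (msk Uᶜ (Spp y *ᵥ v), Smp y *ᵥ v) := fun y => by
    have := H y v 0
    rwa [Matrix.mulVec_zero, Matrix.mulVec_zero, add_zero, add_zero, hv0, zero_add] at this
  have hs : ∀ y i, sec i ≠ sec i₀ → (msk U (Spp y *ᵥ v) + msk Uᶜ v) i = 0 := fun y i hi => by
    have : i ∉ U := fun a => hi a.1
    rw [Pi.add_apply, PH_not this, PH_mem (U := Uᶜ) this, zero_add]
    exact if_neg fun e => hi (by rw [e])
  have hs' : ∀ y i, sec i ≠ sec i₀ → msk Uᶜ (Spp y *ᵥ v) i = 0 := fun y i hi =>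
    (h.supp (σ := sec i₀) (H' y) (fun i hi => ⟨hs y i hi, rfl⟩) i hi).1
  refine ⟨fun y => msk U (Spp y *ᵥ v) + msk Uᶜ v, fun y => msk Uᶜ (Spp y *ᵥ v),
    fun y => Smp y *ᵥ v, (PH_cont U (c1.matrix_mulVec continuous_const)).add continuous_const,
    PH_cont Uᶜ (c1.matrix_mulVec continuous_const), c3.matrix_mulVec continuous_const,
    fun y => ⟨H' y, hs y, fun i hi => ?_, fun i hi => ?_, hs' y⟩⟩
  · have : i ∉ U := fun a => absurd a.2 hi.not_gt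
    show (msk U (Spp y *ᵥ v) + msk Uᶜ v) i = _
    rw [Pi.add_apply, PH_not this, PH_mem (U := Uᶜ) this, zero_add]
  · by_cases a : sec i = sec i₀
    · exact PH_not (U := Uᶜ) (fun b => b ⟨a, hi⟩) _
    · exact hs' y i a

end PhCtx

section Sum

variable {M H : Type} [Fintype M] [DecidableEq M] [Fintype H] [DecidableEq H]

theorem PH_elim (x : M → ℝ) (x' : H → ℝ) : n2 (Sum.elim x x') = n2 x + n2 x' := by
  simp [n2, Fintype.sum_sum_type]

/-- second problem: data `xp` on `H` at the end -/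
theorem PhCtx.P2 {Y Sc : Type} [TopologicalSpace Y] {d : M ⊕ H → ℕ} {sec : M ⊕ H → Sc}
    {R Q : Y → ℝ → Matrix (M ⊕ H) (M ⊕ H) ℝ} {t₁ s₁ s₂ t₂ Bf C₀ : ℝ} {B : Bg}
    (h : PhCtx d sec R Q t₁ s₁ s₂ t₂ Bf) (hC : 1 ≤ C₀) {k : ℕ} {Gs : ℝ}
    (hM : ∀ i, d (Sum.inl i) ≤ k) (hHk : ∀ i, k < d (Sum.inr i))
    (hH : ∀ y w w', B.Rel d (R y) (Q y) s₁ s₂ w w' → ∀ σ, Supp {i | sec i = σ} w →
      ∃ G, Gs ≤ G ∧ Cut {i | k < d i} G C₀ w w') :
    ∃ (Hh : Y → Matrix H H ℝ) (Dh : Y → Matrix M H ℝ) (Mh : Y → Matrix (M ⊕ H) H ℝ),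
      Continuous Hh ∧ Continuous Dh ∧ Continuous Mh ∧ ∀ y,
      ‖Hh y‖ ≤ C₀ * Real.exp (-(Gs + (k + 1) * (s₁ - t₁ + (t₂ - s₂)))) ∧
      ‖Dh y‖ ≤ C₀ * Real.exp (-Bf / 2) ∧ ‖Mh y‖ ≤ C₀ * Real.exp (-Bf / 2) ∧
      ∀ v, B.Rel d (R y) (Q y) t₁ t₂ (Sum.elim 0 (Hh y *ᵥ v), 0)
        (Sum.elim (Dh y *ᵥ v) v, Mh y *ᵥ v) := by
  have e1 : ∀ x : M ⊕ H → ℝ, msk {i | k < d i} x = Sum.elim (0 : M → ℝ) fun j => x (Sum.inr j) := by
    intro x; funext i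
    rcases i with i | i
    · exact PH_not (U := {i | k < d i}) (hM i).not_gt _
    · exact PH_mem (U := {i | k < d i}) (hHk i) _
  have e2 : ∀ x : M ⊕ H → ℝ, msk {i | k < d i}ᶜ x = Sum.elim (fun j => x (Sum.inl j)) 0 := by
    intro x; funext i
    rcases i with i | i
    · exact PH_mem (U := {i | k < d i}ᶜ) (hM i).not_gt _
    · exact PH_not (U := {i | k < d i}ᶜ) (fun a => a (hHk i)) _
  obtain ⟨Spp, Spm, Smp, Smm, c1, -, c3, -, H⟩ := h.scat B {i | k < d i} (by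
    intro y z z' hr h0 h1 h2
    have := (h.est2' hC (hH y) hr h0 h2).1
    rwa [PH_msk_zero h1, mul_zero] at this)
  have H' : ∀ y v, B.Rel d (R y) (Q y) t₁ t₂
      (Sum.elim 0 ((Spp y).submatrix Sum.inr Sum.inr *ᵥ v), 0)
      (Sum.elim ((Spp y).submatrix Sum.inl Sum.inr *ᵥ v) v,
        (Smp y).submatrix id Sum.inr *ᵥ v) := by
    intro y v
    have := H y (Sum.elim 0 v) 0
    rw [e1, e1, e2, e2] at this
    convert this using 2
    · funext i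
      rcases i with i | i <;> simp [Matrix.mulVec, dotProduct, Fintype.sum_sum_type]
    · funext i
      rcases i with i | i <;> simp [Matrix.mulVec, dotProduct, Fintype.sum_sum_type]
    · funext i
      simp [Matrix.mulVec, dotProduct, Fintype.sum_sum_type]
  have est := fun y v => h.est2' hC (hH y) (H' y v) rfl (fun i hi => by
    rcases i with i | i
    · rfl
    · exact absurd (hHk i) hi)
  simp only [e1, e2, PH_elim, PH_n2_zero, zero_add, add_zero, Sum.elim_inl, Sum.elim_inr] at est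
  refine ⟨_, _, _, c1.matrix_submatrix _ _, c1.matrix_submatrix _ _, c3.matrix_submatrix _ _,
    fun y => ⟨opNorm_le_of_n2 (by positivity) fun v => (est y v).1.trans ?_,
      opNorm_le_of_n2 (by positivity) fun v => (est y v).2.1.trans ?_,
      opNorm_le_of_n2 (by positivity) fun v => (est y v).2.2.trans ?_, H' y⟩⟩
  · exact mul_le_mul_of_nonneg_right (PH_sq hC) (n2_nonneg _)
  · exact mul_le_mul_of_nonneg_right (PH_sq' hC) (n2_nonneg _)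
  · exact mul_le_mul_of_nonneg_right (PH_sq' hC) (n2_nonneg _)

end Sum

/-- combinations of columns -/
theorem PH_cols {W : Type} [Fintype W] {B : Bg} {d : ι → ℕ} {R Q : ℝ → Matrix ι ι ℝ} {t₁ t₂ : ℝ}
    {Z Z' N : Matrix ι W ℝ}
    (h : ∀ a, B.Rel d R Q t₁ t₂ (fun i => Z i a, 0) (fun i => Z' i a, fun i => N i a))
    (v : W → ℝ) : B.Rel d R Q t₁ t₂ (Z *ᵥ v, 0) (Z' *ᵥ v, N *ᵥ v) := by
  have := Bg.Rel.sum Finset.univ fun a (_ : a ∈ Finset.univ) => (h a).smul (v a)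
  convert this using 1
  · ext i <;> simp [Prod.fst_sum, Prod.snd_sum, Matrix.mulVec, dotProduct, mul_comm]
  · ext i <;> simp [Prod.fst_sum, Prod.snd_sum, Matrix.mulVec, dotProduct, mul_comm]

theorem PH_mulVec_zero {W κ : Type} [Fintype W] {Z : Matrix κ W ℝ} {v : W → ℝ} {i : κ}
    (h : ∀ a, v a = 0 ∨ Z i a = 0) : (Z *ᵥ v) i = 0 :=
  Finset.sum_eq_zero fun a _ => by rcases h a with b | b <;> simp [b]

theorem PH_mulVec_congr {W κ κ' : Type} [Fintype W] {Z : Matrix κ W ℝ} {Z' : Matrix κ' W ℝ}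
    {v : W → ℝ} {i : κ} {i' : κ'} (h : ∀ a, v a = 0 ∨ Z i a = Z' i' a) :
    (Z *ᵥ v) i = (Z' *ᵥ v) i' :=
  Finset.sum_congr rfl fun a _ => by rcases h a with b | b <;> simp [b]

/-- inverse of a block diagonal matrix with a lower bound on every block -/
theorem PH_inv {W K : Type} [Fintype W] [DecidableEq W] {cl : W → K} {Δ : Matrix W W ℝ} {c : ℝ}
    (hb : ∀ a a', cl a' ≠ cl a → Δ a' a = 0)
    (hl : ∀ a (v : W → ℝ), (∀ a', cl a' ≠ cl a → v a' = 0) → n2 v ≤ c * n2 (Δ *ᵥ v)) :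
    IsUnit Δ.det ∧ ∀ a a', cl a' ≠ cl a → Δ⁻¹ a' a = 0 := by
  have hm : ∀ a v, Δ *ᵥ msk {a' | cl a' = cl a} v = msk {a' | cl a' = cl a} (Δ *ᵥ v) := by
    intro a v
    funext i
    by_cases hi : i ∈ {a' | cl a' = cl a}
    · rw [PH_mem hi]
      refine Finset.sum_congr rfl fun j _ => ?_
      by_cases hj : j ∈ {a' | cl a' = cl a}
      · rw [PH_mem hj]
      · show Δ i j * _ = Δ i j * _
        rw [hb j i fun e => hj (e.symm.trans hi), zero_mul, zero_mul]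
    · rw [PH_not hi]
      refine PH_mulVec_zero fun j => ?_
      by_cases hj : j ∈ {a' | cl a' = cl a}
      · exact Or.inr (hb j i fun e => hi (e.trans hj))
      · exact Or.inl (PH_not hj _)
  have hz : ∀ v, Δ *ᵥ v = 0 → v = 0 := by
    intro v hv
    funext a
    have := hl a (msk {a' | cl a' = cl a} v) fun a' h => PH_not (U := {a' | cl a' = cl a}) h _
    rw [hm, hv, PH_msk0, PH_n2_zero, mul_zero] at this
    exact (PH_mem (U := {a' | cl a' = cl a}) rfl v).symm.trans (congrFun (n2_eq_zero this) a)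
  have hinj : Function.Injective Δ.mulVec := fun v v' e =>
    sub_eq_zero.1 (hz _ (by rw [Matrix.mulVec_sub, e, sub_self]))
  have hu : IsUnit Δ.det :=
    (Matrix.isUnit_iff_isUnit_det Δ).1 (Matrix.mulVec_injective_iff_isUnit.1 hinj)
  refine ⟨hu, fun a a' h => ?_⟩
  have e1 : Δ *ᵥ (fun j => Δ⁻¹ j a) = fun j => (1 : Matrix W W ℝ) j a := by
    rw [← Matrix.mul_nonsing_inv Δ hu]; rfl
  have e2 : msk {a' | cl a' = cl a} (fun j => Δ⁻¹ j a) = fun j => Δ⁻¹ j a := by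
    refine hinj ?_
    rw [hm, e1]
    funext j
    by_cases hj : j ∈ {a' | cl a' = cl a}
    · exact PH_mem hj _
    · rw [PH_not hj, Matrix.one_apply_ne fun e => hj (by rw [e]; rfl)]
  exact (congrFun e2 a').symm.trans (PH_not (U := {a' | cl a' = cl a}) h _)

theorem PH_cont_inv {Y W : Type} [TopologicalSpace Y] [Fintype W] [DecidableEq W]
    {Δ : Y → Matrix W W ℝ} (hc : Continuous Δ) (hu : ∀ y, IsUnit (Δ y).det) :
    Continuous fun y => (Δ y)⁻¹ := by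
  simp only [Matrix.inv_def, Ring.inverse_eq_inv']
  exact (hc.matrix_det.inv₀ fun y => (hu y).ne_zero).smul hc.matrix_adjugate

end Crest.Agent.R202
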