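import Crest.Agent.R202.OdeFlow
import Crest.Agent.R202.OdeNorm
import Crest.Agent.R202.OdePhaseAux

/-!
# R202/OdePhase: long phases with buffers

`[t₁,s₁]` and `[s₂,t₂]` are free (`Sol.free`, factors `e^{Ip} ∈ [e^{l T}, e^{(l+1/6) T}]`,
`e^{Im} ≤ e^{-l T}`).  A `Rel` on `[t₁,t₂]` restricts to a `Rel` on `[s₁,s₂]`; sectors decouple
(`Sol.msk`; `R, Q` vanish in the buffers).  Three boundary value problems (`exists_scat`):
* `U = univ`, data `xm(t₁)`: gives `XdM, XdH, Md` (bounds from `hall`);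
* `U = range inr`, data `xp_H(t₂)`: gives `Hh, Dh, Mh` (sum `hH` over the sectors met by the modes);
* for each column `a`, `U = {sec = sec a, d a < d}`, data `om • e_a`: gives the columns of `XM, XH`
  (upper cut), `Δ` (cluster part at the end) and `D Δ`, `m Δ` (rest at the end).  For a vector `v`
  supported on one cluster the combination of the columns is again such a solution; the lower cut
  bounds the rest by `e^{-5 Bf/6} |Δ v|`, and `hall` gives `|v| ≤ C |Δ v|`.  `Δ` is block diagonal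
  for the clusters, so the cluster pieces of `v` have orthogonal images.  `Δi = Δ⁻¹`,
  `D = (rest) Δ⁻¹`.
-/

open scoped ContDiff Topology Matrix Matrix.Norms.L2Operator
open Set Filter

noncomputable section

namespace Crest.Agent.R202

/-- estimates for a combination of the columns of one cluster -/
theorem PH_clu {M W H Y Sc : Type} [Fintype M] [DecidableEq M] [Fintype W] [DecidableEq W]
    [Fintype H] [DecidableEq H] [TopologicalSpace Y] {d : M ⊕ H → ℕ} {sec : M ⊕ H → Sc}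
    {R Q : Y → ℝ → Matrix (M ⊕ H) (M ⊕ H) ℝ} {t₁ s₁ s₂ t₂ Bf C₀ : ℝ} {B : Bg} {y : Y}
    (h : PhCtx d sec R Q t₁ s₁ s₂ t₂ Bf) (hC : 1 ≤ C₀) {e : W → M} (he : Function.Injective e)
    (hd : ∀ i a, d i = d (Sum.inl (e a)) → ∃ a', Sum.inl (e a') = i) {om : ℕ → ℝ}
    {Z Z' N : Matrix (M ⊕ H) W ℝ} {Δ : Matrix W W ℝ}
    (hr : ∀ a, B.Rel d (R y) (Q y) t₁ t₂ (fun i => Z i a, 0) (fun i => Z' i a, fun i => N i a))
    (hs : ∀ a i, sec i ≠ sec (Sum.inl (e a)) → Z i a = 0)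
    (hZ : ∀ a i, d i ≤ d (Sum.inl (e a)) →
      Z i a = if i = Sum.inl (e a) then om (d (Sum.inl (e a))) else 0)
    (hZ' : ∀ a i, d (Sum.inl (e a)) < d i → Z' i a = 0)
    (hΔ : ∀ a' a, Δ a' a =
      if d (Sum.inl (e a')) = d (Sum.inl (e a)) then Z' (Sum.inl (e a')) a else 0)
    (a : W) {Gp Gm : ℝ}
    (hc : ∀ w w', B.Rel d (R y) (Q y) s₁ s₂ w w' → Cut univ 0 C₀ w w' ∧
      (Supp {i | sec i = sec (Sum.inl (e a))} w →
        Cut {i | d (Sum.inl (e a)) < d i} Gp C₀ w w' ∧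
        Cut {i | d (Sum.inl (e a)) ≤ d i} Gm C₀ w w'))
    {v : W → ℝ} (hv : ∀ a', (sec (Sum.inl (e a')), d (Sum.inl (e a'))) ≠
      (sec (Sum.inl (e a)), d (Sum.inl (e a))) → v a' = 0) :
    n2 (msk {i | d (Sum.inl (e a)) < d i} (Z *ᵥ v)) ≤
        C₀ * Real.exp (-Bf) * (om (d (Sum.inl (e a))) ^ 2 * n2 v) ∧
      n2 (Δ *ᵥ v) ≤ C₀ * Real.exp (2 * (Gp + B.Ip (d (Sum.inl (e a))) t₁ s₁ +
        B.Ip (d (Sum.inl (e a))) s₂ t₂)) * (om (d (Sum.inl (e a))) ^ 2 * n2 v) ∧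
      Real.exp (2 * (Gm + B.Ip (d (Sum.inl (e a))) t₁ s₁ + B.Ip (d (Sum.inl (e a))) s₂ t₂)) *
        (om (d (Sum.inl (e a))) ^ 2 * n2 v) ≤ C₀ * n2 (Δ *ᵥ v) ∧
      n2 (msk {i | d i = d (Sum.inl (e a))}ᶜ (Z' *ᵥ v)) ≤ C₀ * Real.exp (-Bf) * n2 (Δ *ᵥ v) ∧
      n2 (N *ᵥ v) ≤ C₀ * Real.exp (-Bf) * n2 (Δ *ᵥ v) ∧
      om (d (Sum.inl (e a))) ^ 2 * n2 v ≤ (2 * C₀) ^ 2 * n2 (Δ *ᵥ v) := by
  have hv' : ∀ a', v a' = 0 ∨ (sec (Sum.inl (e a')) = sec (Sum.inl (e a)) ∧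
      d (Sum.inl (e a')) = d (Sum.inl (e a))) := fun a' => by
    by_cases c : (sec (Sum.inl (e a')), d (Sum.inl (e a'))) =
      (sec (Sum.inl (e a)), d (Sum.inl (e a)))
    · exact Or.inr (Prod.ext_iff.1 c)
    · exact Or.inl (hv a' c)
  have hf : Function.Injective fun a => (Sum.inl (e a) : M ⊕ H) :=
    fun _ _ c => he (Sum.inl_injective c)
  have hR := PH_cols hr v
  obtain ⟨w, w', hw, hi⟩ := h.split hR
  obtain ⟨c0, c1⟩ := hc w w' hw
  obtain ⟨c1, c2⟩ := c1 (hi.supp fun i hi' => ⟨PH_mulVec_zero fun a' =>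
    (hv' a').imp_right fun c => hs a' i fun c' => hi' (c'.trans c.1), rfl⟩)
  have h1 : ∀ i, d i < d (Sum.inl (e a)) → (Z *ᵥ v) i = 0 := fun i hi' =>
    PH_mulVec_zero fun a' => (hv' a').imp_right fun c => by
      rw [hZ a' i (by rw [c.2]; exact hi'.le), if_neg]
      rintro rfl
      exact hi'.ne c.2
  have h2 : ∀ i, d (Sum.inl (e a)) < d i → (Z' *ᵥ v) i = 0 := fun i hi' =>
    PH_mulVec_zero fun a' => (hv' a').imp_right fun c => hZ' a' i (by rw [c.2]; exact hi')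
  have hout : ∀ (x : M ⊕ H → ℝ) i, (∀ k, Sum.inl (e k) ≠ i) →
      msk {i | d i = d (Sum.inl (e a))} x i = 0 := fun x i hi' =>
    PH_not (U := {i | d i = d (Sum.inl (e a))}) (fun c => (hd i a c).elim hi') _
  have e1 : n2 (msk {i | d i = d (Sum.inl (e a))} (Z *ᵥ v)) =
      om (d (Sum.inl (e a))) ^ 2 * n2 v := by
    rw [PH_comp_eq hf (hout _), n2, n2, Finset.mul_sum]
    refine Finset.sum_congr rfl fun k _ => ?_
    rw [← mul_pow]
    congr 1
    by_cases c : d (Sum.inl (e k)) = d (Sum.inl (e a))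
    · rw [PH_mem (U := {i | d i = d (Sum.inl (e a))}) c, Matrix.mulVec, dotProduct,
        Finset.sum_eq_single k]
      · rw [hZ k _ le_rfl, if_pos rfl, c]
      · intro j _ hj
        rcases hv' j with b | b
        · rw [b, mul_zero]
        · rw [hZ j _ (by rw [c, b.2]), if_neg fun b' => hj (hf b').symm, zero_mul]
      · intro b; exact absurd (Finset.mem_univ _) b
    · rw [PH_not (U := {i | d i = d (Sum.inl (e a))}) c, (hv' k).resolve_right fun b => c b.2,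
        mul_zero]
  have e2 : n2 (msk {i | d i = d (Sum.inl (e a))} (Z' *ᵥ v)) = n2 (Δ *ᵥ v) := by
    rw [PH_comp_eq hf (hout _)]
    congr 1
    funext k
    by_cases c : d (Sum.inl (e k)) = d (Sum.inl (e a))
    · rw [PH_mem (U := {i | d i = d (Sum.inl (e a))}) c]
      exact PH_mulVec_congr fun j => (hv' j).imp_right fun b => by
        rw [hΔ, if_pos (c.trans b.2.symm)]
    · rw [PH_not (U := {i | d i = d (Sum.inl (e a))}) c]
      exact (PH_mulVec_zero fun j => (hv' j).imp_right fun b => by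
        rw [hΔ, if_neg fun b' => c (b'.trans b.2)]).symm
  obtain ⟨u1, u2⟩ := h.estU hC hi c1 rfl h1 h2
  obtain ⟨l1, l2, l3, l4⟩ := h.estL hC hi c2 c0 rfl h1 h2
  simp only [e1, e2] at u1 u2 l1 l2 l3 l4
  exact ⟨u1, u2, l1, l2, l3, l4⟩

theorem PH_single {W : Type} [Fintype W] [DecidableEq W] (a : W) :
    n2 (Pi.single a (1 : ℝ) : W → ℝ) = 1 := by
  simp [n2, Pi.single_apply]

theorem PH_one {W : Type} [Fintype W] [DecidableEq W] (a : W) :
    n2 (fun j => (1 : Matrix W W ℝ) j a) = 1 := by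
  simp [n2, Matrix.one_apply]

theorem PH_le {κ : Type} [Fintype κ] {x y : κ → ℝ} (h : ∀ i, x i ^ 2 ≤ y i ^ 2) : n2 x ≤ n2 y :=
  Finset.sum_le_sum fun i _ => h i

theorem PH_div_sq {x c : ℝ} (hc : 1 ≤ c) : (x / c) ^ 2 ≤ x ^ 2 := by
  rw [div_pow]
  exact div_le_self (sq_nonneg _) (one_le_pow₀ hc)

theorem phase (B : Bg) (M W : Type) [Fintype M] [DecidableEq M] [Fintype W] [DecidableEq W]
    (L' : ℕ) (C₀ : ℝ) (hC₀ : 1 ≤ C₀) :
    ∃ C : ℝ, 1 ≤ C ∧ ∀ (H : Type) [Fintype H] [DecidableEq H] (d : M ⊕ H → ℕ) (e : W → M)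
    (Sc : Type) (sec : M ⊕ H → Sc) (om : ℕ → ℝ),
    (∀ i, 1 ≤ d i) → (∀ i, d (Sum.inl i) ≤ L') → (∀ i, L' < d (Sum.inr i)) →
    Function.Injective e → (∀ i a, d (Sum.inl i) = d (Sum.inl (e a)) → ∃ a', e a' = i) →
    (∀ l, l ≤ L' → 1 ≤ om l ∧ om l ≤ C₀) →
    ∀ (Y : Type) [TopologicalSpace Y] (R Q : Y → ℝ → Matrix (M ⊕ H) (M ⊕ H) ℝ),
    (Continuous fun z : Y × ℝ => R z.1 z.2) → (Continuous fun z : Y × ℝ => Q z.1 z.2) →
    ∀ (t₁ s₁ s₂ t₂ Bf Gs : ℝ) (Gp Gm : W → ℝ), 0 ≤ Bf → t₁ + Bf ≤ s₁ → s₁ ≤ s₂ → s₂ + Bf ≤ t₂ →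
    (∀ y, ∀ r ∈ Icc t₁ s₁ ∪ Icc s₂ t₂, R y r = 0 ∧ Q y r = 0) →
    (∀ y, ∀ r ∈ Icc s₁ s₂, ∀ σ, Dec {i | sec i = σ} (R y r) ∧ Dec {i | sec i = σ} (Q y r)) →
    (∀ a, Gp a ≤ Gs) →
    (∀ y z z', B.Rel d (R y) (Q y) s₁ s₂ z z' → Cut univ 0 C₀ z z' ∧
      (∀ a, Supp {i | sec i = sec (Sum.inl (e a))} z →
        Cut {i | d (Sum.inl (e a)) < d i} (Gp a) C₀ z z' ∧
        Cut {i | d (Sum.inl (e a)) ≤ d i} (Gm a) C₀ z z') ∧
      ∀ σ, Supp {i | sec i = σ} z → ∃ G, Gs ≤ G ∧ Cut {i | L' < d i} G C₀ z z') →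
    ∃ P : PhF Y M H W, P.Good (C * Real.exp (-Bf / 2)) C ∧ ∀ y,
      P.Act B d e om (R y) (Q y) t₁ t₂ y ∧
      (∀ a a', P.Δ y a' a ≠ 0 → sec (Sum.inl (e a')) = sec (Sum.inl (e a)) ∧
        d (Sum.inl (e a')) = d (Sum.inl (e a))) ∧
      (∀ a, ∃ z z', B.Rel d (R y) (Q y) t₁ t₂ z z' ∧ z.2 = 0 ∧
        Supp {i | sec i = sec (Sum.inl (e a))} z ∧
        (∀ i, d i ≤ d (Sum.inl (e a)) →
          z.1 i = if i = Sum.inl (e a) then om (d (Sum.inl (e a))) else 0) ∧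
        (∀ i, d (Sum.inl (e a)) < d i → z'.1 i = 0) ∧
        ∀ a', d (Sum.inl (e a')) = d (Sum.inl (e a)) → P.Δ y a' a = z'.1 (Sum.inl (e a'))) ∧
      ∀ a, Real.exp (2 * (Gm a + B.Ip (d (Sum.inl (e a))) t₁ s₁ + B.Ip (d (Sum.inl (e a))) s₂ t₂))
          ≤ C * n2 (fun a' => P.Δ y a' a) ∧
        n2 (fun a' => P.Δ y a' a) ≤ C * Real.exp
          (2 * (Gp a + B.Ip (d (Sum.inl (e a))) t₁ s₁ + B.Ip (d (Sum.inl (e a))) s₂ t₂)) := by
  have hK : (0 : ℝ) ≤ Fintype.card W := Nat.cast_nonneg _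
  have p2 : C₀ ≤ C₀ ^ 2 := by nlinarith
  have p3 : C₀ ^ 2 ≤ C₀ ^ 3 := by nlinarith
  have k0 : C₀ ^ 3 ≤ 2 * (Fintype.card W + 1) * C₀ ^ 3 := by nlinarith
  have k1 : Fintype.card W * (2 * C₀ ^ 3) ≤ 2 * (Fintype.card W + 1) * C₀ ^ 3 := by nlinarith
  refine ⟨2 * (Fintype.card W + 1) * C₀ ^ 3, by linarith, ?_⟩
  generalize 2 * (Fintype.card W + 1) * C₀ ^ 3 = C at k0 k1
  intro H _ _ d e Sc sec om hd hM hH he hcl hom Y _ R Q hR hQ t₁ s₁ s₂ t₂ Bf Gs Gp Gm hB h1 h2 h3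
    hfree hdec hG hcut
  have h : PhCtx d sec R Q t₁ s₁ s₂ t₂ Bf := ⟨hd, hR, hQ, hB, h1, h2, h3, hfree, hdec⟩
  obtain ⟨X, Md, cX, cMd, H1⟩ := h.P1 hC₀ fun y w w' hw => (hcut y w w' hw).1
  obtain ⟨Hh, Dh, Mh, cHh, cDh, cMh, H2⟩ := h.P2 hC₀ hM hH fun y w w' hw => (hcut y w w' hw).2.2
  choose Zc Zc' Nc cZ cZ' cN H3 using fun a => h.P3 hC₀ (Sum.inl (e a)) (om (d (Sum.inl (e a))))
    (Gp a) fun y w w' hw hs => ((hcut y w w' hw).2.1 a hs).1
  obtain ⟨Z, hZ⟩ : ∃ Z : Y → Matrix (M ⊕ H) W ℝ, ∀ y i a, Z y i a = Zc a y i :=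
    ⟨fun y => Matrix.of fun i a => Zc a y i, fun _ _ _ => rfl⟩
  obtain ⟨Z', hZ'⟩ : ∃ Z' : Y → Matrix (M ⊕ H) W ℝ, ∀ y i a, Z' y i a = Zc' a y i :=
    ⟨fun y => Matrix.of fun i a => Zc' a y i, fun _ _ _ => rfl⟩
  obtain ⟨N, hN⟩ : ∃ N : Y → Matrix (M ⊕ H) W ℝ, ∀ y i a, N y i a = Nc a y i :=
    ⟨fun y => Matrix.of fun i a => Nc a y i, fun _ _ _ => rfl⟩
  replace cZ : ∀ i a, Continuous fun y => Z y i a := fun i a => by
    simp only [hZ]; exact (continuous_apply i).comp (cZ a)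
  replace cZ' : ∀ i a, Continuous fun y => Z' y i a := fun i a => by
    simp only [hZ']; exact (continuous_apply i).comp (cZ' a)
  replace cN : Continuous N := continuous_matrix fun i a => by
    simp only [hN]; exact (continuous_apply i).comp (cN a)
  have r0 : ∀ y a, B.Rel d (R y) (Q y) t₁ t₂ (fun i => Z y i a, 0)
      (fun i => Z' y i a, fun i => N y i a) := fun y a => by
    simp only [hZ, hZ', hN]; exact (H3 a y).1
  have r1 : ∀ y a i, sec i ≠ sec (Sum.inl (e a)) → Z y i a = 0 := fun y a i hi => by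
    rw [hZ]; exact (H3 a y).2.1 i hi
  have r2 : ∀ y a i, d i ≤ d (Sum.inl (e a)) →
      Z y i a = if i = Sum.inl (e a) then om (d (Sum.inl (e a))) else 0 := fun y a i hi => by
    rw [hZ]; exact (H3 a y).2.2.1 i hi
  have r3 : ∀ y a i, d (Sum.inl (e a)) < d i → Z' y i a = 0 := fun y a i hi => by
    rw [hZ']; exact (H3 a y).2.2.2.1 i hi
  have r4 : ∀ y a i, sec i ≠ sec (Sum.inl (e a)) → Z' y i a = 0 := fun y a i hi => by
    rw [hZ']; exact (H3 a y).2.2.2.2 i hi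
  clear hZ hZ' hN H3 Zc Zc' Nc
  obtain ⟨Δ, hΔ⟩ : ∃ Δ : Y → Matrix W W ℝ, ∀ y a' a, Δ y a' a =
      if d (Sum.inl (e a')) = d (Sum.inl (e a)) then Z' y (Sum.inl (e a')) a else 0 :=
    ⟨fun y => Matrix.of fun a' a => _, fun _ _ _ => rfl⟩
  obtain ⟨E, hE⟩ : ∃ E : Y → Matrix M W ℝ, ∀ y i a, E y i a =
      if d (Sum.inl i) = d (Sum.inl (e a)) then 0 else Z' y (Sum.inl i) a :=
    ⟨fun y => Matrix.of fun a' a => _, fun _ _ _ => rfl⟩
  obtain ⟨XM, hXM⟩ : ∃ XM : Y → Matrix M W ℝ, ∀ y i a, XM y i a =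
      if d (Sum.inl (e a)) < d (Sum.inl i) then Z y (Sum.inl i) a / om (d (Sum.inl i)) else 0 :=
    ⟨fun y => Matrix.of fun a' a => _, fun _ _ _ => rfl⟩
  obtain ⟨XdM, hXdM⟩ : ∃ XdM : Y → Matrix M (M ⊕ H) ℝ, ∀ y i j, XdM y i j =
      X y (Sum.inl i) j / om (d (Sum.inl i)) :=
    ⟨fun y => Matrix.of fun a' a => _, fun _ _ _ => rfl⟩
  have cΔ : Continuous Δ := continuous_matrix fun i a => by
    simp only [hΔ]; split_ifs; exacts [cZ' _ _, continuous_const]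
  have cE : Continuous E := continuous_matrix fun i a => by
    simp only [hE]; split_ifs; exacts [continuous_const, cZ' _ _]
  have cXM : Continuous XM := continuous_matrix fun i a => by
    simp only [hXM]; split_ifs; exacts [(cZ _ _).div_const _, continuous_const]
  have cXdM : Continuous XdM := continuous_matrix fun i a => by
    simp only [hXdM]; exact (cX.matrix_elem _ _).div_const _
  have hcl' : ∀ i a, d i = d (Sum.inl (e a)) → ∃ a', Sum.inl (e a') = i := by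
    rintro (i | i) a c
    · obtain ⟨a', rfl⟩ := hcl i a c; exact ⟨a', rfl⟩
    · exact absurd (hM (e a)) (c ▸ (hH i).not_ge)
  have hom1 : ∀ i, 1 ≤ om (d (Sum.inl i)) := fun i => (hom _ (hM i)).1
  have hom2 : ∀ i, om (d (Sum.inl i)) ^ 2 ≤ C₀ ^ 2 := fun i =>
    pow_le_pow_left₀ (by linarith [hom1 i]) (hom _ (hM i)).2 2
  have clu := fun y a => @PH_clu M W H Y Sc _ _ _ _ _ _ _ d sec R Q t₁ s₁ s₂ t₂ Bf C₀ B y h hC₀ e he
    hcl' om _ _ _ _ (r0 y) (r1 y) (r2 y) (r3 y) (hΔ y) a (Gp a) (Gm a)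
    fun w w' hw => ⟨(hcut y w w' hw).1, (hcut y w w' hw).2.1 a⟩
  have blk : ∀ y a a', (sec (Sum.inl (e a')), d (Sum.inl (e a'))) ≠
      (sec (Sum.inl (e a)), d (Sum.inl (e a))) → Δ y a' a = 0 := fun y a a' c => by
    rw [hΔ]
    split_ifs with c'
    · exact r4 y a _ fun c'' => c (Prod.ext c'' c')
    · rfl
  have inv := fun y => PH_inv (cl := fun a => (sec (Sum.inl (e a)), d (Sum.inl (e a))))
    (c := (2 * C₀) ^ 2) (blk y) fun a v hv =>
      (le_mul_of_one_le_left (n2_nonneg v) (one_le_pow₀ (hom1 _))).trans (clu y a hv).2.2.2.2.2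
  have cΔi := PH_cont_inv cΔ fun y => (inv y).1
  have hinv : ∀ y, (Δ y)⁻¹ * Δ y = 1 := fun y => Matrix.nonsing_inv_mul _ (inv y).1
  have hcol : ∀ y a, n2 (Δ y *ᵥ fun j => (Δ y)⁻¹ j a) = 1 := fun y a => by
    rw [← PH_one a, ← Matrix.mul_nonsing_inv _ (inv y).1]; rfl
  have cluI := fun y a => clu y a ((inv y).2 a)
  have cluS := fun y a => clu y a (v := Pi.single a 1) fun a' c =>
    Pi.single_eq_of_ne (fun c' => c (by rw [c'])) _
  simp only [hcol, mul_one] at cluI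
  simp only [PH_single, mul_one, Matrix.mulVec_single_one] at cluS
  have x0 := Real.exp_pos (-Bf / 2)
  have q1 : C₀ * Real.exp (-Bf / 2) ≤ C * Real.exp (-Bf / 2) :=
    mul_le_mul_of_nonneg_right (by linarith) x0.le
  have q2 : ∀ c, c ≤ 2 * C₀ ^ 3 →
      Fintype.card W * (c * Real.exp (-Bf / 2)) ≤ C * Real.exp (-Bf / 2) := fun c hc => by
    rw [← mul_assoc]
    exact mul_le_mul_of_nonneg_right ((mul_le_mul_of_nonneg_left hc hK).trans k1) x0.le
  have q3 : ∀ y a, n2 (msk {i | d (Sum.inl (e a)) < d i} ((Z y).col a)) ≤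
      (C₀ ^ 2 * Real.exp (-Bf / 2)) ^ 2 := fun y a => by
    refine (cluS y a).1.trans ((mul_le_mul (PH_sq' hC₀) (hom2 _) (sq_nonneg _) (sq_nonneg _)).trans
      (le_of_eq (by ring)))
  refine ⟨⟨XM, fun y => (Z y).submatrix Sum.inr id, fun y => E y * (Δ y)⁻¹, fun y => N y * (Δ y)⁻¹,
    Δ, fun y => (Δ y)⁻¹, XdM, fun y => (X y).submatrix Sum.inr id, Md, Hh, Dh, Mh⟩,
    ⟨cXM, continuous_matrix fun i a => cZ _ _, cE.matrix_mul cΔi, cN.matrix_mul cΔi, cΔ, cΔi, cXdM,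
      cX.matrix_submatrix _ _, cMd, cHh, cDh, cMh, hinv, fun y => ?_, fun y => ?_, fun y => ?_,
      fun y => ?_, fun y => ?_, fun y => ?_, fun y => ?_, fun y => (H1 y).2.1.trans q1,
      fun y => ?_, fun y => (H2 y).2.1.trans q1, fun y => (H2 y).2.2.1.trans q1⟩,
    fun y => ⟨fun T d' η c => ?_, fun a a' c => Prod.ext_iff.1 (not_imp_comm.1 (blk y a a') c),
      fun a => ⟨_, _, r0 y a, rfl, fun i hi => ⟨r1 y a i hi, rfl⟩, r2 y a, r3 y a,
        fun a' c => (hΔ y a' a).trans (if_pos c)⟩, fun a => ⟨?_, ?_⟩⟩⟩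
  · refine (opNorm_le_of_col (by positivity) fun a => le_trans ?_ (q3 y a)).trans
      (q2 _ (by linarith))
    refine le_trans (PH_le fun i => ?_) (PH_comp_le Sum.inl_injective _)
    show XM y i a ^ 2 ≤ _
    rw [hXM]
    split_ifs with c
    · rw [PH_mem (U := {i | d (Sum.inl (e a)) < d i}) c]; exact PH_div_sq (hom1 i)
    · simpa using sq_nonneg _
  · refine (opNorm_le_of_col (by positivity) fun a => le_trans ?_ (q3 y a)).trans
      (q2 _ (by linarith))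
    refine le_trans (PH_le fun i => ?_) (PH_comp_le Sum.inr_injective _)
    rw [PH_mem (U := {i | d (Sum.inl (e a)) < d i}) ((hM _).trans_lt (hH i))]
    exact le_rfl
  · refine (opNorm_le_of_col (by positivity) fun a =>
      le_trans ?_ ((cluI y a).2.2.2.1.trans (PH_sq' hC₀))).trans (q2 _ (by linarith))
    refine le_trans (PH_le fun i => le_of_eq ?_) (PH_comp_le Sum.inl_injective _)
    congr 1
    show (E y *ᵥ fun j => (Δ y)⁻¹ j a) i = _
    have hv : ∀ j, (Δ y)⁻¹ j a = 0 ∨ d (Sum.inl (e j)) = d (Sum.inl (e a)) := fun j =>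
      or_iff_not_imp_right.2 fun c => (inv y).2 a j fun c' => c (Prod.ext_iff.1 c').2
    by_cases c : d (Sum.inl i) = d (Sum.inl (e a))
    · rw [PH_not (U := {i | d i = d (Sum.inl (e a))}ᶜ) fun b => b c]
      exact PH_mulVec_zero fun j => (hv j).imp_right fun b => by rw [hE, if_pos (c.trans b.symm)]
    · rw [PH_mem (U := {i | d i = d (Sum.inl (e a))}ᶜ) c]
      exact PH_mulVec_congr fun j => (hv j).imp_right fun b => by
        rw [hE, if_neg fun b' => c (b'.trans b)]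
  · exact (opNorm_le_of_col (by positivity) fun a =>
      (cluI y a).2.2.2.2.1.trans (PH_sq' hC₀)).trans (q2 _ (by linarith))
  · refine (opNorm_le_of_col (c := 2 * C₀) (by positivity) fun a =>
      (le_mul_of_one_le_left (n2_nonneg _) (one_le_pow₀ (hom1 _))).trans
        (cluI y a).2.2.2.2.2).trans ((mul_le_mul_of_nonneg_left (by linarith) hK).trans k1)
  · refine (opNorm_le_of_n2 (by positivity) fun v => le_trans ?_ ((H1 y).1 v)).trans q1
    refine le_trans (PH_le fun i => ?_) (PH_comp_le Sum.inl_injective _)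
    refine le_trans (le_of_eq ?_) (PH_div_sq (hom1 i))
    congr 1
    simp only [Matrix.mulVec, dotProduct, hXdM, Finset.sum_div]
    exact Finset.sum_congr rfl fun j _ => by ring
  · exact (opNorm_le_of_n2 (by positivity) fun v =>
      le_trans (PH_comp_le Sum.inr_injective (X y *ᵥ v)) ((H1 y).1 v)).trans q1
  · have a1 : ‖Δ y‖ ≤ Fintype.card W *
        (C₀ ^ 2 * Real.exp (Gs + (L' + 1 / 6) * (s₁ - t₁ + (t₂ - s₂)))) := by
      refine opNorm_le_of_col (by positivity) fun a => (cluS y a).2.1.trans ?_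
      have b1 := h.ip1_le B (hM (e a))
      have b2 := h.ip2_le B (hM (e a))
      have b3 := hG a
      refine (mul_le_mul ((mul_le_mul_of_nonneg_left (Real.exp_le_exp.2 (show _ ≤
        2 * (Gs + (L' + 1 / 6) * (s₁ - t₁ + (t₂ - s₂))) by linarith)) (by linarith)).trans
        (PH_sq hC₀)) (hom2 _) (sq_nonneg _) (sq_nonneg _)).trans (le_of_eq (by ring))
    refine (mul_le_mul (H2 y).1 a1 (norm_nonneg _) (by positivity)).trans
      (le_trans ?_ (q2 (C₀ ^ 3) (by linarith)))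
    have a2 : Real.exp (-(Gs + (L' + 1) * (s₁ - t₁ + (t₂ - s₂)))) *
        Real.exp (Gs + (L' + 1 / 6) * (s₁ - t₁ + (t₂ - s₂))) ≤ Real.exp (-Bf / 2) := by
      rw [← Real.exp_add]; exact Real.exp_le_exp.2 (by linarith)
    refine le_trans (le_of_eq ?_) (mul_le_mul_of_nonneg_left
      (mul_le_mul_of_nonneg_left a2 (by positivity)) hK)
    ring
  · have A1 : Matrix.diagonal (fun i => om (d (Sum.inl i))) * (inc e + XM y) =
        (Z y).submatrix Sum.inl id := by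
      ext i a
      have := hom1 i
      rw [Matrix.diagonal_mul, Matrix.add_apply, hXM, inc, Matrix.submatrix_apply, id]
      by_cases c : d (Sum.inl (e a)) < d (Sum.inl i)
      · rw [if_pos c, if_neg fun b => c.ne (by rw [b])]; field_simp; ring
      · rw [if_neg c, r2 y a _ (not_lt.1 c)]
        by_cases b : i = e a <;> simp [b]
    have A2 : Matrix.diagonal (fun i => om (d (Sum.inl i))) * XdM y =
        (X y).submatrix Sum.inl id := by
      ext i a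
      have := hom1 i
      rw [Matrix.diagonal_mul, hXdM, Matrix.submatrix_apply, id]
      field_simp
    have A3 : (inc e + E y * (Δ y)⁻¹) * Δ y = (Z' y).submatrix Sum.inl id := by
      rw [Matrix.add_mul, Matrix.mul_assoc, hinv, Matrix.mul_one]
      ext i a
      rw [Matrix.add_apply, hE, Matrix.mul_apply, Matrix.submatrix_apply, id]
      by_cases c : d (Sum.inl i) = d (Sum.inl (e a))
      · obtain ⟨a', rfl⟩ := hcl i a c
        rw [if_pos c, Finset.sum_eq_single a']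
        · rw [hΔ, if_pos c]; simp [inc]
        · intro j _ hj
          rw [inc, if_neg fun b => hj (he b).symm, zero_mul]
        · intro b; exact absurd (Finset.mem_univ _) b
      · rw [if_neg c, Finset.sum_eq_zero, zero_add]
        intro j _
        by_cases b : i = e j
        · rw [hΔ, if_neg (b ▸ c), mul_zero]
        · rw [inc, if_neg b, zero_mul]
    have A4 : N y * (Δ y)⁻¹ * Δ y = N y := by rw [Matrix.mul_assoc, hinv, Matrix.mul_one]
    have A5 : ∀ i v, (Z' y *ᵥ v) (Sum.inr i) = 0 := fun i v =>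
      PH_mulVec_zero fun a => Or.inr (r3 y a _ ((hM _).trans_lt (hH i)))
    have := ((PH_cols (r0 y) fun a => T a c).add ((H1 y).2.2 fun i => d' i c)).add
      ((H2 y).2.2.2 fun i => η i c)
    dsimp only
    rw [Matrix.mul_add, ← Matrix.mul_assoc, ← Matrix.mul_assoc, A1, A2, A3, A4]
    convert this using 1
    · refine Prod.ext (funext fun i => ?_) (funext fun i => by simp [fam])
      rcases i with i | i
      · exact (add_zero _).symm
      · rfl
    · refine Prod.ext (funext fun i => ?_) rfl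
      rcases i with i | i
      · simp [fam, Matrix.mul_apply, Matrix.mulVec, dotProduct]
      · simp [fam, A5]
  · refine le_trans (le_mul_of_one_le_right (Real.exp_pos _).le (one_le_pow₀ (hom1 _)))
      ((cluS y a).2.2.1.trans (mul_le_mul_of_nonneg_right (by linarith) (n2_nonneg _)))
  · refine (cluS y a).2.1.trans ((mul_le_mul_of_nonneg_left (hom2 _) (by positivity)).trans
      (le_trans (le_of_eq ?_) (mul_le_mul_of_nonneg_right k0 (Real.exp_pos _).le)))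
    ring

end Crest.Agent.R202
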