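import Crest.Agent.R202.OdeResAux2
import Crest.Agent.R72.Deriv

/-!
# R202/OdeResAux3: monotonicity of the resolvent Lyapunov function and its values at the endpoints
-/

open scoped ContDiff Topology Matrix
open Set Filter

noncomputable section

namespace Crest.Agent.R202

variable {ι : Type} [Fintype ι] [DecidableEq ι]

/-- the Lyapunov function -/
def resAux_F (M κ : ℝ) (A : Matrix ι ι ℝ) (y z : ι → ℝ) : ℝ :=
  M * (y ⬝ᵥ y - κ * ((A⁻¹ *ᵥ y) ⬝ᵥ y) - (A⁻¹ *ᵥ z) ⬝ᵥ z) + y ⬝ᵥ z +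
    κ * (((A - κ • (1 : Matrix ι ι ℝ))⁻¹ *ᵥ y) ⬝ᵥ z)

omit [DecidableEq ι] in
theorem resAux_dot {x y : ℝ → ι → ℝ} {x' y' : ι → ℝ} {r : ℝ} (hx : HasDerivAt x x' r)
    (hy : HasDerivAt y y' r) : HasDerivAt (fun s => x s ⬝ᵥ y s) (x' ⬝ᵥ y r + x r ⬝ᵥ y') r := by
  simp only [dotProduct, ← Finset.sum_add_distrib]
  exact HasDerivAt.fun_sum fun i _ => (hasDerivAt_pi.1 hx i).fun_mul (hasDerivAt_pi.1 hy i)

theorem resAux_inv {X : ℝ → Matrix ι ι ℝ} {X' : Matrix ι ι ℝ} {y : ℝ → ι → ℝ} {y' : ι → ℝ} {r : ℝ}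
    (h : ∀ i j, HasDerivAt (fun s => X s i j) (X' i j) r) (hX : IsUnit (X r).det)
    (hy : HasDerivAt y y' r) : ∃ a', HasDerivAt (fun s => (X s)⁻¹ *ᵥ y s) a' r ∧
      X r *ᵥ a' = y' - X' *ᵥ ((X r)⁻¹ *ᵥ y r) := by
  refine ⟨(-((X r)⁻¹ * X' * (X r)⁻¹)) *ᵥ y r + (X r)⁻¹ *ᵥ y', hasDerivAt_pi.2 fun i => ?_, ?_⟩
  · exact resAux_dot (x := fun s => (X s)⁻¹ i)
      (hasDerivAt_pi.2 fun j => R72.hasDerivAt_inv_apply h hX i j) hy
  · simp only [Matrix.mulVec_add, Matrix.mulVec_mulVec, Matrix.mulVec_neg, ← Matrix.mul_assoc,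
      Matrix.mul_nonsing_inv _ hX, Matrix.one_mul, Matrix.one_mulVec, Matrix.neg_mulVec]
    abel

theorem resAux_unit {X : Matrix ι ι ℝ} (h : ∀ x, X *ᵥ x = 0 → n2 x ≤ 0) : IsUnit X.det := by
  refine Ne.isUnit fun h0 => ?_
  obtain ⟨v, hv, hv'⟩ := Matrix.exists_mulVec_eq_zero_iff.2 h0
  exact hv (n2_eq_zero (h v hv'))

theorem resAux_solve {X : Matrix ι ι ℝ} (hX : IsUnit X.det) (y : ι → ℝ) : X *ᵥ X⁻¹ *ᵥ y = y := by
  rw [Matrix.mulVec_mulVec, Matrix.mul_nonsing_inv _ hX, Matrix.one_mulVec]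

theorem resAux_shift (A : Matrix ι ι ℝ) (κ : ℝ) (x : ι → ℝ) :
    (A - κ • (1 : Matrix ι ι ℝ)) *ᵥ x = A *ᵥ x - κ • x := by
  rw [Matrix.sub_mulVec, Matrix.smul_mulVec, Matrix.one_mulVec]

theorem resAux_units {d : ι → ℕ} (hd : ∀ i, 1 ≤ d i) {A : Matrix ι ι ℝ} {L κ : ℝ}
    (hpos : ∀ x, nV d x ≤ 2 * (x ⬝ᵥ A *ᵥ x)) (hgap : ∀ x, n2 x ≤ L ^ 2 * n2 (A *ᵥ x - κ • x)) :
    IsUnit A.det ∧ IsUnit (A - κ • (1 : Matrix ι ι ℝ)).det := by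
  refine ⟨resAux_unit fun x hx => ?_, resAux_unit fun x hx => ?_⟩
  · have := (resAux_le_nV hd x).trans (hpos x)
    rwa [hx, dotProduct_zero, mul_zero] at this
  · have := hgap x
    rw [← resAux_shift, hx] at this
    simpa [n2] using this

/-- the Lyapunov function increases -/
theorem resAux_mono {d : ι → ℕ} (hd : ∀ i, 1 ≤ d i) {L ε M b s t : ℝ} {m κ κ' e₁ e₂ : ℝ → ℝ}
    (hL : 1 ≤ L) (hM : M = 11 * L ^ 9) (hb : 1 ≤ L * b) (hε0 : 0 ≤ ε)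
    (hε : ε * (8448 * L ^ 14) ≤ 1) (hst : s ≤ t) {A Q' : ℝ → Matrix ι ι ℝ} {y z : ℝ → ι → ℝ}
    (h : ∀ r ∈ Icc s t, (b ≤ m r ∧ m r ≤ L ∧ 0 ≤ κ r ∧ κ r ≤ L ∧ |e₁ r| ≤ 2 * L * ε ∧ |e₂ r| ≤ ε ∧
      |κ' r| ≤ L * ε) ∧ ((A r)ᵀ = A r ∧ (∀ x, nV d x ≤ 2 * (x ⬝ᵥ A r *ᵥ x)) ∧
      (∀ x, n2 x ≤ L ^ 2 * n2 (A r *ᵥ x - κ r • x)) ∧
      ∀ x y, 2 * |x ⬝ᵥ Q' r *ᵥ y| ≤ ε * (nV d x + nV d y)) ∧
      (∀ i j, HasDerivAt (fun x => A x i j) (Q' r i j) r) ∧ HasDerivAt κ (κ' r) r ∧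
      HasDerivAt y (z r) r ∧
      HasDerivAt z (A r *ᵥ y r - κ r • y r - m r • z r - e₁ r • y r - e₂ r • z r) r) :
    resAux_F M (κ s) (A s) (y s) (z s) ≤ resAux_F M (κ t) (A t) (y t) (z t) := by
  have key : ∀ r ∈ Icc s t, ∃ D, 0 ≤ D ∧
      HasDerivAt (fun r => resAux_F M (κ r) (A r) (y r) (z r)) D r := by
    intro r hr
    obtain ⟨⟨h1, h2, h3, h4, h5, h6, h7⟩, ⟨hA, hpos, hgap, hQ⟩, dA, dκ, dy, dz⟩ := h r hr
    obtain ⟨u1, u2⟩ := resAux_units hd hpos hgap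
    have dB : ∀ i j, HasDerivAt (fun x => (A x - κ x • (1 : Matrix ι ι ℝ)) i j)
        ((Q' r - κ' r • (1 : Matrix ι ι ℝ)) i j) r := fun i j =>
      (dA i j).fun_sub (dκ.mul_const _)
    obtain ⟨a', da, ha'⟩ := resAux_inv dA u1 dy
    obtain ⟨c', dc, hc'⟩ := resAux_inv dA u1 dz
    obtain ⟨w', dw, hw'⟩ := resAux_inv (X := fun x => A x - κ x • (1 : Matrix ι ι ℝ)) dB u2 dy
    rw [resAux_shift, resAux_shift] at hw'
    have hw := resAux_solve u2 (y r)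
    have hv := resAux_solve u2 (z r)
    rw [resAux_shift] at hw hv
    exact ⟨_, resAux_alg hd hL hM hb h1 h2 h3 h4 hε0 hε h5 h6 h7 hA hpos hgap hQ
      (resAux_solve u1 _) (resAux_solve u1 _) hw hv rfl ha' hc' hw',
      (((((resAux_dot dy dy).fun_sub (dκ.fun_mul (resAux_dot da dy))).fun_sub
        (resAux_dot dc dz)).const_mul M).fun_add (resAux_dot dy dz)).fun_add
        (dκ.fun_mul (resAux_dot dw dz))⟩
  choose! D hD0 hD using key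
  exact monotoneOn_of_hasDerivWithinAt_nonneg (convex_Icc s t)
    (fun r hr => (hD r hr).continuousAt.continuousWithinAt)
    (fun r hr => (hD r (interior_subset hr)).hasDerivWithinAt)
    (fun r hr => hD0 r (interior_subset hr)) (left_mem_Icc.2 hst) (right_mem_Icc.2 hst) hst

omit [DecidableEq ι] in
theorem resAux_pos {d : ι → ℕ} {Λ : ι → ℝ} {Q : Matrix ι ι ℝ} [DecidableEq ι]
    (hΛ : ∀ i, (d i : ℝ) ^ 2 ≤ Λ i) (hQ : Pb d (1 / 2) 0 Q) (x : ι → ℝ) :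
    nV d x ≤ 2 * (x ⬝ᵥ (Matrix.diagonal Λ + Q) *ᵥ x) := by
  have h1 := neg_abs_le (x ⬝ᵥ Q *ᵥ x)
  have h2 := hQ.2 x x
  have h3 : nV d x ≤ x ⬝ᵥ Matrix.diagonal Λ *ᵥ x := by
    simp only [nV, dotProduct, Matrix.mulVec_diagonal]
    exact Finset.sum_le_sum fun i _ => by
      linarith [mul_le_mul_of_nonneg_right (hΛ i) (sq_nonneg (x i))]
  rw [Matrix.add_mulVec, dotProduct_add]
  linarith

/-- extension of the gap to the complement of `S` -/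
theorem resAux_gap {d : ι → ℕ} {Λ l : ι → ℝ} {Q : Matrix ι ι ℝ} {S : Set ι} {L g κ : ℝ}
    (hL : 1 ≤ L) (hg : 1 ≤ L * g) (hκ : κ ≤ L) (h1 : ∀ i ∈ S, Λ i = l i)
    (h2 : ∀ i, i ∉ S → (d i : ℝ) ^ 2 + (L + 1) ≤ Λ i) (hQ : Pb d (1 / 2) 0 Q) (hS : Dec S Q)
    (hgap : ∀ v : ι → ℝ, (∀ i, i ∉ S → v i = 0) →
      g ^ 2 * n2 v ≤ n2 (fun i => (l i - κ) * v i + (Q *ᵥ v) i)) (x : ι → ℝ) :
    n2 x ≤ L ^ 2 * n2 ((Matrix.diagonal Λ + Q) *ᵥ x - κ • x) := by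
  obtain ⟨v, hv⟩ : ∃ v, v = (Matrix.diagonal Λ + Q) *ᵥ x - κ • x := ⟨_, rfl⟩
  have hv' : ∀ i, v i = (Λ i - κ) * x i + (Q *ᵥ x) i := fun i => by
    simp only [hv, Matrix.add_mulVec, Pi.sub_apply, Pi.add_apply, Matrix.mulVec_diagonal,
      Pi.smul_apply, smul_eq_mul]
    ring
  have hS' : Dec Sᶜ Q := fun i j h => hS i j (by simp only [mem_compl_iff] at h; tauto)
  have a1 := hgap (msk S x) fun i hi => indicator_of_notMem hi _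
  have a2 : (fun i => (l i - κ) * msk S x i + (Q *ᵥ msk S x) i) = msk S v := by
    funext i
    rw [Bg.OdeBasic_mulVec_msk hS]
    by_cases hi : i ∈ S
    · simp only [msk, indicator_of_mem hi, hv', h1 i hi]
    · simp [msk, hi]
  have a3 : n2 (msk Sᶜ x) + nV d (msk Sᶜ x) + msk Sᶜ x ⬝ᵥ Q *ᵥ msk Sᶜ x ≤ msk Sᶜ x ⬝ᵥ msk Sᶜ v := by
    rw [Bg.OdeBasic_mulVec_msk hS']
    simp only [n2, nV, dotProduct, ← Finset.sum_add_distrib]
    refine Finset.sum_le_sum fun i _ => ?_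
    by_cases hi : i ∈ S
    · simp [msk, hi]
    · simp only [msk, indicator_of_mem (mem_compl hi), hv']
      linarith [mul_le_mul_of_nonneg_right (show (d i : ℝ) ^ 2 + 1 ≤ Λ i - κ by linarith [h2 i hi])
        (sq_nonneg (x i))]
  have a4 := hQ.2 (msk Sᶜ x) (msk Sᶜ x)
  have a5 := neg_abs_le (msk Sᶜ x ⬝ᵥ Q *ᵥ msk Sᶜ x)
  have a6 := resAux_sq 1 (msk Sᶜ x) (msk Sᶜ v)
  have a7 := resAux_nV_nonneg d (msk Sᶜ x)
  have a8 : n2 (msk Sᶜ v) ≤ L ^ 2 * n2 (msk Sᶜ v) :=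
    le_mul_of_one_le_left (n2_nonneg _) (one_le_pow₀ hL)
  have a9 : n2 (msk S x) ≤ (L * g) ^ 2 * n2 (msk S x) :=
    le_mul_of_one_le_left (n2_nonneg _) (one_le_pow₀ hg)
  rw [a2] at a1
  have a10 := mul_le_mul_of_nonneg_left a1 (sq_nonneg L)
  rw [← hv, ← n2_msk_add S x, ← n2_msk_add S v]
  linarith

omit [DecidableEq ι] in
theorem resAux_msk (U : Set ι) (E : ℝ) (x : ι → ℝ) [DecidablePred (· ∈ U)] :
    E ^ 2 * n2 (msk U x) = ∑ i, if i ∈ U then (E * x i) ^ 2 else 0 := by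
  simp only [n2, Finset.mul_sum]
  refine Finset.sum_congr rfl fun i _ => ?_
  by_cases hi : i ∈ U <;> simp [msk, hi, mul_pow]

/-- the Lyapunov function for a diagonal matrix -/
theorem resAux_end (B : Bg) {d : ι → ℕ} (hd : ∀ i, 1 ≤ d i) {L ε M γ E r : ℝ} {Λ u p : ι → ℝ}
    {S U : Set ι} (hL : 1 ≤ L) (hM : M = 11 * L ^ 9) (hγ : 0 ≤ γ) (hm : B.b + 2 * γ ≤ L)
    (hκL : γ * (B.b + γ) ≤ L) (hε0 : 0 ≤ ε) (hε : ε * (8448 * L ^ 14) ≤ 1)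
    (hlim : ∀ l, 1 ≤ l → rt B.b (lam B.β₀ l) - ε ≤ B.bp l r ∧
      -(rt B.b (lam B.β₀ l) + B.b) - ε ≤ B.bm l r)
    (hΛ : ∀ i ∈ S, Λ i = lam B.β₀ (d i))
    (hpos : ∀ x, nV d x ≤ 2 * (x ⬝ᵥ Matrix.diagonal Λ *ᵥ x))
    (hgap : ∀ x, n2 x ≤ L ^ 2 * n2 (Matrix.diagonal Λ *ᵥ x - (γ * (B.b + γ)) • x))
    (hU : ∀ i ∈ S, i ∈ U ↔ γ * (B.b + γ) < lam B.β₀ (d i)) (hS : ∀ i, i ∉ S → u i = 0 ∧ p i = 0)
    {X Y : ι → ℝ} (hX : ∀ i, X i = B.xp1 (d i) r (u i) (p i))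
    (hY : ∀ i, Y i = B.xm1 (d i) r (u i) (p i)) {F : ℝ}
    (hF : F = resAux_F M (γ * (B.b + γ)) (Matrix.diagonal Λ) (E • u) (E • p - γ • E • u)) :
    E ^ 2 * n2 (msk U X) ≤
        16 * L ^ 3 * (F + 9 * L * (26 * M * L ^ 3) ^ 2 * (E ^ 2 * (n2 (msk Uᶜ X) + n2 Y))) ∧
      E ^ 2 * (n2 (msk Uᶜ X) + n2 Y) ≤
        16 * L ^ 3 * (9 * L * (26 * M * L ^ 3) ^ 2 * (E ^ 2 * n2 (msk U X)) - F) := by
  classical
  obtain ⟨κ, hκ⟩ : ∃ κ, κ = γ * (B.b + γ) := ⟨_, rfl⟩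
  obtain ⟨C, hC⟩ : ∃ C, C = 9 * L * (26 * M * L ^ 3) ^ 2 := ⟨_, rfl⟩
  rw [← hκ] at hκL hgap hU hF
  obtain ⟨u1, u2⟩ := resAux_units hd hpos hgap
  obtain ⟨y, hy⟩ : ∃ y, y = E • u := ⟨_, rfl⟩
  obtain ⟨z, hz⟩ : ∃ z, z = E • p - γ • y := ⟨_, rfl⟩
  rw [← hy, ← hz] at hF
  have ha := resAux_solve u1 y
  have hc := resAux_solve u1 z
  have hw := resAux_solve u2 y
  rw [resAux_shift] at hw
  rw [resAux_F] at hF
  generalize (Matrix.diagonal Λ)⁻¹ *ᵥ y = a at ha hF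
  generalize (Matrix.diagonal Λ)⁻¹ *ᵥ z = c at hc hF
  generalize (Matrix.diagonal Λ - κ • (1 : Matrix ι ι ℝ))⁻¹ *ᵥ y = w at hw hF
  obtain ⟨q, hq⟩ : ∃ q : ι → ℝ, ∀ i,
    q i = M * (y i * y i - κ * (a i * y i) - c i * z i) + y i * z i + κ * (w i * z i) :=
    ⟨_, fun _ => rfl⟩
  have hF' : F = ∑ i, q i := by
    simp only [hF, hq, dotProduct, Finset.mul_sum, ← Finset.sum_add_distrib,
      ← Finset.sum_sub_distrib]
  have key : ∀ i, (if i ∈ U then (E * X i) ^ 2 else 0) ≤ 16 * L ^ 3 *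
      (q i + C * ((if i ∈ Uᶜ then (E * X i) ^ 2 else 0) + (E * Y i) ^ 2)) ∧
      (if i ∈ Uᶜ then (E * X i) ^ 2 else 0) + (E * Y i) ^ 2 ≤ 16 * L ^ 3 *
        (C * (if i ∈ U then (E * X i) ^ 2 else 0) - q i) := by
    intro i
    by_cases hi : i ∈ S
    · have hl : (1 : ℝ) ≤ d i := by exact_mod_cast hd i
      have hb := B.b_pos
      have g1 : 1 ≤ L * |lam B.β₀ (d i) - κ| := by
        have h1 := hgap (Pi.single i 1)
        have h2 : Matrix.diagonal Λ *ᵥ (Pi.single i 1 : ι → ℝ) - κ • Pi.single i 1 =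
            (lam B.β₀ (d i) - κ) • Pi.single i 1 := by
          funext j
          by_cases hj : j = i
          · subst hj; simp [hΛ j hi]
          · simp [hj]
        have h3 : n2 (Pi.single i 1 : ι → ℝ) = 1 := by simp [resAux_n2]
        rw [h2, OdeBasic_n2_smul, h3, mul_one, ← sq_abs (lam B.β₀ (d i) - κ), ← mul_pow] at h1
        exact (one_le_sq_iff₀ (by positivity)).1 h1
      have k := resAux_mode (X := E * X i) (Y := E * Y i) hL hM hb hγ hm hκ hκL hε0 hε hl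
        (show (d i : ℝ) ^ 2 ≤ lam B.β₀ (d i) by unfold lam; nlinarith [B.b_le])
        (rt_sq (B.OdeBasic_lam_nonneg _)) (B.le_a _) ((B.a_le _).trans (by linarith)) g1
        (hlim _ (hd i)).1 (B.bp_le _ _) (hlim _ (hd i)).2 (B.bm_le _ _)
        (by linarith [B.gap_ge (d i) r])
        (show Real.sqrt (d i) * y i = _ by
          rw [hy, hX, hY, ← mul_add, ← B.sqrt_mul_u, Pi.smul_apply, smul_eq_mul]; ring)
        (show Real.sqrt (d i) * z i = _ by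
          have e1 := B.sqrt_mul_u (d i) r (u i) (p i)
          have e2 := B.sqrt_mul_p (d i) r (u i) (p i)
          simp only [hz, hy, hX, hY, Pi.sub_apply, Pi.smul_apply, smul_eq_mul]
          linear_combination E * e2 - γ * E * e1)
        (show _ * a i = y i by rw [← ha, Matrix.mulVec_diagonal, hΛ i hi])
        (show _ * c i = z i by rw [← hc, Matrix.mulVec_diagonal, hΛ i hi])
        (show _ * w i = y i by
          rw [← hw, Pi.sub_apply, Matrix.mulVec_diagonal, hΛ i hi, Pi.smul_apply, smul_eq_mul]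
          ring) (hq i)
      rw [← hC] at k
      by_cases hu : i ∈ U
      · simpa only [hu, mem_compl_iff, not_true, if_true, if_false, zero_add] using
          k.2.1 ((hU i hi).1 hu)
      · simp only [hu, mem_compl_iff, not_false_iff, if_true, if_false, mul_zero, zero_sub]
        exact ⟨mul_nonneg (by positivity) (by linarith [k.1]), k.2.2 fun h => hu ((hU i hi).2 h)⟩
    · obtain ⟨h1, h2⟩ := hS i hi
      simp [hq, hz, hy, hX, hY, h1, h2, Bg.xp1, Bg.xm1]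
  have hY' : E ^ 2 * n2 Y = ∑ i, (E * Y i) ^ 2 := by simp only [n2, Finset.mul_sum, mul_pow]
  rw [← hC, mul_add (E ^ 2), resAux_msk, resAux_msk, hY', hF']
  simp only [Finset.mul_sum, ← Finset.sum_add_distrib, ← Finset.sum_sub_distrib]
  exact ⟨Finset.sum_le_sum fun i _ => (key i).1, Finset.sum_le_sum fun i _ => (key i).2⟩

end Crest.Agent.R202
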