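import Crest.Agent.R202.OdeFlow
import Crest.Agent.R202.OdeResAux3

/-!
# R202/OdeRes: the adiabatic (resolvent) cut

First for `S = univ`; the general case follows by restricting to the subtype `S` (the solution
stays supported in `S` by `Sol.msk` and `Sol.unique`).  Put `A = diag λ + Q`, `κ = γ (b + γ)`,
`y = e^{-Γ} u`, `z = e^{-Γ} p - γ y = y'`; then
`z' = (A - κ) y - (b + 2γ) z - ((β - b) γ + γ') y - (β - b) z`.
With `T = A⁻¹`, `V = (A - κ)⁻¹` and a large constant `M = M(b, γM, g)` let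
`𝓕 = M (|y|² - κ ⟨T y, y⟩ - ⟨T z, z⟩) + ⟨y, z⟩ + κ ⟨V y, z⟩`   (`1 + κ V = A V`).
For frozen coefficients
`𝓕' = 2M (b+2γ) ⟨Tz,z⟩ + ⟨A V z,z⟩ + ⟨A y,y⟩ - (b+2γ) ⟨A V y,z⟩ ≥ c (⟨Ay,y⟩ + |z|²)`
(diagonalise `A`; eigenvalue `α ≥ 1/2`, `|α - κ| ≥ g`; large `α`: `α/(α-κ) ∈ [1,2]`; bounded `α`:
`M` large).  The terms with `Q', γ', β - b` are `≤ C ε (⟨Ay,y⟩ + |z|²)`: `T' = -T Q' T`,
`V' = -V (Q' - κ') V`, `nV (T v) ≤ 4 |v|²`-type and `nV (V v) ≤ C |v|²` bounds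
(`⟨Aw,w⟩ = ⟨v,w⟩ + κ|w|²` for `w = V v`).  So `𝓕(s) ≤ 𝓕(t)`.  At `s` and `t` the form is a sum
over modes of `q = M ((α-κ) y² - z²)/α + α/(α-κ) y z` with `√d y = X₊ + X₋`,
`√d z = (bp-γ) X₊ + (bm-γ) X₋`, `X± = e^{-Γ} (xp, xm)`.  On the exact directions `z = μ y`,
`μ ∈ {a-γ, -(a+b)-γ}`, `q = μ y² (M (b+2γ)/α + α/(α-κ))`; hence for `α > κ`:
`c X₊² - C X₋² ≤ q ≤ C X₊² - c X₋²`, and for `α < κ` `q` is negative definite,
`-C (X₊²+X₋²) ≤ q ≤ -c (X₊²+X₋²)`, uniformly in the mode, when `bp, bm` are `ε`-close to the roots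
(`Bg.lim`).

The formal proof avoids the subtype and the diagonalisation: outside `S` the diagonal is shifted
up, so that `A` has the gap on all vectors, and all the bounds are obtained from the quadratic form.
-/

open scoped ContDiff Topology Matrix
open Set Filter

noncomputable section

namespace Crest.Agent.R202

theorem cut_res (B : Bg) (γM g : ℝ) (hg : 0 < g) : ∃ ε > 0, ∃ C T : ℝ, 1 ≤ C ∧
    ∀ (ι : Type) [Fintype ι] [DecidableEq ι] (d : ι → ℕ), (∀ i, 1 ≤ d i) →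
    ∀ (Q Q' : ℝ → Matrix ι ι ℝ) (s t : ℝ) (γ γ' Γ : ℝ → ℝ) (S U : Set ι) (z z' : St ι),
    T ≤ s → s ≤ t →
    (∀ r ∈ Icc s t, (Q r)ᵀ = Q r ∧ (∀ i j, HasDerivAt (fun x => Q x i j) (Q' r i j) r) ∧
      Pb d (1 / 2) 0 (Q r) ∧ Pb d ε 0 (Q' r) ∧ Dec S (Q r) ∧ HasDerivAt Γ (γ r) r ∧
      HasDerivAt γ (γ' r) r ∧ 0 ≤ γ r ∧ γ r ≤ γM ∧ |γ' r| ≤ ε ∧
      ∀ v : ι → ℝ, (∀ i, i ∉ S → v i = 0) → g ^ 2 * n2 v
        ≤ n2 (fun i => (lam B.β₀ (d i) - γ r * (B.b + γ r)) * v i + (Q r *ᵥ v) i)) →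
    Q s = 0 → Q t = 0 → (∀ i ∈ S, i ∈ U ↔ γ s * (B.b + γ s) < lam B.β₀ (d i)) →
    (∀ i ∈ S, i ∈ U ↔ γ t * (B.b + γ t) < lam B.β₀ (d i)) →
    B.Rel d 0 Q s t z z' → Supp S z → Cut U (Γ t - Γ s) C z z' := by
  classical
  have hb := B.b_pos
  obtain ⟨G, hG0, hG⟩ : ∃ G : ℝ, 0 ≤ G ∧ γM ≤ G := ⟨max γM 0, le_max_right _ _, le_max_left _ _⟩
  obtain ⟨L, hL, hL1, hL2, hLg, hLb⟩ : ∃ L : ℝ, 1 ≤ L ∧ B.b + 2 * G ≤ L ∧ G * (B.b + G) ≤ L ∧
      1 ≤ L * g ∧ 1 ≤ L * B.b := by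
    have h1 : 0 ≤ G * (B.b + G) := by positivity
    have h2 := inv_pos.2 hg
    have h3 := inv_pos.2 hb
    refine ⟨1 + (B.b + 2 * G) + G * (B.b + G) + g⁻¹ + B.b⁻¹, by linarith, by linarith, by linarith,
      ?_, ?_⟩
    · exact (inv_le_iff_one_le_mul₀ hg).1 (by linarith)
    · exact (inv_le_iff_one_le_mul₀ hb).1 (by linarith)
  have hL0 : 0 < L := by linarith
  obtain ⟨ε, hε0, hε⟩ : ∃ ε : ℝ, 0 < ε ∧ ε * (8448 * L ^ 14) ≤ 1 :=
    ⟨(8448 * L ^ 14)⁻¹, by positivity, (inv_mul_cancel₀ (by positivity)).le⟩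
  obtain ⟨M, hM⟩ : ∃ M, M = 11 * L ^ 9 := ⟨_, rfl⟩
  obtain ⟨T₁, hT₁⟩ := B.lim ε hε0
  obtain ⟨T₂, hT₂⟩ := eventually_atTop.1 (B.β_lim.eventually (ge_mem_nhds (lt_add_of_pos_right _ hε0)))
  have hM1 : 1 ≤ M := by rw [hM]; linarith [one_le_pow₀ (n := 9) hL]
  have hC : 1 ≤ 16 * L ^ 3 * (9 * L * (26 * M * L ^ 3) ^ 2) := by
    have h1 : 1 ≤ L ^ 3 := one_le_pow₀ hL
    have h2 : 1 ≤ 26 * M * L ^ 3 := one_le_mul_of_one_le_of_one_le (by linarith) h1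
    exact one_le_mul_of_one_le_of_one_le (by linarith)
      (one_le_mul_of_one_le_of_one_le (by linarith) (one_le_pow₀ h2))
  refine ⟨ε, hε0, _, max T₁ T₂, hC, ?_⟩
  intro ι _ _ d hd Q Q' s t γ γ' Γ S U z z' hT hst h hQs hQt hUs hUt ⟨u, p, hsol, hz, hz'⟩ hsupp
  have hs := left_mem_Icc.2 hst
  have ht := right_mem_Icc.2 hst
  -- the solution stays supported in `S`
  have hS : ∀ r ∈ Icc s t, ∀ i, i ∉ S → u r i = 0 ∧ p r i = 0 := by
    intro r hr i hi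
    have h1 := hsol.msk (S := S) (fun _ _ _ _ _ => rfl) fun r hr => (h r hr).2.2.2.2.1
    have h2 := hsol.unique hd continuousOn_const
      (continuousOn_pi.2 fun i => continuousOn_pi.2 fun j r hr =>
        ((h r hr).2.1 i j).continuousAt.continuousWithinAt) h1 hs (by
          rw [Bg.st_msk]
          rw [← hz] at hsupp
          refine Prod.ext (funext fun i => ?_) (funext fun i => ?_)
          · by_cases hi : i ∈ S
            · exact (indicator_of_mem hi _).symm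
            · exact (hsupp i hi).1.trans (indicator_of_notMem hi _).symm
          · by_cases hi : i ∈ S
            · exact (indicator_of_mem hi _).symm
            · exact (hsupp i hi).2.trans (indicator_of_notMem hi _).symm) r hr
    exact ⟨(congrFun h2.1 i).trans (indicator_of_notMem hi _),
      (congrFun h2.2 i).trans (indicator_of_notMem hi _)⟩
  obtain ⟨Λ, hΛ⟩ : ∃ Λ : ι → ℝ, ∀ i, Λ i = lam B.β₀ (d i) + if i ∈ S then 0 else L + 1 :=
    ⟨_, fun _ => rfl⟩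
  have hl : ∀ i, (d i : ℝ) ^ 2 ≤ lam B.β₀ (d i) := fun i => by
    unfold lam
    linarith [mul_nonneg (Nat.cast_nonneg (α := ℝ) (d i)) (hb.le.trans B.b_le)]
  have hΛ1 : ∀ i ∈ S, Λ i = lam B.β₀ (d i) := fun i hi => by rw [hΛ, if_pos hi, add_zero]
  have hΛ2 : ∀ i, i ∉ S → (d i : ℝ) ^ 2 + (L + 1) ≤ Λ i := fun i hi => by
    rw [hΛ, if_neg hi]; linarith [hl i]
  have hΛ3 : ∀ i, (d i : ℝ) ^ 2 ≤ Λ i := fun i => by
    by_cases hi : i ∈ S
    · exact hΛ1 i hi ▸ hl i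
    · linarith [hΛ2 i hi]
  have hγ : ∀ r ∈ Icc s t, 0 ≤ γ r ∧ B.b + 2 * γ r ≤ L ∧ γ r * (B.b + γ r) ≤ L := fun r hr => by
    obtain ⟨-, -, -, -, -, -, -, h1, h2, -⟩ := h r hr
    have h3 := h2.trans hG
    exact ⟨h1, by linarith, le_trans (by gcongr) hL2⟩
  have hA : ∀ r ∈ Icc s t, (∀ x, nV d x ≤ 2 * (x ⬝ᵥ (Matrix.diagonal Λ + Q r) *ᵥ x)) ∧
      ∀ x, n2 x ≤ L ^ 2 * n2 ((Matrix.diagonal Λ + Q r) *ᵥ x - (γ r * (B.b + γ r)) • x) :=
    fun r hr => ⟨resAux_pos hΛ3 (h r hr).2.2.1, resAux_gap hL hLg (hγ r hr).2.2 hΛ1 hΛ2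
      (h r hr).2.2.1 (h r hr).2.2.2.2.1 (h r hr).2.2.2.2.2.2.2.2.2.2⟩
  have mono := resAux_mono hd (m := fun r => B.b + 2 * γ r) (κ := fun r => γ r * (B.b + γ r))
    (κ' := fun r => γ' r * (B.b + 2 * γ r)) (e₁ := fun r => (B.β r - B.b) * γ r + γ' r)
    (e₂ := fun r => B.β r - B.b) hL hM hLb hε0.le hε hst
    (A := fun r => Matrix.diagonal Λ + Q r) (Q' := Q') (y := fun r => Real.exp (-Γ r) • u r)
    (z := fun r => Real.exp (-Γ r) • p r - γ r • Real.exp (-Γ r) • u r) (by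
      intro r hr
      obtain ⟨h1, h2, h3⟩ := hγ r hr
      obtain ⟨q1, q2, -, q3, -, dΓ, dγ, -, -, q4, -⟩ := h r hr
      have e2 : |B.β r - B.b| ≤ ε := by
        rw [abs_of_nonneg (sub_nonneg.2 (B.β_ge r))]
        linarith [hT₂ r (((le_max_right _ _).trans hT).trans hr.1)]
      have e3 : |γ r| ≤ L := by rw [abs_of_nonneg h1]; linarith
      have e4 : |B.b + 2 * γ r| ≤ L := by rwa [abs_of_nonneg (by linarith)]
      have dE : HasDerivAt (fun r => Real.exp (-Γ r)) (Real.exp (-Γ r) * -γ r) r := dΓ.fun_neg.exp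
      have du := hsol.du r hr
      have dp := hsol.dp r hr
      have dy : HasDerivAt (fun r => Real.exp (-Γ r) • u r)
          (Real.exp (-Γ r) • p r - γ r • Real.exp (-Γ r) • u r) r := by
        refine (dE.fun_smul du).congr_deriv (funext fun i => ?_)
        simp only [Pi.zero_apply, Matrix.zero_mulVec, add_zero, Pi.add_apply, Pi.sub_apply,
          Pi.smul_apply, smul_eq_mul]
        ring
      refine ⟨⟨by linarith, h2, by positivity, h3, ?_, e2, ?_⟩, ⟨?_, (hA r hr).1, (hA r hr).2, q3.2⟩,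
        fun i j => (q2 i j).const_add _, ?_, dy, ?_⟩
      · linarith [abs_add_le ((B.β r - B.b) * γ r) (γ' r), resAux_amul e2 e3,
          le_mul_of_one_le_left hε0.le hL]
      · exact (resAux_amul q4 e4).trans_eq (mul_comm _ _)
      · rw [Matrix.transpose_add, Matrix.diagonal_transpose, q1]
      · refine (dγ.fun_mul (dγ.const_add B.b)).congr_deriv ?_
        ring
      · refine ((dE.fun_smul dp).fun_sub (dγ.fun_smul dy)).congr_deriv (funext fun i => ?_)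
        have e5 : Λ i * u r i = lam B.β₀ (d i) * u r i := by
          by_cases hi : i ∈ S
          · rw [hΛ1 i hi]
          · rw [(hS r hr i hi).1, mul_zero, mul_zero]
        simp only [Matrix.mulVec_smul, Matrix.add_mulVec, Matrix.mulVec_diagonal, Pi.add_apply,
          Pi.sub_apply, Pi.smul_apply, smul_eq_mul, e5]
        ring)
  have hAs := hA s hs
  have hAt := hA t ht
  simp only [hQs, hQt, add_zero] at mono hAs hAt
  have k1 := (resAux_end B hd (E := Real.exp (-Γ s)) (X := z.1) (Y := z.2) hL hM (hγ s hs).1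
    (hγ s hs).2.1 (hγ s hs).2.2 hε0.le hε (hT₁ s ((le_max_left _ _).trans hT)) hΛ1 hAs.1 hAs.2 hUs
    (hS s hs) (fun i => by rw [← hz]; rfl) (fun i => by rw [← hz]; rfl) rfl).1
  have k2 := (resAux_end B hd (E := Real.exp (-Γ t)) (X := z'.1) (Y := z'.2) hL hM (hγ t ht).1
    (hγ t ht).2.1 (hγ t ht).2.2 hε0.le hε (hT₁ t (((le_max_left _ _).trans hT).trans hst)) hΛ1
    hAt.1 hAt.2 hUt (hS t ht) (fun i => by rw [← hz']; rfl) (fun i => by rw [← hz']; rfl) rfl).2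
  have k3 := mul_le_mul_of_nonneg_left mono (show 0 ≤ 16 * L ^ 3 by positivity)
  have e : Real.exp (-Γ s) ^ 2 = Real.exp (-Γ t) ^ 2 * Real.exp (2 * (Γ t - Γ s)) := by
    rw [sq, sq, ← Real.exp_add, ← Real.exp_add, ← Real.exp_add]
    congr 1
    ring
  rw [e] at k1
  refine le_of_mul_le_mul_left ?_ (pow_pos (Real.exp_pos (-Γ t)) 2)
  linarith

end Crest.Agent.R202
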