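import Crest.Agent.R202.OdeSharpAux

/-!
# R202/OdeSharp: slow perturbations act on a degree cluster through the projected generator

`ξ = e^{-Ip l s ·} xp` on the cluster `{d = l}` solves `ξ' = Z ξ + err`,
`|err| ≤ C ε δ |ξ| + C δ √N`, `N = e^{-2Γ} (nW (xp off the cluster) + nW xm)` (test with a vector
supported on the cluster and use `Pb`).  `lyap` with `γ = bp l`, `U = {l < d}`, `L = {d < l}`,
`g = 1/(3(l+1))` gives `∫ N ≤ C (δ² (t-s) sup|ξ|² + |xm s|²)`, so
`δ ∫ √N ≤ C (δ sup|ξ| + √δ |xm s|)`; bootstrap `sup|ξ|`, then Gronwall for `ξ - G ξ(s)`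
(`G ξ(s)` stays supported on the cluster as `Z` is block diagonal).
-/

open scoped ContDiff Topology Matrix
open Set Filter

noncomputable section

namespace Crest.Agent.R202

theorem sharp (B : Bg) (l n : ℕ) (Λ : ℝ) : ∃ δ₀ > 0, ∃ C : ℝ, 0 ≤ C ∧
    ∀ (ι W : Type) [Fintype ι] [DecidableEq ι] [Fintype W] [DecidableEq W] (d : ι → ℕ)
    (e : W → ι), (∀ i, 1 ≤ d i) → Fintype.card W ≤ n → Function.Injective e →
    (∀ i, d i = l → ∃ a, e a = i) →
    ∀ (R Q : ℝ → Matrix ι ι ℝ) (Z G : ℝ → Matrix W W ℝ) (s t δ ε : ℝ) (z z' : St ι),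
    s ≤ t → 0 ≤ δ → δ ≤ δ₀ → δ * (t - s) ≤ Λ → 0 ≤ ε →
    (∀ r ∈ Icc s t, Pb d δ (R r) (Q r) ∧ Blk (fun a => d (e a)) (Z r) ∧
      (∀ a a', |Z r a a'| ≤ Λ * δ) ∧
      (∀ a a', HasDerivAt (fun x => G x a a') ((Z r * G r) a a') r) ∧
      ∀ a a', d (e a) = l → d (e a') = l →
        |(Q r (e a) (e a') - B.bm l r * B.bp l r * R r (e a) (e a')) / (B.bp l r - B.bm l r)
          - Z r a a'| ≤ ε * δ) →
    G s = 1 → B.Rel d R Q s t z z' → msk {i | l < d i} z'.1 = 0 → msk {i | d i < l} z.1 = 0 →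
    Real.sqrt (n2 ((fun a => if d (e a) = l then Real.exp (-B.Ip l s t) * z'.1 (e a) else 0)
        - G t *ᵥ fun a => if d (e a) = l then z.1 (e a) else 0))
      ≤ C * (ε + δ) * Real.sqrt (n2 (msk {i | d i = l} z.1))
        + C * Real.sqrt δ * Real.sqrt (n2 z.2) ∧
    n2 (msk {i | l < d i} z.1)
        + Real.exp (-2 * B.Ip l s t) * (n2 (msk {i | d i < l} z'.1) + n2 z'.2)
      ≤ C * (δ * n2 (msk {i | d i = l} z.1) + n2 z.2) := by
  classical
  obtain ⟨δ₁, hδ₁, C₁, hC₁, hly⟩ := lyap B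
  have hl0 : (0 : ℝ) ≤ l := Nat.cast_nonneg _
  have hn0 : (0 : ℝ) ≤ n := Nat.cast_nonneg _
  set g : ℝ := 1 / (3 * (l + 1)) with hg
  have hg0 : 0 < g := by positivity
  have hg1 : g * (3 * (l + 1)) = 1 := by rw [hg]; field_simp
  have hg2 : g ≤ 1 := by nlinarith
  have hc1 := sharp_c1_nonneg B l
  have hc2 := sharp_c2_nonneg B l
  set c1 := sharp_c1 B l with hc1d
  set c2 := sharp_c2 B l with hc2d
  have hΛa := abs_nonneg Λ
  set K₁ : ℝ := n * |Λ| + n * (c2 + |Λ|) with hK₁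
  have hK₁0 : 0 ≤ K₁ := by positivity
  set E₁ : ℝ := Real.exp (K₁ * |Λ|) with hE₁
  have hE₁0 : 0 < E₁ := Real.exp_pos _
  set C4 : ℝ := C₁ * l * n * |Λ| / g with hC4
  have hC40 : 0 ≤ C4 := by positivity
  set A : ℝ := 2 / g * (1 + C4) with hA
  have hA0 : 0 ≤ A := by positivity
  set D : ℝ := (|Λ| + A) / 2 with hD
  have hD0 : 0 ≤ D := by positivity
  clear_value D A C4 E₁ K₁ c2 c1 g
  obtain ⟨C, hC0, hC⟩ := sharp_arith (E := E₁) (c := c1) (D := D) (a := n * |Λ|)
    (c3 := c2 + |Λ|) (q := Real.sqrt n) (C4 := C4) hE₁0.le hc1 hD0 (by positivity)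
    (by positivity) (Real.sqrt_nonneg _) hC40
  have hden : 0 < 2 * (E₁ * c1 * D + 1) := by positivity
  refine ⟨min (δ₁ * g) (min 1 (1 / (2 * (E₁ * c1 * D + 1)))), by positivity, C, hC0, ?_⟩
  intro ι W _ _ _ _ d e hd hW he hsurj R Q Z G s t δ ε z z' hst hδ hδ₀ hΛ hε hyp hG hrel hz' hz
  have hδa : δ ≤ δ₁ * g := hδ₀.trans (min_le_left _ _)
  have hδb : δ ≤ 1 := hδ₀.trans ((min_le_right _ _).trans (min_le_left _ _))
  have hδc : δ * (2 * (E₁ * c1 * D + 1)) ≤ 1 :=
    (le_div_iff₀ hden).1 (hδ₀.trans ((min_le_right _ _).trans (min_le_right _ _)))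
  have hΛ0 : 0 ≤ Λ := (mul_nonneg hδ (sub_nonneg.2 hst)).trans hΛ
  have hΛe : |Λ| = Λ := abs_of_nonneg hΛ0
  rw [← hΛe] at hΛ
  obtain ⟨u, p, hsol, hs, ht⟩ := hrel
  set ε' := min ε (c2 + |Λ|) with hε'
  have hε'0 : 0 ≤ ε' := le_min hε (by positivity)
  have hε'1 : ε' ≤ ε := min_le_left _ _
  have hε'2 : ε' ≤ c2 + |Λ| := min_le_right _ _
  clear_value ε'
  set U : Set ι := {i | l < d i} with hU
  set L : Set ι := {i | d i < l} with hL
  set Γ : ℝ → ℝ := B.Ip l s with hΓ
  have hΓs : Γ s = 0 := by simp [hΓ, Bg.Ip]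
  have hdΓ : ∀ r, HasDerivAt Γ (B.bp l r) r := fun r => B.hasDerivAt_Ip l s r
  have hT : ∀ j, j ∈ U ∪ L ↔ d j ≠ l := fun j => by
    simp only [hU, hL, mem_union, mem_ofPred_eq]; omega
  set xp := B.xp d u p with hxp
  set xm := B.xm d u p with hxm
  set N : ℝ → ℝ := fun r => Real.exp (-2 * Γ r) * (nW d (msk (U ∪ L) (xp r)) + nW d (xm r))
    with hN
  have hN0 : ∀ r, 0 ≤ N r := fun r =>
    mul_nonneg (Real.exp_pos _).le (add_nonneg (sharp_nW_nonneg _ _) (sharp_nW_nonneg _ _))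
  have hcp : ∀ i, ContinuousOn (fun r => xp r i) (Icc s t) := fun i r hr =>
    (hsol.hasDerivAt_xp hr i).continuousAt.continuousWithinAt
  have hcm : ∀ i, ContinuousOn (fun r => xm r i) (Icc s t) := fun i r hr =>
    (hsol.hasDerivAt_xm hr i).continuousAt.continuousWithinAt
  have hΓc : Continuous Γ := continuous_iff_continuousAt.2 fun r => (hdΓ r).continuousAt
  have hNc : ContinuousOn N (Icc s t) := by
    refine (Real.continuous_exp.comp (continuous_const.mul hΓc)).continuousOn.mul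
      (ContinuousOn.add ?_ ?_)
    · refine continuousOn_finsetSum _ fun i _ => continuousOn_const.mul (ContinuousOn.pow ?_ 2)
      by_cases hi : i ∈ U ∪ L
      · simpa only [msk, indicator_of_mem hi] using hcp i
      · simpa only [msk, indicator_of_notMem hi] using continuousOn_const
    · exact continuousOn_finsetSum _ fun i _ => continuousOn_const.mul ((hcm i).pow 2)
  -- the cluster
  set ξ : ℝ → W → ℝ := fun r a => if d (e a) = l then Real.exp (-Γ r) * xp r (e a) else 0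
    with hξ
  set ξ' : ℝ → W → ℝ := fun r a => if d (e a) = l then Real.exp (-Γ r) * (Real.sqrt l *
    ((Q r *ᵥ u r) (e a) - B.bm l r * (R r *ᵥ p r) (e a)) / (B.bp l r - B.bm l r)) else 0 with hξ'
  have hdξ : ∀ r ∈ Icc s t, HasDerivAt ξ (ξ' r) r := by
    intro r hr
    refine hasDerivAt_pi.2 fun a => ?_
    by_cases ha : d (e a) = l
    · simp only [hξ, hξ', ha, if_true]
      have h1 := (hdΓ r).neg.exp.mul (hsol.hasDerivAt_xp hr (e a))
      rw [ha] at h1
      have h2 : HasDerivAt (fun x => Real.exp (-Γ x) * xp x (e a)) _ r := h1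
      refine h2.congr_deriv ?_
      simp only [Pi.neg_apply]
      ring
    · simp only [hξ, hξ', ha, if_false]
      exact hasDerivAt_const _ _
  have hZb : ∀ r ∈ Icc s t, ∀ v, ‖Z r *ᵥ v‖ ≤ n * (|Λ| * δ) * ‖v‖ := fun r hr v =>
    sharp_mulVec_le hW (by positivity) (fun a a' => hΛe.symm ▸ (hyp r hr).2.2.1 a a') v
  have herr : ∀ r ∈ Icc s t,
      ‖ξ' r - Z r *ᵥ ξ r‖ ≤ n * (ε' * δ) * ‖ξ r‖ + c1 * δ * Real.sqrt (N r) := by
    intro r hr
    obtain ⟨hPb, hBlk, hZ, -, hK⟩ := hyp r hr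
    set M : Matrix W W ℝ := Matrix.of fun a a' => if d (e a) = l ∧ d (e a') = l then
      (Q r (e a) (e a') - B.bm l r * B.bp l r * R r (e a) (e a')) / (B.bp l r - B.bm l r)
        - Z r a a' else 0 with hM
    have hMb : ∀ a a', |M a a'| ≤ ε' * δ := by
      intro a a'
      simp only [hM, Matrix.of_apply]
      split_ifs with h
      · rw [hε', min_mul_of_nonneg _ _ hδ]
        refine le_min (hK a a' h.1 h.2) ((abs_sub _ _).trans ?_)
        have := sharp_entry B hPb hδ r h.1 h.2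
        rw [← hc2d] at this
        have := hZ a a'
        rw [hΛe]
        linarith
      · simp only [abs_zero]; positivity
    have hM1 := sharp_mulVec_le hW (by positivity) hMb (ξ r)
    have hsq : Real.sqrt (N r) = Real.exp (-Γ r)
        * Real.sqrt (nW d (msk (U ∪ L) (xp r)) + nW d (xm r)) := by
      have : Real.exp (-2 * Γ r) = Real.exp (-Γ r) ^ 2 := by
        rw [← Real.exp_nat_mul]; congr 1; push_cast; ring
      simp only [hN]
      rw [this, Real.sqrt_mul (sq_nonneg _), Real.sqrt_sq (Real.exp_pos _).le]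
    have hM2 : ‖ξ' r - Z r *ᵥ ξ r - M *ᵥ ξ r‖ ≤ c1 * δ * Real.sqrt (N r) := by
      refine (pi_norm_le_iff_of_nonneg (by positivity)).2 fun a => ?_
      rw [Real.norm_eq_abs]
      by_cases ha : d (e a) = l
      · have h1 := sharp_err B hd hPb hδ r (u r) (p r) (xp r) (xm r)
          (fun j => B.sqrt_mul_u _ _ _ _) (fun j => B.sqrt_mul_p _ _ _ _) hT ha
        rw [sharp_sum he hsurj, ← hc1d] at h1
        have h2 : (ξ' r - Z r *ᵥ ξ r - M *ᵥ ξ r) a = Real.exp (-Γ r) * (Real.sqrt l *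
            ((Q r *ᵥ u r) (e a) - B.bm l r * (R r *ᵥ p r) (e a)) / (B.bp l r - B.bm l r)
            - ∑ a', if d (e a') = l then (Q r (e a) (e a') - B.bm l r * B.bp l r
              * R r (e a) (e a')) / (B.bp l r - B.bm l r) * xp r (e a') else 0) := by
          rw [mul_sub, Finset.mul_sum]
          simp only [Pi.sub_apply, hξ', ha, if_true]
          rw [sub_sub]
          congr 1
          simp only [Matrix.mulVec, dotProduct, ← Finset.sum_add_distrib]
          refine Finset.sum_congr rfl fun a' _ => ?_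
          simp only [hM, hξ, Matrix.of_apply, ha, true_and]
          split_ifs <;> ring
        rw [h2, abs_mul, abs_of_pos (Real.exp_pos _), hsq]
        calc _ ≤ Real.exp (-Γ r) * (c1 * δ
              * Real.sqrt (nW d (msk (U ∪ L) (xp r)) + nW d (xm r))) :=
              mul_le_mul_of_nonneg_left h1 (Real.exp_pos _).le
          _ = _ := by ring
      · have h2 : (ξ' r - Z r *ᵥ ξ r - M *ᵥ ξ r) a = 0 := by
          simp only [Pi.sub_apply, hξ', ha, if_false]
          rw [sub_sub, zero_sub, neg_eq_zero]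
          simp only [Matrix.mulVec, dotProduct, ← Finset.sum_add_distrib]
          refine Finset.sum_eq_zero fun a' _ => ?_
          simp only [hM, hξ, Matrix.of_apply, ha, false_and, if_false]
          split_ifs with h
          · rw [hBlk a a' (by simpa only [h] using ha)]; ring
          · ring
        rw [h2, abs_zero]; positivity
    calc ‖ξ' r - Z r *ᵥ ξ r‖ = ‖M *ᵥ ξ r + (ξ' r - Z r *ᵥ ξ r - M *ᵥ ξ r)‖ := by
          congr 1; abel
      _ ≤ _ := (norm_add_le _ _).trans (add_le_add hM1 hM2)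
  -- the maximum of `ξ`
  have hξc : ContinuousOn ξ (Icc s t) := fun r hr => (hdξ r hr).continuousAt.continuousWithinAt
  obtain ⟨r₀, hr₀, hmax⟩ := isCompact_Icc.exists_isMaxOn (nonempty_Icc.2 hst) hξc.norm
  set m := ‖ξ r₀‖ with hm
  have hm0 : 0 ≤ m := norm_nonneg _
  have hmle : ∀ r ∈ Icc s t, ‖ξ r‖ ≤ m := fun r hr => hmax hr
  clear_value m
  -- the Lyapunov estimate
  have hlyap := hly ι d hd R Q s t u p U L (B.bp l) Γ g δ hst hsol
    (Set.disjoint_left.2 fun i h1 h2 => by simp only [hU, hL, mem_ofPred_eq] at h1 h2; omega)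
    hg0 hg2 hδ hδa (fun r hr => ⟨hdΓ r, hl0.trans (B.bp_ge l r), (hyp r hr).1, fun i hi => by
      have h1 : (l : ℝ) + 1 ≤ d i := by exact_mod_cast hi
      have h2 := sharp_bp_le B l r
      have h3 := B.bp_ge (d i) r
      have h4 : 0 ≤ (1 - g) * (d i - (l + 1)) := mul_nonneg (by linarith) (by linarith)
      linarith, fun i hi => by
      have h1 : (d i : ℝ) + 1 ≤ l := by exact_mod_cast hi
      have h2 := sharp_bp_le B (d i) r
      have h3 := B.bp_ge l r
      have h4 : 0 ≤ g * (l + 1 - d i) := mul_nonneg hg0.le (by linarith)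
      linarith⟩)
  have hcl : |∫ r in s..t, Real.exp (-2 * Γ r) * nW d (msk (U ∪ L)ᶜ (xp r))|
      ≤ l * (n * m ^ 2) * (t - s) := by
    have := intervalIntegral.norm_integral_le_of_norm_le_const (a := s) (b := t)
      (C := l * (n * m ^ 2))
      (f := fun r => Real.exp (-2 * Γ r) * nW d (msk (U ∪ L)ᶜ (xp r))) (fun r hr => by
        have hr' : r ∈ Icc s t := by
          rw [uIoc_of_le hst] at hr
          exact Ioc_subset_Icc_self hr
        have e1 : Real.exp (-2 * Γ r) * nW d (msk (U ∪ L)ᶜ (xp r)) = l * n2 (ξ r) := by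
          have e0 : Real.exp (-2 * Γ r) = Real.exp (-Γ r) ^ 2 := by
            rw [← Real.exp_nat_mul]; congr 1; push_cast; ring
          have e2 : nW d (msk (U ∪ L)ᶜ (xp r))
              = ∑ j, if d j = l then (l : ℝ) * xp r j ^ 2 else 0 := by
            refine Finset.sum_congr rfl fun j _ => ?_
            by_cases hj : d j = l
            · have : j ∈ (U ∪ L)ᶜ := fun h => (hT j).1 h hj
              simp only [msk, indicator_of_mem this, hj, if_true]
            · have : j ∉ (U ∪ L)ᶜ := fun h => h ((hT j).2 hj)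
              simp only [msk, indicator_of_notMem this, hj, if_false]
              ring
          rw [e2, sharp_sum he hsurj, e0, n2, Finset.mul_sum, Finset.mul_sum]
          refine Finset.sum_congr rfl fun a _ => ?_
          simp only [hξ]
          split_ifs <;> ring
        rw [e1, Real.norm_eq_abs, abs_of_nonneg (mul_nonneg hl0 (n2_nonneg _))]
        refine mul_le_mul_of_nonneg_left ((sharp_n2_le hW _).trans ?_) hl0
        have := hmle r hr'
        gcongr)
    rwa [Real.norm_eq_abs, abs_of_nonneg (sub_nonneg.2 hst)] at this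
  set X := Real.sqrt (n2 z.2) with hX
  set P := Real.sqrt (n2 (msk {i | d i = l} z.1)) with hP
  have hX0 : 0 ≤ X := Real.sqrt_nonneg _
  have hP0 : 0 ≤ P := Real.sqrt_nonneg _
  have hX2 : X ^ 2 = n2 z.2 := Real.sq_sqrt (n2_nonneg _)
  have hP2 : P ^ 2 = n2 (msk {i | d i = l} z.1) := Real.sq_sqrt (n2_nonneg _)
  clear_value X P
  have hn20 : n2 (0 : ι → ℝ) = 0 := by simp [n2]
  set Y := n2 (msk U z.1) + Real.exp (-2 * Γ t) * (n2 (msk L z'.1) + n2 z'.2) with hY
  have hY0 : 0 ≤ Y := add_nonneg (n2_nonneg _)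
    (mul_nonneg (Real.exp_pos _).le (add_nonneg (n2_nonneg _) (n2_nonneg _)))
  set I := ∫ r in s..t, N r with hI
  have hI0 : 0 ≤ I := intervalIntegral.integral_nonneg hst fun r _ => hN0 r
  have hmain : Y + g / 2 * I ≤ X ^ 2 + C4 * δ * m ^ 2 := by
    rw [hs, ht, lyF, lyF, hz, hz', hΓs, hn20] at hlyap
    simp only [mul_zero, Real.exp_zero, one_mul] at hlyap
    have h1 : C₁ * δ ^ 2 / g * ∫ r in s..t, Real.exp (-2 * Γ r) * nW d (msk (U ∪ L)ᶜ (xp r))
        ≤ C₁ * δ ^ 2 / g * (l * (n * m ^ 2) * (t - s)) :=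
      mul_le_mul_of_nonneg_left ((le_abs_self _).trans hcl) (by positivity)
    have h2 : C₁ * δ ^ 2 / g * (l * (n * m ^ 2) * (t - s))
        = C₁ * l * n / g * δ * m ^ 2 * (δ * (t - s)) := by ring
    have h3 : C₁ * l * n / g * δ * m ^ 2 * (δ * (t - s))
        ≤ C₁ * l * n / g * δ * m ^ 2 * |Λ| := mul_le_mul_of_nonneg_left hΛ (by positivity)
    have h4 : C₁ * l * n / g * δ * m ^ 2 * |Λ| = C4 * δ * m ^ 2 := by rw [hC4]; ring
    rw [hX2, hY]
    linarith
  have hJ : δ * ∫ r in s..t, Real.sqrt (N r) ≤ D * (Real.sqrt δ * X + δ * m) := by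
    rw [hD]
    refine sharp_cs (Y := Real.sqrt δ * X + δ * m) hst hNc hN0 hδ hΛ hA0 (by positivity) ?_
    have h1 : I ≤ A * (X ^ 2 + δ * m ^ 2) := by
      have h2 : g / 2 * I ≤ (1 + C4) * (X ^ 2 + δ * m ^ 2) := by
        have : 0 ≤ C4 * X ^ 2 := by positivity
        have : 0 ≤ δ * m ^ 2 := by positivity
        linarith
      have h3 : I = 2 / g * (g / 2 * I) := by field_simp
      rw [h3, hA, mul_assoc]
      exact mul_le_mul_of_nonneg_left h2 (by positivity)
    have h2 : δ * (X ^ 2 + δ * m ^ 2) ≤ (Real.sqrt δ * X + δ * m) ^ 2 := by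
      have h3 : (Real.sqrt δ * X) ^ 2 = δ * X ^ 2 := by rw [mul_pow, Real.sq_sqrt hδ]
      have h4 : 0 ≤ Real.sqrt δ * X * (δ * m) := by positivity
      linarith
    calc δ * I ≤ δ * (A * (X ^ 2 + δ * m ^ 2)) := mul_le_mul_of_nonneg_left h1 hδ
      _ = A * (δ * (X ^ 2 + δ * m ^ 2)) := by ring
      _ ≤ _ := mul_le_mul_of_nonneg_left h2 hA0
  set J := δ * ∫ r in s..t, Real.sqrt (N r) with hJd
  have hJ0 : 0 ≤ J :=
    mul_nonneg hδ (intervalIntegral.integral_nonneg hst fun r _ => Real.sqrt_nonneg _)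
  have hE : Real.exp (K₁ * δ * (t - s)) ≤ E₁ := by
    rw [hE₁, mul_assoc]
    exact Real.exp_le_exp.2 (mul_le_mul_of_nonneg_left hΛ hK₁0)
  have hsN : ContinuousOn (fun r => c1 * δ * Real.sqrt (N r)) (Icc s t) :=
    continuousOn_const.mul hNc.sqrt
  have hξs : ξ s = fun a => if d (e a) = l then z.1 (e a) else 0 := by
    funext a
    simp only [hξ, hΓs, neg_zero, Real.exp_zero, one_mul, ← hs, Bg.st, hxp]
  have hξP : ‖ξ s‖ ≤ P := by
    refine (pi_norm_le_iff_of_nonneg hP0).2 fun a => ?_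
    rw [hξs, Real.norm_eq_abs]
    by_cases ha : d (e a) = l
    · simp only [ha, if_true]
      rw [hP]
      refine Real.abs_le_sqrt ?_
      have := sq_le_n2 (msk {i | d i = l} z.1) (e a)
      rwa [msk, indicator_of_mem (show e a ∈ {i | d i = l} from ha)] at this
    · simp only [ha, if_false, abs_zero]; exact hP0
  have hmb : m ≤ E₁ * (P + c1 * J) := by
    have h1 := sharp_gron (K := K₁ * δ) hst (by positivity) hdξ hsN (fun r _ => by positivity)
      (fun r hr => by
        have h2 := herr r hr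
        have h3 := hZb r hr (ξ r)
        have h4 : ‖ξ' r‖ ≤ ‖Z r *ᵥ ξ r‖ + ‖ξ' r - Z r *ᵥ ξ r‖ := norm_le_insert' _ _
        have h5 : n * (ε' * δ) * ‖ξ r‖ ≤ n * ((c2 + |Λ|) * δ) * ‖ξ r‖ := by
          gcongr
        rw [hK₁]
        linarith) r₀ hr₀
    rw [intervalIntegral.integral_const_mul, mul_assoc c1, ← hm] at h1
    exact h1.trans (mul_le_mul hE (by linarith) (by positivity) hE₁0.le)
  -- comparison with the projected flow
  set η : ℝ → W → ℝ := fun r => ξ r - G r *ᵥ ξ s with hη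
  have hdη : ∀ r ∈ Icc s t, HasDerivAt η (ξ' r - Z r *ᵥ (G r *ᵥ ξ s)) r := by
    intro r hr
    refine (hdξ r hr).sub (hasDerivAt_pi.2 fun a => ?_)
    rw [Matrix.mulVec_mulVec]
    exact HasDerivAt.fun_sum fun a' _ => ((hyp r hr).2.2.2.1 a a').mul_const _
  have hηb : ‖η t‖ ≤ E₁ * (n * |Λ| * ε' * m + c1 * J) := by
    have h1 := sharp_gron (K := K₁ * δ) (h := fun r => n * (ε' * δ) * m
        + c1 * δ * Real.sqrt (N r)) hst (by positivity) hdη (continuousOn_const.add hsN)
      (fun r _ => by positivity)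
      (fun r hr => by
        have h2 := herr r hr
        have h3 := hZb r hr (η r)
        have h4 : ξ' r - Z r *ᵥ (G r *ᵥ ξ s) = Z r *ᵥ η r + (ξ' r - Z r *ᵥ ξ r) := by
          simp only [hη, Matrix.mulVec_sub]; abel
        have h5 : n * (ε' * δ) * ‖ξ r‖ ≤ n * (ε' * δ) * m :=
          mul_le_mul_of_nonneg_left (hmle r hr) (by positivity)
        have h6 : 0 ≤ n * (c2 + |Λ|) * δ * ‖η r‖ := by positivity
        have h7 := norm_add_le (Z r *ᵥ η r) (ξ' r - Z r *ᵥ ξ r)
        rw [h4, hK₁]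
        linarith) t (right_mem_Icc.2 hst)
    have h0 : η s = 0 := by simp [hη, hG]
    rw [intervalIntegral.integral_add intervalIntegrable_const
      ((hsN.mono (by rw [uIcc_of_le hst])).intervalIntegrable), intervalIntegral.integral_const,
      intervalIntegral.integral_const_mul, mul_assoc c1, h0, norm_zero, zero_add,
      smul_eq_mul] at h1
    have h2 : (t - s) * (n * (ε' * δ) * m) ≤ n * |Λ| * ε' * m := by
      calc (t - s) * (n * (ε' * δ) * m) = n * ε' * m * (δ * (t - s)) := by ring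
        _ ≤ n * ε' * m * |Λ| := mul_le_mul_of_nonneg_left hΛ (by positivity)
        _ = _ := by ring
    have h3 : 0 ≤ (t - s) * (n * (ε' * δ) * m) :=
      mul_nonneg (sub_nonneg.2 hst) (by positivity)
    exact h1.trans (mul_le_mul hE (by linarith) (by positivity) hE₁0.le)
  have hfin : Real.sqrt (n2 (η t)) ≤ Real.sqrt n * (E₁ * (n * |Λ| * ε' * m + c1 * J)) := by
    calc Real.sqrt (n2 (η t)) ≤ Real.sqrt (n * ‖η t‖ ^ 2) :=
          Real.sqrt_le_sqrt (sharp_n2_le hW _)
      _ = Real.sqrt n * ‖η t‖ := by rw [Real.sqrt_mul hn0, Real.sqrt_sq (norm_nonneg _)]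
      _ ≤ _ := mul_le_mul_of_nonneg_left hηb (Real.sqrt_nonneg _)
  have hres := hC δ ε ε' m P X J _ Y hδ hδb hδc hε'0 hε'1 hε'2 hm0
    hP0 hX0 hJ hmb hfin (by
      have : 0 ≤ g / 2 * I := by positivity
      linarith)
  rw [hP2, hX2] at hres
  have hξt : ξ t = fun a => if d (e a) = l then Real.exp (-Γ t) * z'.1 (e a) else 0 := by
    funext a
    simp only [hξ, ← ht, Bg.st, hxp]
  simp only [hη] at hres
  rw [hξt, hξs] at hres
  exact hres

end Crest.Agent.R202
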