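import Crest.Agent.R202.SInj
import Crest.Agent.R202.Lie

/-!
# R202/SGen: generation by conformal factors; kicks span all off-diagonal blocks

`gen9`: `top_of_symm` (the blocks of the `mR ρ` form a subspace of symmetric matrices whose
orthogonal complement vanishes by `inj_symm`), `block_top`, `gen_of_blocks` with
`ρ = (zri (2 l)).1` (orthogonal to products of lower degree; the diagonal entries at `top l` and
`ngI (top l)` differ by `c² sI (ρ²) > 0`, `zri_sq`).
`a_sub_inj`: `a l = -b/2 + √((l+1/2)² - (1-b²)/4)`; `a l - l ∈ [0,1/6]` forces `l' - l = k' - k`,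
and `x ↦ √((x+s)² - c) - √(x² - c)` is strictly monotone for `s ≠ 0`, `c > 0`.
`span9`: let `v k (ρ,a)` be the `k`-th summand of `kL`.  For every `k₀` the `v k g`, `k ≥ k₀`, span
the off-type matrices: a matrix `T` orthogonal to all of them satisfies
`Σ_{(l,l')} e^{(a l' - a l) k} c_{l,l'}(ρ,a) = 0` for all `k ≥ k₀` with distinct exponents, so every
`c_{l,l'}(ρ,a)` vanishes (`linearIndependent_monoidHom`, or Vandermonde), and `inj_ne` (once with
`a = 0`, once with `ρ = 0`) gives `T = 0`.  Then choose the generators slot by slot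
(`exists_span_slots`), and take a linear right inverse onto the range.
-/

open scoped ContDiff Topology Matrix
open Set Filter MvPolynomial

noncomputable section

namespace Crest.Agent.R202

variable {Y : I0 → Pl 3}

/-- the generator of the slow motion produced by the conformal factor `ρ` -/
def gII (B : Bg) (Y : I0 → Pl 3) (L : ℕ) (ρ : Pl 3) : Matrix (MI L) (MI L) ℝ := fun i j =>
  if dg i.1 = dg j.1 then
    (B.a (dg i.1) + B.b) * B.a (dg i.1) / (2 * B.a (dg i.1) + B.b) * mR Y ρ i.1 j.1 else 0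

theorem sgen_mem_of_orth {α β : Type} [Fintype α] [Fintype β] {S : Submodule ℝ (Matrix α β ℝ)}
    {A : Matrix α β ℝ}
    (h : ∀ T : α → β → ℝ, (∀ X ∈ S, ∑ i, ∑ j, T i j * X i j = 0) → ∑ i, ∑ j, T i j * A i j = 0) :
    A ∈ S := by
  classical
  by_contra hA
  obtain ⟨f, hf, hS⟩ := Submodule.exists_le_ker_of_notMem hA
  have key : ∀ X : Matrix α β ℝ, f X = ∑ i, ∑ j, f (Matrix.single i j 1) * X i j := by
    intro X
    conv_lhs => rw [Matrix.matrix_eq_sum_single X]
    simp only [map_sum]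
    refine Finset.sum_congr rfl fun i _ => Finset.sum_congr rfl fun j _ => ?_
    rw [mul_comm, ← smul_eq_mul, ← map_smul, Matrix.smul_single, smul_eq_mul, mul_one]
  refine hf ?_
  rw [key]
  exact h _ fun X hX => by rw [← key]; exact hS hX

/-- extension by zero -/
def sgenExt {α β : Type} [Fintype α] [Fintype β] (e : α → I0) (e' : β → I0) (T : α → β → ℝ) (i j : I0) : ℝ :=
  ∑ a, ∑ b, if e a = i ∧ e' b = j then T a b else 0

theorem sgenExt_apply {α β : Type} [Fintype α] [Fintype β] {e : α → I0} {e' : β → I0}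
    (he : Function.Injective e) (he' : Function.Injective e') (T : α → β → ℝ) (a : α) (b : β) :
    sgenExt e e' T (e a) (e' b) = T a b := by
  unfold sgenExt
  rw [Finset.sum_eq_single a, Finset.sum_eq_single b, if_pos ⟨rfl, rfl⟩]
  · intro b' _ hb
    exact if_neg fun h => hb (he' h.2)
  · simp
  · intro a' _ ha
    exact Finset.sum_eq_zero fun b' _ => if_neg fun h => ha (he h.1)
  · simp

theorem sgenExt_ne {α β : Type} [Fintype α] [Fintype β] {e : α → I0} {e' : β → I0} {T : α → β → ℝ} {i j : I0}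
    (h : sgenExt e e' T i j ≠ 0) : ∃ a b, e a = i ∧ e' b = j ∧ T a b ≠ 0 := by
  obtain ⟨a, -, ha⟩ := Finset.exists_ne_zero_of_sum_ne_zero h
  obtain ⟨b, -, hb⟩ := Finset.exists_ne_zero_of_sum_ne_zero ha
  by_cases c : e a = i ∧ e' b = j
  · rw [if_pos c] at hb
    exact ⟨a, b, c.1, c.2, hb⟩
  · exact absurd (if_neg c) hb

theorem sgenExt_sum {α β : Type} [Fintype α] [Fintype β] {e : α → I0} {e' : β → I0} {T : α → β → ℝ} {l l' : ℕ}
    (hT : ∀ a b, T a b ≠ 0 → dg (e a) = l ∧ dg (e' b) = l') (M : Matrix I0 I0 ℝ) :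
    ∑ i ∈ lowI l, ∑ j ∈ lowI l', sgenExt e e' T i j * M i j = ∑ a, ∑ b, T a b * M (e a) (e' b) := by
  unfold sgenExt
  simp only [Finset.sum_mul]
  rw [Finset.sum_congr rfl fun i _ => Finset.sum_comm, Finset.sum_comm]
  refine Finset.sum_congr rfl fun a _ => ?_
  rw [Finset.sum_congr rfl fun i _ => Finset.sum_comm, Finset.sum_comm]
  refine Finset.sum_congr rfl fun b _ => ?_
  by_cases h0 : T a b = 0
  · simp [h0]
  obtain ⟨h1, h2⟩ := hT a b h0
  rw [Finset.sum_eq_single (e a), Finset.sum_eq_single (e' b), if_pos ⟨rfl, rfl⟩]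
  · intro j _ hj
    rw [if_neg fun h => hj h.2.symm, zero_mul]
  · intro hb
    exact absurd (mem_lowI.2 h2.le) hb
  · intro i _ hi
    exact Finset.sum_eq_zero fun j _ => by rw [if_neg fun h => hi h.1.symm, zero_mul]
  · intro ha
    exact absurd (mem_lowI.2 h1.le) ha

theorem SB.sgen_inj_ne (h : SB Y) {l l' : ℕ} (hl : l ≠ l') {α β : Type} [Fintype α] [Fintype β] {e : α → I0}
    {e' : β → I0} (he : Function.Injective e) (he' : Function.Injective e') {T : α → β → ℝ}
    (hT : ∀ a b, T a b ≠ 0 → dg (e a) = l ∧ dg (e' b) = l')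
    (hR : ∀ ρ, ∑ a, ∑ b, T a b * mR Y ρ (e a) (e' b) = 0)
    (hQ : ∀ q, ∑ a, ∑ b, T a b * mQ1 Y q (e a) (e' b) = 0) (a : α) (b : β) : T a b = 0 := by
  have := h.inj_ne hl (T := sgenExt e e' T)
    (fun i j hij => by
      obtain ⟨a, b, rfl, rfl, h0⟩ := sgenExt_ne hij
      exact hT a b h0)
    (fun ρ => by rw [sgenExt_sum hT, hR]) (fun q => by rw [sgenExt_sum hT, hQ])
  rw [← sgenExt_apply he he' T a b, this]
  rfl

theorem SB.sgen_inj_symm (h : SB Y) {l : ℕ} {α : Type} [Fintype α] {e : α → I0}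
    (he : Function.Injective e) {T : α → α → ℝ} (hl : ∀ a, dg (e a) = l) (hs : ∀ a b, T a b = T b a)
    (hR : ∀ ρ, ∑ a, ∑ b, T a b * mR Y ρ (e a) (e b) = 0) (a b : α) : T a b = 0 := by
  have hT : ∀ a b, T a b ≠ 0 → dg (e a) = l ∧ dg (e b) = l := fun a b _ => ⟨hl a, hl b⟩
  have := h.inj_symm (l := l) (T := sgenExt e e T)
    (fun i j hij => by
      obtain ⟨a, b, rfl, rfl, h0⟩ := sgenExt_ne hij
      exact hT a b h0)
    (fun i j => by
      unfold sgenExt
      rw [Finset.sum_comm]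
      refine Finset.sum_congr rfl fun a _ => Finset.sum_congr rfl fun b _ => ?_
      rw [hs b a]
      exact if_congr and_comm rfl rfl)
    (fun ρ => by rw [sgenExt_sum hT, hR])
  rw [← sgenExt_apply he he T a b, this]
  rfl

theorem sgen_a_pos (B : Bg) {l : ℕ} (hl : 1 ≤ l) : 0 < B.a l :=
  lt_of_lt_of_le (by exact_mod_cast hl) (B.le_a l)

theorem sgen_c_ne (B : Bg) {l : ℕ} (hl : 1 ≤ l) : (B.a l + B.b) * B.a l / (2 * B.a l + B.b) ≠ 0 := by
  have h1 := sgen_a_pos B hl
  have h2 := B.b_pos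
  positivity

theorem blk_gII (B : Bg) (L : ℕ) (ρ : Pl 3) : Blk (fun i : MI L => dg i.1) (gII B Y L ρ) := by
  intro i j hij
  exact if_neg hij

theorem gen9 (h : SB Y) (B : Bg) (L : ℕ) : Gen (fun i : MI L => dg i.1) (range (gII B Y L)) := by
  have hb : ∀ X ∈ range (gII B Y L), Blk (fun i : MI L => dg i.1) X := by
    rintro _ ⟨ρ, rfl⟩
    exact blk_gII B L ρ
  have hsym : ∀ ρ i j, mR Y ρ i j = mR Y ρ j i := fun ρ i j => (congrFun (congrFun (mR_symm ρ) i) j).symm
  refine gen_of_blocks hb (fun l => block_top hb l fun S hS _ hX => top_of_symm S hS fun A hA => ?_) fun i => ?_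
  · refine sgen_mem_of_orth fun T hT => ?_
    have hA' : ∀ a b, A a b = A b a := fun a b => (congrFun (congrFun hA a) b).symm
    have hT0 : ∀ a b, T a b + T b a = 0 := by
      intro a₀
      have hl : 1 ≤ l := a₀.2 ▸ a₀.1.2.1
      refine h.sgen_inj_symm (l := l) (e := fun a : {i : MI L // dg i.1 = l} => a.1.1)
        (fun a b hab => Subtype.ext (Subtype.ext hab)) (T := fun a b => T a b + T b a) (fun a => a.2)
        (fun a b => add_comm _ _) (fun ρ => ?_) a₀
      have h1 := hT _ (hX _ (mem_genL ⟨ρ, rfl⟩))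
      have h2 : ∀ a b : {i : MI L // dg i.1 = l}, T a b * (gII B Y L ρ).submatrix Subtype.val Subtype.val a b =
          (B.a l + B.b) * B.a l / (2 * B.a l + B.b) * (T a b * mR Y ρ a.1.1 b.1.1) := by
        intro a b
        rw [Matrix.submatrix_apply, gII, if_pos (a.2.trans b.2.symm), a.2]
        ring
      simp only [h2, ← Finset.mul_sum] at h1
      have h3 := (mul_eq_zero.1 h1).resolve_left (sgen_c_ne B hl)
      simp only [add_mul, Finset.sum_add_distrib]
      rw [h3, zero_add, Finset.sum_comm, ← h3]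
      exact Finset.sum_congr rfl fun a _ => Finset.sum_congr rfl fun b _ => by rw [hsym]
    have h4 : ∑ a, ∑ b, T a b * A a b = ∑ a, ∑ b, -(T a b * A a b) := by
      rw [Finset.sum_comm]
      refine Finset.sum_congr rfl fun a _ => Finset.sum_congr rfl fun b _ => ?_
      rw [hA' b a, eq_neg_of_add_eq_zero_right (hT0 a b), neg_mul]
    simp only [Finset.sum_neg_distrib] at h4
    linarith only [h4]
  · obtain ⟨l, hl⟩ : ∃ l, dg i.1 = l := ⟨_, rfl⟩
    have hi1 : 1 ≤ l := hl ▸ i.2.1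
    have hi2 : l ≤ L := hl ▸ i.2.2
    obtain ⟨c, hc, c1, c2⟩ := h.top_eq l hi1
    obtain ⟨c', hc', c3, -⟩ := h.top_eq (2 * l) (by omega)
    refine ⟨gII B Y L (zri (2 * l)).1, mem_genL ⟨_, rfl⟩, fun j k hj => ?_,
      ⟨top l, hi1, hi2⟩, ⟨ngI (top l), hi1, hi2⟩, hl.symm, hl.symm, Or.inr ?_⟩
    · unfold gII
      split_ifs with hjk
      · have h1 : sI (Y (top (2 * l)) * (Y j.1 * Y k.1)) = 0 := by
          refine h.sI_mul_of_lt ((totalDegree_mul _ _).trans_lt ?_)
          have t1 := h.totalDegree_le j.1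
          have t2 := h.totalDegree_le k.1
          have t3 : dg (top (2 * l)) = 2 * l := rfl
          simp only [hl] at hj
          omega
        rw [c3, smul_mul_assoc, sI_smul] at h1
        have h2 := (mul_eq_zero.1 h1).resolve_left hc'.ne'
        rw [mR, mul_left_comm, h2, mul_zero]
      · rfl
    · have h1 := h.orth (top (2 * l)) (top (2 * l))
      rw [if_pos rfl, c3, smul_mul_smul_comm, sI_smul] at h1
      have h2 : sI ((zri (2 * l)).1 * (zri (2 * l)).1) ≠ 0 := fun h0 => by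
        rw [h0, mul_zero] at h1
        exact zero_ne_one h1
      have h3 : mR Y (zri (2 * l)).1 (top l) (top l) - mR Y (zri (2 * l)).1 (ngI (top l)) (ngI (top l)) =
          c * c * sI ((zri (2 * l)).1 * (zri (2 * l)).1) := by
        rw [mR, mR, ← sI_sub, ← sI_smul, c1, c2]
        congr 1
        nth_rewrite 4 [← (zri_sq l).2.1]
        simp only [smul_eq_C_mul, map_mul]
        ring
      intro h4
      have h5 : (B.a l + B.b) * B.a l / (2 * B.a l + B.b) * mR Y (zri (2 * l)).1 (top l) (top l) =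
          (B.a l + B.b) * B.a l / (2 * B.a l + B.b) * mR Y (zri (2 * l)).1 (ngI (top l)) (ngI (top l)) := by
        unfold gII at h4
        rw [if_pos rfl, if_pos rfl] at h4
        exact h4
      rw [mul_left_cancel₀ (sgen_c_ne B hi1) h5, sub_self] at h3
      exact mul_ne_zero (mul_pos hc hc).ne' h2 h3.symm

theorem sgen_sqrt {c p q r w up uq ur uw : ℝ} (hc : c ≠ 0) (hs : p + q ≠ 0) (h1 : p + q = r + w)
    (h2 : up + uq = ur + uw) (hp : up ^ 2 = p ^ 2 - c) (hq : uq ^ 2 = q ^ 2 - c) (hr : ur ^ 2 = r ^ 2 - c)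
    (hw : uw ^ 2 = w ^ 2 - c) (hD : r * w - p * q ≠ 0) : False := by
  have e0 : (p + q) ^ 2 = (r + w) ^ 2 := by rw [h1]
  have e1 : (up + uq) ^ 2 = (ur + uw) ^ 2 := by rw [h2]
  have hB : ur * uw = up * uq + (r * w - p * q) := by
    linear_combination (-1 / 2) * e1 + (1 / 2) * e0 + (1 / 2) * hp + (1 / 2) * hq - (1 / 2) * hr - (1 / 2) * hw
  have hA2 : (up * uq) ^ 2 = (p * q + c) ^ 2 - c * (p + q) ^ 2 := by
    rw [mul_pow, hp, hq]; ring
  have hB2 : (ur * uw) ^ 2 = (r * w + c) ^ 2 - c * (p + q) ^ 2 := by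
    rw [mul_pow, hr, hw, e0]; ring
  rw [hB] at hB2
  have h3 : (r * w - p * q) * (up * uq - (p * q + c)) = 0 := by
    linear_combination (1 / 2) * hB2 - (1 / 2) * hA2
  have h4 : up * uq = p * q + c := sub_eq_zero.1 ((mul_eq_zero.1 h3).resolve_left hD)
  rw [h4] at hA2
  exact mul_ne_zero hc (pow_ne_zero 2 hs) (by linarith only [hA2])

theorem a_sub_inj (B : Bg) (h1 : B.β₀ = 1) (hb : B.b < 1) {l l' k k' : ℕ} (hl : l ≠ l')
    (h : B.a l' - B.a l = B.a k' - B.a k) : l = k ∧ l' = k' := by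
  have hsum : l' + k = k' + l := by
    have a1 := B.le_a l
    have a2 := B.le_a l'
    have a3 := B.le_a k
    have a4 := B.le_a k'
    have b1 := B.a_le l
    have b2 := B.a_le l'
    have b3 := B.a_le k
    have b4 := B.a_le k'
    have c1 : ((l' + k : ℕ) : ℝ) < (k' + l + 1 : ℕ) := by push_cast; linarith
    have c2 : ((k' + l : ℕ) : ℝ) < (l' + k + 1 : ℕ) := by push_cast; linarith
    have d1 := Nat.cast_lt.1 c1
    have d2 := Nat.cast_lt.1 c2
    omega
  by_cases hlk : l = k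
  · exact ⟨hlk, by omega⟩
  exfalso
  have hsq : ∀ m : ℕ, (B.a m + B.b / 2) ^ 2 = ((m : ℝ) + 1 / 2) ^ 2 - (1 - B.b ^ 2) / 4 := by
    intro m
    have := rt_sq (b := B.b) (B.OdeBasic_lam_nonneg m)
    rw [← Bg.a, h1, lam] at this
    linear_combination this
  have hs : (l' : ℝ) + k = k' + l := by exact_mod_cast hsum
  have hb0 := B.b_pos
  refine sgen_sqrt (c := (1 - B.b ^ 2) / 4) (by nlinarith only [hb, hb0]) (by positivity)
    (by linarith only [hs]) (by linarith only [h]) (hsq l') (hsq k) (hsq k') (hsq l) ?_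
  have e : ((k' : ℝ) + 1 / 2) * (l + 1 / 2) - (l' + 1 / 2) * (k + 1 / 2) = -((l - l') * (l - k)) := by
    rw [show (k' : ℝ) = l' + k - l by linarith only [hs]]
    ring
  rw [e]
  exact neg_ne_zero.2 (mul_ne_zero (sub_ne_zero.2 (Nat.cast_injective.ne hl))
    (sub_ne_zero.2 (Nat.cast_injective.ne hlk)))

theorem exists_span_slots {V G : Type} [AddCommGroup V] [Module ℝ V] [FiniteDimensional ℝ V]
    (g₀ : G) (v : ℕ → G → V) (S : Submodule ℝ V) (h0 : ∀ k, v k g₀ = 0) (hS : ∀ k g, v k g ∈ S)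
    (h : ∀ k₀, S ≤ Submodule.span ℝ {x | ∃ k g, k₀ ≤ k ∧ x = v k g}) :
    ∃ (K : ℕ) (g : Fin K → G), S ≤ Submodule.span ℝ (range fun k : Fin K => v k (g k)) := by
  have hle : ∀ (K : ℕ) (g : ℕ → G), Submodule.span ℝ (range fun k : Fin K => v k (g k)) ≤ S := by
    intro K g
    rw [Submodule.span_le]
    rintro _ ⟨k, rfl⟩
    exact hS _ _
  have key : ∀ n, n ≤ Module.finrank ℝ S → ∃ (K : ℕ) (g : ℕ → G),
      n ≤ Module.finrank ℝ (Submodule.span ℝ (range fun k : Fin K => v k (g k))) := by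
    intro n
    induction n with
    | zero => exact fun _ => ⟨0, fun _ => g₀, Nat.zero_le _⟩
    | succ n ih =>
      intro hn
      obtain ⟨K, g, hg⟩ := ih (by omega)
      by_cases c : S ≤ Submodule.span ℝ (range fun k : Fin K => v k (g k))
      · exact ⟨K, g, hn.trans (Submodule.finrank_mono c)⟩
      obtain ⟨k, g', hk, hg'⟩ : ∃ k g', K ≤ k ∧ v k g' ∉ Submodule.span ℝ (range fun k : Fin K => v k (g k)) := by
        by_contra hc
        refine c ((h K).trans (Submodule.span_le.2 ?_))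
        rintro _ ⟨k, g', hk, rfl⟩
        by_contra hc'
        exact hc ⟨k, g', hk, hc'⟩
      refine ⟨k + 1, Function.update g k g', Nat.succ_le_of_lt (hg.trans_lt ?_)⟩
      refine Submodule.finrank_lt_finrank_of_lt (SetLike.lt_iff_le_and_exists.2 ⟨?_, v k g', ?_, hg'⟩)
      · refine Submodule.span_mono ?_
        rintro _ ⟨j, rfl⟩
        refine ⟨⟨j, by omega⟩, ?_⟩
        simp only
        rw [Function.update_of_ne (by omega)]
      · refine Submodule.subset_span ⟨⟨k, by omega⟩, ?_⟩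
        simp only
        rw [Function.update_self]
  obtain ⟨K, g, hg⟩ := key _ le_rfl
  exact ⟨K, fun k => g k, (Submodule.eq_of_le_of_finrank_le (hle K g) hg).ge⟩

/-- the `k`-th summand of `kL` -/
def sgenV (B : Bg) (Y : I0 → Pl 3) (L k : ℕ) (g : Pl 3 × (Fin 3 → Pl 3)) : Matrix (MI (2 * L)) (MI L) ℝ :=
  off (fun i => dg i.1) (eW L) fun i c => Real.sqrt (dg i.1) / Real.sqrt (dg c.1)
    * (∫ t in (0 : ℝ)..1, bmp t * Real.exp ((B.a (dg c.1) - B.a (dg i.1)) * (t + (k : ℕ))))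
    * (mQ1 Y g.2 i.1 c.1 + (B.a (dg i.1) + B.b) * B.a (dg c.1) * mR Y g.1 i.1 c.1)
    / (2 * B.a (dg i.1) + B.b)

theorem sgen_kL (B : Bg) (L : ℕ) {K : ℕ} (ρ : Fin K → Pl 3) (a : Fin K → Fin 3 → Pl 3) (ζ : Fin K → ℝ) :
    kL B Y L ρ a ζ = ∑ k : Fin K, ζ k • sgenV B Y L k (ρ k, a k) := by
  unfold kL
  rw [LinearMap.sum_apply]
  rfl

theorem sgenV_of_eq (B : Bg) (L k : ℕ) (g : Pl 3 × (Fin 3 → Pl 3)) {i : MI (2 * L)} {c : MI L}
    (h : dg i.1 = dg c.1) : sgenV B Y L k g i c = 0 := if_pos h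

/-- the weight of a kick -/
def sgenW (B : Bg) (l l' : ℕ) : ℝ :=
  Real.sqrt l / Real.sqrt l' * (∫ t in (0 : ℝ)..1, bmp t * Real.exp ((B.a l' - B.a l) * t)) / (2 * B.a l + B.b)

theorem sgen_int_pos (μ : ℝ) : 0 < ∫ t in (0 : ℝ)..1, bmp t * Real.exp (μ * t) := by
  have hc := bmp_smooth.continuous
  have h1 : ∫ t in (0 : ℝ)..1, bmp t * Real.exp (-|μ|) ≤ ∫ t in (0 : ℝ)..1, bmp t * Real.exp (μ * t) := by
    refine intervalIntegral.integral_mono_on zero_le_one (Continuous.intervalIntegrable (by fun_prop) _ _)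
      (Continuous.intervalIntegrable (by fun_prop) _ _) fun t ht => ?_
    refine mul_le_mul_of_nonneg_left (Real.exp_le_exp.2 ?_) (bmp_nonneg t)
    nlinarith only [neg_abs_le μ, abs_nonneg μ, ht.1, ht.2]
  rw [intervalIntegral.integral_mul_const, integral_bmp, one_mul] at h1
  exact (Real.exp_pos _).trans_le h1

theorem sgenW_pos (B : Bg) {l l' : ℕ} (hl : 1 ≤ l) (hl' : 1 ≤ l') : 0 < sgenW B l l' := by
  have h1 := sgen_a_pos B hl
  have h2 := B.b_pos
  have h3 := sgen_int_pos (B.a l' - B.a l)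
  have h4 : 0 < Real.sqrt l := Real.sqrt_pos.2 (by exact_mod_cast hl)
  have h5 : 0 < Real.sqrt l' := Real.sqrt_pos.2 (by exact_mod_cast hl')
  unfold sgenW
  positivity

theorem sgenV_of_ne (B : Bg) (L k : ℕ) (g : Pl 3 × (Fin 3 → Pl 3)) {i : MI (2 * L)} {c : MI L}
    (h : dg i.1 ≠ dg c.1) : sgenV B Y L k g i c = sgenW B (dg i.1) (dg c.1) *
      (mQ1 Y g.2 i.1 c.1 + (B.a (dg i.1) + B.b) * B.a (dg c.1) * mR Y g.1 i.1 c.1) *
        Real.exp (B.a (dg c.1) - B.a (dg i.1)) ^ k := by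
  refine (if_neg h).trans ?_
  unfold sgenW
  simp only [mul_add (B.a (dg c.1) - B.a (dg i.1)), Real.exp_add, ← mul_assoc]
  rw [intervalIntegral.integral_mul_const, mul_comm _ (k : ℝ), Real.exp_nat_mul]
  ring

theorem sgen_pow {ι : Type} [Fintype ι] {x c : ι → ℝ} {k₀ : ℕ}
    (h : ∀ k, k₀ ≤ k → ∑ i, c i * x i ^ k = 0) {y : ℝ} (hy : y ≠ 0) :
    ∑ i, (if x i = y then c i else 0) = 0 := by
  classical
  obtain ⟨P, hP⟩ : ∃ P : Polynomial ℝ, ∀ z, P.eval z = ∏ w ∈ (Finset.univ.image x).erase y, (z - w) :=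
    ⟨∏ w ∈ (Finset.univ.image x).erase y, (Polynomial.X - Polynomial.C w), fun z => by
      simp [Polynomial.eval_prod]⟩
  have h1 : ∑ i, c i * x i ^ k₀ * P.eval (x i) = 0 := by
    simp only [Polynomial.eval_eq_sum_range, Finset.mul_sum]
    rw [Finset.sum_comm]
    refine Finset.sum_eq_zero fun n _ => ?_
    have := congrArg (P.coeff n * ·) (h (k₀ + n) (Nat.le_add_right _ _))
    simp only [Finset.mul_sum, mul_zero] at this
    rw [← this]
    exact Finset.sum_congr rfl fun i _ => by ring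
  have h2 : ∀ i, c i * x i ^ k₀ * P.eval (x i) = (y ^ k₀ * P.eval y) * if x i = y then c i else 0 := by
    intro i
    split_ifs with hi
    · rw [hi]; ring
    · rw [hP, Finset.prod_eq_zero (Finset.mem_erase.2 ⟨hi, Finset.mem_image_of_mem x (Finset.mem_univ i)⟩)
        (sub_self _), mul_zero, mul_zero]
  simp only [h2, ← Finset.mul_sum] at h1
  refine (mul_eq_zero.1 h1).resolve_left (mul_ne_zero (pow_ne_zero _ hy) ?_)
  rw [hP]
  exact Finset.prod_ne_zero_iff.2 fun w hw => sub_ne_zero.2 (Finset.ne_of_mem_erase hw).symm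

theorem sgen_orth (h : SB Y) (B : Bg) (h1 : B.β₀ = 1) (hb : B.b < 1) (L k₀ : ℕ) {T : MI (2 * L) → MI L → ℝ}
    (hT : ∀ k g, k₀ ≤ k → ∑ i, ∑ c, T i c * sgenV B Y L k g i c = 0) {i₀ : MI (2 * L)} {c₀ : MI L}
    (h0 : dg i₀.1 ≠ dg c₀.1) : T i₀ c₀ = 0 := by
  obtain ⟨T', hT'⟩ : ∃ T' : MI (2 * L) → MI L → ℝ, ∀ i c,
      T' i c = if dg i.1 = dg i₀.1 ∧ dg c.1 = dg c₀.1 then T i c else 0 := ⟨_, fun _ _ => rfl⟩
  have key : ∀ g : Pl 3 × (Fin 3 → Pl 3), (∑ i, ∑ c, T' i c * mQ1 Y g.2 i.1 c.1) +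
      (B.a (dg i₀.1) + B.b) * B.a (dg c₀.1) * ∑ i, ∑ c, T' i c * mR Y g.1 i.1 c.1 = 0 := by
    intro g
    have h2 := sgen_pow (ι := MI (2 * L) × MI L) (x := fun p => Real.exp (B.a (dg p.2.1) - B.a (dg p.1.1)))
      (c := fun p => if dg p.1.1 = dg p.2.1 then 0 else T p.1 p.2 * (sgenW B (dg p.1.1) (dg p.2.1) *
        (mQ1 Y g.2 p.1.1 p.2.1 + (B.a (dg p.1.1) + B.b) * B.a (dg p.2.1) * mR Y g.1 p.1.1 p.2.1))) (k₀ := k₀)
      (fun k hk => by
        refine Eq.trans ?_ (hT k g hk)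
        rw [Fintype.sum_prod_type]
        refine Finset.sum_congr rfl fun i _ => Finset.sum_congr rfl fun c _ => ?_
        by_cases hic : dg i.1 = dg c.1
        · rw [if_pos hic, sgenV_of_eq B L k g hic, zero_mul, mul_zero]
        · rw [if_neg hic, sgenV_of_ne B L k g hic, mul_assoc])
      (Real.exp_pos (B.a (dg c₀.1) - B.a (dg i₀.1))).ne'
    refine (mul_eq_zero.1 (Eq.trans ?_ h2)).resolve_left (sgenW_pos B i₀.2.1 c₀.2.1).ne'
    rw [Fintype.sum_prod_type]
    simp only [Finset.mul_sum, ← Finset.sum_add_distrib]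
    refine Finset.sum_congr rfl fun i _ => Finset.sum_congr rfl fun c _ => ?_
    rw [hT']
    by_cases hic : dg i.1 = dg i₀.1 ∧ dg c.1 = dg c₀.1
    · rw [if_pos hic, hic.1, hic.2, if_pos rfl, if_neg h0]
      ring
    · rw [if_neg hic, zero_mul, zero_mul, mul_zero, add_zero, mul_zero]
      split_ifs with e1 e2
      · rfl
      · exact absurd (a_sub_inj B h1 hb e2 (Real.exp_injective e1)) hic
      · rfl
  have := h.sgen_inj_ne h0 (e := fun i : MI (2 * L) => i.1) (e' := fun c : MI L => c.1) Subtype.val_injective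
    Subtype.val_injective (T := T')
    (fun i c hic => by
      by_contra hc
      exact hic (by rw [hT', if_neg hc]))
    (fun ρ => by
      have h3 := key (ρ, 0)
      simp only [mQ_zero.1, Matrix.zero_apply, mul_zero, Finset.sum_const_zero, zero_add] at h3
      have h4 := sgen_a_pos B i₀.2.1
      have h5 := sgen_a_pos B c₀.2.1
      have h6 := B.b_pos
      exact (mul_eq_zero.1 h3).resolve_left (by positivity))
    (fun q => by
      have h3 := key (0, q)
      simp only [mR_zero, Matrix.zero_apply, mul_zero, Finset.sum_const_zero, add_zero] at h3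
      exact h3) i₀ c₀
  rwa [hT', if_pos ⟨rfl, rfl⟩] at this

theorem off_kL (B : Bg) (L : ℕ) {K : ℕ} (ρ : Fin K → Pl 3) (a : Fin K → Fin 3 → Pl 3)
    (ζ : Fin K → ℝ) : off (fun i => dg i.1) (eW L) (kL B Y L ρ a ζ) = kL B Y L ρ a ζ := by
  ext i c
  unfold off
  split_ifs with hic
  · rw [sgen_kL, Matrix.sum_apply]
    exact (Finset.sum_eq_zero fun k _ => by rw [Matrix.smul_apply, sgenV_of_eq B L k _ hic, smul_zero]).symm
  · rfl

theorem span9 (h : SB Y) (B : Bg) (h1 : B.β₀ = 1) (hb : B.b < 1) (L : ℕ) :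
    ∃ (K : ℕ) (ρ : Fin K → Pl 3) (a : Fin K → Fin 3 → Pl 3)
      (𝓡 : Matrix (MI (2 * L)) (MI L) ℝ →ₗ[ℝ] (Fin K → ℝ)),
      ∀ A, off (fun i => dg i.1) (eW L) A = A → kL B Y L ρ a (𝓡 A) = A := by
  let S : Submodule ℝ (Matrix (MI (2 * L)) (MI L) ℝ) :=
    { carrier := {A | ∀ i c, dg i.1 = dg c.1 → A i c = 0}
      add_mem' := fun {A A'} hA hA' i c hic => by rw [Matrix.add_apply, hA i c hic, hA' i c hic, add_zero]
      zero_mem' := fun _ _ _ => rfl
      smul_mem' := fun r A hA i c hic => by rw [Matrix.smul_apply, hA i c hic, smul_zero] }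
  obtain ⟨K, g, hg⟩ := exists_span_slots (0, 0) (sgenV B Y L) S
    (fun k => by
      ext i c
      by_cases hic : dg i.1 = dg c.1
      · exact sgenV_of_eq B L k _ hic
      · rw [sgenV_of_ne B L k _ hic]
        simp [mR_zero, mQ_zero.1])
    (fun k g i c hic => sgenV_of_eq B L k g hic)
    (fun k₀ A hA => sgen_mem_of_orth fun T hT => by
      refine Finset.sum_eq_zero fun i _ => Finset.sum_eq_zero fun c _ => ?_
      by_cases hic : dg i.1 = dg c.1
      · rw [hA i c hic, mul_zero]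
      · rw [sgen_orth h B h1 hb L k₀ (fun k g hk => hT _ (Submodule.subset_span ⟨k, g, hk, rfl⟩)) hic, zero_mul])
  obtain ⟨f, hf⟩ : ∃ f, f = kL B Y L (fun k => (g k).1) fun k => (g k).2 := ⟨_, rfl⟩
  have hr : S ≤ LinearMap.range f := by
    refine hg.trans (Submodule.span_le.2 ?_)
    rintro _ ⟨k, rfl⟩
    refine ⟨Pi.single k 1, ?_⟩
    rw [hf, sgen_kL, Finset.sum_eq_single k, Pi.single_eq_same, one_smul]
    · intro j _ hj
      rw [Pi.single_eq_of_ne hj, zero_smul]
    · simp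
  obtain ⟨r, hr1⟩ := f.rangeRestrict.exists_rightInverse_of_surjective f.range_rangeRestrict
  obtain ⟨r', hr2⟩ := r.exists_extend
  refine ⟨K, fun k => (g k).1, fun k => (g k).2, r', fun A hA => ?_⟩
  have hAS : A ∈ S := fun i c hic => by
    rw [← hA]
    exact if_pos hic
  have e1 : r' A = r ⟨A, hr hAS⟩ := LinearMap.congr_fun hr2 ⟨A, hr hAS⟩
  rw [← hf, e1]
  exact congrArg Subtype.val (LinearMap.congr_fun hr1 ⟨A, hr hAS⟩)

end Crest.Agent.R202
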