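import Crest.Agent.R202.NineC
import Crest.Agent.R202.OdePhase
import Crest.Agent.R202.OdeSharp
import Crest.Agent.R202.OdeRes
import Crest.Agent.R202.Ctrl
import Crest.Agent.R202.SGen
import Crest.Agent.R202.Cyc

/-!
# R202/NinePh: the three kinds of phases

All three are instances of `phase` with `Bf = k`.
* `phA`: `R = Q = 0`, `s₁ = s₂ = t₁ + k`, `sec` constant, all `G = 0` (a `Rel` on `[s,s]` has
  `z = z'`); `Δ` from the characterisation by a solution and `Sol.free`.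
* `phII`: `[s₁,s₂] = [a₀, a₁]`, `sec` constant, cuts from `cut_diag` (`δ = C/k^11`),
  `Gp a = (d a + 1/2) T`, `Gm a = (d a - 1/2) T`, `Gs = (2L + 1/2) T`.  The characterising solution
  is free on the buffers, `sharp` on `[a₀,a₁]` with `Z = Σ bmp • (θ j/k^11) • gII (ρ₂ j)` and `G`
  from `exists_slot_flow`; `hbox` identifies `G a₁ = e^{-s} y`.
* `phI`: `[s₁,s₂] = [b₁, b₂]`, `sec = sec ∘ emb`, `κ t = κB plat t`, `R = 0`, `Q t = QD (κ t)`,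
  `|κ'| ≤ C/k^11`; cuts from `cut_res` with `γ t = γu a (κ t)` etc., `Γ = ∫ γ`, and `cut_diag`
  for `univ`.  Use `Y = Unit` in `phase` and take the constant family.  `Δ` is diagonal by
  `eq_of_sec_of_dg`.  `Gm a - Gp b ≥ g k^12 - 2 γM k^11` for a swapped pair (`Cuts.swap` on the
  plateau of length `k^12`).
-/

open scoped ContDiff Topology Matrix Matrix.Norms.L2Operator
open Set Filter

noncomputable section

namespace Crest.Agent.R202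

theorem NinePh_one_le (L N : ℕ) (i : MI L ⊕ HI L N) : 1 ≤ dt L N i := one_le_dg_emb L N i

theorem NinePh_eW_inj (L : ℕ) : Function.Injective (eW L) := fun _ _ h =>
  Subtype.ext (congrArg Subtype.val h :)

theorem NinePh_inl_inj (L N : ℕ) :
    Function.Injective fun a : MI L => (Sum.inl (eW L a) : MI (2 * L) ⊕ HI (2 * L) N) :=
  fun _ _ h => NinePh_eW_inj L (Sum.inl_injective h)

theorem NinePh_cl (L N : ℕ) (i : MI (2 * L)) (a : MI L)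
    (h : dt (2 * L) N (Sum.inl i) = dt (2 * L) N (Sum.inl (eW L a))) : ∃ a', eW L a' = i :=
  ⟨⟨i.1, i.2.1, (show dg i.1 = dg a.1 from h) ▸ a.2.2⟩, rfl⟩

theorem NinePh_cl' (L N : ℕ) (a : MI L) (i : MI (2 * L) ⊕ HI (2 * L) N)
    (h : dt (2 * L) N i = dg a.1) : ∃ a', (Sum.inl (eW L a') : MI (2 * L) ⊕ HI (2 * L) N) = i := by
  rcases i with i | i
  · obtain ⟨a', rfl⟩ := NinePh_cl L N i a h
    exact ⟨a', rfl⟩
  · have h1 : 2 * L < dg i.1 := i.2.1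
    have h2 : dg i.1 = dg a.1 := h
    have h3 := a.2.2
    omega

/-- `phase` for the truncated system -/
theorem NinePh_phase (B : Bg) (L : ℕ) (C₀ : ℝ) (hC₀ : 1 ≤ C₀) :
    ∃ C : ℝ, 1 ≤ C ∧ ∀ (N : ℕ) (Sc : Type) (sc : MI (2 * L) ⊕ HI (2 * L) N → Sc) (om : ℕ → ℝ),
    (∀ l, l ≤ 2 * L → 1 ≤ om l ∧ om l ≤ C₀) →
    ∀ (Y : Type) [TopologicalSpace Y]
      (R Q : Y → ℝ → Matrix (MI (2 * L) ⊕ HI (2 * L) N) (MI (2 * L) ⊕ HI (2 * L) N) ℝ),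
    (Continuous fun z : Y × ℝ => R z.1 z.2) → (Continuous fun z : Y × ℝ => Q z.1 z.2) →
    ∀ (t₁ s₁ s₂ t₂ Bf Gs : ℝ) (Gp Gm : MI L → ℝ), 0 ≤ Bf → t₁ + Bf ≤ s₁ → s₁ ≤ s₂ →
    s₂ + Bf ≤ t₂ →
    (∀ y, ∀ r ∈ Icc t₁ s₁ ∪ Icc s₂ t₂, R y r = 0 ∧ Q y r = 0) →
    (∀ y, ∀ r ∈ Icc s₁ s₂, ∀ σ, Dec {i | sc i = σ} (R y r) ∧ Dec {i | sc i = σ} (Q y r)) →
    (∀ a, Gp a ≤ Gs) →
    (∀ y z z', B.Rel (dt (2 * L) N) (R y) (Q y) s₁ s₂ z z' → Cut univ 0 C₀ z z' ∧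
      (∀ a : MI L, Supp {i | sc i = sc (Sum.inl (eW L a))} z →
        Cut {i | dg a.1 < dt (2 * L) N i} (Gp a) C₀ z z' ∧
        Cut {i | dg a.1 ≤ dt (2 * L) N i} (Gm a) C₀ z z') ∧
      ∀ σ, Supp {i | sc i = σ} z → ∃ G, Gs ≤ G ∧ Cut {i | 2 * L < dt (2 * L) N i} G C₀ z z') →
    ∃ P : PhF Y (MI (2 * L)) (HI (2 * L) N) (MI L), P.Good (C * Real.exp (-Bf / 2)) C ∧ ∀ y,
      P.Act B (dt (2 * L) N) (eW L) om (R y) (Q y) t₁ t₂ y ∧
      (∀ a a', P.Δ y a' a ≠ 0 → sc (Sum.inl (eW L a')) = sc (Sum.inl (eW L a)) ∧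
        dg a'.1 = dg a.1) ∧
      (∀ a : MI L, ∃ w w' : St (MI (2 * L) ⊕ HI (2 * L) N),
        B.Rel (dt (2 * L) N) (R y) (Q y) s₁ s₂ w w' ∧ w.2 = 0 ∧
        (∀ i, dt (2 * L) N i ≤ dg a.1 → w.1 i = if i = Sum.inl (eW L a) then
          Real.exp (B.Ip (dg a.1) t₁ s₁) * om (dg a.1) else 0) ∧
        (∀ i, dg a.1 < dt (2 * L) N i → w'.1 i = 0) ∧
        ∀ a' : MI L, dg a'.1 = dg a.1 →
          P.Δ y a' a = Real.exp (B.Ip (dg a.1) s₂ t₂) * w'.1 (Sum.inl (eW L a'))) ∧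
      ∀ a : MI L, Real.exp (2 * (Gm a + B.Ip (dg a.1) t₁ s₁ + B.Ip (dg a.1) s₂ t₂))
          ≤ C * n2 (fun a' => P.Δ y a' a) ∧
        n2 (fun a' => P.Δ y a' a) ≤ C * Real.exp
          (2 * (Gp a + B.Ip (dg a.1) t₁ s₁ + B.Ip (dg a.1) s₂ t₂)) := by
  obtain ⟨C, hC, H⟩ := phase B (MI (2 * L)) (MI L) (2 * L) C₀ hC₀
  refine ⟨C, hC, ?_⟩
  intro N Sc sc om hom Y _ R Q hR hQ t₁ s₁ s₂ t₂ Bf Gs Gp Gm hB h1 h2 h3 hfree hdec hG hcut
  obtain ⟨P, hP, H'⟩ := H (HI (2 * L) N) (dt (2 * L) N) (eW L) Sc sc om (NinePh_one_le _ _)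
    (fun i => i.2.2) (fun i => i.2.1) (NinePh_eW_inj L) (NinePh_cl L N) hom Y R Q hR hQ
    t₁ s₁ s₂ t₂ Bf Gs Gp Gm hB h1 h2 h3 hfree hdec hG hcut
  have h : PhCtx (dt (2 * L) N) sc R Q t₁ s₁ s₂ t₂ Bf :=
    ⟨NinePh_one_le _ _, hR, hQ, hB, h1, h2, h3, hfree, hdec⟩
  refine ⟨P, hP, fun y => ⟨(H' y).1, (H' y).2.1, fun a => ?_, (H' y).2.2.2⟩⟩
  obtain ⟨z, z', hr, hz2, -, hz, hz', hΔ⟩ := (H' y).2.2.1 a
  obtain ⟨w, w', hw, hi⟩ := h.split hr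
  refine ⟨w, w', hw, funext fun i => (PH_zero (hi.m1 i)).2 (congrFun hz2 i), fun i hi' => ?_,
    fun i hi' => (PH_zero (hi.p2 i)).1 (hz' i hi'), fun a' ha' => ?_⟩
  · rw [hi.p1 i, hz i hi']
    split_ifs with c
    · subst c; rfl
    · exact mul_zero _
  · rw [hΔ a' ha', hi.p2, ← ha']; rfl

theorem NinePh_cut_refl {ι : Type} [Fintype ι] [DecidableEq ι] (U : Set ι) {C : ℝ} (hC : 1 ≤ C)
    (z : St ι) : Cut U 0 C z z := by
  refine Cut.mono (C := 1) ?_ hC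
  unfold Cut
  simp only [mul_zero, Real.exp_zero, one_mul]
  linarith

theorem NinePh_dec_unit {ι : Type} (σ : Unit) (A : Matrix ι ι ℝ) :
    Dec {i : ι | (fun _ : ι => ()) i = σ} A := fun i j h => by
  simp at h

theorem phA (B : Bg) (L : ℕ) {Co : ℝ} (hCo : 1 ≤ Co) : ∃ C : ℝ, 1 ≤ C ∧ ∀ (k N : ℕ) (om : ℕ → ℝ)
    (t₁ t₂ : ℝ), (∀ l, l ≤ 2 * L → 1 ≤ om l ∧ om l ≤ Co) → t₁ + 2 * k ≤ t₂ →
    ∃ P : PhF (Matrix (MI L) (MI L) ℝ) (MI (2 * L)) (HI (2 * L) N) (MI L),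
      P.Good (C * Real.exp (-(k : ℝ) / 2)) C ∧ ∀ y,
        P.Act B (dt (2 * L) N) (eW L) om 0 0 t₁ t₂ y ∧
        P.Δ y = Matrix.diagonal fun a => om (dg a.1) * Real.exp (B.Ip (dg a.1) t₁ t₂) := by
  obtain ⟨C, hC, H⟩ := NinePh_phase B L Co hCo
  refine ⟨C, hC, fun k N om t₁ t₂ hom ht => ?_⟩
  have hrel : ∀ (z z' : St (MI (2 * L) ⊕ HI (2 * L) N)),
      B.Rel (dt (2 * L) N) 0 0 (t₁ + k) (t₁ + k) z z' → z' = z := by
    rintro z z' ⟨u, p, -, h1, h2⟩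
    exact h2.symm.trans h1
  obtain ⟨P, hP, H'⟩ := H N Unit (fun _ => ()) om hom (Matrix (MI L) (MI L) ℝ) (fun _ => 0)
    (fun _ => 0) continuous_const continuous_const t₁ (t₁ + k) (t₁ + k) t₂ k 0 0 0
    (Nat.cast_nonneg k) le_rfl le_rfl (by linarith) (fun _ _ _ => ⟨rfl, rfl⟩)
    (fun _ _ _ σ => ⟨NinePh_dec_unit σ _, NinePh_dec_unit σ _⟩) (fun _ => le_rfl)
    (fun y z z' hr => by
      rw [hrel z z' hr]
      exact ⟨NinePh_cut_refl _ hCo z, fun a _ => ⟨NinePh_cut_refl _ hCo z, NinePh_cut_refl _ hCo z⟩,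
        fun σ _ => ⟨0, le_rfl, NinePh_cut_refl _ hCo z⟩⟩)
  refine ⟨P, hP, fun y => ⟨(H' y).1, ?_⟩⟩
  ext a' a
  by_cases c : dg a'.1 = dg a.1
  · obtain ⟨w, w', hw, -, h1, -, h2⟩ := (H' y).2.2.1 a
    rw [h2 a' c, hrel w w' hw, h1 (Sum.inl (eW L a')) c.le]
    by_cases b : a' = a
    · subst b
      rw [if_pos rfl, Matrix.diagonal_apply_eq, ← B.Ip_add _ t₁ (t₁ + k) t₂, Real.exp_add]
      ring
    · rw [if_neg fun b' => b (NinePh_inl_inj L N b'), Matrix.diagonal_apply_ne _ b, mul_zero]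
  · rw [Matrix.diagonal_apply_ne _ fun b => c (by rw [b])]
    by_contra b
    exact c ((H' y).2.1 a a' b).2

theorem NinePh_RR_sum (Y : I0 → Pl 3) {K K' : ℕ} (ρ : Fin K → Pl 3) (b : Fin K' → ℝ)
    (c : Fin K' → Fin K → ℝ) : RR Y ρ (∑ j, b j • c j) = ∑ j, b j • RR Y ρ (c j) := by
  simp only [RR, Finset.sum_apply, Pi.smul_apply, smul_eq_mul, Finset.sum_smul, Finset.smul_sum,
    mul_smul]
  exact Finset.sum_comm

theorem NinePh_RR_cII (Y : I0 → Pl 3) (Λ : Lay) (ρ₂ : Fin Λ.K₂ → Pl 3) (ρz : Fin Λ.Kz → Pl 3)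
    (k : ℕ) (θ : Fin Λ.K₂ → ℝ) (t : ℝ) : RR Y (Λ.gρ ρ₂ ρz) (Λ.cII k θ t) =
      ∑ j : Fin Λ.K₂, bmp ((t - Λ.a₀ k) / (k : ℝ) ^ 11 - (j : ℕ)) •
        (θ j / (k : ℝ) ^ 11) • mR Y (ρ₂ j) := by
  rw [Lay.cII, slots, NinePh_RR_sum]
  simp only [RR_single, Lay.gρ_II]

theorem NinePh_QQ_cII (Y : I0 → Pl 3) (Λ : Lay) (az : Fin Λ.Kz → Fin 3 → Pl 3)
    (k : ℕ) (θ : Fin Λ.K₂ → ℝ) (t : ℝ) : QQ Y (Λ.ga az) (Λ.cII k θ t) = 0 := by
  refine Finset.sum_eq_zero fun i _ => ?_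
  by_cases h : ∃ j : Fin Λ.K₂, i = (Fin.castAdd Λ.Kz j).succ
  · obtain ⟨j, rfl⟩ := h
    rw [Lay.ga_II, mQ_zero.1, mQ_zero.2, smul_zero, smul_zero, add_zero]
  · have : Λ.cII k θ t i = 0 := by
      rw [Lay.cII, slots, Finset.sum_apply]
      refine Finset.sum_eq_zero fun j _ => ?_
      rw [Pi.smul_apply, Pi.single_eq_of_ne fun b => h ⟨j, b⟩, smul_zero]
    rw [this]
    simp

theorem NinePh_entry {ι : Type} [Fintype ι] [DecidableEq ι] {d : ι → ℕ} {δ : ℝ}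
    {R Q : Matrix ι ι ℝ} (h : Pb d δ R Q) (i j : ι) : |R i j| ≤ δ := by
  have := h.1 (Pi.single i 1) (Pi.single j 1)
  rw [PH_single, PH_single] at this
  simp only [Matrix.mulVec_single_one, single_dotProduct, one_mul, Matrix.col_apply] at this
  linarith

theorem NinePh_harm {x x' m : ℝ} (hx : 0 ≤ x) (hx' : 0 ≤ x') (hm : 0 < m) :
    |x * m / (x + m) - x' * m / (x' + m)| ≤ |x - x'| := by
  have h1 : 0 < x + m := by linarith
  have h2 : 0 < x' + m := by linarith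
  have e : x * m / (x + m) - x' * m / (x' + m) = (x - x') * (m / (x + m) * (m / (x' + m))) := by
    field_simp
    ring
  rw [e, abs_mul]
  refine mul_le_of_le_one_right (abs_nonneg _) ?_
  rw [abs_of_nonneg (by positivity)]
  exact mul_le_one₀ ((div_le_one h1).2 (by linarith)) (by positivity)
    ((div_le_one h2).2 (by linarith))

/-- the coefficient of the projected generator converges -/
theorem NinePh_coef (B : Bg) {ε : ℝ} (hε : 0 < ε) : ∃ T : ℝ, ∀ r, T ≤ r → ∀ l : ℕ, 1 ≤ l →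
    |-(B.bm l r * B.bp l r) / (B.bp l r - B.bm l r)
      - (B.a l + B.b) * B.a l / (2 * B.a l + B.b)| ≤ ε := by
  obtain ⟨T, hT⟩ := B.lim (ε / 2) (by linarith)
  refine ⟨T, fun r hr l hl => ?_⟩
  obtain ⟨h1, h2⟩ := hT r hr l hl
  have h3 := B.bp_le l r
  have h4 := B.bm_le l r
  have h5 := B.bp_ge l r
  have h6 := B.le_a l
  have hl' : (1 : ℝ) ≤ l := by exact_mod_cast hl
  have hb := B.b_pos
  change B.a l - ε / 2 ≤ _ at h1
  change -(B.a l + B.b) - ε / 2 ≤ _ at h2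
  change _ ≤ B.a l at h3
  change _ ≤ -(B.a l + B.b) at h4
  have a1 := NinePh_harm (x := B.bp l r) (x' := B.a l) (m := -B.bm l r) (by linarith)
    (by linarith) (by linarith)
  have a2 := NinePh_harm (x := -B.bm l r) (x' := B.a l + B.b) (m := B.a l) (by linarith)
    (by linarith) (by linarith)
  have a3 : |B.bp l r - B.a l| ≤ ε / 2 := abs_le.2 ⟨by linarith, by linarith⟩
  have a4 : |-B.bm l r - (B.a l + B.b)| ≤ ε / 2 := abs_le.2 ⟨by linarith, by linarith⟩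
  have e : -(B.bm l r * B.bp l r) / (B.bp l r - B.bm l r)
      - (B.a l + B.b) * B.a l / (2 * B.a l + B.b) =
      (B.bp l r * -B.bm l r / (B.bp l r + -B.bm l r) - B.a l * -B.bm l r / (B.a l + -B.bm l r))
      + (-B.bm l r * B.a l / (-B.bm l r + B.a l)
        - (B.a l + B.b) * B.a l / (B.a l + B.b + B.a l)) := by
    rw [add_comm (-B.bm l r) (B.a l), show B.a l + B.b + B.a l = 2 * B.a l + B.b by ring,
      ← sub_eq_add_neg]
    ring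
  rw [e]
  exact (abs_add_le _ _).trans (by linarith)

theorem NinePh_coef_le (B : Bg) (l : ℕ) :
    |(B.a l + B.b) * B.a l / (2 * B.a l + B.b)| ≤ l + 1 := by
  have h1 := B.le_a l
  have h2 := B.a_le l
  have h3 := B.b_pos
  have h0 : (0 : ℝ) ≤ l := Nat.cast_nonneg l
  have h4 : 0 ≤ B.a l := h0.trans h1
  rw [abs_of_nonneg (by positivity), div_le_iff₀ (by positivity)]
  nlinarith

theorem NinePh_tendsto (A : ℝ) : Tendsto (fun k : ℕ => A / (k : ℝ) ^ 11) atTop (𝓝 0) :=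
  tendsto_const_nhds.div_atTop
    ((tendsto_pow_atTop (by norm_num)).comp tendsto_natCast_atTop_atTop)

theorem NinePh_le_a₀ (Λ : Lay) {k : ℕ} (hk : 1 ≤ k) : (k : ℝ) ≤ Λ.a₀ k := by
  have h1 : (1 : ℝ) ≤ k := by exact_mod_cast hk
  have h2 : (k : ℝ) ≤ (k : ℝ) ^ 14 := le_self_pow₀ h1 (by norm_num)
  unfold Lay.a₀
  linarith

theorem NinePh_a₀_le (Λ : Lay) (k : ℕ) : Λ.a₀ k ≤ Λ.a₁ k :=
  le_add_of_nonneg_right (by positivity)

/-- one column of a slow phase -/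
theorem NinePh_col (Y : I0 → Pl 3) (B : Bg) (L : ℕ) (Λ : Lay) (ρ₂ : Fin Λ.K₂ → Pl 3)
    (ρz : Fin Λ.Kz → Pl 3) (az : Fin Λ.Kz → Fin 3 → Pl 3) {A : ℝ} (hA : 0 ≤ A) (a' : MI L)
    {ε : ℝ} (hε : 0 < ε) :
    ∀ᶠ k : ℕ in atTop, ∀ (N : ℕ) (θ : Fin Λ.K₂ → ℝ) (c : ℝ)
      (w w' : St (MI (2 * L) ⊕ HI (2 * L) N)),
      (∀ r, Pb (dt (2 * L) N) (A / (k : ℝ) ^ 11) (Rt Y (Λ.gρ ρ₂ ρz) (2 * L) N (Λ.cII k θ r))
        (Qt Y (Λ.ga az) (2 * L) N (Λ.cII k θ r))) →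
      B.Rel (dt (2 * L) N) (fun t => Rt Y (Λ.gρ ρ₂ ρz) (2 * L) N (Λ.cII k θ t))
        (fun t => Qt Y (Λ.ga az) (2 * L) N (Λ.cII k θ t)) (Λ.a₀ k) (Λ.a₁ k) w w' → w.2 = 0 →
      0 < c → (∀ i, dt (2 * L) N i ≤ dg a'.1 →
        w.1 i = if i = Sum.inl (eW L a') then c else 0) →
      (∀ i, dg a'.1 < dt (2 * L) N i → w'.1 i = 0) →
      ∀ a : MI L, dg a.1 = dg a'.1 →
        |Real.exp (-B.Ip (dg a'.1) (Λ.a₀ k) (Λ.a₁ k)) * w'.1 (Sum.inl (eW L a)) / c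
          - tprod (fun j => NormedSpace.exp (θ j • gII B Y L (ρ₂ j))) a a'| ≤ ε := by
  obtain ⟨δ₀, hδ₀, C, hC, H⟩ := sharp B (dg a'.1) (Fintype.card (MI L)) (A * Λ.K₂ + (L + 1))
  have hε' : 0 < ε / (2 * (C + 1)) := by positivity
  obtain ⟨T, hT⟩ := NinePh_coef B hε'
  filter_upwards [eventually_ge_atTop 1, tendsto_natCast_atTop_atTop.eventually_ge_atTop T,
    (NinePh_tendsto A).eventually_le_const hδ₀, (NinePh_tendsto A).eventually_le_const hε']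
    with k hk1 hkT hk2 hk3
  intro N θ c w w' hP hr hw2 hc hw hw' a ha
  have hk0 : (0 : ℝ) < (k : ℝ) ^ 11 := by
    have : (0 : ℝ) < k := by exact_mod_cast hk1
    positivity
  have hδ : 0 ≤ A / (k : ℝ) ^ 11 := by positivity
  obtain ⟨G, hG0, hG, hG1⟩ :=
    exists_slot_flow (fun j => (θ j / (k : ℝ) ^ 11) • gII B Y L (ρ₂ j)) (Λ.a₀ k) hk0
  have hZ : ∀ (r : ℝ) (i j : MI L), (∑ m : Fin Λ.K₂, bmp ((r - Λ.a₀ k) / (k : ℝ) ^ 11 - (m : ℕ)) •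
      (θ m / (k : ℝ) ^ 11) • gII B Y L (ρ₂ m)) i j = if dg i.1 = dg j.1 then
        (B.a (dg i.1) + B.b) * B.a (dg i.1) / (2 * B.a (dg i.1) + B.b) *
          Rt Y (Λ.gρ ρ₂ ρz) (2 * L) N (Λ.cII k θ r) (Sum.inl (eW L i)) (Sum.inl (eW L j))
      else 0 := by
    intro r i j
    rw [Rt, Matrix.submatrix_apply, NinePh_RR_cII, Matrix.sum_apply, Matrix.sum_apply]
    simp only [Matrix.smul_apply, gII, smul_eq_mul]
    split_ifs with h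
    · rw [Finset.mul_sum]
      refine Finset.sum_congr rfl fun m _ => ?_
      show _ = _ * (_ * (_ * mR Y (ρ₂ m) i.1 j.1))
      ring
    · simp
  have hL : ∀ i : MI L, (dg i.1 : ℝ) ≤ L := fun i => by exact_mod_cast i.2.2
  have key := (H (MI (2 * L) ⊕ HI (2 * L) N) (MI L) (dt (2 * L) N) (fun a => Sum.inl (eW L a))
    (NinePh_one_le _ _) le_rfl (NinePh_inl_inj L N) (fun i hi => NinePh_cl' L N a' i hi)
    _ _ _ G (Λ.a₀ k) (Λ.a₁ k) (A / (k : ℝ) ^ 11) (ε / (2 * (C + 1))) w w' (NinePh_a₀_le Λ k) hδ hk2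
    (by
      rw [Lay.a₁, add_sub_cancel_left]
      have : A / (k : ℝ) ^ 11 * (Λ.K₂ * (k : ℝ) ^ 11) = A * Λ.K₂ := by field_simp
      rw [this]
      exact le_add_of_nonneg_right (by positivity)) hε'.le
    (fun r hr' => ⟨hP r, fun i j hij => (hZ r i j).trans (if_neg hij), fun i j => by
      rw [hZ]
      split_ifs with h
      · rw [abs_mul]
        refine mul_le_mul ((NinePh_coef_le B _).trans ?_) (NinePh_entry (hP r) _ _) (abs_nonneg _)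
          (by positivity)
        have := hL i
        have : 0 ≤ A * Λ.K₂ := by positivity
        linarith
      · rw [abs_zero]; positivity, hG r, fun i j hi hj => by
      have hi' : dg i.1 = dg a'.1 := hi
      have hj' : dg j.1 = dg a'.1 := hj
      rw [hZ, if_pos (hi'.trans hj'.symm), hi', Qt, NinePh_QQ_cII]
      have h1 := hT r (hkT.trans ((NinePh_le_a₀ Λ hk1).trans hr'.1)) _ a'.2.1
      have h2 := NinePh_entry (hP r) (Sum.inl (eW L i)) (Sum.inl (eW L j))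
      refine le_trans (le_of_eq ?_) (mul_le_mul h1 h2 (abs_nonneg _) hε'.le)
      rw [← abs_mul]
      congr 1
      simp only [Matrix.submatrix_apply, Matrix.zero_apply]
      ring⟩) hG0 hr
    (funext fun i => by
      by_cases hi : dg a'.1 < dt (2 * L) N i
      · rw [PH_mem (U := {i | dg a'.1 < dt (2 * L) N i}) hi]; exact hw' i hi
      · exact PH_not (U := {i | dg a'.1 < dt (2 * L) N i}) hi _)
    (funext fun i => by
      by_cases hi : dt (2 * L) N i < dg a'.1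
      · rw [PH_mem (U := {i | dt (2 * L) N i < dg a'.1}) hi, hw i hi.le, if_neg]
        · rfl
        · rintro rfl; exact lt_irrefl _ hi
      · exact PH_not (U := {i | dt (2 * L) N i < dg a'.1}) hi _)).1
  have e1 : msk {i | dt (2 * L) N i = dg a'.1} w.1 = c • Pi.single (Sum.inl (eW L a')) 1 := by
    funext i
    by_cases hi : dt (2 * L) N i = dg a'.1
    · rw [PH_mem (U := {i | dt (2 * L) N i = dg a'.1}) hi, hw i hi.le]
      simp [Pi.single_apply]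
    · rw [PH_not (U := {i | dt (2 * L) N i = dg a'.1}) hi, Pi.smul_apply, Pi.single_eq_of_ne,
        smul_zero]
      rintro rfl; exact hi rfl
  have e2 : (fun b : MI L => if dt (2 * L) N (Sum.inl (eW L b)) = dg a'.1 then
      w.1 (Sum.inl (eW L b)) else 0) = Pi.single a' c := by
    funext b
    by_cases hb : b = a'
    · subst hb
      rw [if_pos (show dt (2 * L) N (Sum.inl (eW L b)) = dg b.1 from rfl),
        hw (Sum.inl (eW L b)) le_rfl, if_pos rfl, Pi.single_eq_same]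
    · rw [Pi.single_eq_of_ne hb]
      split_ifs with h
      · rw [hw _ h.le, if_neg fun b' => hb (NinePh_inl_inj L N b')]
      · rfl
  rw [e1, e2, hw2, PH_n2_zero, Real.sqrt_zero, mul_zero, add_zero, OdeBasic_n2_smul, PH_single,
    mul_one, Real.sqrt_sq hc.le] at key
  have k2 := (Real.abs_le_sqrt (sq_le_n2 _ a)).trans key
  have e3 : G (Λ.a₁ k) = tprod (fun j => NormedSpace.exp (θ j • gII B Y L (ρ₂ j))) := by
    rw [Lay.a₁, hG1]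
    congr 1
    funext j
    rw [smul_smul, mul_div_cancel₀ _ hk0.ne']
  rw [Pi.sub_apply, if_pos (show dt (2 * L) N (Sum.inl (eW L a)) = dg a'.1 from ha), e3,
    Matrix.mulVec_single] at k2
  have k3 : C * (ε / (2 * (C + 1)) + A / (k : ℝ) ^ 11) ≤ ε := by
    have h1 : (C + 1) * (ε / (2 * (C + 1)) + ε / (2 * (C + 1))) = ε := by field_simp; ring
    refine le_trans ?_ h1.le
    exact mul_le_mul (by linarith) (by linarith) (by positivity) (by positivity)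
  refine le_trans ?_ k3
  refine le_of_mul_le_mul_right (le_trans (le_of_eq ?_) k2) hc
  rw [← abs_of_pos hc, ← abs_mul, abs_of_pos hc]
  congr 1
  simp only [Pi.smul_apply, Matrix.col_apply, MulOpposite.smul_eq_mul_unop, MulOpposite.unop_op]
  field_simp

theorem NinePh_pb_cII {Y : I0 → Pl 3} (h : SB Y) (Λ : Lay) (ρ : Fin Λ.N → Pl 3)
    (a : Fin Λ.N → Fin 3 → Pl 3) {Θ : ℝ} (hΘ : 0 ≤ Θ) : ∃ A : ℝ, 0 ≤ A ∧ ∀ᶠ k : ℕ in atTop,
      ∀ (L N : ℕ) (θ : Fin Λ.K₂ → ℝ), (∀ j, |θ j| ≤ Θ) → ∀ r,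
        Pb (dt L N) (A / (k : ℝ) ^ 11) (Rt Y ρ L N (Λ.cII k θ r)) (Qt Y a L N (Λ.cII k θ r)) := by
  obtain ⟨C, hC, H⟩ := h.pb_small ρ a
  obtain ⟨Bs, hBs, Hs⟩ := exists_slots_bound (P := Fin Λ.N → ℝ)
  refine ⟨C * (Bs * Θ), by positivity, ?_⟩
  filter_upwards [eventually_ge_atTop 1, (NinePh_tendsto (Bs * Θ)).eventually_le_const one_pos]
    with k hk1 hk2 L N θ hθ r
  have hk : (1 : ℝ) ≤ (k : ℝ) ^ 11 := one_le_pow₀ (by exact_mod_cast hk1)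
  rw [mul_div_assoc]
  refine H L N _ _ hk2 ?_
  rw [mul_div_assoc]
  refine (Hs _ _ _ _ _ hk (by positivity) (fun j => ?_) r).1
  rw [Pi.norm_single, Real.norm_eq_abs, abs_div, abs_of_nonneg (a := (k : ℝ) ^ 11) (by positivity)]
  exact div_le_div_of_nonneg_right (hθ j) (by positivity)

set_option maxHeartbeats 1000000 in
theorem phII {Y : I0 → Pl 3} (h : SB Y) (B : Bg) (L : ℕ) (Λ : Lay) (ρ₂ : Fin Λ.K₂ → Pl 3)
    (ρz : Fin Λ.Kz → Pl 3) (az : Fin Λ.Kz → Fin 3 → Pl 3) {Co : ℝ} (hCo : 1 ≤ Co)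
    {P₀ : Matrix (MI L) (MI L) ℝ} {r Θ : ℝ} {θ : Matrix (MI L) (MI L) ℝ → Fin Λ.K₂ → ℝ}
    {s : Matrix (MI L) (MI L) ℝ → ℕ → ℝ} (hθ : Continuous θ) (hθΘ : ∀ y j, |θ y j| ≤ Θ)
    (hsΘ : ∀ y l, |s y l| ≤ Θ)
    (hbox : ∀ y ∈ box (fun a : MI L => dg a.1) P₀ r,
      Matrix.diagonal (fun i : MI L => Real.exp (s y (dg i.1)))
        * tprod (fun j => NormedSpace.exp (θ y j • gII B Y L (ρ₂ j))) = y) :
    ∃ C : ℝ, 1 ≤ C ∧ ∀ ε > 0, ∃ k₁ : ℕ, ∀ k : ℕ, k₁ ≤ k → ∀ (N : ℕ) (om : ℕ → ℝ) (t₁ : ℝ),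
      (∀ l, l ≤ 2 * L → 1 ≤ om l ∧ om l ≤ Co) → t₁ + k ≤ Λ.a₀ k →
      ∃ P : PhF (Matrix (MI L) (MI L) ℝ) (MI (2 * L)) (HI (2 * L) N) (MI L),
        P.Good (C * Real.exp (-(k : ℝ) / 2)) C ∧ ∀ y,
          P.Act B (dt (2 * L) N) (eW L) om
            (fun t => Rt Y (Λ.gρ ρ₂ ρz) (2 * L) N (Λ.cII k (θ y) t))
            (fun t => Qt Y (Λ.ga az) (2 * L) N (Λ.cII k (θ y) t)) t₁ (Λ.e₁ k) y ∧
          Blk (fun a : MI L => dg a.1) (P.Δ y) ∧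
          (y ∈ box (fun a : MI L => dg a.1) P₀ r → ∀ a a', |Real.exp (s y (dg a.1))
            * (P.Δ y a a' / (om (dg a.1) * Real.exp (B.Ip (dg a.1) t₁ (Λ.e₁ k)))) - y a a'| ≤ ε) := by
  obtain ⟨C, hC, H⟩ := NinePh_phase B L Co hCo
  have hΘ : 0 ≤ Θ := (abs_nonneg _).trans (hsΘ 0 0)
  obtain ⟨A, hA, hPb⟩ := NinePh_pb_cII h Λ (Λ.gρ ρ₂ ρz) (Λ.ga az) hΘ
  obtain ⟨δ₀, hδ₀, hcut⟩ := cut_diag B
  refine ⟨C, hC, fun ε hε => ?_⟩
  have hε' : 0 < ε / Real.exp Θ := div_pos hε (Real.exp_pos _)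
  have hδ' : 0 < δ₀ / (2 * L + 1) := by positivity
  refine eventually_atTop.1 ?_
  filter_upwards [eventually_ge_atTop 1, hPb, (NinePh_tendsto A).eventually_le_const hδ',
    eventually_all.2 fun a' : MI L => NinePh_col Y B L Λ ρ₂ ρz az hA a' hε']
    with k hk1 hk2 hk3 hk4 N om t₁ hom ht₁
  have hk0 : (0 : ℝ) < (k : ℝ) ^ 11 := by
    have : (0 : ℝ) < k := by exact_mod_cast hk1
    positivity
  have hδ : 0 ≤ A / (k : ℝ) ^ 11 := by positivity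
  have hT : 0 ≤ Λ.a₁ k - Λ.a₀ k := sub_nonneg.2 (NinePh_a₀_le Λ k)
  have hsm : ∀ l : ℕ, l ≤ 2 * L → A / (k : ℝ) ^ 11 * (l + 1) ≤ δ₀ := fun l hl => by
    have h1 : (l : ℝ) ≤ 2 * L := by exact_mod_cast hl
    rw [le_div_iff₀ (by positivity)] at hk3
    exact le_trans (mul_le_mul_of_nonneg_left (by linarith) hδ) hk3
  have hc : Continuous fun z : Matrix (MI L) (MI L) ℝ × ℝ => Λ.cII k (θ z.1) z.2 :=
    (Λ.continuous_cII k).comp' ((hθ.comp' continuous_fst).prodMk continuous_snd)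
  obtain ⟨P, hP, H'⟩ := H N Unit (fun _ => ()) om hom (Matrix (MI L) (MI L) ℝ)
    (fun y t => Rt Y (Λ.gρ ρ₂ ρz) (2 * L) N (Λ.cII k (θ y) t))
    (fun y t => Qt Y (Λ.ga az) (2 * L) N (Λ.cII k (θ y) t))
    ((continuous_Rt _ _ _ _).comp' hc) ((continuous_Qt _ _ _ _).comp' hc)
    t₁ (Λ.a₀ k) (Λ.a₁ k) (Λ.e₁ k) k ((((2 * L : ℕ) : ℝ) + 1 / 2) * (Λ.a₁ k - Λ.a₀ k))
    (fun a => ((dg a.1 : ℝ) + 1 / 2) * (Λ.a₁ k - Λ.a₀ k))
    (fun a => (((dg a.1 - 1 : ℕ) : ℝ) + 1 / 2) * (Λ.a₁ k - Λ.a₀ k))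
    (Nat.cast_nonneg k) ht₁ (NinePh_a₀_le Λ k) le_rfl
    (fun y r hr => by
      have : Λ.cII k (θ y) r = 0 := by
        rcases hr with hr | hr
        · exact slots_of_le hk0 _ hr.2
        · exact slots_of_ge hk0 _ hr.1
      rw [this]
      exact ⟨Rt_zero _ _ _ _, Qt_zero _ _ _ _⟩)
    (fun _ _ _ σ => ⟨NinePh_dec_unit σ _, NinePh_dec_unit σ _⟩)
    (fun a => by
      refine mul_le_mul_of_nonneg_right (add_le_add_left ?_ _) hT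
      exact_mod_cast a.2.2.trans (by omega))
    (fun y z z' hr => by
      obtain ⟨c1, c2⟩ := hcut _ (dt (2 * L) N) (NinePh_one_le _ _) _ _ _ _ _ z z'
        (NinePh_a₀_le Λ k) hδ (fun r _ => hk2 (2 * L) N (θ y) (hθΘ y) r) hr
      refine ⟨(c1 (by simpa using hsm 0 (Nat.zero_le _))).mono hCo, fun a _ =>
        ⟨(c2 _ (hsm _ (a.2.2.trans (by omega)))).mono hCo, ?_⟩,
        fun σ _ => ⟨_, le_rfl, (c2 _ (hsm _ le_rfl)).mono hCo⟩⟩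
      have e : {i | dg a.1 ≤ dt (2 * L) N i} = {i | dg a.1 - 1 < dt (2 * L) N i} := by
        ext i
        have := a.2.1
        simp only [mem_ofPred_eq]
        omega
      rw [e]
      exact (c2 _ (hsm _ (by have := a.2.2; omega))).mono hCo)
  have hblk : ∀ y, Blk (fun a : MI L => dg a.1) (P.Δ y) := fun y i j hij => by
    by_contra b
    exact hij ((H' y).2.1 j i b).2
  refine ⟨P, hP, fun y => ⟨(H' y).1, hblk y, fun hy a a' => ?_⟩⟩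
  by_cases c : dg a.1 = dg a'.1
  swap
  · rw [hblk y a a' c, hy.1 a a' c]
    simpa using hε.le
  obtain ⟨w, w', hw, h0, h1, h2, h3⟩ := (H' y).2.2.1 a'
  have hom' : 0 < om (dg a'.1) := one_pos.trans_le (hom _ (a'.2.2.trans (by omega))).1
  have k1 := hk4 a' N (θ y) _ w w' (hk2 (2 * L) N (θ y) (hθΘ y)) hw h0 (by positivity) h1 h2 a c
  have k2 := congrFun (congrFun (hbox y hy) a) a'
  rw [Matrix.diagonal_mul] at k2
  rw [← k2, ← mul_sub, abs_mul, abs_of_pos (Real.exp_pos _), h3 a c, c]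
  have k3 : Real.exp (B.Ip (dg a'.1) (Λ.a₁ k) (Λ.e₁ k)) * w'.1 (Sum.inl (eW L a)) /
      (om (dg a'.1) * Real.exp (B.Ip (dg a'.1) t₁ (Λ.e₁ k))) =
      Real.exp (-B.Ip (dg a'.1) (Λ.a₀ k) (Λ.a₁ k)) * w'.1 (Sum.inl (eW L a)) /
        (Real.exp (B.Ip (dg a'.1) t₁ (Λ.a₀ k)) * om (dg a'.1)) := by
    rw [← B.Ip_add _ t₁ (Λ.a₀ k) (Λ.e₁ k), ← B.Ip_add _ (Λ.a₀ k) (Λ.a₁ k) (Λ.e₁ k), Real.exp_add,
      Real.exp_add, Real.exp_neg]
    field_simp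
  rw [k3]
  refine (mul_le_mul (Real.exp_le_exp.2 ((le_abs_self _).trans (hsΘ y _))) k1 (abs_nonneg _)
    (Real.exp_pos _).le).trans (le_of_eq ?_)
  field_simp

/-- the height of the plateau function -/
def NinePh_κ (Λ : Lay) (k : ℕ) (t : ℝ) : ℝ := Λ.κB * plat (Λ.b₁ k) (Λ.b₂ k) ((k : ℝ) ^ 11) t

theorem NinePh_Rt_cI (Y : I0 → Pl 3) (Λ : Lay) (ρ₂ : Fin Λ.K₂ → Pl 3) (ρz : Fin Λ.Kz → Pl 3)
    (L N k : ℕ) (t : ℝ) : Rt Y (Λ.gρ ρ₂ ρz) L N (Λ.cI k t) = 0 := by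
  rw [Rt, Lay.cI, RR_single, Lay.gρ_zero, mR_zero, smul_zero]
  rfl

theorem NinePh_Qt_cI (Y : I0 → Pl 3) (Λ : Lay) (az : Fin Λ.Kz → Fin 3 → Pl 3)
    (L N k : ℕ) (t : ℝ) : Qt Y (Λ.ga az) L N (Λ.cI k t) =
      (QD Y (NinePh_κ Λ k t)).submatrix (emb L N) (emb L N) := by
  rw [Qt, Lay.cI, QQ_single, Lay.ga_zero]
  rfl

theorem NinePh_κ_mem {Λ : Lay} (h : 0 ≤ Λ.κB) (k : ℕ) (t : ℝ) : NinePh_κ Λ k t ∈ Icc 0 Λ.κB :=
  ⟨mul_nonneg h (plat_mem _ _ _ _).1, mul_le_of_le_one_right h (plat_mem _ _ _ _).2⟩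

theorem NinePh_κ_deriv (Λ : Lay) (k : ℕ) (t : ℝ) : HasDerivAt (NinePh_κ Λ k)
    (Λ.κB * deriv (plat (Λ.b₁ k) (Λ.b₂ k) ((k : ℝ) ^ 11)) t) t :=
  (((plat_smooth _ _ _).differentiable (by simp) t).hasDerivAt).const_mul _

theorem NinePh_κ_cont (Λ : Lay) (k : ℕ) : Continuous (NinePh_κ Λ k) :=
  continuous_iff_continuousAt.2 fun t => (NinePh_κ_deriv Λ k t).continuousAt

theorem NinePh_QD_zero (Y : I0 → Pl 3) : QD Y 0 = 0 := by simp [QD]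

theorem NinePh_b₁_le (Λ : Lay) (k : ℕ) : Λ.b₁ k ≤ Λ.b₂ k := by
  have : (0 : ℝ) ≤ (k : ℝ) ^ 12 + 2 * (k : ℝ) ^ 11 := by positivity
  unfold Lay.b₂
  linarith

theorem NinePh_le_b₁ (Λ : Lay) {k : ℕ} (hk : 1 ≤ k) : (k : ℝ) ≤ Λ.b₁ k := by
  have h1 := NinePh_le_a₀ Λ hk
  have h2 := NinePh_a₀_le Λ k
  have h3 : (0 : ℝ) ≤ k := Nat.cast_nonneg k
  have h4 : (0 : ℝ) ≤ Λ.Kz := Nat.cast_nonneg _
  unfold Lay.b₁ Lay.e₁
  linarith

theorem NinePh_dec_QD {Y : I0 → Pl 3} (h : SB Y) (L N : ℕ) (κ : ℝ) (σ : ℕ × ℤ) :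
    Dec {i | sec (emb L N i) = σ} ((QD Y κ).submatrix (emb L N) (emb L N)) := fun i j hij => by
  have : sec (emb L N i) ≠ sec (emb L N j) := fun b => by
    simp only [mem_ofPred_eq, b] at hij
    exact iff_not_self hij
  simp [QD, (h.mQ_aD_eq_zero this).1, (h.mQ_aD_eq_zero this).2]

/-- the adiabatic cut along the plateau -/
theorem NinePh_cut {Y : I0 → Pl 3} (h : SB Y) (B : Bg) (hB : B.β₀ = 1) (Λ : Lay) (h0 : 0 ≤ Λ.κB)
    (h1 : Λ.κB ≤ 1) (hP : ∀ (ι : Type) [Fintype ι] [DecidableEq ι] (e : ι → I0),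
      Function.Injective e → ∀ κ ∈ Icc 0 Λ.κB,
        Pb (fun i => dg (e i)) (1 / 2) 0 ((QD Y κ).submatrix e e)) {g γM : ℝ} (hg : 0 < g) :
    ∃ C : ℝ, 1 ≤ C ∧ ∀ᶠ k : ℕ in atTop, ∀ (N₀ L N : ℕ) (σ : ℕ × ℤ) (l : ℕ) (γ : ℝ → ℝ),
      Adm Y B.b Λ.κB g γM N₀ σ l γ → N₀ ≤ N → L ≤ N → ∀ z z' : St (MI L ⊕ HI L N),
      B.Rel (dt L N) 0 (fun t => (QD Y (NinePh_κ Λ k t)).submatrix (emb L N) (emb L N))
        (Λ.b₁ k) (Λ.b₂ k) z z' → Supp {i | sec (emb L N i) = σ} z →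
      Cut {i | l < dt L N i} (∫ t in Λ.b₁ k..Λ.b₂ k, γ (NinePh_κ Λ k t)) C z z' := by
  obtain ⟨ε, hε, C, T, hC, H⟩ := cut_res B γM g hg
  obtain ⟨Cp, hCp, Hp⟩ := h.pb 0 aD
  obtain ⟨Bp, hBp, Hb⟩ := exists_plat_bound
  refine ⟨C, hC, ?_⟩
  filter_upwards [eventually_ge_atTop 1, tendsto_natCast_atTop_atTop.eventually_ge_atTop T,
    (NinePh_tendsto (Bp * (3 * Cp))).eventually_le_const hε,
    (NinePh_tendsto (γM * Bp)).eventually_le_const hε] with k hk1 hkT hk2 hk3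
  intro N₀ L N σ l γ hγ hN₀ hLN z z' hr hs
  have hk : (1 : ℝ) ≤ (k : ℝ) ^ 11 := one_le_pow₀ (by exact_mod_cast hk1)
  have hk0 : (0 : ℝ) < (k : ℝ) ^ 11 := by linarith
  have hγc : Continuous fun t => γ (NinePh_κ Λ k t) :=
    hγ.smooth.continuous.comp' (NinePh_κ_cont Λ k)
  obtain ⟨κ', hκ', hκb⟩ : ∃ κ' : ℝ → ℝ, (∀ t, HasDerivAt (NinePh_κ Λ k) (κ' t) t) ∧
      ∀ t, |κ' t| ≤ Bp / (k : ℝ) ^ 11 := by
    refine ⟨_, NinePh_κ_deriv Λ k, fun t => ?_⟩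
    rw [abs_mul, abs_of_nonneg h0]
    exact (mul_le_of_le_one_left (abs_nonneg _) h1).trans (Hb _ _ _ _ hk).1
  have hκ1 : NinePh_κ Λ k (Λ.b₁ k) = 0 := by rw [NinePh_κ, plat_of_le hk0 le_rfl, mul_zero]
  have hκ2 : NinePh_κ Λ k (Λ.b₂ k) = 0 := by rw [NinePh_κ, plat_of_ge hk0 le_rfl, mul_zero]
  have hU : ∀ i ∈ {i | sec (emb L N i) = σ}, i ∈ {i | l < dt L N i} ↔
      γ 0 * (B.b + γ 0) < lam B.β₀ (dt L N i) := fun i hi => by
    rw [hB]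
    exact (hγ.pos _ hi (NinePh_one_le L N i)).symm
  have key := H _ (dt L N) (NinePh_one_le L N)
    (fun t => (QD Y (NinePh_κ Λ k t)).submatrix (emb L N) (emb L N))
    (fun t => κ' t • (mQ1 Y aD).submatrix (emb L N) (emb L N)
      + (2 * NinePh_κ Λ k t * κ' t) • (mQ2 Y aD).submatrix (emb L N) (emb L N))
    (Λ.b₁ k) (Λ.b₂ k) (fun t => γ (NinePh_κ Λ k t)) (fun t => deriv γ (NinePh_κ Λ k t) * κ' t)
    (fun t => ∫ x in Λ.b₁ k..t, γ (NinePh_κ Λ k x)) {i | sec (emb L N i) = σ} {i | l < dt L N i}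
    z z' (hkT.trans (NinePh_le_b₁ Λ hk1)) (NinePh_b₁_le Λ k)
    (fun r _ => ?_) (by rw [hκ1, NinePh_QD_zero]; rfl) (by rw [hκ2, NinePh_QD_zero]; rfl)
    (by simpa only [hκ1] using hU) (by simpa only [hκ2] using hU) hr hs
  · simpa only [intervalIntegral.integral_same, sub_zero] using key
  have hm := NinePh_κ_mem h0 k r
  obtain ⟨b1, b2, b3⟩ := hγ.bd _ hm
  refine ⟨?_, fun i j => ?_, hP _ _ (emb_injective L N) _ hm, ?_, NinePh_dec_QD h L N _ σ,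
    (hγc.integral_hasStrictDerivAt _ r).hasDerivAt,
    ((hγ.smooth.differentiable (by simp) _).hasDerivAt).comp r (hκ' r), b1, b2, ?_, fun v hv => ?_⟩
  · rw [Matrix.transpose_submatrix, QD, Matrix.transpose_add, Matrix.transpose_smul,
      Matrix.transpose_smul, mQ1_symm, mQ2_symm]
  · simp only [QD, Matrix.submatrix_apply, Matrix.add_apply, Matrix.smul_apply, smul_eq_mul]
    refine (((hκ' r).mul_const _).add (((hκ' r).pow 2).mul_const _)).congr_deriv ?_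
    simp
  · obtain ⟨p1, p2⟩ := Hp _ _ (emb_injective L N)
    rw [mR_zero] at p1
    have p3 := (p1.smul (κ' r)).add (p2.smul (2 * NinePh_κ Λ k r * κ' r))
    have e : κ' r • (0 : Matrix I0 I0 ℝ).submatrix (emb L N) (emb L N) +
        (2 * NinePh_κ Λ k r * κ' r) • (0 : Matrix (MI L ⊕ HI L N) (MI L ⊕ HI L N) ℝ) = 0 := by
      simp
    rw [e] at p3
    refine p3.mono (le_trans ?_ hk2)
    have q1 := hκb r
    have q2 : |2 * NinePh_κ Λ k r * κ' r| ≤ 2 * (Bp / (k : ℝ) ^ 11) := by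
      rw [abs_mul, abs_of_nonneg (by linarith [hm.1])]
      exact mul_le_mul (by linarith [hm.2]) q1 (abs_nonneg _) (by norm_num)
    have q3 : Bp * (3 * Cp) / (k : ℝ) ^ 11 =
        Bp / (k : ℝ) ^ 11 * Cp + 2 * (Bp / (k : ℝ) ^ 11) * Cp := by ring
    rw [q3]
    exact add_le_add (mul_le_mul_of_nonneg_right q1 hCp) (mul_le_mul_of_nonneg_right q2 hCp)
  · rw [abs_mul]
    refine le_trans ?_ hk3
    rw [mul_div_assoc]
    exact mul_le_mul b3 (hκb r) (abs_nonneg _) (b1.trans b2)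
  · rw [hB]
    exact hγ.gap L N hN₀ hLN _ hm v hv

theorem NinePh_int_ge {f : ℝ → ℝ} (hf : Continuous f) {a b c : ℝ} (hab : a ≤ b)
    (h : ∀ t ∈ Icc a b, c ≤ f t) : c * (b - a) ≤ ∫ t in a..b, f t := by
  have := intervalIntegral.integral_mono_on (μ := MeasureTheory.volume) hab
    (continuous_const.intervalIntegrable a b) (hf.intervalIntegrable a b) h
  rwa [intervalIntegral.integral_const, smul_eq_mul, mul_comm] at this

theorem NinePh_int_le {f : ℝ → ℝ} (hf : Continuous f) {a b c : ℝ} (hab : a ≤ b)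
    (h : ∀ t ∈ Icc a b, f t ≤ c) : ∫ t in a..b, f t ≤ c * (b - a) := by
  have := intervalIntegral.integral_mono_on (μ := MeasureTheory.volume) hab
    (hf.intervalIntegrable a b) (continuous_const.intervalIntegrable a b) h
  rwa [intervalIntegral.integral_const, smul_eq_mul, mul_comm] at this

theorem NinePh_gap {Λ : Lay} (h0 : 0 ≤ Λ.κB) {k : ℕ} (hk : 1 ≤ k) {γ γ' : ℝ → ℝ} {g γM : ℝ}
    (hc : Continuous γ) (hc' : Continuous γ') (h1 : ∀ κ ∈ Icc 0 Λ.κB, 0 ≤ γ κ)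
    (h2 : ∀ κ ∈ Icc 0 Λ.κB, γ' κ ≤ γM) (h3 : γ' Λ.κB + g ≤ γ Λ.κB) :
    (∫ t in Λ.b₁ k..Λ.b₂ k, γ' (NinePh_κ Λ k t)) + (g * (k : ℝ) ^ 12 - 2 * γM * (k : ℝ) ^ 11)
      ≤ ∫ t in Λ.b₁ k..Λ.b₂ k, γ (NinePh_κ Λ k t) := by
  have hk0 : (0 : ℝ) < (k : ℝ) ^ 11 := by
    have : (0 : ℝ) < k := by exact_mod_cast hk
    positivity
  have hk1 : (0 : ℝ) ≤ (k : ℝ) ^ 12 := by positivity
  have c1 := hc.comp' (NinePh_κ_cont Λ k)
  have c2 := hc'.comp' (NinePh_κ_cont Λ k)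
  have c3 : Continuous fun t => γ (NinePh_κ Λ k t) - γ' (NinePh_κ Λ k t) := c1.sub c2
  have e : Λ.b₂ k = Λ.b₁ k + (k : ℝ) ^ 12 + 2 * (k : ℝ) ^ 11 := rfl
  have lo : ∀ t, -γM ≤ γ (NinePh_κ Λ k t) - γ' (NinePh_κ Λ k t) := fun t => by
    linarith [h1 _ (NinePh_κ_mem h0 k t), h2 _ (NinePh_κ_mem h0 k t)]
  have i1 := NinePh_int_ge c3 (a := Λ.b₁ k) (b := Λ.b₁ k + (k : ℝ) ^ 11) (by linarith)
    fun t _ => lo t
  have i2 := NinePh_int_ge c3 (a := Λ.b₁ k + (k : ℝ) ^ 11) (b := Λ.b₂ k - (k : ℝ) ^ 11) (c := g)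
    (by linarith) fun t ht => by
      rw [NinePh_κ, plat_of_mem hk0 ht, mul_one]
      linarith
  have i3 := NinePh_int_ge c3 (a := Λ.b₂ k - (k : ℝ) ^ 11) (b := Λ.b₂ k) (by linarith)
    fun t _ => lo t
  have s1 := intervalIntegral.integral_add_adjacent_intervals
    (c3.intervalIntegrable (μ := MeasureTheory.volume) (Λ.b₁ k) (Λ.b₁ k + (k : ℝ) ^ 11))
    (c3.intervalIntegrable (Λ.b₁ k + (k : ℝ) ^ 11) (Λ.b₂ k - (k : ℝ) ^ 11))
  have s2 := intervalIntegral.integral_add_adjacent_intervals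
    (c3.intervalIntegrable (μ := MeasureTheory.volume) (Λ.b₁ k) (Λ.b₂ k - (k : ℝ) ^ 11))
    (c3.intervalIntegrable (Λ.b₂ k - (k : ℝ) ^ 11) (Λ.b₂ k))
  rw [intervalIntegral.integral_sub (c1.intervalIntegrable (Λ.b₁ k) (Λ.b₂ k))
    (c2.intervalIntegrable (Λ.b₁ k) (Λ.b₂ k))] at s2
  have e1 : Λ.b₂ k - (k : ℝ) ^ 11 - (Λ.b₁ k + (k : ℝ) ^ 11) = (k : ℝ) ^ 12 := by rw [e]; ring
  rw [add_sub_cancel_left] at i1
  rw [e1] at i2
  rw [sub_sub_cancel] at i3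
  linarith

/-- lower order terms are eventually dominated by `g k^12` -/
theorem NinePh_dom {g : ℝ} (hg : 0 < g) {c₀ c₁ : ℝ} (c₂ : ℝ) (h₀ : 0 ≤ c₀) (h₁ : 0 ≤ c₁) :
    ∀ᶠ k : ℕ in atTop, c₀ + c₁ * k + c₂ * (k : ℝ) ^ 11 ≤ g * (k : ℝ) ^ 12 := by
  filter_upwards [eventually_ge_atTop 1,
    tendsto_natCast_atTop_atTop.eventually_ge_atTop ((c₀ + c₁ + c₂) / g)] with k hk1 hk2
  have hk : (1 : ℝ) ≤ k := by exact_mod_cast hk1
  have p1 : (1 : ℝ) ≤ (k : ℝ) ^ 11 := one_le_pow₀ hk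
  have p2 : (k : ℝ) ≤ (k : ℝ) ^ 11 := le_self_pow₀ hk (by norm_num)
  rw [div_le_iff₀ hg] at hk2
  have p3 : (c₀ + c₁ + c₂) * (k : ℝ) ^ 11 ≤ k * g * (k : ℝ) ^ 11 :=
    mul_le_mul_of_nonneg_right hk2 (by positivity)
  have p4 : c₀ ≤ c₀ * (k : ℝ) ^ 11 := le_mul_of_one_le_right h₀ p1
  have p5 : c₁ * k ≤ c₁ * (k : ℝ) ^ 11 := mul_le_mul_of_nonneg_left p2 h₁
  calc _ ≤ (c₀ + c₁ + c₂) * (k : ℝ) ^ 11 := by linarith
    _ ≤ _ := p3.trans (le_of_eq (by ring))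

theorem NinePh_n2_col {W : Type} [Fintype W] [DecidableEq W] (φ : W → ℝ) (a : W) :
    n2 (fun a' => Matrix.diagonal φ a' a) = φ a ^ 2 := by
  rw [n2, Finset.sum_eq_single a]
  · rw [Matrix.diagonal_apply_eq]
  · intro b _ hb
    rw [Matrix.diagonal_apply_ne _ hb]; ring
  · intro h; exact absurd (Finset.mem_univ _) h

theorem NinePh_le_exp {C : ℝ} : C ≤ Real.exp C := by linarith [Real.add_one_le_exp C]

theorem phI (B : Bg) (hB : B.β₀ = 1) : ∃ δ₁ > 0, ∀ {Y : I0 → Pl 3}, SB Y → ∀ (l₀ L : ℕ) (Λ : Lay)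
    (ρ₂ : Fin Λ.K₂ → Pl 3) (ρz : Fin Λ.Kz → Pl 3) (az : Fin Λ.Kz → Fin 3 → Pl 3) (Co : ℝ),
    1 ≤ Co → 0 ≤ Λ.κB → Λ.κB ≤ 1 →
    (∀ (ι : Type) [Fintype ι] [DecidableEq ι] (e : ι → I0), Function.Injective e →
      ∀ κ ∈ Icc 0 Λ.κB, Pb (fun i => dg (e i)) δ₁ 0 ((QD Y κ).submatrix e e)) →
    ∀ (g γM γs : ℝ) (N₀ : ℕ) (γu γl : I0 → ℝ → ℝ) (γh : ℕ × ℤ → ℝ → ℝ),
    Cuts Y B.b Λ.κB l₀ L g γM γs N₀ γu γl γh →
    ∃ C : ℝ, 1 ≤ C ∧ ∃ k₁ : ℕ, ∀ k : ℕ, k₁ ≤ k → ∀ (N : ℕ) (om : ℕ → ℝ), N₀ ≤ N → 2 * L ≤ N →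
      (∀ l, l ≤ 2 * L → 1 ≤ om l ∧ om l ≤ Co) →
      ∃ (P : PhF (Matrix (MI L) (MI L) ℝ) (MI (2 * L)) (HI (2 * L) N) (MI L)) (φ : MI L → ℝ),
        P.Good (C * Real.exp (-(k : ℝ) / 2)) C ∧
        (∀ y, P.Act B (dt (2 * L) N) (eW L) om
            (fun t => Rt Y (Λ.gρ ρ₂ ρz) (2 * L) N (Λ.cI k t))
            (fun t => Qt Y (Λ.ga az) (2 * L) N (Λ.cI k t)) (Λ.e₁ k + Λ.Kz) (Λ.e₂ k) y ∧
          P.Δ y = Matrix.diagonal φ) ∧
        (∀ a, 1 / C ≤ |φ a| ∧ |φ a| ≤ Real.exp ((γM + 1) * (k : ℝ) ^ 12)) ∧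
        ∀ a b : MI L, IsA l₀ L a → b.1 = top (dg a.1 + 1) → |φ b| ≤ 1 / (k : ℝ) ^ 88 * |φ a| := by
  obtain ⟨δ₀, hδ₀, hcut⟩ := cut_diag B
  refine ⟨min δ₀ (1 / 2), lt_min hδ₀ (by norm_num), ?_⟩
  intro Y h l₀ L Λ ρ₂ ρz az Co hCo h0 h1 hP g γM γs N₀ γu γl γh hc
  obtain ⟨Cr, hCr, hres⟩ := NinePh_cut h B hB Λ h0 h1
    (fun ι _ _ e he κ hκ => (hP ι e he κ hκ).mono (min_le_right _ _)) (γM := γM) hc.g_pos
  have hC₀ : 1 ≤ max Co Cr := hCo.trans (le_max_left _ _)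
  obtain ⟨C, hC, H⟩ := NinePh_phase B L (max Co Cr) hC₀
  have hγM : 0 ≤ γM := by
    obtain ⟨b1, b2, -⟩ := (hc.hi (0, 0)).bd 0 ⟨le_rfl, h0⟩
    exact b1.trans b2
  refine ⟨C, hC, eventually_atTop.1 ?_⟩
  filter_upwards [eventually_ge_atTop 1, hres,
    NinePh_dom one_pos (c₀ := C) (c₁ := 2 * (L + 1)) (2 * γM) (by linarith) (by positivity),
    NinePh_dom hc.g_pos (c₀ := C) (c₁ := 2 * (L + 1) + 88) (2 * γM) (by linarith)
      (by positivity)] with k hk1 hk2 hk3 hk4 N om hN₀ hLN hom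
  have hk' : (0 : ℝ) < k := by exact_mod_cast hk1
  have hk0 : (0 : ℝ) < (k : ℝ) ^ 11 := by positivity
  have hT := NinePh_b₁_le Λ k
  have hκc := NinePh_κ_cont Λ k
  have cQ : Continuous fun z : Unit × ℝ =>
      (QD Y (NinePh_κ Λ k z.2)).submatrix (emb (2 * L) N) (emb (2 * L) N) := by
    simp only [← NinePh_Qt_cI Y Λ az]
    exact (continuous_Qt _ _ _ _).comp' ((Λ.contDiff_cI k).continuous.comp' continuous_snd)
  obtain ⟨P, hP', H'⟩ := H N (ℕ × ℤ) (fun i => sec (emb (2 * L) N i)) om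
    (fun l hl => ⟨(hom l hl).1, (hom l hl).2.trans (le_max_left _ _)⟩) Unit (fun _ => 0)
    (fun _ t => (QD Y (NinePh_κ Λ k t)).submatrix (emb (2 * L) N) (emb (2 * L) N))
    continuous_const cQ (Λ.e₁ k + Λ.Kz) (Λ.b₁ k) (Λ.b₂ k) (Λ.e₂ k) k (γs * (Λ.b₂ k - Λ.b₁ k))
    (fun a => ∫ t in Λ.b₁ k..Λ.b₂ k, γu a.1 (NinePh_κ Λ k t))
    (fun a => ∫ t in Λ.b₁ k..Λ.b₂ k, γl a.1 (NinePh_κ Λ k t))
    hk'.le le_rfl hT le_rfl
    (fun _ r hr => by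
      have : NinePh_κ Λ k r = 0 := by
        rcases hr with hr | hr
        · rw [NinePh_κ, plat_of_le hk0 hr.2, mul_zero]
        · rw [NinePh_κ, plat_of_ge hk0 hr.1, mul_zero]
      rw [this, NinePh_QD_zero]
      exact ⟨rfl, rfl⟩)
    (fun _ r _ σ => ⟨fun _ _ _ => rfl, NinePh_dec_QD h _ _ _ σ⟩)
    (fun a => NinePh_int_le ((hc.up a.1 a.2.1 a.2.2).smooth.continuous.comp' hκc) hT
      fun t _ => hc.up_le a.1 a.2.1 a.2.2 _ (NinePh_κ_mem h0 k t))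
    (fun _ z z' hr => by
      refine ⟨((hcut _ (dt (2 * L) N) (NinePh_one_le _ _) _ _ _ _ (min δ₀ (1 / 2)) z z' hT
        (le_min hδ₀.le (by norm_num))
        (fun r _ => hP _ _ (emb_injective (2 * L) N) _ (NinePh_κ_mem h0 k r)) hr).1
          (min_le_left _ _)).mono hC₀, fun a hs => ⟨?_, ?_⟩, fun σ hs => ⟨_, ?_,
        (hk2 N₀ (2 * L) N σ _ _ (hc.hi σ) hN₀ hLN z z' hr hs).mono (le_max_right _ _)⟩⟩
      · exact (hk2 N₀ (2 * L) N _ _ _ (hc.up a.1 a.2.1 a.2.2) hN₀ hLN z z' hr hs).mono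
          (le_max_right _ _)
      · have e : {i | dg a.1 ≤ dt (2 * L) N i} = {i | dg a.1 - 1 < dt (2 * L) N i} := by
          ext i
          have := a.2.1
          simp only [mem_ofPred_eq]
          omega
        rw [e]
        exact (hk2 N₀ (2 * L) N _ _ _ (hc.lo a.1 a.2.1 a.2.2) hN₀ hLN z z' hr hs).mono
          (le_max_right _ _)
      · exact NinePh_int_ge ((hc.hi σ).smooth.continuous.comp' hκc) hT
          fun t _ => hc.le_hi σ _ (NinePh_κ_mem h0 k t))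
  obtain ⟨hact, hblk, -, hbd⟩ := H' ()
  have hΔ : P.Δ () = Matrix.diagonal fun a => P.Δ () a a := by
    ext a' a
    by_cases c : a' = a
    · subst c; rw [Matrix.diagonal_apply_eq]
    · rw [Matrix.diagonal_apply_ne _ c]
      by_contra b
      exact c (Subtype.ext (eq_of_sec_of_dg (hblk a a' b).1 (hblk a a' b).2))
  generalize (fun a => P.Δ () a a) = φ at hΔ
  simp only [hΔ, NinePh_n2_col] at hbd
  have t1 : Λ.e₁ k + Λ.Kz ≤ Λ.b₁ k := le_add_of_nonneg_right hk'.le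
  have t2 : Λ.b₂ k ≤ Λ.e₂ k := le_add_of_nonneg_right hk'.le
  have ip0 : ∀ (l : ℕ) {s t : ℝ}, s ≤ t → 0 ≤ B.Ip l s t := fun l s t hst =>
    le_trans (mul_nonneg (Nat.cast_nonneg l) (sub_nonneg.2 hst)) (B.Ip_ge l hst)
  have ip1 : ∀ (a : MI L) (s : ℝ), B.Ip (dg a.1) s (s + k) ≤ (L + 1) * k := fun a s => by
    refine (B.Ip_le _ (le_add_of_nonneg_right hk'.le)).trans ?_
    rw [add_sub_cancel_left]
    have b1 := B.a_le (dg a.1)
    have b2 : (dg a.1 : ℝ) ≤ L := by exact_mod_cast a.2.2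
    exact mul_le_mul_of_nonneg_right (by linarith) hk'.le
  have lo : ∀ a : MI L, Real.exp (2 * ∫ t in Λ.b₁ k..Λ.b₂ k, γl a.1 (NinePh_κ Λ k t)) ≤
      C * φ a ^ 2 := fun a =>
    le_trans (Real.exp_le_exp.2 (by linarith [ip0 (dg a.1) t1, ip0 (dg a.1) t2])) (hbd a).1
  have up : ∀ a : MI L, φ a ^ 2 ≤ C * Real.exp
      (2 * ((∫ t in Λ.b₁ k..Λ.b₂ k, γu a.1 (NinePh_κ Λ k t)) + 2 * (L + 1) * k)) := fun a => by
    refine (hbd a).2.trans (mul_le_mul_of_nonneg_left (Real.exp_le_exp.2 ?_) (by linarith))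
    have b1 : B.Ip (dg a.1) (Λ.e₁ k + Λ.Kz) (Λ.b₁ k) ≤ (L + 1) * k := ip1 a _
    have b2 : B.Ip (dg a.1) (Λ.b₂ k) (Λ.e₂ k) ≤ (L + 1) * k := ip1 a _
    linarith
  have hCe : C ≤ Real.exp C := NinePh_le_exp
  refine ⟨⟨fun _ => P.XM (), fun _ => P.XH (), fun _ => P.D (), fun _ => P.m (), fun _ => P.Δ (),
    fun _ => P.Δi (), fun _ => P.XdM (), fun _ => P.XdH (), fun _ => P.Md (), fun _ => P.Hh (),
    fun _ => P.Dh (), fun _ => P.Mh ()⟩, φ,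
    ⟨continuous_const, continuous_const, continuous_const, continuous_const, continuous_const,
      continuous_const, continuous_const, continuous_const, continuous_const, continuous_const,
      continuous_const, continuous_const, fun _ => hP'.inv (), fun _ => hP'.nXM (),
      fun _ => hP'.nXH (), fun _ => hP'.nD (), fun _ => hP'.nm (), fun _ => hP'.nΔi (),
      fun _ => hP'.nXdM (), fun _ => hP'.nXdH (), fun _ => hP'.nMd (), fun _ => hP'.nHh (),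
      fun _ => hP'.nDh (), fun _ => hP'.nMh ()⟩,
    fun y => ⟨fun T d' η c => (hact T d' η c).congr (fun t _ => NinePh_Rt_cI _ _ _ _ _ _ _ _)
      fun t _ => NinePh_Qt_cI _ _ _ _ _ _ _, hΔ⟩, fun a => ⟨?_, ?_⟩, fun a b ha hb => ?_⟩
  · have b1 := NinePh_int_ge ((hc.lo a.1 a.2.1 a.2.2).smooth.continuous.comp' hκc) hT
      fun t _ => ((hc.lo a.1 a.2.1 a.2.2).bd _ (NinePh_κ_mem h0 k t)).1
    have b2 : 1 ≤ C * φ a ^ 2 := le_trans (Real.one_le_exp (by linarith)) (lo a)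
    refine (sq_le_sq₀ (by positivity) (abs_nonneg _)).1 ?_
    rw [sq_abs, div_pow, one_pow, div_le_iff₀ (by positivity)]
    nlinarith
  · have b1 := NinePh_int_le ((hc.up a.1 a.2.1 a.2.2).smooth.continuous.comp' hκc) hT
      fun t _ => ((hc.up a.1 a.2.1 a.2.2).bd _ (NinePh_κ_mem h0 k t)).2.1
    have e : Λ.b₂ k - Λ.b₁ k = (k : ℝ) ^ 12 + 2 * (k : ℝ) ^ 11 := by unfold Lay.b₂; ring
    rw [e] at b1
    refine (sq_le_sq₀ (abs_nonneg _) (Real.exp_pos _).le).1 ?_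
    rw [sq_abs, ← Real.exp_nat_mul]
    refine (up a).trans ((mul_le_mul_of_nonneg_right hCe (Real.exp_pos _).le).trans ?_)
    rw [← Real.exp_add]
    refine Real.exp_le_exp.2 ?_
    push_cast
    linarith
  · have ea : a.1 = zon (dg a.1) := Subtype.ext (Prod.ext rfl ha.1)
    have b1 := NinePh_gap h0 hk1 (hc.lo a.1 a.2.1 a.2.2).smooth.continuous
      (hc.up b.1 b.2.1 b.2.2).smooth.continuous
      (fun κ hκ => ((hc.lo a.1 a.2.1 a.2.2).bd κ hκ).1)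
      (fun κ hκ => ((hc.up b.1 b.2.1 b.2.2).bd κ hκ).2.1) (g := g)
      (by rw [hb]; nth_rewrite 2 [ea]; exact hc.swap _ ha.2.1 ha.2.2)
    have b2 : C * Real.exp (2 * (L + 1) * k - (g * (k : ℝ) ^ 12 - 2 * γM * (k : ℝ) ^ 11)) ≤
        1 / (k : ℝ) ^ 88 := by
      refine (mul_le_mul_of_nonneg_right hCe (Real.exp_pos _).le).trans ?_
      rw [← Real.exp_add, le_div_iff₀ (by positivity)]
      refine (mul_le_mul_of_nonneg_left (pow_le_pow_left₀ hk'.le NinePh_le_exp 88)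
        (Real.exp_pos _).le).trans ?_
      rw [← Real.exp_nat_mul, ← Real.exp_add]
      refine Real.exp_le_one_iff.2 ?_
      push_cast
      linarith
    refine le_trans ?_ (mul_le_mul_of_nonneg_right b2 (abs_nonneg _))
    refine (sq_le_sq₀ (abs_nonneg _) (by positivity)).1 ?_
    rw [sq_abs, mul_pow, sq_abs, mul_pow, ← Real.exp_nat_mul]
    refine (up b).trans ?_
    have b3 := mul_le_mul_of_nonneg_left (lo a) (Real.exp_pos
      (((2 : ℕ) : ℝ) * (2 * (L + 1) * k - (g * (k : ℝ) ^ 12 - 2 * γM * (k : ℝ) ^ 11)))).le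
    rw [← Real.exp_add] at b3
    refine (mul_le_mul_of_nonneg_left ((Real.exp_le_exp.2 ?_).trans b3) (by linarith)).trans
      (le_of_eq (by ring))
    push_cast
    linarith

end Crest.Agent.R202
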