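import Crest.Agent.R202.NineChain
import Crest.Agent.R202.NineAlg
import Crest.Agent.R202.NinePh
import Crest.Agent.R202.NineKick
import Crest.Agent.R202.OdeMatch
import Crest.Agent.R202.NineFinCore

/-!
# R202/NineFin: finitely many stages of the truncated system   (owner: helper74)

Phases `j = 3 i + r` of stage `k = k₀ + i`: `r = 0` slow slots (`phII`), `r = 1` plateau (`phI`),
`r = 2` free (`phA`); kick `j` follows phase `j`; `Kn = 3 n`.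
-/

open scoped ContDiff Topology Matrix Matrix.Norms.L2Operator
open Set Filter

noncomputable section

namespace Crest.Agent.R202

/-- all data fixed before the choice of the first stage -/
structure Setup (Y : I0 → Pl 3) (B : Bg) (l₀ L : ℕ) (Λ : Lay) (ρ₂ : Fin Λ.K₂ → Pl 3)
    (ρz : Fin Λ.Kz → Pl 3) (az : Fin Λ.Kz → Fin 3 → Pl 3) (τ ρ : Equiv.Perm (MI L)) (Θ : ℝ)
    (N₀ : ℕ) : Prop where
  sb : SB Y
  τ_inv : ∀ i, τ (τ i) = i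
  τ_A : ∀ i, IsA l₀ L i → (τ i).1 = top (dg i.1 + 1)
  τ_fix : ∀ i, ¬ IsA l₀ L i → ¬ IsA l₀ L (τ i) → τ i = i
  ρ_dg : ∀ i, dg (ρ i).1 = dg i.1
  ctrl : ∃ (ε : MI L → ℝ) (r : ℝ) (θ : Matrix (MI L) (MI L) ℝ → Fin Λ.K₂ → ℝ)
    (s : Matrix (MI L) (MI L) ℝ → ℕ → ℝ), (∀ i, |ε i| = 1) ∧ 0 < r ∧ Continuous θ ∧
    (∀ l, Continuous fun y => s y l) ∧ (∀ y j, |θ y j| ≤ Θ) ∧ (∀ y l, |s y l| ≤ Θ) ∧
    ∀ y ∈ box (fun a : MI L => dg a.1) (sperm ρ ε) r,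
      Matrix.diagonal (fun i : MI L => Real.exp (s y (dg i.1)))
        * tprod (fun j => NormedSpace.exp (θ y j • gII B Y L (ρ₂ j))) = y
  span : ∃ 𝓡 : Matrix (MI (2 * L)) (MI L) ℝ →ₗ[ℝ] (Fin Λ.Kz → ℝ),
    ∀ A, off (fun i => dg i.1) (eW L) A = A → kL B Y L ρz az (𝓡 A) = A
  plat : ∀ Co : ℝ, 1 ≤ Co → ∃ C : ℝ, 1 ≤ C ∧ ∃ k₁ : ℕ, ∀ k : ℕ, k₁ ≤ k → ∀ (N : ℕ) (om : ℕ → ℝ),
    N₀ ≤ N → (∀ l, l ≤ 2 * L → 1 ≤ om l ∧ om l ≤ Co) →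
    ∃ (P : PhF (Matrix (MI L) (MI L) ℝ) (MI (2 * L)) (HI (2 * L) N) (MI L)) (φ : MI L → ℝ),
      P.Good (C * Real.exp (-(k : ℝ) / 2)) C ∧
      (∀ y, P.Act B (dt (2 * L) N) (eW L) om
          (fun t => Rt Y (Λ.gρ ρ₂ ρz) (2 * L) N (Λ.cI k t))
          (fun t => Qt Y (Λ.ga az) (2 * L) N (Λ.cI k t)) (Λ.e₁ k + Λ.Kz) (Λ.e₂ k) y ∧
        P.Δ y = Matrix.diagonal φ) ∧
      (∀ a, 1 / C ≤ |φ a| ∧ |φ a| ≤ Real.exp (Λ.CA / 2 * (k : ℝ) ^ 12)) ∧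
      ∀ a b : MI L, IsA l₀ L a → b.1 = top (dg a.1 + 1) → |φ b| ≤ 1 / (k : ℝ) ^ 88 * |φ a|
  CA_pos : 1 ≤ Λ.CA

/-- the starting times of the phases -/
def nfS (s₀ : ℝ) (t : ℕ → ℝ) (K : ℝ) : ℕ → ℝ
  | 0 => s₀
  | j + 1 => t j + K

/-- the free growth during the preceding kick -/
def nfO (B : Bg) (t : ℕ → ℝ) (K : ℝ) : ℕ → ℕ → ℝ
  | 0 => fun _ => 1
  | j + 1 => fun l => Real.exp (B.Ip l (t j) (t j + K))

theorem nfO_mem (B : Bg) (t : ℕ → ℝ) {K : ℝ} (hK : 0 ≤ K) (j : ℕ) {l M : ℕ} (hl : l ≤ M) :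
    1 ≤ nfO B t K j l ∧ nfO B t K j l ≤ Real.exp ((M + 1) * K) := by
  cases j with
  | zero => exact ⟨le_rfl, Real.one_le_exp (by positivity)⟩
  | succ j =>
    have h1 := B.Ip_ge l (show t j ≤ t j + K by linarith)
    have h2 := B.Ip_le l (show t j ≤ t j + K by linarith)
    have h3 := B.a_le l
    have h4 : (l : ℝ) ≤ M := by exact_mod_cast hl
    rw [add_sub_cancel_left] at h1 h2
    refine ⟨Real.one_le_exp (le_trans (by positivity) h1), Real.exp_le_exp.2 (h2.trans ?_)⟩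
    exact mul_le_mul_of_nonneg_right (by linarith) hK

theorem nf_times (Λ : Lay) (hCA : 1 ≤ Λ.CA) {k : ℕ} (hk : 2 ≤ k) :
    (k : ℝ) ≤ Λ.e₁ k ∧ Λ.a₀ k ≤ Λ.e₁ k ∧ Λ.e₁ k + Λ.Kz ≤ Λ.e₂ k ∧
      Λ.e₂ k + Λ.Kz + 2 * k ≤ Λ.e₃ k := by
  have h1 : (2 : ℝ) ≤ k := by exact_mod_cast hk
  have h2 : (1 : ℝ) ≤ Λ.CA := by exact_mod_cast hCA
  have h3 : (k : ℝ) ^ 2 ≤ (k : ℝ) ^ 12 := pow_le_pow_right₀ (by linarith) (by norm_num)
  have h4 : (0 : ℝ) ≤ Λ.K₂ * (k : ℝ) ^ 11 := by positivity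
  have h5 : (0 : ℝ) ≤ (k : ℝ) ^ 14 := by positivity
  have h6 : (0 : ℝ) ≤ (k : ℝ) ^ 11 := by positivity
  have h7 := mul_le_mul_of_nonneg_right h2 (show (0 : ℝ) ≤ (k : ℝ) ^ 12 by positivity)
  simp only [Lay.e₃, Lay.e₂, Lay.b₂, Lay.b₁, Lay.e₁, Lay.a₁, Lay.a₀]
  refine ⟨by linarith, by linarith, by nlinarith, by nlinarith⟩

theorem nf_w0 (B : Bg) (Λ : Lay) {k l L : ℕ} (hk : 1 ≤ k) (hl : l ≤ L) :
    B.Ip l (Λ.a₀ k - k) (Λ.e₁ k) ≤ (L + 1) * (Λ.K₂ + 2) * (k : ℝ) ^ 12 := by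
  have h1 : (1 : ℝ) ≤ k := by exact_mod_cast hk
  have h2 : (k : ℝ) ^ 11 ≤ (k : ℝ) ^ 12 := pow_le_pow_right₀ h1 (by norm_num)
  have h3 : (k : ℝ) ≤ (k : ℝ) ^ 12 := le_self_pow₀ h1 (by norm_num)
  have h4 : (l : ℝ) ≤ L := by exact_mod_cast hl
  have h5 : Λ.e₁ k - (Λ.a₀ k - k) = Λ.K₂ * (k : ℝ) ^ 11 + 2 * k := by
    simp only [Lay.e₁, Lay.a₁]
    ring
  have h6 : 0 ≤ Λ.K₂ * (k : ℝ) ^ 11 + 2 * k := by positivity
  have h7 := mul_le_mul_of_nonneg_left h2 (Nat.cast_nonneg Λ.K₂)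
  refine (B.Ip_le l (by linarith)).trans ?_
  rw [h5, mul_assoc]
  exact mul_le_mul (by linarith [B.a_le l]) (by linarith) h6 (by positivity)

theorem nf_w1 (B : Bg) (Λ : Lay) {k l L : ℕ} (hk : 1 ≤ k) (hl : l ≤ L)
    (h : Λ.e₃ k ≤ Λ.e₁ (k + 1)) : B.Ip l (Λ.e₃ k) (Λ.e₁ (k + 1))
      ≤ B.a l * (((k : ℝ) + 1) ^ 14 - (k : ℝ) ^ 14) + (L + 1) * (Λ.K₂ * 2 ^ 11 + 1) * (k : ℝ) ^ 12 := by
  have h1 : (1 : ℝ) ≤ k := by exact_mod_cast hk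
  have h2 : ((k : ℝ) + 1) ^ 11 ≤ 2 ^ 11 * (k : ℝ) ^ 12 := by
    calc ((k : ℝ) + 1) ^ 11 ≤ (2 * k) ^ 11 := pow_le_pow_left₀ (by positivity) (by linarith) _
      _ = 2 ^ 11 * (k : ℝ) ^ 11 := mul_pow _ _ _
      _ ≤ _ := mul_le_mul_of_nonneg_left (pow_le_pow_right₀ h1 (by norm_num)) (by positivity)
  have h3 : (1 : ℝ) ≤ (k : ℝ) ^ 12 := one_le_pow₀ h1
  have h4 : (l : ℝ) ≤ L := by exact_mod_cast hl
  have h7 := mul_le_mul_of_nonneg_left h2 (Nat.cast_nonneg Λ.K₂)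
  have h5 : Λ.e₁ (k + 1) - Λ.e₃ k
      ≤ ((k : ℝ) + 1) ^ 14 - (k : ℝ) ^ 14 + (Λ.K₂ * 2 ^ 11 + 1) * (k : ℝ) ^ 12 := by
    have a1 : (0 : ℝ) ≤ Λ.K₂ * (k : ℝ) ^ 11 := by positivity
    have a2 : (0 : ℝ) ≤ Λ.CA * (k : ℝ) ^ 12 := by positivity
    have a3 : (0 : ℝ) ≤ (k : ℝ) ^ 11 := by positivity
    have a4 : (0 : ℝ) ≤ Λ.Kz := by positivity
    simp only [Lay.e₃, Lay.e₂, Lay.b₂, Lay.b₁, Lay.e₁, Lay.a₁, Lay.a₀]
    push_cast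
    linarith
  have h0 : 0 ≤ B.a l := (Nat.cast_nonneg l).trans (B.le_a l)
  refine (B.Ip_le l h).trans ((mul_le_mul_of_nonneg_left h5 h0).trans ?_)
  rw [mul_add, mul_assoc ((L : ℝ) + 1)]
  exact add_le_add le_rfl (mul_le_mul_of_nonneg_right (by linarith [B.a_le l]) (by positivity))

theorem nf_psi (B : Bg) (Λ : Lay) (k l : ℕ) :
    l * (Λ.CA * (k : ℝ) ^ 12) ≤ B.Ip l (Λ.e₂ k + Λ.Kz) (Λ.e₃ k) ∧
      B.Ip l (Λ.e₂ k + Λ.Kz) (Λ.e₃ k) ≤ (l + 1 / 6) * (Λ.CA * (k : ℝ) ^ 12) := by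
  have h1 : Λ.e₃ k - (Λ.e₂ k + Λ.Kz) = Λ.CA * (k : ℝ) ^ 12 := by
    simp only [Lay.e₃]
    ring
  have h2 : (0 : ℝ) ≤ Λ.CA * (k : ℝ) ^ 12 := by positivity
  have h3 := B.Ip_ge l (show Λ.e₂ k + Λ.Kz ≤ Λ.e₃ k by linarith)
  have h4 := B.Ip_le l (show Λ.e₂ k + Λ.Kz ≤ Λ.e₃ k by linarith)
  rw [h1] at h3 h4
  exact ⟨h3, h4.trans (mul_le_mul_of_nonneg_right (B.a_le l) h2)⟩

/-- the free phase makes up for the plateau -/
theorem nf_swap {x y o o' I I' C Co T z l : ℝ} (hC : 1 ≤ C) (hx : |x| ≤ Real.exp (T / 2))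
    (hy : 1 / C ≤ |y|) (ho : 1 ≤ o ∧ o ≤ Co) (ho' : 1 ≤ o') (hI : I ≤ (l + 1 / 6) * T)
    (hI' : (l + 1) * T ≤ I') (hz : z ≤ T) (hb : C * Co ≤ Real.exp (z / 3)) :
    |x| * |o * Real.exp I| ≤ |o' * Real.exp I'| * |y| := by
  have h0 : 0 < o := by linarith [ho.1]
  have h1 : 0 < C := by linarith
  rw [abs_of_pos (mul_pos h0 (Real.exp_pos _)), abs_of_pos (mul_pos (by linarith) (Real.exp_pos _))]
  have h2 : Co ≤ Real.exp (z / 3) * (1 / C) := by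
    rw [mul_one_div, le_div_iff₀ h1]
    linarith
  calc |x| * (o * Real.exp I) ≤ Real.exp (T / 2) * (Real.exp (z / 3) * (1 / C) * Real.exp I) :=
        mul_le_mul hx (mul_le_mul_of_nonneg_right (ho.2.trans h2) (Real.exp_pos _).le)
          (by positivity) (Real.exp_pos _).le
    _ = Real.exp (T / 2 + z / 3 + I) * (1 / C) := by
        rw [Real.exp_add, Real.exp_add]
        ring
    _ ≤ (o' * Real.exp I') * |y| :=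
        mul_le_mul ((Real.exp_le_exp.2 (by linarith)).trans
          (le_mul_of_one_le_left (Real.exp_pos _).le ho')) hy (by positivity) (by positivity)

theorem nf_gam {x o I a b c : ℝ} {k : ℕ} (hk : 1 ≤ k) (hx : |x| ≤ Real.exp (a * (k : ℝ) ^ 12))
    (hb : 0 ≤ b) (ho : 1 ≤ o ∧ o ≤ Real.exp b) (hI : I ≤ c * (k : ℝ) ^ 12) :
    |x| * |o * Real.exp I| ≤ (1 / (k : ℝ) ^ 22) ^ 2 * Real.exp ((a + b + c + 44) * (k : ℝ) ^ 12) := by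
  have h1 : (1 : ℝ) ≤ k := by exact_mod_cast hk
  have h3 : (k : ℝ) ≤ (k : ℝ) ^ 12 := le_self_pow₀ h1 (by norm_num)
  have h4 : (k : ℝ) ^ 44 ≤ Real.exp (44 * (k : ℝ) ^ 12) := by
    have := Real.add_one_le_exp ((k : ℝ) ^ 12)
    calc (k : ℝ) ^ 44 ≤ Real.exp ((k : ℝ) ^ 12) ^ 44 :=
          pow_le_pow_left₀ (by positivity) (by linarith) _
      _ = _ := by rw [← Real.exp_nat_mul]; norm_num
  have h5 : 1 ≤ (1 / (k : ℝ) ^ 22) ^ 2 * Real.exp (44 * (k : ℝ) ^ 12) := by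
    rw [one_div, inv_pow, ← pow_mul, ← div_eq_inv_mul, one_le_div (by positivity)]
    exact h4
  have h6 : o ≤ Real.exp (b * (k : ℝ) ^ 12) :=
    ho.2.trans (Real.exp_le_exp.2 (le_mul_of_one_le_right hb (h1.trans h3)))
  rw [abs_of_pos (mul_pos (by linarith [ho.1]) (Real.exp_pos _))]
  calc |x| * (o * Real.exp I) ≤ Real.exp (a * (k : ℝ) ^ 12)
        * (Real.exp (b * (k : ℝ) ^ 12) * Real.exp (c * (k : ℝ) ^ 12)) :=
        mul_le_mul hx (mul_le_mul h6 (Real.exp_le_exp.2 hI) (Real.exp_pos _).le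
          (Real.exp_pos _).le) (mul_nonneg (by linarith [ho.1]) (Real.exp_pos _).le)
          (Real.exp_pos _).le
    _ ≤ _ * ((1 / (k : ℝ) ^ 22) ^ 2 * Real.exp (44 * (k : ℝ) ^ 12)) :=
        le_mul_of_one_le_right (by positivity) h5
    _ = _ := by
        rw [add_mul, add_mul, add_mul, Real.exp_add, Real.exp_add, Real.exp_add]
        ring

theorem fin9 {Y : I0 → Pl 3} {B : Bg} {l₀ L : ℕ} {Λ : Lay} {ρ₂ : Fin Λ.K₂ → Pl 3}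
    {ρz : Fin Λ.Kz → Pl 3} {az : Fin Λ.Kz → Fin 3 → Pl 3} {τ ρ : Equiv.Perm (MI L)} {Θ : ℝ}
    {N₀ : ℕ} (h : Setup Y B l₀ L Λ ρ₂ ρz az τ ρ Θ N₀) {ε : ℝ} (hε : 0 < ε) :
    ∃ (A : ℝ) (k₁ : ℕ), ∀ k₀, k₁ ≤ k₀ → ∀ N, N₀ ≤ N → ∀ n : ℕ,
      ∃ (θ : ℕ → Fin Λ.K₂ → ℝ) (ζ : ℕ → Fin 3 → Fin Λ.Kz → ℝ),
        (∀ k j, |θ k j| ≤ Θ) ∧ (∀ k r j, |ζ k r j| ≤ 1) ∧ ∀ c, Λ.IsGl k₀ θ ζ c → ∀ a : MI L,
        ∃ u p, B.Sol (dt (2 * L) N) (fun t => Rt Y (Λ.gρ ρ₂ ρz) (2 * L) N (c t))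
            (fun t => Qt Y (Λ.ga az) (2 * L) N (c t)) univ u p ∧
          B.xm (dt (2 * L) N) u p (Λ.a₀ k₀ - k₀) = 0 ∧
          (∀ a', |B.xp (dt (2 * L) N) u p (Λ.a₀ k₀ - k₀) (Sum.inl (eW L a'))
            - (1 : Matrix (MI L) (MI L) ℝ) a' a| ≤ ε) ∧
          ∀ i, i ≤ n → n2 (B.xp (dt (2 * L) N) u p (Λ.e₁ (k₀ + i))) ≤ Real.exp (2 *
            (∑ j ∈ Finset.range i, (B.a (dg (((ρ * τ) ^ j) ((ρ * τ) (ρ a))).1)
              * (((k₀ + j : ℕ) + 1 : ℝ) ^ 14 - ((k₀ + j : ℕ) : ℝ) ^ 14)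
              + A * ((k₀ + j : ℕ) : ℝ) ^ 12) + A * (k₀ : ℝ) ^ 12)) := by
  obtain ⟨ε₀, r, θf, s, hε₀, hr, hθc, hsc, hθΘ, hsΘ, hbox⟩ := h.ctrl
  obtain ⟨𝓡, h𝓡⟩ := h.span
  have hKz : (0 : ℝ) ≤ Λ.Kz := Nat.cast_nonneg _
  have hΘ : 0 ≤ Θ := (abs_nonneg _).trans (hsΘ 0 0)
  obtain ⟨bo, hbo⟩ : ∃ bo : ℝ, bo = (((2 * L : ℕ) : ℝ) + 1) * Λ.Kz := ⟨_, rfl⟩
  have hbo0 : 0 ≤ bo := by rw [hbo]; positivity
  have hCo : 1 ≤ Real.exp bo := Real.one_le_exp hbo0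
  obtain ⟨Ck, hCk, hkick⟩ := kick9 h.sb B L Λ ρ₂ ρz az
  obtain ⟨C₃, hC₃, hph₃⟩ := phA B L hCo
  obtain ⟨C₁, hC₁, hph₁⟩ := phII h.sb B L Λ ρ₂ ρz az hCo hθc hθΘ hsΘ hbox
  obtain ⟨C₂, hC₂, k₂, hph₂⟩ := h.plat _ hCo
  obtain ⟨kf, -, hfit⟩ := Λ.exists_fit
  obtain ⟨C₀, hC₀⟩ : ∃ C₀ : ℝ, C₀ = Ck + C₁ + C₂ + C₃ := ⟨_, rfl⟩
  have he : Function.Injective (eW L) := fun a b hab => Subtype.ext (congrArg (fun x => x.1) hab)
  have hτd : ∀ a, IsA l₀ L a → dg (τ a).1 = dg a.1 + 1 := fun a ha => by rw [h.τ_A a ha]; rfl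
  obtain ⟨η₁, hη₁, ε₁, hε₁, hcore⟩ := core9 (MI (2 * L)) (fun i => dg i.1) (eW L) he
    (fun i a hi => ⟨⟨i.1, i.2.1, hi.trans_le a.2.2⟩, rfl⟩) Λ.Kz (kL B Y L ρz az) 𝓡
    (off_kL B L ρz az) h𝓡 C₀ (IsA l₀ L) τ ρ h.τ_inv
    (fun i hi hj => by
      have h1 := hj.1
      rw [h.τ_A i hi] at h1
      simp only [top] at h1
      omega)
    h.τ_fix (fun a ha => by
      show dg (τ a).1 ≠ dg a.1
      rw [hτd a ha]
      omega) h.ρ_dg hε₀ hr hsc hsΘ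
  obtain ⟨kk, hkick⟩ := hkick η₁ hη₁
  obtain ⟨k₁, hph₁⟩ := hph₁ ε₁ hε₁
  obtain ⟨k₃, hk₃⟩ := eventually_atTop.1 (((nf_ev_exp C₀ one_pos).and (nf_ev_exp C₀ hε)).and
    ((nf_ev_eta 1 hη₁).and (nf_ev_big (C₂ * Real.exp bo))))
  obtain ⟨A₀, hA₀⟩ : ∃ A₀ : ℝ, A₀ = (L + 1) * (Λ.K₂ + 2) := ⟨_, rfl⟩
  obtain ⟨A₁, hA₁⟩ : ∃ A₁ : ℝ, A₁ = (L + 1) * (Λ.K₂ * 2 ^ 11 + 1) := ⟨_, rfl⟩
  obtain ⟨A₂, hA₂⟩ : ∃ A₂ : ℝ, A₂ = Λ.CA / 2 + bo + (L + 1) * Λ.CA + 44 := ⟨_, rfl⟩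
  refine ⟨A₀ + A₁ + A₂ + Θ + 2, 2 + kf + kk + k₁ + k₂ + k₃, fun k₀ hk₀ N hN n => ?_⟩
  have hfit' : ∀ k, k₀ ≤ k → Λ.e₃ k + Λ.Kz + (k + 1) + 1 ≤ ((k : ℝ) + 1) ^ 14 :=
    fun k hk => hfit k (by omega)
  have htm := fun i => nf_times Λ h.CA_pos (show 2 ≤ k₀ + i by omega)
  have hk1 : ∀ i, (1 : ℝ) ≤ (k₀ + i : ℕ) := fun i => by exact_mod_cast (by omega : 1 ≤ k₀ + i)
  obtain ⟨tt, htt⟩ : ∃ tt : ℕ → ℝ, tt = tri (fun i => Λ.e₁ (k₀ + i)) (fun i => Λ.e₂ (k₀ + i))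
    fun i => Λ.e₃ (k₀ + i) := ⟨_, rfl⟩
  have t0 : ∀ i, tt (3 * i) = Λ.e₁ (k₀ + i) := fun i => by rw [htt, tri_zero]
  have t1 : ∀ i, tt (3 * i + 1) = Λ.e₂ (k₀ + i) := fun i => by rw [htt, tri_one]
  have t2 : ∀ i, tt (3 * i + 2) = Λ.e₃ (k₀ + i) := fun i => by rw [htt, tri_two]
  set ss := nfS (Λ.a₀ k₀ - k₀) tt Λ.Kz with hss
  set om := nfO B tt Λ.Kz with hom
  have s1 : ∀ i, ss (3 * i + 1) = Λ.e₁ (k₀ + i) + Λ.Kz := fun i => by rw [← t0]; rfl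
  have s2 : ∀ i, ss (3 * i + 2) = Λ.e₂ (k₀ + i) + Λ.Kz := fun i => by rw [← t1]; rfl
  have s3 : ∀ i, ss (3 * (i + 1)) = Λ.e₃ (k₀ + i) + Λ.Kz := fun i => by rw [← t2]; rfl
  have hom1 : ∀ j l, l ≤ 2 * L → 1 ≤ om j l ∧ om j l ≤ Real.exp bo := fun j l hl => by
    rw [hbo]
    exact nfO_mem B tt hKz j hl
  have hom2 : ∀ j (a : MI L), 1 ≤ om j (dg a.1) ∧ om j (dg a.1) ≤ Real.exp bo :=
    fun j a => hom1 j _ (eW L a).2.2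
  have s0 : ∀ i, ss (3 * i) + (k₀ + i : ℕ) ≤ Λ.a₀ (k₀ + i) := fun i => by
    cases i with
    | zero => exact (sub_add_cancel _ _).le
    | succ i =>
      have := hfit' (k₀ + i) (by omega)
      rw [s3, ← add_assoc, Lay.a₀]
      push_cast at this ⊢
      linarith
  have hkt : ∀ j, ((k₀ + j / 3 : ℕ) : ℝ) ≤ tt j := fun j => by
    obtain ⟨i, rfl | rfl | rfl⟩ := nat_tri j
    · rw [t0, show 3 * i / 3 = i by omega]
      exact (htm i).1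
    · rw [t1, show (3 * i + 1) / 3 = i by omega]
      linarith [htm i]
    · rw [t2, show (3 * i + 2) / 3 = i by omega]
      linarith [htm i, hk1 i]
  choose P₁ hP₁ hP₁' using fun i => hph₁ (k₀ + i) (by omega) N (om (3 * i)) (ss (3 * i))
    (hom1 _) (s0 i)
  choose P₂ φ hP₂ hP₂' hφ hφ' using fun i => hph₂ (k₀ + i) (by omega) N (om (3 * i + 1)) hN (hom1 _)
  choose P₃ hP₃ hP₃' using fun i => hph₃ (k₀ + i) N (om (3 * i + 2)) (Λ.e₂ (k₀ + i) + Λ.Kz)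
    (Λ.e₃ (k₀ + i)) (hom1 _) (htm i).2.2.2
  choose KK hKK hKK' hKK'' using fun j => hkick (k₀ + j / 3) (by omega) N (tt j) (hkt j)
  have hev := fun i => hk₃ (k₀ + i) (by omega)
  have hη0 : ∀ i, (0 : ℝ) < 1 / ((k₀ + i : ℕ) : ℝ) ^ 22 := fun i =>
    one_div_pos.2 (pow_pos (by linarith [hk1 i]) _)
  have hg : ∀ i, (P₁ i).Good (C₀ * Real.exp (-((k₀ + i : ℕ) : ℝ) / 2)) C₀ ∧
      (P₂ i).Good (C₀ * Real.exp (-((k₀ + i : ℕ) : ℝ) / 2)) C₀ ∧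
      (P₃ i).Good (C₀ * Real.exp (-((k₀ + i : ℕ) : ℝ) / 2)) C₀ := fun i =>
    ⟨(hP₁ i).mono (mul_le_mul_of_nonneg_right (by linarith) (Real.exp_pos _).le) (by linarith),
      (hP₂ i).mono (mul_le_mul_of_nonneg_right (by linarith) (Real.exp_pos _).le) (by linarith),
      (hP₃ i).mono (mul_le_mul_of_nonneg_right (by linarith) (Real.exp_pos _).le) (by linarith)⟩
  obtain ⟨y, T, ζ, hh, d', hT0, hd0, hTu, heq, hbd⟩ := hcore (HI (2 * L) N) n P₁ P₂ P₃ KK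
    (fun i => 1 / ((k₀ + i : ℕ) : ℝ) ^ 22) (fun i => C₀ * Real.exp (-((k₀ + i : ℕ) : ℝ) / 2))
    (fun i => A₂ * ((k₀ + i : ℕ) : ℝ) ^ 12)
    (fun i l => om (3 * i) l * Real.exp (B.Ip l (ss (3 * i)) (Λ.e₁ (k₀ + i))))
    (fun i l => om (3 * i + 2) l * Real.exp (B.Ip l (Λ.e₂ (k₀ + i) + Λ.Kz) (Λ.e₃ (k₀ + i))))
    (fun i l => B.a l * ((((k₀ + i : ℕ) : ℝ) + 1) ^ 14 - ((k₀ + i : ℕ) : ℝ) ^ 14)
      + A₁ * ((k₀ + i : ℕ) : ℝ) ^ 12) φ (A₀ * (k₀ : ℝ) ^ 12)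
    (fun i => by
      have h1 := (hev i).1.1
      rw [one_mul] at h1
      refine ⟨hη0 i, by simpa using (hev i).2.1, h1, le_trans ?_ h1⟩
      refine mul_le_mul_of_nonneg_left (Real.exp_le_exp.2 ?_) (by linarith)
      push_cast
      linarith)
    hg (fun j => ⟨(hKK j).mono (hη0 _).le (by linarith), hKK' j⟩)
    (fun i y => (hP₁' i y).2) (fun i y => (hP₂' i y).2) (fun i y => (hP₃' i y).2)
    (fun i a => ⟨(mul_pos (one_pos.trans_le (hom2 (3 * i) a).1) (Real.exp_pos _)).ne',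
      abs_pos.1 ((one_div_pos.2 (by linarith)).trans_le (hφ i a).1),
      (mul_pos (one_pos.trans_le (hom2 (3 * i + 2) a).1) (Real.exp_pos _)).ne'⟩)
    (fun i a ha => by
      constructor
      · rw [one_div, inv_pow, ← pow_mul, ← one_div]
        exact hφ' i a (τ a) ha (h.τ_A a ha)
      · have h1 := (nf_psi B Λ (k₀ + i) (dg (τ a).1)).1
        have h2 : ((dg (τ a).1 : ℕ) : ℝ) = (dg a.1 : ℕ) + 1 := by rw [hτd a ha, Nat.cast_succ]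
        have h3 := (hφ i a).2
        have h4 : (1 : ℝ) ≤ Λ.CA := by exact_mod_cast h.CA_pos
        rw [h2] at h1
        rw [div_mul_eq_mul_div] at h3
        exact nf_swap hC₂ h3 (hφ i (τ a)).1 (hom2 _ a) (hom2 _ (τ a)).1
          (nf_psi B Λ (k₀ + i) (dg a.1)).2 h1 (le_mul_of_one_le_left (by positivity) h4)
          (hev i).2.2)
    (fun i a => by
      rw [hA₂]
      refine nf_gam (by omega) (hφ i a).2 hbo0 (hom2 _ a) ((nf_psi B Λ (k₀ + i) (dg a.1)).2.trans ?_)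
      have h1 : ((dg a.1 : ℕ) : ℝ) ≤ L := by exact_mod_cast a.2.2
      rw [mul_assoc]
      exact mul_le_mul_of_nonneg_right (by linarith) (by positivity))
    (fun a => by
      rw [hA₀]
      show |1 * Real.exp (B.Ip (dg a.1) (Λ.a₀ k₀ - k₀) (Λ.e₁ k₀))| ≤ _
      rw [one_mul, abs_of_pos (Real.exp_pos _)]
      exact Real.exp_le_exp.2 (nf_w0 B Λ (by omega) a.2.2))
    (fun i a => by
      rw [hA₁]
      show |Real.exp (B.Ip (dg a.1) (tt (3 * i + 2)) (tt (3 * i + 2) + Λ.Kz)) * Real.exp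
        (B.Ip (dg a.1) (tt (3 * i + 2) + Λ.Kz) (Λ.e₁ (k₀ + i + 1)))| ≤ _
      rw [← Real.exp_add, B.Ip_add, abs_of_pos (Real.exp_pos _), t2]
      refine Real.exp_le_exp.2 (nf_w1 B Λ (by omega) a.2.2 ?_)
      have h1 := s0 (i + 1)
      rw [s3] at h1
      show _ ≤ Λ.e₁ (k₀ + (i + 1))
      linarith [htm (i + 1), hk1 (i + 1)])
  refine ⟨fun k => θf (y (3 * (k - k₀))), fun k r => clamp (ζ (3 * (k - k₀) + r)),
    fun k j => hθΘ _ _, fun k r j => abs_clamp_le _ _, fun c hc a => ?_⟩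
  obtain ⟨q0, q⟩ := hc.pieces (by omega) hfit'
  have q' := fun i => q (k₀ + i) (by omega)
  simp only [Nat.add_sub_cancel_left, Nat.sub_self] at q0 q'
  obtain ⟨u, p, hu, hu0, hu1, hu2⟩ := chain B (d := dt (2 * L) N)
    (fun i => by
      rcases i with i | i
      · exact i.2.1
      · exact le_trans (by omega) i.2.1) (eW L) (3 * n) (tri P₁ P₂ P₃) KK om ss tt
    ((continuous_Rt Y (Λ.gρ ρ₂ ρz) (2 * L) N).comp hc.1.continuous)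
    ((continuous_Qt Y (Λ.ga az) (2 * L) N).comp hc.1.continuous) y ζ T hh d' hT0 hd0
    (fun _ => rfl)
    (fun j hj => by
      obtain ⟨i, rfl | rfl | rfl⟩ := nat_tri j
      · rw [tri_zero, t0]
        have h1 : ∀ t ∈ Icc (ss (3 * i)) (Λ.e₁ (k₀ + i)),
            c t = Λ.cII (k₀ + i) (θf (y (3 * i))) t := by
          cases i with
          | zero => exact fun t ht => q0 t ht.2
          | succ i =>
            have h2 := (q' i).2.2.2.2.2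
            rw [show k₀ + i + 1 - k₀ = i + 1 by omega] at h2
            rw [s3]
            exact h2
        exact ⟨by linarith [s0 i, htm i, hk1 i], (hP₁' i _).1.congr
          (fun t ht => congrArg _ (h1 t ht)) (fun t ht => congrArg _ (h1 t ht)),
          (hP₁ i).inv _, hTu _ hj⟩
      · rw [tri_one, t1, s1]
        exact ⟨(htm i).2.2.1, (hP₂' i _).1.congr (fun t ht => congrArg _ ((q' i).2.1 t ht))
          (fun t ht => congrArg _ ((q' i).2.1 t ht)), (hP₂ i).inv _, hTu _ hj⟩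
      · rw [tri_two, t2, s2]
        exact ⟨by linarith [htm i, hk1 i], (hP₃' i _).1.congr
          (fun t ht => (congrArg _ ((q' i).2.2.2.1 t ht)).trans (Rt_zero _ _ _ _))
          (fun t ht => (congrArg _ ((q' i).2.2.2.1 t ht)).trans (Qt_zero _ _ _ _)),
          (hP₃ i).inv _, hTu _ hj⟩)
    (fun j hj => by
      have h1 : ∀ t ∈ Icc (tt j) (tt j + Λ.Kz),
          c t = Λ.cK (k₀ + j / 3) (tt j) (clamp (ζ j)) t := by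
        obtain ⟨i, rfl | rfl | rfl⟩ := nat_tri j
        · rw [t0, show 3 * i / 3 = i by omega]
          exact (q' i).1
        · rw [t1, show (3 * i + 1) / 3 = i by omega]
          exact (q' i).2.2.1
        · rw [t2, show (3 * i + 2) / 3 = i by omega]
          exact (q' i).2.2.2.2.1
      exact ⟨le_add_of_nonneg_right hKz, (hKK'' j _).congr (fun t ht => congrArg _ (h1 t ht))
        (fun t ht => congrArg _ (h1 t ht)), fun _ => rfl, heq j hj⟩) a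
  refine ⟨u, p, hu, hu0, fun a' => ?_, fun i hi => ?_⟩
  · have h1 : inc (eW L) (eW L a') a = (1 : Matrix (MI L) (MI L) ℝ) a' a := by
      simp only [inc, he.eq_iff, Matrix.one_apply]
    have h2 := (hev 0).1.2
    have h3 : (1 / ((k₀ + 0 : ℕ) : ℝ) ^ 22) ^ 2 ≤ 1 :=
      pow_le_one₀ (hη0 0).le ((div_le_one (pow_pos (by linarith [hk1 0]) _)).2
        (one_le_pow₀ (hk1 0)))
    refine le_trans (le_of_eq (congrArg abs ?_)) (((abs_entry_le _ (eW L a') a).trans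
      ((hg 0).1.nXM (y 0))).trans (h2.trans (mul_le_of_le_one_right hε.le h3)))
    rw [← h1]
    exact (congrArg (· - _) (hu1 _)).trans (add_sub_cancel_left _ _)
  · rw [← t0, hu2 _ (by omega)]
    refine (hbd i hi a).trans (Real.exp_le_exp.2 (mul_le_mul_of_nonneg_left ?_ zero_le_two))
    have hA₀0 : 0 ≤ A₀ := by rw [hA₀]; positivity
    have hA₁0 : 0 ≤ A₁ := by rw [hA₁]; positivity
    have hA₂0 : 0 ≤ A₂ := by rw [hA₂]; positivity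
    have h1 : (1 : ℝ) ≤ (k₀ : ℝ) ^ 12 := one_le_pow₀ (hk1 0)
    have h2 : A₀ * (k₀ : ℝ) ^ 12 + Θ + 2 ≤ (A₀ + A₁ + A₂ + Θ + 2) * (k₀ : ℝ) ^ 12 := by nlinarith
    refine le_trans (le_of_eq (by ring)) (add_le_add (Finset.sum_le_sum fun j _ => ?_) h2)
    have h3 : (1 : ℝ) ≤ ((k₀ + j : ℕ) : ℝ) ^ 12 := one_le_pow₀ (hk1 j)
    show B.a (dg (((ρ * τ) ^ j) ((ρ * τ) (ρ a))).1) * _ + _ + _ + _ ≤ _
    nlinarith

end Crest.Agent.R202
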