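import Crest.Agent.R202.NineAlg

/-!
# R202/NineFinAux: bookkeeping and matrix algebra for `fin9`
-/

open scoped Topology Matrix Matrix.Norms.L2Operator
open Set Filter

noncomputable section

namespace Crest.Agent.R202

/-- interleaving of three sequences -/
def tri {α : Type} (f₀ f₁ f₂ : ℕ → α) (j : ℕ) : α :=
  if j % 3 = 0 then f₀ (j / 3) else if j % 3 = 1 then f₁ (j / 3) else f₂ (j / 3)

section tri

variable {α : Type} (f₀ f₁ f₂ : ℕ → α) (i : ℕ)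

theorem tri_zero : tri f₀ f₁ f₂ (3 * i) = f₀ i := by
  simp [tri]

theorem tri_one : tri f₀ f₁ f₂ (3 * i + 1) = f₁ i := by
  have h1 : (3 * i + 1) % 3 = 1 := by omega
  have h2 : (3 * i + 1) / 3 = i := by omega
  simp [tri, h1, h2]

theorem tri_two : tri f₀ f₁ f₂ (3 * i + 2) = f₂ i := by
  have h1 : (3 * i + 2) % 3 = 2 := by omega
  have h2 : (3 * i + 2) / 3 = i := by omega
  simp [tri, h1, h2]

theorem tri_one_one : tri f₀ f₁ f₂ (3 * i + 1 + 1) = f₂ i := tri_two f₀ f₁ f₂ i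

theorem tri_two_one : tri f₀ f₁ f₂ (3 * i + 2 + 1) = f₀ (i + 1) := tri_zero f₀ f₁ f₂ (i + 1)

theorem tri_zero' : tri f₀ f₁ f₂ 0 = f₀ 0 := tri_zero f₀ f₁ f₂ 0

end tri

theorem nat_tri (j : ℕ) : ∃ i, j = 3 * i ∨ j = 3 * i + 1 ∨ j = 3 * i + 2 :=
  ⟨j / 3, by omega⟩

variable {W : Type} [Fintype W] [DecidableEq W]

theorem nf_norm_le {K : Matrix W W ℝ} (h : ‖K - 1‖ ≤ 1 / 4) : ‖K‖ ≤ 5 / 4 := by
  have h1 : K = (K - 1) + 1 := by abel
  have h2 := norm_add_le (K - 1) (1 : Matrix W W ℝ)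
  rw [← h1] at h2
  linarith [opNorm_one_le (n := W)]

theorem nf_mul3 (A K K' : Matrix W W ℝ) : ‖K * A * K'‖ ≤ ‖K‖ * ‖A‖ * ‖K'‖ :=
  (opNorm_mul_le _ _).trans (mul_le_mul_of_nonneg_right (opNorm_mul_le _ _) (norm_nonneg _))

/-- the update of the control parameter stays in the box -/
theorem nf_upd_mem {d : W → ℕ} {P y Yh K K' : Matrix W W ℝ} {r κ ε : ℝ} (hP : Blk d P)
    (hP1 : ∀ i j, |P i j| ≤ 1) (hy : y ∈ box d P r) (hY : Blk d Yh) (hK : Blk d K) (hK' : Blk d K')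
    (hκ : 0 ≤ κ) (hε : 0 ≤ ε) (hr : 0 ≤ r) (h1 : ‖K - 1‖ ≤ κ) (h2 : ‖K' - 1‖ ≤ 3 * κ)
    (hκ1 : κ ≤ 1 / 4) (hc : ∀ a a', |Yh a a' - y a a'| ≤ ε)
    (hs : (Fintype.card W : ℝ) * Fintype.card W * (3 * ε + 5 * κ * (1 + r)) ≤ r) :
    P - (K * Yh * K' - y) ∈ box d P r := by
  set n : ℝ := (Fintype.card W : ℝ) * Fintype.card W
  have hn : 0 ≤ n := by positivity
  refine ⟨fun i j hij => ?_, fun i j => ?_⟩
  · simp only [Matrix.sub_apply, hP i j hij, ((hK.mul hY).mul hK') i j hij, hy.1 i j hij]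
    ring
  · have e : (P - (K * Yh * K' - y)) i j - P i j = -((K * Yh * K' - y) i j) := by
      simp only [Matrix.sub_apply]
      ring
    rw [e, abs_neg]
    refine (abs_entry_le _ i j).trans (le_trans ?_ hs)
    have e2 : K * Yh * K' - y = K * (Yh - y) * K' + (K - 1) * y * K' + y * (K' - 1) := by
      simp only [Matrix.mul_sub, Matrix.sub_mul, Matrix.mul_one, Matrix.one_mul]
      abel
    have n1 : ‖Yh - y‖ ≤ n * ε := opNorm_le_of_entry hε fun a a' => hc a a'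
    have n2' : ‖y‖ ≤ n * (1 + r) := opNorm_le_of_entry (by linarith) fun a a' => by
      have := abs_sub_abs_le_abs_sub (y a a') (P a a')
      linarith [hy.2 a a', hP1 a a']
    have nK : ‖K‖ ≤ 5 / 4 := nf_norm_le (h1.trans hκ1)
    have nK' : ‖K'‖ ≤ 7 / 4 := by
      have h3 : K' = (K' - 1) + 1 := by abel
      have h4 := norm_add_le (K' - 1) (1 : Matrix W W ℝ)
      rw [← h3] at h4
      linarith [opNorm_one_le (n := W)]
    have t1 : ‖K * (Yh - y) * K'‖ ≤ 5 / 4 * (n * ε) * (7 / 4) :=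
      (nf_mul3 _ _ _).trans (by gcongr)
    have t2 : ‖(K - 1) * y * K'‖ ≤ κ * (n * (1 + r)) * (7 / 4) :=
      (nf_mul3 _ _ _).trans (by gcongr)
    have t3 : ‖y * (K' - 1)‖ ≤ n * (1 + r) * (3 * κ) :=
      (opNorm_mul_le _ _).trans (by gcongr)
    rw [e2]
    refine (norm_add₃_le).trans ?_
    have p1 : 0 ≤ n * ε := by positivity
    have p2 : 0 ≤ κ * (n * (1 + r)) := by positivity
    nlinarith

theorem nf_two_near {K K' : Matrix W W ℝ} {κ : ℝ} (hκ : κ ≤ 1 / 4) (h : ‖K - 1‖ ≤ κ)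
    (h' : ‖K' - 1‖ ≤ κ) : ‖K * K' - 1‖ ≤ 3 * κ := by
  have e : K * K' - 1 = K * (K' - 1) + (K - 1) := by
    simp only [Matrix.mul_sub, Matrix.mul_one]
    abel
  have h0 : 0 ≤ κ := (norm_nonneg _).trans h
  have nK : ‖K‖ ≤ 5 / 4 := nf_norm_le (h.trans hκ)
  rw [e]
  refine (norm_add_le _ _).trans ?_
  have : ‖K * (K' - 1)‖ ≤ 5 / 4 * κ := (opNorm_mul_le _ _).trans (by gcongr)
  linarith

/-- the fixed point equation of the control parameter -/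
theorem nf_fixed {d : W → ℕ} {K K' Δ : Matrix W W ℝ} (hK : Blk d K) {s w : ℕ → ℝ}
    (hw : ∀ a, w (d a) ≠ 0) {ρ : Equiv.Perm W} (hρ : ∀ i, d (ρ i) = d i) {ε : W → ℝ}
    (h : K * (Matrix.of fun a a' => Real.exp (s (d a)) * (Δ a a' / w (d a))) * K' = sperm ρ ε) :
    K * Δ * K' = sperm ρ fun j => w (d j) * Real.exp (-s (d j)) * ε j := by
  have e : Δ = Matrix.diagonal (fun a => (fun l => w l * Real.exp (-s l)) (d a))
      * (Matrix.of fun a a' => Real.exp (s (d a)) * (Δ a a' / w (d a))) := by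
    ext a a'
    simp only [Matrix.diagonal_mul, Matrix.of_apply, Real.exp_neg]
    field_simp [hw a]
  have e5 := hK.comm_diagonal (fun l => w l * Real.exp (-s l))
  rw [e, ← Matrix.mul_assoc, ← e5, Matrix.mul_assoc, Matrix.mul_assoc,
    ← Matrix.mul_assoc K, h, diagonal_mul_sperm]
  simp only [hρ]

/-- one stage multiplies the amplitude by a signed permutation -/
theorem nf_stage {d : W → ℕ} {K₀ K₁ K₂ K₃ Δ U₁ L₂ U₃ A S₁ S₂ S₃ : Matrix W W ℝ} {φ : W → ℝ}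
    {ψ : ℕ → ℝ} (hK₁ : Blk d K₁) (hu : IsUnit K₁.det) (h1 : K₀ * A = S₁)
    (h2 : (1 + U₃) * Matrix.diagonal (fun a => ψ (d a)) * (1 + L₂) * Matrix.diagonal φ * (1 + U₁)
      = S₂) (h3 : K₃ * Δ * (K₂ * K₁) = S₃) :
    K₃ * (Δ * (K₂ + K₂ * K₁ * U₃ * K₁⁻¹) * (Matrix.diagonal (fun a => ψ (d a)) * (K₁ + K₁ * L₂)
      * (Matrix.diagonal φ * (K₀ + U₁ * K₀) * A))) = S₃ * S₂ * S₁ := by
  have e1 : K₂ + K₂ * K₁ * U₃ * K₁⁻¹ = K₂ * K₁ * (1 + U₃) * K₁⁻¹ := by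
    rw [Matrix.mul_add, Matrix.add_mul, Matrix.mul_one, Matrix.mul_assoc K₂ K₁ K₁⁻¹,
      Matrix.mul_nonsing_inv _ hu, Matrix.mul_one]
  have e2 : K₁ + K₁ * L₂ = K₁ * (1 + L₂) := by rw [Matrix.mul_add, Matrix.mul_one]
  have e3 : K₀ + U₁ * K₀ = (1 + U₁) * K₀ := by rw [Matrix.add_mul, Matrix.one_mul]
  have e4 : K₁⁻¹ * (Matrix.diagonal (fun a => ψ (d a)) * K₁) = Matrix.diagonal fun a => ψ (d a) := by
    rw [hK₁.comm_diagonal, ← Matrix.mul_assoc, Matrix.nonsing_inv_mul _ hu, Matrix.one_mul]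
  rw [e1, e2, e3, ← h1, ← h2, ← h3]
  simp only [Matrix.mul_assoc]
  congr 5
  rw [← Matrix.mul_assoc (Matrix.diagonal _) K₁, ← Matrix.mul_assoc K₁⁻¹, e4]

theorem nf_n2_elim {M H : Type} [Fintype M] [Fintype H] (f : M → ℝ) (g : H → ℝ) :
    n2 (Sum.elim f g) = n2 f + n2 g := by
  simp [n2, Fintype.sum_sum_type]

/-- the size of a column at the end of a slow phase -/
theorem nf_col {M H : Type} [Fintype M] [Fintype H] {Z : Matrix M W ℝ} {h : Matrix H W ℝ}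
    {K A : Matrix W W ℝ} {σ : Equiv.Perm W} {F : W → ℝ} (hZ : ‖Z‖ ≤ 3) (hh : ‖h‖ ≤ 1)
    (hK : ‖K - 1‖ ≤ 1 / 4) (hA : K * A = sperm σ F) (c : W) {x : ℝ} (hF : |F c| ≤ Real.exp x) :
    n2 (Sum.elim (fun i => (Z * A) i c) fun i => (h * A) i c) ≤ Real.exp (2 * (x + 2)) := by
  obtain ⟨hu, hi, -⟩ := inv_of_near_one (hK.trans (by norm_num : (1 / 4 : ℝ) ≤ 1 / 2))
  have e : A = K⁻¹ * sperm σ F := by
    rw [← hA, ← Matrix.mul_assoc, Matrix.nonsing_inv_mul _ hu, Matrix.one_mul]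
  rw [nf_n2_elim, e, ← Matrix.mul_assoc, ← Matrix.mul_assoc]
  have a1 := n2_col_mul_sperm (Z * K⁻¹) σ F c
  have a2 := n2_col_mul_sperm (h * K⁻¹) σ F c
  have b1 : ‖Z * K⁻¹‖ ≤ 3 * 2 := (opNorm_mul_le _ _).trans (by gcongr)
  have b2 : ‖h * K⁻¹‖ ≤ 1 * 2 := (opNorm_mul_le _ _).trans (by gcongr)
  have c1 : ‖Z * K⁻¹‖ ^ 2 ≤ (3 * 2) ^ 2 := by gcongr
  have c2 : ‖h * K⁻¹‖ ^ 2 ≤ (1 * 2) ^ 2 := by gcongr
  have d1 : F c ^ 2 ≤ Real.exp x ^ 2 := by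
    rw [← sq_abs]
    gcongr
  have d2 : (40 : ℝ) ≤ Real.exp 4 := by
    have h1 := Real.exp_one_gt_d9
    have h2 : Real.exp 4 = Real.exp 1 ^ 4 := by rw [← Real.exp_nat_mul]; norm_num
    have h3 : (2.7 : ℝ) ^ 4 ≤ Real.exp 1 ^ 4 := by gcongr; linarith
    rw [h2]
    linarith [show (40 : ℝ) ≤ 2.7 ^ 4 by norm_num]
  have d3 : Real.exp (2 * (x + 2)) = Real.exp x ^ 2 * Real.exp 4 := by
    rw [← Real.exp_nat_mul, ← Real.exp_add]
    congr 1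
    push_cast
    ring
  have d4 := sq_nonneg (F c)
  rw [d3]
  nlinarith [mul_le_mul_of_nonneg_right c1 d4, mul_le_mul_of_nonneg_right c2 d4,
    mul_le_mul_of_nonneg_left d2 (sq_nonneg (Real.exp x))]

theorem nf_ev_exp (C : ℝ) {ε : ℝ} (hε : 0 < ε) :
    ∀ᶠ k : ℕ in atTop, C * Real.exp (-(k : ℝ) / 2) ≤ ε * (1 / (k : ℝ) ^ 22) ^ 2 := by
  have h1 := (Real.tendsto_pow_mul_exp_neg_atTop_nhds_zero 44).comp
    ((tendsto_natCast_atTop_atTop (R := ℝ)).atTop_div_const (by norm_num : (0 : ℝ) < 2))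
  have h2 := h1.const_mul (C * 2 ^ 44)
  rw [mul_zero] at h2
  filter_upwards [h2.eventually (ge_mem_nhds hε), eventually_ge_atTop 1] with k hk hk1
  have hk0 : (0 : ℝ) < k := by exact_mod_cast hk1
  simp only [Function.comp] at hk
  have e : C * Real.exp (-(k : ℝ) / 2)
      = C * 2 ^ 44 * (((k : ℝ) / 2) ^ 44 * Real.exp (-((k : ℝ) / 2))) * (1 / (k : ℝ) ^ 22) ^ 2 := by
    rw [neg_div]
    field_simp
  rw [e]
  gcongr

theorem nf_ev_eta (C : ℝ) {ε : ℝ} (hε : 0 < ε) :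
    ∀ᶠ k : ℕ in atTop, C * (1 / (k : ℝ) ^ 22) ≤ ε := by
  have h1 : Tendsto (fun k : ℕ => ((k : ℝ) ^ 22)⁻¹) atTop (𝓝 0) :=
    tendsto_inv_atTop_zero.comp ((tendsto_pow_atTop (by norm_num)).comp tendsto_natCast_atTop_atTop)
  have h2 := h1.const_mul C
  rw [mul_zero] at h2
  filter_upwards [h2.eventually (ge_mem_nhds hε)] with k hk
  simpa using hk

theorem nf_ev_big (C : ℝ) : ∀ᶠ k : ℕ in atTop, C ≤ Real.exp ((k : ℝ) ^ 12 / 3) := by
  have h1 : Tendsto (fun k : ℕ => Real.exp ((k : ℝ) ^ 12 / 3)) atTop atTop :=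
    Real.tendsto_exp_atTop.comp
      (((tendsto_pow_atTop (by norm_num)).comp tendsto_natCast_atTop_atTop).atTop_div_const
        (by norm_num))
  exact h1.eventually_ge_atTop C

end Crest.Agent.R202
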