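import Crest.Agent.R202.OdeDefs

/-!
# R202/OdeBasic: algebra of the roots, of the coordinates `xp, xm` and of `Sol`, `Rel`
-/

set_option linter.unusedSectionVars false

open scoped ContDiff Topology Matrix
open Set Filter

noncomputable section

namespace Crest.Agent.R202

variable {ι : Type} [Fintype ι] [DecidableEq ι]

theorem rt_sq {b x : ℝ} (hx : 0 ≤ x) : rt b x ^ 2 + b * rt b x = x := by
  have h : Real.sqrt (b ^ 2 + 4 * x) ^ 2 = b ^ 2 + 4 * x := Real.sq_sqrt (by positivity)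
  unfold rt
  linear_combination h / 4

theorem rt_nonneg {b x : ℝ} (hx : 0 ≤ x) : 0 ≤ rt b x := by
  have h : |b| ≤ Real.sqrt (b ^ 2 + 4 * x) := Real.abs_le_sqrt (by linarith)
  have := le_abs_self b
  unfold rt
  linarith

theorem rt_le_iff {b x y : ℝ} (hb : 0 < b) (hx : 0 ≤ x) (hy : 0 ≤ y) :
    rt b x ≤ y ↔ x ≤ y ^ 2 + b * y := by
  have h1 := rt_sq (b := b) hx
  have h2 := rt_nonneg (b := b) hx
  constructor
  · intro h; nlinarith
  · intro h
    by_contra hn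
    push Not at hn
    nlinarith

theorem rt_lt_iff {b x y : ℝ} (hb : 0 < b) (hx : 0 ≤ x) (hy : 0 ≤ y) :
    rt b x < y ↔ x < y ^ 2 + b * y := by
  have h1 := rt_sq (b := b) hx
  have h2 := rt_nonneg (b := b) hx
  constructor
  · intro h; nlinarith
  · intro h
    by_contra hn
    push Not at hn
    nlinarith

theorem lt_rt_iff {b x y : ℝ} (hb : 0 < b) (hx : 0 ≤ x) (hy : 0 ≤ y) :
    y < rt b x ↔ y ^ 2 + b * y < x := by
  rw [← not_le, rt_le_iff hb hx hy, not_le]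

theorem rt_mono {b x y : ℝ} (h : x ≤ y) : rt b x ≤ rt b y := by
  have := Real.sqrt_le_sqrt (show b ^ 2 + 4 * x ≤ b ^ 2 + 4 * y by linarith)
  unfold rt
  linarith

theorem continuous_rt (b : ℝ) : Continuous (rt b) := by
  unfold rt
  fun_prop

/-- concavity: the tangent line at `x₀ = y² + b y` -/
theorem rt_le_tangent {b x y : ℝ} (hb : 0 < b) (hx : 0 ≤ x) (hy : 0 ≤ y) :
    rt b x ≤ y + (x - (y ^ 2 + b * y)) / (2 * y + b) := by
  have h1 := rt_sq (b := b) hx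
  have h3 : 0 < 2 * y + b := by linarith
  rw [← sub_le_iff_le_add', le_div_iff₀ h3]
  nlinarith [sq_nonneg (rt b x - y)]

theorem n2_nonneg (x : ι → ℝ) : 0 ≤ n2 x := by
  exact Finset.sum_nonneg fun i _ => sq_nonneg _

theorem n2_eq_zero {x : ι → ℝ} (h : n2 x ≤ 0) : x = 0 := by
  funext i
  have h1 : x i ^ 2 ≤ n2 x :=
    Finset.single_le_sum (f := fun i => x i ^ 2) (fun i _ => sq_nonneg _) (Finset.mem_univ i)
  exact pow_eq_zero_iff (two_ne_zero) |>.1 (le_antisymm (h1.trans h) (sq_nonneg _))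

theorem sq_le_n2 (x : ι → ℝ) (i : ι) : x i ^ 2 ≤ n2 x := by
  exact Finset.single_le_sum (f := fun i => x i ^ 2) (fun i _ => sq_nonneg _) (Finset.mem_univ i)

theorem n2_msk_add (U : Set ι) (x : ι → ℝ) : n2 (msk U x) + n2 (msk Uᶜ x) = n2 x := by
  simp only [n2, msk, ← Finset.sum_add_distrib]
  refine Finset.sum_congr rfl fun i _ => ?_
  by_cases hi : i ∈ U <;> simp [hi]

theorem n2_eq_norm_sq (x : ι → ℝ) : n2 x = ‖(WithLp.toLp 2 x : EuclideanSpace ℝ ι)‖ ^ 2 := by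
  rw [EuclideanSpace.norm_sq_eq]
  simp [n2]

theorem sqrt_n2_add_le (x y : ι → ℝ) :
    Real.sqrt (n2 (x + y)) ≤ Real.sqrt (n2 x) + Real.sqrt (n2 y) := by
  simp only [n2_eq_norm_sq, Real.sqrt_sq (norm_nonneg _), WithLp.toLp_add]
  exact norm_add_le _ _

theorem OdeBasic_homog {B δ a c : ℝ} (hδ : 0 ≤ δ) (ha : 0 ≤ a) (hc : 0 ≤ c)
    (h : ∀ s t : ℝ, 0 < s → 0 < t → 2 * (s * t * B) ≤ δ * (s ^ 2 * a + t ^ 2 * c)) :
    B ≤ δ * (Real.sqrt a * Real.sqrt c) := by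
  have hc1 : Continuous fun ε : ℝ => δ * ((Real.sqrt a + ε) * (Real.sqrt c + ε)) := by fun_prop
  have hl : Tendsto (fun ε : ℝ => δ * ((Real.sqrt a + ε) * (Real.sqrt c + ε))) (𝓝[>] 0)
      (𝓝 (δ * (Real.sqrt a * Real.sqrt c))) := by
    have := (hc1.tendsto 0).mono_left (nhdsWithin_le_nhds (s := Ioi 0))
    simpa using this
  refine ge_of_tendsto hl (eventually_nhdsWithin_of_forall fun ε hε => ?_)
  have hε' : 0 < ε := hε
  have h1 := Real.sqrt_nonneg a
  have h2 := Real.sqrt_nonneg c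
  have hs : 0 < Real.sqrt c + ε := by linarith
  have ht : 0 < Real.sqrt a + ε := by linarith
  have h3 : a ≤ (Real.sqrt a + ε) ^ 2 := by nlinarith [Real.sq_sqrt ha]
  have h4 : c ≤ (Real.sqrt c + ε) ^ 2 := by nlinarith [Real.sq_sqrt hc]
  have h5 := h _ _ hs ht
  set s := Real.sqrt c + ε
  set t := Real.sqrt a + ε
  have h6 : s ^ 2 * a + t ^ 2 * c ≤ 2 * (s * t * (t * s)) := by
    nlinarith [mul_le_mul_of_nonneg_left h3 (sq_nonneg s),
      mul_le_mul_of_nonneg_left h4 (sq_nonneg t)]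
  have h7 := h5.trans (mul_le_mul_of_nonneg_left h6 hδ)
  have hst : 0 < s * t := mul_pos hs ht
  refine le_of_mul_le_mul_left ?_ hst
  nlinarith

theorem OdeBasic_nV_nonneg (d : ι → ℕ) (x : ι → ℝ) : 0 ≤ nV d x :=
  Finset.sum_nonneg fun _ _ => by positivity

theorem OdeBasic_n2_smul (c : ℝ) (x : ι → ℝ) : n2 (c • x) = c ^ 2 * n2 x := by
  simp only [n2, Finset.mul_sum, Pi.smul_apply, smul_eq_mul, mul_pow]

theorem OdeBasic_nV_smul (d : ι → ℕ) (c : ℝ) (x : ι → ℝ) : nV d (c • x) = c ^ 2 * nV d x := by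
  simp only [nV, Finset.mul_sum, Pi.smul_apply, smul_eq_mul, mul_pow]
  exact Finset.sum_congr rfl fun i _ => by ring

theorem OdeBasic_form_smul (A : Matrix ι ι ℝ) (x y : ι → ℝ) {s t : ℝ} (hs : 0 < s) (ht : 0 < t) :
    |(s • x) ⬝ᵥ A *ᵥ (t • y)| = s * t * |x ⬝ᵥ A *ᵥ y| := by
  rw [Matrix.mulVec_smul, dotProduct_smul, smul_dotProduct, smul_eq_mul, smul_eq_mul, abs_mul,
    abs_mul, abs_of_pos hs, abs_of_pos ht]
  ring

/-- homogeneous forms of the bounds in `Pb` -/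
theorem Pb.abs_R_le {d : ι → ℕ} {δ : ℝ} {R Q : Matrix ι ι ℝ} (h : Pb d δ R Q) (hδ : 0 ≤ δ)
    (x y : ι → ℝ) : |x ⬝ᵥ R *ᵥ y| ≤ δ * (Real.sqrt (n2 x) * Real.sqrt (n2 y)) := by
  refine OdeBasic_homog hδ (n2_nonneg x) (n2_nonneg y) fun s t hs ht => ?_
  have := h.1 (s • x) (t • y)
  rwa [OdeBasic_form_smul R x y hs ht, OdeBasic_n2_smul, OdeBasic_n2_smul] at this

theorem Pb.abs_Q_le {d : ι → ℕ} {δ : ℝ} {R Q : Matrix ι ι ℝ} (h : Pb d δ R Q) (hδ : 0 ≤ δ)
    (x y : ι → ℝ) : |x ⬝ᵥ Q *ᵥ y| ≤ δ * (Real.sqrt (nV d x) * Real.sqrt (nV d y)) := by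
  refine OdeBasic_homog hδ (OdeBasic_nV_nonneg d x) (OdeBasic_nV_nonneg d y) fun s t hs ht => ?_
  have := h.2 (s • x) (t • y)
  rwa [OdeBasic_form_smul Q x y hs ht, OdeBasic_nV_smul, OdeBasic_nV_smul] at this

theorem Pb.mono {d : ι → ℕ} {δ δ' : ℝ} {R Q : Matrix ι ι ℝ} (h : Pb d δ R Q) (hδ : δ ≤ δ') :
    Pb d δ' R Q := by
  exact ⟨fun x y => (h.1 x y).trans (mul_le_mul_of_nonneg_right hδ
      (add_nonneg (n2_nonneg x) (n2_nonneg y))),
    fun x y => (h.2 x y).trans (mul_le_mul_of_nonneg_right hδ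
      (add_nonneg (OdeBasic_nV_nonneg d x) (OdeBasic_nV_nonneg d y)))⟩

theorem Pb.zero (d : ι → ℕ) : Pb d 0 0 0 := by
  exact ⟨fun x y => by simp, fun x y => by simp⟩

theorem Pb.add {d : ι → ℕ} {δ δ' : ℝ} {R Q R' Q' : Matrix ι ι ℝ} (h : Pb d δ R Q)
    (h' : Pb d δ' R' Q') : Pb d (δ + δ') (R + R') (Q + Q') := by
  refine ⟨fun x y => ?_, fun x y => ?_⟩
  · rw [Matrix.add_mulVec, dotProduct_add]
    linarith [h.1 x y, h'.1 x y, abs_add_le (x ⬝ᵥ R *ᵥ y) (x ⬝ᵥ R' *ᵥ y)]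
  · rw [Matrix.add_mulVec, dotProduct_add]
    linarith [h.2 x y, h'.2 x y, abs_add_le (x ⬝ᵥ Q *ᵥ y) (x ⬝ᵥ Q' *ᵥ y)]

theorem Pb.smul {d : ι → ℕ} {δ : ℝ} {R Q : Matrix ι ι ℝ} (h : Pb d δ R Q) (c : ℝ) :
    Pb d (|c| * δ) (c • R) (c • Q) := by
  refine ⟨fun x y => ?_, fun x y => ?_⟩
  · rw [Matrix.smul_mulVec, dotProduct_smul, smul_eq_mul, abs_mul]
    linarith [mul_le_mul_of_nonneg_left (h.1 x y) (abs_nonneg c)]
  · rw [Matrix.smul_mulVec, dotProduct_smul, smul_eq_mul, abs_mul]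
    linarith [mul_le_mul_of_nonneg_left (h.2 x y) (abs_nonneg c)]

theorem Cut.mono {U : Set ι} {G C C' : ℝ} {z z' : St ι} (h : Cut U G C z z') (hC : C ≤ C') :
    Cut U G C' z z' := by
  refine le_trans h (mul_le_mul_of_nonneg_right hC ?_)
  exact add_nonneg (n2_nonneg _)
    (mul_nonneg (Real.exp_pos _).le (add_nonneg (n2_nonneg _) (n2_nonneg _)))

namespace Bg

variable (B : Bg)

theorem le_a (l : ℕ) : (l : ℝ) ≤ B.a l := by
  exact (B.bp_ge l 0).trans (B.bp_le l 0)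

theorem OdeBasic_lam_nonneg (l : ℕ) : 0 ≤ lam B.β₀ l := by
  have := B.b_pos
  have := B.b_le
  exact mul_nonneg (Nat.cast_nonneg l) (by linarith [(Nat.cast_nonneg l : (0 : ℝ) ≤ l)])

theorem a_le (l : ℕ) : B.a l ≤ l + 1 / 6 := by
  have h0 : (0 : ℝ) ≤ l := Nat.cast_nonneg l
  rw [a, rt_le_iff B.b_pos (B.OdeBasic_lam_nonneg l) (by linarith), lam]
  nlinarith [B.β₀_le, B.b_pos]

theorem continuous_bp (l : ℕ) : Continuous (B.bp l) := by
  exact continuous_iff_continuousAt.2 fun t => (B.dbp l t).continuousAt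

theorem continuous_bm (l : ℕ) : Continuous (B.bm l) := by
  exact continuous_iff_continuousAt.2 fun t => (B.dbm l t).continuousAt

theorem gap_ge (l : ℕ) (t : ℝ) : 2 * (l : ℝ) + B.b ≤ B.bp l t - B.bm l t := by
  have h1 := B.bp_ge l t
  have h2 := B.bm_le l t
  have h3 : (l : ℝ) ≤ rt B.b (lam B.β₀ l) := B.le_a l
  linarith

theorem OdeBasic_gap_pos (l : ℕ) (t : ℝ) : 0 < B.bp l t - B.bm l t := by
  have := B.gap_ge l t
  have := B.b_pos
  linarith [(Nat.cast_nonneg l : (0 : ℝ) ≤ l)]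

theorem gap_le (l : ℕ) (t : ℝ) : B.bp l t - B.bm l t ≤ 2 * (l : ℝ) + B.β₀ + 1 / 6 := by
  have h1 := B.bp_le l t
  have h2 := B.bm_ge l t
  have h3 : rt B.b (lam B.β₀ l) ≤ l + 1 / 6 := B.a_le l
  linarith

theorem Ip_add (l : ℕ) (r s t : ℝ) : B.Ip l r s + B.Ip l s t = B.Ip l r t := by
  exact intervalIntegral.integral_add_adjacent_intervals
    ((B.continuous_bp l).intervalIntegrable _ _) ((B.continuous_bp l).intervalIntegrable _ _)

theorem hasDerivAt_Ip (l : ℕ) (s t : ℝ) : HasDerivAt (B.Ip l s) (B.bp l t) t := by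
  exact ((B.continuous_bp l).integral_hasStrictDerivAt s t).hasDerivAt

theorem Ip_ge (l : ℕ) {s t : ℝ} (h : s ≤ t) : l * (t - s) ≤ B.Ip l s t := by
  have := intervalIntegral.integral_mono_on (f := fun _ => (l : ℝ)) (μ := MeasureTheory.volume) h
    intervalIntegrable_const ((B.continuous_bp l).intervalIntegrable _ _) fun r _ => B.bp_ge l r
  rw [intervalIntegral.integral_const, smul_eq_mul, mul_comm] at this
  exact this

theorem Ip_le (l : ℕ) {s t : ℝ} (h : s ≤ t) : B.Ip l s t ≤ B.a l * (t - s) := by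
  have := intervalIntegral.integral_mono_on (g := fun _ => B.a l) (μ := MeasureTheory.volume) h
    ((B.continuous_bp l).intervalIntegrable _ _) intervalIntegrable_const fun r _ => B.bp_le l r
  rw [intervalIntegral.integral_const, smul_eq_mul, mul_comm] at this
  exact this

theorem Im_le (l : ℕ) {s t : ℝ} (h : s ≤ t) : B.Im l s t ≤ -(l * (t - s)) := by
  have := intervalIntegral.integral_mono_on (g := fun _ => -(l : ℝ)) (μ := MeasureTheory.volume) h
    ((B.continuous_bm l).intervalIntegrable _ _) intervalIntegrable_const fun r _ => by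
      have h2 := B.bm_le l r
      have h3 : (l : ℝ) ≤ rt B.b (lam B.β₀ l) := B.le_a l
      linarith [B.b_pos]
  rw [intervalIntegral.integral_const, smul_eq_mul, mul_comm, neg_mul] at this
  exact this

theorem sqrt_mul_u (l : ℕ) (t u p : ℝ) :
    Real.sqrt l * u = B.xp1 l t u p + B.xm1 l t u p := by
  have := (B.OdeBasic_gap_pos l t).ne'
  unfold xp1 xm1
  field_simp
  ring

theorem sqrt_mul_p (l : ℕ) (t u p : ℝ) :
    Real.sqrt l * p = B.bp l t * B.xp1 l t u p + B.bm l t * B.xm1 l t u p := by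
  have := (B.OdeBasic_gap_pos l t).ne'
  unfold xp1 xm1
  field_simp
  ring

/-- every state is attained -/
theorem exists_up {d : ι → ℕ} (hd : ∀ i, 1 ≤ d i) (t : ℝ) (z : St ι) :
    ∃ u p : ι → ℝ, (∀ i, B.xp1 (d i) t (u i) (p i) = z.1 i) ∧
      ∀ i, B.xm1 (d i) t (u i) (p i) = z.2 i := by
  have hs : ∀ i, Real.sqrt (d i) ≠ 0 := fun i =>
    (Real.sqrt_pos.2 (by exact_mod_cast hd i)).ne'
  refine ⟨fun i => (z.1 i + z.2 i) / Real.sqrt (d i),
    fun i => (B.bp (d i) t * z.1 i + B.bm (d i) t * z.2 i) / Real.sqrt (d i), fun i => ?_,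
    fun i => ?_⟩
  · have := (B.OdeBasic_gap_pos (d i) t).ne'
    have := hs i
    unfold xp1
    field_simp
    ring
  · have := (B.OdeBasic_gap_pos (d i) t).ne'
    have := hs i
    unfold xm1
    field_simp
    ring

theorem eq_of_st_eq {d : ι → ℕ} (hd : ∀ i, 1 ≤ d i) {u p u' p' : ℝ → ι → ℝ} {t : ℝ}
    (h : B.st d u p t = B.st d u' p' t) : u t = u' t ∧ p t = p' t := by
  have hs : ∀ i, Real.sqrt (d i) ≠ 0 := fun i =>
    (Real.sqrt_pos.2 (by exact_mod_cast hd i)).ne'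
  have h1 : ∀ i, B.xp1 (d i) t (u t i) (p t i) = B.xp1 (d i) t (u' t i) (p' t i) := fun i =>
    congrFun (congrArg Prod.fst h) i
  have h2 : ∀ i, B.xm1 (d i) t (u t i) (p t i) = B.xm1 (d i) t (u' t i) (p' t i) := fun i =>
    congrFun (congrArg Prod.snd h) i
  refine ⟨funext fun i => mul_left_cancel₀ (hs i) ?_, funext fun i => mul_left_cancel₀ (hs i) ?_⟩
  · rw [B.sqrt_mul_u (d i) t (u t i) (p t i), B.sqrt_mul_u (d i) t (u' t i) (p' t i), h1, h2]
  · rw [B.sqrt_mul_p (d i) t (u t i) (p t i), B.sqrt_mul_p (d i) t (u' t i) (p' t i), h1, h2]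

variable {B} {d : ι → ℕ} {R Q R' Q' : ℝ → Matrix ι ι ℝ} {s s' : Set ℝ} {u p u' p' : ℝ → ι → ℝ}

theorem Sol.mono (h : B.Sol d R Q s u p) (hs : s' ⊆ s) : B.Sol d R Q s' u p := by
  exact ⟨fun t ht => h.du t (hs ht), fun t ht => h.dp t (hs ht)⟩

theorem Sol.congr (h : B.Sol d R Q s u p) (hR : ∀ t ∈ s, R' t = R t) (hQ : ∀ t ∈ s, Q' t = Q t) :
    B.Sol d R' Q' s u p := by
  refine ⟨fun t ht => ?_, fun t ht => ?_⟩
  · rw [hR t ht]; exact h.du t ht
  · rw [hQ t ht]; exact h.dp t ht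

theorem Sol.add (h : B.Sol d R Q s u p) (h' : B.Sol d R Q s u' p') :
    B.Sol d R Q s (u + u') (p + p') := by
  refine ⟨fun t ht => ?_, fun t ht => ?_⟩
  · refine ((h.du t ht).add (h'.du t ht)).congr_deriv ?_
    simp only [Pi.add_apply, Matrix.mulVec_add]
    abel
  · refine ((h.dp t ht).add (h'.dp t ht)).congr_deriv ?_
    funext i
    simp only [Pi.add_apply, Matrix.mulVec_add]
    ring

theorem Sol.smul (h : B.Sol d R Q s u p) (c : ℝ) : B.Sol d R Q s (c • u) (c • p) := by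
  refine ⟨fun t ht => ?_, fun t ht => ?_⟩
  · refine ((h.du t ht).const_smul c).congr_deriv ?_
    simp only [Pi.smul_apply, Matrix.mulVec_smul, smul_add]
  · refine ((h.dp t ht).const_smul c).congr_deriv ?_
    funext i
    simp only [Pi.smul_apply, Matrix.mulVec_smul, smul_eq_mul]
    ring

theorem Sol.zero : B.Sol d R Q s 0 0 := by
  refine ⟨fun t _ => ?_, fun t _ => ?_⟩
  · refine (hasDerivAt_const t (0 : ι → ℝ)).congr_deriv ?_
    simp
  · refine (hasDerivAt_const t (0 : ι → ℝ)).congr_deriv ?_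
    funext i
    simp

theorem st_add (t : ℝ) : B.st d (u + u') (p + p') t = B.st d u p t + B.st d u' p' t := by
  refine Prod.ext (funext fun i => ?_) (funext fun i => ?_)
  · simp only [st, xp, xp1, Pi.add_apply, Prod.fst_add]
    ring
  · simp only [st, xm, xm1, Pi.add_apply, Prod.snd_add]
    ring

theorem st_smul (c t : ℝ) : B.st d (c • u) (c • p) t = c • B.st d u p t := by
  refine Prod.ext (funext fun i => ?_) (funext fun i => ?_)
  · simp only [st, xp, xp1, Pi.smul_apply, Prod.smul_fst, smul_eq_mul]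
    ring
  · simp only [st, xm, xm1, Pi.smul_apply, Prod.smul_snd, smul_eq_mul]
    ring

theorem OdeBasic_mulVec_msk {S : Set ι} {A : Matrix ι ι ℝ} (h : Dec S A) (x : ι → ℝ) :
    A *ᵥ R202.msk S x = R202.msk S (A *ᵥ x) := by
  funext i
  by_cases hi : i ∈ S
  · simp only [R202.msk, indicator_of_mem hi, Matrix.mulVec, dotProduct]
    refine Finset.sum_congr rfl fun j _ => ?_
    by_cases hj : j ∈ S
    · rw [indicator_of_mem hj]
    · rw [h i j (iff_of_true hi hj), zero_mul, zero_mul]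
  · simp only [R202.msk, indicator_of_notMem hi, Matrix.mulVec, dotProduct]
    refine Finset.sum_eq_zero fun j _ => ?_
    by_cases hj : j ∈ S
    · rw [h i j (iff_of_false hi (not_not.2 hj)), zero_mul]
    · rw [indicator_of_notMem hj, mul_zero]

theorem Sol.msk (h : B.Sol d R Q s u p) {S : Set ι} (hR : ∀ t ∈ s, Dec S (R t))
    (hQ : ∀ t ∈ s, Dec S (Q t)) :
    B.Sol d R Q s (fun t => msk S (u t)) (fun t => msk S (p t)) := by
  refine ⟨fun t ht => hasDerivAt_pi.2 fun i => ?_, fun t ht => hasDerivAt_pi.2 fun i => ?_⟩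
  · simp only [OdeBasic_mulVec_msk (hR t ht), Pi.add_apply]
    by_cases hi : i ∈ S
    · simp only [R202.msk, indicator_of_mem hi]
      exact hasDerivAt_pi.1 (h.du t ht) i
    · simp only [R202.msk, indicator_of_notMem hi, add_zero]
      exact hasDerivAt_const _ _
  · simp only [OdeBasic_mulVec_msk (hQ t ht)]
    by_cases hi : i ∈ S
    · simp only [R202.msk, indicator_of_mem hi]
      exact hasDerivAt_pi.1 (h.dp t ht) i
    · simp only [R202.msk, indicator_of_notMem hi, add_zero, mul_zero]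
      exact hasDerivAt_const _ _

theorem st_msk (S : Set ι) (t : ℝ) :
    B.st d (fun t => msk S (u t)) (fun t => msk S (p t)) t
      = (msk S (B.xp d u p t), msk S (B.xm d u p t)) := by
  refine Prod.ext (funext fun i => ?_) (funext fun i => ?_)
  · by_cases hi : i ∈ S <;> simp [st, xp, xp1, msk, hi]
  · by_cases hi : i ∈ S <;> simp [st, xm, xm1, msk, hi]

theorem Sol.hasDerivAt_xp (h : B.Sol d R Q s u p) {t : ℝ} (ht : t ∈ s) (i : ι) :
    HasDerivAt (fun r => B.xp d u p r i)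
      (B.bp (d i) t * B.xp d u p t i + Real.sqrt (d i)
        * ((Q t *ᵥ u t) i - B.bm (d i) t * (R t *ᵥ p t) i) / (B.bp (d i) t - B.bm (d i) t)) t := by
  have hg := (B.OdeBasic_gap_pos (d i) t).ne'
  have hu := hasDerivAt_pi.1 (h.du t ht) i
  have hp := hasDerivAt_pi.1 (h.dp t ht) i
  have h1 := ((hp.sub ((B.dbm (d i) t).mul hu)).const_mul (Real.sqrt (d i))).div
    ((B.dbp (d i) t).sub (B.dbm (d i) t)) hg
  refine h1.congr_deriv ?_
  simp only [xp, xp1, Pi.add_apply, Pi.sub_apply, Pi.mul_apply]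
  field_simp
  ring

theorem Sol.hasDerivAt_xm (h : B.Sol d R Q s u p) {t : ℝ} (ht : t ∈ s) (i : ι) :
    HasDerivAt (fun r => B.xm d u p r i)
      (B.bm (d i) t * B.xm d u p t i + Real.sqrt (d i)
        * (B.bp (d i) t * (R t *ᵥ p t) i - (Q t *ᵥ u t) i) / (B.bp (d i) t - B.bm (d i) t)) t := by
  have hg := (B.OdeBasic_gap_pos (d i) t).ne'
  have hu := hasDerivAt_pi.1 (h.du t ht) i
  have hp := hasDerivAt_pi.1 (h.dp t ht) i
  have h1 := ((((B.dbp (d i) t).mul hu).sub hp).const_mul (Real.sqrt (d i))).div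
    ((B.dbp (d i) t).sub (B.dbm (d i) t)) hg
  refine h1.congr_deriv ?_
  simp only [xm, xm1, Pi.add_apply, Pi.sub_apply, Pi.mul_apply]
  field_simp
  ring

theorem OdeBasic_linear {k x : ℝ → ℝ} (hk : Continuous k) {t₁ t₂ : ℝ} (ht : t₁ ≤ t₂)
    (hx : ∀ t ∈ Icc t₁ t₂, HasDerivAt x (k t * x t) t) :
    x t₂ = Real.exp (∫ r in t₁..t₂, k r) * x t₁ := by
  have hF : ∀ t ∈ Icc t₁ t₂,
      HasDerivAt (fun t => Real.exp (-∫ r in t₁..t, k r) * x t) 0 t := by
    intro t ht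
    have h1 := ((hk.integral_hasStrictDerivAt t₁ t).hasDerivAt.neg.exp).mul (hx t ht)
    refine h1.congr_deriv ?_
    simp only [Pi.neg_apply]
    ring
  have h2 := constant_of_has_deriv_right_zero
    (fun t ht => (hF t ht).continuousAt.continuousWithinAt)
    (fun t ht => (hF t (Ico_subset_Icc_self ht)).hasDerivWithinAt) t₂ (right_mem_Icc.2 ht)
  simp only [intervalIntegral.integral_same, neg_zero, Real.exp_zero, one_mul] at h2
  rw [← h2, ← mul_assoc, ← Real.exp_add, add_neg_cancel, Real.exp_zero, one_mul]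

/-- free evolution -/
theorem Sol.free {t₁ t₂ : ℝ} (h : B.Sol d R Q (Icc t₁ t₂) u p) (ht : t₁ ≤ t₂)
    (hR : ∀ t ∈ Icc t₁ t₂, R t = 0) (hQ : ∀ t ∈ Icc t₁ t₂, Q t = 0) (i : ι) :
    B.xp d u p t₂ i = Real.exp (B.Ip (d i) t₁ t₂) * B.xp d u p t₁ i ∧
      B.xm d u p t₂ i = Real.exp (B.Im (d i) t₁ t₂) * B.xm d u p t₁ i := by
  constructor
  · refine OdeBasic_linear (x := fun r => B.xp d u p r i) (B.continuous_bp (d i)) ht fun t ht' => ?_
    have := h.hasDerivAt_xp ht' i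
    simpa [hR t ht', hQ t ht'] using this
  · refine OdeBasic_linear (x := fun r => B.xm d u p r i) (B.continuous_bm (d i)) ht fun t ht' => ?_
    have := h.hasDerivAt_xm ht' i
    simpa [hR t ht', hQ t ht'] using this

/-- before time `0` -/
theorem Sol.of_nonpos (hd : ∀ i, 1 ≤ d i) (h : B.Sol d R Q (Iic 0) u p)
    (hR : ∀ t ≤ 0, R t = 0) (hQ : ∀ t ≤ 0, Q t = 0) (h0 : B.xm d u p 0 = 0) {t : ℝ} (ht : t ≤ 0)
    (i : ι) : u t i = Real.exp (d i * t) * u 0 i := by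
  have hs : Real.sqrt (d i) ≠ 0 := (Real.sqrt_pos.2 (by exact_mod_cast hd i)).ne'
  obtain ⟨h1, h2⟩ := (h.mono (s' := Icc t 0) fun r hr => hr.2).free ht
    (fun r hr => hR r hr.2) (fun r hr => hQ r hr.2) i
  have h3 : B.xm d u p 0 i = 0 := by rw [h0]; rfl
  have h4 : B.xm d u p t i = 0 := by
    rw [h3] at h2
    exact (mul_eq_zero.1 h2.symm).resolve_left (Real.exp_pos _).ne'
  have h5 : B.Ip (d i) t 0 = -(d i * t) := by
    have : B.Ip (d i) t 0 = ∫ _ in t..0, (d i : ℝ) := by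
      refine intervalIntegral.integral_congr fun r hr => ?_
      rw [uIcc_of_le ht] at hr
      exact B.bp_zero _ r hr.2
    rw [this, intervalIntegral.integral_const, smul_eq_mul]
    ring
  have h6 : Real.sqrt (d i) * u t i = B.xp d u p t i + B.xm d u p t i := B.sqrt_mul_u _ _ _ _
  have h7 : Real.sqrt (d i) * u 0 i = B.xp d u p 0 i + B.xm d u p 0 i := B.sqrt_mul_u _ _ _ _
  refine mul_left_cancel₀ hs ?_
  rw [mul_left_comm, h6, h7, h3, h4, h1, h5, add_zero, add_zero, ← mul_assoc, ← Real.exp_add,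
    add_neg_cancel, Real.exp_zero, one_mul]

theorem Rel.add {t₁ t₂ : ℝ} {z₁ z₂ w₁ w₂ : St ι} (h : B.Rel d R Q t₁ t₂ z₁ z₂)
    (h' : B.Rel d R Q t₁ t₂ w₁ w₂) : B.Rel d R Q t₁ t₂ (z₁ + w₁) (z₂ + w₂) := by
  obtain ⟨u, p, h1, h2, h3⟩ := h
  obtain ⟨u', p', h1', h2', h3'⟩ := h'
  exact ⟨u + u', p + p', h1.add h1', by rw [st_add, h2, h2'], by rw [st_add, h3, h3']⟩

theorem Rel.smul {t₁ t₂ : ℝ} {z₁ z₂ : St ι} (h : B.Rel d R Q t₁ t₂ z₁ z₂) (c : ℝ) :
    B.Rel d R Q t₁ t₂ (c • z₁) (c • z₂) := by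
  obtain ⟨u, p, h1, h2, h3⟩ := h
  exact ⟨c • u, c • p, h1.smul c, by rw [st_smul, h2], by rw [st_smul, h3]⟩

theorem Rel.sum {t₁ t₂ : ℝ} {κ : Type} (T : Finset κ) {z w : κ → St ι}
    (h : ∀ k ∈ T, B.Rel d R Q t₁ t₂ (z k) (w k)) :
    B.Rel d R Q t₁ t₂ (∑ k ∈ T, z k) (∑ k ∈ T, w k) := by
  classical
  induction T using Finset.induction_on with
  | empty =>
    have e : ∀ t, B.st d 0 0 t = 0 := fun t => by
      have := st_smul (B := B) (d := d) (u := 0) (p := 0) 0 t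
      simpa using this
    exact ⟨0, 0, Sol.zero, by simp [e], by simp [e]⟩
  | insert a T ha ih =>
    rw [Finset.sum_insert ha, Finset.sum_insert ha]
    exact (h a (Finset.mem_insert_self _ _)).add (ih fun k hk => h k (Finset.mem_insert_of_mem hk))

theorem Rel.congr {t₁ t₂ : ℝ} {z₁ z₂ : St ι} (h : B.Rel d R Q t₁ t₂ z₁ z₂)
    (hR : ∀ t ∈ Icc t₁ t₂, R' t = R t) (hQ : ∀ t ∈ Icc t₁ t₂, Q' t = Q t) :
    B.Rel d R' Q' t₁ t₂ z₁ z₂ := by
  obtain ⟨u, p, h1, h2, h3⟩ := h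
  exact ⟨u, p, h1.congr hR hQ, h2, h3⟩

end Bg

end Crest.Agent.R202
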