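import Crest.Agent.R202.NineLap
import Crest.Agent.R202.OdeBasic

/-!
# R202/NineHarm: from solutions of the infinite system to harmonic functions

`add_mean`: redefine `u t i0 = ∫₀ᵗ act D (R s) (p s) i0` (a finite sum of continuous functions);
`p t i0 = 0`, and the `i0` row and column of `Q` vanish (`mQ_i0`).
`harm9`: `f = ser τ Y u`, `q = ser τ Y p` (`tame_of_isol`).  `fderiv_ser_self`, the equation for
`u`, `ser_add_right`, `ser_expand` (backwards, with `P = ρ k * Y`), `ser_mul`, `ser_fun_mul` give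
`h1` of `lap9`; `Lf_ser`, `ser_mul`, `ser_add_left` turn `Dh9 a c f` into
`- ser (op0 Y + Σ (c op1 Y + c² op2 Y)) u`, and `ser_expand`, `op0_of_mem` give `h2`.
On the unit ball `f = Σ u 0 i • ev (Y i)` (`u t i0 = u 0 i0` for `t ≤ 0`), `ball_series`,
`laplace_flat`.
-/

open scoped ContDiff Topology Matrix
open Set Filter
open Crest.GeometryTopology.CoordMetric

noncomputable section

namespace Crest.Agent.R202

variable {Y : I0 → Pl 3} {N : ℕ} {ρ : Fin N → Pl 3} {a : Fin N → Fin 3 → Pl 3}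

/-- the function with coefficients `u` -/
def fn9 (τ : ℝ → ℝ) (Y : I0 → Pl 3) (u : ℝ → I0 → ℝ) (x : E 3) : ℝ :=
  if x = 0 then u 0 i0 * ev (Y i0) 0 else ser τ Y u x

theorem NineHarm_eq_i0 {i : I0} (hi : ¬ 1 ≤ dg i) : i = i0 := by
  obtain ⟨⟨l, m⟩, h⟩ := i
  simp only [dg] at hi
  simp only at h
  simp only [i0, Subtype.mk.injEq, Prod.mk.injEq]
  omega

theorem NineHarm_QQ_i0 (h : SB Y) (c : Fin N → ℝ) (i : I0) :
    QQ Y a c i i0 = 0 ∧ QQ Y a c i0 i = 0 := by
  simp only [QQ, Matrix.sum_apply, Matrix.add_apply, Matrix.smul_apply, smul_eq_mul,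
    (h.mQ_i0 _ i).1, (h.mQ_i0 _ i).2.1, (h.mQ_i0 _ i).2.2.1, (h.mQ_i0 _ i).2.2.2, mul_zero,
    add_zero, Finset.sum_const_zero, and_self]

theorem add_mean (h : SB Y) {β : ℝ → ℝ} {D : ℕ}
    (hD : ∀ k, BandI D (mR Y (ρ k)) ∧ BandI D (mQ1 Y (a k)) ∧ BandI D (mQ2 Y (a k)))
    {c : ℝ → Fin N → ℝ} (hc : Continuous c) {M : ℝ} (hM : ∀ t k, |c t k| ≤ M)
    (h0 : ∀ t ≤ 0, c t = 0) {u p : ℝ → I0 → ℝ}
    (hs : ISol β D (fun t => RR Y ρ (c t)) (fun t => QQ Y a (c t)) {i | 1 ≤ dg i} u p)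
    (hp0 : ∀ t, p t i0 = 0) {κ x C : ℝ} (hκ : 0 < κ) (hx : 0 < x)
    (hb : ∀ t i, 1 ≤ dg i → |u t i| ≤ C * Real.exp (x * max t 0) * Real.exp (-(κ * dg i)) ∧
      |p t i| ≤ C * Real.exp (x * max t 0) * Real.exp (-(κ * dg i))) :
    ∃ (u' : ℝ → I0 → ℝ) (C' : ℝ), (∀ t i, 1 ≤ dg i → u' t i = u t i) ∧ (∀ t ≤ 0, u' t i0 = 0) ∧
      ISol β D (fun t => RR Y ρ (c t)) (fun t => QQ Y a (c t)) univ u' p ∧
      ∀ t i, |u' t i| ≤ C' * Real.exp (x * max t 0) * Real.exp (-(κ * dg i)) ∧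
        |p t i| ≤ C' * Real.exp (x * max t 0) * Real.exp (-(κ * dg i)) := by
  classical
  set F : ℝ → ℝ := fun s => act D (RR Y ρ (c s)) (p s) i0 with hF
  have hpc : ∀ j, Continuous fun s => p s j := fun j => by
    by_cases hj : 1 ≤ dg j
    · exact continuous_iff_continuousAt.2 fun t => (hs.dp j hj t).continuousAt
    · rw [NineHarm_eq_i0 hj]
      simp only [hp0]
      exact continuous_const
  have hFe : ∀ s, F s = ∑ j ∈ lowI (dg i0 + D), (∑ k, c s k * mR Y (ρ k) i0 j) * p s j := fun s => by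
    simp only [hF, act, RR, Matrix.sum_apply, Matrix.smul_apply, smul_eq_mul]
  have hFc : Continuous F := by
    rw [funext hFe]
    exact continuous_finsetSum _ fun j _ => (continuous_finsetSum _ fun k _ =>
      ((continuous_apply k).comp hc).mul continuous_const).mul (hpc j)
  have hC : 0 ≤ C := by
    have h1 := (abs_nonneg _).trans (hb 0 (zon 1) le_rfl).1
    exact nonneg_of_mul_nonneg_left (nonneg_of_mul_nonneg_left h1 (Real.exp_pos _))
      (Real.exp_pos _)
  have hexp : ∀ i : I0, Real.exp (-(κ * dg i)) ≤ 1 := fun i =>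
    Real.exp_le_one_iff.2 (neg_nonpos.2 (by positivity))
  have hpb : ∀ t i, |p t i| ≤ C * Real.exp (x * max t 0) * Real.exp (-(κ * dg i)) := fun t i => by
    by_cases hi : 1 ≤ dg i
    · exact (hb t i hi).2
    · rw [NineHarm_eq_i0 hi, hp0, abs_zero]
      positivity
  set K : ℝ := ∑ j ∈ lowI (dg i0 + D), ∑ k, |M| * |mR Y (ρ k) i0 j| with hK
  have hK0 : 0 ≤ K := Finset.sum_nonneg fun j _ => Finset.sum_nonneg fun k _ => by positivity
  have hFb : ∀ s, |F s| ≤ K * (C * Real.exp (x * max s 0)) := fun s => by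
    rw [hFe, hK, Finset.sum_mul]
    refine (Finset.abs_sum_le_sum_abs _ _).trans (Finset.sum_le_sum fun j _ => ?_)
    rw [abs_mul]
    refine mul_le_mul ((Finset.abs_sum_le_sum_abs _ _).trans (Finset.sum_le_sum fun k _ => ?_))
      ((hpb s j).trans (mul_le_of_le_one_right (by positivity) (hexp j))) (abs_nonneg _)
      (Finset.sum_nonneg fun k _ => by positivity)
    rw [abs_mul]
    exact mul_le_mul_of_nonneg_right ((hM s k).trans (le_abs_self M)) (abs_nonneg _)
  have hG0 : ∀ t ≤ 0, ∫ s in (0 : ℝ)..t, F s = 0 := fun t ht => by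
    rw [intervalIntegral.integral_congr (g := fun _ => 0), intervalIntegral.integral_zero]
    intro s hs'
    rw [uIcc_of_ge ht] at hs'
    simp only [hFe, h0 s hs'.2, Pi.zero_apply, zero_mul, Finset.sum_const_zero]
  have hGb : ∀ t, |∫ s in (0 : ℝ)..t, F s| ≤ K * C / x * Real.exp (x * max t 0) := fun t => by
    rcases le_total t 0 with ht | ht
    · rw [hG0 t ht, abs_zero]
      positivity
    · have h1 : ∫ s in (0 : ℝ)..t, K * (C * Real.exp (x * s)) =
          K * C / x * Real.exp (x * t) - K * C / x * Real.exp (x * 0) := by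
        refine intervalIntegral.integral_eq_sub_of_hasDerivAt
          (f := fun s => K * C / x * Real.exp (x * s)) (fun s _ => ?_)
          (Continuous.intervalIntegrable (by fun_prop) _ _)
        refine ((((hasDerivAt_id s).const_mul x).exp).const_mul (K * C / x)).congr_deriv ?_
        simp only [id]
        field_simp
      have h2 : |∫ s in (0 : ℝ)..t, F s| ≤ ∫ s in (0 : ℝ)..t, K * (C * Real.exp (x * s)) := by
        refine (intervalIntegral.abs_integral_le_integral_abs ht).trans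
          (intervalIntegral.integral_mono_on ht (hFc.abs.intervalIntegrable _ _)
            (Continuous.intervalIntegrable (by fun_prop) _ _) fun s hs' => ?_)
        have := hFb s
        rwa [max_eq_left hs'.1] at this
      have h3 : 0 ≤ K * C / x * Real.exp (x * 0) := by positivity
      rw [max_eq_left ht]
      linarith
  have hne : ∀ i, 1 ≤ dg i → i ≠ i0 := fun i hi he => by
    rw [he] at hi
    exact absurd hi (by decide)
  have hact : ∀ t i, act D (QQ Y a (c t))
      (fun i => if i = i0 then ∫ s in (0 : ℝ)..t, F s else u t i) i =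
      act D (QQ Y a (c t)) (u t) i := fun t i => by
    refine Finset.sum_congr rfl fun j _ => ?_
    by_cases hj : j = i0
    · rw [hj, (NineHarm_QQ_i0 h _ i).1, zero_mul, zero_mul]
    · simp only [if_neg hj]
  refine ⟨fun t i => if i = i0 then ∫ s in (0 : ℝ)..t, F s else u t i, C + K * C / x,
    fun t i hi => if_neg (hne i hi), fun t ht => by simp only [if_true, hG0 t ht], ⟨?_, ?_⟩, ?_⟩
  · intro i _ t
    by_cases hi : 1 ≤ dg i
    · simp only [if_neg (hne i hi)]
      exact hs.du i hi t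
    · rw [NineHarm_eq_i0 hi]
      simp only [if_true, hp0, zero_add]
      exact (hFc.integral_hasStrictDerivAt 0 t).hasDerivAt
  · intro i _ t
    rw [hact]
    by_cases hi : 1 ≤ dg i
    · simp only [if_neg (hne i hi)]
      exact hs.dp i hi t
    · rw [NineHarm_eq_i0 hi]
      have h1 : act D (QQ Y a (c t)) (u t) i0 = 0 :=
        Finset.sum_eq_zero fun j _ => by rw [(NineHarm_QQ_i0 h _ j).2, zero_mul]
      have h2 : lam 1 (dg i0) = 0 := by simp [lam, dg, i0]
      simp only [hp0, h1, h2, mul_zero, zero_mul, add_zero]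
      exact hasDerivAt_const t 0
  · intro t i
    have h1 : C * Real.exp (x * max t 0) * Real.exp (-(κ * dg i)) ≤
        (C + K * C / x) * Real.exp (x * max t 0) * Real.exp (-(κ * dg i)) := by
      have : 0 ≤ K * C / x := by positivity
      gcongr
      linarith
    refine ⟨?_, (hpb t i).trans h1⟩
    by_cases hi : 1 ≤ dg i
    · simp only [if_neg (hne i hi)]
      exact (hb t i hi).1.trans h1
    · rw [NineHarm_eq_i0 hi]
      simp only [if_true]
      have h2 : Real.exp (-(κ * dg i0)) = 1 := by simp [dg, i0]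
      rw [h2, mul_one]
      refine (hGb t).trans ?_
      gcongr
      linarith

theorem NineHarm_laplace_congr {g : MetricField 3} {f f' : E 3 → ℝ} {x : E 3}
    (hf : f =ᶠ[𝓝 x] f') : laplaceBeltrami g f x = laplaceBeltrami g f' x := by
  unfold laplaceBeltrami
  congr 1
  refine Finset.sum_congr rfl fun i _ => ?_
  have h1 : (fun y => Real.sqrt (g y).det * ∑ j, inverseField g y i j * pderiv j f y) =ᶠ[𝓝 x]
      fun y => Real.sqrt (g y).det * ∑ j, inverseField g y i j * pderiv j f' y := by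
    filter_upwards [hf.fderiv (𝕜 := ℝ)] with y hy
    simp only [pderiv, hy]
  simp only [pderiv] at h1 ⊢
  rw [h1.fderiv_eq]

theorem NineHarm_evn_smul (r : ℝ) (P : Pl 3) (x : E 3) : evn (r • P) x = r * evn P x :=
  ev_smul _ _ _

theorem NineHarm_dc_sum {ι : Type} (s : Finset ι) {w : ι → ℝ → I0 → ℝ} (hw : ∀ k ∈ s, Dc (w k)) :
    Dc fun t i => ∑ k ∈ s, w k t i := by
  classical
  induction s using Finset.induction_on with
  | empty => exact ⟨1, one_pos, fun T => ⟨0, fun t i _ => by simp⟩⟩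
  | insert k s hk ih =>
    simp only [Finset.sum_insert hk]
    exact (hw k (Finset.mem_insert_self _ _)).add
      (ih fun j hj => hw j (Finset.mem_insert_of_mem hj))

theorem NineHarm_ser_sum_right (h : SB Y) {τ : ℝ → ℝ} {P : I0 → Pl 3} (hP : Good P) {ι : Type}
    (s : Finset ι) {w : ι → ℝ → I0 → ℝ} (hw : ∀ k ∈ s, Dc (w k)) {x : E 3} (hx : x ≠ 0) :
    ser τ P (fun t i => ∑ k ∈ s, w k t i) x = ∑ k ∈ s, ser τ P (w k) x := by
  simp only [ser, Finset.sum_mul]
  exact Summable.tsum_finsetSum fun k hk => h.summable_ser hP (hw k hk) _ hx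

theorem NineHarm_ser_sum_left (h : SB Y) {τ : ℝ → ℝ} {ι : Type} (s : Finset ι)
    {P : ι → I0 → Pl 3} (hP : ∀ k ∈ s, Good (P k)) {w : ℝ → I0 → ℝ} (hw : Dc w) {x : E 3}
    (hx : x ≠ 0) : ser τ (fun i => ∑ k ∈ s, P k i) w x = ∑ k ∈ s, ser τ (P k) w x := by
  simp only [ser, evn, ev_sum, Finset.mul_sum]
  exact Summable.tsum_finsetSum fun k hk => h.summable_ser (hP k hk) hw _ hx

theorem NineHarm_ser_smul {τ : ℝ → ℝ} (r : ℝ) (P : I0 → Pl 3) (w : ℝ → I0 → ℝ) (x : E 3) :
    ser τ (fun i => r • P i) w x = r * ser τ P w x := by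
  simp only [ser, NineHarm_evn_smul, ← tsum_mul_left]
  exact tsum_congr fun i => by ring

theorem NineHarm_good_smul {P : I0 → Pl 3} (hP : Good P) (r : ℝ) : Good fun i => r • P i := by
  simp only [MvPolynomial.smul_eq_C_mul]
  exact hP.mul _

theorem NineHarm_good_Lv (h : SB Y) {P : I0 → Pl 3} (hP : Good P) (a : Fin 3 → Pl 3) :
    Good fun i => Lv a (P i) :=
  Good.sum (P := fun k i => a k * Lop k (P i)) _ fun k _ => (h.good_Lop hP k).mul _

theorem NineHarm_Lvf (h : SB Y) {τ : ℝ → ℝ} (hτ : ContDiffOn ℝ ∞ τ (Ioi 0)) {P : I0 → Pl 3}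
    (hP : Good P) {w : ℝ → I0 → ℝ} (hw : Tame w) (a : Fin 3 → Pl 3) {x : E 3} (hx : x ≠ 0) :
    Lvf a (ser τ P w) x = ser τ (fun i => Lv a (P i)) w x := by
  simp only [Lvf, Lv]
  rw [NineHarm_ser_sum_left h (P := fun k i => a k * Lop k (P i)) _
    (fun k _ => (h.good_Lop hP k).mul _) hw.dc hx]
  refine Finset.sum_congr rfl fun k _ => ?_
  rw [ser_mul, h.Lf_ser hτ hP hw k hx]

theorem NineHarm_Dh9 (h : SB Y) {τ : ℝ → ℝ} (hτ : ContDiffOn ℝ ∞ τ (Ioi 0)) {P : I0 → Pl 3}
    (hP : Good P) {w : ℝ → I0 → ℝ} (hw : Tame w) (c : Fin N → ℝ) {x : E 3} (hx : x ≠ 0) :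
    Dh9 a c (ser τ P w) x = -(ser τ (fun i => op0 (P i)) w x +
      ∑ j, (c j * ser τ (fun i => op1 (a j) (P i)) w x +
        c j ^ 2 * ser τ (fun i => op2 (a j) (P i)) w x)) := by
  set A : Fin N → Fin 3 → I0 → Pl 3 := fun j k i =>
    a j k * Lv (crs (a j)) (P i) + crs (a j) k * Lv (a j) (P i) with hA
  set B : Fin N → Fin 3 → I0 → Pl 3 := fun j k i => a j k * nP (a j) * Lv (a j) (P i) with hB
  have gA : ∀ j k, Good (A j k) := fun j k =>
    ((NineHarm_good_Lv h hP _).mul _).add ((NineHarm_good_Lv h hP _).mul _)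
  have gB : ∀ j k, Good (B j k) := fun j k => (NineHarm_good_Lv h hP _).mul _
  have gAB : ∀ j k, Good fun i => c j • A j k i + c j ^ 2 • B j k i := fun j k =>
    (NineHarm_good_smul (gA j k) _).add (NineHarm_good_smul (gB j k) _)
  have gS : ∀ k, Good fun i => ∑ j, (c j • A j k i + c j ^ 2 • B j k i) := fun k =>
    Good.sum (P := fun j i => c j • A j k i + c j ^ 2 • B j k i) _ fun j _ => gAB j k
  have gΦ : ∀ k, Good fun i => Lop k (P i) + ∑ j, (c j • A j k i + c j ^ 2 • B j k i) := fun k =>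
    (h.good_Lop hP k).add (gS k)
  have e1 : ∀ k, Lf k (fun y => Lf k (ser τ P w) y + ∑ j, (c j * (evn (a j k) y *
      Lvf (crs (a j)) (ser τ P w) y + evn (crs (a j) k) y * Lvf (a j) (ser τ P w) y)
      + c j ^ 2 * (evn (a j k) y * evn (nP (a j)) y * Lvf (a j) (ser τ P w) y))) x =
      ser τ (fun i => Lop k (Lop k (P i) + ∑ j, (c j • A j k i + c j ^ 2 • B j k i))) w x := by
    intro k
    rw [← h.Lf_ser hτ (gΦ k) hw k hx]
    have e2 : (fun y => Lf k (ser τ P w) y + ∑ j, (c j * (evn (a j k) y *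
        Lvf (crs (a j)) (ser τ P w) y + evn (crs (a j) k) y * Lvf (a j) (ser τ P w) y)
        + c j ^ 2 * (evn (a j k) y * evn (nP (a j)) y * Lvf (a j) (ser τ P w) y))) =ᶠ[𝓝 x]
        ser τ (fun i => Lop k (P i) + ∑ j, (c j • A j k i + c j ^ 2 • B j k i)) w := by
      filter_upwards [isOpen_ne.mem_nhds hx] with y hy
      rw [h.ser_add_left (h.good_Lop hP k) (gS k) hw.dc hy, h.Lf_ser hτ hP hw k hy,
        NineHarm_ser_sum_left h (P := fun j i => c j • A j k i + c j ^ 2 • B j k i) _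
          (fun j _ => gAB j k) hw.dc hy]
      congr 1
      refine Finset.sum_congr rfl fun j _ => ?_
      rw [h.ser_add_left (NineHarm_good_smul (gA j k) _) (NineHarm_good_smul (gB j k) _) hw.dc hy,
        NineHarm_ser_smul, NineHarm_ser_smul, NineHarm_Lvf h hτ hP hw _ hy,
        NineHarm_Lvf h hτ hP hw _ hy, hA, hB]
      simp only
      rw [h.ser_add_left ((NineHarm_good_Lv h hP _).mul _) ((NineHarm_good_Lv h hP _).mul _)
        hw.dc hy, ser_mul, ser_mul, ser_mul]
      simp only [evn, ev_mul]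
    simp only [Lf] at e2 ⊢
    rw [e2.fderiv_eq]
  have g0 : Good fun i => op0 (P i) := Good.neg (Good.sum (P := fun k i => Lop k (Lop k (P i))) _
    fun k _ => h.good_Lop (h.good_Lop hP k) k)
  have g1 : ∀ j, Good fun i => op1 (a j) (P i) := fun j =>
    Good.neg (Good.sum (P := fun k i => Lop k (A j k i)) _ fun k _ => h.good_Lop (gA j k) k)
  have g2 : ∀ j, Good fun i => op2 (a j) (P i) := fun j =>
    Good.neg (Good.sum (P := fun k i => Lop k (B j k i)) _ fun k _ => h.good_Lop (gB j k) k)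
  have g3 : ∀ j, Good fun i => c j • op1 (a j) (P i) + c j ^ 2 • op2 (a j) (P i) := fun j =>
    (NineHarm_good_smul (g1 j) _).add (NineHarm_good_smul (g2 j) _)
  have e3 : ∀ j, c j * ser τ (fun i => op1 (a j) (P i)) w x +
      c j ^ 2 * ser τ (fun i => op2 (a j) (P i)) w x =
      ser τ (fun i => c j • op1 (a j) (P i) + c j ^ 2 • op2 (a j) (P i)) w x := fun j => by
    rw [h.ser_add_left (NineHarm_good_smul (g1 j) _) (NineHarm_good_smul (g2 j) _) hw.dc hx,
      NineHarm_ser_smul, NineHarm_ser_smul]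
  simp only [Dh9, e1, e3]
  rw [← NineHarm_ser_sum_left h (P := fun k i => Lop k (Lop k (P i) +
      ∑ j, (c j • A j k i + c j ^ 2 • B j k i))) _ (fun k _ => h.good_Lop (gΦ k) k) hw.dc hx,
    ← NineHarm_ser_sum_left h (P := fun j i => c j • op1 (a j) (P i) + c j ^ 2 • op2 (a j) (P i)) _
      (fun j _ => g3 j) hw.dc hx,
    ← h.ser_add_left g0 (Good.sum (P := fun j i => c j • op1 (a j) (P i) +
      c j ^ 2 • op2 (a j) (P i)) _ fun j _ => g3 j) hw.dc hx, ← neg_one_mul, ← NineHarm_ser_smul]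
  congr 1
  funext i
  simp only [op0, op1, op2, hA, hB, map_add, map_sum, map_smul, Finset.sum_add_distrib, smul_neg,
    Finset.smul_sum, neg_smul, one_smul, neg_add, neg_neg, Finset.sum_neg_distrib, smul_add]
  rw [Finset.sum_comm (f := fun k j => c j • Lop k (a j k * Lv (crs (a j)) (P i))),
    Finset.sum_comm (f := fun k j => c j • Lop k (crs (a j) k * Lv (a j) (P i))),
    Finset.sum_comm (f := fun k j => c j ^ 2 • Lop k (a j k * nP (a j) * Lv (a j) (P i)))]

theorem harm9 (h : SB Y) {b : ℝ} {β ψ τ : ℝ → ℝ} (hT : Tm b β ψ τ) {D : ℕ}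
    (hD : ∀ k, (ρ k).totalDegree ≤ D ∧ BandI D (mR Y (ρ k)) ∧ BandI D (mQ1 Y (a k)) ∧
      BandI D (mQ2 Y (a k)) ∧ ∀ P : Pl 3, (op1 (a k) P).totalDegree ≤ P.totalDegree + D ∧
        (op2 (a k) P).totalDegree ≤ P.totalDegree + D)
    {c : ℝ → Fin N → ℝ} (hc : ContDiff ℝ ∞ c) (hs : ∀ t, Sgl (c t) ∧ c t ∈ O9 ρ a)
    (h0 : ∀ t ≤ 0, c t = 0) {u p : ℝ → I0 → ℝ}
    (hsol : ISol β D (fun t => RR Y ρ (c t)) (fun t => QQ Y a (c t)) univ u p) (hu : Dc u)
    (hp : Dc p) (hu0 : ∀ t ≤ 0, ∀ i, u t i = Real.exp (dg i * t) * u 0 i) :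
    IsHarmonicOn (radM ψ (c ∘ τ) (H9 ρ a)) univ (fn9 τ Y u) := by
  have hYg := h.good
  obtain ⟨tu, tp⟩ := tame_of_isol (A₁ := fun k => mR Y (ρ k)) (A₂ := fun k => mQ1 Y (a k))
    (A₃ := fun k => mQ2 Y (a k)) hT.β_smooth
    (fun k => ⟨(hD k).2.1, (hD k).2.2.1, (hD k).2.2.2.1⟩) hc hsol hu hp
  have hcc : ∀ k, Continuous fun t => c t k := fun k => (continuous_apply k).comp hc.continuous
  have hf := h.contDiffOn_ser hT.τ_smooth hYg tu
  have hq := h.contDiffOn_ser hT.τ_smooth hYg tp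
  have hne : ∀ x : E 3, x ≠ 0 → fn9 τ Y u =ᶠ[𝓝 x] ser τ Y u := fun x hx => by
    filter_upwards [isOpen_ne.mem_nhds hx] with y hy using if_neg hy
  obtain ⟨κ, hκ, hκ'⟩ := id hu
  obtain ⟨C, hC⟩ := hκ' 0
  obtain ⟨b1, b2⟩ := h.ball_series (v := u 0) hκ fun i => hC 0 i (by simp)
  have hball : ∀ x ∈ Metric.ball (0 : E 3) 1, fn9 τ Y u x = ∑' i, u 0 i * ev (Y i) x := by
    intro x hx
    rw [mem_ball_zero_iff] at hx
    by_cases hx0 : x = 0
    · rw [fn9, if_pos hx0, hx0, tsum_eq_single i0]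
      intro i hi
      have h1 : dg i ≠ 0 := fun h1 => hi (NineHarm_eq_i0 (by omega))
      have h2 := ev_smul_of_isHomogeneous (h.mem i).1 0 (0 : E 3)
      rw [zero_smul, zero_pow h1, zero_mul] at h2
      rw [h2, mul_zero]
    · rw [fn9, if_neg hx0, ser]
      have hr : 0 < ‖x‖ := norm_pos_iff.2 hx0
      refine tsum_congr fun i => ?_
      rw [hT.τ_eq _ hr hx.le, hu0 _ (Real.log_nonpos hr.le hx.le), evn,
        ev_smul_of_isHomogeneous (h.mem i).1, Real.exp_nat_mul, Real.exp_log hr, inv_pow]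
      field_simp
  have hb0 : fn9 τ Y u =ᶠ[𝓝 0] fun x => ∑' i, u 0 i * ev (Y i) x := by
    filter_upwards [Metric.ball_mem_nhds (0 : E 3) one_pos] with y hy using hball y hy
  refine ⟨fun x _ => ContDiffAt.contDiffWithinAt ?_, fun x _ => ?_⟩
  · by_cases hx : x = 0
    · rw [hx]
      exact (b1.contDiffAt (Metric.ball_mem_nhds _ one_pos)).congr_of_eventuallyEq hb0
    · exact (hf.contDiffAt (isOpen_ne.mem_nhds hx)).congr_of_eventuallyEq (hne x hx)
  by_cases hx : x = 0
  · rw [hx, NineHarm_laplace_congr hb0, laplace_flat, b2 0 (Metric.mem_ball_self one_pos)]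
    filter_upwards [Metric.ball_mem_nhds (0 : E 3) one_pos] with y hy
    rw [mem_ball_zero_iff] at hy
    by_cases hy0 : y = 0
    · exact if_pos hy0
    · have hr : 0 < ‖y‖ := norm_pos_iff.2 hy0
      simp only [radM, if_neg hy0, Function.comp]
      rw [hT.τ_eq _ hr hy.le, h0 _ (Real.log_nonpos hr.le hy.le), H9_zero, hT.ψ_eq _ hr hy.le,
        div_self hr.ne']
      simp
  rw [NineHarm_laplace_congr (hne x hx)]
  refine lap9 hT hc hs hf hq (fun y hy => ?_) hx ?_
  · have hr : 0 < ‖y‖ := norm_pos_iff.2 hy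
    have e1 : (fun t i => deriv (fun s => u s i) t) =
        fun t i => p t i + ∑ k, c t k * act D (mR Y (ρ k)) (p t) i := by
      funext t i
      rw [(hsol.du i trivial t).deriv]
      simp only [act, RR, Matrix.sum_apply, Matrix.smul_apply, smul_eq_mul, Finset.sum_mul,
        Finset.mul_sum, mul_assoc]
      rw [Finset.sum_comm]
    have d1 : ∀ k, Dc fun t i => c t k * act D (mR Y (ρ k)) (p t) i := fun k =>
      (hp.act (hD k).2.1).mul (hcc k)
    rw [h.fderiv_ser_self hT.τ_smooth hYg tu hy, e1, (hT.dτ _ hr).deriv,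
      h.ser_add_right hYg hp (NineHarm_dc_sum _ fun k _ => d1 k) hy,
      NineHarm_ser_sum_right h hYg _ (fun k _ => d1 k) hy, sg9, add_mul, one_mul, Finset.sum_mul,
      div_eq_mul_inv]
    congr 2
    refine Finset.sum_congr rfl fun k _ => ?_
    rw [ser_fun_mul (fun t => c t k), ← h.ser_expand (P := fun i => ρ k * Y i) (hD k).2.1
      (fun i j => rfl) (fun j => ?_) hp hy, ser_mul, mul_assoc]
    refine (MvPolynomial.totalDegree_mul _ _).trans ?_
    have := (hD k).1
    have := h.totalDegree_le j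
    omega
  · have hr : 0 < ‖x‖ := norm_pos_iff.2 hx
    have e1 : (fun t i => deriv (fun s => p s i) t) =
        fun t i => ((-β t) * p t i + lam 1 (dg i) * u t i) +
          ∑ k, (c t k * act D (mQ1 Y (a k)) (u t) i + c t k ^ 2 * act D (mQ2 Y (a k)) (u t) i) := by
      funext t i
      rw [(hsol.dp i trivial t).deriv]
      simp only [act, QQ, Matrix.sum_apply, Matrix.add_apply, Matrix.smul_apply, smul_eq_mul,
        Finset.sum_mul, Finset.mul_sum, mul_assoc, add_mul, ← Finset.sum_add_distrib]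
      rw [Finset.sum_comm]
    have d1 : ∀ k, Dc fun t i => c t k * act D (mQ1 Y (a k)) (u t) i := fun k =>
      (hu.act (hD k).2.2.1).mul (hcc k)
    have d2 : ∀ k, Dc fun t i => c t k ^ 2 * act D (mQ2 Y (a k)) (u t) i := fun k =>
      (hu.act (hD k).2.2.2.1).mul ((hcc k).pow 2)
    have d3 : Dc fun t i => (-β t) * p t i := hp.mul hT.β_smooth.continuous.neg
    rw [h.fderiv_ser_self hT.τ_smooth hYg tp hx, e1, (hT.dτ _ hr).deriv,
      h.ser_add_right hYg (d3.add hu.lam) (NineHarm_dc_sum _ fun k _ => (d1 k).add (d2 k)) hx,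
      NineHarm_ser_sum_right h hYg _ (fun k _ => (d1 k).add (d2 k)) hx,
      h.ser_add_right hYg d3 hu.lam hx, ser_fun_mul (fun t => -β t),
      NineHarm_Dh9 h hT.τ_smooth hYg tu _ hx, div_eq_mul_inv, sub_neg_eq_add, ← add_assoc]
    congr 2
    · congr 1
      refine ser_congr fun i => ?_
      rw [op0_of_mem (h.mem i), NineHarm_evn_smul]
      ring
    · refine Finset.sum_congr rfl fun k _ => ?_
      rw [h.ser_add_right hYg (d1 k) (d2 k) hx, ser_fun_mul (fun t => c t k),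
        ser_fun_mul (fun t => c t k ^ 2),
        ← h.ser_expand (P := fun i => op1 (a k) (Y i)) (hD k).2.2.1 (fun i j => rfl)
          (fun j => ((hD k).2.2.2.2 _).1.trans (Nat.add_le_add_right (h.totalDegree_le j) _)) hu hx,
        ← h.ser_expand (P := fun i => op2 (a k) (Y i)) (hD k).2.2.2.1 (fun i j => rfl)
          (fun j => ((hD k).2.2.2.2 _).2.trans (Nat.add_le_add_right (h.totalDegree_le j) _)) hu hx]

theorem growth9 (h : SB Y) {b : ℝ} {β ψ τ : ℝ → ℝ} (hT : Tm b β ψ τ) {u : ℝ → I0 → ℝ}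
    {κ C : ℝ} (hκ : 0 < κ) {k : ℕ}
    (hb : ∀ t i, |u t i| ≤ C * Real.exp (k * b * max t 0) * Real.exp (-(κ * dg i))) :
    ∃ C' : ℝ, ∀ x, |fn9 τ Y u x| ≤ C' * (1 + ‖x‖) ^ k := by
  obtain ⟨C₁, hC₁, hC₁'⟩ := h.abs_ser_le h.good hκ
  have hC : 0 ≤ C := by
    have h1 := (abs_nonneg _).trans (hb 0 i0)
    exact nonneg_of_mul_nonneg_left (nonneg_of_mul_nonneg_left h1 (Real.exp_pos _))
      (Real.exp_pos _)
  refine ⟨C₁ * C + |u 0 i0 * ev (Y i0) 0|, fun x => ?_⟩
  have h1 : 1 ≤ (1 + ‖x‖) ^ k := one_le_pow₀ (by linarith [norm_nonneg x])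
  have h2 : 0 ≤ C₁ * C := mul_nonneg hC₁ hC
  have h3 := abs_nonneg (u 0 i0 * ev (Y i0) 0)
  by_cases hx : x = 0
  · rw [fn9, if_pos hx]
    nlinarith
  · rw [fn9, if_neg hx]
    have hr : 0 < ‖x‖ := norm_pos_iff.2 hx
    have h4 : Real.exp (k * b * max (τ ‖x‖) 0) ≤ (1 + ‖x‖) ^ k := by
      rcases le_or_gt (τ ‖x‖) 0 with h5 | h5
      · rw [max_eq_right h5, mul_zero, Real.exp_zero]
        exact h1
      · have h6 : 1 ≤ ‖x‖ := by
          by_contra h6
          have h7 := (not_le.1 h6).le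
          rw [hT.τ_eq _ hr h7] at h5
          exact absurd (Real.log_nonpos hr.le h7) (not_le.2 h5)
        rw [max_eq_left h5.le, mul_assoc, Real.exp_nat_mul]
        exact pow_le_pow_left₀ (Real.exp_pos _).le ((hT.τ_le _ h6).trans (by linarith)) k
    refine (hC₁' τ u x _ hx (hb _)).trans ?_
    have h5 := mul_le_mul_of_nonneg_left h4 h2
    nlinarith

theorem indep9 (h : SB Y) {b : ℝ} {β ψ τ : ℝ → ℝ} (hT : Tm b β ψ τ) {W : Type} [Fintype W]
    [DecidableEq W] (e : W → I0) {u : W → ℝ → I0 → ℝ} (hu : ∀ c, Dc (u c)) {t : ℝ}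
    (hdet : (Matrix.of fun a c => u c t (e a)).det ≠ 0) :
    LinearIndependent ℝ fun c => fn9 τ Y (u c) := by
  obtain ⟨r, hr, rfl⟩ := hT.τ_surj t
  rw [Fintype.linearIndependent_iff]
  intro g hg
  have hd : ∀ c, Dc fun t i => g c * u c t i := fun c => (hu c).mul continuous_const
  have h1 : (Matrix.of fun a c => u c (τ r) (e a)) *ᵥ g = 0 := by
    funext a
    have h2 := h.sF_ser (τ := τ) (NineHarm_dc_sum Finset.univ fun c _ => hd c) (e a) hr
    rw [sF_congr (g := fun _ => 0)] at h2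
    · simp only [sF, MeasureTheory.integral_zero] at h2
      simp only [Matrix.mulVec, dotProduct, Matrix.of_apply, Pi.zero_apply]
      rw [h2]
      exact Finset.sum_congr rfl fun c _ => mul_comm _ _
    · intro x hx
      have hx0 : r • x ≠ 0 := smul_ne_zero hr.ne' (by rintro rfl; simp at hx)
      have h3 := congrFun hg (r • x)
      simp only [Finset.sum_apply, Pi.smul_apply, smul_eq_mul, fn9, if_neg hx0,
        Pi.zero_apply] at h3
      rw [NineHarm_ser_sum_right h h.good _ (fun c _ => hd c) hx0]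
      simp only [ser_fun_mul (fun _ => g _)]
      rw [h3, mul_zero]
  exact congrFun (Matrix.eq_zero_of_mulVec_eq_zero hdet h1)

end Crest.Agent.R202
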