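import Crest.Agent.R202.OdeDefs

/-!
# R202/OdeRef: existence of the references, elementary facts on the roots

`exists_Bg`: for `l ≥ 1` (and `l = 0` with `bp = 0`) let `y` solve `y'' + β y' = λ y`, `y = e^{lt}`
for `t ≤ 0`, `bp = y'/y`; the interval `[l, a_l]` is invariant for the Riccati equation, and
`(a_l - bp)' ≤ -(a_l - bp) + (β - b) a_l - …` gives the uniform limit (write the equation for
`w = a_l - bp`: `w' = -(b + a_l + bp) w + (β - b) bp`, so `w` is attracted to `≤ sup (β - b)`).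
`bm`: limit of the solutions with final value `-(a_l + b)` at time `T → ∞`, or `z'/z` with
`z = y ∫ₜ^∞ e^{-∫β}/y²`; or construct it on `(-∞, T]` backwards (the interval
`[-(l+β₀), -(a_l+b)]` is backward invariant, solutions contract backwards) and pass to the limit.
For `v = -(a_l+b) - bm ≥ 0` one has `v' = (a_l + |bm|) v - (β - b) |bm|`, and boundedness
forces `v t ≤ β t - b`.  Global solutions of linear equations: `OdeFlow.exists_lin`
(you may prove a scalar version locally instead of importing it).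
-/

open scoped ContDiff Topology Matrix
open Set Filter

noncomputable section

namespace Crest.Agent.R202

theorem OdeRef_rt_sq {b x : ℝ} (hx : 0 ≤ x) : rt b x ^ 2 + b * rt b x = x := by
  have h := Real.sq_sqrt (show 0 ≤ b ^ 2 + 4 * x by positivity)
  rw [rt]
  nlinarith

theorem OdeRef_rt_nonneg {b x : ℝ} (hx : 0 ≤ x) : 0 ≤ rt b x := by
  have h : b ≤ Real.sqrt (b ^ 2 + 4 * x) := Real.le_sqrt_of_sq_le (by linarith)
  rw [rt]
  linarith

theorem OdeRef_decay {f f' : ℝ → ℝ} {K κ ε M s t : ℝ} (hf : ∀ x, HasDerivAt f (f' x) x)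
    (hκ : 0 < κ) (hK : κ ≤ K) (hε : 0 ≤ ε) (hM : 0 ≤ M) (hst : s ≤ t) (h0 : f s ≤ M)
    (h : ∀ x, s ≤ x → x < t → f' x ≤ -K * f x + K * ε) :
    f t ≤ ε + M * Real.exp (-(κ * (t - s))) := by
  have hK0 : 0 < K := hκ.trans_le hK
  have h1 := le_gronwallBound_of_liminf_deriv_right_le (f := f) (f' := f') (δ := M) (K := -K)
    (ε := K * ε) (a := s) (b := t) (fun x _ => (hf x).continuousAt.continuousWithinAt)
    (fun x _ r hr => (hf x).hasDerivWithinAt.liminf_right_slope_le hr) h0
    (fun x hx => h x hx.1 hx.2) t (right_mem_Icc.2 hst)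
  rw [gronwallBound_of_K_ne_0 (neg_ne_zero.2 hK0.ne')] at h1
  have h2 : Real.exp (-K * (t - s)) ≤ Real.exp (-(κ * (t - s))) :=
    Real.exp_le_exp.2 (by nlinarith)
  have h3 : K * ε / -K = -ε := by field_simp
  simp only [h3] at h1
  nlinarith [mul_le_mul_of_nonneg_left h2 hM, mul_nonneg hε (Real.exp_pos (-K * (t - s))).le]

theorem OdeRef_past {f f' : ℝ → ℝ} {K ε M t : ℝ} (hf : ∀ x, HasDerivAt f (f' x) x)
    (hK : 0 < K) (hε : 0 ≤ ε) (hM : 0 ≤ M) (h0 : ∀ s, f s ≤ M)
    (h : ∀ x, x < t → f' x ≤ -K * f x + K * ε) : f t ≤ ε := by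
  have h1 : Tendsto (fun r : ℝ => ε + M * Real.exp (-(K * r))) atTop (𝓝 (ε + M * 0)) :=
    ((Real.tendsto_exp_neg_atTop_nhds_zero.comp
      (tendsto_id.const_mul_atTop hK)).const_mul M).const_add ε
  rw [mul_zero, add_zero] at h1
  refine ge_of_tendsto h1 ((eventually_ge_atTop 0).mono fun r hr => ?_)
  have := OdeRef_decay (s := t - r) (t := t) hf hK le_rfl hε hM (by linarith) (h0 _)
    fun x _ hx => h x hx
  simpa using this

/-- the bounded solution of `y' = -K y + g` -/
def OdeRef_P (K : ℝ) (g : ℝ → ℝ) (t : ℝ) : ℝ :=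
  Real.exp (-(K * t)) * ∫ s in Iic t, Real.exp (K * s) * g s

theorem OdeRef_int {K M : ℝ} {g : ℝ → ℝ} (hK : 0 < K) (hg : Continuous g) (hM : ∀ s, |g s| ≤ M)
    (t : ℝ) : MeasureTheory.IntegrableOn (fun s => Real.exp (K * s) * g s) (Iic t) :=
  (integrableOn_exp_mul_Iic hK t).mul_bdd hg.aestronglyMeasurable (Eventually.of_forall hM)

theorem OdeRef_deriv {K M : ℝ} {g : ℝ → ℝ} (hK : 0 < K) (hg : Continuous g) (hM : ∀ s, |g s| ≤ M)
    (t : ℝ) : HasDerivAt (OdeRef_P K g) (-K * OdeRef_P K g t + g t) t := by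
  have hc : Continuous fun s => Real.exp (K * s) * g s := by fun_prop
  have h1 : HasDerivAt (fun t => ∫ s in Iic t, Real.exp (K * s) * g s) (Real.exp (K * t) * g t) t := by
    have e : (fun t => ∫ s in Iic t, Real.exp (K * s) * g s) =
        fun t => (∫ s in Iic 0, Real.exp (K * s) * g s) + ∫ s in (0 : ℝ)..t, Real.exp (K * s) * g s := by
      funext t
      rw [← intervalIntegral.integral_Iic_sub_Iic (OdeRef_int hK hg hM 0) (OdeRef_int hK hg hM t)]
      ring
    rw [e]
    exact (intervalIntegral.integral_hasDerivAt_right (hc.intervalIntegrable _ _)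
      (hc.stronglyMeasurableAtFilter _ _) hc.continuousAt).const_add _
  have h2 : HasDerivAt (fun t => Real.exp (-(K * t))) (Real.exp (-(K * t)) * -(K * 1)) t :=
    ((hasDerivAt_id t).const_mul K).fun_neg.exp
  refine (h2.fun_mul h1).congr_deriv ?_
  rw [OdeRef_P, ← mul_assoc (Real.exp _) (Real.exp _), ← Real.exp_add]
  simp
  ring

theorem OdeRef_le {K M c : ℝ} {g g' : ℝ → ℝ} (hK : 0 < K) (hg : Continuous g) (hM : ∀ s, |g s| ≤ M)
    (hg' : Continuous g') (hM' : ∀ s, |g' s| ≤ M) (h : ∀ s, g s ≤ g' s + K * c) (t : ℝ) :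
    OdeRef_P K g t ≤ OdeRef_P K g' t + c := by
  have h1 : ∫ s in Iic t, Real.exp (K * s) * g s ≤
      ∫ s in Iic t, (Real.exp (K * s) * g' s + Real.exp (K * s) * (K * c)) :=
    MeasureTheory.integral_mono (OdeRef_int hK hg hM t)
      ((OdeRef_int hK hg' hM' t).add ((integrableOn_exp_mul_Iic hK t).mul_const _)) fun s => by
        have := mul_le_mul_of_nonneg_left (h s) (Real.exp_pos (K * s)).le
        linarith
  rw [MeasureTheory.integral_add (OdeRef_int hK hg' hM' t)
    ((integrableOn_exp_mul_Iic hK t).mul_const _), MeasureTheory.integral_mul_const,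
    integral_exp_mul_Iic hK] at h1
  have h2 := mul_le_mul_of_nonneg_left h1 (Real.exp_pos (-(K * t))).le
  have h3 : Real.exp (-(K * t)) * (Real.exp (K * t) / K * (K * c)) = c := by
    rw [Real.exp_neg]
    field_simp
  rw [mul_add, h3] at h2
  exact h2

theorem OdeRef_exists {b β₀ A C lo hi : ℝ} {β : ℝ → ℝ} (hb : 0 < b) (hβ : Continuous β)
    (hge : ∀ t, b ≤ β t) (hle : ∀ t, β t ≤ β₀) (hC : 0 ≤ C) (hlo : 0 ≤ lo) (hlh : lo ≤ hi)
    (h1 : 0 ≤ A - β₀ * lo - C * lo ^ 2) (h2 : A - b * hi - C * hi ^ 2 ≤ 0) :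
    ∃ y : ℝ → ℝ, (∀ t, lo ≤ y t ∧ y t ≤ hi) ∧
      ∀ t, HasDerivAt y (A - β t * y t - C * y t ^ 2) t := by
  set K := β₀ + 2 * C * hi with hKdef
  have hb0 : b ≤ β₀ := (hge 0).trans (hle 0)
  have hhi : 0 ≤ hi := hlo.trans hlh
  have hKb : b ≤ K := by nlinarith [mul_nonneg hC hhi]
  have hK : 0 < K := hb.trans_le hKb
  set cl : ℝ → ℝ := fun x => max lo (min hi x) with hcl
  have hcl1 : ∀ x, lo ≤ cl x ∧ cl x ≤ hi := fun x =>
    ⟨le_max_left _ _, max_le hlh (min_le_left _ _)⟩
  have hcl2 : ∀ x y, |cl x - cl y| ≤ |x - y| := fun x y => by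
    refine (abs_max_sub_max_le_max _ _ _ _).trans (max_le (by simp) ?_)
    exact (abs_min_sub_min_le_max _ _ _ _).trans (max_le (by simp) le_rfl)
  set G : ℝ → ℝ → ℝ := fun t x => A - β t * x - C * x ^ 2 + K * x with hG
  have hGd : ∀ t x y, x ≤ y → lo ≤ x → y ≤ hi →
      0 ≤ G t y - G t x ∧ G t y - G t x ≤ (K - b) * (y - x) := fun t x y hxy hx hy => by
    have e : G t y - G t x = (K - β t - C * (x + y)) * (y - x) := by simp only [hG]; ring
    rw [e]
    refine ⟨mul_nonneg ?_ (sub_nonneg.2 hxy), mul_le_mul_of_nonneg_right ?_ (sub_nonneg.2 hxy)⟩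
    · nlinarith [hle t, mul_le_mul_of_nonneg_left (show x + y ≤ 2 * hi by linarith) hC]
    · nlinarith [hge t, mul_nonneg hC (show 0 ≤ x + y by linarith)]
  have hGb : ∀ t x, K * lo ≤ G t (cl x) ∧ G t (cl x) ≤ K * hi := fun t x => by
    have a1 := (hGd t lo (cl x) (hcl1 x).1 le_rfl (hcl1 x).2).1
    have a2 := (hGd t (cl x) hi (hcl1 x).2 (hcl1 x).1 le_rfl).1
    have a3 : K * lo ≤ G t lo := by
      simp only [hG]; nlinarith [mul_le_mul_of_nonneg_right (hle t) hlo]
    have a4 : G t hi ≤ K * hi := by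
      simp only [hG]; nlinarith [mul_le_mul_of_nonneg_right (hge t) hhi]
    constructor <;> linarith
  have hGl : ∀ t x y, G t (cl x) ≤ G t (cl y) + (K - b) * |x - y| := fun t x y => by
    rcases le_total (cl x) (cl y) with h | h
    · have := (hGd t _ _ h (hcl1 _).1 (hcl1 _).2).1
      nlinarith [mul_nonneg (sub_nonneg.2 hKb) (abs_nonneg (x - y))]
    · have := (hGd t _ _ h (hcl1 _).1 (hcl1 _).2).2
      nlinarith [mul_le_mul_of_nonneg_left ((le_abs_self _).trans (hcl2 x y)) (sub_nonneg.2 hKb)]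
  have hM : ∀ (y : BoundedContinuousFunction ℝ ℝ) s, |G s (cl (y s))| ≤ K * hi := fun y s =>
    abs_le.2 ⟨by nlinarith [(hGb s (y s)).1, mul_nonneg hK.le hlo, mul_nonneg hK.le hhi],
      (hGb s _).2⟩
  have hc : ∀ y : BoundedContinuousFunction ℝ ℝ, Continuous fun s => G s (cl (y s)) := fun y => by
    simp only [hG, hcl]
    fun_prop
  have hz : ∀ t, OdeRef_P K (fun _ => 0) t = 0 := fun t => by simp [OdeRef_P]
  have hM0 : ∀ _ : ℝ, |(0 : ℝ)| ≤ K * hi := fun _ => by simpa using mul_nonneg hK.le hhi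
  have hP : ∀ (y : BoundedContinuousFunction ℝ ℝ) t,
      lo ≤ OdeRef_P K (fun s => G s (cl (y s))) t ∧ OdeRef_P K (fun s => G s (cl (y s))) t ≤ hi :=
    fun y t => by
      have a1 := OdeRef_le (c := hi) hK (hc y) (hM y) continuous_const hM0
        (fun s => by linarith [(hGb s (y s)).2]) t
      have a2 := OdeRef_le (c := -lo) hK continuous_const hM0 (hc y) (hM y)
        (fun s => by linarith [(hGb s (y s)).1]) t
      rw [hz] at a1 a2
      constructor <;> linarith
  set T : BoundedContinuousFunction ℝ ℝ → BoundedContinuousFunction ℝ ℝ := fun y =>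
    BoundedContinuousFunction.ofNormedAddCommGroup (OdeRef_P K fun s => G s (cl (y s)))
      (continuous_iff_continuousAt.2 fun t => (OdeRef_deriv hK (hc y) (hM y) t).continuousAt) hi
      fun t => abs_le.2 ⟨by linarith [(hP y t).1], (hP y t).2⟩ with hT
  have hTa : ∀ y t, T y t = OdeRef_P K (fun s => G s (cl (y s))) t := fun _ _ => rfl
  have hθ : 0 ≤ (K - b) / K := div_nonneg (sub_nonneg.2 hKb) hK.le
  have hcon : ContractingWith ⟨(K - b) / K, hθ⟩ T := by
    refine ⟨?_, LipschitzWith.of_dist_le_mul fun y y' => ?_⟩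
    · show (K - b) / K < 1
      rw [div_lt_one hK]
      linarith
    · have key : ∀ y y' : BoundedContinuousFunction ℝ ℝ, ∀ t,
          T y t ≤ T y' t + (K - b) / K * dist y y' := fun y y' t =>
        OdeRef_le hK (hc y) (hM y) (hc y') (hM y') (fun s => by
          have a1 := hGl s (y s) (y' s)
          have a2 : |y s - y' s| ≤ dist y y' := BoundedContinuousFunction.dist_coe_le_dist (f := y) (g := y') s
          have a3 : K * ((K - b) / K * dist y y') = (K - b) * dist y y' := by field_simp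
          rw [a3]
          nlinarith [mul_le_mul_of_nonneg_left a2 (sub_nonneg.2 hKb)]) t
      refine (BoundedContinuousFunction.dist_le (mul_nonneg hθ dist_nonneg)).2 fun t => ?_
      have a1 := key y y' t
      have a2 := key y' y t
      rw [dist_comm] at a2
      exact abs_le.2 ⟨by linarith, by linarith⟩
  set y := hcon.fixedPoint T with hy
  have hfix : T y = y := hcon.fixedPoint_isFixedPt
  have hyb : ∀ t, lo ≤ y t ∧ y t ≤ hi := fun t => by
    rw [← hfix, hTa]
    exact hP y t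
  refine ⟨y, hyb, fun t => ?_⟩
  have e : (y : ℝ → ℝ) = OdeRef_P K fun s => G s (cl (y s)) := by
    funext t
    rw [← hTa, hfix]
  have h := OdeRef_deriv hK (hc y) (hM y) t
  rw [← e] at h
  convert h using 1
  simp only [hG, hcl, min_eq_right (hyb t).2, max_eq_right (hyb t).1]
  ring

theorem exists_Bg {b β₀ : ℝ} {β : ℝ → ℝ} (hb : 0 < b) (h1 : β₀ ≤ b + 1 / 3)
    (hs : ContDiff ℝ ∞ β) (h0 : ∀ t ≤ 0, β t = β₀) (ha : Antitone β) (hge : ∀ t, b ≤ β t)
    (hl : Tendsto β atTop (𝓝 b)) : ∃ B : Bg, B.b = b ∧ B.β₀ = β₀ ∧ B.β = β := by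
  have hle : ∀ t, β t ≤ β₀ := fun t => by
    rcases le_total t 0 with ht | ht
    · exact (h0 t ht).le
    · exact (ha ht).trans (h0 0 le_rfl).le
  have hb0 : b ≤ β₀ := (hge 0).trans (hle 0)
  have hlam : ∀ l : ℕ, 0 ≤ lam β₀ l := fun l =>
    mul_nonneg l.cast_nonneg (add_nonneg l.cast_nonneg (hb.le.trans hb0))
  have hsq : ∀ l : ℕ, rt b (lam β₀ l) ^ 2 + b * rt b (lam β₀ l) = lam β₀ l := fun l =>
    OdeRef_rt_sq (hlam l)
  have hn : ∀ l : ℕ, 0 ≤ rt b (lam β₀ l) := fun l => OdeRef_rt_nonneg (hlam l)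
  have hla : ∀ l : ℕ, (l : ℝ) ≤ rt b (lam β₀ l) := fun l => by
    by_contra hc
    have h2 := hsq l
    have h3 := hn l
    have h4 : (0 : ℝ) ≤ l := l.cast_nonneg
    generalize rt b (lam β₀ l) = a at *
    rw [lam] at h2
    nlinarith [not_le.1 hc, mul_le_mul_of_nonneg_left hb0 h4]
  have hal : ∀ l : ℕ, rt b (lam β₀ l) + b ≤ l + β₀ := fun l => by
    by_contra hc
    have h2 := hsq l
    have h3 := hla l
    have h4 : (0 : ℝ) ≤ l := l.cast_nonneg
    generalize rt b (lam β₀ l) = a at *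
    rw [lam] at h2
    nlinarith [not_le.1 hc, mul_le_mul_of_nonneg_right h3 (show 0 ≤ a + b by linarith)]
  have ep : ∀ l : ℕ, ∃ y : ℝ → ℝ, (∀ t, (l : ℝ) ≤ y t ∧ y t ≤ rt b (lam β₀ l)) ∧
      ∀ t, HasDerivAt y (lam β₀ l - β t * y t - 1 * y t ^ 2) t := fun l =>
    OdeRef_exists hb hs.continuous hge hle zero_le_one l.cast_nonneg (hla l)
      (by rw [lam]; exact le_of_eq (by ring)) (by linarith [hsq l])
  have em : ∀ l : ℕ, ∃ z : ℝ → ℝ, (∀ t, rt b (lam β₀ l) + b ≤ z t ∧ z t ≤ l + β₀) ∧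
      ∀ t, HasDerivAt z (lam β₀ l + β (-t) * z t - z t ^ 2) t := fun l => by
    have p1 : 0 < rt b (lam β₀ l) + b := by linarith [hn l]
    have p2 : 0 < l + β₀ := p1.trans_le (hal l)
    obtain ⟨u, hu, hdu⟩ := OdeRef_exists (A := 1) (C := lam β₀ l) (lo := (l + β₀)⁻¹)
      (hi := (rt b (lam β₀ l) + b)⁻¹) (β := fun t => β (-t)) hb
      (hs.continuous.comp continuous_neg) (fun t => hge _) (fun t => hle _) (hlam l)
      (inv_pos.2 p2).le (inv_anti₀ p1 (hal l))
      (by rw [lam]; refine le_of_eq ?_; field_simp; ring)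
      (by
        have h2 := hsq l
        generalize rt b (lam β₀ l) = a at *
        rw [← h2]
        refine le_of_eq ?_
        field_simp
        ring)
    have hu0 : ∀ t, 0 < u t := fun t => (inv_pos.2 p2).trans_le (hu t).1
    refine ⟨fun t => (u t)⁻¹, fun t => ⟨le_inv_of_le_inv₀ (hu0 t) (hu t).2,
      inv_le_of_inv_le₀ p2 (hu t).1⟩, fun t => ?_⟩
    refine ((hdu t).fun_inv (hu0 t).ne').congr_deriv ?_
    have := (hu0 t).ne'
    field_simp
    ring
  choose bp hbp dbp using ep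
  choose z hz dz using em
  refine ⟨⟨b, β₀, β, bp, fun l t => -z l (-t), hb, hb0, h1, hs, h0, hge, hle, hl,
    fun l t => by simpa using dbp l t, fun l t => ?_, fun l t ht => ?_, fun l t => (hbp l t).1,
    fun l t => (hbp l t).2, fun l t => neg_le_neg (hz l _).2, fun l t => neg_le_neg (hz l _).1,
    fun ε hε => ?_⟩, rfl, rfl, rfl⟩
  · refine ((dz l (-t)).comp t (hasDerivAt_neg t)).fun_neg.congr_deriv ?_
    simp
  · refine le_antisymm ?_ (hbp l t).1
    have := OdeRef_past (f := fun s => bp l s - l) (K := β₀) (ε := 0) (M := β₀ - b) (t := t)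
      (fun s => (dbp l s).sub_const _) (hb.trans_le hb0) le_rfl (sub_nonneg.2 hb0)
      (fun s => by linarith [(hbp l s).2, hal l]) fun s hs => by
        rw [h0 s (hs.le.trans ht), lam]
        have h4 : (0 : ℝ) ≤ l := l.cast_nonneg
        nlinarith [(hbp l s).1, mul_nonneg (sub_nonneg.2 (hbp l s).1) h4]
    linarith
  · have hε2 : 0 < ε / 2 := half_pos hε
    obtain ⟨T, hT⟩ := eventually_atTop.1 (hl.eventually (gt_mem_nhds (lt_add_of_pos_right b hε2)))
    refine ⟨T + 2 / ε, fun t ht l hl1 => ⟨?_, ?_⟩⟩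
    · have hl1' : (1 : ℝ) ≤ l := Nat.one_le_cast.2 hl1
      have h2ε : 0 < 2 / ε := by positivity
      have := OdeRef_decay (f := fun s => rt b (lam β₀ l) - bp l s) (K := rt b (lam β₀ l)) (κ := 1)
        (ε := ε / 2) (M := 1) (s := T) (t := t) (fun s => (dbp l s).const_sub _) one_pos
        (hl1'.trans (hla l)) hε2.le zero_le_one (by linarith)
        (by linarith [(hbp l T).1, hal l]) fun s hs _ => by
          have e1 := hT s hs
          have e2 := hsq l
          have e3 := hbp l s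
          have e4 := hge s
          generalize rt b (lam β₀ l) = a at *
          generalize bp l s = y at *
          rw [← e2]
          nlinarith [mul_nonneg (sub_nonneg.2 e3.2) (show 0 ≤ y + b by linarith),
            mul_le_mul (show β s - b ≤ ε / 2 by linarith) e3.2 (by linarith) hε2.le]
      have e5 : Real.exp (-(1 * (t - T))) ≤ ε / 2 := by
        rw [Real.exp_neg, one_mul]
        refine inv_le_of_inv_le₀ hε2 ?_
        rw [inv_div]
        linarith [Real.add_one_le_exp (t - T)]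
      linarith
    · have hl1' : (1 : ℝ) ≤ l := Nat.one_le_cast.2 hl1
      have h2ε : 0 < 2 / ε := by positivity
      have := OdeRef_past (f := fun s => z l s - (rt b (lam β₀ l) + b))
        (K := 2 * rt b (lam β₀ l) + b) (ε := ε / 2) (M := β₀) (t := -t)
        (fun s => (dz l s).sub_const _) (by linarith [hn l]) hε2.le (hb.le.trans hb0)
        (fun s => by linarith [(hz l s).2, hla l]) fun s hs => by
          have e1 := hT (-s) (by linarith)
          have e2 := hsq l
          have e3 := hz l s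
          have e4 := hge (-s)
          have e5 := hla l
          generalize rt b (lam β₀ l) = a at *
          generalize z l s = y at *
          rw [← e2]
          nlinarith [sq_nonneg (y - (a + b)),
            mul_le_mul (show β (-s) - b ≤ ε / 2 by linarith) (show y ≤ 2 * a + b by linarith)
              (by linarith) hε2.le]
      linarith

end Crest.Agent.R202
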