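import Crest.Agent.R202.SInt

/-!
# R202/SBasis: construction of the real spherical harmonics

Work with pairs `(C, S)` of real polynomials (`C + i S`).  The operator `F = L₀ - i L₁` up to sign
lowers the weight: start from `zri l` and set
`(C, S) ↦ (L₁ C - L₀ S, L₀ C + L₁ S)` or the variant for which `L₂ C = -m S`, `L₂ S = m C` is
propagated with `m ↦ m - 1` (check with `Lop_lie`).  `E F` acts on weight `m` in degree `l` as a
multiple `(l+m)(l-m+1) ≠ 0` (from `op0_of_mem`), so the pairs are non-zero for `m ≥ 0`; for `m > 0`,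
`sI (C²) = sI (S²)`, `sI (C S) = 0` by `sI_mul_Lop`; for `m = 0` take whichever of `C`, `S` is
non-zero (parity under `rf` shows that only one of them has the right sign; the other one is then
killed by the choice of the variant, or simply choose a non-zero one and check its parity:
a zonal harmonic of degree `l` is `rf`-even/odd according to `(-1)^l`).  Different `|m|` are
orthogonal (`L₂²` is symmetric), different degrees by `sI_mul_of_ne`.  Spanning: the polynomials
`r^(2j) Y (d - 2j, m)` are orthogonal on the sphere, hence independent, and their number is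
`C(d+2,2) = finrank_homogeneous`; so they span the homogeneous polynomials of degree `d`; decompose
`P` into homogeneous components and read off the coefficients with `orth`.
-/

open scoped ContDiff Topology Matrix
open Set Filter MvPolynomial

noncomputable section

namespace Crest.Agent.R202

/-- the substitution corresponding to `rf` -/
def sbRho : Pl 3 →ₐ[ℝ] Pl 3 := aeval ![X 0, -X 1, -X 2]

theorem sb_ev_rho (P : Pl 3) (x : E 3) : ev (sbRho P) x = ev P (rf x) := by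
  induction P using MvPolynomial.induction_on with
  | C a => simp [ev, sbRho]
  | add p q hp hq => rw [map_add, ev_add, ev_add, hp, hq]
  | mul_X p i hp =>
    rw [map_mul, ev_mul, ev_mul, hp]
    congr 1
    fin_cases i <;> simp [ev, sbRho, rf]

theorem sb_Lop_C (k : Fin 3) (a : ℝ) : Lop k (C a) = 0 := pb_XA_C _ _

theorem sb_rho_Lop (k : Fin 3) (s : ℝ) (h : ∀ i, sbRho (Lop k (X i)) = s • Lop k (sbRho (X i)))
    (P : Pl 3) : sbRho (Lop k P) = s • Lop k (sbRho P) := by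
  induction P using MvPolynomial.induction_on with
  | C a =>
    have : sbRho (C a) = C a := by simp [sbRho]
    rw [this, sb_Lop_C]; simp
  | add p q hp hq => simp only [map_add, hp, hq, smul_add]
  | mul_X p i hp =>
    rw [Lop_mul, map_add, map_mul, map_mul, map_mul, Lop_mul, hp, h, smul_add, smul_mul_assoc,
      mul_smul_comm]

theorem sb_rho_L0 (P : Pl 3) : sbRho (Lop 0 P) = Lop 0 (sbRho P) := by
  rw [sb_rho_Lop 0 1 _ P, one_smul]
  intro i
  fin_cases i <;> simp [Lop_apply, sbRho, pderiv_X]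

theorem sb_rho_L1 (P : Pl 3) : sbRho (Lop 1 P) = -Lop 1 (sbRho P) := by
  rw [sb_rho_Lop 1 (-1) _ P, neg_one_smul]
  intro i
  fin_cases i <;> simp [Lop_apply, sbRho, pderiv_X]

theorem sb_Lop_mem (k : Fin 3) {l : ℕ} {P : Pl 3} (h : P ∈ Hm ℝ 3 l) : Lop k P ∈ Hm ℝ 3 l :=
  XA_mem_Hm (Bm_transpose k) h

/-- a pair `C + i S` of weight `m` in degree `l` -/
structure SbPr (l m : ℕ) (C S : Pl 3) : Prop where
  memC : C ∈ Hm ℝ 3 l
  memS : S ∈ Hm ℝ 3 l
  LC : Lop 2 C = (-(m : ℝ)) • S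
  LS : Lop 2 S = (m : ℝ) • C
  rC : sbRho C = ((-1 : ℝ) ^ (l + m)) • C
  rS : sbRho S = (-(-1 : ℝ) ^ (l + m)) • S
  pos : 0 < sI (C * C) + sI (S * S)

theorem sb_sI_mul_smul (c : ℝ) (P Q : Pl 3) : sI (P * c • Q) = c * sI (P * Q) := by
  rw [mul_smul_comm, sI_smul]

theorem sb_sI_smul_mul (c : ℝ) (P Q : Pl 3) : sI (c • P * Q) = c * sI (P * Q) := by
  rw [smul_mul_assoc, sI_smul]

theorem SbPr.norm_eq {l m : ℕ} {C S : Pl 3} (h : SbPr l m C S) (hm : m ≠ 0) :
    sI (S * S) = sI (C * C) := by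
  have h1 := sI_mul_Lop 2 C S
  rw [h.LC, h.LS, sb_sI_mul_smul, sb_sI_smul_mul] at h1
  have : (m : ℝ) ≠ 0 := Nat.cast_ne_zero.2 hm
  apply mul_left_cancel₀ this
  linarith

theorem sb_casimir {l : ℕ} {P : Pl 3} (h : P ∈ Hm ℝ 3 l) :
    sI (Lop 0 P * Lop 0 P) + sI (Lop 1 P * Lop 1 P) + sI (Lop 2 P * Lop 2 P) =
      (l : ℝ) * (l + 1) * sI (P * P) := by
  have h1 := sI_mul_op0 P P
  rw [op0_of_mem h, sb_sI_mul_smul, Fin.sum_univ_three] at h1
  rw [← h1, lam]

theorem SbPr.step {l m : ℕ} {C S : Pl 3} (h : SbPr l (m + 1) C S) (hm : m + 1 ≤ l) :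
    SbPr l m (Lop 1 C - Lop 0 S) (Lop 0 C + Lop 1 S) := by
  have l01 : ∀ P, Lop 0 (Lop 1 P) - Lop 1 (Lop 0 P) = -Lop 2 P := fun P => Lop_lie 0 P
  have l12 : ∀ P, Lop 2 (Lop 1 P) = Lop 1 (Lop 2 P) + Lop 0 P := fun P => by
    have : Lop 1 (Lop 2 P) - Lop 2 (Lop 1 P) = -Lop 0 P := Lop_lie 1 P
    linear_combination -this
  have l20 : ∀ P, Lop 2 (Lop 0 P) = Lop 0 (Lop 2 P) - Lop 1 P := fun P => by
    have : Lop 2 (Lop 0 P) - Lop 0 (Lop 2 P) = -Lop 1 P := Lop_lie 2 P
    linear_combination this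
  have hp : (-1 : ℝ) ^ (l + (m + 1)) = -(-1) ^ (l + m) := by rw [← add_assoc, pow_succ]; ring
  refine ⟨Submodule.sub_mem _ (sb_Lop_mem 1 h.memC) (sb_Lop_mem 0 h.memS),
    Submodule.add_mem _ (sb_Lop_mem 0 h.memC) (sb_Lop_mem 1 h.memS), ?_, ?_, ?_, ?_, ?_⟩
  · rw [map_sub, l12, l20, h.LC, h.LS, map_smul, map_smul]
    push_cast
    module
  · rw [map_add, l12, l20, h.LC, h.LS, map_smul, map_smul]
    push_cast
    module
  · rw [map_sub, sb_rho_L0, sb_rho_L1, h.rC, h.rS, map_smul, map_smul, hp]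
    module
  · rw [map_add, sb_rho_L0, sb_rho_L1, h.rC, h.rS, map_smul, map_smul, hp]
    module
  · have e1 : (Lop 1 C - Lop 0 S) * (Lop 1 C - Lop 0 S) = Lop 1 C * Lop 1 C + Lop 0 S * Lop 0 S
        - (Lop 1 C * Lop 0 S + Lop 1 C * Lop 0 S) := by ring
    have e2 : (Lop 0 C + Lop 1 S) * (Lop 0 C + Lop 1 S) = Lop 0 C * Lop 0 C + Lop 1 S * Lop 1 S
        + (Lop 0 C * Lop 1 S + Lop 0 C * Lop 1 S) := by ring
    have c1 := sb_casimir h.memC
    have c2 := sb_casimir h.memS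
    have hn := h.norm_eq (Nat.succ_ne_zero m)
    rw [h.LC, sb_sI_mul_smul, sb_sI_smul_mul] at c1
    rw [h.LS, sb_sI_mul_smul, sb_sI_smul_mul] at c2
    have x1 := sI_mul_Lop 1 C (Lop 0 S)
    have x2 := sI_mul_Lop 0 C (Lop 1 S)
    have x3 : sI (C * Lop 0 (Lop 1 S)) - sI (C * Lop 1 (Lop 0 S)) =
        -(((m + 1 : ℕ) : ℝ) * sI (C * C)) := by
      rw [← sI_sub, ← mul_sub, l01, h.LS, mul_neg, sI_neg, sb_sI_mul_smul]
    have hpos := h.pos
    rw [hn] at hpos c1 c2
    have ha : 0 < sI (C * C) := by linarith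
    have hl : ((m + 1 : ℕ) : ℝ) ≤ l := Nat.cast_le.2 hm
    have hm0 : (1 : ℝ) ≤ ((m + 1 : ℕ) : ℝ) := Nat.one_le_cast.2 (Nat.succ_pos m)
    rw [e1, e2]
    simp only [sI_add, sI_sub]
    set μ : ℝ := ((m + 1 : ℕ) : ℝ)
    have key : 0 < ((l : ℝ) + μ) * (l - μ + 1) * sI (C * C) := by
      apply mul_pos (mul_pos _ _) ha <;> linarith
    nlinarith

theorem sb_rho_zri (l : ℕ) : sbRho (zri l).1 = (zri l).1 ∧ sbRho (zri l).2 = -(zri l).2 := by
  have h0 : sbRho (X 0) = X 0 := by simp [sbRho]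
  have h1 : sbRho (X 1) = -X 1 := by simp [sbRho]
  induction l with
  | zero => simp [zri]
  | succ l ih =>
    simp only [zri, map_sub, map_add, map_mul, h0, h1, ih.1, ih.2]
    constructor <;> ring

theorem sb_top (l : ℕ) : SbPr l l (zri l).1 (zri l).2 := by
  have hp : (-1 : ℝ) ^ (l + l) = 1 := by rw [← two_mul, pow_mul]; simp
  refine ⟨(zri_mem l).1, (zri_mem l).2, (Lop_zri l).1, (Lop_zri l).2, ?_, ?_, ?_⟩
  · rw [hp, one_smul, (sb_rho_zri l).1]
  · rw [hp, neg_one_smul, (sb_rho_zri l).2]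
  · by_contra hc
    rw [← sq, ← sq] at hc
    have h1 := sI_sq_nonneg (zri l).1
    have h2 := sI_sq_nonneg (zri l).2
    have hx : ‖(EuclideanSpace.single 0 1 : E 3)‖ = 1 := by simp
    have z1 := ev_eq_zero_of_sI_sq (P := (zri l).1) (by linarith) _ hx
    have z2 := ev_eq_zero_of_sI_sq (P := (zri l).2) (by linarith) _ hx
    have := congrArg (fun P => ev P (EuclideanSpace.single 0 1 : E 3)) (zri_sq l).1
    simp only [sq, ev_add, ev_mul, z1, z2] at this
    simp [ev] at this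

theorem sb_exists (l j : ℕ) : ∀ m, m + j = l →
    ∃ C S, SbPr l m C S ∧ (m = l → C = (zri l).1 ∧ S = (zri l).2) := by
  induction j with
  | zero =>
    rintro m rfl
    exact ⟨_, _, sb_top m, fun _ => ⟨rfl, rfl⟩⟩
  | succ j ih =>
    intro m hm
    obtain ⟨C, S, h, -⟩ := ih (m + 1) (by omega)
    exact ⟨_, _, h.step (by omega), fun h' => absurd h' (by omega)⟩

/-- a zonal polynomial which is odd in `x₀` vanishes -/
theorem sb_zonal {l : ℕ} {S : Pl 3} (hS : S.IsHomogeneous l) (hL : Lop 2 S = 0)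
    (hr : sbRho S = (-(-1 : ℝ) ^ l) • S) (x : E 3) : ev S x = 0 := by
  set w : ℂ := ⟨x 0, x 1⟩ with hw
  let γ : ℝ → E 3 := fun φ => (‖w‖ * Real.cos φ) • EuclideanSpace.single 0 1 +
    (‖w‖ * Real.sin φ) • EuclideanSpace.single 1 1 + x 2 • EuclideanSpace.single 2 1
  have hγ : ∀ φ, HasDerivAt γ (mv (Bm 2) (γ φ)) φ := by
    intro φ
    have h1 := (((Real.hasDerivAt_cos φ).const_mul ‖w‖).smul_const
      (EuclideanSpace.single 0 1 : E 3)).add (((Real.hasDerivAt_sin φ).const_mul ‖w‖).smul_const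
      (EuclideanSpace.single 1 1 : E 3))
    have h2 := h1.add_const (x 2 • (EuclideanSpace.single 2 1 : E 3))
    have e : mv (Bm 2) (γ φ) = (‖w‖ * -Real.sin φ) • (EuclideanSpace.single 0 1 : E 3) +
        (‖w‖ * Real.cos φ) • EuclideanSpace.single 1 1 := by
      ext i
      fin_cases i <;> simp [mv, Bm, γ, Matrix.mulVec, dotProduct]
    rw [e]
    exact h2
  have hd : ∀ φ, HasDerivAt (fun φ => ev S (γ φ)) 0 φ := by
    intro φ
    have h1 := (((contDiff_ev S).differentiable (by simp)) (γ φ)).hasFDerivAt.comp_hasDerivAt φ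
      (hγ φ)
    rw [fderiv_ev_mv] at h1
    have : ev (XA (Bm 2) S) (γ φ) = 0 := by
      have : XA (Bm 2) S = 0 := hL
      rw [this]; simp [ev]
    rw [this] at h1
    exact h1
  have hc := is_const_of_deriv_eq_zero (fun φ => (hd φ).differentiableAt)
    (fun φ => (hd φ).deriv) (Complex.arg w) (Real.pi / 2)
  have e1 : γ (Complex.arg w) = x := by
    ext i
    fin_cases i
    · simp [γ]; rfl
    · simp [γ]; rfl
    · simp [γ]
  have e2 : rf (γ (Real.pi / 2)) = (-1 : ℝ) • γ (Real.pi / 2) := by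
    ext i
    fin_cases i <;> simp [γ, rf]
  have h3 := sb_ev_rho S (γ (Real.pi / 2))
  rw [hr, ev_smul, e2, ev_smul_of_isHomogeneous hS] at h3
  have h4 : (-1 : ℝ) ^ l ≠ 0 := pow_ne_zero _ (by norm_num)
  have h5 : ev S (γ (Real.pi / 2)) = 0 := by
    apply mul_left_cancel₀ h4
    linarith
  simp only [e1] at hc
  rw [hc, h5]

theorem SbPr.posC {l m : ℕ} {C S : Pl 3} (h : SbPr l m C S) : 0 < sI (C * C) := by
  have hp := h.pos
  by_cases hm : m = 0
  · subst hm
    have h0 : sI (S * S) = sI 0 := by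
      refine sI_congr fun x _ => ?_
      rw [ev_mul, sb_zonal h.memS.1 (by simpa using h.LS) (by simpa using h.rS) x]
      simp [ev]
    rw [h0, sI_zero] at hp
    linarith
  · rw [h.norm_eq hm] at hp
    linarith

/-- everything except the spanning property -/
theorem sb_exists_Y : ∃ Y : I0 → Pl 3, (∀ i, Y i ∈ Hm ℝ 3 (dg i)) ∧
    (∀ i, sI (Y i * Y i) = 1) ∧ (∀ i, Lop 2 (Y i) = (-(i.1.2 : ℝ)) • Y (ngI i)) ∧
    (∀ i x, ev (Y i) (rf x) = sgn i * ev (Y i) x) ∧
    ∀ l, 1 ≤ l → ∃ c : ℝ, 0 < c ∧ Y (top l) = c • (zri l).1 ∧ Y (ngI (top l)) = c • (zri l).2 := by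
  have H : ∀ l m : ℕ, ∃ C S, m ≤ l → SbPr l m C S ∧ (m = l → C = (zri l).1 ∧ S = (zri l).2) := by
    intro l m
    by_cases h : m ≤ l
    · obtain ⟨C, S, h'⟩ := sb_exists l (l - m) m (by omega)
      exact ⟨C, S, fun _ => h'⟩
    · exact ⟨0, 0, fun h' => absurd h' h⟩
  choose C S H using H
  let c : ℕ → ℕ → ℝ := fun l m => (Real.sqrt (sI (C l m * C l m)))⁻¹
  have hc : ∀ l m, m ≤ l → 0 < c l m := fun l m h =>
    inv_pos.2 (Real.sqrt_pos.2 (H l m h).1.posC)
  have hcc : ∀ l m, m ≤ l → c l m * (c l m * sI (C l m * C l m)) = 1 := by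
    intro l m h
    have h1 := (H l m h).1.posC
    have h2 := Real.mul_self_sqrt h1.le
    have h3 := Real.sqrt_pos.2 h1
    simp only [c]
    field_simp
    rw [sq, h2]
  refine ⟨fun i => c i.1.1 i.1.2.natAbs •
    (if i.1.2 < 0 then S i.1.1 i.1.2.natAbs else C i.1.1 i.1.2.natAbs), ?_, ?_, ?_, ?_, ?_⟩
  · rintro ⟨⟨l, m⟩, h⟩
    refine Submodule.smul_mem _ _ ?_
    split_ifs
    · exact (H _ _ h).1.memS
    · exact (H _ _ h).1.memC
  · rintro ⟨⟨l, m⟩, h⟩
    simp only
    rw [sb_sI_mul_smul, sb_sI_smul_mul]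
    split_ifs with hm
    · rw [(H _ _ h).1.norm_eq (by omega)]
      exact hcc _ _ h
    · exact hcc _ _ h
  · rintro ⟨⟨l, m⟩, h⟩
    have h' := (H _ _ h).1
    simp only [ngI, Int.natAbs_neg, map_smul] at h' ⊢
    rcases lt_trichotomy m 0 with hm | hm | hm
    · have e : ((m.natAbs : ℕ) : ℝ) = -(m : ℝ) := by
        rw [← Int.cast_natCast, Int.ofNat_natAbs_of_nonpos hm.le, Int.cast_neg]
      rw [if_pos hm, if_neg (by omega), h'.LS, e, smul_comm]
    · subst hm
      have := h'.LC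
      simp only [Int.natAbs_zero, Nat.cast_zero, neg_zero, zero_smul] at this
      simp [this]
    · have e : ((m.natAbs : ℕ) : ℝ) = (m : ℝ) := by
        rw [← Int.cast_natCast, Int.natAbs_of_nonneg hm.le]
      rw [if_neg (by omega), if_pos (by omega), h'.LC, e, smul_comm]
  · rintro ⟨⟨l, m⟩, h⟩ x
    have h' := (H _ _ h).1
    simp only [sgn] at h' ⊢
    rw [ev_smul, ev_smul, ← sb_ev_rho]
    split_ifs with hm
    · rw [h'.rS, ev_smul]; push_cast; ring
    · rw [h'.rC, ev_smul]; push_cast; ring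
  · intro l hl
    obtain ⟨e1, e2⟩ := (H l l le_rfl).2 rfl
    refine ⟨c l l, hc l l le_rfl, ?_, ?_⟩
    · simp only [top, Int.natAbs_natCast]
      rw [if_neg (by omega), e1]
    · simp only [top, ngI, Int.natAbs_neg, Int.natAbs_natCast]
      rw [if_pos (by omega), e2]

theorem sb_orth {Y : I0 → Pl 3} (h1 : ∀ i, Y i ∈ Hm ℝ 3 (dg i)) (h2 : ∀ i, sI (Y i * Y i) = 1)
    (h3 : ∀ i, Lop 2 (Y i) = (-(i.1.2 : ℝ)) • Y (ngI i)) (i j : I0) :
    sI (Y i * Y j) = if i = j then 1 else 0 := by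
  split_ifs with hij
  · rw [hij, h2]
  by_cases hd : dg i = dg j
  swap
  · exact sI_mul_of_ne (h1 i) (h1 j) hd
  have nn : ∀ i, ngI (ngI i) = i := fun i => Subtype.ext (by simp [ngI])
  have h4 : ∀ i, Lop 2 (Lop 2 (Y i)) = (-(i.1.2 : ℝ) ^ 2) • Y i := by
    intro i
    rw [h3, map_smul, h3, nn, smul_smul]
    congr 1
    simp only [ngI]
    push_cast
    ring
  by_cases hn : j = ngI i
  · have a := sI_mul_Lop 2 (Y i) (Y i)
    rw [mul_comm (Lop 2 (Y i)), h3, sb_sI_mul_smul, ← hn] at a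
    have hm : (i.1.2 : ℝ) ≠ 0 := by
      intro h0
      have h0 : i.1.2 = 0 := by exact_mod_cast h0
      apply hij
      rw [hn]
      exact Subtype.ext (Prod.ext rfl (by simp [ngI, h0]))
    apply mul_left_cancel₀ hm
    linarith
  · have a := sI_mul_Lop 2 (Y i) (Lop 2 (Y j))
    have b := sI_mul_Lop 2 (Lop 2 (Y i)) (Y j)
    rw [h4, sb_sI_mul_smul] at a
    rw [h4, sb_sI_smul_mul] at b
    have hm1 : (i.1.2 : ℝ) - j.1.2 ≠ 0 := by
      intro h0
      have h0 : i.1.2 = j.1.2 := by exact_mod_cast sub_eq_zero.1 h0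
      exact hij (Subtype.ext (Prod.ext hd h0))
    have hm2 : (i.1.2 : ℝ) + j.1.2 ≠ 0 := by
      intro h0
      have h0 : i.1.2 + j.1.2 = 0 := by exact_mod_cast h0
      exact hn (Subtype.ext (Prod.ext hd.symm (by simp only [ngI]; omega)))
    apply mul_left_cancel₀ (mul_ne_zero hm1 hm2)
    linarith

/-- the modes of degree `≤ d` with the parity of `d` -/
def sbT (d : ℕ) : Finset I0 := (lowI d).filter fun i => dg i % 2 = d % 2

theorem sb_card_lev (l : ℕ) : ((lowI l).filter fun i => dg i = l).card = 2 * l + 1 := by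
  have : ((lowI l).filter fun i => dg i = l).card = (Finset.Icc (-(l : ℤ)) l).card := by
    refine Finset.card_bij (fun i _ => i.1.2) ?_ ?_ ?_
    · rintro ⟨⟨l', m⟩, h⟩ hi
      simp only [Finset.mem_filter, dg] at hi h
      simp only [Finset.mem_Icc]
      omega
    · rintro ⟨⟨l', m⟩, h⟩ hi ⟨⟨l'', m'⟩, h'⟩ hi' e
      simp only [Finset.mem_filter, dg] at hi hi'
      exact Subtype.ext (Prod.ext (hi.2.trans hi'.2.symm) e)
    · intro m hm
      simp only [Finset.mem_Icc] at hm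
      exact ⟨⟨(l, m), by simp only; omega⟩, by simp [dg], rfl⟩
  rw [this, Int.card_Icc]
  omega

theorem sb_card_T (d : ℕ) : (sbT d).card = Nat.choose (d + 2) 2 := by
  induction d using Nat.twoStepInduction with
  | zero =>
    have : sbT 0 = (lowI 0).filter fun i => dg i = 0 := by
      ext i; simp only [sbT, Finset.mem_filter, mem_lowI]; omega
    rw [this, sb_card_lev]; rfl
  | one =>
    have : sbT 1 = (lowI 1).filter fun i => dg i = 1 := by
      ext i; simp only [sbT, Finset.mem_filter, mem_lowI]; omega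
    rw [this, sb_card_lev]; rfl
  | more d ih _ =>
    have : sbT (d + 2) = sbT d ∪ (lowI (d + 2)).filter fun i => dg i = d + 2 := by
      ext i; simp only [sbT, Finset.mem_union, Finset.mem_filter, mem_lowI]; omega
    rw [this, Finset.card_union_of_disjoint, sb_card_lev, ih]
    · have e1 : (d + 2 + 2).choose 2 = (d + 3).choose 1 + (d + 3).choose 2 :=
        Nat.choose_succ_succ' (d + 3) 1
      have e2 : (d + 3).choose 2 = (d + 2).choose 1 + (d + 2).choose 2 :=
        Nat.choose_succ_succ' (d + 2) 1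
      rw [e1, e2]
      simp only [Nat.choose_one_right]
      omega
    · rw [Finset.disjoint_left]
      intro i
      simp only [sbT, Finset.mem_filter, mem_lowI]
      omega

theorem sb_ev_r2 (k : ℕ) {x : E 3} (hx : ‖x‖ = 1) : ev ((∑ i, X i ^ 2) ^ k) x = 1 := by
  have : ∑ i, x i ^ 2 = 1 := by
    have := EuclideanSpace.real_norm_sq_eq x
    rw [hx] at this
    linarith
  simp [ev, this]

theorem sb_r2_hom : (∑ i, X i ^ 2 : Pl 3).IsHomogeneous 2 :=
  IsHomogeneous.sum _ _ _ fun i _ => isHomogeneous_X_pow i 2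

theorem sb_span_hom {Y : I0 → Pl 3} (h1 : ∀ i, Y i ∈ Hm ℝ 3 (dg i))
    (h2 : ∀ i j, sI (Y i * Y j) = if i = j then 1 else 0) {d : ℕ} {P : Pl 3}
    (hP : P.IsHomogeneous d) :
    ∃ c : I0 → ℝ, ∀ x : E 3, ‖x‖ = 1 → ev P x = ∑ j ∈ sbT d, c j * ev (Y j) x := by
  have : Module.Finite ℝ (homogeneousSubmodule (Fin 3) ℝ d) :=
    Module.Finite.iff_fg.2 (homogeneousSubmodule_fg (Fin 3) ℝ d)
  let v : sbT d → homogeneousSubmodule (Fin 3) ℝ d := fun i =>
    ⟨(∑ k, X k ^ 2) ^ ((d - dg i.1) / 2) * Y i.1, by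
      have hi := i.2
      simp only [sbT, Finset.mem_filter, mem_lowI] at hi
      have := (sb_r2_hom.pow ((d - dg i.1) / 2)).mul (h1 i.1).1
      rwa [show 2 * ((d - dg i.1) / 2) + dg i.1 = d by omega] at this⟩
  have hv : ∀ (i : sbT d) (x : E 3), ‖x‖ = 1 → ev (v i).1 x = ev (Y i.1) x := by
    intro i x hx
    simp only [v]
    rw [ev_mul, sb_ev_r2 _ hx, one_mul]
  have hli : LinearIndependent ℝ v := by
    rw [Fintype.linearIndependent_iff]
    intro g hg j
    have h3 : ∑ i, g i • (v i).1 = 0 := by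
      have := congrArg Subtype.val hg
      simpa using this
    have h4 : sI (Y j.1 * ∑ i, g i • (v i).1) = g j := by
      rw [Finset.mul_sum, sI_sum, Finset.sum_eq_single j]
      · rw [sb_sI_mul_smul, sI_congr (Q := Y j.1 * Y j.1) fun x hx => by
          rw [ev_mul, hv _ _ hx, ev_mul], h2, if_pos rfl, mul_one]
      · intro i _ hi
        rw [sb_sI_mul_smul, sI_congr (Q := Y j.1 * Y i.1) fun x hx => by
          rw [ev_mul, hv _ _ hx, ev_mul], h2, if_neg (fun e => hi (Subtype.ext e.symm)), mul_zero]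
      · simp
    rw [← h4, h3, mul_zero, sI_zero]
  have hsp := hli.span_eq_top_of_card_eq_finrank' (by
    rw [Fintype.card_coe, sb_card_T, finrank_homogeneous d (by norm_num)]; rfl)
  have hm : (⟨P, hP⟩ : homogeneousSubmodule (Fin 3) ℝ d) ∈ Submodule.span ℝ (Set.range v) := by
    rw [hsp]; trivial
  obtain ⟨c, hc⟩ := (Submodule.mem_span_range_iff_exists_fun ℝ).1 hm
  have h3 : ∑ i, c i • (v i).1 = P := by
    have := congrArg Subtype.val hc
    simpa using this
  refine ⟨fun j => if h : j ∈ sbT d then c ⟨j, h⟩ else 0, fun x hx => ?_⟩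
  rw [← h3, ev_sum, ← Finset.sum_coe_sort (sbT d)]
  refine Finset.sum_congr rfl fun i _ => ?_
  simp only [ev_smul, hv _ _ hx, dif_pos i.2]

theorem sb_span {Y : I0 → Pl 3} (h1 : ∀ i, Y i ∈ Hm ℝ 3 (dg i))
    (h2 : ∀ i j, sI (Y i * Y j) = if i = j then 1 else 0) (P : Pl 3) (N : ℕ)
    (hN : P.totalDegree ≤ N) (x : E 3) (hx : ‖x‖ = 1) :
    ev P x = ∑ j ∈ lowI N, sI (Y j * P) * ev (Y j) x := by
  have H : ∀ d, d ≤ N → ∃ c : I0 → ℝ, ∀ x : E 3, ‖x‖ = 1 →
      ev (homogeneousComponent d P) x = ∑ j ∈ lowI N, c j * ev (Y j) x := by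
    intro d hd
    obtain ⟨c, hc⟩ := sb_span_hom h1 h2 (homogeneousComponent_isHomogeneous d P)
    refine ⟨fun j => if j ∈ sbT d then c j else 0, fun x hx => ?_⟩
    rw [hc x hx]
    have hs : sbT d ⊆ lowI N := by
      intro i
      simp only [sbT, Finset.mem_filter, mem_lowI]
      omega
    rw [← Finset.sum_subset hs (fun i _ hi => by simp only [if_neg hi, zero_mul])]
    exact Finset.sum_congr rfl fun i hi => by simp only [if_pos hi]
  choose! c hc using H
  have H2 : ∀ x : E 3, ‖x‖ = 1 → ev P x =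
      ev (∑ j ∈ lowI N, (∑ d ∈ Finset.range (P.totalDegree + 1), c d j) • Y j) x := by
    intro x hx
    conv_lhs => rw [← sum_homogeneousComponent P]
    rw [ev_sum, ev_sum]
    simp only [ev_smul, Finset.sum_mul]
    rw [Finset.sum_comm]
    refine Finset.sum_congr rfl fun d hd => hc d ?_ x hx
    simp only [Finset.mem_range] at hd
    omega
  rw [H2 x hx, ev_sum]
  refine Finset.sum_congr rfl fun i hi => ?_
  rw [ev_smul]
  congr 1
  rw [sI_congr (P := Y i * P) (Q := Y i *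
    ∑ j ∈ lowI N, (∑ d ∈ Finset.range (P.totalDegree + 1), c d j) • Y j) fun x hx => by
      rw [ev_mul, ev_mul, H2 x hx], Finset.mul_sum, sI_sum, Finset.sum_eq_single i]
  · rw [sb_sI_mul_smul, h2, if_pos rfl, mul_one]
  · intro j _ hj
    rw [sb_sI_mul_smul, h2, if_neg (Ne.symm hj), mul_zero]
  · intro h; exact absurd hi h

theorem exists_SB : ∃ Y, SB Y := by
  obtain ⟨Y, h1, h2, h3, h4, h5⟩ := sb_exists_Y
  have ho := sb_orth h1 h2 h3
  exact ⟨Y, h1, ho, sb_span h1 ho, h3, h4, h5⟩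

end Crest.Agent.R202
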