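import Crest.Agent.R202.NineDyn
import Crest.Agent.R202.NineHarm
import Crest.Agent.R202.SBasis
import Crest.Agent.R202.OdeRef
import Crest.Agent.R202.Cyc

/-!
# R202/NineFinal: S0309

`b = √v ∈ (2/3, 1)`, `exists_Tm`, `exists_Bg` (`β₀ = 1`), `exists_SB`.  `κB`: the minimum of `κ₀`
(`dyn9`) and of the radius given by `pos_ball` for the one-parameter family
`H9 (fun _ : Fin 1 => 0) (fun _ => aD)` at `0` (`ric_cone_round`, `μ = 1 - b²`).  Then `l₀`, `avg9`,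
`dyn9` with `x = k b`.  `metric_main` for `H9 (gρ ..) (ga ..)` with
`K = {Pi.single 0 s | s ∈ [0,κB]}` (`H9_single`); choose `k₁` so large that, by `exists_c_bound`,
`lTh_bound` and `Tm.dβ_le` (with `k + 1`), all hypotheses hold for `T' = k₀^14`:
`C · 2 (A/k^11)² + 2 C' A/k^22 < 2 c/(k+1)^21`.  `sec9` with `IsGl.ramp` gives the points of
negative curvature (`τ |x| → ∞` forces `|x| → ∞` since `τ` is monotone); `add_mean`, `harm9`,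
`growth9`, `indep9`; reindex `MI L ≃ Fin m`.
-/

open scoped ContDiff Topology Matrix
open Set Filter
open Crest.GeometryTopology.CoordMetric Crest.GeometryTopology.ChartCurvature

noncomputable section

namespace Crest.Agent.R202

open scoped RealInnerProductSpace

theorem NineFinal_large (A D T : ℝ) (hA : 0 ≤ A) {ε c : ℝ} (hε : 0 < ε) (hc : 0 < c) :
    ∃ k₁ : ℕ, ∀ k : ℕ, k₁ ≤ k → 1 ≤ k ∧ T ≤ (k : ℝ) ^ 14 ∧ A / (k : ℝ) ^ 11 ≤ ε ∧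
      A / (k : ℝ) ^ 22 ≤ ε ∧ D / (k : ℝ) ^ 22 < c / ((k : ℝ) + 1) ^ 21 := by
  obtain ⟨k₁, hk₁⟩ := exists_nat_gt (1 + |T| + A / ε + 2 ^ 21 * |D| / c)
  refine ⟨k₁, fun k hk => ?_⟩
  have hk' : (k₁ : ℝ) ≤ k := Nat.cast_le.2 hk
  have h1 : 0 ≤ |T| := abs_nonneg _
  have h2 : 0 ≤ A / ε := by positivity
  have h3 : 0 ≤ 2 ^ 21 * |D| / c := by positivity
  have hk1 : (1 : ℝ) ≤ k := by linarith
  have hk0 : (0 : ℝ) < k := by linarith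
  have key : ∀ m : ℕ, m ≠ 0 → A / (k : ℝ) ^ m ≤ ε := fun m hm => by
    have h4 : (k : ℝ) ≤ (k : ℝ) ^ m := le_self_pow₀ hk1 hm
    rw [div_le_iff₀ (by positivity)]
    have h5 : A / ε ≤ (k : ℝ) ^ m := by linarith
    rw [div_le_iff₀ hε] at h5
    linarith
  refine ⟨by exact_mod_cast hk1, ?_, key 11 (by norm_num), key 22 (by norm_num), ?_⟩
  · have h4 : (k : ℝ) ≤ (k : ℝ) ^ 14 := le_self_pow₀ hk1 (by norm_num)
    linarith [le_abs_self T]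
  · have h4 : ((k : ℝ) + 1) ^ 21 ≤ (2 * k) ^ 21 := pow_le_pow_left₀ (by linarith) (by linarith) 21
    have h5 : 2 ^ 21 * |D| / c < k := by linarith
    rw [div_lt_iff₀ hc] at h5
    have h6 : c / (2 * (k : ℝ)) ^ 21 ≤ c / ((k : ℝ) + 1) ^ 21 :=
      div_le_div_of_nonneg_left hc.le (by positivity) h4
    have h7 : D / (k : ℝ) ^ 22 ≤ |D| / (k : ℝ) ^ 22 :=
      div_le_div_of_nonneg_right (le_abs_self D) (by positivity)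
    have h8 : |D| / (k : ℝ) ^ 22 < c / (2 * (k : ℝ)) ^ 21 := by
      have e1 : |D| / (k : ℝ) ^ 22 = (2 ^ 21 * |D|) / (2 ^ 21 * (k : ℝ) ^ 22) := by
        field_simp
      have e2 : c / (2 * (k : ℝ)) ^ 21 = (k * c) / (2 ^ 21 * (k : ℝ) ^ 22) := by
        field_simp
      rw [e1, e2]
      exact div_lt_div_of_pos_right h5 (by positivity)
    linarith

/-- the metric attached to the output of `dyn9` -/
theorem NineFinal_metric {b : ℝ} {β ψ τ : ℝ → ℝ} (hT : Tm b β ψ τ) (Λ : Lay)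
    (ρ₂ : Fin Λ.K₂ → Pl 3) (ρz : Fin Λ.Kz → Pl 3) (az : Fin Λ.Kz → Fin 3 → Pl 3) (Θ : ℝ)
    (hκ : 0 ≤ Λ.κB) {μ : ℝ} (hμ : 0 < μ)
    (hpos : ∀ s ∈ Icc 0 Λ.κB, ∀ x v : E 3, ‖x‖ = 1 → ⟪x, v⟫ = 0 → μ * ‖v‖ ^ 2 ≤
      ric (cone b (H9 (fun _ : Fin 1 => 0) (fun _ => aD) (fun _ => s))) x v v) :
    ∃ k₁ : ℕ, ∀ k₀ : ℕ, k₁ ≤ k₀ → ∀ (θ : ℕ → Fin Λ.K₂ → ℝ) (ζ : ℕ → Fin 3 → Fin Λ.Kz → ℝ)
      (c : ℝ → Fin Λ.N → ℝ), (∀ k j, |θ k j| ≤ Θ) → (∀ k r j, |ζ k r j| ≤ 1) →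
      Λ.IsGl k₀ θ ζ c → (∀ t, Sgl (c t) ∧ c t ∈ O9 (Λ.gρ ρ₂ ρz) (Λ.ga az)) ∧
        (∃ M : ℝ, ∀ t j, |c t j| ≤ M) ∧
        GoodM (radM ψ (c ∘ τ) (H9 (Λ.gρ ρ₂ ρz) (Λ.ga az))) (b ^ (3 - 1)) := by
  set K : Set (Fin Λ.N → ℝ) := (fun s : ℝ => (Pi.single 0 s : Fin Λ.N → ℝ)) '' Icc 0 Λ.κB with hK
  have hKc : IsCompact K := isCompact_Icc.image (continuous_single (A := fun _ : Fin Λ.N => ℝ) 0)
  have hKO : K ⊆ O9 (Λ.gρ ρ₂ ρz) (Λ.ga az) := by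
    rintro _ ⟨s, -, rfl⟩
    exact single_mem_O9 (Λ.gρ_zero ρ₂ ρz) s
  have h0K : (0 : Fin Λ.N → ℝ) ∈ K := ⟨0, ⟨le_rfl, hκ⟩, Pi.single_zero _⟩
  obtain ⟨ε, hε, C, T, hC, hT1, hO, hmain⟩ := metric_main (by norm_num) hT
    (fam_H9 (Λ.gρ ρ₂ ρz) (Λ.ga az)) (fun x _ => H9_zero x) hKc hKO h0K hμ (by
      rintro _ ⟨s, hs, rfl⟩ x v hx hv
      have h1 := hpos s hs x v hx hv
      rwa [← Λ.ga_zero az, ← H9_single (Λ.gρ_zero ρ₂ ρz) s] at h1)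
  obtain ⟨ε', hε', C', hC', hl⟩ := lTh_bound (Λ.gρ ρ₂ ρz) (Λ.ga az)
  obtain ⟨A, hA, hb⟩ := Lay.exists_c_bound Λ hκ Θ
  obtain ⟨c₀, hc₀, hdβ⟩ := hT.dβ_le
  obtain ⟨k₁, hk₁⟩ := NineFinal_large A (C * A ^ 2 + C' * A) T hA (lt_min hε hε') hc₀
  refine ⟨k₁, fun k₀ hk₀ θ ζ c hθ hζ hG => ?_⟩
  have h1k₀ : 1 ≤ k₀ := (hk₁ k₀ hk₀).1
  have hb' := hb k₀ θ ζ c h1k₀ hG hθ hζ
  have hnear : ∀ t, (k₀ : ℝ) ^ 14 ≤ t → ∃ c₀ ∈ K, ‖c t - c₀‖ ≤ ε := fun t ht => by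
    obtain ⟨k, hk, htk⟩ := exists_stage ht
    obtain ⟨h1, h2, -⟩ := hb' k hk t htk
    rcases h2 with h2 | h2
    · exact ⟨c t, ⟨c t 0, h1, h2.symm⟩, by rw [sub_self, norm_zero]; exact hε.le⟩
    · exact ⟨0, h0K, by
        rw [sub_zero]; exact h2.trans ((hk₁ k (hk₀.trans hk)).2.2.1.trans (min_le_left _ _))⟩
  have hs : ∀ t, Sgl (c t) ∧ c t ∈ O9 (Λ.gρ ρ₂ ρz) (Λ.ga az) := fun t => by
    refine ⟨hG.sgl h1k₀ t, ?_⟩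
    rcases le_total t ((k₀ : ℝ) ^ 14) with ht | ht
    · rw [hG.2.1 t ht]; exact hKO h0K
    · obtain ⟨c₁, h1, h2⟩ := hnear t ht
      exact hO c₁ h1 _ h2
  have hlt : ∀ k, k₀ ≤ k → ∀ t ∈ Icc ((k : ℝ) ^ 14) (((k : ℝ) + 1) ^ 14), ∀ x : E 3, x ≠ 0 →
      |lTh (H9 (Λ.gρ ρ₂ ρz) (Λ.ga az)) (c t) x| ≤ C' * (A / (k : ℝ) ^ 11) ∧
      |deriv (fun s => lTh (H9 (Λ.gρ ρ₂ ρz) (Λ.ga az)) (c s) x) t| ≤ C' * (A / (k : ℝ) ^ 22) ∧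
      |deriv (deriv fun s => lTh (H9 (Λ.gρ ρ₂ ρz) (Λ.ga az)) (c s) x) t|
        ≤ C' * (A / (k : ℝ) ^ 22) := fun k hk t htk x hx => by
    obtain ⟨-, -, h3, h4, -⟩ := hk₁ k (hk₀.trans hk)
    refine hl c hG.1 hs t _ _ (h3.trans (min_le_right _ _)) (h4.trans (min_le_right _ _))
      (fun j hj => (hb' k hk t htk).2.2.2.2 j ?_) (by positivity) (by positivity) x hx
    rintro rfl
    exact hj (Λ.gρ_zero ρ₂ ρz)
  refine ⟨hs, ⟨Λ.κB + ε, fun t j => ?_⟩, ?_⟩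
  · rcases le_total t ((k₀ : ℝ) ^ 14) with ht | ht
    · rw [hG.2.1 t ht, Pi.zero_apply, abs_zero]; linarith
    · obtain ⟨k, hk, htk⟩ := exists_stage ht
      obtain ⟨h1, -, -, -, h2⟩ := hb' k hk t htk
      by_cases hj : j = 0
      · rw [hj, abs_of_nonneg h1.1]; linarith [h1.2]
      · have := (h2 j hj).1.trans ((hk₁ k (hk₀.trans hk)).2.2.1.trans (min_le_left _ _))
        linarith
  refine hmain c hG.1 ((k₀ : ℝ) ^ 14) (hk₁ k₀ hk₀).2.1 hG.2.1 (fun t ht => ?_) fun η hη => ?_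
  · obtain ⟨k, hk, htk⟩ := exists_stage ht
    obtain ⟨-, -, h2, h3, -⟩ := hb' k hk t htk
    obtain ⟨h4, h5, h6, -, h7⟩ := hk₁ k (hk₀.trans hk)
    have h6' := h6.trans (min_le_left _ _)
    refine ⟨hnear t ht, h2.trans h6', h3.trans h6', fun x hx => ?_⟩
    have ht1 : 1 ≤ t := by linarith [htk.1]
    have h8 := hdβ (k + 1) (by omega) t ht1 (by push_cast; exact htk.2)
    push_cast at h8
    have h9 : ‖deriv c t‖ ^ 2 ≤ (A / (k : ℝ) ^ 11) ^ 2 := pow_le_pow_left₀ (norm_nonneg _) h2 2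
    have h10 : ‖deriv (deriv c) t‖ ^ 2 ≤ (A / (k : ℝ) ^ 11) ^ 2 :=
      pow_le_pow_left₀ (norm_nonneg _) h3 2
    have h11 : C * (‖deriv c t‖ ^ 2 + ‖deriv (deriv c) t‖ ^ 2)
        ≤ C * (2 * (A / (k : ℝ) ^ 11) ^ 2) := mul_le_mul_of_nonneg_left (by linarith) hC
    obtain ⟨-, h12, h13⟩ := hlt k hk t htk x hx
    have hβ1 : β t ≤ 1 := (hT.β_anti (by linarith : (0 : ℝ) ≤ t)).trans (hT.β_one 0 le_rfl).le
    have hβ0 : 0 ≤ β t := hT.b_pos.le.trans (hT.β_ge t)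
    have h14 : β t * deriv (fun s => lTh (H9 (Λ.gρ ρ₂ ρz) (Λ.ga az)) (c s) x) t
        ≤ 1 * (C' * (A / (k : ℝ) ^ 22)) :=
      (mul_le_mul_of_nonneg_left (le_abs_self _) hβ0).trans
        (mul_le_mul hβ1 h12 (abs_nonneg _) zero_le_one)
    have h15 := (le_abs_self _).trans h13
    have hk0 : (0 : ℝ) < k := by exact_mod_cast h4
    have e1 : C * (2 * (A / (k : ℝ) ^ 11) ^ 2) + 2 * (C' * (A / (k : ℝ) ^ 22))
        = 2 * ((C * A ^ 2 + C' * A) / (k : ℝ) ^ 22) := by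
      field_simp
    have e : ((3 : ℕ) : ℝ) = 3 := by norm_num
    rw [e]
    linarith
  · obtain ⟨k₂, hk₂⟩ := NineFinal_large (C' * A) 0 0 (by positivity) hη hη
    refine ⟨((max k₀ k₂ : ℕ) : ℝ) ^ 14, fun t ht x hx => ?_⟩
    obtain ⟨k, hk, htk⟩ := exists_stage ht
    refine (hlt k ((le_max_left _ _).trans hk) t htk x hx).1.trans ?_
    rw [← mul_div_assoc]
    exact (hk₂ k ((le_max_right _ _).trans hk)).2.2.1

/-- the points of negative radial curvature -/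
theorem NineFinal_sec {b : ℝ} {β ψ τ : ℝ → ℝ} (hT : Tm b β ψ τ) {Λ : Lay}
    (ρ₂ : Fin Λ.K₂ → Pl 3) (ρz : Fin Λ.Kz → Pl 3) (az : Fin Λ.Kz → Fin 3 → Pl 3)
    (hκ : 0 < Λ.κB) (hκ1 : Λ.κB ≤ 1) {k₀ : ℕ} {θ : ℕ → Fin Λ.K₂ → ℝ}
    {ζ : ℕ → Fin 3 → Fin Λ.Kz → ℝ} {c : ℝ → Fin Λ.N → ℝ} (hG : Λ.IsGl k₀ θ ζ c) (hk₀ : 1 ≤ k₀)
    (hfit : ∀ k, k₀ ≤ k → Λ.e₃ k + Λ.Kz + (k + 1) + 1 ≤ ((k : ℝ) + 1) ^ 14) :
    ∃ p : ℕ → E 3, Tendsto (fun j => ‖p j‖) atTop atTop ∧ ∀ j, ∃ w : E 3,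
      0 < gramDet (radM ψ (c ∘ τ) (H9 (Λ.gρ ρ₂ ρz) (Λ.ga az))) (p j) (p j) w ∧
        secNumer (radM ψ (c ∘ τ) (H9 (Λ.gρ ρ₂ ρz) (Λ.ga az))) (p j) (p j) w < 0 := by
  obtain ⟨T₀, hT₀⟩ := sec9 hT (Λ.gρ_zero ρ₂ ρz) (Λ.ga_zero az) hκ hκ1
  obtain ⟨m, hm⟩ := exists_nat_ge T₀
  have key : ∀ j : ℕ, ∃ x : E 3, b * j ≤ ‖x‖ ∧ ∃ w : E 3,
      0 < gramDet (radM ψ (c ∘ τ) (H9 (Λ.gρ ρ₂ ρz) (Λ.ga az))) x x w ∧
        secNumer (radM ψ (c ∘ τ) (H9 (Λ.gρ ρ₂ ρz) (Λ.ga az))) x x w < 0 := by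
    intro j
    obtain ⟨k, hk⟩ : ∃ k, k = k₀ + m + j := ⟨_, rfl⟩
    have hk1 : (1 : ℝ) ≤ k := by exact_mod_cast (by omega : 1 ≤ k)
    have hmk : (m : ℝ) ≤ k := by exact_mod_cast (by omega : m ≤ k)
    have hjk : (j : ℝ) ≤ k := by exact_mod_cast (by omega : j ≤ k)
    have h1 : (k : ℝ) ≤ (k : ℝ) ^ 11 := le_self_pow₀ hk1 (by norm_num)
    have h2 : (k : ℝ) ≤ Λ.b₁ k := by
      have h3 : (0 : ℝ) ≤ (k : ℝ) ^ 14 := by positivity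
      have h4 : (0 : ℝ) ≤ Λ.K₂ * (k : ℝ) ^ 11 := by positivity
      have h5 : (0 : ℝ) ≤ Λ.Kz := Nat.cast_nonneg _
      simp only [Lay.b₁, Lay.e₁, Lay.a₁, Lay.a₀]
      linarith
    obtain ⟨x, w, h3, h4, h5⟩ := hT₀ c hG.1 (Λ.b₁ k) ((k : ℝ) ^ 11) (by linarith) (by linarith)
      (hG.ramp hk₀ hfit (by omega))
    refine ⟨x, ?_, w, h5⟩
    have hx : 0 < ‖x‖ := norm_pos_iff.2 h4
    have h6 : 1 ≤ ‖x‖ := by
      by_contra hn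
      push Not at hn
      rw [hT.τ_eq _ hx hn.le] at h3
      have := Real.log_nonpos hx.le hn.le
      linarith
    have h7 := hT.τ_le _ h6
    have h8 := Real.add_one_le_exp (b * τ ‖x‖)
    have h9 : b * j ≤ b * τ ‖x‖ := mul_le_mul_of_nonneg_left (by linarith) hT.b_pos.le
    linarith
  choose p hp1 hp2 using key
  exact ⟨p, tendsto_atTop_mono hp1 (tendsto_natCast_atTop_atTop.const_mul_atTop hT.b_pos), hp2⟩

theorem NineFinal_dc {w : ℝ → I0 → ℝ} {κ x C : ℝ} (hκ : 0 < κ) (hx : 0 ≤ x)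
    (h : ∀ t i, |w t i| ≤ C * Real.exp (x * max t 0) * Real.exp (-(κ * dg i))) : Dc w := by
  refine ⟨κ, hκ, fun T => ⟨|C| * Real.exp (x * T), fun t i ht => (h t i).trans ?_⟩⟩
  refine mul_le_mul_of_nonneg_right ?_ (Real.exp_pos _).le
  refine mul_le_mul (le_abs_self C) (Real.exp_le_exp.2 (mul_le_mul_of_nonneg_left ?_ hx))
    (Real.exp_pos _).le (abs_nonneg C)
  exact max_le ((le_abs_self t).trans ht) ((abs_nonneg t).trans ht)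

theorem NineFinal_i0 {i : I0} (h : ¬ 1 ≤ dg i) : i = i0 := by
  obtain ⟨⟨l, m⟩, hi⟩ := i
  simp only [dg] at h hi
  have h1 : l = 0 := by omega
  have h2 : m = 0 := by omega
  subst h1 h2
  rfl

theorem result9
    (v : ℝ) (hv : 4 / 9 < v) (hv' : v < 1) (c : ℝ) (hc : 1 < c) (hc' : c < 9 * v / 4) :
    ∃ k₀ : ℕ, ∀ k : ℕ, k₀ ≤ k → ∃ g : MetricField 3,
      IsRiemannianOn g Set.univ ∧ IsCompleteOn g Set.univ ∧
      (∃ r : ℝ, 0 < r ∧ ∀ x : EuclideanSpace ℝ (Fin 3), ‖x‖ < r → g x = 1) ∧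
      RicciNonnegOn g Set.univ ∧
      (∃ R : ℝ, ∀ x : EuclideanSpace ℝ (Fin 3), R < ‖x‖ →
        ∀ w : EuclideanSpace ℝ (Fin 3), w ≠ 0 → 0 < ∑ i, ∑ j, ricci g x i j * w i * w j) ∧
      HasAsymptoticVolumeRatio g v ∧
      (∃ p : ℕ → EuclideanSpace ℝ (Fin 3), Filter.Tendsto (fun j => ‖p j‖) Filter.atTop Filter.atTop ∧
        ∀ j, ∃ w : EuclideanSpace ℝ (Fin 3),
          0 < gramDet g (p j) (p j) w ∧ secNumer g (p j) (p j) w < 0) ∧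
      ∃ m : ℕ, c * ((k : ℝ) + 1) ^ 2 ≤ m ∧ ∃ f : Fin m → EuclideanSpace ℝ (Fin 3) → ℝ,
        LinearIndependent ℝ f ∧ ∀ i, IsHarmonicOn g Set.univ (f i) ∧
          ∃ C : ℝ, ∀ x, abs (f i x) ≤ C * (1 + riemDist g Set.univ 0 x) ^ k := by
  obtain ⟨b, hb0, rfl⟩ : ∃ b : ℝ, 0 < b ∧ v = b ^ 2 :=
    ⟨Real.sqrt v, Real.sqrt_pos.2 (by linarith), (Real.sq_sqrt (by linarith)).symm⟩
  have hb1 : b < 1 := by nlinarith
  have hb2 : 1 ≤ b + 1 / 3 := by nlinarith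
  obtain ⟨β, ψ, τ, hT⟩ := exists_Tm hb0 hb1
  obtain ⟨B, hB1, hB2, hB3⟩ := exists_Bg (b := b) (β₀ := 1) (β := β) hb0 hb2 hT.β_smooth hT.β_one
    hT.β_anti hT.β_ge hT.β_lim
  obtain ⟨Y, hY⟩ := exists_SB
  obtain ⟨κ₀, hκ₀, hκ₀1, hdyn⟩ := dyn9 hY B hB2 (by rw [hB1]; exact hb1)
  have hμ : 0 < 1 - b ^ 2 := by linarith
  obtain ⟨ε₁, hε₁, hball⟩ := pos_ball hb0.ne' (fam_H9 (fun _ : Fin 1 => 0) (fun _ => aD))
    (c₀ := 0) (by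
      have := single_mem_O9 (ρ := fun _ : Fin 1 => 0) (a := fun _ => aD) (k := 0) rfl 0
      rwa [Pi.single_zero] at this) hμ (fun x w hx hw => by
      rw [ric_cone_round hb0 (fun y _ => H9_zero y) hx hw]
      have e : ((3 : ℕ) : ℝ) - 2 = 1 := by norm_num
      rw [e, one_mul])
  obtain ⟨l₀, hdyn⟩ := hdyn (min κ₀ ε₁) (lt_min hκ₀ hε₁) (min_le_left _ _)
  obtain ⟨k₀, havg⟩ := avg9 hb0 (by linarith : 0 < c) hc' l₀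
  refine ⟨k₀, fun k hk => ?_⟩
  obtain ⟨L, abar, hL, -, ha1, ha2, hcard, hsum⟩ := havg k hk
  have hx : 0 < (k : ℝ) * b := by
    have : (0 : ℝ) ≤ l₀ := Nat.cast_nonneg _
    linarith
  obtain ⟨Λ, ρ₂, ρz, az, Θ, hκB, hdyn⟩ := hdyn L abar (k * b) hL ha1 ha2 hsum
  have hκ : 0 < Λ.κB := by rw [hκB]; exact lt_min hκ₀ hε₁
  have hκ1 : Λ.κB ≤ 1 := by rw [hκB]; exact (min_le_left _ _).trans hκ₀1
  obtain ⟨k₁, hk₁⟩ := NineFinal_metric hT Λ ρ₂ ρz az Θ hκ.le (half_pos hμ) fun s hs =>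
    (hball (fun _ => s) (by
      rw [sub_zero, pi_norm_const, Real.norm_eq_abs, abs_of_nonneg hs.1]
      exact hs.2.trans (hκB.le.trans (min_le_right _ _)))).2
  obtain ⟨k₂, hk₂1, hk₂⟩ := Λ.exists_fit
  obtain ⟨k₃, hk₃, θ, ζ, cc, hθ, hζ, hG, u, p, κ, C, t₁, hκ', hdet, hup⟩ := hdyn (max k₁ k₂)
  obtain ⟨hs, ⟨M, hM⟩, hg⟩ := hk₁ k₃ ((le_max_left _ _).trans hk₃) θ ζ cc hθ hζ hG
  have hk₂₃ : k₂ ≤ k₃ := (le_max_right _ _).trans hk₃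
  have h0 : ∀ t ≤ 0, cc t = 0 := fun t ht => hG.2.1 t (ht.trans (by positivity))
  obtain ⟨D, hD, hD'⟩ := hY.exists_band (Λ.gρ ρ₂ ρz) (Λ.ga az)
  rw [hB3] at hup
  have hmean := fun a : MI L => add_mean hY
    (fun j => ⟨(hD j).2.1, (hD j).2.2.1, (hD j).2.2.2.1⟩) hG.1.continuous hM h0
    (hup a D hD').1 (hup a D hD').2.1 hκ' hx (hup a D hD').2.2.2
  choose u' C' hu1 hu2 hu3 hu4 using hmean
  have hdc : ∀ a, Dc (u' a) := fun a => NineFinal_dc hκ' hx.le fun t i => (hu4 a t i).1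
  refine ⟨_, hg.riem, hg.compl, ⟨1, one_pos, hg.eucl⟩, hg.nonneg, hg.pos, hg.avr,
    NineFinal_sec hT ρ₂ ρz az hκ hκ1 hG (hk₂1.trans hk₂₃) fun j hj => hk₂ j (hk₂₃.trans hj),
    Fintype.card (MI L), hcard, fun i => fn9 τ Y (u' ((Fintype.equivFin (MI L)).symm i)), ?_,
    fun i => ⟨?_, ?_⟩⟩
  · refine (indep9 hY hT (Subtype.val : MI L → I0) hdc (t := t₁) ?_).comp _
      (Fintype.equivFin (MI L)).symm.injective
    have e : (Matrix.of fun a' a : MI L => u' a t₁ a'.1) = Matrix.of fun a' a : MI L => u a t₁ a'.1 := by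
      ext a' a
      exact hu1 a t₁ a'.1 a'.2.1
    rw [e]
    exact hdet
  · beta_reduce
    generalize (Fintype.equivFin (MI L)).symm i = a
    refine harm9 hY hT hD hG.1 hs h0 (hu3 a) (hdc a)
      (NineFinal_dc hκ' hx.le fun t i => (hu4 a t i).2) fun t ht j => ?_
    by_cases hj : 1 ≤ dg j
    · rw [hu1 a t j hj, hu1 a 0 j hj]
      exact (hup a D hD').2.2.1 t ht j hj
    · rw [NineFinal_i0 hj, hu2 a t ht, hu2 a 0 le_rfl, mul_zero]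
  · obtain ⟨C₁, hC₁⟩ := growth9 hY hT hκ' fun t j => (hu4 ((Fintype.equivFin (MI L)).symm i) t j).1
    exact ⟨C₁, fun x => by rw [hg.dist]; exact hC₁ x⟩

end Crest.Agent.R202
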