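import Crest.Agent.R202.SSer
import Crest.Agent.R202.Metric

/-!
# R202/NineLapAux: algebra of the vectors `P = tv a x`, `J = tv (crs a) x`
-/

open scoped ContDiff Topology Matrix RealInnerProductSpace
open Set Filter
open Crest.GeometryTopology.CoordMetric Crest.GeometryTopology.ChartCurvature

noncomputable section

namespace Crest.Agent.R202

variable {N : ℕ}

theorem NineLap_inner (u v : E 3) : ⟪u, v⟫ = u 0 * v 0 + u 1 * v 1 + u 2 * v 2 := by
  simp only [PiLp.inner_apply, Fin.sum_univ_three, RCLike.inner_apply, conj_trivial]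
  ring

theorem NineLap_Bm0 (y : E 3) : mv (Bm 0) y 0 = 0 ∧ mv (Bm 0) y 1 = -y 2 ∧ mv (Bm 0) y 2 = y 1 := by
  simp [Bm]

theorem NineLap_Bm1 (y : E 3) : mv (Bm 1) y 0 = y 2 ∧ mv (Bm 1) y 1 = 0 ∧ mv (Bm 1) y 2 = -y 0 := by
  simp [Bm]

theorem NineLap_Bm2 (y : E 3) : mv (Bm 2) y 0 = -y 1 ∧ mv (Bm 2) y 1 = y 0 ∧ mv (Bm 2) y 2 = 0 := by
  simp [Bm]

theorem NineLap_trace (k : Fin 3) : (Bm k).trace = 0 := by
  fin_cases k <;> simp [Bm, Matrix.trace, Fin.sum_univ_three]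

theorem NineLap_inner_Bm (k : Fin 3) (y : E 3) : ⟪y, mv (Bm k) y⟫ = 0 := by
  rw [NineLap_inner]
  fin_cases k
  · obtain ⟨h0, h1, h2⟩ := NineLap_Bm0 y
    simp only [Fin.zero_eta, h0, h1, h2]; ring
  · obtain ⟨h0, h1, h2⟩ := NineLap_Bm1 y
    simp only [Fin.mk_one, h0, h1, h2]; ring
  · obtain ⟨h0, h1, h2⟩ := NineLap_Bm2 y
    simp only [Fin.reduceFinMk, h0, h1, h2]; ring

theorem NineLap_tv (a : Fin 3 → Pl 3) (x : E 3) :
    tv a x 0 = evn (a 1) x * (‖x‖⁻¹ * x 2) - evn (a 2) x * (‖x‖⁻¹ * x 1) ∧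
    tv a x 1 = evn (a 2) x * (‖x‖⁻¹ * x 0) - evn (a 0) x * (‖x‖⁻¹ * x 2) ∧
    tv a x 2 = evn (a 0) x * (‖x‖⁻¹ * x 1) - evn (a 1) x * (‖x‖⁻¹ * x 0) := by
  obtain ⟨a0, a1, a2⟩ := NineLap_Bm0 (‖x‖⁻¹ • x)
  obtain ⟨b0, b1, b2⟩ := NineLap_Bm1 (‖x‖⁻¹ • x)
  obtain ⟨c0, c1, c2⟩ := NineLap_Bm2 (‖x‖⁻¹ • x)
  simp only [tv, Fin.sum_univ_three, PiLp.add_apply, PiLp.smul_apply, smul_eq_mul, a0, a1, a2, b0,
    b1, b2, c0, c1, c2]
  refine ⟨by ring, by ring, by ring⟩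

theorem NineLap_crs (a : Fin 3 → Pl 3) (x : E 3) (k : Fin 3) : evn (crs a k) x = -tv a x k := by
  obtain ⟨h0, h1, h2⟩ := NineLap_tv a x
  fin_cases k
  · simp only [Fin.zero_eta, h0]
    simp [crs, evn, ev]
    ring
  · simp only [Fin.mk_one, h1]
    simp [crs, evn, ev]
    ring
  · simp only [Fin.reduceFinMk, h2]
    simp [crs, evn, ev]
    ring

theorem NineLap_nP (a : Fin 3 → Pl 3) (x : E 3) : evn (nP a) x = ⟪tv a x, tv a x⟫ := by
  have h : evn (nP a) x = ∑ k, evn (crs a k) x ^ 2 := by simp [nP, evn, ev]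
  rw [h, NineLap_inner]
  simp only [NineLap_crs, Fin.sum_univ_three]
  ring

theorem NineLap_tv_x (a : Fin 3 → Pl 3) (x : E 3) : ⟪tv a x, x⟫ = 0 := by
  obtain ⟨h0, h1, h2⟩ := NineLap_tv a x
  rw [NineLap_inner, h0, h1, h2]
  ring

theorem NineLap_PJ (a : Fin 3 → Pl 3) (x : E 3) : ⟪tv a x, tv (crs a) x⟫ = 0 := by
  obtain ⟨h0, h1, h2⟩ := NineLap_tv (crs a) x
  rw [NineLap_inner, h0, h1, h2]
  simp only [NineLap_crs]
  ring

theorem NineLap_JP (a : Fin 3 → Pl 3) (x : E 3) : ⟪tv (crs a) x, tv a x⟫ = 0 := by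
  rw [real_inner_comm, NineLap_PJ]

theorem NineLap_JJ (a : Fin 3 → Pl 3) {x : E 3} (hx : x ≠ 0) :
    ⟪tv (crs a) x, tv (crs a) x⟫ = ⟪tv a x, tv a x⟫ := by
  obtain ⟨h0, h1, h2⟩ := NineLap_tv (crs a) x
  have h3 := NineLap_tv_x a x
  have h4 : (‖x‖⁻¹) ^ 2 * ⟪x, x⟫ = 1 := by
    rw [real_inner_self_eq_norm_sq, ← mul_pow, inv_mul_cancel₀ (norm_ne_zero_iff.2 hx), one_pow]
  rw [NineLap_inner] at h3 h4
  rw [NineLap_inner, NineLap_inner, h0, h1, h2]
  simp only [NineLap_crs]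
  linear_combination (tv a x 0 ^ 2 + tv a x 1 ^ 2 + tv a x 2 ^ 2) * h4
    - (‖x‖⁻¹) ^ 2 * (tv a x 0 * x 0 + tv a x 1 * x 1 + tv a x 2 * x 2) * h3

theorem NineLap_otm_mul (u v u' v' : E 3) : otm u v * otm u' v' = ⟪v, u'⟫ • otm u v' := by
  ext i j
  simp only [otm, Matrix.mul_apply, Matrix.of_apply, Fin.sum_univ_three, NineLap_inner,
    Matrix.smul_apply, smul_eq_mul]
  ring

theorem NineLap_otm_T (u v : E 3) : (otm u v)ᵀ = otm v u := by
  ext i j
  simp [otm, mul_comm]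

theorem NineLap_mv_otm (u v w : E 3) : mv (otm u v) w = ⟪v, w⟫ • u := by
  ext i
  simp only [otm, mv_apply, Matrix.of_apply, Fin.sum_univ_three, NineLap_inner, PiLp.smul_apply,
    smul_eq_mul]
  ring

theorem NineLap_det (u v : E 3) (s : ℝ) : (1 - s • otm u v).det = 1 - s * ⟪u, v⟫ := by
  simp [Matrix.det_fin_three, otm, NineLap_inner]
  ring

theorem NineLap_h9_single (a : Fin N → Fin 3 → Pl 3) (k : Fin N) (s : ℝ) (x : E 3) :
    h9 a (Pi.single k s) x = (1 - prj x) + ((-s) • (otm (tv (a k) x) (tv (crs (a k)) x)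
      + otm (tv (crs (a k)) x) (tv (a k) x))
    + (s ^ 2 * evn (nP (a k)) x) • otm (tv (crs (a k)) x) (tv (crs (a k)) x)) := by
  rw [h9, Finset.sum_eq_single k (fun j _ hj => by simp [Pi.single_eq_of_ne hj]) (by simp),
    Pi.single_eq_same]

theorem NineLap_sg9_single (ρ : Fin N → Pl 3) (k : Fin N) (s : ℝ) (x : E 3) :
    sg9 ρ (Pi.single k s) x = 1 + s * evn (ρ k) x := by
  rw [sg9, Finset.sum_eq_single k (fun j _ hj => by simp [Pi.single_eq_of_ne hj]) (by simp),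
    Pi.single_eq_same]

theorem NineLap_factor (a : Fin N → Fin 3 → Pl 3) (k : Fin N) (s : ℝ) (x : E 3) :
    prj x + h9 a (Pi.single k s) x = (1 - s • otm (tv (crs (a k)) x) (tv (a k) x))
      * (1 - s • otm (tv (a k) x) (tv (crs (a k)) x)) := by
  rw [NineLap_h9_single, NineLap_nP, sub_mul, mul_sub, mul_sub, one_mul, one_mul, mul_one,
    Matrix.smul_mul, Matrix.mul_smul, NineLap_otm_mul]
  module

theorem NineLap_det_single (a : Fin N → Fin 3 → Pl 3) (k : Fin N) (s : ℝ) (x : E 3) :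
    (prj x + h9 a (Pi.single k s) x).det = 1 := by
  rw [NineLap_factor, Matrix.det_mul, NineLap_det, NineLap_det, NineLap_PJ, NineLap_JP]
  ring

theorem NineLap_pos_single (a : Fin N → Fin 3 → Pl 3) (k : Fin N) (s : ℝ) (x : E 3) :
    (prj x + h9 a (Pi.single k s) x).PosDef := by
  have hu : IsUnit (1 - s • otm (tv (a k) x) (tv (crs (a k)) x)) := by
    rw [Matrix.isUnit_iff_isUnit_det, NineLap_det, NineLap_PJ]
    simp
  have h := Matrix.PosDef.conjTranspose_mul_self _ (Matrix.mulVec_injective_iff_isUnit.2 hu)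
  rwa [Matrix.conjTranspose_eq_transpose_of_trivial, Matrix.transpose_sub, Matrix.transpose_one,
    Matrix.transpose_smul, NineLap_otm_T, ← NineLap_factor] at h

theorem NineLap_inv_single (a : Fin N → Fin 3 → Pl 3) (k : Fin N) (s : ℝ) {x : E 3} (hx : x ≠ 0) :
    (prj x + h9 a (Pi.single k s) x)⁻¹ = 1 + (s • (otm (tv (a k) x) (tv (crs (a k)) x)
      + otm (tv (crs (a k)) x) (tv (a k) x))
    + (s ^ 2 * evn (nP (a k)) x) • otm (tv (a k) x) (tv (a k) x)) := by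
  have h1 : ∀ u v : E 3, ⟪v, u⟫ = 0 → (1 - s • otm u v) * (1 + s • otm u v) = 1 := by
    intro u v h
    rw [sub_mul, mul_add, mul_add, one_mul, one_mul, mul_one, Matrix.smul_mul, Matrix.mul_smul,
      NineLap_otm_mul, h]
    module
  have h2 : (1 : Mat 3) + (s • (otm (tv (a k) x) (tv (crs (a k)) x)
      + otm (tv (crs (a k)) x) (tv (a k) x))
      + (s ^ 2 * evn (nP (a k)) x) • otm (tv (a k) x) (tv (a k) x))
      = (1 + s • otm (tv (a k) x) (tv (crs (a k)) x))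
        * (1 + s • otm (tv (crs (a k)) x) (tv (a k) x)) := by
    rw [NineLap_nP, add_mul, mul_add, mul_add, one_mul, one_mul, mul_one,
      Matrix.smul_mul, Matrix.mul_smul, NineLap_otm_mul, NineLap_JJ _ hx]
    module
  refine Matrix.inv_eq_right_inv ?_
  rw [h2, NineLap_factor, mul_assoc, ← mul_assoc (1 - s • otm (tv (a k) x) (tv (crs (a k)) x)),
    h1 _ _ (NineLap_JP _ _), one_mul, h1 _ _ (NineLap_PJ _ _)]

theorem NineLap_unit_smul (x : E 3) {t : ℝ} (ht : 0 < t) :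
    ‖t • x‖⁻¹ • t • x = ‖x‖⁻¹ • x := by
  rw [norm_smul, Real.norm_of_nonneg ht.le, smul_smul, mul_inv, mul_comm t⁻¹, mul_assoc,
    inv_mul_cancel₀ ht.ne', mul_one]

theorem NineLap_evn_smul (p : Pl 3) (x : E 3) {t : ℝ} (ht : 0 < t) : evn p (t • x) = evn p x := by
  rw [evn, evn, NineLap_unit_smul x ht]

theorem NineLap_tv_smul (a : Fin 3 → Pl 3) (x : E 3) {t : ℝ} (ht : 0 < t) :
    tv a (t • x) = tv a x := by
  simp only [tv, NineLap_evn_smul _ x ht, NineLap_unit_smul x ht]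

theorem NineLap_sg9_smul (ρ : Fin N → Pl 3) (c : Fin N → ℝ) (x : E 3) {t : ℝ} (ht : 0 < t) :
    sg9 ρ c (t • x) = sg9 ρ c x := by
  simp only [sg9, NineLap_evn_smul _ x ht]

theorem NineLap_h9_smul (a : Fin N → Fin 3 → Pl 3) (c : Fin N → ℝ) (x : E 3) {t : ℝ}
    (ht : 0 < t) : h9 a c (t • x) = h9 a c x := by
  simp only [h9, NineLap_evn_smul _ x ht, NineLap_tv_smul _ x ht, Metric_prj_smul x ht]

theorem NineLap_evn_zero (x : E 3) : evn 0 x = 0 := by simp [evn, ev]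

theorem NineLap_evn_smooth (p : Pl 3) {x : E 3} (hx : x ≠ 0) : ContDiffAt ℝ ∞ (evn p) x :=
  (contDiffOn_evn p).contDiffAt (isOpen_ne.mem_nhds hx)

theorem NineLap_tv_smooth (a : Fin 3 → Pl 3) {x : E 3} (hx : x ≠ 0) (i : Fin 3) :
    ContDiffAt ℝ ∞ (fun y => tv a y i) x := by
  have h : (fun y => tv a y i) = fun y => -evn (crs a i) y := by
    funext y
    rw [NineLap_crs, neg_neg]
  rw [h]
  exact (NineLap_evn_smooth _ hx).neg

theorem NineLap_sg9_smooth (ρ : Fin N → Pl 3) {z : (Fin N → ℝ) × E 3} (hz : z.2 ≠ 0) :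
    ContDiffAt ℝ ∞ (fun z : (Fin N → ℝ) × E 3 => sg9 ρ z.1 z.2) z := by
  have h3 : ∀ k, ContDiffAt ℝ ∞ (fun z : (Fin N → ℝ) × E 3 => z.1 k) z := fun k => by fun_prop
  exact contDiffAt_const.add (ContDiffAt.sum fun k _ =>
    (h3 k).mul ((NineLap_evn_smooth _ hz).comp z contDiffAt_snd))

theorem NineLap_h9_smooth (a : Fin N → Fin 3 → Pl 3) {z : (Fin N → ℝ) × E 3} (hz : z.2 ≠ 0)
    (i j : Fin 3) : ContDiffAt ℝ ∞ (fun z : (Fin N → ℝ) × E 3 => h9 a z.1 z.2 i j) z := by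
  have h1 : ContDiffAt ℝ ∞ (fun z : (Fin N → ℝ) × E 3 => prj z.2 i j) z :=
    (family_prj_smooth hz i j).comp z contDiffAt_snd
  have h2 : ∀ (b : Fin 3 → Pl 3) (l : Fin 3),
      ContDiffAt ℝ ∞ (fun z : (Fin N → ℝ) × E 3 => tv b z.2 l) z := fun b l =>
    ContDiffAt.comp (g := fun y => tv b y l) (f := fun z : (Fin N → ℝ) × E 3 => z.2) z
      (NineLap_tv_smooth b hz l) contDiffAt_snd
  have h3 : ∀ k, ContDiffAt ℝ ∞ (fun z : (Fin N → ℝ) × E 3 => z.1 k) z := fun k => by fun_prop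
  have h4 : ∀ p, ContDiffAt ℝ ∞ (fun z : (Fin N → ℝ) × E 3 => evn p z.2) z := fun p =>
    (NineLap_evn_smooth _ hz).comp z contDiffAt_snd
  simp only [h9, otm, Matrix.add_apply, Matrix.sub_apply, Matrix.sum_apply, Matrix.smul_apply,
    smul_eq_mul, Matrix.of_apply]
  exact (contDiffAt_const.sub h1).add (ContDiffAt.sum fun k _ =>
    ((h3 k).neg.mul (((h2 _ _).mul (h2 _ _)).add ((h2 _ _).mul (h2 _ _)))).add
      ((((h3 k).pow 2).mul (h4 _)).mul ((h2 _ _).mul (h2 _ _))))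

theorem NineLap_mv_sum {ι : Type} (s : Finset ι) (A : ι → Mat 3) (v : E 3) :
    mv (∑ k ∈ s, A k) v = ∑ k ∈ s, mv (A k) v := by
  classical
  induction s using Finset.induction_on with
  | empty => ext i; simp
  | insert a s ha ih => rw [Finset.sum_insert ha, Finset.sum_insert ha, family_mv_add, ih]

theorem NineLap_mv_one (v : E 3) : mv (1 : Mat 3) v = v := by
  simp [mv]

theorem NineLap_mv_sub (A B : Mat 3) (v : E 3) : mv (A - B) v = mv A v - mv B v := by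
  ext i; simp [sub_mul, Finset.sum_sub_distrib]

theorem NineLap_mv_smul (A : Mat 3) (t : ℝ) (v : E 3) : mv A (t • v) = t • mv A v := by
  ext i
  simp only [mv_apply, PiLp.smul_apply, smul_eq_mul, Finset.mul_sum]
  exact Finset.sum_congr rfl fun j _ => by ring

theorem NineLap_h9_rad (a : Fin N → Fin 3 → Pl 3) (c : Fin N → ℝ) (x : E 3) :
    mv (h9 a c x) x = 0 := by
  have h : mv (prj x) x = x := by
    by_cases hx : x = 0
    · subst hx; ext i; simp
    · exact family_mv_prj hx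
  simp only [h9, family_mv_add, NineLap_mv_sum, family_mv_smul, NineLap_mv_sub, NineLap_mv_one,
    NineLap_mv_otm, NineLap_tv_x, h]
  simp

theorem NineLap_h9_T (a : Fin N → Fin 3 → Pl 3) (c : Fin N → ℝ) (x : E 3) :
    (h9 a c x)ᵀ = h9 a c x := by
  simp only [h9, Matrix.transpose_add, Matrix.transpose_sub, Matrix.transpose_one,
    Matrix.transpose_sum, Matrix.transpose_smul, NineLap_otm_T, family_prj_transpose, add_comm]

theorem NineLap_posDef {A : Mat 3} (hA : Aᵀ = A)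
    (h : ∀ v ∈ Metric.sphere (0 : E 3) 1, 0 < bil A v v) : A.PosDef := by
  refine Matrix.PosDef.of_dotProduct_mulVec_pos
    (by rw [Matrix.IsHermitian, Matrix.conjTranspose_eq_transpose_of_trivial, hA]) fun v hv => ?_
  have hv' : (WithLp.toLp 2 v : E 3) ≠ 0 := fun h0 => hv (by simpa using h0)
  have hn : 0 < ‖(WithLp.toLp 2 v : E 3)‖ := norm_pos_iff.2 hv'
  have h1 := h (‖(WithLp.toLp 2 v : E 3)‖⁻¹ • WithLp.toLp 2 v) (by
    rw [mem_sphere_zero_iff_norm, norm_smul, norm_inv, norm_norm, inv_mul_cancel₀ hn.ne'])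
  rw [Metric_bil_scale] at h1
  have h2 := (pos_iff_pos_of_mul_pos h1).1 (by positivity)
  refine h2.trans_eq ?_
  simp only [bil, dotProduct, Matrix.mulVec, star_trivial, Finset.mul_sum]
  exact Finset.sum_congr rfl fun i _ => Finset.sum_congr rfl fun j _ => by ring

theorem NineLap_isOpen (ρ : Fin N → Pl 3) (a : Fin N → Fin 3 → Pl 3) : IsOpen (O9 ρ a) := by
  rw [isOpen_iff_mem_nhds]
  intro c hc
  have hne : ∀ y ∈ Metric.sphere (0 : E 3) 1, y ≠ 0 := fun y hy h0 => by simp [h0] at hy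
  have h := ((isCompact_sphere (0 : E 3) 1).prod
    (isCompact_sphere (0 : E 3) 1)).eventually_forall_of_forall_eventually (x₀ := c)
    (P := fun c z => 0 < sg9 ρ c z.1 ∧ 0 < bil (prj z.1 + h9 a c z.1) z.2 z.2) fun z hz => by
      have hz1 : z.1 ≠ 0 := hne _ hz.1
      have hf : ContinuousAt (fun w : (Fin N → ℝ) × E 3 × E 3 => (w.1, w.2.1)) (c, z) := by
        fun_prop
      have h1 : ContinuousAt (fun w : (Fin N → ℝ) × E 3 × E 3 => sg9 ρ w.1 w.2.1) (c, z) :=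
        ContinuousAt.comp (g := fun w : (Fin N → ℝ) × E 3 => sg9 ρ w.1 w.2)
          (f := fun w : (Fin N → ℝ) × E 3 × E 3 => (w.1, w.2.1))
          (NineLap_sg9_smooth ρ (z := (c, z.1)) hz1).continuousAt hf
      have h2 : ContinuousAt (fun w : (Fin N → ℝ) × E 3 × E 3 =>
          bil (prj w.2.1 + h9 a w.1 w.2.1) w.2.2 w.2.2) (c, z) := by
        unfold bil
        refine tendsto_finsetSum _ fun i _ => tendsto_finsetSum _ fun j _ => ?_
        refine ContinuousAt.mul (ContinuousAt.mul ?_ (by fun_prop)) (by fun_prop)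
        simp only [Matrix.add_apply]
        refine ContinuousAt.add ?_ ?_
        · exact ContinuousAt.comp (g := fun y : E 3 => prj y i j)
            (f := fun w : (Fin N → ℝ) × E 3 × E 3 => w.2.1)
            (family_prj_smooth hz1 i j).continuousAt (by fun_prop)
        · exact ContinuousAt.comp (g := fun w : (Fin N → ℝ) × E 3 => h9 a w.1 w.2 i j)
            (f := fun w : (Fin N → ℝ) × E 3 × E 3 => (w.1, w.2.1))
            (NineLap_h9_smooth a (z := (c, z.1)) hz1 i j).continuousAt hf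
      exact (h1.eventually (lt_mem_nhds (hc _ hz1).1)).and
        (h2.eventually (lt_mem_nhds (Metric_bil_pos (hc _ hz1).2 (hne _ hz.2))))
  filter_upwards [h] with c' hc' x hx
  have hx' : 0 < ‖x‖ := norm_pos_iff.2 hx
  have hu : ‖x‖⁻¹ • x ∈ Metric.sphere (0 : E 3) 1 := by
    rw [mem_sphere_zero_iff_norm, norm_smul, norm_inv, norm_norm, inv_mul_cancel₀ hx'.ne']
  constructor
  · have h1 := (hc' (‖x‖⁻¹ • x, ‖x‖⁻¹ • x) ⟨hu, hu⟩).1
    rwa [NineLap_sg9_smul _ _ _ (inv_pos.2 hx')] at h1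
  · refine NineLap_posDef (by rw [Matrix.transpose_add, family_prj_transpose, NineLap_h9_T])
      fun v hv => ?_
    have h1 := (hc' (‖x‖⁻¹ • x, v) ⟨hu, hv⟩).2
    rwa [NineLap_h9_smul _ _ _ (inv_pos.2 hx'), Metric_prj_smul _ (inv_pos.2 hx')] at h1

end Crest.Agent.R202
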