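import Crest.Agent.R202.SSer
import Crest.Agent.R202.Metric
import Crest.Agent.R202.NineLapAux

/-!
# R202/NineLap: the family `H9`, its Laplacian, negative radial curvature

For `x ≠ 0`, `P = tv a x`, `J = tv (crs a) x = θ × P` are orthogonal to `x` and to each other,
`|P|² = |J|² = evn (nP a) x`, and `|P|² Π = P ⊗ P + J ⊗ J`.  For `c = single k s`:
`(π + h)⁻¹ = π + Π + s (P ⊗ J + J ⊗ P) + s² |P|² P ⊗ P` and `det (π + h) = 1` (`3 × 3`: brute force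
with `Matrix.det_fin_three`, or `π + h = (1 - s J ⊗ P)(1 - s P ⊗ J)` with `P · J = 0`).
`lap9`: near `x`, `√det g • g⁻¹ ∇f = (ψ q/r³) y + r⁻² Σₖ φₖ Bₖ y` with `φₖ` the bracket in `Dh9`
(at the parameter `c (τ |y|)`; radial functions are constant along `Bₖ y`), `laplace_of_field`,
`dv_smul`, `dv_mv`.
`sec9`: `x = r e₀`, `P = e₂`, `J = -e₁`, `w = e₁ + e₂`, `h(w,w) = 2 + 2κ + κ²`; by
`secNumer_radM` the curvature is `≤ 5 (-β') - b κ' + C/len²` along the ramp; the mean value theorem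
for `b κ + 5 β - C t/len²` on `[a, a + len]` gives a time where it is negative.
-/

open scoped ContDiff Topology Matrix RealInnerProductSpace
open Set Filter
open Crest.GeometryTopology.CoordMetric Crest.GeometryTopology.ChartCurvature

noncomputable section

namespace Crest.Agent.R202

variable {N : ℕ} {ρ : Fin N → Pl 3} {a : Fin N → Fin 3 → Pl 3}

theorem fam_H9 (ρ : Fin N → Pl 3) (a : Fin N → Fin 3 → Pl 3) : Fam (H9 ρ a) (O9 ρ a) := by
  refine ⟨NineLap_isOpen ρ a, fun i j z hz => ?_, fun c x t ht => ?_, fun c x => ?_,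
    fun c hc x hx => ?_⟩
  · have hz2 : z.2 ≠ 0 := hz.2
    refine ContDiffAt.contDiffWithinAt ?_
    simp only [H9, Matrix.smul_apply, smul_eq_mul]
    exact ((NineLap_sg9_smooth ρ hz2).inv (hz.1 _ hz2).1.ne').mul (NineLap_h9_smooth a hz2 i j)
  · rw [H9, H9, NineLap_sg9_smul _ _ _ ht, NineLap_h9_smul _ _ _ ht]
  · rw [H9, family_mv_smul, NineLap_h9_rad, smul_zero]
  · have h0 : 0 < (sg9 ρ c x)⁻¹ := inv_pos.2 (hc x hx).1
    have h := posDef_rad hx (NineLap_h9_rad a c x) (hc x hx).2 (Real.sqrt_pos.2 h0).ne'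
    rwa [Real.sq_sqrt h0.le] at h

theorem H9_zero (x : E 3) : H9 ρ a 0 x = 1 - prj x := by
  simp [H9, sg9, h9]

theorem single_mem_O9 {k : Fin N} (hk : ρ k = 0) (s : ℝ) : Pi.single k s ∈ O9 ρ a := by
  intro x _
  refine ⟨?_, NineLap_pos_single a k s x⟩
  rw [NineLap_sg9_single, hk, NineLap_evn_zero]
  simp

theorem H9_single {k : Fin N} (hk : ρ k = 0) (s : ℝ) :
    H9 ρ a (Pi.single k s) = H9 (fun _ : Fin 1 => 0) (fun _ => a k) (fun _ => s) := by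
  funext x
  have e : (fun _ : Fin 1 => s) = Pi.single 0 s := by
    funext i
    rw [Subsingleton.elim i 0, Pi.single_eq_same]
  rw [H9, H9, e, NineLap_sg9_single, NineLap_sg9_single, NineLap_h9_single, NineLap_h9_single, hk]

theorem NineLap_det_rad {c : Fin N → ℝ} (hc : Sgl c) {x : E 3} (hx : x ≠ 0) {u : ℝ} (hu : 0 ≤ u) :
    (prj x + u • h9 a c x).det = u ^ 2 := by
  obtain ⟨k, s, rfl⟩ := hc
  have h := det_rad hx (NineLap_h9_T a (Pi.single k s) x) (NineLap_h9_rad a _ x) (Real.sqrt u)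
  rwa [NineLap_det_single, pow_mul, Real.sq_sqrt hu, mul_one] at h

theorem lTh_H9 {c : Fin N → ℝ} (hc : Sgl c) (hO : c ∈ O9 ρ a) {x : E 3} (hx : x ≠ 0) :
    lTh (H9 ρ a) c x = -Real.log (sg9 ρ c x) := by
  rw [lTh, H9, NineLap_det_rad hc hx (inv_pos.2 (hO x hx).1).le, Real.log_pow, Real.log_inv]
  push_cast
  ring

theorem NineLap_evn_bound (ρ : Fin N → Pl 3) :
    ∃ M : ℝ, 0 < M ∧ ∀ x : E 3, x ≠ 0 → ∑ k, |evn (ρ k) x| ≤ M := by
  have hc : Continuous fun x : E 3 => ∑ k, |ev (ρ k) x| :=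
    continuous_finsetSum _ fun k _ => (contDiff_ev (ρ k)).continuous.abs
  obtain ⟨M, hM⟩ := ((isCompact_sphere (0 : E 3) 1).image hc).isBounded.bddAbove
  refine ⟨max M 1, lt_max_of_lt_right one_pos, fun x hx => le_max_of_le_left (hM ⟨‖x‖⁻¹ • x, ?_, rfl⟩)⟩
  rw [mem_sphere_zero_iff_norm, norm_smul, norm_inv, norm_norm,
    inv_mul_cancel₀ (norm_ne_zero_iff.2 hx)]

theorem NineLap_sum_le {M δ : ℝ} {x : E 3} (hM : ∑ k, |evn (ρ k) x| ≤ M) (hδ : 0 ≤ δ)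
    {d : Fin N → ℝ} (hd : ∀ k, ρ k ≠ 0 → |d k| ≤ δ) : |∑ k, d k * evn (ρ k) x| ≤ M * δ := by
  refine (Finset.abs_sum_le_sum_abs _ _).trans (le_trans ?_ (mul_le_mul_of_nonneg_right hM hδ))
  rw [Finset.sum_mul]
  refine Finset.sum_le_sum fun k _ => ?_
  by_cases hk : ρ k = 0
  · simp [hk, NineLap_evn_zero]
  · rw [abs_mul, mul_comm]
    exact mul_le_mul_of_nonneg_left (hd k hk) (abs_nonneg _)

/-- size of `lTh` and of its time derivatives -/
theorem lTh_bound (ρ : Fin N → Pl 3) (a : Fin N → Fin 3 → Pl 3) : ∃ ε > 0, ∃ C : ℝ, 0 ≤ C ∧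
    ∀ c : ℝ → Fin N → ℝ, ContDiff ℝ ∞ c → (∀ t, Sgl (c t) ∧ c t ∈ O9 ρ a) → ∀ t δ δ' : ℝ,
      δ ≤ ε → δ' ≤ ε → (∀ k, ρ k ≠ 0 → |c t k| ≤ δ ∧ |deriv (fun s => c s k) t| ≤ δ' ∧
        |deriv (deriv fun s => c s k) t| ≤ δ') → 0 ≤ δ → 0 ≤ δ' → ∀ x : E 3, x ≠ 0 →
      |lTh (H9 ρ a) (c t) x| ≤ C * δ ∧ |deriv (fun s => lTh (H9 ρ a) (c s) x) t| ≤ C * δ' ∧
        |deriv (deriv fun s => lTh (H9 ρ a) (c s) x) t| ≤ C * δ' := by
  obtain ⟨M, hM0, hM⟩ := NineLap_evn_bound ρ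
  refine ⟨1 / (2 * M), by positivity, 4 * M, by positivity,
    fun c hc hs t δ δ' hδ hδ' hb h0 h0' x hx => ?_⟩
  have hck : ∀ k, ContDiff ℝ ∞ fun t => c t k := fun k => contDiff_pi.1 hc k
  have hd1 : ∀ k s, HasDerivAt (fun t => c t k) (deriv (fun t => c t k) s) s := fun k s =>
    ((hck k).differentiable (by simp) s).hasDerivAt
  have hd2 : ∀ k s, HasDerivAt (deriv fun t => c t k) (deriv (deriv fun t => c t k) s) s :=
    fun k s => ((contDiff_infty_iff_deriv.1 (hck k)).2.differentiable (by simp) s).hasDerivAt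
  set u : ℝ → ℝ := fun s => ∑ k, c s k * evn (ρ k) x with hu
  set u1 : ℝ → ℝ := fun s => ∑ k, deriv (fun t => c t k) s * evn (ρ k) x with hu1
  set u2 : ℝ := ∑ k, deriv (deriv fun t => c t k) t * evn (ρ k) x with hu2
  have du : ∀ s, HasDerivAt u (u1 s) s := fun s =>
    HasDerivAt.fun_sum fun k _ => (hd1 k s).mul_const _
  have du1 : HasDerivAt u1 u2 t := HasDerivAt.fun_sum fun k _ => (hd2 k t).mul_const _
  have hpos : ∀ s, 0 < 1 + u s := fun s => ((hs s).2 x hx).1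
  have e0 : (fun s => lTh (H9 ρ a) (c s) x) = fun s => -Real.log (1 + u s) :=
    funext fun s => lTh_H9 (hs s).1 (hs s).2 hx
  have e1 : deriv (fun s => lTh (H9 ρ a) (c s) x) = fun s => -(u1 s / (1 + u s)) := by
    rw [e0]
    exact funext fun s => (((du s).const_add 1).log (hpos s).ne').neg.deriv
  have e2 : deriv (deriv fun s => lTh (H9 ρ a) (c s) x) t
      = -((u2 * (1 + u t) - u1 t * u1 t) / (1 + u t) ^ 2) := by
    rw [e1]
    exact (du1.div ((du t).const_add 1) (hpos t).ne').neg.deriv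
  have b0 : |u t| ≤ M * δ := NineLap_sum_le (hM x hx) h0 fun k hk => (hb k hk).1
  have b1 : |u1 t| ≤ M * δ' := NineLap_sum_le (hM x hx) h0' fun k hk => (hb k hk).2.1
  have b2 : |u2| ≤ M * δ' := NineLap_sum_le (hM x hx) h0' fun k hk => (hb k hk).2.2
  have c0 : M * δ ≤ 1 / 2 := by
    rw [le_div_iff₀ (by positivity)] at hδ
    linarith
  have c1 : M * δ' ≤ 1 / 2 := by
    rw [le_div_iff₀ (by positivity)] at hδ'
    linarith
  have hl : 1 / 2 ≤ 1 + u t := by linarith [neg_abs_le (u t)]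
  rw [e2, e1, congrFun e0 t, abs_neg, abs_neg, abs_neg, abs_div, abs_div, abs_of_pos (hpos t),
    abs_of_pos (pow_pos (hpos t) 2), div_le_iff₀ (hpos t), div_le_iff₀ (pow_pos (hpos t) 2)]
  have hMδ : 0 ≤ M * δ := by positivity
  have hMδ' : 0 ≤ M * δ' := by positivity
  refine ⟨?_, by nlinarith, ?_⟩
  · rw [abs_le]
    constructor
    · have h1 := Real.one_sub_inv_le_log_of_pos (hpos t)
      have h2 : (1 + u t)⁻¹ ≤ 1 + 4 * M * δ := by
        rw [inv_le_iff_one_le_mul₀ (hpos t)]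
        nlinarith [neg_abs_le (u t)]
      linarith
    · have h1 := Real.log_le_sub_one_of_pos (hpos t)
      linarith [le_abs_self (u t)]
  · have h1 : |u2 * (1 + u t) - u1 t * u1 t| ≤ |u2| * (1 + u t) + |u1 t| * |u1 t| := by
      refine (abs_sub _ _).trans ?_
      rw [abs_mul, abs_mul, abs_of_pos (hpos t)]
    have h2 : |u1 t| * |u1 t| ≤ M * δ' * (1 / 2) :=
      mul_le_mul b1 (b1.trans c1) (abs_nonneg _) hMδ'
    have h3 : |u2| * (1 + u t) ≤ M * δ' * (1 + u t) := mul_le_mul_of_nonneg_right b2 (hpos t).le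
    have h4 : (1 + u t) + 1 / 2 ≤ 4 * (1 + u t) ^ 2 := by nlinarith
    nlinarith [mul_le_mul_of_nonneg_left h4 hMδ']

/-- the bracket in `Dh9` -/
def NineLap_phi (a : Fin N → Fin 3 → Pl 3) (c : Fin N → ℝ) (φ : E 3 → ℝ) (k : Fin 3) (y : E 3) :
    ℝ :=
  Lf k φ y + ∑ j, (c j * (evn (a j k) y * Lvf (crs (a j)) φ y
    + evn (crs (a j) k) y * Lvf (a j) φ y)
    + c j ^ 2 * (evn (a j k) y * evn (nP (a j)) y * Lvf (a j) φ y))

theorem NineLap_tv_eq (b : Fin 3 → Pl 3) (y : E 3) :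
    tv b y = ∑ k, (evn (b k) y * ‖y‖⁻¹) • mv (Bm k) y := by
  simp only [tv, NineLap_mv_smul, smul_smul]

theorem NineLap_Lf (k : Fin 3) (f : E 3 → ℝ) (y : E 3) : ⟪mv (Bm k) y, grd f y⟫ = Lf k f y := by
  rw [Lf, fderiv_eq_inner_grd, real_inner_comm]

theorem NineLap_Lvf (b : Fin 3 → Pl 3) (f : E 3 → ℝ) (y : E 3) :
    ⟪tv b y, grd f y⟫ = ‖y‖⁻¹ * Lvf b f y := by
  rw [NineLap_tv_eq, sum_inner, Lvf, Finset.mul_sum]
  refine Finset.sum_congr rfl fun k _ => ?_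
  rw [real_inner_smul_left, NineLap_Lf]
  ring

theorem NineLap_field {c : Fin N → ℝ} (hc : Sgl c) (f : E 3 → ℝ) {y : E 3} (hy : y ≠ 0) :
    mv ((prj y + h9 a c y)⁻¹ - prj y) (grd f y)
      = ∑ k, ((‖y‖ ^ 2)⁻¹ * NineLap_phi a c f k y) • mv (Bm k) y := by
  obtain ⟨j, s, rfl⟩ := hc
  have e : ∀ k, NineLap_phi a (Pi.single j s) f k y = Lf k f y
      + (s * (evn (a j k) y * Lvf (crs (a j)) f y + evn (crs (a j) k) y * Lvf (a j) f y)
      + s ^ 2 * (evn (a j k) y * evn (nP (a j)) y * Lvf (a j) f y)) := fun k => by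
    rw [NineLap_phi, Finset.sum_eq_single j (fun i _ hi => by simp [Pi.single_eq_of_ne hi])
      (by simp), Pi.single_eq_same]
  have h1 := eq_radial_add_sum hy (grd f y)
  simp only [NineLap_Lf] at h1
  have h2 : grd f y - (⟪y, grd f y⟫ / ‖y‖ ^ 2) • y = ∑ k, (Lf k f y / ‖y‖ ^ 2) • mv (Bm k) y :=
    sub_eq_iff_eq_add'.2 h1
  rw [NineLap_inv_single a j s hy, add_sub_right_comm, family_mv_add, NineLap_mv_sub,
    NineLap_mv_one, mv_prj, h2]
  simp only [family_mv_add, family_mv_smul, NineLap_mv_otm, NineLap_Lvf, e]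
  rw [NineLap_tv_eq (a j), NineLap_tv_eq (crs (a j))]
  simp only [Finset.smul_sum, ← Finset.sum_add_distrib, smul_smul, ← add_smul]
  refine Finset.sum_congr rfl fun k _ => ?_
  congr 1
  rw [div_eq_mul_inv, ← inv_pow]
  ring

theorem NineLap_Lf_smooth {f : E 3 → ℝ} {x : E 3} (hf : ContDiffAt ℝ ∞ f x) (k : Fin 3) :
    DifferentiableAt ℝ (Lf k f) x := by
  have h1 : ContDiffAt ℝ 1 (fderiv ℝ f) x :=
    hf.fderiv_right (WithTop.coe_le_coe.mpr (le_top : ((1 : ℕ∞) + 1) ≤ ⊤))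
  exact (h1.differentiableAt one_ne_zero).clm_apply (differentiable_mv _ x)

theorem NineLap_phi_diff {f : E 3 → ℝ} {z : (Fin N → ℝ) × E 3} (hz : z.2 ≠ 0)
    (hf : ContDiffAt ℝ ∞ f z.2) (k : Fin 3) :
    DifferentiableAt ℝ (fun z : (Fin N → ℝ) × E 3 => NineLap_phi a z.1 f k z.2) z := by
  have h1 : ∀ p, DifferentiableAt ℝ (fun z : (Fin N → ℝ) × E 3 => evn p z.2) z := fun p =>
    ((NineLap_evn_smooth p hz).differentiableAt (by simp)).comp z differentiableAt_snd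
  have h2 : ∀ l, DifferentiableAt ℝ (fun z : (Fin N → ℝ) × E 3 => Lf l f z.2) z := fun l =>
    (NineLap_Lf_smooth hf l).comp z differentiableAt_snd
  have h3 : ∀ b, DifferentiableAt ℝ (fun z : (Fin N → ℝ) × E 3 => Lvf b f z.2) z := fun b =>
    DifferentiableAt.fun_sum fun l _ => (h1 _).mul (h2 l)
  have h4 : ∀ j, DifferentiableAt ℝ (fun z : (Fin N → ℝ) × E 3 => z.1 j) z := fun j => by fun_prop
  exact (h2 k).add (DifferentiableAt.fun_sum fun j _ =>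
    ((h4 j).mul (((h1 _).mul (h3 _)).add ((h1 _).mul (h3 _)))).add
      (((h4 j).pow 2).mul (((h1 _).mul (h1 _)).mul (h3 _))))

theorem NineLap_freeze {P : Type} [NormedAddCommGroup P] [NormedSpace ℝ P] {F : P × E 3 → ℝ}
    {γ : E 3 → P} {x v : E 3} (hF : DifferentiableAt ℝ F (γ x, x)) (hγ : DifferentiableAt ℝ γ x)
    (h : fderiv ℝ γ x v = 0) :
    fderiv ℝ (fun y => F (γ y, y)) x v = fderiv ℝ (fun y => F (γ x, y)) x v := by
  have h1 : HasFDerivAt (fun y => F (γ y, y)) _ x :=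
    HasFDerivAt.comp (f := fun y => (γ y, y)) x hF.hasFDerivAt
      (hγ.hasFDerivAt.prodMk (hasFDerivAt_id x))
  have h2 : HasFDerivAt (fun y => F (γ x, y)) _ x :=
    HasFDerivAt.comp (f := fun y => (γ x, y)) x hF.hasFDerivAt
      ((hasFDerivAt_const (γ x) x).prodMk (hasFDerivAt_id x))
  rw [h1.fderiv, h2.fderiv]
  simp [h]

theorem lap9 {b : ℝ} {β ψ τ : ℝ → ℝ} (hT : Tm b β ψ τ) {c : ℝ → Fin N → ℝ}
    (hc : ContDiff ℝ ∞ c) (hs : ∀ t, Sgl (c t) ∧ c t ∈ O9 ρ a) {f q : E 3 → ℝ}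
    (hf : ContDiffOn ℝ ∞ f {x | x ≠ 0}) (hq : ContDiffOn ℝ ∞ q {x | x ≠ 0})
    (h1 : ∀ y : E 3, y ≠ 0 → fderiv ℝ f y y = ‖y‖ / ψ ‖y‖ * (sg9 ρ (c (τ ‖y‖)) y * q y))
    {x : E 3} (hx : x ≠ 0)
    (h2 : fderiv ℝ q x x = ‖x‖ / ψ ‖x‖ * (-β (τ ‖x‖) * q x - Dh9 a (c (τ ‖x‖)) f x)) :
    laplaceBeltrami (radM ψ (c ∘ τ) (H9 ρ a)) f x = 0 := by
  have hr : 0 < ‖x‖ := norm_pos_iff.2 hx
  have hψ := Metric_ψ_pos hT _ hr
  have hV : ∀ᶠ y in 𝓝 x, Real.sqrt (radM ψ (c ∘ τ) (H9 ρ a) y).det •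
      mv (radM ψ (c ∘ τ) (H9 ρ a) y)⁻¹ (grd f y) = (ψ ‖y‖ / ‖y‖ ^ 3 * q y) • y
        + ∑ k, ((‖y‖ ^ 2)⁻¹ * NineLap_phi a (c (τ ‖y‖)) f k y) • mv (Bm k) y := by
    filter_upwards [isOpen_ne.mem_nhds hx] with y hy
    have hy' : 0 < ‖y‖ := norm_pos_iff.2 hy
    have hψy := Metric_ψ_pos hT _ hy'
    obtain ⟨hσ, hp⟩ := (hs (τ ‖y‖)).2 y hy
    have hu : 0 < (ψ ‖y‖ / ‖y‖) ^ 2 * (sg9 ρ (c (τ ‖y‖)) y)⁻¹ := by positivity
    have e1 : radM ψ (c ∘ τ) (H9 ρ a) y = prj y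
        + ((ψ ‖y‖ / ‖y‖) ^ 2 * (sg9 ρ (c (τ ‖y‖)) y)⁻¹) • h9 a (c (τ ‖y‖)) y := by
      simp only [radM, if_neg hy, H9, Function.comp_apply, smul_smul]
    have e2 := inv_rad hy (NineLap_h9_rad a _ y) hp (Real.sqrt_pos.2 hu).ne'
    rw [Real.sq_sqrt hu.le] at e2
    rw [e1, NineLap_det_rad (hs _).1 hy hu.le, Real.sqrt_sq hu.le, e2, family_mv_add,
      family_mv_smul, NineLap_field (hs _).1 f hy, mv_prj, smul_add, smul_smul, smul_smul,
      mul_inv_cancel₀ hu.ne', one_smul, real_inner_comm, ← fderiv_eq_inner_grd, h1 y hy]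
    congr 2
    field_simp
  have hqx : DifferentiableAt ℝ q x :=
    (hq.contDiffAt (isOpen_ne.mem_nhds hx)).differentiableAt (by simp)
  have hfx : ContDiffAt ℝ ∞ f x := hf.contDiffAt (isOpen_ne.mem_nhds hx)
  have d1 : HasDerivAt (fun r => ψ r / r ^ 3) (β (τ ‖x‖) / ‖x‖ ^ 3 - 3 * ψ ‖x‖ / ‖x‖ ^ 4) ‖x‖ := by
    refine ((hT.dψ _ hr).div (hasDerivAt_pow 3 ‖x‖) (pow_ne_zero _ hr.ne')).congr_deriv ?_
    field_simp
    ring
  have d2 := (hasFDerivAt_radial hx d1).mul hqx.hasFDerivAt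
  have d2' : DifferentiableAt ℝ (fun y : E 3 => ψ ‖y‖ / ‖y‖ ^ 3 * q y) x := d2.differentiableAt
  have d3 : fderiv ℝ (fun y : E 3 => ψ ‖y‖ / ‖y‖ ^ 3 * q y) x = _ := d2.fderiv
  have hn := hasFDerivAt_radial (w := fun r => r) hx (hasDerivAt_id ‖x‖)
  have hF : ∀ k, DifferentiableAt ℝ (fun z : ℝ × E 3 =>
      (z.1 ^ 2)⁻¹ * NineLap_phi a (c (τ z.1)) f k z.2) (‖x‖, x) := by
    intro k
    have h3 : DifferentiableAt ℝ (fun z : ℝ × E 3 => (c (τ z.1), z.2)) (‖x‖, x) :=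
      (DifferentiableAt.comp (g := fun r => c (τ r)) (f := fun z : ℝ × E 3 => z.1) (‖x‖, x)
        ((hc.differentiable (by simp) _).comp ‖x‖ (hT.dτ _ hr).differentiableAt)
        differentiableAt_fst).prodMk differentiableAt_snd
    refine DifferentiableAt.mul ((differentiableAt_fst.pow 2).inv (pow_ne_zero 2 hr.ne')) ?_
    exact DifferentiableAt.comp (g := fun z : (Fin N → ℝ) × E 3 => NineLap_phi a z.1 f k z.2)
      (f := fun z : ℝ × E 3 => (c (τ z.1), z.2)) (‖x‖, x)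
      (NineLap_phi_diff (z := (c (τ ‖x‖), x)) hx hfx k) h3
  have d4 : ∀ k, DifferentiableAt ℝ
      (fun y : E 3 => (‖y‖ ^ 2)⁻¹ * NineLap_phi a (c (τ ‖y‖)) f k y) x := fun k =>
    DifferentiableAt.comp (g := fun z : ℝ × E 3 =>
      (z.1 ^ 2)⁻¹ * NineLap_phi a (c (τ z.1)) f k z.2) (f := fun y : E 3 => (‖y‖, y)) x (hF k)
      (hn.differentiableAt.prodMk differentiableAt_id)
  have d5 : ∀ k, fderiv ℝ (fun y : E 3 => (‖y‖ ^ 2)⁻¹ * NineLap_phi a (c (τ ‖y‖)) f k y) x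
      (mv (Bm k) x) = (‖x‖ ^ 2)⁻¹ * Lf k (NineLap_phi a (c (τ ‖x‖)) f k) x := by
    intro k
    have h3 := NineLap_freeze (γ := fun y : E 3 => ‖y‖) (v := mv (Bm k) x) (hF k)
      hn.differentiableAt (by rw [hn.fderiv]; simp [NineLap_inner_Bm])
    have h4 : DifferentiableAt ℝ (NineLap_phi a (c (τ ‖x‖)) f k) x :=
      DifferentiableAt.comp (g := fun z : (Fin N → ℝ) × E 3 => NineLap_phi a z.1 f k z.2)
        (f := fun y : E 3 => (c (τ ‖x‖), y)) x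
        (NineLap_phi_diff (z := (c (τ ‖x‖), x)) hx hfx k) (by fun_prop)
    dsimp only at h3
    rw [h3, fderiv_const_mul h4]
    rfl
  have d6 : ∀ k, DifferentiableAt ℝ (fun y : E 3 =>
      ((‖y‖ ^ 2)⁻¹ * NineLap_phi a (c (τ ‖y‖)) f k y) • mv (Bm k) y) x := fun k =>
    (d4 k).smul (differentiable_mv _ x)
  have d7 : DifferentiableAt ℝ (fun y : E 3 => (ψ ‖y‖ / ‖y‖ ^ 3 * q y) • y) x :=
    d2'.smul differentiableAt_id
  rw [laplace_of_field hV, dv_add d7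
    (DifferentiableAt.fun_sum fun k _ => d6 k), dv_sum _ fun k _ => d6 k,
    dv_smul (V := fun y => y) d2' differentiableAt_id, dv_id, d3]
  refine mul_eq_zero_of_right _ ?_
  have e : ∑ k, dv (fun y : E 3 =>
      ((‖y‖ ^ 2)⁻¹ * NineLap_phi a (c (τ ‖y‖)) f k y) • mv (Bm k) y) x
      = (‖x‖ ^ 2)⁻¹ * Dh9 a (c (τ ‖x‖)) f x := by
    rw [Dh9, Finset.mul_sum]
    refine Finset.sum_congr rfl fun k _ => ?_
    rw [dv_smul (d4 k) (differentiable_mv _ x), d5, dv_mv, NineLap_trace, mul_zero, add_zero]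
    rfl
  rw [e]
  simp only [_root_.add_apply, _root_.smul_apply, innerSL_apply_apply,
    smul_eq_mul, h2, real_inner_self_eq_norm_sq]
  push_cast
  field_simp
  ring

theorem NineLap_prj_e0 {r : ℝ} (hr : 0 < r) :
    prj (EuclideanSpace.single 0 r : E 3) = !![1, 0, 0; 0, 0, 0; 0, 0, 0] := by
  ext i j
  rw [prj_apply, PiLp.norm_single, Real.norm_of_nonneg hr.le]
  fin_cases i <;> fin_cases j <;> simp
  field_simp

theorem NineLap_H_e0 {k : Fin N} (hk : ρ k = 0) (hk' : a k = aD) (κ : ℝ) {r : ℝ} (hr : 0 < r) :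
    H9 ρ a (Pi.single k κ) (EuclideanSpace.single 0 r) = !![0, 0, 0; 0, 1 + κ ^ 2, κ; 0, κ, 1] := by
  set x : E 3 := EuclideanSpace.single 0 r with hx
  have hn : ‖x‖ = r := by rw [hx, PiLp.norm_single, Real.norm_of_nonneg hr.le]
  have x0 : ‖x‖⁻¹ * x 0 = 1 := by rw [hn, hx]; simp [hr.ne']
  have x1 : ‖x‖⁻¹ * x 1 = 0 := by rw [hn, hx]; simp
  have x2 : ‖x‖⁻¹ * x 2 = 0 := by rw [hn, hx]; simp
  have a0 : evn (aD 0) x = 0 := by simpa [aD, evn, ev] using x1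
  have a1 : evn (aD 1) x = -1 := by simpa [aD, evn, ev] using x0
  have a2 : evn (aD 2) x = 0 := by simp [aD, evn, ev]
  obtain ⟨p0, p1, p2⟩ := NineLap_tv aD x
  obtain ⟨j0, j1, j2⟩ := NineLap_tv (crs aD) x
  simp only [x0, x1, x2, a0, a1, a2, mul_zero, mul_one, sub_zero, zero_sub, neg_neg] at p0 p1 p2
  simp only [NineLap_crs, x0, x1, x2, p0, p1, p2, mul_zero, mul_one, sub_zero, neg_zero]
    at j0 j1 j2
  have hP : evn (nP aD) x = 1 := by
    rw [NineLap_nP, NineLap_inner, p0, p1, p2]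
    norm_num
  rw [H9, NineLap_sg9_single, NineLap_h9_single, hk, hk', NineLap_evn_zero, hP, hx,
    NineLap_prj_e0 hr, ← hx]
  ext i j
  fin_cases i <;> fin_cases j <;> simp [otm, p0, p1, p2, j0, j1, j2]

theorem NineLap_sec {b : ℝ} {β ψ τ : ℝ → ℝ} (hT : Tm b β ψ τ) {k : Fin N} (hk : ρ k = 0)
    (hk' : a k = aD) {c : ℝ → Fin N → ℝ} (hc : ContDiff ℝ ∞ c) {κ κ₁ : ℝ → ℝ} {κ₂ : ℝ}
    (h1 : ∀ t, HasDerivAt κ (κ₁ t) t) {r : ℝ} (hr : 0 < r) (h2 : HasDerivAt κ₁ κ₂ (τ r))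
    (he : c =ᶠ[𝓝 (τ r)] fun t => Pi.single k (κ t)) :
    0 < gramDet (radM ψ (c ∘ τ) (H9 ρ a)) (EuclideanSpace.single 0 r) (EuclideanSpace.single 0 r)
      (WithLp.toLp 2 ![0, 1, 1]) ∧
    secNumer (radM ψ (c ∘ τ) (H9 ρ a)) (EuclideanSpace.single 0 r) (EuclideanSpace.single 0 r)
      (WithLp.toLp 2 ![0, 1, 1]) = -deriv β (τ r) * (2 + 2 * κ (τ r) + κ (τ r) ^ 2)
        - β (τ r) * (1 + κ (τ r)) * κ₁ (τ r) - ((1 + κ (τ r)) * κ₂ + κ₁ (τ r) ^ 2)
        + (1 / 4) * κ₁ (τ r) ^ 2 * (2 + 2 * κ (τ r) + κ (τ r) ^ 2) := by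
  have hn : ‖(EuclideanSpace.single 0 r : E 3)‖ = r := by
    rw [PiLp.norm_single, Real.norm_of_nonneg hr.le]
  have hx : (EuclideanSpace.single 0 r : E 3) ≠ 0 := by
    rw [← norm_pos_iff, hn]
    exact hr
  have hH : (fun t => H9 ρ a (c t) (EuclideanSpace.single 0 r)) =ᶠ[𝓝 (τ r)]
      fun t => !![0, 0, 0; 0, 1 + κ t ^ 2, κ t; 0, κ t, 1] :=
    he.mono fun t ht => by simp only [ht, NineLap_H_e0 hk hk' _ hr]
  have hH0 := hH.self_of_nhds
  beta_reduce at hH0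
  constructor
  · have hψ := Metric_ψ_pos hT _ hr
    have e : gramDet (radM ψ (c ∘ τ) (H9 ρ a)) (EuclideanSpace.single 0 r)
        (EuclideanSpace.single 0 r) (WithLp.toLp 2 ![0, 1, 1])
        = r ^ 2 * ((ψ r / r) ^ 2 * (1 + (1 + κ (τ r)) ^ 2)) := by
      simp only [gramDet, quadForm, radM, if_neg hx, hn, Function.comp_apply, hH0,
        NineLap_prj_e0 hr, Fin.sum_univ_three]
      simp
      ring
    rw [e]
    positivity
  have hO : c (τ ‖(EuclideanSpace.single 0 r : E 3)‖) ∈ O9 ρ a := by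
    rw [hn, he.self_of_nhds]
    exact single_mem_O9 hk _
  have hb : (fun t => bil (H9 ρ a (c t) (EuclideanSpace.single 0 r)) (WithLp.toLp 2 ![0, 1, 1])
      (WithLp.toLp 2 ![0, 1, 1])) =ᶠ[𝓝 (τ r)] fun t => 2 + 2 * κ t + κ t ^ 2 :=
    hH.mono fun t ht => by
      simp only at ht
      simp [ht, bil, Fin.sum_univ_three]
      ring
  have hb1 : deriv (fun t => 2 + 2 * κ t + κ t ^ 2) = fun t => 2 * ((1 + κ t) * κ₁ t) := by
    funext t
    refine (HasDerivAt.deriv ((((h1 t).const_mul 2).const_add 2).add ((h1 t).pow 2))).trans ?_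
    simp
    ring
  have hb2 : deriv (fun t => 2 * ((1 + κ t) * κ₁ t)) (τ r)
      = 2 * ((1 + κ (τ r)) * κ₂ + κ₁ (τ r) ^ 2) := by
    refine (HasDerivAt.deriv ((((h1 _).const_add 1).mul h2).const_mul 2)).trans ?_
    ring
  have hd : (Matrix.of fun i j =>
      deriv (fun t => H9 ρ a (c t) (EuclideanSpace.single 0 r) i j) (τ r))
      = !![0, 0, 0; 0, 2 * κ (τ r) * κ₁ (τ r), κ₁ (τ r); 0, κ₁ (τ r), 0] := by
    ext i j
    have h3 : (fun t => H9 ρ a (c t) (EuclideanSpace.single 0 r) i j) =ᶠ[𝓝 (τ r)]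
        fun t => (!![0, 0, 0; 0, 1 + κ t ^ 2, κ t; 0, κ t, 1] : Mat 3) i j :=
      hH.mono fun t ht => by simp only [ht]
    rw [Matrix.of_apply, h3.deriv_eq]
    have h4 : deriv (fun t => 1 + κ t ^ 2) (τ r) = 2 * κ (τ r) * κ₁ (τ r) := by
      refine (HasDerivAt.deriv (((h1 _).pow 2).const_add 1)).trans ?_
      simp
    have h5 : deriv (fun t => κ t) (τ r) = κ₁ (τ r) := (h1 _).deriv
    fin_cases i <;> fin_cases j <;> first | exact h4 | exact h5 | simp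
  have hi : (prj (EuclideanSpace.single 0 r : E 3)
      + H9 ρ a (c (τ r)) (EuclideanSpace.single 0 r))⁻¹
      = !![1, 0, 0; 0, 1, -κ (τ r); 0, -κ (τ r), 1 + κ (τ r) ^ 2] := by
    refine Matrix.inv_eq_right_inv ?_
    rw [hH0, NineLap_prj_e0 hr]
    ext i j
    fin_cases i <;> fin_cases j <;> simp [Matrix.mul_apply, Fin.sum_univ_three] <;> ring
  have hb0 := hb.self_of_nhds
  beta_reduce at hb0
  rw [secNumer_radM hT (fam_H9 ρ a) hc hx hO, hn, hb0, hb.deriv_eq, hb.deriv.deriv_eq,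
    hb1, hb2, hd, hi]
  simp [bil, Matrix.mul_apply, Fin.sum_univ_three]
  ring

theorem sec9 {b : ℝ} {β ψ τ : ℝ → ℝ} (hT : Tm b β ψ τ) {k : Fin N} (hk : ρ k = 0)
    (hk' : a k = aD) {κB : ℝ} (hκ : 0 < κB) (hκ1 : κB ≤ 1) :
    ∃ T₀ : ℝ, ∀ c : ℝ → Fin N → ℝ, ContDiff ℝ ∞ c → ∀ s len : ℝ, T₀ ≤ s → T₀ ≤ len →
      (∀ t ∈ Icc s (s + len), c =ᶠ[𝓝 t] fun r => Pi.single k (κB * rmp ((r - s) / len))) →
      ∃ x w : E 3, s ≤ τ ‖x‖ ∧ x ≠ 0 ∧ 0 < gramDet (radM ψ (c ∘ τ) (H9 ρ a)) x x w ∧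
        secNumer (radM ψ (c ∘ τ) (H9 ρ a)) x x w < 0 := by
  obtain ⟨B, hB1, hB⟩ := exists_bmp_bound
  have hb := hT.b_pos
  obtain ⟨T, hT'⟩ := eventually_atTop.1
    (hT.β_lim.eventually (gt_mem_nhds (show b < b + b * κB / 10 by
      have := mul_pos hb hκ; linarith)))
  set C : ℝ := 2 * B + B ^ 2 with hC
  have hC0 : 0 < C := by positivity
  refine ⟨max T (2 * C / (b * κB)), fun c hc s len hs hlen he => ?_⟩
  have hl : 2 * C / (b * κB) ≤ len := (le_max_right _ _).trans hlen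
  have hl0 : 0 < len := lt_of_lt_of_le (by positivity) hl
  have hlin : ∀ t, HasDerivAt (fun r => (r - s) / len) (1 / len) t := fun t =>
    ((hasDerivAt_id t).sub_const s).div_const len
  have h1 : ∀ t, HasDerivAt (fun r => κB * rmp ((r - s) / len))
      (κB * (bmp ((t - s) / len) * (1 / len))) t := fun t =>
    ((rmp_hasDerivAt _).comp t (hlin t)).const_mul κB
  have h2 : ∀ t, HasDerivAt (fun t => κB * (bmp ((t - s) / len) * (1 / len)))
      (κB * (deriv bmp ((t - s) / len) * (1 / len) * (1 / len))) t := fun t =>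
    (((timeB_bmp.hasDerivAt _).comp t (hlin t)).mul_const _).const_mul κB
  have h3 : ∀ t, HasDerivAt
      (fun t => b * (κB * rmp ((t - s) / len)) + 5 * β t - C / len ^ 2 * t)
      (b * (κB * (bmp ((t - s) / len) * (1 / len))) + 5 * deriv β t - C / len ^ 2 * 1) t := fun t =>
    (((h1 t).const_mul b).add ((Metric_hasDerivAt_β hT t).const_mul 5)).sub
      ((hasDerivAt_id t).const_mul _)
  obtain ⟨t, ht, h4⟩ := exists_hasDerivAt_eq_slope _ _ (show s < s + len by linarith)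
    (fun t _ => (h3 t).continuousAt.continuousWithinAt) (fun t _ => h3 t)
  have h5 : 0 < b * (κB * (bmp ((t - s) / len) * (1 / len))) + 5 * deriv β t
      - C / len ^ 2 * 1 := by
    rw [h4, add_sub_cancel_left, sub_self, zero_div, div_self hl0.ne',
      show rmp 1 = 1 from Real.smoothTransition.one, show rmp 0 = 0 from Real.smoothTransition.zero]
    refine div_pos ?_ hl0
    have a1 := hT' s ((le_max_left _ _).trans hs)
    have a2 := hT.β_ge (s + len)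
    have a3 : C / len ^ 2 * len ≤ b * κB / 2 := by
      rw [div_le_iff₀ (mul_pos hb hκ)] at hl
      rw [pow_two, div_mul_eq_mul_div, mul_div_mul_right _ _ hl0.ne', div_le_iff₀ hl0]
      linarith
    nlinarith
  obtain ⟨r, hr, rfl⟩ := hT.τ_surj t
  have hn : ‖(EuclideanSpace.single 0 r : E 3)‖ = r := by
    rw [PiLp.norm_single, Real.norm_of_nonneg hr.le]
  obtain ⟨g1, g2⟩ := NineLap_sec (ψ := ψ) hT hk hk' hc h1 hr (h2 _) (he _ (Ioo_subset_Icc_self ht))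
  refine ⟨_, _, by rw [hn]; exact ht.1.le, by rw [← norm_pos_iff, hn]; exact hr, g1, ?_⟩
  rw [g2]
  obtain ⟨b1, b2, -⟩ := hB ((τ r - s) / len)
  have k0 : 0 ≤ κB * rmp ((τ r - s) / len) := mul_nonneg hκ.le (Real.smoothTransition.nonneg _)
  have k1 : κB * rmp ((τ r - s) / len) ≤ 1 :=
    mul_le_one₀ hκ1 (Real.smoothTransition.nonneg _) (Real.smoothTransition.le_one _)
  have l0 : 0 ≤ κB * (bmp ((τ r - s) / len) * (1 / len)) :=
    mul_nonneg hκ.le (mul_nonneg (bmp_nonneg _) (by positivity))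
  have l1 : κB * (bmp ((τ r - s) / len) * (1 / len)) ≤ B * (1 / len) :=
    (mul_le_of_le_one_left (mul_nonneg (bmp_nonneg _) (by positivity)) hκ1).trans
      (mul_le_mul_of_nonneg_right ((le_abs_self _).trans b1) (by positivity))
  have m1 : |κB * (deriv bmp ((τ r - s) / len) * (1 / len) * (1 / len))|
      ≤ B * (1 / len) * (1 / len) := by
    rw [abs_mul, abs_mul, abs_mul, abs_of_pos hκ, abs_of_pos (show 0 < 1 / len by positivity)]
    refine (mul_le_of_le_one_left (by positivity) hκ1).trans ?_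
    gcongr
  have n0 : deriv β (τ r) ≤ 0 := hT.β_anti.deriv_nonpos
  have n1 := hT.β_ge (τ r)
  have e : C / len ^ 2 * 1 = 2 * (B * (1 / len) * (1 / len)) + (B * (1 / len)) ^ 2 := by
    rw [hC]
    field_simp
  rw [e] at h5
  generalize κB * rmp ((τ r - s) / len) = κ at *
  generalize κB * (bmp ((τ r - s) / len) * (1 / len)) = κ₁ at *
  generalize κB * (deriv bmp ((τ r - s) / len) * (1 / len) * (1 / len)) = κ₂ at *
  generalize B * (1 / len) * (1 / len) = M₂ at *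
  generalize B * (1 / len) = M₁ at *
  generalize deriv β (τ r) = β' at *
  generalize β (τ r) = β₀ at *
  have q0 : 2 + 2 * κ + κ ^ 2 ≤ 5 := by nlinarith
  have q1 : -β' * (2 + 2 * κ + κ ^ 2) ≤ -β' * 5 := mul_le_mul_of_nonneg_left q0 (by linarith)
  have q2 : b * κ₁ ≤ β₀ * (1 + κ) * κ₁ :=
    mul_le_mul_of_nonneg_right (by nlinarith) l0
  have q3 : -((1 + κ) * κ₂) ≤ 2 * M₂ := by
    have := neg_abs_le κ₂
    have := abs_nonneg κ₂
    nlinarith
  have q4 : κ₁ ^ 2 * (2 + 2 * κ + κ ^ 2) ≤ κ₁ ^ 2 * 5 := mul_le_mul_of_nonneg_left q0 (sq_nonneg _)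
  have q5 : κ₁ ^ 2 ≤ M₁ ^ 2 := pow_le_pow_left₀ l0 l1 2
  nlinarith [sq_nonneg κ₁]

end Crest.Agent.R202
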