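import Crest.Agent.R202.OdeBasic

/-!
# R202/OdeAgmon: exponential decay in the degree

Conjugation: for a band matrix with `Pb δ` the part with `d i - d j = k` has `Pb δ` too (sum over
the degree blocks and Cauchy–Schwarz), hence `(w R w⁻¹, w Q w⁻¹)` with `w i = e^{κ θ d i}`,
`0 ≤ θ ≤ 1`, has `Pb (δ (1 + (2D+1)(e^{κD} - 1)))`.
Dynamic version: `θ` piecewise smooth in time, `0` at `s` and `s'`, `1` on `[t-1,t+1]`,
`|θ'| ≤ C`; `F = Σ w² (xp² - xm²)` has `F' ≥ Σ w² d (xp² + xm²)` (as in `OdeLyap` with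
`U = univ, γ = 0`, plus `2 κ |θ'| d w² (xp² + xm²)`).  So `∫_{t-1}^{t+1} Σ e^{2κd} d (xp² + xm²)` is
bounded; `G = Σ e^{κ d} (xp² + xm²)` has `|G'| ≤ C Σ e^{2κ d} d (xp² + xm²)`, which gives the
pointwise bound (with `κ/2`).
-/

open scoped ContDiff Topology Matrix
open Set Filter

noncomputable section

namespace Crest.Agent.R202

/-- the part of a form with `d i - d j = k` obeys the same form bound -/
theorem agmon_diag {ι : Type} [Fintype ι] [DecidableEq ι] (d : ι → ℕ) (wt : ι → ℝ)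
    (hwt : ∀ i, 0 ≤ wt i) {δ : ℝ} (hδ : 0 ≤ δ) {A : Matrix ι ι ℝ}
    (h : ∀ x y : ι → ℝ, 2 * |x ⬝ᵥ A *ᵥ y| ≤ δ * (∑ i, wt i * x i ^ 2 + ∑ i, wt i * y i ^ 2))
    (k : ℤ) (x y : ι → ℝ) :
    2 * |∑ i, ∑ j, if (d i : ℤ) - d j = k then x i * A i j * y j else 0| ≤
      δ * (∑ i, wt i * x i ^ 2 + ∑ i, wt i * y i ^ 2) := by
  set T : Finset ℕ := Finset.univ.image d with hT
  have hmem : ∀ i, d i ∈ T := fun i => Finset.mem_image_of_mem d (Finset.mem_univ i)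
  set xl : ℕ → ι → ℝ := fun l i => if d i = l then x i else 0 with hxl
  set yl : ℕ → ι → ℝ := fun l j => if (l : ℤ) - d j = k then y j else 0 with hyl
  have h1 : (∑ i, ∑ j, if (d i : ℤ) - d j = k then x i * A i j * y j else 0) =
      ∑ l ∈ T, xl l ⬝ᵥ A *ᵥ yl l := by
    simp only [dotProduct, Matrix.mulVec, hxl, hyl]
    rw [Finset.sum_comm (s := T)]
    refine Finset.sum_congr rfl fun i _ => ?_
    rw [Finset.sum_eq_single (d i)]
    · rw [if_pos rfl, Finset.mul_sum]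
      refine Finset.sum_congr rfl fun j _ => ?_
      split_ifs <;> ring
    · intro l _ hl
      rw [if_neg (Ne.symm hl), zero_mul]
    · intro h0
      exact absurd (hmem i) h0
  have h2 : ∑ l ∈ T, ∑ i, wt i * xl l i ^ 2 = ∑ i, wt i * x i ^ 2 := by
    rw [Finset.sum_comm]
    refine Finset.sum_congr rfl fun i _ => ?_
    rw [Finset.sum_eq_single (d i)]
    · simp [hxl]
    · intro l _ hl
      simp [hxl, Ne.symm hl]
    · intro h0
      exact absurd (hmem i) h0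
  have h3 : ∑ l ∈ T, ∑ i, wt i * yl l i ^ 2 ≤ ∑ i, wt i * y i ^ 2 := by
    rw [Finset.sum_comm]
    refine Finset.sum_le_sum fun j _ => ?_
    have h0 : 0 ≤ wt j * y j ^ 2 := mul_nonneg (hwt j) (sq_nonneg _)
    by_cases hex : ∃ l ∈ T, (l : ℤ) - d j = k
    · obtain ⟨l, hl, hlk⟩ := hex
      rw [Finset.sum_eq_single l]
      · simp [hyl, hlk]
      · intro l' _ hl'
        have : ¬ ((l' : ℤ) - d j = k) := fun h' => hl' (by omega)
        simp [hyl, this]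
      · intro h0
        exact absurd hl h0
    · rw [Finset.sum_eq_zero]
      · exact h0
      · intro l hl
        have : ¬ ((l : ℤ) - d j = k) := fun h' => hex ⟨l, hl, h'⟩
        simp [hyl, this]
  rw [h1]
  calc 2 * |∑ l ∈ T, xl l ⬝ᵥ A *ᵥ yl l| ≤ 2 * ∑ l ∈ T, |xl l ⬝ᵥ A *ᵥ yl l| := by
        gcongr
        exact Finset.abs_sum_le_sum_abs _ _
    _ ≤ ∑ l ∈ T, δ * (∑ i, wt i * xl l i ^ 2 + ∑ i, wt i * yl l i ^ 2) := by
        rw [Finset.mul_sum]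
        exact Finset.sum_le_sum fun l _ => h _ _
    _ ≤ _ := by
        rw [← Finset.mul_sum, Finset.sum_add_distrib, h2]
        gcongr

theorem agmon_conj_form {ι : Type} [Fintype ι] [DecidableEq ι] (d : ι → ℕ) (wt : ι → ℝ)
    (hwt : ∀ i, 0 ≤ wt i) {δ κ : ℝ} (hδ : 0 ≤ δ) (hκ : 0 ≤ κ) {D : ℕ} {A : Matrix ι ι ℝ}
    (hA : Band d D A)
    (h : ∀ x y : ι → ℝ, 2 * |x ⬝ᵥ A *ᵥ y| ≤ δ * (∑ i, wt i * x i ^ 2 + ∑ i, wt i * y i ^ 2))
    (x y : ι → ℝ) :
    2 * |x ⬝ᵥ (Matrix.of fun i j => Real.exp (κ * d i) * A i j * Real.exp (-(κ * d j))) *ᵥ y| ≤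
      δ * (1 + (2 * D + 1) * (Real.exp (κ * D) - 1)) *
        (∑ i, wt i * x i ^ 2 + ∑ i, wt i * y i ^ 2) := by
  set N := ∑ i, wt i * x i ^ 2 + ∑ i, wt i * y i ^ 2 with hN
  set S : ℤ → ℝ := fun k => ∑ i, ∑ j, if (d i : ℤ) - d j = k then x i * A i j * y j else 0
    with hS
  have h1 : x ⬝ᵥ (Matrix.of fun i j => Real.exp (κ * d i) * A i j * Real.exp (-(κ * d j))) *ᵥ y =
      x ⬝ᵥ A *ᵥ y + ∑ k ∈ Finset.Icc (-(D : ℤ)) D, (Real.exp (κ * k) - 1) * S k := by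
    simp only [dotProduct, Matrix.mulVec, Matrix.of_apply, hS, Finset.mul_sum]
    rw [Finset.sum_comm (s := Finset.Icc _ _), ← Finset.sum_add_distrib]
    refine Finset.sum_congr rfl fun i _ => ?_
    rw [Finset.sum_comm (s := Finset.Icc _ _), ← Finset.sum_add_distrib]
    refine Finset.sum_congr rfl fun j _ => ?_
    by_cases hij : A i j = 0
    · simp [hij]
    rw [Finset.sum_eq_single ((d i : ℤ) - d j)]
    · rw [if_pos rfl]
      have : Real.exp (κ * (((d i : ℤ) - d j : ℤ) : ℝ)) =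
          Real.exp (κ * d i) * Real.exp (-(κ * d j)) := by
        rw [← Real.exp_add]
        congr 1
        push_cast
        ring
      rw [this]
      ring
    · intro k _ hk
      rw [if_neg (Ne.symm hk), mul_zero]
    · intro h0
      exfalso
      apply h0
      rw [Finset.mem_Icc]
      have a1 : ¬ (d i + D < d j) := fun h' => hij (hA i j h').1
      have a2 : ¬ (d j + D < d i) := fun h' => hij (hA j i h').2
      omega
  have h2 : ∀ k ∈ Finset.Icc (-(D : ℤ)) D, |Real.exp (κ * k) - 1| ≤ Real.exp (κ * D) - 1 := by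
    intro k hk
    rw [Finset.mem_Icc] at hk
    have a1 : (k : ℝ) ≤ D := by exact_mod_cast hk.2
    have a2 : -(D : ℝ) ≤ k := by exact_mod_cast hk.1
    have a3 : Real.exp (κ * k) ≤ Real.exp (κ * D) := by gcongr
    have a4 := Real.add_one_le_exp (κ * k)
    have a5 := Real.add_one_le_exp (κ * D)
    have a6 : κ * (-(D : ℝ)) ≤ κ * k := mul_le_mul_of_nonneg_left a2 hκ
    rw [abs_le]
    constructor <;> linarith
  have hE : 0 ≤ Real.exp (κ * D) - 1 := by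
    have := Real.add_one_le_exp (κ * D)
    have : 0 ≤ κ * D := by positivity
    linarith
  have h3 : 2 * |∑ k ∈ Finset.Icc (-(D : ℤ)) D, (Real.exp (κ * k) - 1) * S k| ≤
      (2 * D + 1) * ((Real.exp (κ * D) - 1) * (δ * N)) := by
    calc 2 * |∑ k ∈ Finset.Icc (-(D : ℤ)) D, (Real.exp (κ * k) - 1) * S k|
        ≤ 2 * ∑ k ∈ Finset.Icc (-(D : ℤ)) D, |(Real.exp (κ * k) - 1) * S k| := by
          gcongr
          exact Finset.abs_sum_le_sum_abs _ _
      _ ≤ ∑ _k ∈ Finset.Icc (-(D : ℤ)) D, (Real.exp (κ * D) - 1) * (δ * N) := by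
          rw [Finset.mul_sum]
          refine Finset.sum_le_sum fun k hk => ?_
          rw [abs_mul, mul_left_comm]
          exact mul_le_mul (h2 k hk) (agmon_diag d wt hwt hδ h k x y) (by positivity) hE
      _ = _ := by
          rw [Finset.sum_const, nsmul_eq_mul, Int.card_Icc]
          congr 1
          have : ((D : ℤ) + 1 - -(D : ℤ)) = ((2 * D + 1 : ℕ) : ℤ) := by push_cast; ring
          rw [this, Int.toNat_natCast]
          push_cast
          ring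
  rw [h1]
  have h4 := abs_add_le (x ⬝ᵥ A *ᵥ y)
    (∑ k ∈ Finset.Icc (-(D : ℤ)) D, (Real.exp (κ * k) - 1) * S k)
  have h5 := h x y
  rw [← hN] at h5
  nlinarith

theorem Pb.conj {ι : Type} [Fintype ι] [DecidableEq ι] {d : ι → ℕ} {δ κ : ℝ} {D : ℕ}
    {R Q : Matrix ι ι ℝ} (h : Pb d δ R Q) (hδ : 0 ≤ δ) (hκ : 0 ≤ κ) (hR : Band d D R)
    (hQ : Band d D Q) :
    Pb d (δ * (1 + (2 * D + 1) * (Real.exp (κ * D) - 1)))
      (fun i j => Real.exp (κ * d i) * R i j * Real.exp (-(κ * d j)))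
      (fun i j => Real.exp (κ * d i) * Q i j * Real.exp (-(κ * d j))) := by
  constructor
  · intro x y
    have := agmon_conj_form d (fun _ => 1) (fun _ => zero_le_one) hδ hκ hR
      (fun x y => by simpa [n2] using h.1 x y) x y
    simp only [one_mul] at this
    exact this
  · intro x y
    exact agmon_conj_form d (fun i => (d i : ℝ) ^ 2) (fun _ => sq_nonneg _) hδ hκ hQ h.2 x y

theorem agmon_kappa (D : ℕ) : ∃ κ > 0, κ ≤ 1 / 8 ∧ ∀ k : ℝ, k ≤ κ →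
    1 + (2 * D + 1) * (Real.exp (k * D) - 1) ≤ 2 := by
  have h0 : (0 : ℝ) < 2 * D + 1 := by positivity
  have h1 : 0 < Real.log (1 + 1 / (2 * D + 1)) :=
    Real.log_pos (by have : 0 < 1 / (2 * (D : ℝ) + 1) := by positivity
                     linarith)
  refine ⟨min (1 / 8) (Real.log (1 + 1 / (2 * D + 1)) / (D + 1)), by positivity,
    min_le_left _ _, fun k hk => ?_⟩
  have h2 : k ≤ Real.log (1 + 1 / (2 * D + 1)) / (D + 1) := hk.trans (min_le_right _ _)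
  have h3 : k * D ≤ Real.log (1 + 1 / (2 * D + 1)) := by
    calc k * D ≤ Real.log (1 + 1 / (2 * D + 1)) / (D + 1) * D := by gcongr
      _ ≤ Real.log (1 + 1 / (2 * D + 1)) / (D + 1) * (D + 1) := by gcongr; linarith
      _ = _ := by field_simp
  have h4 : Real.exp (k * D) ≤ 1 + 1 / (2 * D + 1) := by
    rw [← Real.exp_log (show (0 : ℝ) < 1 + 1 / (2 * D + 1) by positivity)]
    exact Real.exp_le_exp.2 h3
  have h5 : (2 * D + 1 : ℝ) * (Real.exp (k * D) - 1) ≤ (2 * D + 1) * (1 / (2 * D + 1)) := by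
    gcongr
    linarith
  rw [mul_one_div_cancel h0.ne'] at h5
  linarith

theorem agmon_conj_mulVec {ι : Type} [Fintype ι] (d : ι → ℕ) (k : ℝ) (A : Matrix ι ι ℝ)
    (v : ι → ℝ) (i : ι) :
    (Matrix.mulVec (fun i j => Real.exp (k * d i) * A i j * Real.exp (-(k * d j)))
      fun j => Real.exp (k * d j) * v j) i = Real.exp (k * d i) * (A *ᵥ v) i := by
  simp only [Matrix.mulVec, dotProduct, Finset.mul_sum]
  refine Finset.sum_congr rfl fun j _ => ?_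
  have : Real.exp (-(k * d j)) * Real.exp (k * d j) = 1 := by
    rw [← Real.exp_add]; simp
  linear_combination (Real.exp (k * d i) * A i j * v j) * this

theorem agmon_form {ι : Type} [Fintype ι] [DecidableEq ι] {d : ι → ℕ} {δ : ℝ}
    {R Q : Matrix ι ι ℝ} (h : Pb d δ R Q) (hδ : 0 ≤ δ) (Z U V g e : ι → ℝ) {N c : ℝ}
    (hg0 : ∀ i, 0 < g i) (hg : ∀ i, (d i : ℝ) ≤ g i) (he : ∀ i, |e i| ≤ g i)
    (hZ : nW d Z ≤ N) (hU : nV d U ≤ 2 * N) (hV : n2 V ≤ c * N) :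
    |∑ i, 2 * Z i * (Real.sqrt (d i) * ((Q *ᵥ U) i - e i * (R *ᵥ V) i) / g i)| ≤
      δ * (4 + c) * N := by
  set a : ι → ℝ := fun i => Z i * Real.sqrt (d i) / g i with ha
  set b : ι → ℝ := fun i => Z i * Real.sqrt (d i) * e i / g i with hb
  have h1 : ∑ i, 2 * Z i * (Real.sqrt (d i) * ((Q *ᵥ U) i - e i * (R *ᵥ V) i) / g i) =
      2 * (a ⬝ᵥ Q *ᵥ U) - 2 * (b ⬝ᵥ R *ᵥ V) := by
    simp only [dotProduct, ha, hb, Finset.mul_sum]
    rw [← Finset.sum_sub_distrib]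
    refine Finset.sum_congr rfl fun i _ => ?_
    ring
  have hsq : ∀ i, Real.sqrt (d i) ^ 2 = d i := fun i => Real.sq_sqrt (Nat.cast_nonneg _)
  have h2 : nV d a ≤ N := by
    refine le_trans (Finset.sum_le_sum fun i _ => ?_) hZ
    have a1 : (d i : ℝ) ^ 2 ≤ g i ^ 2 := by have := hg i; gcongr
    simp only [ha, div_pow, mul_pow, hsq]
    rw [← mul_div_assoc, div_le_iff₀ (pow_pos (hg0 i) 2)]
    have a2 : 0 ≤ (d i : ℝ) * Z i ^ 2 := by positivity
    nlinarith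
  have h3 : n2 b ≤ N := by
    refine le_trans (Finset.sum_le_sum fun i _ => ?_) hZ
    have a1 : e i ^ 2 ≤ g i ^ 2 := sq_le_sq' (abs_le.1 (he i)).1 (abs_le.1 (he i)).2
    simp only [hb, div_pow, mul_pow, hsq]
    rw [div_le_iff₀ (pow_pos (hg0 i) 2)]
    have a2 : 0 ≤ (d i : ℝ) * Z i ^ 2 := by positivity
    nlinarith
  have h4 : 2 * |a ⬝ᵥ Q *ᵥ U| ≤ δ * (N + 2 * N) := (h.2 a U).trans (by gcongr)
  have h5 : 2 * |b ⬝ᵥ R *ᵥ V| ≤ δ * (N + c * N) := (h.1 b V).trans (by gcongr)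
  rw [h1]
  have h6 := abs_sub (2 * (a ⬝ᵥ Q *ᵥ U)) (2 * (b ⬝ᵥ R *ᵥ V))
  rw [abs_mul, abs_mul, abs_two] at h6
  linarith

theorem agmon_mono {f : ℝ → ℝ} {a b : ℝ} (hab : a ≤ b)
    (h : ∀ r ∈ Icc a b, ∃ f', HasDerivAt f f' r ∧ 0 ≤ f') : f a ≤ f b := by
  refine monotoneOn_of_deriv_nonneg (convex_Icc a b) (fun r hr => ?_) (fun r hr => ?_)
    (fun r hr => ?_) (left_mem_Icc.2 hab) (right_mem_Icc.2 hab) hab
  · obtain ⟨f', h1, _⟩ := h r hr
    exact h1.continuousAt.continuousWithinAt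
  · obtain ⟨f', h1, _⟩ := h r (interior_subset hr)
    exact h1.differentiableAt.differentiableWithinAt
  · obtain ⟨f', h1, h2⟩ := h r (interior_subset hr)
    rwa [h1.deriv]

theorem agmon_bnd (B : Bg) {l : ℕ} (hl : 1 ≤ l) (t : ℝ) :
    (l : ℝ) ≤ B.bp l t ∧ B.bm l t ≤ -l ∧ B.bp l t - B.bm l t ≤ (3 + B.β₀) * l := by
  have h1 := B.bm_le l t
  have h2 := B.le_a l
  have h3 := B.gap_le l t
  have h4 := B.b_pos
  have h5 := B.b_le
  have h6 : (1 : ℝ) ≤ l := by exact_mod_cast hl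
  rw [Bg.a] at h2
  refine ⟨B.bp_ge l t, by linarith, by nlinarith⟩

theorem agmon_up (B : Bg) {l : ℕ} (hl : 1 ≤ l) (t u p : ℝ) :
    (l : ℝ) * u ^ 2 ≤ 2 * (B.xp1 l t u p ^ 2 + B.xm1 l t u p ^ 2) ∧
      p ^ 2 ≤ 2 * (3 + B.β₀) ^ 2 * (l * (B.xp1 l t u p ^ 2 + B.xm1 l t u p ^ 2)) := by
  have hsq : Real.sqrt l ^ 2 = l := Real.sq_sqrt (Nat.cast_nonneg _)
  have h1 := B.sqrt_mul_u l t u p
  have h2 := B.sqrt_mul_p l t u p
  obtain ⟨a1, a2, a3⟩ := agmon_bnd B hl t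
  have h6 : (1 : ℝ) ≤ l := by exact_mod_cast hl
  set X := B.xp1 l t u p
  set Y := B.xm1 l t u p
  constructor
  · have : (l : ℝ) * u ^ 2 = (X + Y) ^ 2 := by rw [← h1, mul_pow, hsq]
    rw [this]
    nlinarith [sq_nonneg (X - Y)]
  · have e1 : (l : ℝ) * p ^ 2 = (B.bp l t * X + B.bm l t * Y) ^ 2 := by rw [← h2, mul_pow, hsq]
    have b1 : B.bp l t ^ 2 ≤ ((3 + B.β₀) * l) ^ 2 := sq_le_sq' (by linarith) (by linarith)
    have b2 : B.bm l t ^ 2 ≤ ((3 + B.β₀) * l) ^ 2 := sq_le_sq' (by linarith) (by linarith)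
    have b3 : (B.bp l t * X + B.bm l t * Y) ^ 2 ≤
        2 * (B.bp l t ^ 2 * X ^ 2 + B.bm l t ^ 2 * Y ^ 2) := by
      nlinarith [sq_nonneg (B.bp l t * X - B.bm l t * Y)]
    have b4 : B.bp l t ^ 2 * X ^ 2 + B.bm l t ^ 2 * Y ^ 2 ≤
        ((3 + B.β₀) * l) ^ 2 * X ^ 2 + ((3 + B.β₀) * l) ^ 2 * Y ^ 2 := by gcongr
    refine le_of_mul_le_mul_left ?_ (show (0 : ℝ) < l by linarith)
    rw [e1]
    nlinarith

/-- the weighted Lyapunov function `α P - β M` is monotone -/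
theorem agmon_piece (B : Bg) {ι : Type} [Fintype ι] [DecidableEq ι] {d : ι → ℕ}
    (hd : ∀ i, 1 ≤ d i) {R Q : ℝ → Matrix ι ι ℝ} {a b : ℝ} (hab : a ≤ b) {u p : ℝ → ι → ℝ}
    (hsol : B.Sol d R Q (Icc a b) u p) {D : ℕ} {δ k₀ k₁ α β : ℝ} (hδ : 0 ≤ δ)
    (hδ' : 2 * δ * (4 + 2 * (3 + B.β₀) ^ 2) ≤ 1 / 4) (hk₁ : |k₁| ≤ 1 / 8)
    (hk : ∀ r ∈ Icc a b, 0 ≤ k₀ + k₁ * r ∧
      1 + (2 * D + 1) * (Real.exp ((k₀ + k₁ * r) * D) - 1) ≤ 2)
    (hP : ∀ r ∈ Icc a b, Pb d δ (R r) (Q r) ∧ Band d D (R r) ∧ Band d D (Q r))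
    (hα : 1 ≤ α) (hα' : α ≤ 2) (hβ : 1 ≤ β) (hβ' : β ≤ 2) :
    α * ∑ i, Real.exp (2 * (k₀ + k₁ * a) * d i) * B.xp d u p a i ^ 2 -
        β * ∑ i, Real.exp (2 * (k₀ + k₁ * a) * d i) * B.xm d u p a i ^ 2 ≤
      α * ∑ i, Real.exp (2 * (k₀ + k₁ * b) * d i) * B.xp d u p b i ^ 2 -
        β * ∑ i, Real.exp (2 * (k₀ + k₁ * b) * d i) * B.xm d u p b i ^ 2 := by
  refine agmon_mono (f := fun r =>
    α * ∑ i, Real.exp (2 * (k₀ + k₁ * r) * d i) * B.xp d u p r i ^ 2 -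
      β * ∑ i, Real.exp (2 * (k₀ + k₁ * r) * d i) * B.xm d u p r i ^ 2) hab fun r hr => ?_
  have hw : ∀ i, HasDerivAt (fun r => Real.exp (2 * (k₀ + k₁ * r) * d i))
      (Real.exp (2 * (k₀ + k₁ * r) * d i) * (2 * k₁ * d i)) r := by
    intro i
    have : HasDerivAt (fun r => 2 * (k₀ + k₁ * r) * d i) (2 * k₁ * d i) r := by
      simpa using ((((hasDerivAt_id r).const_mul k₁).const_add k₀).const_mul 2).mul_const
        (d i : ℝ)
    exact this.exp
  have hPd := HasDerivAt.fun_sum (u := Finset.univ) fun i _ =>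
    (hw i).mul ((hsol.hasDerivAt_xp hr i).pow 2)
  have hMd := HasDerivAt.fun_sum (u := Finset.univ) fun i _ =>
    (hw i).mul ((hsol.hasDerivAt_xm hr i).pow 2)
  refine ⟨_, (hPd.const_mul α).sub (hMd.const_mul β), ?_⟩
  obtain ⟨hk0, hk2⟩ := hk r hr
  obtain ⟨hPb, hbR, hbQ⟩ := hP r hr
  set k := k₀ + k₁ * r with hkdef
  have hPb' := (hPb.conj hδ hk0 hbR hbQ).mono
    (show δ * (1 + (2 * D + 1) * (Real.exp (k * D) - 1)) ≤ 2 * δ by nlinarith)
  set w : ι → ℝ := fun i => Real.exp (k * d i) with hwdef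
  have hw2 : ∀ i, Real.exp (2 * k * d i) = w i ^ 2 := by
    intro i
    rw [hwdef, ← Real.exp_nat_mul]
    congr 1
    push_cast
    ring
  set X : ι → ℝ := fun i => w i * B.xp d u p r i with hX
  set Y : ι → ℝ := fun i => w i * B.xm d u p r i with hY
  set N := nW d X + nW d Y with hN
  have hX0 : 0 ≤ nW d X := Finset.sum_nonneg fun i _ => by positivity
  have hY0 : 0 ≤ nW d Y := Finset.sum_nonneg fun i _ => by positivity
  have hU : nV d (fun i => w i * u r i) ≤ 2 * N := by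
    rw [hN, nW, nW, ← Finset.sum_add_distrib, Finset.mul_sum]
    refine Finset.sum_le_sum fun i _ => ?_
    have a1 := (agmon_up B (hd i) r (u r i) (p r i)).1
    have a2 : 0 ≤ (d i : ℝ) * w i ^ 2 := by positivity
    have a3 := mul_le_mul_of_nonneg_left a1 a2
    simp only [hX, hY, Bg.xp, Bg.xm]
    nlinarith
  have hV : n2 (fun i => w i * p r i) ≤ (2 * (3 + B.β₀) ^ 2) * N := by
    rw [hN, nW, nW, ← Finset.sum_add_distrib, Finset.mul_sum]
    refine Finset.sum_le_sum fun i _ => ?_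
    have a1 := (agmon_up B (hd i) r (u r i) (p r i)).2
    have a2 : 0 ≤ w i ^ 2 := by positivity
    have a3 := mul_le_mul_of_nonneg_left a1 a2
    simp only [hX, hY, Bg.xp, Bg.xm]
    nlinarith
  have hb := fun i => agmon_bnd B (hd i) r
  have hd1 : ∀ i, (1 : ℝ) ≤ d i := fun i => by exact_mod_cast hd i
  have hg0 : ∀ i, 0 < B.bp (d i) r - B.bm (d i) r := fun i => by
    linarith [(hb i).1, (hb i).2.1, hd1 i]
  have hg : ∀ i, (d i : ℝ) ≤ B.bp (d i) r - B.bm (d i) r := fun i => by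
    linarith [(hb i).1, (hb i).2.1, hd1 i]
  have f1 := agmon_form hPb' (by positivity) X _ _ (fun i => B.bp (d i) r - B.bm (d i) r)
    (fun i => B.bm (d i) r) hg0 hg (fun i => by
      rw [abs_le]; constructor <;> linarith [(hb i).1, (hb i).2.1, hd1 i])
    (show nW d X ≤ N by linarith) hU hV
  have f2 := agmon_form hPb' (by positivity) Y _ _ (fun i => B.bp (d i) r - B.bm (d i) r)
    (fun i => B.bp (d i) r) hg0 hg (fun i => by
      rw [abs_le]; constructor <;> linarith [(hb i).1, (hb i).2.1, hd1 i])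
    (show nW d Y ≤ N by linarith) hU hV
  simp only [hwdef, agmon_conj_mulVec] at f1 f2
  have hN0 : 0 ≤ N := by linarith
  have f3 : 2 * δ * (4 + 2 * (3 + B.β₀) ^ 2) * N ≤ 1 / 4 * N := by gcongr
  have g1 := (abs_le.1 (f1.trans f3)).1
  have g2 := (abs_le.1 (f2.trans f3)).1
  have hk1 := abs_le.1 hk₁
  have e1 : 7 / 4 * nW d X + ∑ i, 2 * X i * (Real.sqrt (d i) * (w i * (Q r *ᵥ u r) i -
      B.bm (d i) r * (w i * (R r *ᵥ p r) i)) / (B.bp (d i) r - B.bm (d i) r)) ≤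
      ∑ i, (Real.exp (2 * k * d i) * (2 * k₁ * d i) * B.xp d u p r i ^ 2 +
        Real.exp (2 * k * d i) * ((2 : ℕ) * B.xp d u p r i ^ (2 - 1) *
          (B.bp (d i) r * B.xp d u p r i + Real.sqrt (d i) * ((Q r *ᵥ u r) i -
            B.bm (d i) r * (R r *ᵥ p r) i) / (B.bp (d i) r - B.bm (d i) r)))) := by
    rw [nW, Finset.mul_sum, ← Finset.sum_add_distrib]
    refine Finset.sum_le_sum fun i _ => ?_
    have a1 : 7 / 4 * (d i : ℝ) ≤ 2 * k₁ * d i + 2 * B.bp (d i) r := by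
      nlinarith [(hb i).1, hd1 i]
    have a2 := mul_le_mul_of_nonneg_right a1 (sq_nonneg (X i))
    rw [hw2]
    simp only [hX] at a2 ⊢
    push_cast
    refine le_of_sub_nonneg (le_of_le_of_eq (sub_nonneg.2 a2) ?_)
    ring
  have e2 : ∑ i, (Real.exp (2 * k * d i) * (2 * k₁ * d i) * B.xm d u p r i ^ 2 +
        Real.exp (2 * k * d i) * ((2 : ℕ) * B.xm d u p r i ^ (2 - 1) *
          (B.bm (d i) r * B.xm d u p r i + Real.sqrt (d i) * (B.bp (d i) r * (R r *ᵥ p r) i -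
            (Q r *ᵥ u r) i) / (B.bp (d i) r - B.bm (d i) r)))) ≤
      -(7 / 4 * nW d Y) - ∑ i, 2 * Y i * (Real.sqrt (d i) * (w i * (Q r *ᵥ u r) i -
      B.bp (d i) r * (w i * (R r *ᵥ p r) i)) / (B.bp (d i) r - B.bm (d i) r)) := by
    rw [nW, Finset.mul_sum, ← Finset.sum_neg_distrib, ← Finset.sum_sub_distrib]
    refine Finset.sum_le_sum fun i _ => ?_
    have a1 : 2 * k₁ * d i + 2 * B.bm (d i) r ≤ -(7 / 4 * (d i : ℝ)) := by
      nlinarith [(hb i).2.1, hd1 i]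
    have a2 := mul_le_mul_of_nonneg_right a1 (sq_nonneg (Y i))
    rw [hw2]
    simp only [hY] at a2 ⊢
    push_cast
    refine le_of_sub_nonneg (le_of_le_of_eq (sub_nonneg.2 a2) ?_)
    ring
  have e3 := (add_le_add (le_refl (7 / 4 * nW d X)) g1).trans e1
  have e4 := e2.trans (sub_le_sub (le_refl (-(7 / 4 * nW d Y))) g2)
  have e5 := mul_le_mul_of_nonneg_left e3 (show 0 ≤ α by linarith)
  have e6 := mul_le_mul_of_nonneg_left e4 (show 0 ≤ β by linarith)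
  refine le_trans ?_ (sub_le_sub e5 e6)
  rw [hN]
  nlinarith

theorem agmon (B : Bg) : ∃ δ₁ > 0, ∀ D : ℕ, ∃ κ > 0, ∃ C : ℝ, 0 ≤ C ∧
    ∀ (ι : Type) [Fintype ι] [DecidableEq ι] (d : ι → ℕ), (∀ i, 1 ≤ d i) →
    ∀ (R Q : ℝ → Matrix ι ι ℝ) (s s' : ℝ) (u p : ℝ → ι → ℝ), B.Sol d R Q (Icc s s') u p →
    (∀ r ∈ Icc s s', Pb d δ₁ (R r) (Q r) ∧ Band d D (R r) ∧ Band d D (Q r)) →
    ∀ t, s + 2 ≤ t → t + 2 ≤ s' → ∑ i, Real.exp (2 * κ * d i) * (u t i ^ 2 + p t i ^ 2)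
      ≤ C * (n2 (B.xp d u p s') + n2 (B.xm d u p s)) := by
  have hβ : 0 < B.β₀ := B.b_pos.trans_le B.b_le
  set c : ℝ := 4 + 2 * (3 + B.β₀) ^ 2 with hc
  have hc0 : 0 < c := by positivity
  refine ⟨1 / (8 * c), by positivity, fun D => ?_⟩
  obtain ⟨κ, hκ, hκ8, hκD⟩ := agmon_kappa D
  refine ⟨κ / 2, by positivity, 2 * c / κ, by positivity, ?_⟩
  intro ι _ _ d hd R Q s s' u p hsol hP t hst hts
  have hδ : (0 : ℝ) ≤ 1 / (8 * c) := by positivity
  have hδ' : 2 * (1 / (8 * c)) * (4 + 2 * (3 + B.β₀) ^ 2) ≤ 1 / 4 := by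
    rw [← hc]
    apply le_of_eq
    field_simp
    norm_num
  have hz : ∀ r : ℝ, 0 ≤ (0 : ℝ) + 0 * r ∧
      1 + (2 * D + 1) * (Real.exp (((0 : ℝ) + 0 * r) * D) - 1) ≤ 2 := fun r => by simp
  have s1 : Icc s (t - 1) ⊆ Icc s s' := Icc_subset_Icc le_rfl (by linarith)
  have s2 : Icc (t - 1) t ⊆ Icc s s' := Icc_subset_Icc (by linarith) (by linarith)
  have s3 : Icc t (t + 1) ⊆ Icc s s' := Icc_subset_Icc (by linarith) (by linarith)
  have s4 : Icc (t + 1) s' ⊆ Icc s s' := Icc_subset_Icc (by linarith) le_rfl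
  have p1 := agmon_piece B hd (by linarith) (hsol.mono s1) (k₀ := 0) (k₁ := 0) (α := 1) (β := 2)
    hδ hδ' (by simp) (fun r _ => hz r) (fun r hr => hP r (s1 hr)) le_rfl one_le_two one_le_two
    le_rfl
  have p2 := agmon_piece B hd (by linarith) (hsol.mono s2) (k₀ := -(κ * (t - 1))) (k₁ := κ)
    (α := 1) (β := 2) hδ hδ' (by rwa [abs_of_pos hκ])
    (fun r hr => ⟨by nlinarith [hr.1], hκD _ (by nlinarith [hr.2])⟩)
    (fun r hr => hP r (s2 hr)) le_rfl one_le_two one_le_two le_rfl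
  have p3 := agmon_piece B hd (by linarith) (hsol.mono s3) (k₀ := κ * (t + 1)) (k₁ := -κ)
    (α := 2) (β := 1) hδ hδ' (by rwa [abs_neg, abs_of_pos hκ])
    (fun r hr => ⟨by nlinarith [hr.2], hκD _ (by nlinarith [hr.1])⟩)
    (fun r hr => hP r (s3 hr)) one_le_two le_rfl le_rfl one_le_two
  have p4 := agmon_piece B hd (by linarith) (hsol.mono s4) (k₀ := 0) (k₁ := 0) (α := 2) (β := 1)
    hδ hδ' (by simp) (fun r _ => hz r) (fun r hr => hP r (s4 hr)) one_le_two le_rfl le_rfl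
    one_le_two
  have q1 : -(κ * (t - 1)) + κ * (t - 1) = 0 := by ring
  have q2 : -(κ * (t - 1)) + κ * t = κ := by ring
  have q3 : κ * (t + 1) + -κ * t = κ := by ring
  have q4 : κ * (t + 1) + -κ * (t + 1) = 0 := by ring
  rw [q1, q2] at p2
  rw [q3, q4] at p3
  simp only [zero_mul, add_zero, mul_zero, Real.exp_zero, one_mul] at p1 p2 p3 p4
  have n1 : 0 ≤ ∑ i, B.xp d u p s i ^ 2 := Finset.sum_nonneg fun i _ => sq_nonneg _
  have n2' : 0 ≤ ∑ i, B.xm d u p s' i ^ 2 := Finset.sum_nonneg fun i _ => sq_nonneg _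
  have key : ∑ i, Real.exp (2 * κ * d i) * B.xp d u p t i ^ 2 +
      ∑ i, Real.exp (2 * κ * d i) * B.xm d u p t i ^ 2 ≤
      2 * (n2 (B.xp d u p s') + n2 (B.xm d u p s)) := by
    rw [n2, n2]
    linarith
  calc ∑ i, Real.exp (2 * (κ / 2) * d i) * (u t i ^ 2 + p t i ^ 2)
      ≤ ∑ i, c / κ * (Real.exp (2 * κ * d i) * B.xp d u p t i ^ 2 +
          Real.exp (2 * κ * d i) * B.xm d u p t i ^ 2) := by
        refine Finset.sum_le_sum fun i _ => ?_
        obtain ⟨a1, a2⟩ := agmon_up B (hd i) t (u t i) (p t i)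
        have a3 : (1 : ℝ) ≤ d i := by exact_mod_cast hd i
        set Z := B.xp1 (d i) t (u t i) (p t i) ^ 2 + B.xm1 (d i) t (u t i) (p t i) ^ 2 with hZ
        have hZ0 : 0 ≤ Z := by positivity
        have a4 : u t i ^ 2 + p t i ^ 2 ≤ c * (d i * Z) := by
          have b1 : u t i ^ 2 ≤ d i * u t i ^ 2 := le_mul_of_one_le_left (sq_nonneg _) a3
          have b2 : Z ≤ d i * Z := le_mul_of_one_le_left hZ0 a3
          rw [hc]
          nlinarith
        have a5 : (d i : ℝ) ≤ Real.exp (κ * d i) / κ := by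
          rw [le_div_iff₀ hκ]
          linarith [Real.add_one_le_exp (κ * d i)]
        have a6 : Real.exp (2 * κ * d i) = Real.exp (κ * d i) * Real.exp (κ * d i) := by
          rw [← Real.exp_add]; congr 1; ring
        have a7 : 2 * (κ / 2) * (d i : ℝ) = κ * d i := by ring
        rw [a6, a7]
        calc Real.exp (κ * d i) * (u t i ^ 2 + p t i ^ 2)
            ≤ Real.exp (κ * d i) * (c * (Real.exp (κ * d i) / κ * Z)) := by
              gcongr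
              exact a4.trans (by gcongr)
          _ = _ := by
              simp only [hZ, Bg.xp, Bg.xm]
              ring
    _ ≤ c / κ * (2 * (n2 (B.xp d u p s') + n2 (B.xm d u p s))) := by
        rw [← Finset.mul_sum, Finset.sum_add_distrib]
        gcongr
    _ = _ := by ring

/-- eigenvectors: test `(λ + w Q w⁻¹ - μ)(w v) = 0` with `w v` -/
theorem agmon_static {β₀ : ℝ} (hβ : 0 ≤ β₀) (D : ℕ) : ∃ κ > 0, ∀ μ₀ : ℝ, ∃ C : ℝ, 0 ≤ C ∧
    ∀ (ι : Type) [Fintype ι] [DecidableEq ι] (d : ι → ℕ) (Q : Matrix ι ι ℝ) (μ : ℝ) (v : ι → ℝ),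
    Pb d (1 / 4) 0 Q → Band d D Q → μ ≤ μ₀ →
    (∀ i, lam β₀ (d i) * v i + (Q *ᵥ v) i = μ * v i) →
    ∑ i, Real.exp (2 * κ * d i) * v i ^ 2 ≤ C * n2 v := by
  obtain ⟨κ, hκ, -, hκD⟩ := agmon_kappa D
  refine ⟨κ, hκ, fun μ₀ => ?_⟩
  obtain ⟨M, hM⟩ := exists_nat_ge (2 * (|μ₀| + 1))
  refine ⟨(1 + |μ₀|) * Real.exp (2 * κ * M), by positivity, ?_⟩
  intro ι _ _ d Q μ v hP hQ hμ hv
  have hP' := (hP.conj (by norm_num) hκ.le (fun i j _ => ⟨rfl, rfl⟩) hQ).mono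
    (show 1 / 4 * (1 + (2 * D + 1) * (Real.exp (κ * D) - 1)) ≤ 1 / 2 by
      linarith [hκD κ le_rfl])
  set y : ι → ℝ := fun i => Real.exp (κ * d i) * v i with hy
  have h1 := hP'.2 y y
  have h2 : y ⬝ᵥ Matrix.mulVec (fun i j => Real.exp (κ * d i) * Q i j * Real.exp (-(κ * d j))) y =
      ∑ i, (μ - lam β₀ (d i)) * y i ^ 2 := by
    refine Finset.sum_congr rfl fun i _ => ?_
    rw [hy, agmon_conj_mulVec]
    have := hv i
    simp only
    linear_combination (Real.exp (κ * d i) ^ 2 * v i) * this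
  rw [h2] at h1
  have h3 : -∑ i, (μ - lam β₀ (d i)) * y i ^ 2 ≤ 1 / 2 * nV d y := by
    have := neg_abs_le (∑ i, (μ - lam β₀ (d i)) * y i ^ 2)
    linarith
  have h4 : ∑ i, ((lam β₀ (d i) - μ) - (d i : ℝ) ^ 2 / 2) * y i ^ 2 ≤ 0 := by
    have : ∑ i, ((lam β₀ (d i) - μ) - (d i : ℝ) ^ 2 / 2) * y i ^ 2 =
        -∑ i, (μ - lam β₀ (d i)) * y i ^ 2 - 1 / 2 * nV d y := by
      rw [nV, Finset.mul_sum, ← Finset.sum_neg_distrib, ← Finset.sum_sub_distrib]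
      exact Finset.sum_congr rfl fun i _ => by ring
    linarith
  have h5 : ∀ i, Real.exp (2 * κ * d i) * v i ^ 2 = y i ^ 2 := by
    intro i
    simp only [hy, mul_pow]
    rw [← Real.exp_nat_mul]
    congr 2
    push_cast
    ring
  have h6 : ∀ i, y i ^ 2 ≤ ((lam β₀ (d i) - μ) - (d i : ℝ) ^ 2 / 2) * y i ^ 2 +
      (1 + |μ₀|) * Real.exp (2 * κ * M) * v i ^ 2 := by
    intro i
    have a0 : (0 : ℝ) ≤ d i := Nat.cast_nonneg _
    have a1 : (d i : ℝ) ^ 2 / 2 - |μ₀| ≤ (lam β₀ (d i) - μ) - (d i : ℝ) ^ 2 / 2 := by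
      have := le_abs_self μ₀
      have : 0 ≤ (d i : ℝ) * β₀ := mul_nonneg a0 hβ
      rw [lam]
      nlinarith
    have a2 := mul_le_mul_of_nonneg_right a1 (sq_nonneg (y i))
    have a3 : 0 ≤ |μ₀| := abs_nonneg _
    rcases le_total M (d i) with hMd | hMd
    · have b1 : (M : ℝ) ≤ d i := by exact_mod_cast hMd
      have b2 : 1 ≤ (d i : ℝ) ^ 2 / 2 - |μ₀| := by nlinarith
      have b3 := mul_le_mul_of_nonneg_right b2 (sq_nonneg (y i))
      have b4 : 0 ≤ (1 + |μ₀|) * Real.exp (2 * κ * M) * v i ^ 2 := by positivity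
      linarith
    · have b1 : (d i : ℝ) ≤ M := by exact_mod_cast hMd
      have b2 : y i ^ 2 ≤ Real.exp (2 * κ * M) * v i ^ 2 := by
        rw [← h5]
        gcongr
      have b3 : (1 + |μ₀|) * y i ^ 2 ≤ (1 + |μ₀|) * (Real.exp (2 * κ * M) * v i ^ 2) := by gcongr
      have b4 : 0 ≤ (d i : ℝ) ^ 2 / 2 * y i ^ 2 := by positivity
      nlinarith
  rw [Finset.sum_congr rfl fun i _ => h5 i]
  refine (Finset.sum_le_sum fun i _ => h6 i).trans ?_
  rw [Finset.sum_add_distrib, ← Finset.mul_sum, n2]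
  linarith

end Crest.Agent.R202
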