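import Mathlib

/-!
# R202/OdeDefs: the ODE system `u' = p + R p`, `p' = -β p + λ u + Q u`

`ι` is a finite set of modes with degrees `d i ≥ 1` and `λ = d (d + β₀)`.  `bp`, `bm` are the
logarithmic derivatives of the growing and decaying solutions of the unperturbed scalar equation,
`xp`, `xm` the corresponding coordinates: `√d u = xp + xm`, `√d p = bp xp + bm xm`, and with
`f = R p`, `g = Q u`,
`xp' = bp xp + √d (g - bm f)/(bp - bm)`, `xm' = bm xm + √d (bp f - g)/(bp - bm)`.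
All constants in the estimates are independent of `ι`.
-/

open scoped ContDiff Topology Matrix
open Set Filter

noncomputable section

namespace Crest.Agent.R202

/-- the eigenvalue of degree `l` -/
def lam (β₀ : ℝ) (l : ℕ) : ℝ := l * (l + β₀)

/-- the positive root of `a² + b a = x` -/
def rt (b x : ℝ) : ℝ := (-b + Real.sqrt (b ^ 2 + 4 * x)) / 2

/-- friction `β` and reference solutions of the Riccati equation -/
structure Bg where
  b : ℝ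
  β₀ : ℝ
  β : ℝ → ℝ
  bp : ℕ → ℝ → ℝ
  bm : ℕ → ℝ → ℝ
  b_pos : 0 < b
  b_le : b ≤ β₀
  β₀_le : β₀ ≤ b + 1 / 3
  β_smooth : ContDiff ℝ ∞ β
  β_zero : ∀ t ≤ 0, β t = β₀
  β_ge : ∀ t, b ≤ β t
  β_le : ∀ t, β t ≤ β₀
  β_lim : Tendsto β atTop (𝓝 b)
  dbp : ∀ l t, HasDerivAt (bp l) (lam β₀ l - β t * bp l t - bp l t ^ 2) t
  dbm : ∀ l t, HasDerivAt (bm l) (lam β₀ l - β t * bm l t - bm l t ^ 2) t
  bp_zero : ∀ l : ℕ, ∀ t ≤ 0, bp l t = l
  bp_ge : ∀ (l : ℕ) t, (l : ℝ) ≤ bp l t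
  bp_le : ∀ l t, bp l t ≤ rt b (lam β₀ l)
  bm_ge : ∀ (l : ℕ) t, -(l + β₀) ≤ bm l t
  bm_le : ∀ l t, bm l t ≤ -(rt b (lam β₀ l) + b)
  lim : ∀ ε > 0, ∃ T, ∀ t, T ≤ t → ∀ l, 1 ≤ l →
    rt b (lam β₀ l) - ε ≤ bp l t ∧ -(rt b (lam β₀ l) + b) - ε ≤ bm l t

variable {ι : Type} [Fintype ι] [DecidableEq ι]

/-- squared Euclidean norm -/
def n2 (x : ι → ℝ) : ℝ := ∑ i, x i ^ 2

/-- `Σ d x²` -/
def nW (d : ι → ℕ) (x : ι → ℝ) : ℝ := ∑ i, (d i : ℝ) * x i ^ 2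

/-- `Σ d² x²` -/
def nV (d : ι → ℕ) (x : ι → ℝ) : ℝ := ∑ i, (d i : ℝ) ^ 2 * x i ^ 2

/-- restriction of a vector to a set of modes -/
def msk (U : Set ι) (x : ι → ℝ) : ι → ℝ := U.indicator x

/-- form bounds for the perturbation -/
def Pb (d : ι → ℕ) (δ : ℝ) (R Q : Matrix ι ι ℝ) : Prop :=
  (∀ x y, 2 * |x ⬝ᵥ R *ᵥ y| ≤ δ * (n2 x + n2 y)) ∧
    ∀ x y, 2 * |x ⬝ᵥ Q *ᵥ y| ≤ δ * (nV d x + nV d y)

/-- states `(xp, xm)` -/
abbrev St (ι : Type) : Type := (ι → ℝ) × (ι → ℝ)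

/-- The cut inequality between the state `z` at an earlier and `z'` at a later time: relative to
the growth `e^G` the modes `xp` in `U` grow, all others decay. -/
def Cut (U : Set ι) (G C : ℝ) (z z' : St ι) : Prop :=
  Real.exp (2 * G) * n2 (msk U z.1) + n2 (msk Uᶜ z'.1) + n2 z'.2
    ≤ C * (n2 (msk U z'.1) + Real.exp (2 * G) * (n2 (msk Uᶜ z.1) + n2 z.2))

namespace Bg

variable (B : Bg)

/-- the limit exponent of degree `l` -/
def a (l : ℕ) : ℝ := rt B.b (lam B.β₀ l)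

def xp1 (l : ℕ) (t u p : ℝ) : ℝ := Real.sqrt l * (p - B.bm l t * u) / (B.bp l t - B.bm l t)

def xm1 (l : ℕ) (t u p : ℝ) : ℝ := Real.sqrt l * (B.bp l t * u - p) / (B.bp l t - B.bm l t)

/-- `∫ₛᵗ bp l` -/
def Ip (l : ℕ) (s t : ℝ) : ℝ := ∫ r in s..t, B.bp l r

/-- `∫ₛᵗ bm l` -/
def Im (l : ℕ) (s t : ℝ) : ℝ := ∫ r in s..t, B.bm l r

/-- solutions on the set of times `s` (two-sided derivatives at the points of `s`) -/
structure Sol (d : ι → ℕ) (R Q : ℝ → Matrix ι ι ℝ) (s : Set ℝ) (u p : ℝ → ι → ℝ) : Prop where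
  du : ∀ t ∈ s, HasDerivAt u (p t + R t *ᵥ p t) t
  dp : ∀ t ∈ s, HasDerivAt p
    (fun i => -B.β t * p t i + lam B.β₀ (d i) * u t i + (Q t *ᵥ u t) i) t

def xp (d : ι → ℕ) (u p : ℝ → ι → ℝ) (t : ℝ) : ι → ℝ := fun i => B.xp1 (d i) t (u t i) (p t i)

def xm (d : ι → ℕ) (u p : ℝ → ι → ℝ) (t : ℝ) : ι → ℝ := fun i => B.xm1 (d i) t (u t i) (p t i)

def st (d : ι → ℕ) (u p : ℝ → ι → ℝ) (t : ℝ) : St ι := (B.xp d u p t, B.xm d u p t)

/-- `z` at time `s` flows to `z'` at time `t` -/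
def Rel (d : ι → ℕ) (R Q : ℝ → Matrix ι ι ℝ) (s t : ℝ) (z z' : St ι) : Prop :=
  ∃ u p, B.Sol d R Q (Icc s t) u p ∧ B.st d u p s = z ∧ B.st d u p t = z'

end Bg

/-- the state is supported in `S` -/
def Supp (S : Set ι) (z : St ι) : Prop := ∀ i, i ∉ S → z.1 i = 0 ∧ z.2 i = 0

/-- the matrix does not couple `S` and its complement -/
def Dec (S : Set ι) (A : Matrix ι ι ℝ) : Prop := ∀ i j, (i ∈ S ↔ j ∉ S) → A i j = 0

/-- band matrices -/
def Band (d : ι → ℕ) (D : ℕ) (A : Matrix ι ι ℝ) : Prop := ∀ i j, d i + D < d j → A i j = 0 ∧ A j i = 0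

/-- block diagonal with respect to the degree -/
def Blk {W : Type} (d : W → ℕ) (A : Matrix W W ℝ) : Prop := ∀ i j, d i ≠ d j → A i j = 0

/-- time ordered product: `A 0` acts first -/
def tprod {M : Type} [Monoid M] {K : ℕ} (A : Fin K → M) : M := (List.ofFn A).reverse.prod

end Crest.Agent.R202
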