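import Crest.Agent.R202.OdeFlow

/-!
# R202/OdeHold: a scalar mode with a time dependent eigenvalue

Use the Riccati variable `z = p/u`, `z' = λ + q - β z - z²`.  The solution with `xm(t₁) = 0` has
`z(t₁) = bp`, stays in `[z₋, z₊] ⊆ (0,∞)`, satisfies `z ≤ rt b x + C e^{-c (t - s₁)}` on `[s₁,s₂]`
(`β ≥ b`), and `(bp - z)' = -(β + bp + z)(bp - z)` on `[t₂', t₂]`.  The solution with `xp(t₂) = 0`
has `z(t₂) = bm` and stays in `[-z₊', -z₋']` backwards, so `|u|` decreases.  Every solution is a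
combination of the two (Wronskian / uniqueness).  Existence: `Bg.exists_sol` with `ι = Unit`.
-/

open scoped ContDiff Topology Matrix
open Set Filter

noncomputable section

namespace Crest.Agent.R202

theorem hold_nonneg {f f' : ℝ → ℝ} {a b K : ℝ} (hf : ∀ t ∈ Icc a b, HasDerivAt f (f' t) t)
    (h : ∀ t ∈ Icc a b, f t < 0 → K * f t ≤ f' t) (h0 : 0 ≤ f a) : ∀ t ∈ Icc a b, 0 ≤ f t := by
  intro t ht
  have key : ∀ ε : ℝ, 0 < ε → -f t ≤ ε * Real.exp ((K + 1) * (t - a)) := by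
    intro ε hε
    refine image_le_of_deriv_right_lt_deriv_boundary (f := fun r => -f r) (f' := fun r => -f' r)
      (fun r hr => (hf r hr).continuousAt.neg.continuousWithinAt)
      (fun r hr => (hf r (Ico_subset_Icc_self hr)).neg.hasDerivWithinAt)
      (B := fun r => ε * Real.exp ((K + 1) * (r - a)))
      (B' := fun r => ε * (Real.exp ((K + 1) * (r - a)) * ((K + 1) * 1))) ?_
      (fun r => (((hasDerivAt_id r).sub_const a).const_mul (K + 1)).exp.const_mul ε)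
      (fun r hr he => ?_) ht
    · simp only [sub_self, mul_zero, Real.exp_zero]; linarith
    · have h1 : 0 < ε * Real.exp ((K + 1) * (r - a)) := by positivity
      have h2 := h r (Ico_subset_Icc_self hr) (by linarith)
      have h3 : f r = -(ε * Real.exp ((K + 1) * (r - a))) := by linarith
      rw [h3] at h2
      nlinarith
  by_contra hc
  have hE := Real.exp_pos ((K + 1) * (t - a))
  have := key (-f t / 2 / Real.exp ((K + 1) * (t - a))) (div_pos (by linarith) hE)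
  rw [div_mul_cancel₀ _ hE.ne'] at this
  linarith

theorem hold_anti {f f' : ℝ → ℝ} {a b : ℝ} (hab : a ≤ b)
    (hf : ∀ t ∈ Icc a b, HasDerivAt f (f' t) t) (h : ∀ t ∈ Icc a b, f' t ≤ 0) : f b ≤ f a := by
  have := hold_nonneg (f := fun t => f a - f t) (f' := fun t => -f' t) (K := 0)
    (fun t ht => (hf t ht).const_sub (f a)) (fun t ht _ => by linarith [h t ht]) (by simp) b
    (right_mem_Icc.2 hab)
  linarith

theorem hold_upper {u p γ Λ φ φ' : ℝ → ℝ} {a b : ℝ}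
    (hs : ∀ r ∈ Icc a b, HasDerivAt u (p r) r ∧ HasDerivAt p (-γ r * p r + Λ r * u r) r)
    (hφ : ∀ r ∈ Icc a b, HasDerivAt φ (φ' r) r) (hu : ∀ r ∈ Icc a b, 0 ≤ u r)
    (h1 : ∀ r ∈ Icc a b, Λ r ≤ φ' r + φ r ^ 2 + γ r * φ r) (h2 : ∀ r ∈ Icc a b, 0 ≤ φ r + γ r)
    (h0 : p a ≤ φ a * u a) : ∀ r ∈ Icc a b, p r ≤ φ r * u r := by
  intro r hr
  have := hold_nonneg (f := fun t => φ t * u t - p t)
    (f' := fun t => φ' t * u t + φ t * p t - (-γ t * p t + Λ t * u t)) (K := 0)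
    (fun t ht => ((hφ t ht).mul (hs t ht).1).sub (hs t ht).2) (fun t ht hneg => by
      have a1 := mul_nonneg (sub_nonneg.2 (h1 t ht)) (hu t ht)
      have a2 := mul_nonneg (h2 t ht) (neg_nonneg.2 hneg.le)
      nlinarith) (by linarith) r hr
  linarith

theorem hold_cone {u p γ Λ : ℝ → ℝ} {a b K Y : ℝ}
    (hs : ∀ r ∈ Icc a b, HasDerivAt u (p r) r ∧ HasDerivAt p (-γ r * p r + Λ r * u r) r)
    (hγ : ∀ r ∈ Icc a b, |γ r| ≤ K) (hΛ : ∀ r ∈ Icc a b, 0 ≤ Λ r ∧ Λ r ≤ Y ^ 2 - K * Y)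
    (hY : K ≤ Y) (hu : u a = 1) (hp : 0 ≤ p a) (hp' : p a ≤ Y) :
    ∀ r ∈ Icc a b, 1 ≤ u r ∧ 0 ≤ p r ∧ p r ≤ Y * u r := by
  have h1 := hold_nonneg (f := fun t => u t * p t)
    (f' := fun t => p t * p t + u t * (-γ t * p t + Λ t * u t)) (K := K)
    (fun t ht => (hs t ht).1.mul (hs t ht).2) (fun t ht hneg => by
      have a1 := mul_nonneg (hΛ t ht).1 (sq_nonneg (u t))
      have a2 := mul_nonneg (show 0 ≤ K + γ t by linarith [(abs_le.1 (hγ t ht)).1])
        (neg_nonneg.2 hneg.le)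
      nlinarith [sq_nonneg (p t)]) (by simpa [hu] using hp)
  have h2 := hold_nonneg (f := fun t => u t * u t - 1)
    (f' := fun t => p t * u t + u t * p t) (K := 0)
    (fun t ht => ((hs t ht).1.mul (hs t ht).1).sub_const 1) (fun t ht _ => by
      have := h1 t ht
      nlinarith) (by simp [hu])
  have h3 : ∀ r ∈ Icc a b, 1 ≤ u r := by
    intro r hr
    by_contra hc
    have a1 := h2 r hr
    have a2 : u r ≤ 0 := by nlinarith
    have a3 : Icc a r ⊆ Icc a b := Icc_subset_Icc_right hr.2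
    obtain ⟨c, hc1, hc2⟩ := intermediate_value_Icc' hr.1 (f := u)
      (fun t ht => (hs t (a3 ht)).1.continuousAt.continuousWithinAt)
      (show (0 : ℝ) ∈ Icc (u r) (u a) from ⟨a2, by rw [hu]; exact zero_le_one⟩)
    have a4 := h2 c (a3 hc1)
    simp only [hc2] at a4
    linarith
  have h4 := hold_upper (φ := fun _ => Y) (φ' := fun _ => 0) hs (fun r _ => hasDerivAt_const r Y)
    (fun r hr => by linarith [h3 r hr]) (fun r hr => by
      have a1 := abs_le.1 (hγ r hr)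
      have a2 : 0 ≤ Y := by linarith [abs_nonneg (γ r), hγ r hr]
      have a3 := mul_nonneg (show 0 ≤ K + γ r by linarith) a2
      have a4 := (hΛ r hr).2
      nlinarith) (fun r hr => by linarith [(abs_le.1 (hγ r hr)).1]) (by simpa [hu] using hp')
  intro r hr
  refine ⟨h3 r hr, ?_, h4 r hr⟩
  have a1 := h1 r hr
  have a2 := h3 r hr
  by_contra hc
  nlinarith

theorem hold_growth {u p φ Φ : ℝ → ℝ} {a b : ℝ} (hab : a ≤ b)
    (hu : ∀ r ∈ Icc a b, HasDerivAt u (p r) r) (hΦ : ∀ r ∈ Icc a b, HasDerivAt Φ (φ r) r)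
    (h : ∀ r ∈ Icc a b, p r ≤ φ r * u r) : u b ≤ u a * Real.exp (Φ b - Φ a) := by
  have := hold_anti (f := fun t => u t * Real.exp (-Φ t))
    (f' := fun t => p t * Real.exp (-Φ t) + u t * (Real.exp (-Φ t) * -φ t)) hab
    (fun t ht => (hu t ht).mul (hΦ t ht).neg.exp) fun t ht => by
      have a1 := mul_nonneg (sub_nonneg.2 (h t ht)) (Real.exp_pos (-Φ t)).le
      nlinarith
  have a2 := mul_le_mul_of_nonneg_right this (Real.exp_pos (Φ b)).le
  simp only [mul_assoc, ← Real.exp_add, neg_add_cancel, Real.exp_zero, mul_one] at a2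
  rwa [neg_add_eq_sub] at a2

theorem hold_wronski {γ Λ : ℝ → ℝ} (hγ : Continuous γ) {a b : ℝ} (hab : a ≤ b)
    {u p v w : ℝ → ℝ}
    (hs : ∀ r ∈ Icc a b, HasDerivAt u (p r) r ∧ HasDerivAt p (-γ r * p r + Λ r * u r) r)
    (hs' : ∀ r ∈ Icc a b, HasDerivAt v (w r) r ∧ HasDerivAt w (-γ r * w r + Λ r * v r) r) :
    u b * w b - v b * p b = Real.exp (-∫ r in a..b, γ r) * (u a * w a - v a * p a) := by
  have hd : ∀ t ∈ Icc a b, HasDerivAt
      (fun t => (u t * w t - v t * p t) * Real.exp (∫ r in a..t, γ r)) 0 t := fun t ht => by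
    have := (((hs t ht).1.mul (hs' t ht).2).sub ((hs' t ht).1.mul (hs t ht).2)).mul
      (hγ.integral_hasStrictDerivAt a t).hasDerivAt.exp
    refine this.congr_deriv ?_
    simp only [Pi.sub_apply, Pi.mul_apply]
    ring
  have h1 := hold_anti hab hd fun _ _ => le_rfl
  have h2 := hold_anti hab (fun t ht => (hd t ht).neg) fun _ _ => by simp
  simp only [Pi.neg_apply, intervalIntegral.integral_same, Real.exp_zero, mul_one] at h1 h2
  have h3 : (u b * w b - v b * p b) * Real.exp (∫ r in a..b, γ r) = u a * w a - v a * p a := by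
    linarith
  rw [← h3, mul_left_comm, ← Real.exp_add, neg_add_cancel, Real.exp_zero, mul_one]

theorem hold_exists (B : Bg) {l : ℕ} (hl : 1 ≤ l) {q : ℝ → ℝ} (hq : Continuous q) (t₀ z₁ z₂ : ℝ) :
    ∃ u p : ℝ → ℝ, (∀ r, HasDerivAt u (p r) r ∧
        HasDerivAt p (-B.β r * p r + (lam B.β₀ l + q r) * u r) r) ∧
      u t₀ = z₁ + z₂ ∧ p t₀ = B.bp l t₀ * z₁ + B.bm l t₀ * z₂ := by
  obtain ⟨u, p, hs, h0⟩ := B.exists_sol (ι := Unit) (d := fun _ => l) (R := fun _ => 0)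
    (Q := fun t => Matrix.of fun _ _ => q t) (fun _ => hl) continuous_const
    (continuous_matrix fun _ _ => hq) t₀ (fun _ => √l * z₁, fun _ => √l * z₂)
  have hl0 : (0 : ℝ) < √l := Real.sqrt_pos.2 (by exact_mod_cast hl)
  have e1 : B.xp1 l t₀ (u t₀ ()) (p t₀ ()) = √l * z₁ := congrFun (congrArg Prod.fst h0) ()
  have e2 : B.xm1 l t₀ (u t₀ ()) (p t₀ ()) = √l * z₂ := congrFun (congrArg Prod.snd h0) ()
  refine ⟨fun t => u t (), fun t => p t (), fun r => ⟨?_, ?_⟩, ?_, ?_⟩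
  · simpa using hasDerivAt_pi.1 (hs.du r (mem_univ r)) ()
  · refine (hasDerivAt_pi.1 (hs.dp r (mem_univ r)) ()).congr_deriv ?_
    simp [Matrix.mulVec, dotProduct]
    ring
  · have := B.sqrt_mul_u l t₀ (u t₀ ()) (p t₀ ())
    rw [e1, e2] at this
    exact mul_left_cancel₀ hl0.ne' (by linarith)
  · have := B.sqrt_mul_p l t₀ (u t₀ ()) (p t₀ ())
    rw [e1, e2] at this
    exact mul_left_cancel₀ hl0.ne' (by linarith)

theorem hold (B : Bg) (l : ℕ) (hl : 1 ≤ l) {lo : ℝ} (hlo : 0 < lo) (hi : ℝ) :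
    ∃ C : ℝ, 1 ≤ C ∧ ∀ (q : ℝ → ℝ) (t₁ s₁ s₂ t₂' t₂ x : ℝ), Continuous q → t₁ ≤ s₁ → s₁ ≤ s₂ →
    s₂ ≤ t₂' → t₂' ≤ t₂ → (∀ r ∈ Icc t₁ t₂, lo ≤ lam B.β₀ l + q r ∧ lam B.β₀ l + q r ≤ hi) →
    (∀ r ∈ Icc s₁ s₂, lam B.β₀ l + q r ≤ x) → (∀ r ∈ Icc t₂' t₂, q r = 0) →
    ∃ g k m e : ℝ, 1 / C ≤ g ∧
      g ≤ C * Real.exp (rt B.b x * (s₂ - s₁) + C * ((s₁ - t₁) + (t₂ - s₂))) ∧
      |k| ≤ C ∧ |e| ≤ C ∧ |m| ≤ C * Real.exp (-(t₂ - t₂')) ∧
      ∀ u p : ℝ → ℝ, (∀ r ∈ Icc t₁ t₂, HasDerivAt u (p r) r ∧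
        HasDerivAt p (-B.β r * p r + lam B.β₀ l * u r + q r * u r) r) →
        B.xp1 l t₂ (u t₂) (p t₂) = g * (B.xp1 l t₁ (u t₁) (p t₁) + k * B.xm1 l t₁ (u t₁) (p t₁)) ∧
        B.xm1 l t₂ (u t₂) (p t₂)
          = m * B.xp1 l t₂ (u t₂) (p t₂) + e * B.xm1 l t₁ (u t₁) (p t₁) := by
  have hb := B.b_pos
  have hbβ := B.b_le
  have hl1 : (1 : ℝ) ≤ l := by exact_mod_cast hl
  obtain ⟨Y, hY⟩ : ∃ Y : ℝ, Y = |hi| + B.β₀ + l + 1 := ⟨_, rfl⟩
  have hhi := le_abs_self hi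
  have hhi0 := abs_nonneg hi
  have hY1 : 1 ≤ Y := by linarith
  have hYhi : hi ≤ Y ^ 2 - B.β₀ * Y := by
    have : 1 * (Y - B.β₀) ≤ Y * (Y - B.β₀) := mul_le_mul_of_nonneg_right hY1 (by linarith)
    nlinarith
  have hbp : ∀ t, 1 ≤ B.bp l t ∧ B.bp l t ≤ Y := fun t =>
    ⟨hl1.trans (B.bp_ge l t), (B.bp_le l t).trans ((B.a_le l).trans (by linarith))⟩
  have hbm : ∀ t, -Y ≤ B.bm l t ∧ B.bm l t ≤ -1 := fun t =>
    ⟨le_trans (by linarith) (B.bm_ge l t), (B.bm_le l t).trans (by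
      have := B.le_a l
      unfold Bg.a at this
      linarith)⟩
  have hβ : ∀ t, |B.β t| ≤ B.β₀ := fun t =>
    abs_le.2 ⟨by linarith [B.β_ge t], B.β_le t⟩
  have hE1 : 1 ≤ Real.exp (Y / B.b) := Real.one_le_exp (by positivity)
  obtain ⟨C, hC⟩ : ∃ C : ℝ, C = 2 * Y * Real.exp (Y / B.b) := ⟨_, rfl⟩
  have hCY : 2 * Y ≤ C := by rw [hC]; exact le_mul_of_one_le_right (by linarith) hE1
  refine ⟨C, by linarith, fun q t₁ s₁ s₂ t₂' t₂ x hq h1 h2 h3 h4 hΛ hx hq0 => ?_⟩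
  have h12 : t₁ ≤ t₂ := by linarith
  obtain ⟨uA, pA, hA, hA1, hA2⟩ := hold_exists B hl hq t₁ 1 0
  obtain ⟨uD, pD, hD, hD1, hD2⟩ := hold_exists B hl hq t₂ 0 1
  simp only [add_zero, zero_add, mul_one, mul_zero] at hA1 hA2 hD1 hD2
  -- the cone condition for `A`
  have cA := hold_cone (γ := B.β) (Λ := fun r => lam B.β₀ l + q r) (a := t₁) (b := t₂)
    (K := B.β₀) (Y := Y) (fun r _ => hA r) (fun r _ => hβ r)
    (fun r hr => ⟨by linarith [(hΛ r hr).1], by linarith [(hΛ r hr).2]⟩) (by linarith) hA1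
    (by linarith [(hbp t₁).1]) (by linarith [(hbp t₁).2])
  -- the cone condition for `D`, backwards
  have cD := hold_cone (u := fun s => uD (-s)) (p := fun s => -pD (-s)) (γ := fun s => -B.β (-s))
    (Λ := fun s => lam B.β₀ l + q (-s)) (a := -t₂) (b := -t₁) (K := B.β₀) (Y := Y)
    (fun r _ => ⟨((hD (-r)).1.comp r (hasDerivAt_neg r)).congr_deriv (by ring),
      ((hD (-r)).2.comp r (hasDerivAt_neg r)).neg.congr_deriv (by ring)⟩)
    (fun r _ => by rw [abs_neg]; exact hβ _)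
    (fun r hr => by
      have := hΛ (-r) ⟨by linarith [hr.2], by linarith [hr.1]⟩
      exact ⟨by linarith [this.1], by linarith [this.2]⟩) (by linarith)
    (by simpa using hD1) (by simp only [neg_neg]; linarith [(hbm t₂).2])
    (by simp only [neg_neg]; linarith [(hbm t₂).1]) (-t₁) (right_mem_Icc.2 (by linarith))
  simp only [neg_neg] at cD
  obtain ⟨d1, d2, d3⟩ := cD
  obtain ⟨a1, a2, a3⟩ := cA t₂ (right_mem_Icc.2 h12)
  -- growth of `A`
  have gY : ∀ a b : ℝ, t₁ ≤ a → a ≤ b → b ≤ t₂ → uA b ≤ uA a * Real.exp (Y * (b - a)) := by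
    intro a b ha hab hb
    have := hold_growth (φ := fun _ => Y) (Φ := fun r => Y * r) hab (fun r _ => (hA r).1)
      (fun r _ => by simpa using (hasDerivAt_id r).const_mul Y)
      fun r hr => (cA r ⟨ha.trans hr.1, hr.2.trans hb⟩).2.2
    rwa [← mul_sub] at this
  have hs₁ : s₁ ∈ Icc t₁ t₂ := ⟨h1, by linarith⟩
  have hx0 : 0 ≤ x := by linarith [(hΛ s₁ hs₁).1, hx s₁ (left_mem_Icc.2 h2)]
  obtain ⟨y, hy⟩ : ∃ y, y = rt B.b x := ⟨_, rfl⟩
  have hy0 : 0 ≤ y := hy ▸ rt_nonneg hx0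
  have hy2 : y ^ 2 + B.b * y = x := hy ▸ rt_sq hx0
  have hsub : ∀ r ∈ Icc s₁ s₂, r ∈ Icc t₁ t₂ := fun r hr => ⟨h1.trans hr.1, by linarith [hr.2]⟩
  have hde : ∀ r, HasDerivAt (fun r => Real.exp (-B.b * (r - s₁)))
      (Real.exp (-B.b * (r - s₁)) * (-B.b * 1)) r := fun r =>
    (((hasDerivAt_id r).sub_const s₁).const_mul (-B.b)).exp
  have g1 := hold_upper (γ := B.β) (Λ := fun r => lam B.β₀ l + q r) (a := s₁) (b := s₂)
    (φ := fun r => y + Y * Real.exp (-B.b * (r - s₁)))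
    (φ' := fun r => Y * (Real.exp (-B.b * (r - s₁)) * (-B.b * 1))) (fun r _ => hA r)
    (fun r _ => ((hde r).const_mul Y).const_add y) (fun r hr => by linarith [(cA r (hsub r hr)).1])
    (fun r hr => by
      have b1 : 0 ≤ Y * Real.exp (-B.b * (r - s₁)) := by positivity
      have b2 := mul_nonneg (sub_nonneg.2 (B.β_ge r)) (add_nonneg hy0 b1)
      have b3 := hx r hr
      have b4 := mul_nonneg hy0 b1
      nlinarith [sq_nonneg (Y * Real.exp (-B.b * (r - s₁)))])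
    (fun r _ => by
      have b1 : 0 ≤ Y * Real.exp (-B.b * (r - s₁)) := by positivity
      linarith [B.β_ge r])
    (by
      obtain ⟨b1, -, b3⟩ := cA s₁ hs₁
      simp only [sub_self, mul_zero, Real.exp_zero, mul_one]
      nlinarith)
  have g2 := hold_growth (Φ := fun r => y * r - Y / B.b * Real.exp (-B.b * (r - s₁))) h2
    (fun r _ => (hA r).1) (fun r _ =>
      (((hasDerivAt_id r).const_mul y).sub ((hde r).const_mul (Y / B.b))).congr_deriv (by
        field_simp; ring)) g1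
  have g3 : uA s₂ ≤ uA s₁ * Real.exp (y * (s₂ - s₁) + Y / B.b) := by
    refine g2.trans (mul_le_mul_of_nonneg_left (Real.exp_le_exp.2 ?_) (by linarith [(cA s₁ hs₁).1]))
    have b1 : 0 ≤ Y / B.b * Real.exp (-B.b * (s₂ - s₁)) := by positivity
    simp only [sub_self, mul_zero, Real.exp_zero, mul_one]
    linarith
  have g4 : uA t₂ ≤ Real.exp (Y / B.b) *
      Real.exp (y * (s₂ - s₁) + C * ((s₁ - t₁) + (t₂ - s₂))) := by
    have b1 := gY t₁ s₁ le_rfl h1 hs₁.2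
    have b2 := gY s₂ t₂ (by linarith) (by linarith) le_rfl
    rw [hA1, one_mul] at b1
    calc uA t₂ ≤ uA s₂ * Real.exp (Y * (t₂ - s₂)) := b2
      _ ≤ (Real.exp (Y * (s₁ - t₁)) * Real.exp (y * (s₂ - s₁) + Y / B.b)) *
          Real.exp (Y * (t₂ - s₂)) := by
          gcongr
          exact g3.trans (by gcongr)
      _ ≤ _ := by
          rw [← Real.exp_add, ← Real.exp_add, ← Real.exp_add]
          refine Real.exp_le_exp.2 ?_
          have b3 : Y * ((s₁ - t₁) + (t₂ - s₂)) ≤ C * ((s₁ - t₁) + (t₂ - s₂)) :=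
            mul_le_mul_of_nonneg_right (by linarith) (by linarith)
          linarith
  -- relaxation on the last interval
  have hsub' : ∀ r ∈ Icc t₂' t₂, r ∈ Icc t₁ t₂ := fun r hr => ⟨by linarith [hr.1], hr.2⟩
  have hdw : ∀ r ∈ Icc t₂' t₂, HasDerivAt (fun r => B.bp l r * uA r - pA r)
      (-(B.bp l r + B.β r) * (B.bp l r * uA r - pA r)) r := fun r hr =>
    (((B.dbp l r).mul (hA r).1).sub (hA r).2).congr_deriv (by rw [hq0 r hr]; ring)
  have r1 := hold_anti (f := fun r => ((B.bp l r * uA r - pA r) * Real.exp r) ^ 2) h4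
    (fun r hr => ((hdw r hr).mul (Real.hasDerivAt_exp r)).pow 2) fun r _ => by
      have b1 := mul_nonneg (show 0 ≤ B.bp l r + B.β r - 1 by linarith [(hbp r).1, B.β_ge r])
        (sq_nonneg ((B.bp l r * uA r - pA r) * Real.exp r))
      simp only [Pi.mul_apply]
      norm_num
      nlinarith
  have r2 : |B.bp l t₂ * uA t₂ - pA t₂| ≤ Y * uA t₂ * Real.exp (-(t₂ - t₂')) := by
    have b1 := sq_le_sq.1 r1
    rw [abs_mul, abs_mul, abs_of_pos (Real.exp_pos _), abs_of_pos (Real.exp_pos _)] at b1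
    obtain ⟨c1, c2, c3⟩ := cA t₂' (hsub' _ (left_mem_Icc.2 h4))
    have b2 : |B.bp l t₂' * uA t₂' - pA t₂'| ≤ Y * uA t₂' := by
      have := hbp t₂'
      rw [abs_le]
      constructor <;> nlinarith
    have b3 : uA t₂' ≤ uA t₂ := by
      have := hold_anti (f := fun r => -uA r) h4 (fun r _ => (hA r).1.neg)
        fun r hr => by linarith [(cA r (hsub' r hr)).2.1]
      linarith
    have b4 : Real.exp (-(t₂ - t₂')) * Real.exp t₂ = Real.exp t₂' := by
      rw [← Real.exp_add]; congr 1; ring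
    refine le_of_mul_le_mul_right ?_ (Real.exp_pos t₂)
    rw [mul_assoc _ _ (Real.exp t₂), b4]
    refine b1.trans (mul_le_mul_of_nonneg_right (b2.trans ?_) (Real.exp_pos _).le)
    gcongr
  -- Wronskians
  obtain ⟨E, hE⟩ : ∃ E, E = Real.exp (-∫ r in t₁..t₂, B.β r) := ⟨_, rfl⟩
  have hE0 : 0 < E := hE ▸ Real.exp_pos _
  have hE1' : E ≤ 1 := by
    rw [hE, Real.exp_le_one_iff, neg_nonpos]
    exact intervalIntegral.integral_nonneg h12 fun r _ => by linarith [B.β_ge r]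
  have hβc : Continuous B.β := B.β_smooth.continuous
  have wAD := hold_wronski (Λ := fun r => lam B.β₀ l + q r) hβc h12 (fun r _ => hA r)
    fun r _ => hD r
  rw [← hE, hA1, hA2, hD1, hD2] at wAD
  have m1 := hbm t₁
  have m2 := hbm t₂
  have p1 := hbp t₁
  have p2 := hbp t₂
  have hN : uA t₂ ≤ pA t₂ - B.bm l t₂ * uA t₂ := by nlinarith
  have hN' : pA t₂ - B.bm l t₂ * uA t₂ ≤ 2 * Y * uA t₂ := by nlinarith
  have hM : uD t₁ ≤ B.bp l t₁ * uD t₁ - pD t₁ := by nlinarith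
  have hN0 : 0 < pA t₂ - B.bm l t₂ * uA t₂ := by linarith
  have hM0 : 0 < B.bp l t₁ * uD t₁ - pD t₁ := by linarith
  have hg1 : 0 < B.bp l t₁ - B.bm l t₁ := by linarith
  have hg2 : 0 < B.bp l t₂ - B.bm l t₂ := by linarith
  refine ⟨(pA t₂ - B.bm l t₂ * uA t₂) / (B.bp l t₂ - B.bm l t₂),
    (B.bm l t₁ * uD t₁ - pD t₁) / (B.bp l t₁ * uD t₁ - pD t₁),
    (B.bp l t₂ * uA t₂ - pA t₂) / (pA t₂ - B.bm l t₂ * uA t₂),
    E * (B.bp l t₁ - B.bm l t₁) / (pA t₂ - B.bm l t₂ * uA t₂), ?_, ?_, ?_, ?_, ?_,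
    fun u p hs => ?_⟩
  · exact div_le_div₀ hN0.le (by linarith) hg2 (by linarith)
  · rw [← hy]
    refine (div_le_self hN0.le (by linarith)).trans (hN'.trans ?_)
    conv_rhs => rw [mul_comm, hC]
    have := mul_le_mul_of_nonneg_left g4 (show 0 ≤ 2 * Y by linarith)
    rw [hC] at this
    linarith
  · rw [abs_div, abs_of_pos hM0, div_le_iff₀ hM0]
    have b1 : |B.bm l t₁ * uD t₁ - pD t₁| ≤ Y * uD t₁ := by
      rw [abs_le]
      constructor <;> nlinarith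
    exact b1.trans (mul_le_mul (by linarith) hM (by linarith) (by linarith))
  · rw [abs_of_pos (by positivity)]
    refine (div_le_self (by positivity) (by linarith)).trans ?_
    nlinarith
  · rw [abs_div, abs_of_pos hN0, div_le_iff₀ hN0]
    refine r2.trans ?_
    rw [mul_right_comm]
    exact mul_le_mul (mul_le_mul_of_nonneg_right (by linarith) (Real.exp_pos _).le) hN
      (by linarith) (mul_nonneg (by linarith) (Real.exp_pos _).le)
  · have hs' : ∀ r ∈ Icc t₁ t₂, HasDerivAt u (p r) r ∧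
        HasDerivAt p (-B.β r * p r + (lam B.β₀ l + q r) * u r) r :=
      fun r hr => ⟨(hs r hr).1, (hs r hr).2.congr_deriv (by ring)⟩
    have wA := hold_wronski (Λ := fun r => lam B.β₀ l + q r) hβc h12 hs' fun r _ => hA r
    have wD := hold_wronski (Λ := fun r => lam B.β₀ l + q r) hβc h12 hs' fun r _ => hD r
    rw [← hE, hA1, hA2] at wA
    rw [← hE, hD1, hD2] at wD
    unfold Bg.xp1 Bg.xm1
    constructor
    · have e1 : pA t₂ - B.bm l t₂ * uA t₂ = E * (B.bp l t₁ * uD t₁ - pD t₁) := by linarith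
      have e2 : p t₂ - B.bm l t₂ * u t₂ = E * (uD t₁ * p t₁ - u t₁ * pD t₁) := by linarith
      rw [e1, e2]
      generalize hM' : B.bp l t₁ * uD t₁ - pD t₁ = M at hM0 ⊢
      have e3 : pD t₁ = B.bp l t₁ * uD t₁ - M := by linarith
      rw [e3]
      field_simp
      ring
    · have e1 : B.bp l t₁ * u t₁ - p t₁ = (u t₂ * pA t₂ - uA t₂ * p t₂) / E := by
        rw [eq_div_iff hE0.ne']; linarith
      rw [e1]
      generalize hN'' : pA t₂ - B.bm l t₂ * uA t₂ = N at hN0 ⊢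
      have e3 : pA t₂ = N + B.bm l t₂ * uA t₂ := by linarith
      rw [e3]
      field_simp
      ring

end Crest.Agent.R202
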