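import Crest.Agent.R202.OdeBasic

/-!
# R202/OdeLyap: the diagonal Lyapunov function

With `s = 1` on `U`, `-1` on `L`, `0` elsewhere, `F = e^{-2Γ} (Σ s xp² - Σ xm²)` has
`F' = e^{-2Γ} [2 Σ_U (bp-γ) xp² + 2 Σ_L (γ-bp) xp² + 2 Σ (γ-bm) xm² + 2 w·Q u + 2 v·R p]`,
`w = √d (s xp + xm)/(bp-bm)`, `v = -√d (s bm xp + bp xm)/(bp-bm)`.  With
`N = nW (xp on U ∪ L) + nW xm`, `N' = nW (xp elsewhere)`: `nV w ≤ N/2`, `n2 v ≤ N`,
`nV u ≤ 2 (N + N')`, `n2 p ≤ C (N + N')`, good terms `≥ 2 g N`; use `Pb.abs_Q_le`, `Pb.abs_R_le`.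
Show that `F - (g/2) ∫ₛ … + C ∫ₛ …` is monotone on `[s,t]` (`monotoneOn_of_deriv_nonneg`).
-/

open scoped ContDiff Topology Matrix
open Set Filter

noncomputable section

namespace Crest.Agent.R202

/-- the Lyapunov function -/
def lyF {ι : Type} [Fintype ι] (U L : Set ι) (Γ : ℝ) (z : St ι) : ℝ :=
  Real.exp (-2 * Γ) * (n2 (msk U z.1) - n2 (msk L z.1) - n2 z.2)

theorem lyap_cs (a b x y : ℝ) (ha : 0 ≤ a) (hb : b ≤ 0) :
    (a * x + b * y) ^ 2 ≤ (a - b) ^ 2 * (x ^ 2 + y ^ 2) := by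
  nlinarith [sq_nonneg (a * y - b * x), mul_nonneg (mul_nonneg ha (neg_nonneg.2 hb))
    (add_nonneg (sq_nonneg x) (sq_nonneg y))]

theorem lyap_sqrt {a b N M K : ℝ} (hK : 0 ≤ K) (ha : a ≤ N) (hb : b ≤ K ^ 2 * M) :
    Real.sqrt a * Real.sqrt b ≤ K * (Real.sqrt N * Real.sqrt M) := by
  have h1 := Real.sqrt_le_sqrt hb
  rw [Real.sqrt_mul (sq_nonneg K), Real.sqrt_sq hK] at h1
  calc _ ≤ Real.sqrt N * (K * Real.sqrt M) :=
        mul_le_mul (Real.sqrt_le_sqrt ha) h1 (Real.sqrt_nonneg _) (Real.sqrt_nonneg _)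
    _ = _ := by ring

theorem lyap_ineq (B : Bg) {ι : Type} [Fintype ι] [DecidableEq ι] {d : ι → ℕ} (hd : ∀ i, 1 ≤ d i)
    (σ : ι → ℝ) (hσ : ∀ i, σ i ^ 2 ≤ 1) (r : ℝ) (u p : ι → ℝ) {R Q : Matrix ι ι ℝ} {γ g δ : ℝ}
    (hP : Pb d δ R Q) (hg : 0 < g) (hg1 : g ≤ 1) (hδ : 0 ≤ δ) (hγ : 0 ≤ γ)
    (hδg : δ ≤ 1 / (4 * (2 + B.β₀ + 1 / 6)) * g)
    (hs : ∀ i, g * d i * σ i ^ 2 ≤ σ i * (B.bp (d i) r - γ)) :
    g / 2 * (∑ i, (d i : ℝ) * (σ i ^ 2 * B.xp1 (d i) r (u i) (p i) ^ 2) +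
        ∑ i, (d i : ℝ) * B.xm1 (d i) r (u i) (p i) ^ 2) -
      4 * (2 + B.β₀ + 1 / 6) ^ 2 * δ ^ 2 / g *
        ∑ i, (d i : ℝ) * ((1 - σ i ^ 2) * B.xp1 (d i) r (u i) (p i) ^ 2) ≤
      -2 * γ * ∑ i, (σ i * B.xp1 (d i) r (u i) (p i) ^ 2 - B.xm1 (d i) r (u i) (p i) ^ 2) +
      ∑ i, (σ i * (2 * B.xp1 (d i) r (u i) (p i) * (B.bp (d i) r * B.xp1 (d i) r (u i) (p i) +
          Real.sqrt (d i) * ((Q *ᵥ u) i - B.bm (d i) r * (R *ᵥ p) i) /
            (B.bp (d i) r - B.bm (d i) r))) -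
        2 * B.xm1 (d i) r (u i) (p i) * (B.bm (d i) r * B.xm1 (d i) r (u i) (p i) +
          Real.sqrt (d i) * (B.bp (d i) r * (R *ᵥ p) i - (Q *ᵥ u) i) /
            (B.bp (d i) r - B.bm (d i) r))) := by
  have hK : 2 ≤ 2 + B.β₀ + 1 / 6 := by linarith [B.b_pos, B.b_le]
  have hu := fun i => B.sqrt_mul_u (d i) r (u i) (p i)
  have hp := fun i => B.sqrt_mul_p (d i) r (u i) (p i)
  have hd1 : ∀ i, (1 : ℝ) ≤ d i := fun i => by exact_mod_cast hd i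
  have hsq : ∀ i, Real.sqrt (d i) ^ 2 = d i := fun i => Real.sq_sqrt (Nat.cast_nonneg _)
  have hbp : ∀ i, 0 ≤ B.bp (d i) r := fun i => (Nat.cast_nonneg _).trans (B.bp_ge _ _)
  have hbm : ∀ i, B.bm (d i) r ≤ -(d i : ℝ) := fun i => by
    have h1 := B.bm_le (d i) r
    have h2 : (d i : ℝ) ≤ rt B.b (lam B.β₀ (d i)) := B.le_a (d i)
    linarith [B.b_pos]
  have hD1 : ∀ i, 2 * (d i : ℝ) ≤ B.bp (d i) r - B.bm (d i) r := fun i => by
    linarith [B.gap_ge (d i) r, B.b_pos]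
  have hD2 : ∀ i, B.bp (d i) r - B.bm (d i) r ≤ (2 + B.β₀ + 1 / 6) * d i := fun i => by
    nlinarith [B.gap_le (d i) r, hd1 i, B.b_pos, B.b_le]
  generalize 2 + B.β₀ + 1 / 6 = K at *
  set x : ι → ℝ := fun i => B.xp1 (d i) r (u i) (p i) with hx
  set y : ι → ℝ := fun i => B.xm1 (d i) r (u i) (p i) with hy
  set a : ι → ℝ := fun i => B.bp (d i) r with ha
  set b : ι → ℝ := fun i => B.bm (d i) r with hb
  change ∀ i, Real.sqrt (d i) * u i = x i + y i at hu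
  change ∀ i, Real.sqrt (d i) * p i = a i * x i + b i * y i at hp
  change ∀ i, 0 ≤ a i at hbp
  change ∀ i, b i ≤ _ at hbm
  change ∀ i, _ ≤ a i - b i at hD1
  change ∀ i, a i - b i ≤ _ at hD2
  change ∀ i, _ ≤ σ i * (a i - γ) at hs
  change g / 2 * (∑ i, (d i : ℝ) * (σ i ^ 2 * x i ^ 2) + ∑ i, (d i : ℝ) * y i ^ 2) -
      4 * K ^ 2 * δ ^ 2 / g * ∑ i, (d i : ℝ) * ((1 - σ i ^ 2) * x i ^ 2) ≤
      -2 * γ * ∑ i, (σ i * x i ^ 2 - y i ^ 2) +
      ∑ i, (σ i * (2 * x i * (a i * x i +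
          Real.sqrt (d i) * ((Q *ᵥ u) i - b i * (R *ᵥ p) i) / (a i - b i))) -
        2 * y i * (b i * y i +
          Real.sqrt (d i) * (a i * (R *ᵥ p) i - (Q *ᵥ u) i) / (a i - b i)))
  clear_value x y a b
  set w : ι → ℝ := fun i => Real.sqrt (d i) * (σ i * x i + y i) / (a i - b i) with hw
  set v : ι → ℝ := fun i => -(Real.sqrt (d i) * (a i * y i + b i * (σ i * x i)) / (a i - b i))
    with hv
  rw [← Finset.sum_add_distrib]
  set N := ∑ i, ((d i : ℝ) * (σ i ^ 2 * x i ^ 2) + (d i : ℝ) * y i ^ 2) with hN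
  set N' := ∑ i, (d i : ℝ) * ((1 - σ i ^ 2) * x i ^ 2) with hN'
  have hN0 : 0 ≤ N := Finset.sum_nonneg fun i _ => by positivity
  have hN1 : 0 ≤ N' := Finset.sum_nonneg fun i _ =>
    mul_nonneg (Nat.cast_nonneg _) (mul_nonneg (sub_nonneg.2 (hσ i)) (sq_nonneg _))
  have hM : N + N' = ∑ i, (d i : ℝ) * (x i ^ 2 + y i ^ 2) := by
    rw [hN, hN', ← Finset.sum_add_distrib]
    exact Finset.sum_congr rfl fun i _ => by ring
  have hDp : ∀ i, 0 < a i - b i := fun i => by linarith [hD1 i, hd1 i]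
  have b1 : nV d w ≤ N := Finset.sum_le_sum fun i _ => by
    simp only [hw]
    rw [div_pow, mul_pow, hsq, ← mul_div_assoc, div_le_iff₀ (pow_pos (hDp i) 2)]
    have h1 : (2 * (d i : ℝ)) ^ 2 ≤ (a i - b i) ^ 2 :=
      pow_le_pow_left₀ (by positivity) (hD1 i) 2
    have h2 : (σ i * x i + y i) ^ 2 ≤ 4 * (σ i ^ 2 * x i ^ 2 + y i ^ 2) := by
      nlinarith [sq_nonneg (σ i * x i - y i), sq_nonneg (σ i * x i), sq_nonneg (y i)]
    calc _ ≤ (d i : ℝ) ^ 2 * (d i * (4 * (σ i ^ 2 * x i ^ 2 + y i ^ 2))) := by gcongr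
      _ = ((d i : ℝ) * (σ i ^ 2 * x i ^ 2) + d i * y i ^ 2) * (2 * (d i : ℝ)) ^ 2 := by ring
      _ ≤ _ := by gcongr
  have b2 : n2 v ≤ N := Finset.sum_le_sum fun i _ => by
    simp only [hv]
    rw [neg_sq, div_pow, mul_pow, hsq, div_le_iff₀ (pow_pos (hDp i) 2)]
    have h1 := lyap_cs (a i) (b i) (y i) (σ i * x i) (hbp i) (by linarith [hbm i, hd1 i])
    calc _ ≤ (d i : ℝ) * ((a i - b i) ^ 2 * (y i ^ 2 + (σ i * x i) ^ 2)) := by gcongr
      _ = _ := by ring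
  have b3 : nV d u ≤ K ^ 2 * (N + N') := by
    rw [hM, Finset.mul_sum]
    refine Finset.sum_le_sum fun i _ => ?_
    have h1 : (d i : ℝ) * u i ^ 2 = (x i + y i) ^ 2 := by rw [← hu, mul_pow, hsq]
    have h2 : (x i + y i) ^ 2 ≤ K ^ 2 * (x i ^ 2 + y i ^ 2) := by
      have h3 : 4 ≤ K ^ 2 := by nlinarith
      nlinarith [sq_nonneg (x i - y i), sq_nonneg (x i), sq_nonneg (y i)]
    calc _ = (d i : ℝ) * ((d i : ℝ) * u i ^ 2) := by ring
      _ ≤ (d i : ℝ) * (K ^ 2 * (x i ^ 2 + y i ^ 2)) := by rw [h1]; gcongr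
      _ = _ := by ring
  have b4 : n2 p ≤ K ^ 2 * (N + N') := by
    rw [hM, Finset.mul_sum]
    refine Finset.sum_le_sum fun i _ => ?_
    have h1 : (d i : ℝ) * p i ^ 2 = (a i * x i + b i * y i) ^ 2 := by rw [← hp, mul_pow, hsq]
    have h2 := lyap_cs (a i) (b i) (x i) (y i) (hbp i) (by linarith [hbm i, hd1 i])
    have h3 : (a i - b i) ^ 2 ≤ (K * d i) ^ 2 := pow_le_pow_left₀ (hDp i).le (hD2 i) 2
    refine le_of_mul_le_mul_left ?_ (lt_of_lt_of_le one_pos (hd1 i))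
    calc _ ≤ (a i - b i) ^ 2 * (x i ^ 2 + y i ^ 2) := h1 ▸ h2
      _ ≤ (K * d i) ^ 2 * (x i ^ 2 + y i ^ 2) := by gcongr
      _ = _ := by ring
  have b5 : 2 * g * N ≤ ∑ i, 2 * (σ i * (a i - γ) * x i ^ 2 + (γ - b i) * y i ^ 2) := by
    rw [hN, Finset.mul_sum]
    refine Finset.sum_le_sum fun i _ => ?_
    have h1 := mul_le_mul_of_nonneg_right (hs i) (sq_nonneg (x i))
    have h2 : g * d i ≤ γ - b i := by nlinarith [hbm i, hd1 i]
    have h3 := mul_le_mul_of_nonneg_right h2 (sq_nonneg (y i))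
    nlinarith
  have q1 := (hP.abs_Q_le hδ w u).trans
    (mul_le_mul_of_nonneg_left (lyap_sqrt (by linarith) b1 b3) hδ)
  have q2 := (hP.abs_R_le hδ v p).trans
    (mul_le_mul_of_nonneg_left (lyap_sqrt (by linarith) b2 b4) hδ)
  have e : -2 * γ * ∑ i, (σ i * x i ^ 2 - y i ^ 2) +
      ∑ i, (σ i * (2 * x i * (a i * x i +
          Real.sqrt (d i) * ((Q *ᵥ u) i - b i * (R *ᵥ p) i) / (a i - b i))) -
        2 * y i * (b i * y i +
          Real.sqrt (d i) * (a i * (R *ᵥ p) i - (Q *ᵥ u) i) / (a i - b i))) =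
      ∑ i, 2 * (σ i * (a i - γ) * x i ^ 2 + (γ - b i) * y i ^ 2) + 2 * (w ⬝ᵥ Q *ᵥ u) +
        2 * (v ⬝ᵥ R *ᵥ p) := by
    simp only [dotProduct, Finset.mul_sum, ← Finset.sum_add_distrib, hw, hv]
    exact Finset.sum_congr rfl fun i _ => by ring
  rw [e]
  have s1 := Real.sq_sqrt hN0
  have s2 := Real.sq_sqrt (add_nonneg hN0 hN1)
  set c := 2 * K * δ with hc
  have hc0 : 0 ≤ c := by positivity
  have hc1 : c ≤ g / 2 := by
    have : δ * (4 * K) ≤ g := by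
      rwa [one_div, inv_mul_eq_div, le_div_iff₀ (by linarith)] at hδg
    linarith
  have h1 : 2 * c * (Real.sqrt N * Real.sqrt (N + N')) ≤ g * N + c ^ 2 / g * (N + N') := by
    have h2 : g * (g * N + c ^ 2 / g * (N + N')) = g ^ 2 * N + c ^ 2 * (N + N') := by
      field_simp
    refine le_of_mul_le_mul_left ?_ hg
    rw [h2]
    nlinarith [sq_nonneg (g * Real.sqrt N - c * Real.sqrt (N + N'))]
  have h3 : c ^ 2 / g ≤ g / 2 := by
    rw [div_le_iff₀ hg]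
    nlinarith
  have h4 : 4 * K ^ 2 * δ ^ 2 / g = c ^ 2 / g := by rw [hc]; ring
  have h5 := mul_le_mul_of_nonneg_right h3 hN0
  have h6 : 2 * c * (Real.sqrt N * Real.sqrt (N + N')) =
      4 * (δ * (K * (Real.sqrt N * Real.sqrt (N + N')))) := by rw [hc]; ring
  rw [h4]
  linarith [neg_abs_le (w ⬝ᵥ Q *ᵥ u), neg_abs_le (v ⬝ᵥ R *ᵥ p)]

theorem lyap (B : Bg) : ∃ δ₀ > 0, ∃ C : ℝ, 0 ≤ C ∧ ∀ (ι : Type) [Fintype ι] [DecidableEq ι]
    (d : ι → ℕ), (∀ i, 1 ≤ d i) → ∀ (R Q : ℝ → Matrix ι ι ℝ) (s t : ℝ) (u p : ℝ → ι → ℝ)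
    (U L : Set ι) (γ Γ : ℝ → ℝ) (g δ : ℝ), s ≤ t → B.Sol d R Q (Icc s t) u p → Disjoint U L →
    0 < g → g ≤ 1 → 0 ≤ δ → δ ≤ δ₀ * g →
    (∀ r ∈ Icc s t, HasDerivAt Γ (γ r) r ∧ 0 ≤ γ r ∧ Pb d δ (R r) (Q r) ∧
      (∀ i ∈ U, γ r + g * d i ≤ B.bp (d i) r) ∧ ∀ i ∈ L, B.bp (d i) r + g * d i ≤ γ r) →
    lyF U L (Γ s) (B.st d u p s) + g / 2 * ∫ r in s..t, Real.exp (-2 * Γ r)
        * (nW d (msk (U ∪ L) (B.xp d u p r)) + nW d (B.xm d u p r))
      ≤ lyF U L (Γ t) (B.st d u p t) + C * δ ^ 2 / g * ∫ r in s..t, Real.exp (-2 * Γ r)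
        * nW d (msk (U ∪ L)ᶜ (B.xp d u p r)) := by
  classical
  have hK : 2 ≤ 2 + B.β₀ + 1 / 6 := by linarith [B.b_pos, B.b_le]
  set K := 2 + B.β₀ + 1 / 6 with hKdef
  refine ⟨1 / (4 * K), by positivity, 4 * K ^ 2, by positivity, ?_⟩
  intro ι _ _ d hd R Q s t u p U L γ Γ g δ hst hS hUL hg hg1 hδ hδg H
  set σ : ι → ℝ := fun i => if i ∈ U then 1 else if i ∈ L then -1 else 0 with hσ
  have hL : ∀ i ∈ U, i ∉ L := fun i hi => Set.disjoint_left.1 hUL hi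
  have e1 : ∀ (G : ℝ) (z : St ι), lyF U L G z =
      Real.exp (-2 * G) * ∑ i, (σ i * z.1 i ^ 2 - z.2 i ^ 2) := by
    intro G z
    simp only [lyF, n2, ← Finset.sum_sub_distrib]
    congr 1
    refine Finset.sum_congr rfl fun i _ => ?_
    by_cases h1 : i ∈ U
    · simp [msk, hσ, h1, hL i h1]
    · by_cases h2 : i ∈ L <;> simp [msk, hσ, h1, h2]
  have e2 : ∀ x : ι → ℝ, nW d (msk (U ∪ L) x) = ∑ i, (d i : ℝ) * (σ i ^ 2 * x i ^ 2) := by
    intro x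
    refine Finset.sum_congr rfl fun i _ => ?_
    by_cases h1 : i ∈ U
    · simp [msk, hσ, h1]
    · by_cases h2 : i ∈ L <;> simp [msk, hσ, h1, h2]
  have e3 : ∀ x : ι → ℝ, nW d (msk (U ∪ L)ᶜ x) = ∑ i, (d i : ℝ) * ((1 - σ i ^ 2) * x i ^ 2) := by
    intro x
    refine Finset.sum_congr rfl fun i _ => ?_
    by_cases h1 : i ∈ U
    · simp [msk, hσ, h1]
    · by_cases h2 : i ∈ L <;> simp [msk, hσ, h1, h2]
  have hσ1 : ∀ i, σ i ^ 2 ≤ 1 := fun i => by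
    simp only [hσ]; split_ifs <;> norm_num
  simp only [e1, e2, e3]
  have cx : ∀ i, ContinuousOn (fun r => B.xp d u p r i) (Icc s t) := fun i r hr =>
    (hS.hasDerivAt_xp hr i).continuousAt.continuousWithinAt
  have cy : ∀ i, ContinuousOn (fun r => B.xm d u p r i) (Icc s t) := fun i r hr =>
    (hS.hasDerivAt_xm hr i).continuousAt.continuousWithinAt
  have cΓ : ContinuousOn Γ (Icc s t) := fun r hr => (H r hr).1.continuousAt.continuousWithinAt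
  have c1 : ContinuousOn (fun r => Real.exp (-2 * Γ r) *
      (∑ i, (d i : ℝ) * (σ i ^ 2 * B.xp d u p r i ^ 2) + nW d (B.xm d u p r))) (Icc s t) := by
    unfold nW
    fun_prop
  have c2 : ContinuousOn (fun r => Real.exp (-2 * Γ r) *
      ∑ i, (d i : ℝ) * ((1 - σ i ^ 2) * B.xp d u p r i ^ 2)) (Icc s t) := by
    fun_prop
  have hD := fun r (hr : r ∈ Icc s t) => (((H r hr).1.const_mul (-2)).exp).fun_mul
    (HasDerivAt.fun_sum (u := Finset.univ) fun i _ =>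
      (((hS.hasDerivAt_xp hr i).fun_pow 2).const_mul (σ i)).fun_sub
        ((hS.hasDerivAt_xm hr i).fun_pow 2))
  have key := intervalIntegral.integral_le_sub_of_hasDeriv_right_of_le hst
    (fun r hr => (hD r hr).continuousAt.continuousWithinAt)
    (fun r hr => (hD r (Ioo_subset_Icc_self hr)).hasDerivWithinAt)
    (((c1.const_mul (g / 2)).fun_sub (c2.const_mul (4 * K ^ 2 * δ ^ 2 / g))).integrableOn_Icc) ?_
  · rw [← uIcc_of_le hst] at c1 c2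
    rw [intervalIntegral.integral_sub (c1.intervalIntegrable.const_mul _)
      (c2.intervalIntegrable.const_mul _), intervalIntegral.integral_const_mul,
      intervalIntegral.integral_const_mul] at key
    simp only [Bg.st]
    linarith
  · intro r hr
    obtain ⟨-, h2, h3, h4, h5⟩ := H r (Ioo_subset_Icc_self hr)
    have h6 := lyap_ineq B hd σ hσ1 r (u r) (p r) h3 hg hg1 hδ h2 hδg (fun i => by
      simp only [hσ]
      split_ifs with h h'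
      · linarith [h4 i h]
      · linarith [h5 i h']
      · simp)
    have h7 := mul_le_mul_of_nonneg_left h6 (Real.exp_pos (-2 * Γ r)).le
    rw [← hKdef] at h7
    simp only [Bg.xp, Bg.xm, nW] at h7 ⊢
    simp only [Nat.cast_ofNat, Nat.add_one_sub_one, pow_one]
    linarith

/-- Cuts for small perturbations: `U = univ, γ = 0, g = 1`, and `U = {l < d}`, `γ = l + 1/2`,
`g = 1/(3(l+1))`. -/
theorem cut_diag (B : Bg) : ∃ δ₀ > 0, ∀ (ι : Type) [Fintype ι] [DecidableEq ι]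
    (d : ι → ℕ), (∀ i, 1 ≤ d i) → ∀ (R Q : ℝ → Matrix ι ι ℝ) (s t δ : ℝ) (z z' : St ι),
    s ≤ t → 0 ≤ δ → (∀ r ∈ Icc s t, Pb d δ (R r) (Q r)) → B.Rel d R Q s t z z' →
    (δ ≤ δ₀ → Cut univ 0 1 z z') ∧
      ∀ l : ℕ, δ * (l + 1) ≤ δ₀ → Cut {i | l < d i} ((l + 1 / 2) * (t - s)) 1 z z' := by
  obtain ⟨δ₀, hδ₀, C, hC, H⟩ := lyap B
  refine ⟨δ₀ / 3, by positivity, ?_⟩
  intro ι _ _ d hd R Q s t δ z z' hst hδ hP ⟨u, p, hS, hz, hz'⟩
  have key : ∀ (U : Set ι) (γ g : ℝ), 0 ≤ γ → 0 < g → g ≤ 1 → δ ≤ δ₀ * g →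
      (∀ r, ∀ i ∈ U, γ + g * d i ≤ B.bp (d i) r) → (∀ r, ∀ i ∈ Uᶜ, B.bp (d i) r + g * d i ≤ γ) →
      Cut U (γ * (t - s)) 1 z z' := by
    intro U γ g hγ hg hg1 hδg h1 h2
    have h3 := H ι d hd R Q s t u p U Uᶜ (fun _ => γ) (fun r => γ * (r - s)) g δ hst hS
      disjoint_compl_right hg hg1 hδ hδg fun r hr =>
        ⟨by simpa using ((hasDerivAt_id r).sub_const s).const_mul γ, hγ, hP r hr, h1 r, h2 r⟩
    have h4 : 0 ≤ ∫ r in s..t, Real.exp (-2 * (γ * (r - s)))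
        * (nW d (msk (U ∪ Uᶜ) (B.xp d u p r)) + nW d (B.xm d u p r)) :=
      intervalIntegral.integral_nonneg hst fun r _ => by unfold nW; positivity
    have h5 : ∀ x : ι → ℝ, nW d (msk (U ∪ Uᶜ)ᶜ x) = 0 := fun x => by simp [nW, msk]
    simp only [h5, mul_zero, intervalIntegral.integral_zero, add_zero, hz, hz', lyF, sub_self,
      Real.exp_zero, one_mul] at h3
    have h6 := mul_le_mul_of_nonneg_left ((le_add_of_nonneg_right
      (mul_nonneg (by linarith : 0 ≤ g / 2) h4)).trans h3) (Real.exp_pos (2 * (γ * (t - s)))).le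
    rw [← mul_assoc (Real.exp _), ← Real.exp_add, show 2 * (γ * (t - s)) + -2 * (γ * (t - s)) = 0 by ring,
      Real.exp_zero, one_mul] at h6
    unfold Cut
    linarith
  refine ⟨fun h => ?_, fun l h => ?_⟩
  · simpa using key univ 0 1 le_rfl one_pos le_rfl (by linarith)
      (fun r i _ => by simpa using B.bp_ge (d i) r) (fun r i hi => absurd trivial hi)
  · have hl : (0 : ℝ) ≤ l := Nat.cast_nonneg l
    have hg : ∀ x : ℝ, 1 / (3 * ((l : ℝ) + 1)) * x = x / (3 * (l + 1)) := fun x => by ring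
    refine key _ _ (1 / (3 * ((l : ℝ) + 1))) (by positivity) (by positivity) ?_ ?_ ?_ ?_
    · rw [div_le_one (by positivity)]; linarith
    · rw [mul_one_div, le_div_iff₀ (by positivity)]; linarith
    · intro r i hi
      have h1 : (l : ℝ) + 1 ≤ d i := by exact_mod_cast (show l < d i from hi)
      have h2 : (d i : ℝ) / (3 * (l + 1)) ≤ d i - l - 1 / 2 := by
        rw [div_le_iff₀ (by positivity)]
        nlinarith
      rw [hg]
      linarith [B.bp_ge (d i) r]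
    · intro r i hi
      have h1 : (d i : ℝ) ≤ l := by exact_mod_cast (not_lt.1 (show ¬ l < d i from hi))
      have h2 : (d i : ℝ) / (3 * (l + 1)) ≤ 1 / 3 := by
        rw [div_le_iff₀ (by positivity)]
        linarith
      have h3 : B.bp (d i) r ≤ B.a (d i) := B.bp_le (d i) r
      rw [hg]
      linarith [B.a_le (d i)]

end Crest.Agent.R202
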