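import Crest.Agent.R202.OdeBasic

/-!
# R202/OdeResAux: the algebra of the resolvent Lyapunov function (no diagonalisation is needed)
-/

open scoped ContDiff Topology Matrix
open Set Filter

noncomputable section

namespace Crest.Agent.R202

variable {ι : Type} [Fintype ι]

theorem resAux_n2 (x : ι → ℝ) : n2 x = x ⬝ᵥ x := by
  simp only [n2, dotProduct, sq]

theorem resAux_n2_nonneg (x : ι → ℝ) : 0 ≤ n2 x := Finset.sum_nonneg fun _ _ => sq_nonneg _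

theorem resAux_nV_nonneg (d : ι → ℕ) (x : ι → ℝ) : 0 ≤ nV d x :=
  Finset.sum_nonneg fun _ _ => by positivity

theorem resAux_sq (θ : ℝ) (x y : ι → ℝ) : 2 * θ * (x ⬝ᵥ y) ≤ θ ^ 2 * n2 x + n2 y := by
  simp only [n2, dotProduct, Finset.mul_sum, ← Finset.sum_add_distrib]
  exact Finset.sum_le_sum fun i _ => by nlinarith [sq_nonneg (θ * x i - y i)]

theorem resAux_abs {x y : ι → ℝ} {W : ℝ} (hx : n2 x ≤ W) (hy : n2 y ≤ W) : |x ⬝ᵥ y| ≤ W := by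
  have h1 := resAux_sq 1 x y
  have h2 := resAux_sq (-1) x y
  exact abs_le.2 ⟨by linarith, by linarith⟩

theorem resAux_le_nV {d : ι → ℕ} (hd : ∀ i, 1 ≤ d i) (x : ι → ℝ) : n2 x ≤ nV d x :=
  Finset.sum_le_sum fun i _ => by
    have : (1 : ℝ) ≤ d i := by exact_mod_cast hd i
    exact le_mul_of_one_le_left (sq_nonneg _) (one_le_pow₀ this)

theorem resAux_symm {A : Matrix ι ι ℝ} (hA : Aᵀ = A) (x y : ι → ℝ) :
    x ⬝ᵥ A *ᵥ y = y ⬝ᵥ A *ᵥ x := by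
  rw [Matrix.dotProduct_mulVec, ← Matrix.mulVec_transpose, hA, dotProduct_comm]

theorem resAux_mul {x y a b : ℝ} (hx : |x| ≤ a) (hy : |y| ≤ b) : -(a * b) ≤ x * y :=
  neg_le_of_abs_le (by rw [abs_mul]; exact mul_le_mul hx hy (abs_nonneg _) ((abs_nonneg _).trans hx))

theorem resAux_amul {x y a b : ℝ} (hx : |x| ≤ a) (hy : |y| ≤ b) : |x * y| ≤ a * b := by
  rw [abs_mul]; exact mul_le_mul hx hy (abs_nonneg _) ((abs_nonneg _).trans hx)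

/-- the final inequality between real numbers -/
theorem resAux_real {L ε M b m κ κ' e₁ e₂ Y Z Tz yz yy ay az yv zv wv wy qa qc qw vv : ℝ}
    (hL : 1 ≤ L) (hM : M = 11 * L ^ 9) (hb : 1 ≤ L * b) (hbm : b ≤ m) (hm : m ≤ L) (hκ0 : 0 ≤ κ)
    (hκ : κ ≤ L) (hε0 : 0 ≤ ε) (hε : ε * (8448 * L ^ 14) ≤ 1) (h₁ : |e₁| ≤ 2 * L * ε)
    (h₂ : |e₂| ≤ ε) (hκ' : |κ'| ≤ L * ε) (hY : 0 ≤ Y) (hZ : 0 ≤ Z) (hT : 0 ≤ Tz)
    (m1 : 4 * m * yz ≤ Y + 4 * m ^ 2 * Tz) (m2 : 2 * (4 * κ * m) * yv ≤ (4 * κ * m) ^ 2 * vv + yy)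
    (m3 : 2 * (-κ) * zv ≤ (-κ) ^ 2 * vv + Z) (m4 : vv ≤ 8 * L ^ 4 * Tz) (m5 : yy ≤ 2 * Y)
    (b1 : |az| ≤ 8 * L ^ 3 * (Y + Z)) (b2 : |Tz| ≤ 8 * L ^ 3 * (Y + Z))
    (b3 : |ay| ≤ 8 * L ^ 3 * (Y + Z)) (b4 : |yy| ≤ 8 * L ^ 3 * (Y + Z))
    (b5 : |yz| ≤ 8 * L ^ 3 * (Y + Z)) (b6 : |yv| ≤ 8 * L ^ 3 * (Y + Z))
    (b7 : |wv| ≤ 8 * L ^ 3 * (Y + Z)) (b8 : |wy| ≤ 8 * L ^ 3 * (Y + Z))
    (q1 : |qa| ≤ ε * (8 * L ^ 3 * (Y + Z))) (q2 : |qc| ≤ ε * (8 * L ^ 3 * (Y + Z)))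
    (q3 : |qw| ≤ ε * (8 * L ^ 3 * (Y + Z))) :
    0 ≤ M * (2 * m * Tz + 2 * e₁ * az + 2 * e₂ * Tz - κ' * ay + κ * qa + qc) + Z + Y - m * yz -
      e₁ * yy - e₂ * yz + κ' * yv + κ * zv - κ * qw + κ * κ' * wv - κ * m * yv - κ * e₁ * wy -
      κ * e₂ * yv := by
  have hL0 : 0 < L := by linarith
  have hb0 : 0 < b := by by_contra h; nlinarith
  have hm0 : 0 ≤ m := by linarith
  have hM1 : 1 ≤ M := by rw [hM]; nlinarith [one_le_pow₀ (n := 9) hL]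
  have hM0 : 0 ≤ M := by linarith
  -- the main part
  have g1 : 21 * L ^ 8 ≤ 2 * M * m := by
    rw [hM]
    calc 21 * L ^ 8 ≤ 22 * L ^ 8 * 1 := by nlinarith [pow_pos hL0 8]
      _ ≤ 22 * L ^ 8 * (L * m) := by gcongr; nlinarith
      _ = _ := by ring
  have g2 : m ^ 2 ≤ L ^ 8 := (pow_le_pow_left₀ hm0 hm 2).trans (pow_le_pow_right₀ hL (by norm_num))
  have g3 : κ ^ 2 ≤ L ^ 4 := (pow_le_pow_left₀ hκ0 hκ 2).trans (pow_le_pow_right₀ hL (by norm_num))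
  have g4 : (κ * m) ^ 2 ≤ L ^ 4 := by
    calc (κ * m) ^ 2 ≤ (L * L) ^ 2 := by gcongr
      _ = _ := by ring
  have g5 : (2 * (κ * m) ^ 2 + κ ^ 2 / 2) * vv ≤ 20 * L ^ 8 * Tz := by
    calc _ ≤ (2 * (κ * m) ^ 2 + κ ^ 2 / 2) * (8 * L ^ 4 * Tz) := by gcongr
      _ ≤ (2 * L ^ 4 + L ^ 4 / 2) * (8 * L ^ 4 * Tz) := by gcongr
      _ = _ := by ring
  have g6 := mul_le_mul_of_nonneg_right g1 hT
  have g7 := mul_le_mul_of_nonneg_right g2 hT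
  have main : (Y + Z) / 2 ≤ M * (2 * m * Tz) + Z + Y - m * yz + κ * zv - κ * m * yv := by
    linarith
  -- the errors
  obtain ⟨W, hW⟩ : ∃ W, W = 8 * L ^ 3 * (Y + Z) := ⟨_, rfl⟩
  rw [← hW] at b1 b2 b3 b4 b5 b6 b7 b8 q1 q2 q3
  obtain ⟨P, hP⟩ : ∃ P, P = 4 * M * L ^ 2 := ⟨_, rfl⟩
  have hL2 : L ≤ L ^ 2 := by nlinarith
  have hML : L ^ 2 ≤ M * L ^ 2 := le_mul_of_one_le_left (by positivity) hM1
  have hML1 : M * L ≤ M * L ^ 2 := by gcongr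
  have hML2 : M ≤ M * L ^ 2 := le_mul_of_one_le_right hM0 (one_le_pow₀ hL)
  have hML3 : 0 ≤ M * L ^ 2 := by positivity
  have aM : |M| ≤ M := (abs_of_nonneg hM0).le
  have aκ : |κ| ≤ L := by rwa [abs_of_nonneg hκ0]
  have c : ∀ {x u : ℝ}, |x| ≤ u * ε → u ≤ P → |x| ≤ P * ε := fun h h' =>
    h.trans (mul_le_mul_of_nonneg_right h' hε0)
  have a2 : |(2 : ℝ)| ≤ 2 := by norm_num
  have t1 := resAux_mul (c (u := 4 * (M * L))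
    ((resAux_amul aM (resAux_amul a2 h₁)).trans (le_of_eq (by ring))) (by linarith)) b1
  have t2 := resAux_mul (c (u := 2 * M)
    ((resAux_amul aM (resAux_amul a2 h₂)).trans (le_of_eq (by ring))) (by linarith)) b2
  have t3 := resAux_mul (c (u := M * L) (x := -(M * κ'))
    (by rw [abs_neg]; exact (resAux_amul aM hκ').trans (le_of_eq (by ring))) (by linarith)) b3
  have t4 := resAux_mul ((resAux_amul aM aκ).trans (show M * L ≤ P by linarith)) q1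
  have t5 := resAux_mul (aM.trans (show M ≤ P by linarith)) q2
  have t6 := resAux_mul (c (u := 2 * L) (x := -e₁) (by rwa [abs_neg]) (by linarith)) b4
  have t7 := resAux_mul (c (u := 1) (x := -e₂) (by rwa [abs_neg, one_mul]) (by linarith)) b5
  have t8 := resAux_mul (c (u := L) hκ' (by linarith)) b6
  have t9 := resAux_mul (x := -κ) (a := P) (by rw [abs_neg]; exact aκ.trans (show L ≤ P by linarith)) q3
  have t10 := resAux_mul (c (u := L ^ 2) ((resAux_amul aκ hκ').trans (le_of_eq (by ring)))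
    (by linarith)) b7
  have t11 := resAux_mul (c (u := 2 * L ^ 2) (x := -(κ * e₁))
    (by rw [abs_neg]; exact (resAux_amul aκ h₁).trans (le_of_eq (by ring))) (by linarith)) b8
  have t12 := resAux_mul (c (u := L) (x := -(κ * e₂))
    (by rw [abs_neg]; exact resAux_amul aκ h₂) (by linarith)) b6
  have tot : 12 * (P * ε * W) ≤ (Y + Z) / 2 := by
    calc 12 * (P * ε * W) = ε * (8448 * L ^ 14) * ((Y + Z) / 2) := by rw [hP, hW, hM]; ring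
      _ ≤ 1 * ((Y + Z) / 2) := by gcongr
      _ = _ := one_mul _
  linarith

/-- the derivative of the Lyapunov function is nonnegative -/
theorem resAux_alg {d : ι → ℕ} (hd : ∀ i, 1 ≤ d i) {L ε M b m κ κ' e₁ e₂ : ℝ}
    (hL : 1 ≤ L) (hM : M = 11 * L ^ 9) (hb : 1 ≤ L * b) (hbm : b ≤ m) (hm : m ≤ L) (hκ0 : 0 ≤ κ)
    (hκ : κ ≤ L) (hε0 : 0 ≤ ε) (hε : ε * (8448 * L ^ 14) ≤ 1) (h₁ : |e₁| ≤ 2 * L * ε)
    (h₂ : |e₂| ≤ ε) (hκ' : |κ'| ≤ L * ε) {A Q' : Matrix ι ι ℝ} (hA : Aᵀ = A)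
    (hpos : ∀ x, nV d x ≤ 2 * (x ⬝ᵥ A *ᵥ x)) (hgap : ∀ x, n2 x ≤ L ^ 2 * n2 (A *ᵥ x - κ • x))
    (hQ : ∀ x y, 2 * |x ⬝ᵥ Q' *ᵥ y| ≤ ε * (nV d x + nV d y)) {y z z' a a' c c' w w' v : ι → ℝ}
    (ha : A *ᵥ a = y) (hc : A *ᵥ c = z) (hw : A *ᵥ w - κ • w = y) (hv : A *ᵥ v - κ • v = z)
    (hz' : z' = A *ᵥ y - κ • y - m • z - e₁ • y - e₂ • z) (ha' : A *ᵥ a' = z - Q' *ᵥ a)
    (hc' : A *ᵥ c' = z' - Q' *ᵥ c) (hw' : A *ᵥ w' - κ • w' = z - (Q' *ᵥ w - κ' • w)) :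
    0 ≤ M * ((z ⬝ᵥ y + y ⬝ᵥ z) - (κ' * (a ⬝ᵥ y) + κ * (a' ⬝ᵥ y + a ⬝ᵥ z)) - (c' ⬝ᵥ z + c ⬝ᵥ z')) +
      (z ⬝ᵥ z + y ⬝ᵥ z') + (κ' * (w ⬝ᵥ z) + κ * (w' ⬝ᵥ z + w ⬝ᵥ z')) := by
  have hL0 : 0 < L := by linarith
  have sy := resAux_symm hA
  have sκ : ∀ x x' : ι → ℝ, x ⬝ᵥ (A *ᵥ x' - κ • x') = x' ⬝ᵥ (A *ᵥ x - κ • x) := fun x x' => by
    rw [dotProduct_sub, dotProduct_sub, sy x x', dotProduct_smul, dotProduct_smul,
      dotProduct_comm x x']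
  have e1 : c ⬝ᵥ y = a ⬝ᵥ z := by rw [← ha, sy, hc]
  have e2 : w ⬝ᵥ z = v ⬝ᵥ y := by rw [← hv, sκ, hw]
  have e3 : a' ⬝ᵥ y = a ⬝ᵥ z - a ⬝ᵥ Q' *ᵥ a := by
    conv_lhs => rw [← ha, sy, ha', dotProduct_sub]
  have e4 : c ⬝ᵥ A *ᵥ y = y ⬝ᵥ z := by rw [sy, hc]
  have e5 : c' ⬝ᵥ z = c ⬝ᵥ z' - c ⬝ᵥ Q' *ᵥ c := by
    conv_lhs => rw [← hc, sy, hc', dotProduct_sub]
  have e6 : w' ⬝ᵥ z = v ⬝ᵥ z - v ⬝ᵥ Q' *ᵥ w + κ' * (v ⬝ᵥ w) := by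
    conv_lhs => rw [← hv, sκ, hw', dotProduct_sub, dotProduct_sub, dotProduct_smul, smul_eq_mul]
    ring
  have e7 : w ⬝ᵥ (A *ᵥ y - κ • y) = y ⬝ᵥ y := by rw [sκ, hw]
  have f1 : c ⬝ᵥ z' = y ⬝ᵥ z - κ * (a ⬝ᵥ z) - m * (c ⬝ᵥ z) - e₁ * (a ⬝ᵥ z) - e₂ * (c ⬝ᵥ z) := by
    rw [hz']
    simp only [dotProduct_sub, dotProduct_smul, smul_eq_mul, e1, e4]
  have f2 : y ⬝ᵥ z' =
      y ⬝ᵥ A *ᵥ y - κ * (y ⬝ᵥ y) - m * (y ⬝ᵥ z) - e₁ * (y ⬝ᵥ y) - e₂ * (y ⬝ᵥ z) := by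
    rw [hz']
    simp only [dotProduct_sub, dotProduct_smul, smul_eq_mul]
  have f3 : w ⬝ᵥ z' = y ⬝ᵥ y - m * (v ⬝ᵥ y) - e₁ * (w ⬝ᵥ y) - e₂ * (v ⬝ᵥ y) := by
    rw [hz', dotProduct_sub, dotProduct_sub, dotProduct_sub, e7]
    simp only [dotProduct_smul, smul_eq_mul, e2]
  -- sizes
  have hle := resAux_le_nV hd
  have hn := fun x : ι → ℝ => resAux_n2_nonneg x
  have hy : n2 y ≤ 2 * (y ⬝ᵥ A *ᵥ y) := (hle y).trans (hpos y)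
  have hY : 0 ≤ y ⬝ᵥ A *ᵥ y := by linarith [hn y]
  have hZ : n2 z = z ⬝ᵥ z := resAux_n2 z
  have hZ0 : 0 ≤ z ⬝ᵥ z := hZ ▸ hn z
  have k1 : ∀ x x' : ι → ℝ, A *ᵥ x = x' → nV d x ≤ 4 * n2 x' := fun x x' h => by
    have h1 := hpos x
    have h2 := resAux_sq (1 / 2) x x'
    rw [h] at h1
    linarith [hle x]
  have hL2 : 1 ≤ L ^ 2 := one_le_pow₀ hL
  have hL3 : L ^ 2 ≤ L ^ 3 := pow_le_pow_right₀ hL (by norm_num)
  have k2 : ∀ x x' : ι → ℝ, A *ᵥ x - κ • x = x' → nV d x ≤ 4 * L ^ 3 * n2 x' := fun x x' h => by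
    have h1 := hpos x
    have h2 := resAux_sq 1 x x'
    have h3 := hgap x
    have h4 : x ⬝ᵥ A *ᵥ x = x ⬝ᵥ x' + κ * n2 x := by
      rw [← h, dotProduct_sub, dotProduct_smul, smul_eq_mul, resAux_n2]; ring
    rw [h] at h3
    have h5 : κ * n2 x ≤ L * (L ^ 2 * n2 x') := mul_le_mul hκ h3 (hn x) hL0.le
    have h6 := mul_le_mul_of_nonneg_right hL3 (hn x')
    have h7 := mul_le_mul_of_nonneg_right (hL2.trans hL3) (hn x')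
    linarith
  obtain ⟨N, hN⟩ : ∃ N, N = y ⬝ᵥ A *ᵥ y + z ⬝ᵥ z := ⟨_, rfl⟩
  have hN0 : 0 ≤ N := by linarith
  have hN1 : N ≤ L ^ 3 * N := le_mul_of_one_le_left hN0 (hL2.trans hL3)
  have ny : n2 y ≤ 2 * N := by linarith
  have nz : n2 z ≤ 2 * N := by linarith
  have va : nV d a ≤ 8 * L ^ 3 * N := by linarith [k1 a y ha]
  have vc : nV d c ≤ 8 * L ^ 3 * N := by linarith [k1 c z hc]
  have hL30 : 0 ≤ 4 * L ^ 3 := by positivity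
  have vw : nV d w ≤ 8 * L ^ 3 * N := by linarith [k2 w y hw, mul_le_mul_of_nonneg_left ny hL30]
  have vv : nV d v ≤ 8 * L ^ 3 * N := by linarith [k2 v z hv, mul_le_mul_of_nonneg_left nz hL30]
  have ny' : n2 y ≤ 8 * L ^ 3 * N := by linarith
  have nz' : n2 z ≤ 8 * L ^ 3 * N := by linarith
  have na := (hle a).trans va
  have nc := (hle c).trans vc
  have nw := (hle w).trans vw
  have nv := (hle v).trans vv
  have hq : ∀ x x' : ι → ℝ, nV d x ≤ 8 * L ^ 3 * N → nV d x' ≤ 8 * L ^ 3 * N →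
      |x ⬝ᵥ Q' *ᵥ x'| ≤ ε * (8 * L ^ 3 * N) := fun x x' h h' => by
    linarith [hQ x x', mul_le_mul_of_nonneg_left (add_le_add h h') hε0]
  have hcT : n2 c ≤ 2 * (c ⬝ᵥ z) := by
    have := (hle c).trans (hpos c)
    rwa [hc] at this
  have hT : 0 ≤ c ⬝ᵥ z := by linarith [hn c]
  have m1 : 4 * m * (y ⬝ᵥ z) ≤ y ⬝ᵥ A *ᵥ y + 4 * m ^ 2 * (c ⬝ᵥ z) := by
    have h := (resAux_nV_nonneg d _).trans (hpos (y - (2 * m) • c))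
    rw [Matrix.mulVec_sub, Matrix.mulVec_smul, hc] at h
    simp only [dotProduct_sub, sub_dotProduct, dotProduct_smul, smul_dotProduct, smul_eq_mul,
      e4] at h
    linarith
  have m4 : n2 v ≤ 8 * L ^ 4 * (c ⬝ᵥ z) := by
    have h1 := hgap (v - c)
    have h2 : A *ᵥ (v - c) - κ • (v - c) = κ • c := by
      rw [Matrix.mulVec_sub, smul_sub, hc, ← hv]; abel
    have h3 : n2 (κ • c) = κ ^ 2 * n2 c := by
      simp only [resAux_n2, dotProduct_smul, smul_dotProduct, smul_eq_mul]; ring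
    have h4 : n2 v ≤ 2 * n2 (v - c) + 2 * n2 c := by
      have := resAux_sq 1 (v - c) c
      simp only [resAux_n2, dotProduct_sub, sub_dotProduct, dotProduct_comm c v] at this ⊢
      linarith
    rw [h2, h3] at h1
    have h5 : L ^ 2 * (κ ^ 2 * n2 c) ≤ L ^ 2 * (L ^ 2 * n2 c) := by have := hn c; gcongr
    have h6 : n2 c ≤ L ^ 4 * n2 c := le_mul_of_one_le_left (hn c) (one_le_pow₀ hL)
    have h7 : L ^ 4 * n2 c ≤ L ^ 4 * (2 * (c ⬝ᵥ z)) := by gcongr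
    linarith
  have key := resAux_real (vv := n2 v) (zv := v ⬝ᵥ z) (wv := v ⬝ᵥ w) hL hM hb hbm hm hκ0 hκ hε0 hε
    h₁ h₂ hκ' hY hZ0 hT m1
    (by rw [← resAux_n2 y]; exact resAux_sq _ v y) (by rw [← hZ]; exact resAux_sq _ v z) m4
    (resAux_n2 y ▸ hy) (hN ▸ resAux_abs na nz') (hN ▸ resAux_abs nc nz') (hN ▸ resAux_abs na ny')
    (hN ▸ resAux_abs ny' ny') (hN ▸ resAux_abs ny' nz') (hN ▸ resAux_abs nv ny')
    (hN ▸ resAux_abs nv nw) (hN ▸ resAux_abs nw ny') (hN ▸ hq a a va va) (hN ▸ hq c c vc vc)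
    (hN ▸ hq v w vv vw)
  rw [e5, f1, f2, f3, e2, e3, e6, dotProduct_comm z y]
  linarith

end Crest.Agent.R202
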