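import Crest.Agent.R202.OdeResAux

/-!
# R202/OdeResAux2: the resolvent Lyapunov function on a single mode
-/

namespace Crest.Agent.R202

/-- size of the coefficients of the quadratic form -/
theorem resAux_coef {L M l σ ia ρ P P' : ℝ} (hL : 1 ≤ L) (hM : 1 ≤ M) (hl : 1 ≤ l)
    (hσ : |σ| ≤ 2 * L) (hia0 : 0 ≤ ia) (hia : ia * l ^ 2 ≤ 1) (hρ : |ρ| ≤ 2 * L ^ 2)
    (hP : |P| ≤ 4 * L * l) (hP' : |P'| ≤ 4 * L * l) :
    |M * (σ - ia * (P * P')) + ρ * ((P + P') / 2)| ≤ 26 * M * L ^ 3 * l := by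
  have hL0 : 0 < L := by linarith
  have hM0 : 0 < M := by linarith
  have h1 : |ia * (P * P')| ≤ 16 * L ^ 2 := by
    calc |ia * (P * P')| ≤ ia * (4 * L * l * (4 * L * l)) :=
          resAux_amul (abs_of_nonneg hia0).le (resAux_amul hP hP')
      _ = 16 * L ^ 2 * (ia * l ^ 2) := by ring
      _ ≤ 16 * L ^ 2 * 1 := by gcongr
      _ = _ := mul_one _
  have h2 : |(P + P') / 2| ≤ 4 * L * l := by
    rw [abs_div, abs_two]
    linarith [abs_add_le P P']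
  have h3 : L ≤ L ^ 3 := le_self_pow₀ hL (by norm_num)
  have h4 : L ^ 2 ≤ L ^ 3 := pow_le_pow_right₀ hL (by norm_num)
  have h5 : |σ - ia * (P * P')| ≤ 18 * L ^ 3 := by linarith [abs_sub σ (ia * (P * P'))]
  have h6 := resAux_amul (abs_of_nonneg hM0.le).le h5
  have h7 := resAux_amul hρ h2
  have h8 : M * L ^ 3 ≤ M * L ^ 3 * l := le_mul_of_one_le_right (by positivity) hl
  have h9 : L ^ 3 * l ≤ M * (L ^ 3 * l) := le_mul_of_one_le_left (by positivity) hM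
  linarith [abs_add_le (M * (σ - ia * (P * P'))) (ρ * ((P + P') / 2))]

/-- the growing modes -/
theorem resAux_quad {L D l q A B E X Y : ℝ} (hL : 1 ≤ L) (hD : 1 ≤ D) (hl : 1 ≤ l)
    (hq : l * q = A * X ^ 2 + 2 * B * (X * Y) + E * Y ^ 2) (hA : |A| ≤ D * l) (hB : |B| ≤ D * l)
    (hE : |E| ≤ D * l) :
    -(9 * L * D ^ 2 * (X ^ 2 + Y ^ 2)) ≤ q ∧ (l ≤ 4 * L * A → E ≤ -l →
      X ^ 2 ≤ 16 * L ^ 3 * (q + 9 * L * D ^ 2 * Y ^ 2) ∧
        Y ^ 2 ≤ 16 * L ^ 3 * (9 * L * D ^ 2 * X ^ 2 - q)) := by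
  have hL0 : 0 < L := by linarith
  have hl0 : 0 < l := by linarith
  have hD0 : 0 < D := by linarith
  have hX := sq_nonneg X
  have hY := sq_nonneg Y
  have hD2 : D ≤ D ^ 2 := le_self_pow₀ hD (by norm_num)
  have hD3 : D ^ 2 ≤ L * D ^ 2 := le_mul_of_one_le_left (by positivity) hL
  have a1 := mul_le_mul_of_nonneg_right (abs_le.1 hA).1 hX
  have a2 := mul_le_mul_of_nonneg_right (abs_le.1 hA).2 hX
  have e1 := mul_le_mul_of_nonneg_right (abs_le.1 hE).1 hY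
  have b0 : |B * (X * Y)| ≤ D * l * (|X| * |Y|) := resAux_amul hB (abs_mul X Y).le
  have b1 := (abs_le.1 b0).1
  have b2 := (abs_le.1 b0).2
  have sX := sq_abs X
  have sY := sq_abs Y
  have lX := mul_nonneg hl0.le hX
  have lY := mul_nonneg hl0.le hY
  refine ⟨?_, fun h1 h2 => ⟨?_, ?_⟩⟩
  · refine le_of_mul_le_mul_left ?_ hl0
    have c1 : 2 * (|X| * |Y|) ≤ X ^ 2 + Y ^ 2 := by nlinarith [sq_nonneg (|X| - |Y|)]
    have c2 := mul_le_mul_of_nonneg_left c1 (mul_pos hD0 hl0).le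
    have c3 := mul_le_mul_of_nonneg_right (show 2 * D ≤ 9 * L * D ^ 2 by linarith)
      (add_nonneg lX lY)
    linarith
  · have c0 : X ^ 2 ≤ 8 * L * (q + 9 * L * D ^ 2 * Y ^ 2) := by
      refine le_of_mul_le_mul_left ?_ hl0
      have c1 : 2 * (8 * L * D) * (|X| * |Y|) ≤ X ^ 2 + (8 * L * D) ^ 2 * Y ^ 2 := by
        nlinarith [sq_nonneg (|X| - 8 * L * D * |Y|)]
      have c2 := mul_le_mul_of_nonneg_left c1 hl0.le
      have c3 := mul_le_mul_of_nonneg_right h1 hX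
      have c4 := mul_le_mul_of_nonneg_left b1 hL0.le
      have c5 := mul_le_mul_of_nonneg_left e1 hL0.le
      have c6 := mul_le_mul_of_nonneg_right (mul_le_mul_of_nonneg_left (hD2.trans hD3) hL0.le) lY
      have c7 : L * (l * q) = L * (A * X ^ 2 + 2 * B * (X * Y) + E * Y ^ 2) := by rw [hq]
      linarith
    have c8 : 0 ≤ q + 9 * L * D ^ 2 * Y ^ 2 :=
      nonneg_of_mul_nonneg_right (hX.trans c0) (by positivity)
    refine c0.trans (mul_le_mul_of_nonneg_right ?_ c8)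
    linarith [le_self_pow₀ hL (show 3 ≠ 0 by norm_num)]
  · have c0 : Y ^ 2 ≤ 2 * (9 * L * D ^ 2 * X ^ 2 - q) := by
      refine le_of_mul_le_mul_left ?_ hl0
      have c1 : 2 * (2 * D) * (|X| * |Y|) ≤ Y ^ 2 + (2 * D) ^ 2 * X ^ 2 := by
        nlinarith [sq_nonneg (|Y| - 2 * D * |X|)]
      have c2 := mul_le_mul_of_nonneg_left c1 hl0.le
      have c3 := mul_le_mul_of_nonneg_right h2 hY
      have c6 := mul_le_mul_of_nonneg_right hD2 lX
      have c7 := mul_le_mul_of_nonneg_right hD3 lX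
      have c8 := mul_nonneg (sq_nonneg D) lX
      linarith
    have c8 : 0 ≤ 9 * L * D ^ 2 * X ^ 2 - q := by linarith
    refine c0.trans (mul_le_mul_of_nonneg_right ?_ c8)
    linarith [one_le_pow₀ (n := 3) hL]

/-- recovering the coordinates -/
theorem resAux_coord {L l P P' X Y : ℝ} (hL : 1 ≤ L) (hl : 1 ≤ l) (hP' : |P'| ≤ 4 * L * l)
    (hg : 2 * l ≤ |P - P'|) : X ^ 2 ≤ 8 * L ^ 2 * ((X + Y) ^ 2 + (P * X + P' * Y) ^ 2) := by
  have hl0 : 0 < l := by linarith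
  have hL2 : 1 ≤ L ^ 2 := one_le_pow₀ hL
  have hl2 : 1 ≤ l ^ 2 := one_le_pow₀ hl
  have h1 : (2 * l) ^ 2 ≤ (P - P') ^ 2 := by
    rw [← sq_abs (P - P')]; gcongr
  have h2 : P' ^ 2 ≤ (4 * L * l) ^ 2 := by
    rw [← sq_abs P']; gcongr
  have h3 : ((P - P') * X) ^ 2 ≤ 2 * (P * X + P' * Y) ^ 2 + 2 * (P' * (X + Y)) ^ 2 := by
    nlinarith [sq_nonneg (P * X + P' * Y + P' * (X + Y))]
  have h4 := mul_le_mul_of_nonneg_right h1 (sq_nonneg X)
  have h5 := mul_le_mul_of_nonneg_right h2 (sq_nonneg (X + Y))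
  have h6 := mul_le_mul_of_nonneg_right (one_le_mul_of_one_le_of_one_le hL2 hl2)
    (sq_nonneg (P * X + P' * Y))
  refine le_of_mul_le_mul_left ?_ (show 0 < l ^ 2 by positivity)
  have h7 := sq_nonneg (P * X + P' * Y)
  linarith

/-- the form on one mode -/
theorem resAux_mode {L ε M b γ κ l α a bp bm y z u v w X Y : ℝ} (hL : 1 ≤ L)
    (hM : M = 11 * L ^ 9) (hb : 0 < b) (hγ : 0 ≤ γ) (hm : b + 2 * γ ≤ L) (hκ : κ = γ * (b + γ))
    (hκL : κ ≤ L) (hε0 : 0 ≤ ε) (hε : ε * (8448 * L ^ 14) ≤ 1) (hl : 1 ≤ l) (hα : l ^ 2 ≤ α)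
    (ha : a ^ 2 + b * a = α) (hla : l ≤ a) (hal : a ≤ 2 * l) (hgap : 1 ≤ L * |α - κ|)
    (hp1 : a - ε ≤ bp) (hp2 : bp ≤ a) (hm1 : -(a + b) - ε ≤ bm) (hm2 : bm ≤ -(a + b))
    (hpm : 2 * l ≤ bp - bm) (hy : Real.sqrt l * y = X + Y)
    (hz : Real.sqrt l * z = (bp - γ) * X + (bm - γ) * Y) (hu : α * u = y) (hv : α * v = z)
    (hw : (α - κ) * w = y) {q : ℝ}
    (hq : q = M * (y * y - κ * (u * y) - v * z) + y * z + κ * (w * z)) :
    -(9 * L * (26 * M * L ^ 3) ^ 2 * (X ^ 2 + Y ^ 2)) ≤ q ∧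
      (κ < α → X ^ 2 ≤ 16 * L ^ 3 * (q + 9 * L * (26 * M * L ^ 3) ^ 2 * Y ^ 2) ∧
        Y ^ 2 ≤ 16 * L ^ 3 * (9 * L * (26 * M * L ^ 3) ^ 2 * X ^ 2 - q)) ∧
      (¬ κ < α → X ^ 2 + Y ^ 2 ≤ 16 * L ^ 3 * -q) := by
  have hL0 : 0 < L := by linarith
  have hl0 : 0 < l := by linarith
  have hl2 : l ≤ l ^ 2 := le_self_pow₀ hl (by norm_num)
  have hα1 : 1 ≤ α := by linarith
  have hα0 : 0 < α := by linarith
  have hκ0 : 0 ≤ κ := by rw [hκ]; positivity
  have hM1 : 1 ≤ M := by rw [hM]; linarith [one_le_pow₀ (n := 9) hL]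
  have hM0 : 0 < M := by linarith
  have hL2 : 1 ≤ L ^ 2 := one_le_pow₀ hL
  have hne : α - κ ≠ 0 := by
    intro h; rw [h] at hgap; norm_num at hgap
  have hε1 : ε ≤ 1 := by
    have : ε * 1 ≤ ε * (8448 * L ^ 14) := by
      gcongr; linarith [one_le_pow₀ (n := 14) hL]
    linarith
  obtain ⟨ia, hia⟩ : ∃ ia, ia = α⁻¹ := ⟨_, rfl⟩
  obtain ⟨iw, hiw⟩ : ∃ iw, iw = (α - κ)⁻¹ := ⟨_, rfl⟩
  have i0 : 0 < ia := by rw [hia]; positivity
  have i1 : ia * α = 1 := by rw [hia]; exact inv_mul_cancel₀ hα0.ne'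
  have i2 : iw * (α - κ) = 1 := by rw [hiw]; exact inv_mul_cancel₀ hne
  have i3 : ia ≤ 1 := by rw [hia]; exact inv_le_one_of_one_le₀ hα1
  have i4 : |iw| ≤ L := by
    rw [hiw, abs_inv]
    exact inv_le_of_inv_le₀ hL0 (by rw [inv_le_iff_one_le_mul₀' hL0]; exact hgap)
  have hu' : u = ia * y := by rw [← hu, ← mul_assoc, i1, one_mul]
  have hv' : v = ia * z := by rw [← hv, ← mul_assoc, i1, one_mul]
  have hw' : w = iw * y := by rw [← hw, ← mul_assoc, i2, one_mul]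
  obtain ⟨σ, hσ⟩ : ∃ σ, σ = 1 - κ * ia := ⟨_, rfl⟩
  obtain ⟨ρ, hρ⟩ : ∃ ρ, ρ = 1 + κ * iw := ⟨_, rfl⟩
  obtain ⟨P, hP⟩ : ∃ P, P = bp - γ := ⟨_, rfl⟩
  obtain ⟨P', hP'⟩ : ∃ P', P' = bm - γ := ⟨_, rfl⟩
  rw [← hP, ← hP'] at hz
  have aκ : |κ| ≤ L := by rwa [abs_of_nonneg hκ0]
  have s1 : |σ| ≤ 2 * L := by
    have h1 := resAux_amul aκ ((abs_of_pos i0).le.trans i3)
    have h2 := abs_sub 1 (κ * ia)
    rw [abs_one] at h2
    rw [hσ]; linarith
  have s2 : |ρ| ≤ 2 * L ^ 2 := by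
    have h1 := resAux_amul aκ i4
    have h2 := abs_add_le 1 (κ * iw)
    rw [abs_one] at h2
    rw [hρ]; linarith
  have s3 : ia * l ^ 2 ≤ 1 := by rw [← i1]; gcongr
  have hLl : L ≤ L * l := le_mul_of_one_le_right hL0.le hl
  have hlL : l ≤ L * l := le_mul_of_one_le_left hl0.le hL
  have s4 : |P| ≤ 4 * L * l := abs_le.2 ⟨by linarith, by linarith⟩
  have s5 : |P'| ≤ 4 * L * l := abs_le.2 ⟨by linarith, by linarith⟩
  have hs : Real.sqrt l ^ 2 = l := Real.sq_sqrt hl0.le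
  have q0 : l * q = M * (σ * (X + Y) ^ 2 - ia * (P * X + P' * Y) ^ 2) +
      ρ * ((X + Y) * (P * X + P' * Y)) := by
    rw [← hy, ← hz, hq, hu', hv', hw', hσ, hρ]
    conv_lhs => rw [← hs]
    ring
  have hD : 1 ≤ 26 * M * L ^ 3 := by
    linarith [one_le_mul_of_one_le_of_one_le hM1 (one_le_pow₀ (n := 3) hL)]
  have key := resAux_quad (q := q) (X := X) (Y := Y) hL hD hl (by rw [q0]; ring)
    (resAux_coef hL hM1 hl s1 i0.le s3 s2 s4 s4) (resAux_coef hL hM1 hl s1 i0.le s3 s2 s4 s5)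
    (resAux_coef hL hM1 hl s1 i0.le s3 s2 s5 s5)
  have hσ' : σ = ia * (α - κ) := by rw [hσ, mul_sub, i1]; ring
  have hρ' : ρ = iw * α := by rw [hρ, ← i2]; ring
  have fac : α - κ = (a - γ) * (a + b + γ) := by rw [← ha, hκ]; ring
  refine ⟨key.1, fun h => key.2 ?_ ?_, fun h => ?_⟩
  · -- the growing direction
    have h0 : 0 < a + b + γ := by linarith
    have h1 : 0 < a - γ := (mul_pos_iff_of_pos_right h0).1 (by rw [← fac]; linarith)
    obtain ⟨δ, hδ⟩ : ∃ δ, δ = a - bp := ⟨_, rfl⟩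
    have hδ0 : 0 ≤ δ := by linarith
    have hδ1 : δ ≤ ε := by linarith
    have hPδ : P = a - γ - δ := by linarith
    have h2 : -ε ^ 2 ≤ σ - ia * (P * P) := by
      have e : σ - ia * (P * P) = ia * ((a - γ) * (b + 2 * γ + 2 * δ)) - ia * δ ^ 2 := by
        rw [hσ', fac, hPδ]; ring
      have e1 : 0 ≤ ia * ((a - γ) * (b + 2 * γ + 2 * δ)) := by positivity
      have e2 : ia * δ ^ 2 ≤ 1 * ε ^ 2 := by gcongr
      linarith
    have h3 : l ≤ 3 * L * (ρ * (a - γ)) := by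
      have e : ρ * (a - γ) * (a + b + γ) = α := by
        rw [mul_assoc, ← fac, hρ', mul_right_comm, i2, one_mul]
      have e0 : 0 ≤ ρ * (a - γ) := nonneg_of_mul_nonneg_left (by rw [e]; exact hα0.le) h0
      have e1 := mul_le_mul_of_nonneg_left (show a + b + γ ≤ 3 * L * l by linarith) e0
      refine le_of_mul_le_mul_right ?_ hl0
      linarith
    have h4 : ρ * δ ≤ 2 * L ^ 2 * ε := mul_le_mul (le_of_abs_le s2) hδ1 hδ0 (by positivity)
    have h5 := mul_le_mul_of_nonneg_left h2 (mul_pos hL0 hM0).le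
    have h6 := mul_le_mul_of_nonneg_left h4 hL0.le
    have h7 : ε * L ^ 3 ≤ ε * L ^ 14 := by gcongr; norm_num
    have h8 : L * M * ε ^ 2 ≤ 11 * (ε * L ^ 14) := by
      calc L * M * ε ^ 2 = 11 * (ε * (ε * L ^ 10)) := by rw [hM]; ring
        _ ≤ 11 * (ε * (1 * L ^ 14)) := by gcongr; norm_num
        _ = _ := by ring
    have h9 : ρ * ((P + P) / 2) = ρ * (a - γ) - ρ * δ := by rw [hPδ]; ring
    rw [h9]
    linarith
  · -- the decaying direction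
    have h0 : 0 < iw := by rw [hiw]; exact inv_pos.2 (by linarith)
    have h1 : 1 ≤ ρ := by rw [hρ]; linarith [mul_nonneg hκ0 h0.le]
    have h2 : P' ≤ -(a + b + γ) := by linarith
    have h3 : α - κ ≤ P' * P' := by
      have e1 : (a + b + γ) * (a + b + γ) ≤ (-P') * (-P') :=
        mul_self_le_mul_self (by linarith) (by linarith)
      have e2 : (a - γ) * (a + b + γ) ≤ (a + b + γ) * (a + b + γ) :=
        mul_le_mul_of_nonneg_right (by linarith) (by linarith)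
      linarith
    have h4 : M * (σ - ia * (P' * P')) ≤ 0 := by
      refine mul_nonpos_of_nonneg_of_nonpos hM0.le ?_
      rw [hσ']
      linarith [mul_le_mul_of_nonneg_left h3 i0.le]
    have h5 := mul_le_mul_of_nonneg_right h1 (show 0 ≤ -P' by linarith)
    linarith
  · -- the form is negative definite
    have h1 : α ≤ κ := not_lt.1 h
    rw [abs_of_nonpos (by linarith)] at hgap
    have h2 : 1 ≤ L * ia := by
      rw [← i1, mul_comm L]; gcongr; linarith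
    have h3 : 1 ≤ L ^ 2 * -σ := by
      have := one_le_mul_of_one_le_of_one_le hgap h2
      rw [hσ']; linarith
    have h4 : 1 ≤ L ^ 2 * ia := h2.trans (by gcongr; exact le_self_pow₀ hL (by norm_num))
    have c1 := resAux_coord (P := P) (X := X) (Y := Y) hL hl s5
      (le_trans (by linarith) (le_abs_self _))
    have c2 := resAux_coord (P := P') (X := Y) (Y := X) hL hl s4
      (le_trans (by linarith) (neg_le_abs _))
    rw [add_comm Y X, add_comm (P' * Y)] at c2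
    obtain ⟨Yt, hYt⟩ : ∃ Yt, Yt = X + Y := ⟨_, rfl⟩
    obtain ⟨Zt, hZt⟩ : ∃ Zt, Zt = P * X + P' * Y := ⟨_, rfl⟩
    rw [← hYt, ← hZt] at q0 c1 c2
    have k1 : ρ * (Yt * Zt) ≤ L ^ 2 * (Yt ^ 2 + Zt ^ 2) := by
      have e1 : |Yt * Zt| ≤ (Yt ^ 2 + Zt ^ 2) / 2 :=
        abs_le.2 ⟨by nlinarith [sq_nonneg (Yt + Zt)], by nlinarith [sq_nonneg (Yt - Zt)]⟩
      linarith [le_of_abs_le (resAux_amul s2 e1)]
    have h7 : 0 ≤ 11 * L ^ 7 := by positivity
    have k2 := mul_le_mul_of_nonneg_left (mul_le_mul_of_nonneg_right h3 (sq_nonneg Yt)) h7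
    have k3 := mul_le_mul_of_nonneg_left (mul_le_mul_of_nonneg_right h4 (sq_nonneg Zt)) h7
    have hN : 0 ≤ Yt ^ 2 + Zt ^ 2 := by positivity
    have k4 := mul_le_mul_of_nonneg_right (pow_le_pow_right₀ hL (show 2 ≤ 7 by norm_num)) hN
    have k5 := mul_le_mul_of_nonneg_right (one_le_pow₀ (n := 7) hL) hN
    have k6 : Yt ^ 2 + Zt ^ 2 ≤ l * -q := by
      rw [hM] at q0; linarith
    have k7 : 0 ≤ -q := nonneg_of_mul_nonneg_right (hN.trans k6) hl0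
    have k8 : l * -q ≤ L * -q := mul_le_mul_of_nonneg_right (by linarith) k7
    have k9 := mul_le_mul_of_nonneg_left (k6.trans k8) (show 0 ≤ 16 * L ^ 2 by positivity)
    linarith

end Crest.Agent.R202
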