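import Crest.Agent.R202.OdeLyap

/-!
# R202/OdeSharpAux: helper lemmas for `OdeSharp`
-/

open scoped ContDiff Topology Matrix
open Set Filter

noncomputable section

namespace Crest.Agent.R202

/-- Gronwall with a continuous inhomogeneity -/
theorem sharp_gron {F : Type} [NormedAddCommGroup F] [NormedSpace ℝ F] {f f' : ℝ → F}
    {h : ℝ → ℝ} {s t K : ℝ} (hst : s ≤ t) (hK : 0 ≤ K)
    (hf : ∀ r ∈ Icc s t, HasDerivAt f (f' r) r) (hh : ContinuousOn h (Icc s t))
    (h0 : ∀ r ∈ Icc s t, 0 ≤ h r) (hb : ∀ r ∈ Icc s t, ‖f' r‖ ≤ K * ‖f r‖ + h r) :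
    ∀ x ∈ Icc s t, ‖f x‖ ≤ Real.exp (K * (t - s)) * (‖f s‖ + ∫ r in s..t, h r) := by
  set g : ℝ → ℝ := fun r => h (projIcc s t hst r) with hg
  have hgc : Continuous g := by
    have : Continuous fun r : Icc s t => h r := hh.domRestrict
    exact this.comp continuous_projIcc
  have hg0 : ∀ r, 0 ≤ g r := fun r => h0 _ (projIcc s t hst r).2
  have hgh : ∀ r ∈ Icc s t, g r = h r := fun r hr => by
    simp only [hg, projIcc_of_mem hst hr]
  have hH : ∀ x, HasDerivAt (fun x => ∫ r in s..x, g r) (g x) x := fun x =>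
    (hgc.integral_hasStrictDerivAt s x).hasDerivAt
  have hfc : ContinuousOn f (Icc s t) := fun r hr => (hf r hr).continuousAt.continuousWithinAt
  have key : ∀ κ > 0, ∀ x ∈ Icc s t, ‖f x‖ ≤
      Real.exp (K * (x - s)) * (‖f s‖ + (∫ r in s..x, g r) + κ * (x - s)) := by
    intro κ hκ
    have hB : ∀ x, HasDerivAt
        (fun x => Real.exp (K * (x - s)) * (‖f s‖ + (∫ r in s..x, g r) + κ * (x - s)))
        (Real.exp (K * (x - s)) * K * (‖f s‖ + (∫ r in s..x, g r) + κ * (x - s))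
          + Real.exp (K * (x - s)) * (g x + κ)) x := by
      intro x
      have h1 : HasDerivAt (fun x => K * (x - s)) K x := by
        simpa using ((hasDerivAt_id x).sub_const s).const_mul K
      have h2 : HasDerivAt (fun x => κ * (x - s)) κ x := by
        simpa using ((hasDerivAt_id x).sub_const s).const_mul κ
      have h3 := ((hH x).const_add ‖f s‖).add h2
      exact h1.exp.mul h3
    refine image_norm_le_of_norm_deriv_right_lt_deriv_boundary hfc
      (fun x hx => (hf x (Ico_subset_Icc_self hx)).hasDerivWithinAt) (by simp) hB ?_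
    intro x hx hx'
    have hx1 := Ico_subset_Icc_self hx
    have e1 : 1 ≤ Real.exp (K * (x - s)) :=
      Real.one_le_exp (mul_nonneg hK (sub_nonneg.2 hx.1))
    have e2 := hb x hx1
    rw [← hgh x hx1, hx'] at e2
    have e3 : g x + κ ≤ Real.exp (K * (x - s)) * (g x + κ) :=
      le_mul_of_one_le_left (by linarith [hg0 x]) e1
    nlinarith
  intro x hx
  have hI : (∫ r in s..x, g r) ≤ ∫ r in s..t, h r := by
    have e1 : (∫ r in s..t, h r) = ∫ r in s..t, g r := by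
      refine intervalIntegral.integral_congr fun r hr => ?_
      rw [uIcc_of_le hst] at hr
      exact (hgh r hr).symm
    rw [e1, ← intervalIntegral.integral_add_adjacent_intervals (hgc.intervalIntegrable s x)
      (hgc.intervalIntegrable x t)]
    have : 0 ≤ ∫ r in x..t, g r := intervalIntegral.integral_nonneg hx.2 fun r _ => hg0 r
    linarith
  have hI0 : 0 ≤ ∫ r in s..x, g r := intervalIntegral.integral_nonneg hx.1 fun r _ => hg0 r
  have hE : Real.exp (K * (x - s)) ≤ Real.exp (K * (t - s)) :=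
    Real.exp_le_exp.2 (mul_le_mul_of_nonneg_left (by linarith [hx.2]) hK)
  have hEp := Real.exp_pos (K * (t - s))
  refine le_of_forall_pos_le_add fun ε hε => ?_
  have hc : 0 < Real.exp (K * (t - s)) * (t - s + 1) := mul_pos hEp (by linarith)
  have := key (ε / (Real.exp (K * (t - s)) * (t - s + 1))) (div_pos hε hc) x hx
  set κ := ε / (Real.exp (K * (t - s)) * (t - s + 1)) with hκ
  have hκ0 : 0 < κ := div_pos hε hc
  have hκ1 : Real.exp (K * (t - s)) * (κ * (t - s + 1)) = ε := by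
    have : t - s + 1 ≠ 0 := by linarith
    rw [hκ]; field_simp
  have e1 : κ * (x - s) ≤ κ * (t - s + 1) :=
    mul_le_mul_of_nonneg_left (by linarith [hx.2]) hκ0.le
  have e2 : 0 ≤ κ * (x - s) := mul_nonneg hκ0.le (sub_nonneg.2 hx.1)
  calc ‖f x‖ ≤ _ := this
    _ ≤ Real.exp (K * (t - s)) * (‖f s‖ + (∫ r in s..t, h r) + κ * (t - s + 1)) :=
        mul_le_mul hE (by linarith) (by positivity) hEp.le
    _ = _ := by rw [← hκ1]; ring

theorem sharp_mulVec_le {W : Type} [Fintype W] {n : ℕ} (hn : Fintype.card W ≤ n)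
    {A : Matrix W W ℝ} {c : ℝ} (hc : 0 ≤ c) (hA : ∀ a a', |A a a'| ≤ c) (v : W → ℝ) :
    ‖A *ᵥ v‖ ≤ n * c * ‖v‖ := by
  refine (pi_norm_le_iff_of_nonneg (by positivity)).2 fun a => ?_
  rw [Real.norm_eq_abs]
  calc |(A *ᵥ v) a| = |∑ a', A a a' * v a'| := rfl
    _ ≤ ∑ a', |A a a' * v a'| := Finset.abs_sum_le_sum_abs _ _
    _ ≤ ∑ _a' : W, c * ‖v‖ := Finset.sum_le_sum fun a' _ => by
        rw [abs_mul]
        exact mul_le_mul (hA a a') (by simpa using norm_le_pi_norm v a') (abs_nonneg _) hc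
    _ = Fintype.card W * (c * ‖v‖) := by simp
    _ ≤ n * (c * ‖v‖) := mul_le_mul_of_nonneg_right (by exact_mod_cast hn) (by positivity)
    _ = _ := by ring

theorem sharp_n2_le {W : Type} [Fintype W] {n : ℕ} (hn : Fintype.card W ≤ n) (v : W → ℝ) :
    n2 v ≤ n * ‖v‖ ^ 2 := by
  calc n2 v ≤ ∑ _a : W, ‖v‖ ^ 2 := Finset.sum_le_sum fun a _ => by
        have : |v a| ≤ ‖v‖ := by simpa using norm_le_pi_norm v a
        rw [← sq_abs]
        exact pow_le_pow_left₀ (abs_nonneg _) this 2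
    _ = Fintype.card W * ‖v‖ ^ 2 := by simp
    _ ≤ n * ‖v‖ ^ 2 := mul_le_mul_of_nonneg_right (by exact_mod_cast hn) (by positivity)

variable {ι : Type} [Fintype ι] [DecidableEq ι]

theorem sharp_n2_single (i : ι) : n2 (Pi.single i (1 : ℝ) : ι → ℝ) = 1 := by
  simp [n2, Pi.single_apply]

theorem sharp_nV_single (d : ι → ℕ) (i : ι) :
    nV d (Pi.single i (1 : ℝ) : ι → ℝ) = (d i : ℝ) ^ 2 := by
  simp [nV, Pi.single_apply]

theorem sharp_R_le {d : ι → ℕ} {δ : ℝ} {R Q : Matrix ι ι ℝ} (h : Pb d δ R Q) (hδ : 0 ≤ δ)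
    (i : ι) (y : ι → ℝ) : |(R *ᵥ y) i| ≤ δ * Real.sqrt (n2 y) := by
  have := h.abs_R_le hδ (Pi.single i 1) y
  rw [sharp_n2_single] at this
  simpa using this

theorem sharp_Q_le {d : ι → ℕ} {δ : ℝ} {R Q : Matrix ι ι ℝ} (h : Pb d δ R Q) (hδ : 0 ≤ δ)
    (i : ι) (y : ι → ℝ) : |(Q *ᵥ y) i| ≤ δ * (d i * Real.sqrt (nV d y)) := by
  have := h.abs_Q_le hδ (Pi.single i 1) y
  rw [sharp_nV_single, Real.sqrt_sq (Nat.cast_nonneg _)] at this
  simpa using this

theorem sharp_lam_nonneg (B : Bg) (l : ℕ) : 0 ≤ lam B.β₀ l := by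
  have := B.b_pos
  have := B.b_le
  unfold lam
  have : (0 : ℝ) ≤ l := Nat.cast_nonneg _
  exact mul_nonneg this (by linarith)

theorem sharp_bm_abs (B : Bg) (l : ℕ) (r : ℝ) : |B.bm l r| ≤ l + B.β₀ := by
  have h1 := B.bm_ge l r
  have h2 := B.bm_le l r
  have h3 : 0 ≤ rt B.b (lam B.β₀ l) := rt_nonneg (sharp_lam_nonneg B l)
  have h4 := B.b_pos
  have h5 := B.b_le
  have : (0 : ℝ) ≤ l := Nat.cast_nonneg _
  rw [abs_le]
  constructor <;> linarith

theorem sharp_bp_le (B : Bg) (l : ℕ) (r : ℝ) : B.bp l r ≤ l + 1 / 6 :=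
  (B.bp_le l r).trans (B.a_le l)

theorem sharp_bp_abs (B : Bg) (l : ℕ) (r : ℝ) : |B.bp l r| ≤ l + 1 / 6 := by
  have h1 := B.bp_ge l r
  have : (0 : ℝ) ≤ l := Nat.cast_nonneg _
  rw [abs_of_nonneg (by linarith)]
  exact sharp_bp_le B l r

theorem sharp_gap (B : Bg) (l : ℕ) (r : ℝ) : B.b ≤ B.bp l r - B.bm l r := by
  have := B.gap_ge l r
  have : (0 : ℝ) ≤ l := Nat.cast_nonneg _
  linarith

/-- bound for the entries of the projected generator -/
def sharp_c2 (B : Bg) (l : ℕ) : ℝ := (l ^ 2 + (l + B.β₀) * (l + 1 / 6)) / B.b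

/-- bound for the coupling to the other modes -/
def sharp_c1 (B : Bg) (l : ℕ) : ℝ :=
  Real.sqrt l * (2 * l + (l + B.β₀) * (2 * (2 + B.β₀))) / B.b

theorem sharp_c2_nonneg (B : Bg) (l : ℕ) : 0 ≤ sharp_c2 B l := by
  have := B.b_pos
  have : 0 < B.β₀ := B.b_pos.trans_le B.b_le
  unfold sharp_c2
  positivity

theorem sharp_c1_nonneg (B : Bg) (l : ℕ) : 0 ≤ sharp_c1 B l := by
  have := B.b_pos
  have : 0 < B.β₀ := B.b_pos.trans_le B.b_le
  unfold sharp_c1
  positivity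

theorem sharp_entry (B : Bg) {l : ℕ} {d : ι → ℕ} {δ : ℝ} {R Q : Matrix ι ι ℝ} (h : Pb d δ R Q)
    (hδ : 0 ≤ δ) (r : ℝ) {i j : ι} (hi : d i = l) (hj : d j = l) :
    |(Q i j - B.bm l r * B.bp l r * R i j) / (B.bp l r - B.bm l r)| ≤ sharp_c2 B l * δ := by
  have hb := B.b_pos
  have hβ : 0 < B.β₀ := B.b_pos.trans_le B.b_le
  have hg := sharp_gap B l r
  have h1 := sharp_R_le h hδ i (Pi.single j 1)
  have h2 := sharp_Q_le h hδ i (Pi.single j 1)
  rw [sharp_n2_single] at h1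
  rw [sharp_nV_single, Real.sqrt_sq (Nat.cast_nonneg _), hi, hj] at h2
  simp only [Matrix.mulVec_single_one, Matrix.col_apply, Real.sqrt_one, mul_one] at h1 h2
  have h3 : |B.bm l r * B.bp l r * R i j| ≤ (l + B.β₀) * (l + 1 / 6) * δ := by
    rw [abs_mul, abs_mul]
    exact mul_le_mul (mul_le_mul (sharp_bm_abs B l r) (sharp_bp_abs B l r) (abs_nonneg _)
      (by positivity)) h1 (abs_nonneg _) (by positivity)
  have h4 : |Q i j - B.bm l r * B.bp l r * R i j| ≤ (l ^ 2 + (l + B.β₀) * (l + 1 / 6)) * δ := by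
    have := abs_sub (Q i j) (B.bm l r * B.bp l r * R i j)
    nlinarith
  rw [abs_div, abs_of_pos (hb.trans_le hg)]
  calc _ ≤ (l ^ 2 + (l + B.β₀) * (l + 1 / 6)) * δ / B.b :=
        div_le_div₀ (by positivity) h4 hb hg
    _ = _ := by unfold sharp_c2; ring

omit [DecidableEq ι] in
theorem sharp_nW_nonneg (d : ι → ℕ) (x : ι → ℝ) : 0 ≤ nW d x :=
  Finset.sum_nonneg fun _ _ => by positivity

/-- the equation on the cluster, pointwise -/
theorem sharp_err (B : Bg) {l : ℕ} {d : ι → ℕ} (hd : ∀ i, 1 ≤ d i) {δ : ℝ} {R Q : Matrix ι ι ℝ}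
    (h : Pb d δ R Q) (hδ : 0 ≤ δ) (r : ℝ) (u p xp xm : ι → ℝ)
    (hu : ∀ j, Real.sqrt (d j) * u j = xp j + xm j)
    (hp : ∀ j, Real.sqrt (d j) * p j = B.bp (d j) r * xp j + B.bm (d j) r * xm j)
    {T : Set ι} (hT : ∀ j, j ∈ T ↔ d j ≠ l) {i : ι} (hi : d i = l) :
    |Real.sqrt l * ((Q *ᵥ u) i - B.bm l r * (R *ᵥ p) i) / (B.bp l r - B.bm l r)
      - ∑ j, if d j = l then
        (Q i j - B.bm l r * B.bp l r * R i j) / (B.bp l r - B.bm l r) * xp j else 0|
      ≤ sharp_c1 B l * δ * Real.sqrt (nW d (msk T xp) + nW d xm) := by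
  have hb := B.b_pos
  have hβ : 0 < B.β₀ := B.b_pos.trans_le B.b_le
  have hg := sharp_gap B l r
  have hgp : 0 < B.bp l r - B.bm l r := hb.trans_le hg
  have hd1 : ∀ j, (1 : ℝ) ≤ d j := fun j => by exact_mod_cast hd j
  have hs : ∀ j, 0 < Real.sqrt (d j) := fun j => Real.sqrt_pos.2 (by linarith [hd1 j])
  have hss : ∀ j, Real.sqrt (d j) ^ 2 = d j := fun j => Real.sq_sqrt (by linarith [hd1 j])
  set N := nW d (msk T xp) + nW d xm with hN
  have hN0 : 0 ≤ N := add_nonneg (sharp_nW_nonneg _ _) (sharp_nW_nonneg _ _)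
  set uo : ι → ℝ := fun j => (msk T xp j + xm j) / Real.sqrt (d j) with huo
  set po : ι → ℝ := fun j =>
    (B.bp (d j) r * msk T xp j + B.bm (d j) r * xm j) / Real.sqrt (d j) with hpo
  have hm1 : ∀ j, d j = l → msk T xp j = 0 := fun j hj =>
    indicator_of_notMem (fun h => (hT j).1 h hj) _
  have hm2 : ∀ j, d j ≠ l → msk T xp j = xp j := fun j hj => indicator_of_mem ((hT j).2 hj) _
  have hsl : 0 < Real.sqrt l := hi ▸ hs i
  have e1 : ∀ j, Real.sqrt l * u j = (if d j = l then xp j else 0) + Real.sqrt l * uo j := by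
    intro j
    have := hu j
    have h0 := (hs j).ne'
    by_cases hj : d j = l
    · simp only [hj, if_true, huo, hm1 j hj]
      rw [hj] at this h0
      rw [this]; field_simp; ring
    · simp only [hj, if_false, huo, hm2 j hj, ← this]
      field_simp; ring
  have e2 : ∀ j, Real.sqrt l * p j
      = (if d j = l then B.bp l r * xp j else 0) + Real.sqrt l * po j := by
    intro j
    have := hp j
    have h0 := (hs j).ne'
    by_cases hj : d j = l
    · simp only [hj, if_true, hpo, hm1 j hj]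
      rw [hj] at this h0
      rw [this]; field_simp; ring
    · simp only [hj, if_false, hpo, hm2 j hj, ← this]
      field_simp; ring
  have e3 : Real.sqrt l * ((Q *ᵥ u) i - B.bm l r * (R *ᵥ p) i) / (B.bp l r - B.bm l r)
      - ∑ j, (if d j = l then
        (Q i j - B.bm l r * B.bp l r * R i j) / (B.bp l r - B.bm l r) * xp j else 0)
      = Real.sqrt l * ((Q *ᵥ uo) i - B.bm l r * (R *ᵥ po) i) / (B.bp l r - B.bm l r) := by
    simp only [Matrix.mulVec, dotProduct, Finset.mul_sum, ← Finset.sum_sub_distrib,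
      Finset.sum_div]
    refine Finset.sum_congr rfl fun j _ => ?_
    have f1 : Real.sqrt l * (Q i j * u j - B.bm l r * (R i j * p j))
        = Q i j * (Real.sqrt l * u j) - B.bm l r * R i j * (Real.sqrt l * p j) := by ring
    rw [f1, e1 j, e2 j]
    split_ifs
    · field_simp; ring
    · field_simp; ring
  have n1 : nV d uo ≤ (2 * Real.sqrt N) ^ 2 := by
    rw [mul_pow, Real.sq_sqrt hN0, hN, nW, nW, ← Finset.sum_add_distrib, Finset.mul_sum]
    refine Finset.sum_le_sum fun j _ => ?_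
    simp only [huo, div_pow, hss]
    have := hd1 j
    have e : (d j : ℝ) ^ 2 * ((msk T xp j + xm j) ^ 2 / d j) = d j * (msk T xp j + xm j) ^ 2 := by
      field_simp
    rw [e, ← mul_add, mul_left_comm]
    refine mul_le_mul_of_nonneg_left ?_ (by linarith)
    nlinarith [sq_nonneg (msk T xp j - xm j), sq_nonneg (msk T xp j), sq_nonneg (xm j)]
  have n2' : n2 po ≤ (2 * (2 + B.β₀) * Real.sqrt N) ^ 2 := by
    rw [mul_pow, Real.sq_sqrt hN0, hN, nW, nW, ← Finset.sum_add_distrib, Finset.mul_sum]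
    refine Finset.sum_le_sum fun j _ => ?_
    simp only [hpo, div_pow, hss]
    have := hd1 j
    rw [div_le_iff₀ (by linarith)]
    have a1 : |B.bp (d j) r| ≤ (2 + B.β₀) * d j := by
      have := sharp_bp_abs B (d j) r
      nlinarith
    have a2 : |B.bm (d j) r| ≤ (2 + B.β₀) * d j := by
      have := sharp_bm_abs B (d j) r
      nlinarith
    have a3 : B.bp (d j) r ^ 2 ≤ ((2 + B.β₀) * d j) ^ 2 := by
      rw [← sq_abs]; exact pow_le_pow_left₀ (abs_nonneg _) a1 2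
    have a4 : B.bm (d j) r ^ 2 ≤ ((2 + B.β₀) * d j) ^ 2 := by
      rw [← sq_abs]; exact pow_le_pow_left₀ (abs_nonneg _) a2 2
    have a5 := mul_le_mul_of_nonneg_right a3 (sq_nonneg (msk T xp j))
    have a6 := mul_le_mul_of_nonneg_right a4 (sq_nonneg (xm j))
    have a7 : 0 ≤ ((2 + B.β₀) * d j) ^ 2 * (msk T xp j ^ 2 + xm j ^ 2) := by positivity
    nlinarith [sq_nonneg (B.bp (d j) r * msk T xp j - B.bm (d j) r * xm j)]
  have n3 : Real.sqrt (nV d uo) ≤ 2 * Real.sqrt N :=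
    Real.sqrt_le_iff.2 ⟨by positivity, n1⟩
  have n4 : Real.sqrt (n2 po) ≤ 2 * (2 + B.β₀) * Real.sqrt N :=
    Real.sqrt_le_iff.2 ⟨by positivity, n2'⟩
  have q1 : |(Q *ᵥ uo) i| ≤ δ * (l * (2 * Real.sqrt N)) := by
    have := sharp_Q_le h hδ i uo
    rw [hi] at this
    exact this.trans (by gcongr)
  have q2 : |B.bm l r * (R *ᵥ po) i| ≤ (l + B.β₀) * (δ * (2 * (2 + B.β₀) * Real.sqrt N)) := by
    rw [abs_mul]
    refine mul_le_mul (sharp_bm_abs B l r) ((sharp_R_le h hδ i po).trans (by gcongr))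
      (abs_nonneg _) (by positivity)
  have q3 := abs_sub ((Q *ᵥ uo) i) (B.bm l r * (R *ᵥ po) i)
  rw [e3, abs_div, abs_of_pos hgp, abs_mul, abs_of_pos hsl]
  calc _ ≤ Real.sqrt l * (δ * (l * (2 * Real.sqrt N))
          + (l + B.β₀) * (δ * (2 * (2 + B.β₀) * Real.sqrt N))) / B.b :=
        div_le_div₀ (by positivity) (mul_le_mul_of_nonneg_left (by linarith) hsl.le) hb hg
    _ = _ := by unfold sharp_c1; ring

omit [DecidableEq ι] in
/-- sums over the cluster -/
theorem sharp_sum {W : Type} [Fintype W] {d : ι → ℕ} {l : ℕ} {e : W → ι}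
    (he : Function.Injective e) (hsurj : ∀ i, d i = l → ∃ a, e a = i) (F : ι → ℝ) :
    (∑ j, if d j = l then F j else 0) = ∑ a, if d (e a) = l then F (e a) else 0 := by
  refine (Fintype.sum_of_injective e he _ _ (fun j hj => ?_) fun _ => rfl).symm
  rw [if_neg fun h => hj (hsurj j h)]

/-- the averaged Cauchy–Schwarz inequality -/
theorem sharp_cs {N : ℝ → ℝ} {s t δ Λ A Y : ℝ} (hst : s ≤ t) (hN : ContinuousOn N (Icc s t))
    (hN0 : ∀ r, 0 ≤ N r) (hδ : 0 ≤ δ) (hΛ : δ * (t - s) ≤ Λ) (hA : 0 ≤ A) (hY : 0 ≤ Y)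
    (hI : δ * ∫ r in s..t, N r ≤ A * Y ^ 2) :
    δ * ∫ r in s..t, Real.sqrt (N r) ≤ (Λ + A) / 2 * Y := by
  have hΛ0 : 0 ≤ Λ := (mul_nonneg hδ (sub_nonneg.2 hst)).trans hΛ
  have hi1 : IntervalIntegrable N MeasureTheory.volume s t :=
    (hN.mono (by rw [uIcc_of_le hst])).intervalIntegrable
  have hi2 : IntervalIntegrable (fun r => Real.sqrt (N r)) MeasureTheory.volume s t :=
    (hN.sqrt.mono (by rw [uIcc_of_le hst])).intervalIntegrable
  refine le_of_forall_pos_le_add fun κ hκ => ?_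
  set μ := Y + κ / (Λ + 1) with hμ
  have hκ' : 0 < κ / (Λ + 1) := by positivity
  have hμ0 : 0 < μ := by positivity
  have h1 : (∫ r in s..t, Real.sqrt (N r)) ≤ ∫ r in s..t, (μ / 2 + (2 * μ)⁻¹ * N r) := by
    refine intervalIntegral.integral_mono_on hst hi2
      (intervalIntegrable_const.add (hi1.const_mul _)) fun r _ => ?_
    have e := Real.sq_sqrt (hN0 r)
    have : μ / 2 + (2 * μ)⁻¹ * N r - Real.sqrt (N r)
        = (2 * μ)⁻¹ * (μ - Real.sqrt (N r)) ^ 2 := by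
      rw [sub_sq, e]; field_simp; ring
    have h2 : 0 ≤ (2 * μ)⁻¹ * (μ - Real.sqrt (N r)) ^ 2 := by positivity
    linarith
  rw [intervalIntegral.integral_add intervalIntegrable_const (hi1.const_mul _),
    intervalIntegral.integral_const, intervalIntegral.integral_const_mul, smul_eq_mul] at h1
  have h2 : (2 * μ)⁻¹ * (δ * ∫ r in s..t, N r) ≤ A / 2 * Y := by
    rw [inv_mul_le_iff₀ (by positivity)]
    have : A * Y * Y ≤ A * Y * μ := mul_le_mul_of_nonneg_left (by linarith) (by positivity)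
    nlinarith
  have h3 : δ * (t - s) * (μ / 2) ≤ Λ * (μ / 2) := mul_le_mul_of_nonneg_right hΛ (by positivity)
  have h4 : Λ * (κ / (Λ + 1)) ≤ κ := by
    rw [← mul_div_assoc, div_le_iff₀ (by positivity)]; nlinarith
  have h5 := mul_le_mul_of_nonneg_left h1 hδ
  have h6 : Λ * (μ / 2) = Λ / 2 * Y + Λ * (κ / (Λ + 1)) / 2 := by rw [hμ]; ring
  nlinarith

/-- the final bookkeeping of constants -/
theorem sharp_arith {E c D a c3 q C4 : ℝ} (hE : 0 ≤ E) (hc : 0 ≤ c) (hD : 0 ≤ D) (ha : 0 ≤ a)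
    (hc3 : 0 ≤ c3) (hq : 0 ≤ q) (hC4 : 0 ≤ C4) : ∃ C : ℝ, 0 ≤ C ∧
    ∀ δ ε ε' m P X J η Y : ℝ, 0 ≤ δ → δ ≤ 1 → δ * (2 * (E * c * D + 1)) ≤ 1 → 0 ≤ ε' → ε' ≤ ε →
      ε' ≤ c3 → 0 ≤ m → 0 ≤ P → 0 ≤ X → J ≤ D * (Real.sqrt δ * X + δ * m) →
      m ≤ E * (P + c * J) → η ≤ q * (E * (a * ε' * m + c * J)) → Y ≤ X ^ 2 + C4 * δ * m ^ 2 →
      η ≤ C * (ε + δ) * P + C * Real.sqrt δ * X ∧ Y ≤ C * (δ * P ^ 2 + X ^ 2) := by
  set M1 := 2 * E with hM1
  set M2 := 2 * E * c * D with hM2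
  set Ca := q * E * M1 * (a + c * D) with hCa
  set Cb := q * E * ((a * c3 + c * D) * M2 + c * D) with hCb
  set Cc := 2 * C4 * M1 ^ 2 with hCc
  set Cd := 1 + 2 * C4 * M2 ^ 2 with hCd
  have p1 : 0 ≤ M1 := by positivity
  have p2 : 0 ≤ M2 := by positivity
  have pa : 0 ≤ Ca := by positivity
  have pb : 0 ≤ Cb := by positivity
  have pc : 0 ≤ Cc := by positivity
  have pd : 0 ≤ Cd := by positivity
  clear_value Cd Cc Cb Ca M2 M1
  refine ⟨Ca + Cb + Cc + Cd, by positivity, ?_⟩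
  intro δ ε ε' m P X J η Y hδ hδ1 hδ2 hε' hεε hε3 hm hP hX hJ hmb hη hY
  set w := Real.sqrt δ * X with hw
  have hw0 : 0 ≤ w := by positivity
  have hw2 : w ^ 2 = δ * X ^ 2 := by rw [hw, mul_pow, Real.sq_sqrt hδ]
  clear_value w
  have hε : 0 ≤ ε := hε'.trans hεε
  have h1 : E * (c * J) ≤ E * (c * (D * (w + δ * m))) := by gcongr
  have h2 : E * c * D * δ * m ≤ 1 / 2 * m :=
    mul_le_mul_of_nonneg_right (by linarith) hm
  have h3 : m ≤ M1 * P + M2 * w := by
    rw [hM1, hM2]; linarith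
  constructor
  · have k1 : a * ε' * m + c * J ≤ (a * ε' + c * D * δ) * m + c * D * w := by
      have : c * J ≤ c * (D * (w + δ * m)) := by gcongr
      linarith
    have k2 : (a * ε' + c * D * δ) * m ≤ (a * ε' + c * D * δ) * (M1 * P + M2 * w) :=
      mul_le_mul_of_nonneg_left h3 (by positivity)
    have k3 : a * ε' + c * D * δ ≤ (a + c * D) * (ε + δ) := by
      have : a * ε' ≤ a * ε := by gcongr
      have : 0 ≤ a * δ := by positivity
      have : 0 ≤ c * D * ε := by positivity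
      linarith
    have k4 : a * ε' + c * D * δ ≤ a * c3 + c * D := by
      have : a * ε' ≤ a * c3 := by gcongr
      have : c * D * δ ≤ c * D * 1 := by gcongr
      linarith
    have k5 : (a * ε' + c * D * δ) * (M1 * P) ≤ (a + c * D) * (ε + δ) * (M1 * P) :=
      mul_le_mul_of_nonneg_right k3 (by positivity)
    have k6 : (a * ε' + c * D * δ) * (M2 * w) ≤ (a * c3 + c * D) * (M2 * w) :=
      mul_le_mul_of_nonneg_right k4 (by positivity)
    have k7 : a * ε' * m + c * J ≤ (a + c * D) * (ε + δ) * (M1 * P)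
        + ((a * c3 + c * D) * M2 + c * D) * w := by linarith
    have k8 : q * (E * (a * ε' * m + c * J)) ≤ q * (E * ((a + c * D) * (ε + δ) * (M1 * P)
        + ((a * c3 + c * D) * M2 + c * D) * w)) := by gcongr
    have k9 : q * (E * ((a + c * D) * (ε + δ) * (M1 * P)
        + ((a * c3 + c * D) * M2 + c * D) * w)) = Ca * ((ε + δ) * P) + Cb * w := by
      rw [hCa, hCb]; ring
    have k10 : Ca * ((ε + δ) * P) ≤ (Ca + Cb + Cc + Cd) * ((ε + δ) * P) :=
      mul_le_mul_of_nonneg_right (by linarith) (by positivity)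
    have k11 : Cb * w ≤ (Ca + Cb + Cc + Cd) * w :=
      mul_le_mul_of_nonneg_right (by linarith) hw0
    calc η ≤ _ := hη
      _ ≤ _ := k8
      _ = _ := k9
      _ ≤ (Ca + Cb + Cc + Cd) * ((ε + δ) * P) + (Ca + Cb + Cc + Cd) * w := add_le_add k10 k11
      _ = _ := by rw [hw]; ring
  · have k1 : m ^ 2 ≤ (M1 * P + M2 * w) ^ 2 := pow_le_pow_left₀ hm h3 2
    have k2 : m ^ 2 ≤ 2 * (M1 ^ 2 * P ^ 2) + 2 * (M2 ^ 2 * (δ * X ^ 2)) := by
      rw [← hw2]; linarith [sq_nonneg (M1 * P - M2 * w)]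
    have k3 : C4 * δ * m ^ 2
        ≤ C4 * δ * (2 * (M1 ^ 2 * P ^ 2) + 2 * (M2 ^ 2 * (δ * X ^ 2))) := by gcongr
    have k4 : δ * δ ≤ 1 := by nlinarith
    have k5 : 2 * C4 * M2 ^ 2 * X ^ 2 * (δ * δ) ≤ 2 * C4 * M2 ^ 2 * X ^ 2 * 1 := by gcongr
    have k6 : Y ≤ Cc * (δ * P ^ 2) + Cd * X ^ 2 := by
      rw [hCc, hCd]; linarith
    have k7 : Cc * (δ * P ^ 2) ≤ (Ca + Cb + Cc + Cd) * (δ * P ^ 2) :=
      mul_le_mul_of_nonneg_right (by linarith) (by positivity)
    have k8 : Cd * X ^ 2 ≤ (Ca + Cb + Cc + Cd) * X ^ 2 :=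
      mul_le_mul_of_nonneg_right (by linarith) (by positivity)
    linarith

end Crest.Agent.R202
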