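import Crest.Agent.R202.PDefs
import Crest.Agent.R202.Lap

/-!
# R202/PBasic: calculus of `lapP`, `XA`, `fis`, `ev`
-/

open scoped Matrix ContDiff
open MvPolynomial
open Crest.GeometryTopology

noncomputable section

namespace Crest.Agent.R202

variable {n : ℕ}

section ring

variable {R : Type} [CommRing R]

theorem lapP_apply (P : MvPolynomial (Fin n) R) : lapP P = ∑ i, pderiv i (pderiv i P) := by
  simp [lapP, LinearMap.sum_apply]

theorem XA_apply (A : Matrix (Fin n) (Fin n) R) (P : MvPolynomial (Fin n) R) :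
    XA A P = ∑ i, ∑ j, A i j • (X j * pderiv i P) := by
  simp [XA, LinearMap.sum_apply]

theorem XA_mul (A : Matrix (Fin n) (Fin n) R) (P Q : MvPolynomial (Fin n) R) :
    XA A (P * Q) = XA A P * Q + P * XA A Q := by
  simp only [XA_apply, pderiv_mul, Finset.sum_mul, Finset.mul_sum, ← Finset.sum_add_distrib]
  refine Finset.sum_congr rfl fun i _ => Finset.sum_congr rfl fun j _ => ?_
  simp only [smul_eq_C_mul]
  ring

theorem XA_add (A A' : Matrix (Fin n) (Fin n) R) : XA (A + A') = XA A + XA A' := by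
  simp only [XA, Matrix.add_apply, add_smul, Finset.sum_add_distrib]

theorem XA_smul (c : R) (A : Matrix (Fin n) (Fin n) R) : XA (c • A) = c • XA A := by
  simp only [XA, Matrix.smul_apply, smul_eq_mul, mul_smul, Finset.smul_sum]

theorem pb_pderiv_comm (i j : Fin n) (P : MvPolynomial (Fin n) R) :
    pderiv i (pderiv j P) = pderiv j (pderiv i P) := by
  by_cases h : i = j
  · rw [h]
  · ext m
    simp only [coeff_pderiv, Finsupp.add_apply, Finsupp.single_eq_of_ne h, Finsupp.single_eq_of_ne (Ne.symm h),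
      add_zero]
    rw [add_right_comm]
    ring

theorem pb_XA_C (A : Matrix (Fin n) (Fin n) R) (a : R) : XA A (C a : MvPolynomial (Fin n) R) = 0 := by
  simp [XA_apply]

theorem pb_XA_X (A : Matrix (Fin n) (Fin n) R) (i : Fin n) :
    XA A (X i : MvPolynomial (Fin n) R) = ∑ j, A i j • X j := by
  rw [XA_apply, Finset.sum_eq_single i]
  · simp
  · intro k _ hk
    simp [pderiv_X_of_ne (Ne.symm hk)]
  · simp

theorem pb_XA_XA_X (A A' : Matrix (Fin n) (Fin n) R) (i : Fin n) :
    XA A (XA A' (X i : MvPolynomial (Fin n) R)) = XA (A' * A) (X i) := by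
  rw [pb_XA_X, pb_XA_X, map_sum]
  simp only [map_smul, pb_XA_X, Finset.smul_sum, Matrix.mul_apply, Finset.sum_smul, smul_smul]
  exact Finset.sum_comm

theorem XA_lie (A A' : Matrix (Fin n) (Fin n) R) :
    XA A ∘ₗ XA A' - XA A' ∘ₗ XA A = XA (A' * A - A * A') := by
  refine LinearMap.ext fun P => ?_
  simp only [LinearMap.sub_apply, LinearMap.comp_apply]
  induction P using MvPolynomial.induction_on with
  | C a => simp [pb_XA_C]
  | add p q hp hq =>
    simp only [map_add]
    rw [← hp, ← hq]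
    ring
  | mul_X p i hp =>
    have hX : XA A (XA A' (X i : MvPolynomial (Fin n) R)) - XA A' (XA A (X i)) = XA (A' * A - A * A') (X i) := by
      rw [pb_XA_XA_X, pb_XA_XA_X, pb_XA_X, pb_XA_X, pb_XA_X, ← Finset.sum_sub_distrib]
      refine Finset.sum_congr rfl fun j _ => ?_
      rw [Matrix.sub_apply, sub_smul]
    simp only [XA_mul, map_add]
    rw [← hp, ← hX]
    ring

theorem XA_isHomogeneous (A : Matrix (Fin n) (Fin n) R) {P : MvPolynomial (Fin n) R} {l : ℕ}
    (h : P.IsHomogeneous l) : (XA A P).IsHomogeneous l := by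
  rw [XA_apply]
  refine IsHomogeneous.sum _ _ _ fun i _ => IsHomogeneous.sum _ _ _ fun j _ => ?_
  refine (homogeneousSubmodule (Fin n) R l).smul_mem _ ?_
  rw [mem_homogeneousSubmodule]
  rcases l with _ | l
  · rw [← totalDegree_zero_iff_isHomogeneous, totalDegree_eq_zero_iff_eq_C] at h
    rw [h, pderiv_C, mul_zero]
    exact isHomogeneous_zero _ _ _
  · have := (isHomogeneous_X R j).mul (h.pderiv (i := i))
    rwa [Nat.add_sub_cancel, add_comm] at this

theorem lapP_isHomogeneous {P : MvPolynomial (Fin n) R} {l : ℕ} (h : P.IsHomogeneous l) :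
    (lapP P).IsHomogeneous (l - 2) := by
  rw [lapP_apply]
  exact IsHomogeneous.sum _ _ _ fun i _ => h.pderiv.pderiv

theorem pb_lapP_pderiv (i : Fin n) (P : MvPolynomial (Fin n) R) : lapP (pderiv i P) = pderiv i (lapP P) := by
  rw [lapP_apply, lapP_apply, map_sum]
  refine Finset.sum_congr rfl fun k _ => ?_
  rw [pb_pderiv_comm k i, pb_pderiv_comm k i]

theorem pb_lapP_X_mul (j : Fin n) (Q : MvPolynomial (Fin n) R) :
    lapP (X j * Q) = (pderiv j Q + pderiv j Q) + X j * lapP Q := by
  rw [lapP_apply, lapP_apply, Finset.mul_sum]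
  have h : ∀ k, pderiv k (pderiv k (X j * Q)) =
      (if k = j then pderiv j Q + pderiv j Q else 0) + X j * pderiv k (pderiv k Q) := by
    intro k
    split_ifs with hk
    · rw [hk, pderiv_mul, pderiv_X_self, one_mul, map_add, pderiv_mul, pderiv_X_self, one_mul, add_assoc]
    · rw [pderiv_mul, pderiv_X_of_ne (Ne.symm hk), zero_mul, zero_add, pderiv_mul, pderiv_X_of_ne (Ne.symm hk),
        zero_mul]
  simp only [h, Finset.sum_add_distrib, Finset.sum_ite_eq', Finset.mem_univ, if_true]

theorem lapP_XA {A : Matrix (Fin n) (Fin n) R} (hA : Aᵀ = -A) (P : MvPolynomial (Fin n) R) :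
    lapP (XA A P) = XA A (lapP P) := by
  have hA' : ∀ i j, A j i = -A i j := fun i j => by
    have := congrFun (congrFun hA i) j
    simpa using this
  have h0 : (∑ i, ∑ j, A i j • pderiv j (pderiv i P)) + ∑ i, ∑ j, A i j • pderiv j (pderiv i P) = 0 := by
    nth_rewrite 1 [Finset.sum_comm]
    rw [← Finset.sum_add_distrib]
    refine Finset.sum_eq_zero fun i _ => ?_
    rw [← Finset.sum_add_distrib]
    refine Finset.sum_eq_zero fun j _ => ?_
    rw [hA' i j, pb_pderiv_comm i j, neg_smul, neg_add_cancel]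
  rw [XA_apply, XA_apply]
  simp only [map_sum, map_smul, pb_lapP_X_mul, pb_lapP_pderiv, smul_add, Finset.sum_add_distrib]
  rw [h0, zero_add]

theorem XA_mem_Hm {A : Matrix (Fin n) (Fin n) R} (hA : Aᵀ = -A) {l : ℕ}
    {P : MvPolynomial (Fin n) R} (h : P ∈ Hm R n l) : XA A P ∈ Hm R n l := by
  obtain ⟨h1, h2⟩ := Submodule.mem_inf.1 h
  refine Submodule.mem_inf.2 ⟨XA_isHomogeneous A h1, ?_⟩
  rw [LinearMap.mem_ker] at h2 ⊢
  rw [lapP_XA hA, h2, map_zero]

theorem pb_fis_eq {P Q : MvPolynomial (Fin n) R} {s : Finset (Fin n →₀ ℕ)} (hs : P.support ⊆ s) :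
    fis P Q = ∑ α ∈ s, (∏ i, ((α i).factorial : R)) * coeff α P * coeff α Q := by
  refine Finset.sum_subset hs fun α _ hα => ?_
  rw [notMem_support_iff.1 hα, mul_zero, zero_mul]

theorem pb_fis_monomial (m : Fin n →₀ ℕ) (a : R) (Q : MvPolynomial (Fin n) R) :
    fis (monomial m a) Q = (∏ i, ((m i).factorial : R)) * a * coeff m Q := by
  rw [pb_fis_eq (s := {m}) support_monomial_subset, Finset.sum_singleton, coeff_monomial, if_pos rfl]

theorem fis_comm (P Q : MvPolynomial (Fin n) R) : fis P Q = fis Q P := by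
  classical
  rw [pb_fis_eq (s := P.support ∪ Q.support) Finset.subset_union_left,
    pb_fis_eq (s := P.support ∪ Q.support) Finset.subset_union_right]
  exact Finset.sum_congr rfl fun α _ => by ring

theorem fis_add_left (P P' Q : MvPolynomial (Fin n) R) : fis (P + P') Q = fis P Q + fis P' Q := by
  rw [fis_comm, fis_comm P, fis_comm P']
  simp only [fis, coeff_add, mul_add, Finset.sum_add_distrib]

theorem fis_smul_left (c : R) (P Q : MvPolynomial (Fin n) R) : fis (c • P) Q = c * fis P Q := by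
  rw [fis_comm, fis_comm P]
  simp only [fis, coeff_smul, smul_eq_mul, Finset.mul_sum]
  exact Finset.sum_congr rfl fun α _ => by ring

theorem fis_add_right (P Q Q' : MvPolynomial (Fin n) R) : fis P (Q + Q') = fis P Q + fis P Q' := by
  simp only [fis, coeff_add, mul_add, Finset.sum_add_distrib]

theorem fis_smul_right (c : R) (P Q : MvPolynomial (Fin n) R) : fis P (c • Q) = c * fis P Q := by
  rw [fis_comm, fis_smul_left, fis_comm]

theorem fis_sum_right {ι : Type} (s : Finset ι) (P : MvPolynomial (Fin n) R)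
    (Q : ι → MvPolynomial (Fin n) R) : fis P (∑ i ∈ s, Q i) = ∑ i ∈ s, fis P (Q i) := by
  classical
  induction s using Finset.induction_on with
  | empty => simp [fis]
  | insert a s ha ih => rw [Finset.sum_insert ha, Finset.sum_insert ha, fis_add_right, ih]

theorem fis_X_mul (i : Fin n) (P Q : MvPolynomial (Fin n) R) :
    fis (X i * P) Q = fis P (pderiv i Q) := by
  induction P using MvPolynomial.induction_on' with
  | add p q hp hq => rw [mul_add, fis_add_left, fis_add_left, hp, hq]
  | monomial m a =>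
    have h1 : (X i : MvPolynomial (Fin n) R) * monomial m a = monomial (m + Finsupp.single i 1) a := by
      rw [X, monomial_mul, one_mul, add_comm]
    have h2 : ∏ k, (((m + Finsupp.single i 1 : Fin n →₀ ℕ) k).factorial : R) =
        (∏ k, ((m k).factorial : R)) * (m i + 1) := by
      rw [← Finset.mul_prod_erase Finset.univ _ (Finset.mem_univ i),
        ← Finset.mul_prod_erase Finset.univ (fun k => ((m k).factorial : R)) (Finset.mem_univ i)]
      have : ∏ k ∈ Finset.univ.erase i, (((m + Finsupp.single i 1 : Fin n →₀ ℕ) k).factorial : R) =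
          ∏ k ∈ Finset.univ.erase i, ((m k).factorial : R) := by
        refine Finset.prod_congr rfl fun k hk => ?_
        rw [Finsupp.add_apply, Finsupp.single_eq_of_ne (Finset.ne_of_mem_erase hk), add_zero]
      rw [this, Finsupp.add_apply, Finsupp.single_eq_same, Nat.factorial_succ]
      push_cast
      ring
    rw [h1, pb_fis_monomial, pb_fis_monomial, coeff_pderiv, h2]
    ring

theorem fis_XA (A : Matrix (Fin n) (Fin n) R) (P Q : MvPolynomial (Fin n) R) :
    fis (XA A P) Q = fis P (XA Aᵀ Q) := by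
  rw [fis_comm, XA_apply, XA_apply, fis_sum_right, fis_sum_right]
  simp only [fis_sum_right, fis_smul_right]
  rw [Finset.sum_comm]
  refine Finset.sum_congr rfl fun j _ => Finset.sum_congr rfl fun i _ => ?_
  rw [Matrix.transpose_apply, fis_comm Q, fis_X_mul, fis_comm P, fis_X_mul, fis_comm]

theorem fis_of_ne {P Q : MvPolynomial (Fin n) R} {l l' : ℕ} (hP : P.IsHomogeneous l)
    (hQ : Q.IsHomogeneous l') (h : l ≠ l') : fis P Q = 0 := by
  refine Finset.sum_eq_zero fun α hα => ?_
  have h1 : α.degree = l := by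
    by_contra h1
    exact mem_support_iff.1 hα (hP.coeff_eq_zero h1)
  rw [hQ.coeff_eq_zero (by rw [h1]; exact h), mul_zero]

/-- reproducing property -/
theorem fis_pow (α : Fin n → R) {l : ℕ} {P : MvPolynomial (Fin n) R} (hP : P.IsHomogeneous l) :
    fis ((∑ i, C (α i) * X i) ^ l) P = (l.factorial : R) * eval α P := by
  induction l generalizing P with
  | zero =>
    rw [← totalDegree_zero_iff_isHomogeneous, totalDegree_eq_zero_iff_eq_C] at hP
    have h1 : (1 : MvPolynomial (Fin n) R) = monomial 0 1 := rfl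
    rw [pow_zero, h1, pb_fis_monomial]
    conv_rhs => rw [hP]
    simp
  | succ l ih =>
    have h1 : (∑ i, C (α i) * X i : MvPolynomial (Fin n) R) ^ (l + 1) =
        ∑ j, α j • (X j * (∑ i, C (α i) * X i) ^ l) := by
      rw [pow_succ', Finset.sum_mul]
      exact Finset.sum_congr rfl fun j _ => by rw [smul_eq_C_mul, mul_assoc]
    have h2 := congrArg (eval α) hP.sum_X_mul_pderiv
    simp only [map_sum, map_mul, eval_X, nsmul_eq_mul, map_natCast] at h2
    rw [h1, fis_comm, fis_sum_right, Nat.factorial_succ, Nat.cast_mul, mul_comm ((l + 1 : ℕ) : R), mul_assoc, ← h2,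
      Finset.mul_sum]
    refine Finset.sum_congr rfl fun j _ => ?_
    rw [fis_smul_right, fis_comm, fis_X_mul, ih (hP.pderiv (i := j))]
    ring

/-- powers of null linear forms are harmonic -/
theorem pow_mem_Hm {α : Fin n → R} (hα : ∑ i, α i * α i = 0) (l : ℕ) :
    (∑ i, C (α i) * X i : MvPolynomial (Fin n) R) ^ l ∈ Hm R n l := by
  refine Submodule.mem_inf.2 ⟨?_, ?_⟩
  · have := (IsHomogeneous.sum Finset.univ (fun i => (C (α i) * X i : MvPolynomial (Fin n) R)) 1
      fun i _ => isHomogeneous_C_mul_X (α i) i).pow l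
    rwa [one_mul] at this
  · have h1 : ∀ j, pderiv j (∑ i, C (α i) * X i : MvPolynomial (Fin n) R) = C (α j) := by
      intro j
      rw [map_sum, Finset.sum_eq_single j]
      · rw [pderiv_C_mul, pderiv_X_self, mul_one]
      · intro i _ hi
        rw [pderiv_C_mul, pderiv_X_of_ne hi, mul_zero]
      · simp
    rw [LinearMap.mem_ker, lapP_apply]
    generalize (∑ i, C (α i) * X i : MvPolynomial (Fin n) R) = Lf at h1 ⊢
    have h2 : ∀ j, pderiv j (pderiv j (Lf ^ l)) =
        ((l : MvPolynomial (Fin n) R) * (((l - 1 : ℕ) : MvPolynomial (Fin n) R) * Lf ^ (l - 1 - 1))) *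
          C (α j * α j) := by
      intro j
      have h3 : pderiv j (l : MvPolynomial (Fin n) R) = 0 := by
        rw [← map_natCast (C : R →+* MvPolynomial (Fin n) R), pderiv_C]
      rw [pderiv_pow, h1, pderiv_mul, pderiv_mul, pderiv_pow, h1, h3, pderiv_C, map_mul]
      ring
    simp only [h2]
    rw [← Finset.mul_sum, ← map_sum, hα, map_zero, mul_zero]

end ring

theorem fis_self_nonneg (P : Pl n) : 0 ≤ fis P P := by
  refine Finset.sum_nonneg fun α _ => ?_
  rw [mul_assoc]
  exact mul_nonneg (Finset.prod_nonneg fun i _ => Nat.cast_nonneg _) (mul_self_nonneg _)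

theorem fis_self_eq_zero {P : Pl n} (h : fis P P = 0) : P = 0 := by
  by_contra hP
  obtain ⟨α, hα⟩ := MvPolynomial.ne_zero_iff.1 hP
  have hn : ∀ α ∈ P.support, 0 ≤ (∏ i, ((α i).factorial : ℝ)) * coeff α P * coeff α P := fun α _ => by
    rw [mul_assoc]
    exact mul_nonneg (Finset.prod_nonneg fun i _ => Nat.cast_nonneg _) (mul_self_nonneg _)
  have h1 := (Finset.sum_eq_zero_iff_of_nonneg hn).1 h α (mem_support_iff.2 hα)
  have h2 : (∏ i, ((α i).factorial : ℝ)) ≠ 0 :=
    Finset.prod_ne_zero_iff.2 fun i _ => Nat.cast_ne_zero.2 (Nat.factorial_ne_zero _)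
  exact mul_ne_zero (mul_ne_zero h2 hα) hα h1

instance finite_Hm (l : ℕ) : Module.Finite ℝ (Hm ℝ n l) := by
  have : Module.Finite ℝ (homogeneousSubmodule (Fin n) ℝ l) :=
    Module.Finite.iff_fg.2 (homogeneousSubmodule_fg (Fin n) ℝ l)
  exact Submodule.finiteDimensional_of_le (inf_le_left : Hm ℝ n l ≤ homogeneousSubmodule (Fin n) ℝ l)

theorem finrank_homogeneous (l : ℕ) (hn : 1 ≤ n) :
    Module.finrank ℝ (homogeneousSubmodule (Fin n) ℝ l) = Nat.choose (l + n - 1) (n - 1) := by
  classical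
  rw [homogeneousSubmodule_eq_finsupp_supported]
  have h1 := Module.finrank_eq_nat_card_basis (basisRestrictSupport ℝ {d : Fin n →₀ ℕ | d.degree = l})
  refine h1.trans ?_
  have h2 : {d : Fin n →₀ ℕ | d.degree = l} = ↑(Finset.finsuppAntidiag (Finset.univ : Finset (Fin n)) l) := by
    ext d
    simp [Finset.mem_finsuppAntidiag, Finsupp.degree_eq_sum]
  rw [h2, Nat.card_coe_set_eq, Set.ncard_coe_finset, Finset.card_finsuppAntidiag_nat_eq_choose,
    Finset.card_univ, Fintype.card_fin]
  obtain ⟨k, rfl⟩ : ∃ k, n = k + 1 := ⟨n - 1, by omega⟩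
  rw [show k + 1 + l - 1 = k + l by omega, show l + (k + 1) - 1 = k + l by omega, Nat.add_sub_cancel]
  exact (Nat.choose_symm_add).symm

theorem ev_add (P Q : Pl n) (x : E n) : ev (P + Q) x = ev P x + ev Q x := by
  simp [ev]

theorem ev_mul (P Q : Pl n) (x : E n) : ev (P * Q) x = ev P x * ev Q x := by
  simp [ev]

theorem ev_smul (c : ℝ) (P : Pl n) (x : E n) : ev (c • P) x = c * ev P x := by
  simp [ev]

theorem ev_sum {ι : Type} (s : Finset ι) (P : ι → Pl n) (x : E n) :
    ev (∑ i ∈ s, P i) x = ∑ i ∈ s, ev (P i) x := by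
  simp [ev]

theorem contDiff_ev (P : Pl n) : ContDiff ℝ ∞ (ev P) := by
  induction P using MvPolynomial.induction_on with
  | C a =>
    have : ev (C a : Pl n) = fun _ => a := by funext x; simp [ev]
    rw [this]
    exact contDiff_const
  | add p q hp hq =>
    have : ev (p + q) = fun x => ev p x + ev q x := by funext x; exact ev_add p q x
    rw [this]
    exact hp.add hq
  | mul_X p i hp =>
    have : ev (p * X i) = fun x => ev p x * x i := by funext x; simp [ev]
    rw [this]
    exact hp.mul (EuclideanSpace.proj i : E n →L[ℝ] ℝ).contDiff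

theorem pderiv_ev (P : Pl n) (i : Fin n) (x : E n) :
    CoordMetric.pderiv i (ev P) x = ev (pderiv i P) x := by
  have hd : ∀ p : Pl n, DifferentiableAt ℝ (ev p) x := fun p =>
    ((contDiff_ev p).differentiable (by simp)).differentiableAt
  induction P using MvPolynomial.induction_on with
  | C a =>
    have : ev (C a : Pl n) = fun _ => a := by funext x; simp [ev]
    rw [this]
    simp [CoordMetric.pderiv, ev]
  | add p q hp hq =>
    have : ev (p + q) = fun x => ev p x + ev q x := by funext x; exact ev_add p q x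
    rw [this, map_add, ev_add, ← hp, ← hq]
    unfold CoordMetric.pderiv
    rw [fderiv_fun_add (hd p) (hd q)]
    rfl
  | mul_X p j hp =>
    have : ev (p * X j) = fun x => ev p x * x j := by funext x; simp [ev]
    have h1 := lap_pderiv_coord i j x
    have h2 : ev (pderiv i (X j : Pl n)) x = if j = i then 1 else 0 := by
      split_ifs with h
      · rw [h, pderiv_X_self]; simp [ev]
      · rw [pderiv_X_of_ne h]; simp [ev]
    have h3 : ev (X j : Pl n) x = x j := by simp [ev]
    rw [this, pderiv_mul, ev_add, ev_mul, ev_mul, ← hp, h2, ← h1, h3]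
    unfold CoordMetric.pderiv
    have h4 : DifferentiableAt ℝ (fun y : E n => y j) x := (EuclideanSpace.proj j : E n →L[ℝ] ℝ).differentiableAt
    rw [fderiv_fun_mul (hd p) h4]
    simp only [ContinuousLinearMap.add_apply, ContinuousLinearMap.smul_apply, smul_eq_mul]
    ring

theorem fderiv_ev_mv (P : Pl n) (A : Mat n) (x : E n) :
    fderiv ℝ (ev P) x (mv A x) = ev (XA A P) x := by
  rw [lap_clm_eq_sum, XA_apply, ev_sum]
  refine Finset.sum_congr rfl fun i _ => ?_
  have h := pderiv_ev P i x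
  unfold CoordMetric.pderiv at h
  rw [h, ev_sum, mv_apply, Finset.sum_mul]
  refine Finset.sum_congr rfl fun j _ => ?_
  have h3 : ev (X j : Pl n) x = x j := by simp [ev]
  rw [ev_smul, ev_mul, h3, mul_assoc]

theorem ev_smul_of_isHomogeneous {P : Pl n} {l : ℕ} (h : P.IsHomogeneous l) (t : ℝ) (x : E n) :
    ev P (t • x) = t ^ l * ev P x := by
  unfold ev
  rw [eval_eq', eval_eq', Finset.mul_sum]
  refine Finset.sum_congr rfl fun α hα => ?_
  have h1 : α.degree = l := by
    by_contra h1
    exact mem_support_iff.1 hα (h.coeff_eq_zero h1)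
  rw [Finsupp.degree_eq_sum] at h1
  simp only [PiLp.smul_apply, smul_eq_mul, mul_pow, Finset.prod_mul_distrib, Finset.prod_pow_eq_pow_sum, h1]
  ring

/-- Euler's identity -/
theorem fderiv_ev_self {P : Pl n} {l : ℕ} (h : P.IsHomogeneous l) (x : E n) :
    fderiv ℝ (ev P) x x = l * ev P x := by
  have h2 := congrArg (fun p => ev p x) h.sum_X_mul_pderiv
  simp only [ev_sum, ev_mul] at h2
  have h4 : ev (l • P) x = l * ev P x := by simp [ev]
  rw [lap_clm_eq_sum, ← h4, ← h2]
  refine Finset.sum_congr rfl fun i _ => ?_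
  have h := pderiv_ev P i x
  unfold CoordMetric.pderiv at h
  have h3 : ev (X i : Pl n) x = x i := by simp [ev]
  rw [h, h3]

theorem eq_zero_of_ev_sphere {P : Pl n} {l : ℕ} (h : P.IsHomogeneous l) (hn : 1 ≤ n)
    (h0 : ∀ x : E n, ‖x‖ = 1 → ev P x = 0) : P = 0 := by
  have key : ∀ x : E n, ev P x = 0 := by
    intro x
    obtain ⟨y, hy, hx⟩ : ∃ y : E n, ‖y‖ = 1 ∧ x = ‖x‖ • y := by
      by_cases hx : x = 0
      · exact ⟨EuclideanSpace.single ⟨0, hn⟩ 1, by simp, by simp [hx]⟩
      · have hx' : ‖x‖ ≠ 0 := norm_ne_zero_iff.2 hx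
        refine ⟨‖x‖⁻¹ • x, ?_, ?_⟩
        · rw [norm_smul, norm_inv, norm_norm, inv_mul_cancel₀ hx']
        · rw [smul_smul, mul_inv_cancel₀ hx', one_smul]
    rw [hx, ev_smul_of_isHomogeneous h, h0 y hy, mul_zero]
  refine MvPolynomial.funext fun x => ?_
  rw [map_zero]
  exact key (WithLp.toLp 2 x)

theorem LP.mem_Hm {r : ℕ} {A : Pl n →ₗ[ℝ] Pl n} (h : LP n r A) {l : ℕ} {P : Pl n}
    (hP : P ∈ Hm ℝ n l) : A P ∈ Hm ℝ n l := by
  induction h generalizing P with
  | base hJ => exact XA_mem_Hm hJ.1 (XA_mem_Hm hJ.1 hP)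
  | zero r => exact Submodule.zero_mem _
  | add _ _ h1 h2 => exact Submodule.add_mem _ (h1 hP) (h2 hP)
  | smul c _ h1 => exact Submodule.smul_mem _ c (h1 hP)
  | lie _ _ h1 h2 => exact Submodule.sub_mem _ (h1 (h2 hP)) (h2 (h1 hP))

section HB

variable {J : Mat n} {L : ℕ} {W : Type} [Fintype W] [DecidableEq W] {d : W → ℕ} {Y : W → Pl n}
  {μ : W → ℝ}

theorem blk_matP (A : Pl n →ₗ[ℝ] Pl n) : Blk d (matP d Y A) := by
  intro i j h
  exact if_neg h

theorem HB.expand (h : HB J L d Y μ) {A : Pl n →ₗ[ℝ] Pl n}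
    (hA : ∀ l, ∀ P ∈ Hm ℝ n l, A P ∈ Hm ℝ n l) (j : W) :
    A (Y j) = ∑ i, matP d Y A i j • Y i := by
  exact h.span (d j) (h.deg j).1 (h.deg j).2 _ (hA _ _ (h.mem j))

theorem HB.matP_comp (h : HB J L d Y μ) (A : Pl n →ₗ[ℝ] Pl n) {A' : Pl n →ₗ[ℝ] Pl n}
    (hA' : ∀ l, ∀ P ∈ Hm ℝ n l, A' P ∈ Hm ℝ n l) :
    matP d Y (A ∘ₗ A') = matP d Y A * matP d Y A' := by
  ext i j
  rw [Matrix.mul_apply]
  by_cases hij : d i = d j
  · have h1 : matP d Y (A ∘ₗ A') i j = fis (Y i) (A (A' (Y j))) := if_pos hij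
    rw [h1, h.expand hA' j, map_sum, fis_sum_right]
    refine Finset.sum_congr rfl fun k _ => ?_
    rw [map_smul, fis_smul_right]
    by_cases hk : d i = d k
    · have h2 : matP d Y A i k = fis (Y i) (A (Y k)) := if_pos hk
      rw [h2, mul_comm]
    · rw [blk_matP A i k hk, blk_matP A' k j (fun h' => hk (hij.trans h'.symm)), zero_mul, zero_mul]
  · rw [blk_matP _ i j hij]
    refine (Finset.sum_eq_zero fun k _ => ?_).symm
    by_cases hk : d i = d k
    · rw [blk_matP A' k j (fun h' => hij (hk.trans h')), mul_zero]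
    · rw [blk_matP A i k hk, zero_mul]

theorem HB.matP_self (h : HB J L d Y μ) :
    matP d Y (XA J ∘ₗ XA J) = Matrix.diagonal fun i => -μ i := by
  ext i j
  unfold matP
  rw [LinearMap.comp_apply, h.eig, fis_smul_right, h.orth, Matrix.diagonal_apply]
  by_cases hij : i = j
  · simp [hij]
  · simp [hij]

theorem HB.linearIndependent (h : HB J L d Y μ) : LinearIndependent ℝ Y := by
  rw [Fintype.linearIndependent_iff]
  intro g hg i
  have h1 := congrArg (fis (Y i)) hg
  rw [fis_sum_right] at h1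
  simp only [fis_smul_right, h.orth, mul_ite, mul_one, mul_zero, Finset.sum_ite_eq, Finset.mem_univ, if_true] at h1
  rw [h1]
  simp [fis]

end HB

end Crest.Agent.R202
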