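import Mathlib

/-!
# R202/PBasisAux: linear algebra and counting for `PBasis`
-/

set_option autoImplicit false

open scoped Matrix
open Module Finset

noncomputable section

namespace Crest.Agent.R202

/-- spectral theorem for a positive definite form -/
theorem PB_spec {V : Type} [AddCommGroup V] [Module ℝ V] [Module.Finite ℝ V] (B : V → V → ℝ)
    (hs : ∀ x y, B x y = B y x) (ha : ∀ x y z, B (x + y) z = B x z + B y z)
    (hm : ∀ (c : ℝ) x y, B (c • x) y = c * B x y) (h0 : ∀ x, 0 ≤ B x x)
    (hd : ∀ x, B x x = 0 → x = 0) (T : V →ₗ[ℝ] V) (hT : ∀ x y, B (T x) y = B x (T y)) :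
    ∃ (b : Fin (finrank ℝ V) → V) (ν : Fin (finrank ℝ V) → ℝ),
      (∀ i j, B (b i) (b j) = if i = j then 1 else 0) ∧ (∀ x, x = ∑ i, B (b i) x • b i) ∧
        ∀ i, T (b i) = ν i • b i := by
  let c : InnerProductSpace.Core ℝ V :=
    { inner := B
      conj_inner_symm := fun x y => by simpa using hs y x
      re_inner_nonneg := fun x => by simpa using h0 x
      add_left := ha
      smul_left := fun x y r => by simpa using hm r x y
      definite := hd }
  let : NormedAddCommGroup V := InnerProductSpace.Core.toNormedAddCommGroup (𝕜 := ℝ)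
  let : InnerProductSpace ℝ V := InnerProductSpace.ofCore c.toCore
  have hT' : T.IsSymmetric := hT
  refine ⟨hT'.eigenvectorBasis rfl, hT'.eigenvalues rfl, fun i j => ?_, fun x => ?_, fun i => ?_⟩
  · exact orthonormal_iff_ite.1 (hT'.eigenvectorBasis rfl).orthonormal i j
  · exact ((hT'.eigenvectorBasis rfl).sum_repr' x).symm
  · exact hT'.apply_eigenvectorBasis rfl i

/-- dimension of an eigenspace from a basis of eigenvectors -/
theorem PB_count {K V ι : Type} [Field K] [AddCommGroup V] [Module K V] [Fintype ι]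
    (U : Submodule K V) (T : V →ₗ[K] V) (b : ι → V) (c : ι → K) (hb : LinearIndependent K b)
    (hU : ∀ i, b i ∈ U) (hsp : ∀ v ∈ U, v ∈ Submodule.span K (Set.range b))
    (hT : ∀ i, T (b i) = c i • b i) (c₀ : K) (E : Submodule K V)
    (hE : ∀ v, v ∈ E ↔ v ∈ U ∧ T v = c₀ • v) (s : Finset ι) (hs : ∀ i, i ∈ s ↔ c i = c₀) :
    finrank K E = s.card := by
  classical
  have h1 : E = Submodule.span K (Set.range fun i : s => b i) := by
    apply le_antisymm
    · intro v hv
      obtain ⟨hv1, hv2⟩ := (hE v).1 hv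
      obtain ⟨a, rfl⟩ := (Submodule.mem_span_range_iff_exists_fun K).1 (hsp v hv1)
      have h2 : ∑ i, (a i * (c i - c₀)) • b i = 0 := by
        rw [map_sum, smul_sum] at hv2
        simp only [map_smul, hT, smul_smul] at hv2
        simp only [mul_sub, sub_smul, sum_sub_distrib]
        rw [hv2, sub_eq_zero]
        exact sum_congr rfl fun i _ => by rw [mul_comm]
      have h3 := Fintype.linearIndependent_iff.1 hb _ h2
      refine Submodule.sum_mem _ fun i _ => ?_
      by_cases hi : i ∈ s
      · exact Submodule.smul_mem _ _ (Submodule.subset_span ⟨⟨i, hi⟩, rfl⟩)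
      · have h4 : c i - c₀ ≠ 0 := fun h => hi ((hs i).2 (sub_eq_zero.1 h))
        rw [(mul_eq_zero.1 (h3 i)).resolve_right h4, zero_smul]
        exact Submodule.zero_mem _
    · rw [Submodule.span_le]
      rintro _ ⟨i, rfl⟩
      exact (hE _).2 ⟨hU i, by rw [hT, (hs i).1 i.2]⟩
  rw [h1, finrank_span_eq_card (b := fun i : s => b i) (hb.comp _ Subtype.val_injective),
    Fintype.card_coe]

theorem PB_rank {K V V' : Type} [Field K] [AddCommGroup V] [Module K V] [AddCommGroup V']
    [Module K V'] (f : V →ₗ[K] V') (U : Submodule K V) (U' : Submodule K V') [Module.Finite K U]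
    [Module.Finite K U'] (h : ∀ v ∈ U, f v ∈ U') :
    finrank K U ≤ finrank K (U ⊓ LinearMap.ker f : Submodule K V) + finrank K U' := by
  have h1 := LinearMap.finrank_range_add_finrank_ker (f.domRestrict U)
  have h2 : finrank K (LinearMap.range (f.domRestrict U)) ≤ finrank K U' := by
    apply Submodule.finrank_mono
    rintro _ ⟨v, rfl⟩
    exact h v v.2
  have h3 : finrank K (LinearMap.ker (f.domRestrict U)) =
      finrank K (U ⊓ LinearMap.ker f : Submodule K V) := by
    rw [← Submodule.finrank_map_subtype_eq U, LinearMap.ker_domRestrict,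
      Submodule.map_comap_subtype]
  omega

/-- eigenbasis of a complex structure -/
theorem PB_eigbasis {n : ℕ} (J : Matrix (Fin n) (Fin n) ℂ) (hJ : J * J = -1) (ht : J.trace = 0) :
    ∃ (a : ℕ) (c : Basis (Fin a ⊕ Fin a) ℂ (Fin n → ℂ)), a + a = n ∧
      (∀ k, c (Sum.inl k) ᵥ* J = Complex.I • c (Sum.inl k)) ∧
      ∀ k, c (Sum.inr k) ᵥ* J = (-Complex.I) • c (Sum.inr k) := by
  obtain ⟨T, hT⟩ : ∃ T : (Fin n → ℂ) →ₗ[ℂ] (Fin n → ℂ), T = Matrix.toLin' Jᵀ := ⟨_, rfl⟩
  have hTv : ∀ v, T v = v ᵥ* J := fun v => by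
    rw [hT, Matrix.toLin'_apply, Matrix.mulVec_transpose]
  have hTT : ∀ v, T (T v) = -v := fun v => by
    rw [hTv, hTv, Matrix.vecMul_vecMul, hJ, Matrix.vecMul_neg, Matrix.vecMul_one]
  let p : Submodule ℂ (Fin n → ℂ) := Module.End.eigenspace T Complex.I
  let q : Submodule ℂ (Fin n → ℂ) := Module.End.eigenspace T (-Complex.I)
  have hp : ∀ v, v ∈ p ↔ T v = Complex.I • v := fun v => Module.End.mem_eigenspace_iff
  have hq : ∀ v, v ∈ q ↔ T v = (-Complex.I) • v := fun v => Module.End.mem_eigenspace_iff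
  have hpq : IsCompl p q := by
    constructor
    · rw [Submodule.disjoint_def]
      intro v h1 h2
      rw [hp] at h1
      rw [hq, h1] at h2
      have h3 : (2 * Complex.I) • v = 0 := by
        rw [two_mul, add_smul]
        nth_rewrite 1 [h2]
        rw [neg_smul, neg_add_cancel]
      exact (smul_eq_zero.1 h3).resolve_left (by simp)
    · rw [codisjoint_iff, eq_top_iff]
      intro v _
      rw [Submodule.mem_sup]
      refine ⟨(1 / 2 : ℂ) • (v - Complex.I • T v), ?_, (1 / 2 : ℂ) • (v + Complex.I • T v), ?_, ?_⟩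
      · refine Submodule.smul_mem _ _ ((hp _).2 ?_)
        rw [map_sub, map_smul, hTT, smul_sub, smul_smul, Complex.I_mul_I]
        simp [add_comm]
      · refine Submodule.smul_mem _ _ ((hq _).2 ?_)
        rw [map_add, map_smul, hTT, smul_add, smul_smul, neg_mul, Complex.I_mul_I]
        simp [add_comm]
      · rw [← smul_add, sub_add_add_cancel, ← two_smul ℂ v, smul_smul]
        norm_num
  let c : Basis (Fin (finrank ℂ p) ⊕ Fin (finrank ℂ q)) ℂ (Fin n → ℂ) :=
    ((Module.finBasis ℂ p).prod (Module.finBasis ℂ q)).map (Submodule.prodEquivOfIsCompl p q hpq)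
  have hc1 : ∀ k, T (c (Sum.inl k)) = Complex.I • c (Sum.inl k) := by
    intro k
    rw [← hp]
    simp [c, Basis.prod_apply]
  have hc2 : ∀ k, T (c (Sum.inr k)) = (-Complex.I) • c (Sum.inr k) := by
    intro k
    rw [← hq]
    simp [c, Basis.prod_apply]
  have hab : finrank ℂ p = finrank ℂ q := by
    have h1 : LinearMap.trace ℂ _ T = 0 := by
      rw [hT, Matrix.trace_toLin'_eq, Matrix.trace_transpose, ht]
    rw [LinearMap.trace_eq_matrix_trace ℂ c, Matrix.trace, Fintype.sum_sum_type] at h1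
    simp only [Matrix.diag_apply, LinearMap.toMatrix_apply, hc1, hc2, map_smul, Basis.repr_self,
      Finsupp.smul_apply, Finsupp.single_eq_same, smul_eq_mul, mul_one, sum_const, card_univ,
      Fintype.card_fin, nsmul_eq_mul] at h1
    have h2 : ((finrank ℂ p : ℂ) - finrank ℂ q) * Complex.I = 0 := by linear_combination h1
    have h3 := (mul_eq_zero.1 h2).resolve_right Complex.I_ne_zero
    exact_mod_cast sub_eq_zero.1 h3
  have hn : finrank ℂ p + finrank ℂ q = n := by
    have := finrank_eq_card_basis c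
    simpa using this.symm
  refine ⟨finrank ℂ p, c.reindex (Equiv.sumCongr (Equiv.refl _) (finCongr hab.symm)), by omega,
    fun k => ?_, fun k => ?_⟩
  · rw [← hTv, Basis.reindex_apply]
    exact hc1 _
  · rw [← hTv, Basis.reindex_apply]
    exact hc2 _

/-- degree in the first group of variables -/
def PBp {a : ℕ} (α : Fin a ⊕ Fin a →₀ ℕ) : ℕ := ∑ k, α (Sum.inl k)
/-- degree in the second group of variables -/
def PBq {a : ℕ} (α : Fin a ⊕ Fin a →₀ ℕ) : ℕ := ∑ k, α (Sum.inr k)

theorem PB_mem {a l : ℕ} {α : Fin a ⊕ Fin a →₀ ℕ} :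
    α ∈ finsuppAntidiag (univ : Finset (Fin a ⊕ Fin a)) l ↔ PBp α + PBq α = l := by
  simp [PBp, PBq, Fintype.sum_sum_type]

theorem PB_cnt (m p q : ℕ) (s : Finset (Fin (m + 1) ⊕ Fin (m + 1) →₀ ℕ))
    (hs : ∀ α, α ∈ s ↔ PBp α = p ∧ PBq α = q) :
    s.card = Nat.choose (p + m) m * Nat.choose (q + m) m := by
  have h1 : ∀ r, (finsuppAntidiag (univ : Finset (Fin (m + 1))) r).card = Nat.choose (r + m) m := by
    intro r
    rw [card_finsuppAntidiag_nat_eq_choose, card_univ, Fintype.card_fin,
      show m + 1 + r - 1 = r + m by omega, Nat.choose_symm_add]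
  rw [← h1, ← h1, ← card_product]
  refine card_equiv Finsupp.sumFinsuppEquivProdFinsupp fun α => ?_
  simp [hs, PBp, PBq]

/-- number of monomials of degree `l` with eigenvalue `c₀` -/
def PBN (a l : ℕ) (c₀ : ℝ) : ℕ :=
  open Classical in
  ((finsuppAntidiag (univ : Finset (Fin a ⊕ Fin a)) l).filter
    fun α => -((PBp α : ℝ) - PBq α) ^ 2 = c₀).card

theorem PB_sq {p q j : ℕ} : -((p : ℝ) - q) ^ 2 = -(j : ℝ) ^ 2 ↔ p = q + j ∨ q = p + j := by
  rw [neg_inj, sq_eq_sq_iff_eq_or_eq_neg]
  constructor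
  · rintro (h | h)
    · left
      have : (p : ℝ) = q + j := by linarith
      exact_mod_cast this
    · right
      have : (q : ℝ) = p + j := by linarith
      exact_mod_cast this
  · rintro (h | h)
    · left
      rw [h]
      push_cast
      ring
    · right
      rw [h]
      push_cast
      ring

theorem PBN_eq (m q j : ℕ) : PBN (m + 1) (2 * q + j) (-(j : ℝ) ^ 2) =
    (if j = 0 then 1 else 2) * (Nat.choose (q + j + m) m * Nat.choose (q + m) m) := by
  classical
  unfold PBN
  split_ifs with hj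
  · subst hj
    rw [one_mul]
    refine PB_cnt m _ _ _ fun α => ?_
    rw [mem_filter, PB_mem, PB_sq]
    omega
  · obtain ⟨A, hA⟩ : ∃ A, A = finsuppAntidiag (univ : Finset (Fin (m + 1) ⊕ Fin (m + 1))) (2 * q + j) :=
      ⟨_, rfl⟩
    have h1 := PB_cnt m (q + j) q (A.filter fun α => PBp α = PBq α + j) fun α => by
      rw [hA, mem_filter, PB_mem]
      omega
    have h2 := PB_cnt m q (q + j) (A.filter fun α => PBq α = PBp α + j) fun α => by
      rw [hA, mem_filter, PB_mem]
      omega
    rw [mul_comm] at h2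
    rw [← hA, two_mul]
    nth_rewrite 1 [← h1]
    rw [← h2, ← card_union_of_disjoint, ← filter_or]
    · congr 1
      exact filter_congr fun α _ => PB_sq
    · rw [disjoint_filter]
      intro α _
      omega

theorem PBN_pos {a l : ℕ} {c₀ : ℝ} (h : 0 < PBN a l c₀) : -c₀ ≤ (l : ℝ) ^ 2 := by
  classical
  unfold PBN at h
  obtain ⟨α, hα⟩ := card_pos.1 h
  rw [mem_filter, PB_mem] at hα
  obtain ⟨h1, h2⟩ := hα
  rw [← h1, ← h2]
  push_cast
  have : (0 : ℝ) ≤ (PBp α : ℝ) * PBq α := by positivity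
  nlinarith

end Crest.Agent.R202
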