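import Crest.Agent.R202.PBasic
import Crest.Agent.R202.PBasisAux

/-!
# R202/PBasis: the adapted basis and the dimension counts

`exists_HB`: on `Hm ℝ n l` with the inner product `fis` (`InnerProductSpace.Core`) the operator
`X_J²` is symmetric (`fis_XA`), take `LinearMap.IsSymmetric.eigenvectorBasis`;
`W = Σ l : Icc 2 L, Fin (finrank …)`.  `0 ≤ μ`: `fis (X_J² Y) Y = -fis (X_J Y) (X_J Y)`.
`μ ≤ l²` is `eig_le`.

`eig_le`, `card_eig`: choose an orthonormal basis `f₁, J f₁, f₂, J f₂, …` of `ℝⁿ` (induction; or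
any real basis of this form, e.g. from the complex vector space structure defined by `J`) and the
complex linear forms `z_k, w_k = conj z_k` with `X_J z_k = i z_k`, `X_J w_k = -i w_k`.  A linear
change of variables identifies `ℂ[x]` with the polynomial ring in `z, w`; the monomials
`z^α w^β`, `|α| + |β| = l`, form a basis of the homogeneous part consisting of eigenvectors of
`X_J²` with eigenvalue `-(|α|-|β|)²`.  So the complex eigenspace for `-j²` in degree `l` has
dimension `(1 or 2) C(p+m,m) C(q+m,m)`, `p = (l+j)/2`, `q = (l-j)/2`, and the real eigenspace has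
the same real dimension (real and imaginary parts / base change).  `lapP` commutes with `X_J` and
maps the eigenspace of degree `l` to that of degree `l - 2` (which has `p-1, q-1`, and is zero if
`q = 0`); rank–nullity.  Finally the kernel is spanned by the `Y i` with `d i = l`, `μ i = j²`.
-/

open scoped Matrix
open MvPolynomial

noncomputable section

namespace Crest.Agent.R202

variable {n : ℕ}

section lin

variable {R σ τ : Type} [CommRing R] [Fintype σ] [Fintype τ] [DecidableEq σ] [DecidableEq τ]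

/-- the linear form with coefficients `v` -/
def PBlin : (σ → R) →ₗ[R] MvPolynomial σ R := Fintype.linearCombination R X

/-- linear change of variables -/
def PBsub (f : (σ → R) →ₗ[R] (τ → R)) : MvPolynomial σ R →ₐ[R] MvPolynomial τ R :=
  aeval fun i => PBlin (f (Pi.single i 1))

omit [DecidableEq σ] in
theorem PBlin_apply (v : σ → R) : PBlin v = ∑ i, v i • (X i : MvPolynomial σ R) :=
  Fintype.linearCombination_apply R _ v

theorem PBlin_single (i : σ) : PBlin (Pi.single i (1 : R)) = (X i : MvPolynomial σ R) := by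
  unfold PBlin
  rw [Fintype.linearCombination_apply_single, one_smul]

omit [DecidableEq σ] in
theorem PBlin_hom (v : σ → R) : (PBlin v : MvPolynomial σ R).IsHomogeneous 1 := by
  rw [PBlin_apply]
  exact (homogeneousSubmodule σ R 1).sum_mem fun i _ =>
    Submodule.smul_mem _ _ (isHomogeneous_X R i)

omit [DecidableEq τ] in
theorem PBsub_lin (f : (σ → R) →ₗ[R] (τ → R)) (v : σ → R) : PBsub f (PBlin v) = PBlin (f v) := by
  rw [PBlin_apply v, map_sum]
  conv_rhs => rw [pi_eq_sum_univ' v, map_sum, map_sum]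
  refine Finset.sum_congr rfl fun i _ => ?_
  rw [map_smul, map_smul, map_smul, PBsub, aeval_X]

theorem PBsub_sub (f : (σ → R) →ₗ[R] (τ → R)) (g : (τ → R) →ₗ[R] (σ → R)) (h : ∀ v, g (f v) = v)
    (P : MvPolynomial σ R) : PBsub g (PBsub f P) = P := by
  have : (PBsub g).comp (PBsub f) = AlgHom.id R _ := by
    refine algHom_ext fun i => ?_
    rw [AlgHom.comp_apply, ← PBlin_single, PBsub_lin, PBsub_lin, h, AlgHom.id_apply]
  exact congrArg (fun φ : MvPolynomial σ R →ₐ[R] MvPolynomial σ R => φ P) this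

omit [Fintype σ] [DecidableEq τ] in
theorem PBsub_hom (f : (σ → R) →ₗ[R] (τ → R)) {P : MvPolynomial σ R} {l : ℕ}
    (h : P.IsHomogeneous l) : (PBsub f P).IsHomogeneous l := by
  have := h.aeval (fun i => (PBlin (f (Pi.single i 1)) : MvPolynomial τ R)) fun i => PBlin_hom _
  rwa [one_mul] at this

omit [DecidableEq τ] in
theorem PBsub_monomial (f : (σ → R) →ₗ[R] (τ → R)) (α : σ →₀ ℕ) :
    PBsub f (monomial α 1) = ∏ k, PBlin (f (Pi.single k 1)) ^ α k := by
  rw [PBsub, aeval_monomial, map_one, one_mul, Finsupp.prod_fintype _ _ fun _ => pow_zero _]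

theorem PB_XA_lin (A : Matrix (Fin n) (Fin n) R) (v : Fin n → R) :
    XA A (PBlin v) = PBlin (v ᵥ* A) := by
  have h1 : ∀ i, pderiv i (PBlin v : MvPolynomial (Fin n) R) = C (v i) := by
    intro i
    rw [PBlin_apply, map_sum, Finset.sum_eq_single i]
    · rw [Derivation.map_smul, pderiv_X_self, smul_eq_C_mul, mul_one]
    · intro j _ hj
      rw [Derivation.map_smul, pderiv_X_of_ne hj, smul_zero]
    · simp
  rw [XA_apply, PBlin_apply (v ᵥ* A), Finset.sum_comm]
  refine Finset.sum_congr rfl fun j _ => ?_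
  simp only [h1, Matrix.vecMul, dotProduct, Finset.sum_smul]
  refine Finset.sum_congr rfl fun i _ => ?_
  rw [smul_eq_C_mul, smul_eq_C_mul, C_mul]
  ring

theorem PB_eig_one (A : Matrix (Fin n) (Fin n) R) : XA A 1 = 0 := by
  rw [XA_apply]
  simp

theorem PB_eig_mul {A : Matrix (Fin n) (Fin n) R} {P Q : MvPolynomial (Fin n) R} {a b : R}
    (hP : XA A P = a • P) (hQ : XA A Q = b • Q) : XA A (P * Q) = (a + b) • (P * Q) := by
  rw [XA_mul, hP, hQ, add_smul, smul_mul_assoc, mul_smul_comm]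

theorem PB_eig_pow {A : Matrix (Fin n) (Fin n) R} {P : MvPolynomial (Fin n) R} {a : R}
    (hP : XA A P = a • P) (k : ℕ) : XA A (P ^ k) = ((k : R) * a) • P ^ k := by
  induction k with
  | zero => simp [PB_eig_one]
  | succ k ih =>
    rw [pow_succ, PB_eig_mul ih hP]
    push_cast
    rw [add_mul, one_mul]

theorem PB_eig_prod {ι : Type} {A : Matrix (Fin n) (Fin n) R} {P : ι → MvPolynomial (Fin n) R}
    {a : ι → R} (hP : ∀ i, XA A (P i) = a i • P i) (s : Finset ι) :
    XA A (∏ i ∈ s, P i) = (∑ i ∈ s, a i) • ∏ i ∈ s, P i := by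
  classical
  induction s using Finset.induction_on with
  | empty => simp [PB_eig_one]
  | insert i s hi ih => rw [Finset.prod_insert hi, Finset.sum_insert hi, PB_eig_mul (hP i) ih]

omit [Fintype σ] [DecidableEq σ] in
theorem PB_span_monomial {P : MvPolynomial σ R} {l : ℕ} (h : P.IsHomogeneous l)
    {V : Type} [AddCommGroup V] [Module R V] (φ : MvPolynomial σ R →ₗ[R] V) (S : Submodule R V)
    (hS : ∀ α : σ →₀ ℕ, α.degree = l → φ (monomial α 1) ∈ S) : φ P ∈ S := by
  rw [P.as_sum, map_sum]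
  refine S.sum_mem fun α hα => ?_
  have h1 : (monomial α (coeff α P) : MvPolynomial σ R) = coeff α P • monomial α 1 := by
    rw [smul_monomial, smul_eq_mul, mul_one]
  rw [h1, map_smul]
  refine S.smul_mem _ (hS α ?_)
  by_contra h2
  exact (mem_support_iff.1 hα) (h.coeff_eq_zero h2)

end lin

theorem PB_XA_map {R S : Type} [CommRing R] [CommRing S] (f : R →+* S)
    (A : Matrix (Fin n) (Fin n) R) (P : MvPolynomial (Fin n) R) :
    XA (A.map f) (map f P) = map f (XA A P) := by
  rw [XA_apply, XA_apply, map_sum]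
  refine Finset.sum_congr rfl fun i _ => ?_
  rw [map_sum]
  refine Finset.sum_congr rfl fun j _ => ?_
  rw [smul_eq_C_mul, smul_eq_C_mul, map_mul, map_mul, map_C, map_X, pderiv_map, Matrix.map_apply]

theorem PB_fis_map {R S : Type} [CommRing R] [CommRing S] (f : R →+* S)
    (hf : Function.Injective f) (P Q : MvPolynomial (Fin n) R) :
    fis (map f P) (map f Q) = f (fis P Q) := by
  unfold fis
  rw [support_map_of_injective _ hf, map_sum]
  refine Finset.sum_congr rfl fun α _ => ?_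
  simp [coeff_map]

theorem PB_li {K ι : Type} [Field K] [Fintype ι] [DecidableEq ι] {Y : ι → MvPolynomial (Fin n) K}
    (h : ∀ i j, fis (Y i) (Y j) = if i = j then 1 else 0) : LinearIndependent K Y := by
  rw [Fintype.linearIndependent_iff]
  intro g hg i
  have h1 : fis (Y i) (∑ j, g j • Y j) = g i := by
    rw [fis_sum_right]
    simp [fis_smul_right, h]
  rw [hg, fis_comm] at h1
  rw [← h1]
  simp [fis]

theorem PB_homFin (l : ℕ) : Module.Finite ℝ (homogeneousSubmodule (Fin n) ℝ l) :=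
  Submodule.finiteDimensional_of_le (S₂ := restrictTotalDegree (Fin n) ℝ l) fun _ hP =>
    (mem_restrictTotalDegree _ _ _).2 (IsHomogeneous.totalDegree_le hP)

theorem PB_onb {J : Mat n} (hJ : Jᵀ = -J) (U : Submodule ℝ (Pl n)) [Module.Finite ℝ U]
    (hU : ∀ P ∈ U, XA J P ∈ U) :
    ∃ (Y : Fin (Module.finrank ℝ U) → Pl n) (μ : Fin (Module.finrank ℝ U) → ℝ), (∀ i, Y i ∈ U) ∧
      (∀ i j, fis (Y i) (Y j) = if i = j then 1 else 0) ∧ (∀ P ∈ U, P = ∑ i, fis (Y i) P • Y i) ∧
        ∀ i, XA J (XA J (Y i)) = (-μ i) • Y i := by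
  have hneg : XA (-J) = -XA J := by
    rw [← neg_one_smul ℝ J, XA_smul]
    exact LinearMap.ext fun P => by rw [LinearMap.smul_apply, LinearMap.neg_apply, neg_one_smul]
  obtain ⟨b, ν, h1, h2, h3⟩ := PB_spec (V := U) (fun P Q => fis P.1 Q.1)
    (fun x y => fis_comm _ _) (fun x y z => fis_add_left _ _ _) (fun c x y => fis_smul_left _ _ _)
    (fun x => fis_self_nonneg _) (fun x hx => Subtype.ext (fis_self_eq_zero hx))
    ((XA J ∘ₗ XA J).restrict fun P hP => hU _ (hU P hP)) (fun x y => by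
      change fis (XA J (XA J x.1)) y.1 = fis x.1 (XA J (XA J y.1))
      rw [fis_XA, fis_XA, hJ, hneg]
      simp)
  refine ⟨fun i => b i, fun i => -ν i, fun i => (b i).2, h1, fun P hP => ?_, fun i => ?_⟩
  · have := congrArg Subtype.val (h2 ⟨P, hP⟩)
    simpa using this
  · have := congrArg Subtype.val (h3 i)
    rw [neg_neg]
    exact this

/-- the eigenspace of `X_J²` in degree `l` -/
def PBE {K : Type} [Field K] (J : Matrix (Fin n) (Fin n) K) (l : ℕ) (c : K) :
    Submodule K (MvPolynomial (Fin n) K) :=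
  homogeneousSubmodule (Fin n) K l ⊓ Module.End.eigenspace (XA J ∘ₗ XA J) c

theorem PBE_mem {K : Type} [Field K] {J : Matrix (Fin n) (Fin n) K} {l : ℕ} {c : K}
    (P : MvPolynomial (Fin n) K) :
    P ∈ PBE J l c ↔ P ∈ homogeneousSubmodule (Fin n) K l ∧ (XA J ∘ₗ XA J) P = c • P := by
  rw [PBE, Submodule.mem_inf, Module.End.mem_eigenspace_iff]

instance PBE_fin (J : Mat n) (l : ℕ) (c : ℝ) : Module.Finite ℝ (PBE J l c) :=
  have := PB_homFin (n := n) l
  Submodule.finiteDimensional_of_le (S₂ := homogeneousSubmodule (Fin n) ℝ l) inf_le_left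

theorem PB_real_complex {J : Mat n} (hJ : Jᵀ = -J) (l : ℕ) (c : ℝ) :
    Module.finrank ℝ (PBE J l c) =
      Module.finrank ℂ (PBE (J.map Complex.ofRealHom) l (c : ℂ)) := by
  classical
  have := PB_homFin (n := n) l
  obtain ⟨Z, ν, h1, h2, h3, h4⟩ := PB_onb hJ (homogeneousSubmodule (Fin n) ℝ l)
    fun P hP => XA_isHomogeneous J hP
  have hf : Function.Injective Complex.ofRealHom := Complex.ofReal_injective
  have hsm : ∀ (a : ℝ) (P : Pl n),
      map Complex.ofRealHom (a • P) = (a : ℂ) • map Complex.ofRealHom P := by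
    intro a P
    rw [smul_eq_C_mul, smul_eq_C_mul, map_mul, map_C]
    rfl
  rw [PB_count (homogeneousSubmodule (Fin n) ℝ l) (XA J ∘ₗ XA J) Z (fun i => -ν i) (PB_li h2) h1
    (fun P hP => by
      rw [h3 P hP]
      exact Submodule.sum_mem _ fun i _ => Submodule.smul_mem _ _ (Submodule.subset_span ⟨i, rfl⟩))
    h4 c _ PBE_mem (Finset.univ.filter fun i => -ν i = c) (by simp)]
  rw [PB_count (homogeneousSubmodule (Fin n) ℂ l)
    (XA (J.map Complex.ofRealHom) ∘ₗ XA (J.map Complex.ofRealHom))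
    (fun i => map Complex.ofRealHom (Z i)) (fun i => ((-ν i : ℝ) : ℂ))
    (PB_li fun i j => by rw [PB_fis_map _ hf, h2]; split_ifs <;> simp)
    (fun i => IsHomogeneous.map (h1 i) _)
    (fun P hP => PB_span_monomial hP LinearMap.id _ fun α hα => by
      have h5 : (monomial α 1 : MvPolynomial (Fin n) ℂ) =
          map Complex.ofRealHom (monomial α 1 : Pl n) := by simp
      rw [LinearMap.id_apply, h5, h3 _ (isHomogeneous_monomial 1 hα), map_sum]
      refine Submodule.sum_mem _ fun i _ => ?_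
      rw [hsm]
      exact Submodule.smul_mem _ _ (Submodule.subset_span ⟨i, rfl⟩))
    (fun i => by rw [LinearMap.comp_apply, PB_XA_map, PB_XA_map, h4, hsm])
    (c : ℂ) _ PBE_mem (Finset.univ.filter fun i => -ν i = c)
    (fun i => by rw [Finset.mem_filter, Complex.ofReal_inj]; simp)]

theorem PB_main {J : Mat n} (hJ : IsCx J) :
    ∃ a : ℕ, a + a = n ∧ ∀ (l : ℕ) (c : ℝ), Module.finrank ℝ (PBE J l c) = PBN a l c := by
  classical
  obtain ⟨a, b, han, hb1, hb2⟩ := PB_eigbasis (J.map Complex.ofRealHom)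
    (by rw [← Matrix.map_mul, hJ.2]; ext i j; by_cases h : i = j <;> simp [h])
    (by
      refine Finset.sum_eq_zero fun i _ => ?_
      have h1 : J i i = -J i i := congrFun (congrFun hJ.1 i) i
      have h2 : J i i = 0 := by linarith
      simp [h2])
  refine ⟨a, han, fun l c => ?_⟩
  rw [PB_real_complex hJ.1]
  obtain ⟨A, hA⟩ : ∃ A, A = Finset.finsuppAntidiag (Finset.univ : Finset (Fin a ⊕ Fin a)) l :=
    ⟨_, rfl⟩
  have hAm : ∀ α, α ∈ A ↔ α.degree = l := fun α => by
    rw [hA, Finset.mem_finsuppAntidiag, Finsupp.degree_eq_sum]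
    simp
  let f : (Fin a ⊕ Fin a → ℂ) →ₗ[ℂ] (Fin n → ℂ) := b.equivFun.symm.toLinearMap
  let g : (Fin n → ℂ) →ₗ[ℂ] (Fin a ⊕ Fin a → ℂ) := b.equivFun.toLinearMap
  have hfg : ∀ v, f (g v) = v := fun v => b.equivFun.symm_apply_apply v
  have hgf : ∀ v, g (f v) = v := fun v => b.equivFun.apply_symm_apply v
  have hf1 : ∀ k, f (Pi.single k 1) = b k := fun k => by
    simp [f, Module.Basis.equivFun_symm_apply, Pi.single_apply]
  have heig : ∀ α : Fin a ⊕ Fin a →₀ ℕ, XA (J.map Complex.ofRealHom) (PBsub f (monomial α 1)) =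
      (Complex.I * ((PBp α : ℂ) - PBq α)) • PBsub f (monomial α 1) := by
    intro α
    have h1 : ∀ k, XA (J.map Complex.ofRealHom) (PBlin (f (Pi.single k 1))) =
        Sum.elim (fun _ => Complex.I) (fun _ => -Complex.I) k • PBlin (f (Pi.single k 1)) := by
      intro k
      rw [PB_XA_lin, hf1, ← map_smul]
      rcases k with k | k
      · rw [hb1]; rfl
      · rw [hb2]; rfl
    rw [PBsub_monomial, PB_eig_prod fun k => PB_eig_pow (h1 k) (α k)]
    congr 1
    simp only [Fintype.sum_sum_type, Sum.elim_inl, Sum.elim_inr, PBp, PBq, ← Finset.sum_mul]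
    push_cast
    ring
  rw [PB_count (ι := {α // α ∈ A}) (homogeneousSubmodule (Fin n) ℂ l)
    (XA (J.map Complex.ofRealHom) ∘ₗ XA (J.map Complex.ofRealHom))
    (fun α => PBsub f (monomial α.1 1)) (fun α => ((-((PBp α.1 : ℝ) - PBq α.1) ^ 2 : ℝ) : ℂ))
    (((basisMonomials (Fin a ⊕ Fin a) ℂ).linearIndependent.comp _ Subtype.val_injective).map'
      (PBsub f).toLinearMap (LinearMap.ker_eq_bot.2
        (Function.LeftInverse.injective (g := PBsub g) (PBsub_sub f g hgf))))
    (fun α => PBsub_hom f (isHomogeneous_monomial 1 ((hAm _).1 α.2)))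
    (fun P hP => by
      rw [← PBsub_sub g f hfg P]
      exact PB_span_monomial (PBsub_hom g hP) (PBsub f).toLinearMap _ fun α hα =>
        Submodule.subset_span ⟨⟨α, (hAm α).2 hα⟩, rfl⟩)
    (fun α => by
      rw [LinearMap.comp_apply, heig, map_smul, heig, smul_smul]
      congr 1
      push_cast
      linear_combination ((PBp α.1 : ℂ) - PBq α.1) ^ 2 * Complex.I_mul_I)
    (c : ℂ) _ PBE_mem
    ((A.filter fun α => -((PBp α : ℝ) - PBq α) ^ 2 = c).subtype (· ∈ A))
    (fun α => by rw [Finset.mem_subtype, Finset.mem_filter, Complex.ofReal_inj]; simp),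
    Finset.card_subtype, Finset.filter_true_of_mem fun α hα => (Finset.mem_filter.1 hα).1, hA, PBN]

theorem eig_le {J : Mat n} (hJ : IsCx J) {l : ℕ} {P : Pl n} (hP : P.IsHomogeneous l) (h0 : P ≠ 0)
    {μ : ℝ} (h : XA J (XA J P) = (-μ) • P) : μ ≤ (l : ℝ) ^ 2 := by
  obtain ⟨a, -, ha⟩ := PB_main hJ
  have h1 : 0 < Module.finrank ℝ (PBE J l (-μ)) := by
    rw [Module.finrank_pos_iff_exists_ne_zero]
    exact ⟨⟨P, (PBE_mem P).2 ⟨hP, h⟩⟩, fun h' => h0 (congrArg Subtype.val h')⟩
  rw [ha] at h1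
  have := PBN_pos h1
  rwa [neg_neg] at this

theorem exists_HB {J : Mat n} (hJ : IsCx J) (L : ℕ) :
    ∃ (W : Type) (_ : Fintype W) (_ : DecidableEq W) (d : W → ℕ) (Y : W → Pl n) (μ : W → ℝ),
      HB J L d Y μ := by
  classical
  choose Z ν h1 h2 h3 h4 using fun l : ℕ => PB_onb hJ.1 (Hm ℝ n l) fun P hP => XA_mem_Hm hJ.1 hP
  have hneg : XA (-J) = -XA J := by
    rw [← neg_one_smul ℝ J, XA_smul]
    exact LinearMap.ext fun P => by rw [LinearMap.smul_apply, LinearMap.neg_apply, neg_one_smul]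
  refine ⟨Σ l : Finset.Icc 2 L, Fin (Module.finrank ℝ (Hm ℝ n l)), inferInstance, inferInstance,
    fun w => w.1, fun w => Z w.1 w.2, fun w => ν w.1 w.2, fun w => Finset.mem_Icc.1 w.1.2,
    fun w => h1 _ _, ?_, ?_, fun w => h4 _ _, ?_⟩
  · rintro ⟨l, i⟩ ⟨l', j⟩
    by_cases h : l = l'
    · subst h
      simp [h2]
    · rw [if_neg fun h' => h (congrArg Sigma.fst h')]
      exact fis_of_ne (h1 l i).1 (h1 l' j).1 fun h' => h (Subtype.ext h')
  · intro l hl2 hlL P hP
    rw [Fintype.sum_sigma, Finset.sum_eq_single ⟨l, Finset.mem_Icc.2 ⟨hl2, hlL⟩⟩]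
    · simpa using h3 l P hP
    · intro l' _ hl'
      have : (l' : ℕ) ≠ l := fun h => hl' (Subtype.ext h)
      simp [this]
    · simp
  · rintro ⟨l, i⟩
    have h5 : fis (Z l i) (Z l i) = 1 := by simp [h2]
    constructor
    · have h6 := fis_XA J (XA J (Z l i)) (Z l i)
      rw [h4, fis_smul_left, h5, hJ.1, hneg, LinearMap.neg_apply, ← neg_one_smul ℝ (XA J (Z l i)),
        fis_smul_right] at h6
      have h7 := fis_self_nonneg (XA J (Z l i))
      change 0 ≤ ν l i
      linarith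
    · refine eig_le hJ (h1 l i).1 (fun h => ?_) (h4 l i)
      rw [h] at h5
      simp [fis] at h5

variable {J : Mat n} {L : ℕ} {W : Type} [Fintype W] [DecidableEq W] {d : W → ℕ} {Y : W → Pl n}
  {μ : W → ℝ}

theorem HB.PB_count (h : HB J L d Y μ) {l : ℕ} (h2 : 2 ≤ l) (hL : l ≤ L) (T : Pl n →ₗ[ℝ] Pl n)
    (c : W → ℝ) (hT : ∀ i, T (Y i) = c i • Y i) (c₀ : ℝ) (E : Submodule ℝ (Pl n))
    (hE : ∀ v, v ∈ E ↔ v ∈ Hm ℝ n l ∧ T v = c₀ • v) (s : Finset W)
    (hs : ∀ i, i ∈ s ↔ d i = l ∧ c i = c₀) : Module.finrank ℝ E = s.card := by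
  rw [R202.PB_count (ι := {i // d i = l}) (Hm ℝ n l) T (fun i => Y i) (fun i => c i)
    (h.linearIndependent.comp _ Subtype.val_injective) (fun i => by have := h.mem i; rwa [i.2] at this)
    (fun P hP => by
      rw [h.span l h2 hL P hP]
      refine Submodule.sum_mem _ fun i _ => ?_
      split_ifs with hi
      · exact Submodule.smul_mem _ _ (Submodule.subset_span ⟨⟨i, hi⟩, rfl⟩)
      · rw [zero_smul]
        exact Submodule.zero_mem _)
    (fun i => hT i) c₀ E hE (s.subtype fun i => d i = l)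
    (fun i => by rw [Finset.mem_subtype, hs]; simp [i.2]),
    Finset.card_subtype, Finset.filter_true_of_mem fun i hi => ((hs i).1 hi).1]

/-- rank–nullity for `lapP` and `finrank_homogeneous` -/
theorem HB.card_deg (h : HB J L d Y μ) (hn : 1 ≤ n) {l : ℕ} (h2 : 2 ≤ l) (hL : l ≤ L) :
    Nat.choose (l + n - 1) (n - 1)
      ≤ (Finset.univ.filter fun i => d i = l).card + Nat.choose (l - 2 + n - 1) (n - 1) := by
  have i1 := PB_homFin (n := n) l
  have i2 := PB_homFin (n := n) (l - 2)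
  have h1 := PB_rank lapP (homogeneousSubmodule (Fin n) ℝ l) (homogeneousSubmodule (Fin n) ℝ (l - 2))
    fun P hP => lapP_isHomogeneous hP
  rw [finrank_homogeneous l hn, finrank_homogeneous (l - 2) hn,
    h.PB_count h2 hL 0 (fun _ => 0) (by simp) 0 _ (fun v => by simp [Hm])
      (Finset.univ.filter fun i => d i = l) (by simp)] at h1
  exact h1

open Classical in
theorem HB.card_eig {m : ℕ} (hn : n = 2 * m + 2) (hm : 1 ≤ m) (hJ : IsCx J) (h : HB J L d Y μ)
    {l j : ℕ} (h2 : 2 ≤ l) (hL : l ≤ L) (hj : j ≤ l) (he : (l - j) % 2 = 0) :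
    mult m l j ≤ (Finset.univ.filter fun i => d i = l ∧ μ i = (j : ℝ) ^ 2).card := by
  obtain ⟨a, han, ha⟩ := PB_main hJ
  obtain rfl : a = m + 1 := by omega
  have h1 := PB_rank lapP (PBE J l (-(j : ℝ) ^ 2)) (PBE J (l - 2) (-(j : ℝ) ^ 2)) fun P hP => by
    rw [PBE_mem] at hP ⊢
    refine ⟨lapP_isHomogeneous hP.1, ?_⟩
    rw [LinearMap.comp_apply, ← lapP_XA hJ.1, ← lapP_XA hJ.1, ← map_smul, ← hP.2,
      LinearMap.comp_apply]
  rw [ha, ha, h.PB_count h2 hL (XA J ∘ₗ XA J) (fun i => -μ i) h.eig (-(j : ℝ) ^ 2) _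
    (fun v => by
      rw [Submodule.mem_inf, PBE_mem, Hm, Submodule.mem_inf]
      tauto)
    (Finset.univ.filter fun i => d i = l ∧ μ i = (j : ℝ) ^ 2) (by simp)] at h1
  obtain ⟨q, rfl⟩ : ∃ q, l = 2 * q + j := ⟨(l - j) / 2, by omega⟩
  have e1 : (2 * q + j + j) / 2 = q + j := by omega
  have e2 : (2 * q + j - j) / 2 = q := by omega
  rw [PBN_eq] at h1
  rw [mult, e1, e2, Nat.mul_sub]
  have h3 : PBN (m + 1) (2 * q + j - 2) (-(j : ℝ) ^ 2) ≤
      (if j = 0 then 1 else 2) * (Nat.choose (q + j + m - 1) m * Nat.choose (q + m - 1) m) := by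
    rcases q with _ | q
    · by_contra h4
      have h5 := PBN_pos (lt_of_le_of_lt (Nat.zero_le _) (not_le.1 h4))
      rw [neg_neg, sq_le_sq₀ (by positivity) (by positivity), Nat.cast_le] at h5
      omega
    · rw [show 2 * (q + 1) + j - 2 = 2 * q + j by omega, PBN_eq,
        show q + 1 + j + m - 1 = q + j + m by omega, show q + 1 + m - 1 = q + m by omega]
  omega

theorem exists_isCx (hn : Even n) : ∃ J : Mat n, IsCx J := by
  obtain ⟨k, rfl⟩ := hn
  refine ⟨Matrix.reindex finSumFinEquiv finSumFinEquiv (Matrix.J (Fin k) ℝ), ?_, ?_⟩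
  · rw [Matrix.transpose_reindex, Matrix.J_transpose]
    rfl
  · rw [Matrix.reindex_apply, Matrix.submatrix_mul_equiv, Matrix.J_squared, Matrix.submatrix_neg,
      Pi.neg_apply, Pi.neg_apply, Matrix.submatrix_one_equiv]

end Crest.Agent.R202
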