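import Crest.Agent.R202.Defs
import Crest.Agent.R202.OdeDefs

/-!
# R202/PDefs: polynomials, harmonic polynomials, rotation fields, the Fischer product
-/

open scoped Matrix
open MvPolynomial

noncomputable section

namespace Crest.Agent.R202

abbrev Pl (n : ℕ) : Type := MvPolynomial (Fin n) ℝ

variable {n : ℕ}

/-- evaluation at a point of `E n` -/
def ev (P : Pl n) (x : E n) : ℝ := MvPolynomial.eval (fun i => x i) P

/-- evaluation of a real polynomial at a complex point -/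
def evC (P : Pl n) (α : Fin n → ℂ) : ℂ := MvPolynomial.aeval α P

section ring

variable {R : Type} [CommRing R]

/-- the Laplacian -/
def lapP : MvPolynomial (Fin n) R →ₗ[R] MvPolynomial (Fin n) R :=
  ∑ i, (pderiv i).toLinearMap ∘ₗ (pderiv i).toLinearMap

/-- the derivative along the linear vector field `x ↦ A x` -/
def XA (A : Matrix (Fin n) (Fin n) R) : MvPolynomial (Fin n) R →ₗ[R] MvPolynomial (Fin n) R :=
  ∑ i, ∑ j, A i j • (LinearMap.mulLeft R (X j) ∘ₗ (pderiv i).toLinearMap)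

/-- harmonic homogeneous polynomials of degree `l` -/
def Hm (R : Type) [CommRing R] (n l : ℕ) : Submodule R (MvPolynomial (Fin n) R) :=
  homogeneousSubmodule (Fin n) R l ⊓ LinearMap.ker lapP

/-- the (bilinear) Fischer product -/
def fis (P Q : MvPolynomial (Fin n) R) : R :=
  ∑ α ∈ P.support, (∏ i, ((α i).factorial : R)) * coeff α P * coeff α Q

end ring

/-- Lie polynomials of degree `r` in the operators `X_J²` -/
inductive LP (n : ℕ) : ℕ → (Pl n →ₗ[ℝ] Pl n) → Prop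
  | base {J : Mat n} : IsCx J → LP n 1 (XA J ∘ₗ XA J)
  | zero (r : ℕ) : LP n r 0
  | add {r : ℕ} {A A' : Pl n →ₗ[ℝ] Pl n} : LP n r A → LP n r A' → LP n r (A + A')
  | smul {r : ℕ} {A : Pl n →ₗ[ℝ] Pl n} (c : ℝ) : LP n r A → LP n r (c • A)
  | lie {r s : ℕ} {A A' : Pl n →ₗ[ℝ] Pl n} :
      LP n r A → LP n s A' → LP n (r + s) (A ∘ₗ A' - A' ∘ₗ A)

/-- the matrix of a degree preserving operator -/
def matP {W : Type} (d : W → ℕ) (Y : W → Pl n) (A : Pl n →ₗ[ℝ] Pl n) : Matrix W W ℝ :=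
  fun i j => if d i = d j then fis (Y i) (A (Y j)) else 0

/-- an orthonormal basis of the harmonic polynomials of degrees `2, …, L` diagonalising `X_J²` -/
structure HB (J : Mat n) (L : ℕ) {W : Type} [Fintype W] [DecidableEq W] (d : W → ℕ)
    (Y : W → Pl n) (μ : W → ℝ) : Prop where
  deg : ∀ i, 2 ≤ d i ∧ d i ≤ L
  mem : ∀ i, Y i ∈ Hm ℝ n (d i)
  orth : ∀ i j, fis (Y i) (Y j) = if i = j then 1 else 0
  span : ∀ l, 2 ≤ l → l ≤ L → ∀ P ∈ Hm ℝ n l, P = ∑ i, (if d i = l then fis (Y i) P else 0) • Y i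
  eig : ∀ i, XA J (XA J (Y i)) = (-μ i) • Y i
  μ_mem : ∀ i, 0 ≤ μ i ∧ μ i ≤ (d i : ℝ) ^ 2

/-- lower bound for the multiplicity of the eigenvalue `-j²` of `X_J²` in degree `l`,
`n = 2m + 2` -/
def mult (m l j : ℕ) : ℕ :=
  (if j = 0 then 1 else 2) * (Nat.choose ((l + j) / 2 + m) m * Nat.choose ((l - j) / 2 + m) m
    - Nat.choose ((l + j) / 2 + m - 1) m * Nat.choose ((l - j) / 2 + m - 1) m)

/-- the family of Berger type metrics on the sphere -/
def H10 (m : ℕ) {N : ℕ} (J : Fin N → Mat n) (c : Fin N → ℝ) (x : E n) : Mat n :=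
  (1 - prj x) + ∑ k, ((Real.exp (-c k) - 1) • (1 - prj x)
    + (Real.exp (2 * m * c k) - Real.exp (-c k)) • prj (mv (J k) x))

/-- its parameter domain -/
def O10 (m N : ℕ) : Set (Fin N → ℝ) :=
  {c | ∑ k, (|Real.exp (-c k) - 1| + |Real.exp (2 * m * c k) - Real.exp (-c k)|) < 1}

/-- at most one parameter is non-zero -/
def Sgl {N : ℕ} (c : Fin N → ℝ) : Prop := ∃ k s, c = Pi.single k s

/-- the perturbation of the ODE system; `G k` is the matrix of `X_{J k}²` -/
def Q10 {W : Type} [Fintype W] [DecidableEq W] (m : ℕ) (β₀ : ℝ) (d : W → ℕ) {N : ℕ}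
    (G : Fin N → Matrix W W ℝ) (c : Fin N → ℝ) : Matrix W W ℝ :=
  ∑ k, ((Real.exp (c k) - 1) • Matrix.diagonal (fun i => lam β₀ (d i))
    + (Real.exp (c k) - Real.exp (-(2 * m * c k))) • G k)

/-- the function with coefficients `u` -/
def fn10 {W : Type} [Fintype W] (τ : ℝ → ℝ) (d : W → ℕ) (Y : W → Pl n) (u : ℝ → W → ℝ)
    (x : E n) : ℝ :=
  ∑ i, u (τ ‖x‖) i / ‖x‖ ^ d i * ev (Y i) x

end Crest.Agent.R202
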