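import Crest.Agent.R202.PBasic

/-!
# R202/PNilAux: wedge matrices, orthonormal frames and complexified Lie polynomials
-/

set_option linter.unusedSectionVars false

open scoped Matrix
open MvPolynomial

noncomputable section

namespace Crest.Agent.R202

namespace PNil

variable {n : ℕ}

section wedge

variable {R : Type} [CommRing R]

/-- the matrix `u vᵀ - v uᵀ` -/
def wd (u v : Fin n → R) : Matrix (Fin n) (Fin n) R := Matrix.vecMulVec u v - Matrix.vecMulVec v u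

theorem wd_apply (u v : Fin n → R) (i j : Fin n) : wd u v i j = u i * v j - v i * u j := rfl

theorem wd_mulVec (u v ξ : Fin n → R) : wd u v *ᵥ ξ = (v ⬝ᵥ ξ) • u - (u ⬝ᵥ ξ) • v := by
  ext i
  simp only [Matrix.mulVec, dotProduct, wd_apply, Pi.sub_apply, Pi.smul_apply, smul_eq_mul,
    Finset.sum_mul, ← Finset.sum_sub_distrib]
  exact Finset.sum_congr rfl fun j _ => by ring

theorem vecMul_wd (u v γ : Fin n → R) : γ ᵥ* wd u v = (γ ⬝ᵥ u) • v - (γ ⬝ᵥ v) • u := by
  ext i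
  simp only [Matrix.vecMul, dotProduct, wd_apply, Pi.sub_apply, Pi.smul_apply, smul_eq_mul,
    Finset.sum_mul, ← Finset.sum_sub_distrib]
  exact Finset.sum_congr rfl fun j _ => by ring

theorem wd_transpose (u v : Fin n → R) : (wd u v)ᵀ = -wd u v := by
  ext i j
  simp only [Matrix.transpose_apply, Matrix.neg_apply, wd_apply]
  ring

theorem dot_mulVec_anti {J : Matrix (Fin n) (Fin n) R} (hJ : Jᵀ = -J) (u ξ : Fin n → R) :
    u ⬝ᵥ J *ᵥ ξ = -((J *ᵥ u) ⬝ᵥ ξ) := by
  rw [Matrix.dotProduct_mulVec, ← Matrix.mulVec_transpose, hJ, Matrix.neg_mulVec, neg_dotProduct]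

theorem wd_comm {α u v : Fin n → R} (hα : α ⬝ᵥ α = 0) (hu : α ⬝ᵥ u = 0) (hv : α ⬝ᵥ v = 0) :
    wd u α * wd v α = wd v α * wd u α := by
  rw [Matrix.ext_iff_mulVec]
  intro ξ
  have hu' : u ⬝ᵥ α = 0 := by rw [dotProduct_comm, hu]
  have hv' : v ⬝ᵥ α = 0 := by rw [dotProduct_comm, hv]
  simp only [← Matrix.mulVec_mulVec, wd_mulVec, dotProduct_sub, dotProduct_smul, hα, hu, hv, hu', hv',
    dotProduct_comm v u, smul_eq_mul, mul_zero, sub_zero, zero_smul, zero_sub]

theorem wd_eig {J : Matrix (Fin n) (Fin n) R} (hJ : Jᵀ = -J) {u v : Fin n → R} {a b : R}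
    (hu : J *ᵥ u = a • u) (hv : J *ᵥ v = b • v) : wd u v * J - J * wd u v = (-(a + b)) • wd u v := by
  rw [Matrix.ext_iff_mulVec]
  intro ξ
  simp only [Matrix.sub_mulVec, ← Matrix.mulVec_mulVec, wd_mulVec, Matrix.smul_mulVec,
    dot_mulVec_anti hJ, hu, hv, Matrix.mulVec_sub, Matrix.mulVec_smul, smul_dotProduct, smul_eq_mul]
  module

end wedge

section frame

theorem exists_frame {ι : Type} [Fintype ι] [DecidableEq ι] (hc : Fintype.card ι = n)
    (v : ι → Fin n → ℝ) (s : Set ι)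
    (hv : ∀ i ∈ s, ∀ j ∈ s, v i ⬝ᵥ v j = if i = j then 1 else 0) :
    ∃ f : ι → Fin n → ℝ, (∀ i ∈ s, f i = v i) ∧ (∀ i j, f i ⬝ᵥ f j = if i = j then 1 else 0) ∧
      ∀ ξ, ∑ i, (f i ⬝ᵥ ξ) • f i = ξ := by
  have hin : ∀ x y : EuclideanSpace ℝ (Fin n), inner ℝ x y = x.ofLp ⬝ᵥ y.ofLp := fun x y => by
    rw [EuclideanSpace.inner_eq_star_dotProduct, star_trivial, dotProduct_comm]
  have ho : Orthonormal ℝ (s.domRestrict fun i => (WithLp.toLp 2 (v i) : EuclideanSpace ℝ (Fin n))) := by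
    rw [orthonormal_iff_ite]
    intro i j
    rw [hin]
    have := hv i i.2 j j.2
    simp only [Set.domRestrict_apply, Subtype.ext_iff]
    exact this
  obtain ⟨b, hb⟩ := ho.exists_orthonormalBasis_extension_of_card_eq (by simp [hc])
  refine ⟨fun i => (b i).ofLp, fun i hi => by simp only [hb i hi], fun i j => ?_, fun ξ => ?_⟩
  · rw [← hin]
    exact orthonormal_iff_ite.1 b.orthonormal i j
  · have := congrArg WithLp.ofLp (b.sum_repr' (WithLp.toLp 2 ξ))
    simp only [hin, WithLp.ofLp_sum, WithLp.ofLp_smul] at this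
    exact this

variable {κ : Type} [Fintype κ] [DecidableEq κ]

/-- the partial complex structure of a frame -/
def JS (f : κ × Bool → Fin n → ℝ) (S : Finset κ) : Mat n := ∑ k ∈ S, wd (f (k, true)) (f (k, false))

variable {f : κ × Bool → Fin n → ℝ}

theorem JS_transpose (S : Finset κ) : (JS f S)ᵀ = -JS f S := by
  simp only [JS, Matrix.transpose_sum, wd_transpose, Finset.sum_neg_distrib]

theorem JS_mulVec (S : Finset κ) (ξ : Fin n → ℝ) :
    JS f S *ᵥ ξ = ∑ k ∈ S, ((f (k, false) ⬝ᵥ ξ) • f (k, true) - (f (k, true) ⬝ᵥ ξ) • f (k, false)) := by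
  simp only [JS, Matrix.sum_mulVec, wd_mulVec]

theorem JS_false (hf : ∀ i j, f i ⬝ᵥ f j = if i = j then 1 else 0) (S : Finset κ) (k : κ) :
    JS f S *ᵥ f (k, false) = if k ∈ S then f (k, true) else 0 := by
  rw [JS_mulVec]
  simp [hf, ite_smul]

theorem JS_true (hf : ∀ i j, f i ⬝ᵥ f j = if i = j then 1 else 0) (S : Finset κ) (k : κ) :
    JS f S *ᵥ f (k, true) = if k ∈ S then -f (k, false) else 0 := by
  rw [JS_mulVec]
  by_cases hk : k ∈ S <;> simp [hf, ite_smul, hk]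

theorem JS_JS (hf : ∀ i j, f i ⬝ᵥ f j = if i = j then 1 else 0) (S : Finset κ) (ξ : Fin n → ℝ) :
    JS f S *ᵥ (JS f S *ᵥ ξ) =
      -∑ k ∈ S, ((f (k, true) ⬝ᵥ ξ) • f (k, true) + (f (k, false) ⬝ᵥ ξ) • f (k, false)) := by
  conv_lhs => rw [JS_mulVec S ξ]
  rw [Matrix.mulVec_sum, ← Finset.sum_neg_distrib]
  refine Finset.sum_congr rfl fun k hk => ?_
  rw [Matrix.mulVec_sub, Matrix.mulVec_smul, Matrix.mulVec_smul, JS_true hf, JS_false hf, if_pos hk,
    if_pos hk]
  module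

theorem isCx_JS (hf : ∀ i j, f i ⬝ᵥ f j = if i = j then 1 else 0)
    (hc : ∀ ξ, ∑ i, (f i ⬝ᵥ ξ) • f i = ξ) : IsCx (JS f Finset.univ) := by
  refine ⟨JS_transpose _, ?_⟩
  rw [Matrix.ext_iff_mulVec]
  intro ξ
  rw [← Matrix.mulVec_mulVec, JS_JS hf, Matrix.neg_mulVec, Matrix.one_mulVec]
  congr 1
  conv_rhs => rw [← hc ξ]
  rw [Fintype.sum_prod_type]
  simp only [Fintype.sum_bool]

end frame

/-- an orthonormal quadruple -/
structure On4 (a b c d : Fin n → ℝ) : Prop where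
  aa : a ⬝ᵥ a = 1
  bb : b ⬝ᵥ b = 1
  cc : c ⬝ᵥ c = 1
  dd : d ⬝ᵥ d = 1
  ab : a ⬝ᵥ b = 0
  ac : a ⬝ᵥ c = 0
  ad : a ⬝ᵥ d = 0
  bc : b ⬝ᵥ c = 0
  bd : b ⬝ᵥ d = 0
  cd : c ⬝ᵥ d = 0

theorem exists_J0 {m : ℕ} (hn : n = 2 * (m + 2)) {a b c d : Fin n → ℝ} (h : On4 a b c d) :
    ∃ J : Mat n, Jᵀ = -J ∧ J *ᵥ a = 0 ∧ J *ᵥ b = 0 ∧ J *ᵥ c = 0 ∧ J *ᵥ d = 0 ∧
      ∀ ξ, J *ᵥ (J *ᵥ ξ) = -ξ + ((a ⬝ᵥ ξ) • a + (b ⬝ᵥ ξ) • b + (c ⬝ᵥ ξ) • c + (d ⬝ᵥ ξ) • d) := by
  have h01 : (0 : Fin (m + 2)) ≠ 1 := by simp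
  obtain ⟨f, hfs, hf, hc⟩ := exists_frame (ι := Fin (m + 2) × Bool) (n := n) (by simp [hn, mul_comm])
    (fun i => if i.1 = 0 then (if i.2 then b else a) else (if i.2 then d else c))
    {i | i.1 = 0 ∨ i.1 = 1} (by
      rintro ⟨i, x⟩ (hi | hi) ⟨j, y⟩ (hj | hj) <;> simp only at hi hj <;> subst hi <;> subst hj <;>
        cases x <;> cases y <;>
        simp [h.aa, h.bb, h.cc, h.dd, h.ab, h.ac, h.ad, h.bc, h.bd, h.cd, dotProduct_comm b a,
          dotProduct_comm c a, dotProduct_comm d a, dotProduct_comm c b, dotProduct_comm d b,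
          dotProduct_comm d c])
  have ea : f (0, false) = a := by simpa using hfs (0, false) (Or.inl rfl)
  have eb : f (0, true) = b := by simpa using hfs (0, true) (Or.inl rfl)
  have ec : f (1, false) = c := by simpa using hfs (1, false) (Or.inr rfl)
  have ed : f (1, true) = d := by simpa using hfs (1, true) (Or.inr rfl)
  refine ⟨JS f (Finset.univ \ {0, 1}), JS_transpose _, ?_, ?_, ?_, ?_, fun ξ => ?_⟩
  · rw [← ea, JS_false hf]; simp
  · rw [← eb, JS_true hf]; simp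
  · rw [← ec, JS_false hf]; simp
  · rw [← ed, JS_true hf]; simp
  · rw [JS_JS hf, Finset.sum_sdiff_eq_sub (Finset.subset_univ _), Finset.sum_pair h01, ea, eb, ec, ed]
    have := hc ξ
    rw [Fintype.sum_prod_type] at this
    simp only [Fintype.sum_bool] at this
    rw [this]
    module

theorem exists_family {m : ℕ} (hn : n = 2 * (m + 2)) {a b c d : Fin n → ℝ} (h : On4 a b c d) :
    ∃ J : Mat n, ∀ x y : ℝ, x ^ 2 + y ^ 2 = 1 →
      IsCx (J + x • (wd c a - wd d b) + y • (wd d a + wd c b)) := by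
  obtain ⟨J, hJ, ha, hb, hc, hd, hJJ⟩ := exists_J0 hn h
  refine ⟨J, fun x y hxy => ⟨?_, ?_⟩⟩
  · simp only [Matrix.transpose_add, Matrix.transpose_smul, Matrix.transpose_sub, wd_transpose, hJ]
    module
  · rw [Matrix.ext_iff_mulVec]
    intro ξ
    simp only [← Matrix.mulVec_mulVec, Matrix.add_mulVec, Matrix.smul_mulVec, Matrix.sub_mulVec,
      wd_mulVec, Matrix.mulVec_add, Matrix.mulVec_smul, Matrix.mulVec_sub, ha, hb, hc, hd, hJJ,
      dot_mulVec_anti hJ, zero_dotProduct,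
      h.aa, h.bb, h.cc, h.dd, h.ab, h.ac, h.ad, h.bc, h.bd, h.cd, dotProduct_comm b a,
      dotProduct_comm c a, dotProduct_comm d a, dotProduct_comm c b, dotProduct_comm d b,
      dotProduct_comm d c, Matrix.neg_mulVec, Matrix.one_mulVec]
    match_scalars
    all_goals first
      | linear_combination (-(a ⬝ᵥ ξ)) * hxy
      | linear_combination (-(b ⬝ᵥ ξ)) * hxy
      | linear_combination (-(c ⬝ᵥ ξ)) * hxy
      | linear_combination (-(d ⬝ᵥ ξ)) * hxy
      | ring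

/-! ### complexification -/

/-- complex polynomials -/
abbrev Pc (n : ℕ) : Type := MvPolynomial (Fin n) ℂ

/-- operators on complex polynomials -/
abbrev Ec (n : ℕ) : Type := Module.End ℂ (Pc n)

/-- real polynomials as complex ones -/
def io : Pl n →+* Pc n := MvPolynomial.map (algebraMap ℝ ℂ)

/-- real vectors as complex ones -/
def cv (a : Fin n → ℝ) : Fin n → ℂ := fun i => (a i : ℂ)

/-- real matrices as complex ones -/
def cm (A : Mat n) : Matrix (Fin n) (Fin n) ℂ := fun i j => (A i j : ℂ)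

theorem io_smul (c : ℝ) (P : Pl n) : io (c • P) = (c : ℂ) • io P := by
  simp only [io, smul_eq_C_mul, map_mul, map_C, Complex.coe_algebraMap]

theorem coeff_io (P : Pl n) (d : Fin n →₀ ℕ) : coeff d (io P) = ((coeff d P : ℝ) : ℂ) := by
  simp only [io, coeff_map, Complex.coe_algebraMap]

theorem XA_io (A : Mat n) (P : Pl n) : XA (cm A) (io P) = io (XA A P) := by
  rw [XA_apply, XA_apply, map_sum]
  refine Finset.sum_congr rfl fun i _ => ?_
  rw [map_sum]
  refine Finset.sum_congr rfl fun j _ => ?_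
  rw [io_smul, map_mul]
  simp only [io, map_X, pderiv_map, cm]

theorem io_eq_zero {P Q : Pl n} (h : io P + Complex.I • io Q = 0) : P = 0 ∧ Q = 0 := by
  have h1 : ∀ d, coeff d P = 0 ∧ coeff d Q = 0 := fun d => by
    have := congrArg (coeff d) h
    rw [coeff_add, coeff_smul, coeff_io, coeff_io, coeff_zero, Complex.ext_iff] at this
    simpa using this
  exact ⟨MvPolynomial.ext _ _ fun d => (h1 d).1, MvPolynomial.ext _ _ fun d => (h1 d).2⟩

theorem fis_io (P Q : Pl n) : fis (io P) (io Q) = ((fis P Q : ℝ) : ℂ) := by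
  unfold fis
  have : (io P).support = P.support := support_map_of_injective P (algebraMap ℝ ℂ).injective
  rw [this]
  simp only [coeff_io]
  push_cast
  rfl

theorem eval_io (α : Fin n → ℂ) (P : Pl n) : eval α (io P) = evC P α := by
  simp only [io, evC, eval_map, aeval_def]

theorem cv_dot (a b : Fin n → ℝ) : cv a ⬝ᵥ cv b = ((a ⬝ᵥ b : ℝ) : ℂ) := by
  simp only [dotProduct, cv]
  push_cast
  rfl

theorem cm_mulVec (A : Mat n) (a : Fin n → ℝ) : cm A *ᵥ cv a = cv (A *ᵥ a) := by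
  ext i
  simp only [Matrix.mulVec, dotProduct, cm, cv]
  push_cast
  rfl

theorem cv_neg (a : Fin n → ℝ) : cv (-a) = -cv a := by
  ext i
  simp [cv]

theorem cm_anti {A : Mat n} (h : Aᵀ = -A) : (cm A)ᵀ = -cm A := by
  ext i j
  have := congrFun (congrFun h i) j
  simp only [Matrix.transpose_apply, Matrix.neg_apply] at this
  simp only [Matrix.transpose_apply, Matrix.neg_apply, cm, this, Complex.ofReal_neg]

theorem LP_sub {r : ℕ} {A A' : Pl n →ₗ[ℝ] Pl n} (h : LP n r A) (h' : LP n r A') : LP n r (A - A') := by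
  rw [sub_eq_add_neg, ← neg_one_smul ℝ A']
  exact h.add (h'.smul _)

/-- complex combinations of Lie polynomials -/
def LC (n r : ℕ) : Submodule ℂ (Ec n) where
  carrier := {N | ∃ A₁ A₂, LP n r A₁ ∧ LP n r A₂ ∧ ∀ P, N (io P) = io (A₁ P) + Complex.I • io (A₂ P)}
  zero_mem' := ⟨0, 0, LP.zero r, LP.zero r, fun P => by simp⟩
  add_mem' := by
    rintro N N' ⟨A₁, A₂, h1, h2, h⟩ ⟨A₁', A₂', h1', h2', h'⟩
    refine ⟨A₁ + A₁', A₂ + A₂', h1.add h1', h2.add h2', fun P => ?_⟩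
    simp only [LinearMap.add_apply, h, h', map_add]
    module
  smul_mem' := by
    rintro c N ⟨A₁, A₂, h1, h2, h⟩
    refine ⟨c.re • A₁ - c.im • A₂, c.im • A₁ + c.re • A₂, LP_sub (h1.smul _) (h2.smul _),
      (h1.smul _).add (h2.smul _), fun P => ?_⟩
    simp only [LinearMap.smul_apply, LinearMap.add_apply, LinearMap.sub_apply, h, map_add, map_sub,
      io_smul]
    have hc := Complex.re_add_im c
    match_scalars
    · linear_combination -hc
    · linear_combination (-Complex.I) * hc + (c.im : ℂ) * Complex.I_mul_I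

theorem lie_mem {r s : ℕ} {N N' : Ec n} (h : N ∈ LC n r) (h' : N' ∈ LC n s) :
    N * N' - N' * N ∈ LC n (r + s) := by
  obtain ⟨A₁, A₂, h1, h2, h⟩ := h
  obtain ⟨A₁', A₂', h1', h2', h'⟩ := h'
  refine ⟨_, _, LP_sub (h1.lie h1') (h2.lie h2'), (h2.lie h1').add (h1.lie h2'), fun P => ?_⟩
  simp only [LinearMap.sub_apply, Module.End.mul_apply, LinearMap.add_apply, LinearMap.comp_apply, h, h',
    map_add, map_sub, map_smul]
  match_scalars <;> first | ring1 | linear_combination Complex.I_mul_I | linear_combination -Complex.I_mul_I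

theorem base_mem {J : Mat n} (hJ : IsCx J) : (XA (cm J) * XA (cm J) : Ec n) ∈ LC n 1 :=
  ⟨_, 0, LP.base hJ, LP.zero 1, fun P => by simp [XA_io]⟩

/-- the complex vector `a + i b` -/
def zv (a b : Fin n → ℝ) : Fin n → ℂ := cv a + Complex.I • cv b

theorem sq_mem {m : ℕ} (hn : n = 2 * (m + 2)) {a b c d : Fin n → ℝ} (h : On4 a b c d) :
    (XA (wd (zv c d) (zv a b)) * XA (wd (zv c d) (zv a b)) : Ec n) ∈ LC n 1 := by
  obtain ⟨J, hJ⟩ := exists_family hn h
  set X₀ : Ec n := XA (cm J) with hX₀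
  set X₁ : Ec n := XA (cm (wd c a - wd d b)) with hX₁
  set X₂ : Ec n := XA (cm (wd d a + wd c b)) with hX₂
  have e : (XA (wd (zv c d) (zv a b)) : Ec n) = X₁ + Complex.I • X₂ := by
    rw [hX₁, hX₂, ← XA_smul, ← XA_add]
    congr 1
    ext i j
    simp only [wd_apply, zv, cv, cm, Pi.add_apply, Pi.smul_apply, smul_eq_mul, Matrix.add_apply,
      Matrix.smul_apply, Matrix.sub_apply]
    push_cast
    linear_combination ((d i : ℂ) * b j - b i * d j) * Complex.I_mul_I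
  have hY : ∀ x y : ℝ, x ^ 2 + y ^ 2 = 1 →
      (X₀ + (x : ℂ) • X₁ + (y : ℂ) • X₂) * (X₀ + (x : ℂ) • X₁ + (y : ℂ) • X₂) ∈ LC n 1 := fun x y hxy => by
    have h1 := base_mem (hJ x y hxy)
    have e1 : (XA (cm (J + x • (wd c a - wd d b) + y • (wd d a + wd c b))) : Ec n) =
        X₀ + (x : ℂ) • X₁ + (y : ℂ) • X₂ := by
      rw [hX₀, hX₁, hX₂, ← XA_smul, ← XA_smul, ← XA_add, ← XA_add]
      congr 1
      ext i j
      simp only [cm, Matrix.add_apply, Matrix.smul_apply, smul_eq_mul]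
      push_cast
      rfl
    rwa [e1] at h1
  have h1 := hY 1 0 (by norm_num)
  have h2 := hY (-1) 0 (by norm_num)
  have h3 := hY 0 1 (by norm_num)
  have h4 := hY 0 (-1) (by norm_num)
  have h5 := hY (3 / 5) (4 / 5) (by norm_num)
  have h6 := hY (-(3 / 5)) (-(4 / 5)) (by norm_num)
  have h7 := hY (3 / 5) (-(4 / 5)) (by norm_num)
  have h8 := hY (-(3 / 5)) (4 / 5) (by norm_num)
  have h9 := (LC n 1).add_mem
    ((LC n 1).smul_mem (1 / 2) ((LC n 1).sub_mem ((LC n 1).add_mem h1 h2) ((LC n 1).add_mem h3 h4)))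
    ((LC n 1).smul_mem (25 / 48 * Complex.I)
      ((LC n 1).sub_mem ((LC n 1).add_mem h5 h6) ((LC n 1).add_mem h7 h8)))
  rw [e]
  convert h9 using 1
  simp only [mul_add, add_mul, smul_mul_assoc, mul_smul_comm]
  push_cast
  match_scalars <;> first | ring1 | linear_combination Complex.I_mul_I

theorem wd_lin (s t : ℂ) (u v α : Fin n → ℂ) : wd (s • u + t • v) α = s • wd u α + t • wd v α := by
  ext i j
  simp only [wd_apply, Pi.add_apply, Pi.smul_apply, smul_eq_mul, Matrix.add_apply, Matrix.smul_apply]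
  ring

theorem wd_smul_right (s : ℂ) (u α : Fin n → ℂ) : wd u (s • α) = s • wd u α := by
  ext i j
  simp only [wd_apply, Pi.smul_apply, smul_eq_mul, Matrix.smul_apply]
  ring

theorem anti_mem {m : ℕ} (hn : n = 2 * (m + 2)) {a b p q p' q' : Fin n → ℝ} (h : On4 a b p q)
    (h' : On4 a b p' q') (h'' : On4 p q p' q') :
    (XA (wd (zv p q) (zv a b)) * XA (wd (zv p' (-q')) (zv a b)) +
      XA (wd (zv p' (-q')) (zv a b)) * XA (wd (zv p q) (zv a b)) : Ec n) ∈ LC n 1 := by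
  have key : ∀ t : ℝ, t ^ 2 = 16 / 25 →
      ((((3 / 5 : ℂ)) • XA (wd (zv p q) (zv a b)) + (t : ℂ) • XA (wd (zv p' (-q')) (zv a b))) *
        (((3 / 5 : ℂ)) • XA (wd (zv p q) (zv a b)) + (t : ℂ) • XA (wd (zv p' (-q')) (zv a b))) : Ec n) ∈
        LC n 1 := fun t ht => by
    have ho : On4 a b ((3 / 5 : ℝ) • p + t • p') ((3 / 5 : ℝ) • q - t • q') := by
      refine ⟨h.aa, h.bb, ?_, ?_, h.ab, ?_, ?_, ?_, ?_, ?_⟩ <;>
        simp only [dotProduct_add, add_dotProduct, dotProduct_sub, sub_dotProduct, dotProduct_smul,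
          smul_dotProduct, smul_eq_mul, h.ac, h.ad, h.bc, h.bd, h.cc, h.dd, h.cd, h'.ac, h'.ad, h'.bc,
          h'.bd, h'.cc, h'.dd, h'.cd, h''.ac, h''.ad, h''.bc, h''.bd, dotProduct_comm p' p,
          dotProduct_comm q' q, dotProduct_comm p' q] <;> linarith
    have h1 := sq_mem hn ho
    have e : zv ((3 / 5 : ℝ) • p + t • p') ((3 / 5 : ℝ) • q - t • q') =
        (3 / 5 : ℂ) • zv p q + (t : ℂ) • zv p' (-q') := by
      ext i
      simp only [zv, cv, Pi.add_apply, Pi.smul_apply, Pi.sub_apply, Pi.neg_apply, smul_eq_mul]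
      push_cast
      ring
    rwa [e, wd_lin, XA_add, XA_smul, XA_smul] at h1
  have h1 := (LC n 1).smul_mem (25 / 24) ((LC n 1).sub_mem (key (4 / 5) (by norm_num))
    (key (-(4 / 5)) (by norm_num)))
  convert h1 using 1
  simp only [mul_add, add_mul, smul_mul_assoc, mul_smul_comm]
  push_cast
  match_scalars <;> ring1

end PNil

end Crest.Agent.R202
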