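import Crest.Agent.R202.PBasic
import Crest.Agent.R202.PNilAux

/-!
# R202/PNil: rank one operators in the Lie algebra generated by the `X_J²`

Work with complex operators on `ℂ[x]`: `LPc r N` means that `N` restricted to real polynomials is
`A₁ + i A₂` with `LP n r A₁`, `LP n r A₂` (closed under complex combinations and brackets).
1. `LP n 1` is stable under `ad (XA F)` for a plane rotation generator `F = a bᵀ - b aᵀ`
   (`a, b` orthonormal): `J_φ = e^{φF} J e^{-φF} = J₀ + cos φ J₁ + sin φ J₂` is a complex structure,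
   and the derivative at `φ = 0` of `X_{J_φ}²` lies in the span of the values (a linear functional
   killing the span kills the derivative, or use five angles).  Hence `LPc 1` is stable under
   `ad (XA F)` for all complex antisymmetric `F`.
2. Write `α = ρ (f₀ + i f₁)`, extend to an orthonormal basis `f`, put `z_k = f_{2k} + i f_{2k+1}`,
   `w_k = conj z_k` (vectors), `T_v = XA (v z₀ᵀ - z₀ vᵀ)` for `v ⊥ f₀, f₁` (they commute), and for
   signs `s` let `J_s = Σ s_k (f_{2k+1} f_{2k}ᵀ - f_{2k} f_{2k+1}ᵀ)`, `X = XA J_s`.  `T_{z_j}`,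
   `T_{w_j}` are eigenvectors of `ad X` with eigenvalues `c (s₀ + s_j)`, `c (s₀ - s_j)`, `c = ± i`.
   For `j ≠ k`, both `≠ 0`, `s₀ = s_j = 1`, `s_k = -1`:
   `[T_{w_k}, [T_{z_j}, X²]] = 8 c² T_{z_j} T_{w_k}`, so `T_{z_j} T_{w_k} ∈ LPc 1`.
3. With all signs `+`, a product `P` of `r` such quadratics has `[X,P] = 2 r c P`;
   `[X², Q] = 2c (XQ + QX)` and `[XQ + QX, P] = 4 r c P Q`; so products of `r` quadratics lie in
   `LPc (2r - 1)`.
4. `N = (T_{z₁}T_{w₂})^a (T_{z₂}T_{w₁})^a` for `l = 2a`, times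
   `(T_{z₁}T_{w₂})(T_{z₂}T_{w₃})(T_{z₃}T_{w₁})` for `l = 2a + 3`; so `N = ∏ⱼ (T_{z_j}T_{w_j})^{a_j}`,
   `Σ a_j = l`.  On linear forms `T_v (γ·x) = (γ·v)(z₀·x) - (γ·z₀)(v·x)`; homogeneous polynomials of
   degree `l` are spanned by products of `l` forms from the basis `z_k·x, w_k·x`; each `T` raises
   the `z₀`-weight by one, so `N` kills everything of degree `< l` and all these products except
   `(w₀·x)^l`, which goes to a non-zero multiple of `(z₀·x)^l` (induction with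
   `T_{z_j} T_{w_j}`, or the generating function `exp (T_v) (w₀·x) = w₀·x - 2 v·x - (v·v) z₀·x`).
   Compare with `fis_pow`.

The formal proof replaces steps 1 and 2 by a finite identity: for orthonormal `a, b, c, d` the matrices
`J₀ + x J₁ + y J₂` (`x² + y² = 1`) are complex structures, which gives `T_v² ∈ LPc 1` for null `v`
(`PNil.sq_mem`), and polarisation gives `T_{z_j} T_{w_k}` (`PNil.anti_mem`).
-/

open scoped Matrix
open MvPolynomial

noncomputable section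

namespace Crest.Agent.R202

variable {n : ℕ}

namespace PNil

/-- the linear form `γ · x` -/
def lf (γ : Fin n → ℂ) : Pc n := ∑ i, C (γ i) * X i

theorem lf_add (γ δ : Fin n → ℂ) : lf (γ + δ) = lf γ + lf δ := by
  simp only [lf, Pi.add_apply, map_add, add_mul, Finset.sum_add_distrib]

theorem lf_smul (c : ℂ) (γ : Fin n → ℂ) : lf (c • γ) = c • lf γ := by
  simp only [lf, Pi.smul_apply, smul_eq_mul, map_mul, Finset.smul_sum, smul_eq_C_mul, mul_assoc]

theorem lf_sub (γ δ : Fin n → ℂ) : lf (γ - δ) = lf γ - lf δ := by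
  simp only [lf, Pi.sub_apply, map_sub, sub_mul, Finset.sum_sub_distrib]

theorem lf_single (i : Fin n) : lf (Pi.single i 1) = X i := by
  unfold lf
  rw [Finset.sum_eq_single i]
  · simp
  · intro j _ hj
    simp [hj]
  · simp

theorem eval_lf (β γ : Fin n → ℂ) : eval β (lf γ) = γ ⬝ᵥ β := by
  simp only [lf, map_sum, map_mul, eval_C, eval_X, dotProduct]

theorem pderiv_lf (i : Fin n) (γ : Fin n → ℂ) : pderiv i (lf γ) = C (γ i) := by
  unfold lf
  rw [map_sum, Finset.sum_eq_single i]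
  · rw [pderiv_C_mul]; simp
  · intro j _ hj
    rw [pderiv_C_mul, pderiv_X_of_ne hj, mul_zero]
  · simp

theorem XA_lf (A : Matrix (Fin n) (Fin n) ℂ) (γ : Fin n → ℂ) : XA A (lf γ) = lf (γ ᵥ* A) := by
  rw [XA_apply, Finset.sum_comm]
  unfold lf
  refine Finset.sum_congr rfl fun j _ => ?_
  have := pderiv_lf (γ := γ)
  unfold lf at this
  simp only [this, Matrix.vecMul, dotProduct, map_sum, Finset.sum_mul, smul_eq_C_mul, map_mul]
  exact Finset.sum_congr rfl fun i _ => by ring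

theorem XA_one (A : Matrix (Fin n) (Fin n) ℂ) : XA A (1 : Pc n) = 0 := by
  rw [XA_apply]
  simp

theorem XA_zero : (XA (0 : Matrix (Fin n) (Fin n) ℂ) : Ec n) = 0 := by
  have := XA_smul (0 : ℂ) (0 : Matrix (Fin n) (Fin n) ℂ)
  rwa [zero_smul, zero_smul] at this

theorem XA_pow_succ (A : Matrix (Fin n) (Fin n) ℂ) (u : Pc n) (k : ℕ) :
    XA A (u ^ (k + 1)) = ((k + 1 : ℕ) : ℂ) • (u ^ k * XA A u) := by
  induction k with
  | zero => simp
  | succ k ih =>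
    rw [pow_succ, XA_mul, ih]
    simp only [smul_eq_C_mul, Nat.cast_add, Nat.cast_one, map_add, map_one]
    ring

theorem XA_pow_zero {A : Matrix (Fin n) (Fin n) ℂ} {u : Pc n} (h : XA A u = 0) (k : ℕ) :
    XA A (u ^ k) = 0 := by
  cases k with
  | zero => rw [pow_zero, XA_one]
  | succ k => rw [XA_pow_succ, h, mul_zero, smul_zero]

theorem XA_mul_zero {A : Matrix (Fin n) (Fin n) ℂ} {u v : Pc n} (h : XA A u = 0) (h' : XA A v = 0) :
    XA A (u * v) = 0 := by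
  rw [XA_mul, h, h', zero_mul, mul_zero, add_zero]

/-- iterating a derivation with `D u = y`, `D y = 0` -/
theorem XA_iter {A : Matrix (Fin n) (Fin n) ℂ} {u y : Pc n} (hu : XA A u = y) (hy : XA A y = 0)
    (a k : ℕ) {Q : Pc n} (hQ : XA A Q = 0) :
    ∃ c : ℂ, c ≠ 0 ∧ ((XA A : Ec n) ^ a) (u ^ (k + a) * Q) = c • (u ^ k * (y ^ a * Q)) := by
  induction a generalizing Q with
  | zero => exact ⟨1, one_ne_zero, by simp⟩
  | succ a ih =>
    obtain ⟨c, hc, h⟩ := ih (Q := y * Q) (XA_mul_zero hy hQ)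
    refine ⟨((k + a + 1 : ℕ) : ℂ) * c, mul_ne_zero (Nat.cast_ne_zero.2 (by omega)) hc, ?_⟩
    rw [pow_succ, Module.End.mul_apply, XA_mul, hQ, mul_zero, add_zero, ← add_assoc, XA_pow_succ, hu,
      smul_mul_assoc, map_smul, mul_assoc, h, smul_smul, pow_succ, mul_assoc]

/-- the operator `T_v` -/
def T (α v : Fin n → ℂ) : Ec n := XA (wd v α)

theorem T_lf (α v γ : Fin n → ℂ) : T α v (lf γ) = (γ ⬝ᵥ v) • lf α - (γ ⬝ᵥ α) • lf v := by
  rw [T, XA_lf, vecMul_wd, lf_sub, lf_smul, lf_smul]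

theorem T_comm {α u v : Fin n → ℂ} (hα : α ⬝ᵥ α = 0) (hu : α ⬝ᵥ u = 0) (hv : α ⬝ᵥ v = 0) :
    Commute (T α u) (T α v) := by
  have h := XA_lie (wd u α) (wd v α)
  rw [wd_comm hα hu hv, sub_self, XA_zero, sub_eq_zero] at h
  exact h

theorem T_eig {J : Matrix (Fin n) (Fin n) ℂ} (hJ : Jᵀ = -J) {α v : Fin n → ℂ} {a b : ℂ}
    (hα : J *ᵥ α = a • α) (hv : J *ᵥ v = b • v) :
    (XA J : Ec n) * T α v = T α v * XA J + (-(b + a)) • T α v := by
  have h := XA_lie J (wd v α)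
  rw [wd_eig hJ hv hα, XA_smul, sub_eq_iff_eq_add'] at h
  exact h

/-- the weight filtration on products of `l` linear forms -/
inductive Gf (α : Fin n → ℂ) : ℕ → ℕ → Pc n → Prop
  | one : Gf α 0 0 1
  | zero (l k : ℕ) : Gf α l k 0
  | add {l k : ℕ} {P Q : Pc n} : Gf α l k P → Gf α l k Q → Gf α l k (P + Q)
  | smul {l k : ℕ} {P : Pc n} (c : ℂ) : Gf α l k P → Gf α l k (c • P)
  | mul0 {l k : ℕ} {P : Pc n} (γ : Fin n → ℂ) : Gf α l k P → Gf α (l + 1) k (lf γ * P)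
  | mul1 {l k : ℕ} {P : Pc n} (γ : Fin n → ℂ) : γ ⬝ᵥ α = 0 → Gf α l k P → Gf α (l + 1) (k + 1) (lf γ * P)
  | mul2 {l k : ℕ} {P : Pc n} : Gf α l k P → Gf α (l + 1) (k + 2) (lf α * P)

variable {α : Fin n → ℂ}

theorem Gf.sum {ι : Type} (s : Finset ι) {l k : ℕ} {P : ι → Pc n} (h : ∀ i ∈ s, Gf α l k (P i)) :
    Gf α l k (∑ i ∈ s, P i) :=
  Finset.sum_induction _ _ (fun _ _ => Gf.add) (Gf.zero l k) h

theorem Gf.T_mem (hα : α ⬝ᵥ α = 0) {v : Fin n → ℂ} (hv : α ⬝ᵥ v = 0) {l k : ℕ} {P : Pc n}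
    (h : Gf α l k P) : Gf α l (k + 1) (T α v P) := by
  induction h with
  | one => rw [T, XA_one]; exact Gf.zero _ _
  | zero l k => rw [map_zero]; exact Gf.zero _ _
  | add _ _ ih ih' => rw [map_add]; exact ih.add ih'
  | smul c _ ih => rw [map_smul]; exact ih.smul c
  | mul0 γ h ih =>
    rw [T, XA_mul, XA_lf, vecMul_wd]
    refine Gf.add (Gf.mul1 _ ?_ h) (Gf.mul0 γ ih)
    rw [sub_dotProduct, smul_dotProduct, smul_dotProduct, hα, dotProduct_comm v α, hv]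
    simp
  | mul1 γ hγ h ih =>
    rw [T, XA_mul, XA_lf, vecMul_wd, hγ, zero_smul, sub_zero, lf_smul, smul_mul_assoc]
    exact Gf.add (Gf.smul _ (Gf.mul2 h)) (Gf.mul1 γ hγ ih)
  | mul2 h ih =>
    have h0 := T_lf α v α
    rw [hα, hv, zero_smul, zero_smul, sub_zero, T] at h0
    rw [T, XA_mul, h0, zero_mul, zero_add]
    exact Gf.mul2 ih

theorem Gf.T_pow_mem (hα : α ⬝ᵥ α = 0) {v : Fin n → ℂ} (hv : α ⬝ᵥ v = 0) (a : ℕ) {l k : ℕ} {P : Pc n}
    (h : Gf α l k P) : Gf α l (k + a) ((T α v ^ a) P) := by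
  induction a with
  | zero => simpa using h
  | succ a ih =>
    rw [pow_succ', Module.End.mul_apply, ← add_assoc]
    exact ih.T_mem hα hv

theorem Gf.eq_zero {l k : ℕ} {P : Pc n} (h : Gf α l k P) (hk : 2 * l < k) : P = 0 := by
  induction h with
  | one => omega
  | zero l k => rfl
  | add _ _ ih ih' => rw [ih hk, ih' hk, add_zero]
  | smul c _ ih => rw [ih hk, smul_zero]
  | mul0 γ h ih => rw [ih (by omega), mul_zero]
  | mul1 γ hγ h ih => rw [ih (by omega), mul_zero]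
  | mul2 h ih => rw [ih (by omega), mul_zero]

theorem Gf.eval_eq_zero (hα : α ⬝ᵥ α = 0) {l k : ℕ} {P : Pc n} (h : Gf α l k P) (hk : 0 < k) :
    eval α P = 0 := by
  induction h with
  | one => omega
  | zero l k => simp
  | add _ _ ih ih' => rw [map_add, ih hk, ih' hk, add_zero]
  | smul c _ ih => rw [smul_eq_C_mul, map_mul, ih hk, mul_zero]
  | mul0 γ h ih => rw [map_mul, ih hk, mul_zero]
  | mul1 γ hγ h ih => rw [map_mul, eval_lf, hγ, zero_mul]
  | mul2 h ih => rw [map_mul, eval_lf, hα, zero_mul]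

theorem Gf.pow (w : Fin n → ℂ) (l : ℕ) : Gf α l 0 (lf w ^ l) := by
  induction l with
  | zero => rw [pow_zero]; exact Gf.one
  | succ l ih => rw [pow_succ']; exact ih.mul0 w

theorem euler {l : ℕ} {P : Pc n} (h : P.IsHomogeneous (l + 1)) :
    P = ((l + 1 : ℕ) : ℂ)⁻¹ • ∑ i, lf (Pi.single i 1) * pderiv i P := by
  simp only [lf_single]
  rw [h.sum_X_mul_pderiv, ← Nat.cast_smul_eq_nsmul ℂ, smul_smul,
    inv_mul_cancel₀ (Nat.cast_ne_zero.2 (by omega)), one_smul]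

theorem eq_smul_one {P : Pc n} (h : P.IsHomogeneous 0) : ∃ c : ℂ, P = c • (1 : Pc n) := by
  rw [← totalDegree_zero_iff_isHomogeneous, totalDegree_eq_zero_iff_eq_C] at h
  exact ⟨coeff 0 P, by rw [smul_eq_C_mul, mul_one]; exact h⟩

theorem Gf.of_hom {l : ℕ} {P : Pc n} (h : P.IsHomogeneous l) : Gf α l 0 P := by
  induction l generalizing P with
  | zero =>
    obtain ⟨c, hc⟩ := eq_smul_one h
    rw [hc]
    exact Gf.one.smul c
  | succ l ih =>
    rw [euler h]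
    exact (Gf.sum _ fun i _ => (ih h.pderiv).mul0 _).smul _

theorem Gf.split {w : Fin n → ℂ} (hw : w ⬝ᵥ α ≠ 0) {l : ℕ} {P : Pc n} (h : P.IsHomogeneous l) :
    ∃ (c : ℂ) (g : Pc n), Gf α l 1 g ∧ P = c • lf w ^ l + g := by
  induction l generalizing P with
  | zero =>
    obtain ⟨c, hc⟩ := eq_smul_one h
    exact ⟨c, 0, Gf.zero _ _, by rw [pow_zero, add_zero, hc]⟩
  | succ l ih =>
    have h1 : ∀ i : Fin n, ∃ (c : ℂ) (g : Pc n), Gf α (l + 1) 1 g ∧
        lf (Pi.single i 1) * pderiv i P = c • lf w ^ (l + 1) + g := fun i => by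
      obtain ⟨c, g, hg, e⟩ := ih (h.pderiv (i := i))
      set γ : Fin n → ℂ := Pi.single i 1 with hγ
      set d : ℂ := (γ ⬝ᵥ α) / (w ⬝ᵥ α) with hd
      have h2 : (γ - d • w) ⬝ᵥ α = 0 := by
        rw [sub_dotProduct, smul_dotProduct, smul_eq_mul, hd, div_mul_cancel₀ _ hw, sub_self]
      refine ⟨c * d, c • (lf (γ - d • w) * lf w ^ l) + lf γ * g,
        (((Gf.pow w l).mul1 _ h2).smul c).add (hg.mul0 γ), ?_⟩
      rw [e, lf_sub, lf_smul]
      simp only [smul_eq_C_mul, map_mul]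
      ring
    choose c g hg e using h1
    refine ⟨((l + 1 : ℕ) : ℂ)⁻¹ * ∑ i, c i, ((l + 1 : ℕ) : ℂ)⁻¹ • ∑ i, g i,
      (Gf.sum _ fun i _ => hg i).smul _, ?_⟩
    conv_lhs => rw [euler h]
    simp only [e]
    rw [Finset.sum_add_distrib, ← Finset.sum_smul, smul_add, smul_smul]

/-- `P` is a product of `r + 1` quadratics -/
structure Gd (X : Ec n) (μ : ℂ) (r : ℕ) (P : Ec n) : Prop where
  mem : P ∈ LC n (2 * r + 1)
  eig : X * P = P * X + (((r + 1 : ℕ) : ℂ) * μ) • P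

theorem Gd.step {X : Ec n} {μ : ℂ} (hμ : μ ≠ 0) (hX : X * X ∈ LC n 1) {r : ℕ} {P Q : Ec n}
    (hQ : Gd X μ 0 Q) (hP : Gd X μ r P) (hc : Commute Q P) : Gd X μ (r + 1) (Q * P) := by
  have e1 := hQ.eig
  have e2 := hP.eig
  have e1' : ∀ R, X * (Q * R) = Q * (X * R) + (((0 + 1 : ℕ) : ℂ) * μ) • (Q * R) := fun R => by
    rw [← mul_assoc, e1, add_mul, smul_mul_assoc, mul_assoc]
  have e2' : ∀ R, X * (P * R) = P * (X * R) + (((r + 1 : ℕ) : ℂ) * μ) • (P * R) := fun R => by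
    rw [← mul_assoc, e2, add_mul, smul_mul_assoc, mul_assoc]
  have e3 : P * Q = Q * P := hc.eq.symm
  have e3' : ∀ R, P * (Q * R) = Q * (P * R) := fun R => by rw [← mul_assoc, e3, mul_assoc]
  constructor
  · have h1 := lie_mem (lie_mem hX hQ.mem) hP.mem
    have h2 := (LC n _).smul_mem (2 * ((r + 1 : ℕ) : ℂ) * μ ^ 2)⁻¹ h1
    have h3 : (X * X * Q - Q * (X * X)) * P - P * (X * X * Q - Q * (X * X)) =
        (2 * ((r + 1 : ℕ) : ℂ) * μ ^ 2) • (Q * P) := by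
      simp only [mul_sub, sub_mul, mul_assoc, e1, e1', e2, e2', e3, e3', mul_add, mul_smul_comm, add_mul,
        smul_mul_assoc]
      push_cast
      module
    rw [h3, smul_smul, inv_mul_cancel₀
      (mul_ne_zero (mul_ne_zero two_ne_zero (Nat.cast_ne_zero.2 (by omega))) (pow_ne_zero _ hμ)),
      one_smul] at h2
    convert h2 using 2
    ring
  · simp only [mul_assoc, e1', e2, mul_add, mul_smul_comm]
    push_cast
    module

theorem Gd.pow_mul {X : Ec n} {μ : ℂ} (hμ : μ ≠ 0) (hX : X * X ∈ LC n 1) {r : ℕ} {P Q : Ec n}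
    (hQ : Gd X μ 0 Q) (hP : Gd X μ r P) (hc : Commute Q P) (a : ℕ) : Gd X μ (r + a) (Q ^ a * P) := by
  induction a with
  | zero => simpa using hP
  | succ a ih =>
    rw [pow_succ', mul_assoc, ← add_assoc]
    exact Gd.step hμ hX hQ ih (((Commute.refl Q).pow_right a).mul_right hc)

/-- the data of the construction -/
structure Dat (α : Fin n → ℂ) (J : Mat n) (z w : Fin 3 → Fin n → ℂ) : Prop where
  cx : IsCx J
  αα : α ⬝ᵥ α = 0
  αz : ∀ j, α ⬝ᵥ z j = 0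
  αw : ∀ j, α ⬝ᵥ w j = 0
  zz : ∀ j k, z j ⬝ᵥ z k = 0
  zw : ∀ j k, z j ⬝ᵥ w k = if j = k then 2 else 0
  Jα : cm J *ᵥ α = (-Complex.I) • α
  Jz : ∀ j, cm J *ᵥ z j = (-Complex.I) • z j
  Jw : ∀ j, cm J *ᵥ w j = Complex.I • w j
  mem : ∀ j k, j ≠ k → T α (z j) * T α (w k) ∈ LC n 1

variable {J : Mat n} {z w : Fin 3 → Fin n → ℂ}

theorem Dat.gd (h : Dat α J z w) {j k : Fin 3} (hjk : j ≠ k) :
    Gd (XA (cm J)) (2 * Complex.I) 0 (T α (z j) * T α (w k)) := by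
  refine ⟨h.mem j k hjk, ?_⟩
  have e1 := T_eig (cm_anti h.cx.1) h.Jα (h.Jz j)
  have e2 := T_eig (cm_anti h.cx.1) h.Jα (h.Jw k)
  rw [← mul_assoc, e1, add_mul, mul_assoc, e2, mul_add, smul_mul_assoc, mul_smul_comm, mul_assoc]
  push_cast
  module

/-- the operator `N` -/
def NN (α : Fin n → ℂ) (z w : Fin 3 → Fin n → ℂ) (a e : ℕ) : Ec n :=
  T α (w 2) ^ e * (T α (w 1) ^ (a + e) * (T α (w 0) ^ (a + e) *
    (T α (z 2) ^ e * (T α (z 1) ^ (a + e) * T α (z 0) ^ (a + e)))))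

theorem Dat.NN_mem (h : Dat α J z w) {a e : ℕ} (hae : 1 ≤ a + e) :
    NN α z w a e ∈ LC n (2 * (2 * a + 3 * e) - 1) := by
  obtain ⟨b, hb⟩ : ∃ b, a + e = b + 1 := ⟨a + e - 1, by omega⟩
  let t : Fin 3 × Bool → Ec n := fun i => if i.2 then T α (w i.1) else T α (z i.1)
  have hc : ∀ i j, Commute (t i) (t j) := by
    rintro ⟨i, x⟩ ⟨j, y⟩
    cases x <;> cases y
    · exact T_comm h.αα (h.αz i) (h.αz j)
    · exact T_comm h.αα (h.αz i) (h.αw j)
    · exact T_comm h.αα (h.αw i) (h.αz j)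
    · exact T_comm h.αα (h.αw i) (h.αw j)
  have hq : ∀ j k : Fin 3, j ≠ k → Gd (XA (cm J)) (2 * Complex.I) 0 (t (j, false) * t (k, true)) :=
    fun j k hjk => h.gd hjk
  have hμ : (2 * Complex.I) ≠ 0 := mul_ne_zero two_ne_zero Complex.I_ne_zero
  have hX := base_mem h.cx
  have c2 : ∀ i i' j j', Commute (t i * t i') (t j * t j') := fun i i' j j' =>
    ((hc i j).mul_right (hc i j')).mul_left ((hc i' j).mul_right (hc i' j'))
  have g1 := Gd.pow_mul hμ hX (hq 0 1 (by decide)) (hq 0 1 (by decide)) (Commute.refl _) b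
  rw [← pow_succ, ← hb] at g1
  have g2 := Gd.pow_mul hμ hX (hq 1 0 (by decide)) g1 ((c2 _ _ _ _).pow_right _) a
  have g3 := Gd.pow_mul hμ hX (hq 1 2 (by decide)) g2
    (((c2 _ _ _ _).pow_right _).mul_right ((c2 _ _ _ _).pow_right _)) e
  have g4 := Gd.pow_mul hμ hX (hq 2 0 (by decide)) g3
    (((c2 _ _ _ _).pow_right _).mul_right
      (((c2 _ _ _ _).pow_right _).mul_right ((c2 _ _ _ _).pow_right _))) e
  have h1 : ∀ i j (p q : ℕ), t i ^ p * t j ^ q = t j ^ q * t i ^ p := fun i j p q =>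
    ((hc i j).pow_pow p q).eq
  have h2 : ∀ i j (p q : ℕ) R, t i ^ p * (t j ^ q * R) = t j ^ q * (t i ^ p * R) := fun i j p q R => by
    rw [← mul_assoc, h1, mul_assoc]
  have e1 : NN α z w a e = t (2, true) ^ e * (t (1, true) ^ (a + e) * (t (0, true) ^ (a + e) *
      (t (2, false) ^ e * (t (1, false) ^ (a + e) * t (0, false) ^ (a + e))))) := rfl
  have e2 : 2 * (2 * a + 3 * e) - 1 = 2 * (0 + b + a + e + e) + 1 := by omega
  rw [e1, e2]
  convert g4.mem using 1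
  simp only [(hc _ _).mul_pow, pow_add, mul_assoc]
  simp only [h1, h2]

theorem Dat.NN_Gf (h : Dat α J z w) (a e : ℕ) {l k : ℕ} {P : Pc n} (hP : Gf α l k P) :
    Gf α l (k + 2 * (2 * a + 3 * e)) (NN α z w a e P) := by
  have := (((((hP.T_pow_mem h.αα (h.αz 0) (a + e)).T_pow_mem h.αα (h.αz 1) (a + e)).T_pow_mem h.αα
    (h.αz 2) e).T_pow_mem h.αα (h.αw 0) (a + e)).T_pow_mem h.αα (h.αw 1) (a + e)).T_pow_mem h.αα
    (h.αw 2) e
  have e1 : k + 2 * (2 * a + 3 * e) = k + (a + e) + (a + e) + e + (a + e) + (a + e) + e := by ring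
  rw [e1]
  exact this

theorem Dat.NN_pow (h : Dat α J z w) {u : Fin n → ℂ} (hu : u ⬝ᵥ α ≠ 0) (a e : ℕ) :
    ∃ c : ℂ, c ≠ 0 ∧ NN α z w a e (lf u ^ (2 * a + 3 * e)) = c • lf α ^ (2 * a + 3 * e) := by
  set y : Fin 3 → Pc n := fun j => T α (z j) (lf u) with hy
  set η : Pc n := (-(2 * (u ⬝ᵥ α))) • lf α with hη
  have hzα : ∀ j, z j ⬝ᵥ α = 0 := fun j => by rw [dotProduct_comm, h.αz]
  have hT : ∀ v, α ⬝ᵥ v = 0 → ∀ j, T α v (y j) = (-((u ⬝ᵥ α) * (z j ⬝ᵥ v))) • lf α := fun v hv j => by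
    simp only [hy, T_lf, map_sub, map_smul, h.αα, hv, hzα]
    module
  have hzy : ∀ j k, XA (wd (z j) α) (y k) = 0 := fun j k => by
    have := hT (z j) (h.αz j) k
    rwa [h.zz, mul_zero, neg_zero, zero_smul] at this
  have hwy : ∀ j, XA (wd (w j) α) (y j) = η := fun j => by
    have := hT (w j) (h.αw j) j
    rwa [h.zw, if_pos rfl, mul_comm] at this
  have hwy' : ∀ j k, k ≠ j → XA (wd (w j) α) (y k) = 0 := fun j k hk => by
    have := hT (w j) (h.αw j) k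
    rwa [h.zw, if_neg hk, mul_zero, neg_zero, zero_smul] at this
  have hwη : ∀ j, XA (wd (w j) α) η = 0 := fun j => by
    have := T_lf α (w j) α
    rw [h.αα, h.αw, zero_smul, zero_smul, sub_zero, T] at this
    rw [hη, map_smul, this, smul_zero]
  obtain ⟨c1, n1, e1⟩ := XA_iter (A := wd (z 0) α) (u := lf u) (y := y 0) rfl (hzy 0 0) (a + e)
    (e + (a + e)) (XA_one _)
  obtain ⟨c2, n2, e2⟩ := XA_iter (A := wd (z 1) α) (u := lf u) (y := y 1) rfl (hzy 1 1) (a + e) e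
    (Q := y 0 ^ (a + e) * 1) (XA_mul_zero (XA_pow_zero (hzy 1 0) _) (XA_one _))
  obtain ⟨c3, n3, e3⟩ := XA_iter (A := wd (z 2) α) (u := lf u) (y := y 2) rfl (hzy 2 2) e 0
    (Q := y 1 ^ (a + e) * (y 0 ^ (a + e) * 1))
    (XA_mul_zero (XA_pow_zero (hzy 2 1) _) (XA_mul_zero (XA_pow_zero (hzy 2 0) _) (XA_one _)))
  obtain ⟨c4, n4, e4⟩ := XA_iter (hwy 0) (hwη 0) (a + e) 0 (Q := y 1 ^ (a + e) * y 2 ^ e)
    (XA_mul_zero (XA_pow_zero (hwy' 0 1 (by decide)) _) (XA_pow_zero (hwy' 0 2 (by decide)) _))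
  obtain ⟨c5, n5, e5⟩ := XA_iter (hwy 1) (hwη 1) (a + e) 0 (Q := y 2 ^ e * η ^ (a + e))
    (XA_mul_zero (XA_pow_zero (hwy' 1 2 (by decide)) _) (XA_pow_zero (hwη 1) _))
  obtain ⟨c6, n6, e6⟩ := XA_iter (hwy 2) (hwη 2) e 0 (Q := η ^ (a + e) * η ^ (a + e))
    (XA_mul_zero (XA_pow_zero (hwη 2) _) (XA_pow_zero (hwη 2) _))
  have hne : (-(2 * (u ⬝ᵥ α))) ≠ 0 := neg_ne_zero.2 (mul_ne_zero two_ne_zero hu)
  refine ⟨c1 * c2 * c3 * c4 * c5 * c6 * (-(2 * (u ⬝ᵥ α))) ^ (2 * a + 3 * e),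
    mul_ne_zero (mul_ne_zero (mul_ne_zero (mul_ne_zero (mul_ne_zero (mul_ne_zero n1 n2) n3) n4) n5) n6)
      (pow_ne_zero _ hne), ?_⟩
  have r1 : lf u ^ (2 * a + 3 * e) = lf u ^ (e + (a + e) + (a + e)) * 1 := by ring
  have r3 : lf u ^ 0 * (y 2 ^ e * (y 1 ^ (a + e) * (y 0 ^ (a + e) * 1))) =
      y 0 ^ (0 + (a + e)) * (y 1 ^ (a + e) * y 2 ^ e) := by ring
  have r4 : y 0 ^ 0 * (η ^ (a + e) * (y 1 ^ (a + e) * y 2 ^ e)) =
      y 1 ^ (0 + (a + e)) * (y 2 ^ e * η ^ (a + e)) := by ring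
  have r5 : y 1 ^ 0 * (η ^ (a + e) * (y 2 ^ e * η ^ (a + e))) =
      y 2 ^ (0 + e) * (η ^ (a + e) * η ^ (a + e)) := by ring
  have r6 : y 2 ^ 0 * (η ^ e * (η ^ (a + e) * η ^ (a + e))) = η ^ (2 * a + 3 * e) := by ring
  rw [zero_add] at e3
  simp only [NN, T, Module.End.mul_apply]
  rw [r1, e1]
  simp only [map_smul]
  rw [e2]
  simp only [map_smul]
  rw [e3, r3]
  simp only [map_smul]
  rw [e4, r4]
  simp only [map_smul]
  rw [e5, r5]
  simp only [map_smul]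
  rw [e6, r6, hη, smul_pow]
  simp only [smul_smul, mul_assoc]

theorem zv_dot (a b c d : Fin n → ℝ) : zv a b ⬝ᵥ zv c d =
    ((a ⬝ᵥ c - b ⬝ᵥ d : ℝ) : ℂ) + Complex.I * ((a ⬝ᵥ d + b ⬝ᵥ c : ℝ) : ℂ) := by
  simp only [zv, add_dotProduct, dotProduct_add, smul_dotProduct, dotProduct_smul, cv_dot, smul_eq_mul]
  push_cast
  linear_combination ((b ⬝ᵥ d : ℝ) : ℂ) * Complex.I_mul_I

theorem cm_zv {J : Mat n} {a b : Fin n → ℝ} (ha : J *ᵥ a = b) (hb : J *ᵥ b = -a) :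
    cm J *ᵥ zv a b = (-Complex.I) • zv a b := by
  rw [zv, Matrix.mulVec_add, Matrix.mulVec_smul, cm_mulVec, cm_mulVec, ha, hb, cv_neg]
  match_scalars
  · linear_combination Complex.I_mul_I
  · ring

theorem cm_zv' {J : Mat n} {a b : Fin n → ℝ} (ha : J *ᵥ a = b) (hb : J *ᵥ b = -a) :
    cm J *ᵥ zv a (-b) = Complex.I • zv a (-b) := by
  rw [zv, cv_neg, Matrix.mulVec_add, Matrix.mulVec_smul, Matrix.mulVec_neg, cm_mulVec, cm_mulVec, ha, hb,
    cv_neg]
  match_scalars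
  · linear_combination Complex.I_mul_I
  · ring

theorem exists_polar (hα : α ⬝ᵥ α = 0) (h0 : α ≠ 0) :
    ∃ (ρ : ℂ) (a b : Fin n → ℝ), a ⬝ᵥ a = 1 ∧ b ⬝ᵥ b = 1 ∧ a ⬝ᵥ b = 0 ∧ α = ρ • zv a b := by
  set p : Fin n → ℝ := fun i => (α i).re with hp
  set q : Fin n → ℝ := fun i => (α i).im with hq
  have e : α = zv p q := by
    ext i
    simp only [zv, cv, hp, hq, Pi.add_apply, Pi.smul_apply, smul_eq_mul]
    rw [mul_comm, Complex.re_add_im]
  rw [e, zv_dot, Complex.ext_iff] at hα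
  simp only [Complex.add_re, Complex.ofReal_re, Complex.mul_re, Complex.I_re, Complex.I_im,
    Complex.ofReal_im, Complex.add_im, Complex.mul_im, Complex.zero_re, Complex.zero_im,
    dotProduct_comm q p] at hα
  have h1 : q ⬝ᵥ q = p ⬝ᵥ p := by linarith [hα.1]
  have h2 : p ⬝ᵥ q = 0 := by linarith [hα.2]
  have h3 : p ⬝ᵥ p ≠ 0 := fun h3 => by
    have hq0 : q = 0 := dotProduct_self_eq_zero.1 (h1.trans h3)
    have hp0 : p = 0 := dotProduct_self_eq_zero.1 h3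
    apply h0
    rw [e, hp0, hq0]
    ext i
    simp [zv, cv]
  have h4 : 0 < p ⬝ᵥ p := lt_of_le_of_ne (Finset.sum_nonneg fun i _ => mul_self_nonneg _) h3.symm
  set ρ := Real.sqrt (p ⬝ᵥ p) with hρ
  have h5 : 0 < ρ := Real.sqrt_pos.2 h4
  have h6 : p ⬝ᵥ p = ρ * ρ := (Real.mul_self_sqrt h4.le).symm
  refine ⟨ρ, ρ⁻¹ • p, ρ⁻¹ • q, ?_, ?_, ?_, ?_⟩
  · rw [smul_dotProduct, dotProduct_smul, h6, smul_eq_mul, smul_eq_mul]
    field_simp
  · rw [smul_dotProduct, dotProduct_smul, h1, h6, smul_eq_mul, smul_eq_mul]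
    field_simp
  · rw [smul_dotProduct, dotProduct_smul, h2, smul_zero, smul_zero]
  · rw [e]
    ext i
    have h7 : (ρ : ℂ) ≠ 0 := Complex.ofReal_ne_zero.2 h5.ne'
    simp only [zv, cv, Pi.add_apply, Pi.smul_apply, smul_eq_mul]
    push_cast
    field_simp

theorem exists_dat (hn : 8 ≤ n) (he : Even n) (hα : α ⬝ᵥ α = 0) (h0 : α ≠ 0) :
    ∃ (J : Mat n) (z w : Fin 3 → Fin n → ℂ), Dat α J z w := by
  obtain ⟨m, hm⟩ : ∃ m, n = 2 * (m + 4) := by
    obtain ⟨k, hk⟩ := he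
    exact ⟨k - 4, by omega⟩
  have hm' : n = 2 * (m + 2 + 2) := by omega
  obtain ⟨ρ, a, b, haa, hbb, hab, e⟩ := exists_polar hα h0
  obtain ⟨f, hfs, hf, hc⟩ := exists_frame (ι := Fin (m + 4) × Bool) (n := n) (by simp [hm, mul_comm])
    (fun i => if i.2 then b else a) {i | i.1 = 0} (by
      rintro ⟨i, x⟩ hi ⟨j, y⟩ hj
      simp only [Set.mem_ofPred_eq] at hi hj
      subst hi hj
      cases x <;> cases y <;> simp [haa, hbb, hab, dotProduct_comm b a])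
  have ea : f (0, false) = a := by simpa using hfs (0, false) rfl
  have eb : f (0, true) = b := by simpa using hfs (0, true) rfl
  let ι : Fin 3 → Fin (m + 4) := fun j => ⟨j.1 + 1, by omega⟩
  have hι0 : ∀ j, (0 : Fin (m + 4)) ≠ ι j := fun j h => by
    have := congrArg Fin.val h
    simp [ι] at this
  have hι : ∀ j k, ι j = ι k ↔ j = k := fun j k => by
    simp [ι, Fin.ext_iff]
  have on4 : ∀ j k : Fin (m + 4), j ≠ k → On4 (f (j, false)) (f (j, true)) (f (k, false)) (f (k, true)) :=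
    fun j k hjk => by constructor <;> simp [hf, hjk]
  have J1 : ∀ k, JS f Finset.univ *ᵥ f (k, false) = f (k, true) := fun k => by
    rw [JS_false hf, if_pos (Finset.mem_univ _)]
  have J2 : ∀ k, JS f Finset.univ *ᵥ f (k, true) = -f (k, false) := fun k => by
    rw [JS_true hf, if_pos (Finset.mem_univ _)]
  rw [← ea, ← eb] at e
  have αz : ∀ j, α ⬝ᵥ zv (f (ι j, false)) (f (ι j, true)) = 0 := fun j => by
    rw [e, smul_dotProduct, zv_dot]
    simp [hf, hι0]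
  have αw : ∀ j, α ⬝ᵥ zv (f (ι j, false)) (-f (ι j, true)) = 0 := fun j => by
    rw [e, smul_dotProduct, zv_dot]
    simp [hf, hι0]
  refine ⟨JS f Finset.univ, fun j => zv (f (ι j, false)) (f (ι j, true)),
    fun j => zv (f (ι j, false)) (-f (ι j, true)), isCx_JS hf hc, hα, αz, αw, fun j k => ?_, fun j k => ?_,
    ?_, fun j => cm_zv (J1 _) (J2 _), fun j => cm_zv' (J1 _) (J2 _), fun j k hjk => ?_⟩
  · rw [zv_dot]
    simp [hf]
  · rw [zv_dot]
    by_cases hjk : j = k <;> simp [hf, hι, hjk]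
    norm_num
  · rw [e, Matrix.mulVec_smul, cm_zv (J1 _) (J2 _), smul_comm]
  · have h1 := anti_mem hm' (on4 0 (ι j) (hι0 j)) (on4 0 (ι k) (hι0 k))
      (on4 (ι j) (ι k) (fun h => hjk ((hι j k).1 h)))
    have h2 := (LC n 1).smul_mem (ρ * ρ / 2) h1
    have h3 := (T_comm hα (αz j) (αw k)).eq
    have h4 : ∀ v, T α v = ρ • XA (wd v (zv (f (0, false)) (f (0, true)))) := fun v => by
      rw [T, e, wd_smul_right, XA_smul]
    have h5 : T α (zv (f (ι j, false)) (f (ι j, true))) * T α (zv (f (ι k, false)) (-f (ι k, true))) =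
        (1 / 2 : ℂ) • (T α (zv (f (ι j, false)) (f (ι j, true))) * T α (zv (f (ι k, false)) (-f (ι k, true))) +
          T α (zv (f (ι k, false)) (-f (ι k, true))) * T α (zv (f (ι j, false)) (f (ι j, true)))) := by
      rw [← h3]
      module
    rw [h5]
    convert h2 using 1
    simp only [h4, smul_mul_assoc, mul_smul_comm]
    module

end PNil

open PNil in
theorem lp_rank_one (hn : 8 ≤ n) (he : Even n) {l : ℕ} (hl : 2 ≤ l) {α : Fin n → ℂ}
    (hα : α ⬝ᵥ α = 0) :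
    ∃ A₁ A₂ : Pl n →ₗ[ℝ] Pl n, LP n (2 * l - 1) A₁ ∧ LP n (2 * l - 1) A₂ ∧
      (∀ l' < l, ∀ P : Pl n, P.IsHomogeneous l' → A₁ P = 0 ∧ A₂ P = 0) ∧
      ∀ P Q : Pl n, P.IsHomogeneous l → Q.IsHomogeneous l →
        ((fis Q (A₁ P) : ℝ) : ℂ) + Complex.I * ((fis Q (A₂ P) : ℝ) : ℂ) = evC P α * evC Q α := by
  by_cases h0 : α = 0
  · refine ⟨0, 0, LP.zero _, LP.zero _, fun _ _ _ _ => ⟨rfl, rfl⟩, fun P Q hP _ => ?_⟩
    have h1 : fis Q (0 : Pl n) = 0 := by simp [fis]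
    have h2 : evC P α = 0 := by
      rw [h0, evC, aeval_zero, constantCoeff_eq, hP.coeff_eq_zero (by simp; omega), map_zero]
    simp [h1, h2]
  obtain ⟨J, z, w, h⟩ := exists_dat hn he hα h0
  obtain ⟨i, hi⟩ := Function.ne_iff.1 h0
  have hu : (Pi.single i 1 : Fin n → ℂ) ⬝ᵥ α ≠ 0 := by simpa using hi
  obtain ⟨a, e, rfl⟩ : ∃ a e, l = 2 * a + 3 * e := ⟨(l - 3 * (l % 2)) / 2, l % 2, by omega⟩
  obtain ⟨c, hc, hN⟩ := h.NN_pow hu a e
  set l := 2 * a + 3 * e with hl'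
  set s : ℂ := ((Pi.single i 1 : Fin n → ℂ) ⬝ᵥ α) ^ l with hs
  have hs0 : s ≠ 0 := pow_ne_zero _ hu
  have hf0 : (l.factorial : ℂ) ≠ 0 := Nat.cast_ne_zero.2 l.factorial_ne_zero
  obtain ⟨A₁, A₂, h1, h2, hA⟩ := (LC n _).smul_mem (s / (c * l.factorial)) (h.NN_mem (a := a) (e := e) (by omega))
  refine ⟨A₁, A₂, h1, h2, fun l' hl' P hP => ?_, fun P Q hP hQ => ?_⟩
  · apply io_eq_zero
    have := (h.NN_Gf a e (Gf.of_hom (α := α) (hP.map (algebraMap ℝ ℂ)))).eq_zero (by omega)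
    rw [← hA, LinearMap.smul_apply]
    exact smul_eq_zero_of_right _ this
  · obtain ⟨d, g, hg, hPg⟩ := Gf.split hu (hP.map (algebraMap ℝ ℂ))
    have hPg' : io P = d • lf (Pi.single i 1) ^ l + g := hPg
    have h3 : NN α z w a e g = 0 := (h.NN_Gf a e hg).eq_zero (by omega)
    have h4 : evC P α = d * s := by
      rw [← eval_io, hPg', map_add, hg.eval_eq_zero hα one_pos, add_zero, smul_eq_C_mul, map_mul, eval_C,
        map_pow, eval_lf]
    have h5 : fis (io Q) (lf α ^ l) = l.factorial * evC Q α := by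
      rw [fis_comm, ← eval_io]
      exact fis_pow α (hQ.map (algebraMap ℝ ℂ))
    rw [← fis_io, ← fis_io, ← fis_smul_right, ← fis_add_right, ← hA, LinearMap.smul_apply, hPg', map_add,
      h3, add_zero, map_smul, hN, fis_smul_right, fis_smul_right, fis_smul_right, h5, h4]
    field_simp

end Crest.Agent.R202
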