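import Crest.Agent.R202.PNull
import Crest.Agent.R202.PNil
import Crest.Agent.R202.Lie

/-!
# R202/PGen: the operators `X_J²` generate everything

`LP n r A` implies `diagonal (c (d i)^r) * matP d Y A ∈ genL` (induction, `HB.matP_comp`).  For a
null `α` let `v α i = evC (Y i) α` on the block `l`; by `lp_rank_one` the real and imaginary parts
of `v α (v α)ᵀ` are blocks of elements of `genL` vanishing in lower degrees.
`v α · v α' = (α·α')^l / l!` (expand the real and imaginary parts of `(α·x)^l`, `pow_mem_Hm`,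
`fis_pow`).  Brackets give the real and imaginary parts of `v α (v α')ᵀ - v α' (v α)ᵀ` for
`α·α' ≠ 0`; a real antisymmetric `Ω` orthogonal to all of them vanishes (`null_dense`,
`null_vanish` twice), so all antisymmetric matrices are obtained.  If `v α ≠ 0` the real and
imaginary parts of `v α (v α)ᵀ` are symmetric and not both scalar (trace `v α · v α = 0`).
Then `top_of_so`, `block_top`, `gen_of_blocks`.
-/

open scoped Matrix
open MvPolynomial

noncomputable section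

namespace Crest.Agent.R202

section complexify

variable {n : ℕ}

/-- complexification of a real polynomial -/
abbrev pgenC (P : Pl n) : MvPolynomial (Fin n) ℂ := MvPolynomial.map (algebraMap ℝ ℂ) P

theorem pgen_eval (P : Pl n) (α : Fin n → ℂ) : eval α (pgenC P) = evC P α := by
  rw [evC, aeval_def, eval_map]

theorem pgen_lap (P : Pl n) : lapP (pgenC P) = pgenC (lapP P) := by
  simp [lapP_apply, pderiv_map]

theorem pgen_fis (P Q : Pl n) : fis (pgenC P) (pgenC Q) = (fis P Q : ℝ) := by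
  unfold fis
  rw [support_map_of_injective _ (algebraMap ℝ ℂ).injective]
  simp [coeff_map]

theorem pgen_mem {l : ℕ} {P : Pl n} (hP : P ∈ Hm ℝ n l) : pgenC P ∈ Hm ℂ n l := by
  refine ⟨(show P.IsHomogeneous l from hP.1).map _, ?_⟩
  have : lapP P = 0 := hP.2
  show lapP (pgenC P) = 0
  rw [pgen_lap, this]
  exact map_zero _

theorem pgen_part (g : ℂ → ℝ) (hg : g 0 = 0) (P : MvPolynomial (Fin n) ℂ) :
    ∃ Q : Pl n, ∀ s, coeff s Q = g (coeff s P) := by
  classical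
  refine ⟨∑ s ∈ P.support, monomial s (g (coeff s P)), fun s => ?_⟩
  simp only [coeff_sum, coeff_monomial, Finset.sum_ite_eq', mem_support_iff]
  split_ifs with h
  · rfl
  · rw [not_not.1 h, hg]

theorem pgen_split {l : ℕ} {P : MvPolynomial (Fin n) ℂ} (hP : P ∈ Hm ℂ n l) :
    ∃ P₁ ∈ Hm ℝ n l, ∃ P₂ ∈ Hm ℝ n l, P = pgenC P₁ + Complex.I • pgenC P₂ := by
  obtain ⟨P₁, h1⟩ := pgen_part Complex.re rfl P
  obtain ⟨P₂, h2⟩ := pgen_part Complex.im rfl P
  have e : P = pgenC P₁ + Complex.I • pgenC P₂ := by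
    ext s
    simp [coeff_map, h1, h2, mul_comm Complex.I]
  have hh : P.IsHomogeneous l := hP.1
  have hl : lapP P = 0 := hP.2
  rw [e, map_add, map_smul, pgen_lap, pgen_lap] at hl
  have hl' : ∀ s, coeff s (lapP P₁) = 0 ∧ coeff s (lapP P₂) = 0 := fun s => by
    have := congrArg (coeff s) hl
    simpa [coeff_map, Complex.ext_iff] using this
  refine ⟨P₁, ⟨fun s hs => hh fun h0 => hs (by rw [h1, h0]; rfl), ?_⟩,
    P₂, ⟨fun s hs => hh fun h0 => hs (by rw [h2, h0]; rfl), ?_⟩, e⟩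
  · show lapP P₁ = 0
    ext s
    exact (hl' s).1
  · show lapP P₂ = 0
    ext s
    exact (hl' s).2

variable {B : Type} [Fintype B] [DecidableEq B]

/-- real and imaginary part lie in `S` -/
def pgenS (S : Submodule ℝ (Matrix B B ℝ)) (M : Matrix B B ℂ) : Prop :=
  M.map Complex.re ∈ S ∧ M.map Complex.im ∈ S

omit [Fintype B] [DecidableEq B] in
theorem pgenS.smul {S : Submodule ℝ (Matrix B B ℝ)} {M : Matrix B B ℂ} (h : pgenS S M) (z : ℂ) :
    pgenS S (z • M) := by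
  have e1 : (z • M).map Complex.re = z.re • M.map Complex.re - z.im • M.map Complex.im := by
    ext i j; simp
  have e2 : (z • M).map Complex.im = z.re • M.map Complex.im + z.im • M.map Complex.re := by
    ext i j; simp
  exact ⟨e1 ▸ S.sub_mem (S.smul_mem _ h.1) (S.smul_mem _ h.2),
    e2 ▸ S.add_mem (S.smul_mem _ h.2) (S.smul_mem _ h.1)⟩

omit [DecidableEq B] in
theorem pgenS.lie {S : Submodule ℝ (Matrix B B ℝ)} (hS : ∀ X ∈ S, ∀ Y ∈ S, X * Y - Y * X ∈ S)
    {M N : Matrix B B ℂ} (h : pgenS S M) (h' : pgenS S N) : pgenS S (M * N - N * M) := by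
  have e1 : (M * N - N * M).map Complex.re =
      (M.map Complex.re * N.map Complex.re - N.map Complex.re * M.map Complex.re) -
      (M.map Complex.im * N.map Complex.im - N.map Complex.im * M.map Complex.im) := by
    ext i j
    simp [Matrix.mul_apply, Finset.sum_sub_distrib]
    ring
  have e2 : (M * N - N * M).map Complex.im =
      (M.map Complex.re * N.map Complex.im - N.map Complex.im * M.map Complex.re) +
      (M.map Complex.im * N.map Complex.re - N.map Complex.re * M.map Complex.im) := by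
    ext i j
    simp [Matrix.mul_apply, Finset.sum_add_distrib]
    ring
  exact ⟨e1 ▸ S.sub_mem (hS _ h.1 _ h'.1) (hS _ h.2 _ h'.2),
    e2 ▸ S.add_mem (hS _ h.1 _ h'.2) (hS _ h.2 _ h'.1)⟩

theorem pgen_functional (f : Matrix B B ℝ →ₗ[ℝ] ℝ) (M : Matrix B B ℝ) :
    f M = ∑ i, ∑ j, M i j * f (lieE i j) := by
  conv_lhs => rw [lie_eq_sum M]
  simp only [map_sum, map_smul, smul_eq_mul]

/-- all antisymmetric matrices -/
theorem pgen_so {T : Type} (v : T → B → ℂ) (r : T → T → Prop) (S : Submodule ℝ (Matrix B B ℝ))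
    (hS : ∀ X ∈ S, ∀ Y ∈ S, X * Y - Y * X ∈ S) (hv : ∀ α, pgenS S (Matrix.vecMulVec (v α) (v α)))
    (hr : ∀ α α', r α α' → v α ⬝ᵥ v α' ≠ 0)
    (h1 : ∀ a : B → ℂ, (∀ α, a ⬝ᵥ v α = 0) → a = 0)
    (h2 : ∀ α, v α ≠ 0 → ∀ a : B → ℂ, (∀ α', r α α' → a ⬝ᵥ v α' = 0) → a = 0)
    (A : Matrix B B ℝ) (hA : Aᵀ = -A) : A ∈ S := by
  by_contra hn
  obtain ⟨f, hf, hle⟩ := Submodule.exists_le_ker_of_notMem hn
  set ω : B → B → ℝ := fun i j => f (lieE i j) with hω
  have key : ∀ M : Matrix B B ℂ, pgenS S M → ∑ i, ∑ j, M i j * ω i j = 0 := by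
    intro M hM
    have e1 : f (M.map Complex.re) = 0 := hle hM.1
    have e2 : f (M.map Complex.im) = 0 := hle hM.2
    rw [pgen_functional] at e1 e2
    apply Complex.ext
    · simpa using e1
    · simpa using e2
  have k2 : ∀ α α', r α α' →
      (fun j => ∑ i, v α i * ((ω i j : ℂ) - ω j i)) ⬝ᵥ v α' = 0 := by
    intro α α' h
    have h3 := key _ (((hv α).lie hS (hv α')).smul (v α ⬝ᵥ v α')⁻¹)
    rw [Matrix.vecMulVec_mul_vecMulVec, Matrix.vecMulVec_mul_vecMulVec,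
      dotProduct_comm (v α') (v α)] at h3
    have h4 := hr α α' h
    have e : ∀ i j, ((v α ⬝ᵥ v α')⁻¹ • (Matrix.vecMulVec (v α) ((v α ⬝ᵥ v α') • v α') -
        Matrix.vecMulVec (v α') ((v α ⬝ᵥ v α') • v α))) i j * ω i j =
        v α i * v α' j * ω i j - v α j * v α' i * ω i j := by
      intro i j
      simp only [Matrix.smul_apply, Matrix.sub_apply, Matrix.vecMulVec_apply, Pi.smul_apply,
        smul_eq_mul]
      field_simp
    simp only [e, Finset.sum_sub_distrib] at h3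
    rw [Finset.sum_comm] at h3
    rw [← h3, dotProduct, ← Finset.sum_sub_distrib]
    refine Finset.sum_congr rfl fun j _ => ?_
    rw [← Finset.sum_sub_distrib, Finset.sum_mul]
    exact Finset.sum_congr rfl fun i _ => by ring
  have k3 : ∀ j, (fun i => (ω i j : ℂ) - ω j i) = 0 := by
    intro j
    refine h1 _ fun α => ?_
    by_cases h0 : v α = 0
    · rw [h0, dotProduct_zero]
    · have := congrFun (h2 α h0 _ (k2 α)) j
      rw [dotProduct_comm]
      exact this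
  have k4 : ∀ i j, ω i j = ω j i := fun i j => by
    have := congrFun (k3 j) i
    exact_mod_cast sub_eq_zero.1 this
  have e1 := pgen_functional f A
  have e2 : ∑ i, ∑ j, A i j * ω i j = -∑ i, ∑ j, A i j * ω i j := by
    conv_lhs => rw [Finset.sum_comm]
    simp only [← Finset.sum_neg_distrib]
    refine Finset.sum_congr rfl fun i _ => Finset.sum_congr rfl fun j _ => ?_
    have : A j i = -A i j := congrFun (congrFun hA i) j
    rw [this, k4 j i, neg_mul]
  apply hf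
  rw [e1]
  change ∑ i, ∑ j, A i j * ω i j = 0
  linarith

omit [DecidableEq B] in
theorem pgen_nonsc {u : B → ℂ} (hu : u ⬝ᵥ u = 0) {i : B} (hi : u i ≠ 0) :
    ∃ j, (u i * u i).re ≠ (u j * u j).re ∨ (u i * u i).im ≠ (u j * u j).im := by
  by_contra hc
  push Not at hc
  have : u ⬝ᵥ u = Fintype.card B * (u i * u i) := by
    rw [dotProduct, Finset.sum_congr rfl fun j _ => (Complex.ext (hc j).1 (hc j).2).symm]
    simp
  rw [hu] at this
  have h0 : (Fintype.card B : ℂ) ≠ 0 := by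
    exact_mod_cast (Fintype.card_pos_iff.2 ⟨i⟩).ne'
  exact mul_ne_zero h0 (mul_ne_zero hi hi) this.symm

end complexify

section basis

variable {n : ℕ} {J : Mat n} {L : ℕ} {W : Type} [Fintype W] [DecidableEq W] {d : W → ℕ}
  {Y : W → Pl n} {μ : W → ℝ}

/-- the values of the basis of degree `l` -/
def pgenV (d : W → ℕ) (Y : W → Pl n) (l : ℕ) (α : Fin n → ℂ) : {i // d i = l} → ℂ :=
  fun i => evC (Y i) α

theorem pgen_span_real (h : HB J L d Y μ) {l : ℕ} (h2 : 2 ≤ l) (hL : l ≤ L) {P : Pl n}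
    (hP : P ∈ Hm ℝ n l) (α : Fin n → ℂ) :
    evC P α = ∑ i : {i // d i = l}, (fis (Y i) P : ℝ) * pgenV d Y l α i := by
  conv_lhs => rw [h.span l h2 hL P hP]
  have e : ∀ i, evC ((if d i = l then fis (Y i) P else 0) • Y i) α =
      if d i = l then (fis (Y i) P : ℝ) * evC (Y i) α else 0 := fun i => by
    split_ifs <;> simp [evC]
  rw [evC, map_sum]
  change ∑ i, evC _ α = _
  simp only [e]
  rw [← Finset.sum_filter]
  exact Finset.sum_subtype _ (by simp) _

theorem pgen_span (h : HB J L d Y μ) {l : ℕ} (h2 : 2 ≤ l) (hL : l ≤ L)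
    {P : MvPolynomial (Fin n) ℂ} (hP : P ∈ Hm ℂ n l) (α : Fin n → ℂ) :
    eval α P = ∑ i : {i // d i = l}, fis (pgenC (Y i)) P * pgenV d Y l α i := by
  obtain ⟨P₁, h1, P₂, h2', rfl⟩ := pgen_split hP
  rw [map_add, smul_eval, pgen_eval, pgen_eval, pgen_span_real h h2 hL h1,
    pgen_span_real h h2 hL h2', Finset.mul_sum, ← Finset.sum_add_distrib]
  refine Finset.sum_congr rfl fun i _ => ?_
  rw [fis_add_right, fis_smul_right, pgen_fis, pgen_fis]
  ring

theorem pgen_dot (h : HB J L d Y μ) {l : ℕ} (h2 : 2 ≤ l) (hL : l ≤ L) {α : Fin n → ℂ}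
    (hα : α ⬝ᵥ α = 0) (α' : Fin n → ℂ) :
    (l.factorial : ℂ) * (pgenV d Y l α ⬝ᵥ pgenV d Y l α') = (α ⬝ᵥ α') ^ l := by
  have h1 := pgen_span h h2 hL (pow_mem_Hm (R := ℂ) hα l) α'
  have e : eval α' ((∑ i, C (α i) * X i : MvPolynomial (Fin n) ℂ) ^ l) = (α ⬝ᵥ α') ^ l := by
    simp [dotProduct]
  rw [← e, h1, dotProduct, Finset.mul_sum]
  refine Finset.sum_congr rfl fun i _ => ?_
  have hm : Y i ∈ Hm ℝ n l := by
    have := h.mem i
    rwa [i.2] at this
  rw [fis_comm, fis_pow α (pgen_mem hm).1, pgen_eval, mul_assoc]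
  rfl

theorem pgen_inj (hn : 3 ≤ n) (h : HB J L d Y μ) {l : ℕ} (a : {i // d i = l} → ℂ) :
    ((∀ α : Fin n → ℂ, α ⬝ᵥ α = 0 → a ⬝ᵥ pgenV d Y l α = 0) → a = 0) ∧
    ∀ α₀ : Fin n → ℂ, α₀ ≠ 0 → α₀ ⬝ᵥ α₀ = 0 →
      (∀ α : Fin n → ℂ, α ⬝ᵥ α = 0 → α₀ ⬝ᵥ α ≠ 0 → a ⬝ᵥ pgenV d Y l α = 0) → a = 0 := by
  set P : MvPolynomial (Fin n) ℂ := ∑ i : {i // d i = l}, a i • pgenC (Y i) with hP
  have e : ∀ α, eval α P = a ⬝ᵥ pgenV d Y l α := fun α => by
    rw [hP, map_sum]
    exact Finset.sum_congr rfl fun i _ => by rw [smul_eval, pgen_eval]; rfl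
  have h1 : (∀ α : Fin n → ℂ, α ⬝ᵥ α = 0 → a ⬝ᵥ pgenV d Y l α = 0) → a = 0 := by
    intro ha
    have h0 : P = 0 := null_vanish (by omega) (by
      rw [hP, map_sum]
      refine Finset.sum_eq_zero fun i _ => ?_
      have : lapP (pgenC (Y i)) = 0 := (pgen_mem (h.mem i)).2
      rw [map_smul, this, smul_zero]) fun α hα => (e α).trans (ha α hα)
    funext j
    have h2 : fis (pgenC (Y j)) P = a j := by
      rw [hP, fis_sum_right]
      simp only [fis_smul_right, pgen_fis, h.orth, Subtype.val_inj]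
      simp [apply_ite]
    rw [← h2, h0]
    simp [fis]
  exact ⟨h1, fun α₀ h0 hα₀ ha => h1 fun α hα => (e α).symm.trans
    (null_dense hn h0 hα₀ (fun α' h1 h2 => (e α').trans (ha α' h1 h2)) α hα)⟩

theorem pgen_diag (𝒳 : Set (Matrix W W ℝ)) (c : ℕ → ℝ) :
    Matrix.diagonal (fun i => c (d i)) ∈ genL d 𝒳 := by
  have : Matrix.diagonal (fun i => c (d i)) = ∑ l ∈ Finset.univ.image d, c l • prD d l := by
    ext i j
    simp only [prD, Matrix.sum_apply, Matrix.smul_apply, Matrix.diagonal_apply, smul_eq_mul]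
    split_ifs with hij
    · simp
    · simp
  rw [this]
  exact Submodule.sum_mem _ fun l _ => Submodule.smul_mem _ _ (prD_mem_genL d 𝒳 l)

theorem pgen_comm (c : ℕ → ℝ) {M : Matrix W W ℝ} (hM : Blk d M) :
    M * Matrix.diagonal (fun i => c (d i)) = Matrix.diagonal (fun i => c (d i)) * M := by
  ext i j
  rw [Matrix.mul_diagonal, Matrix.diagonal_mul]
  by_cases hij : d i = d j
  · rw [hij, mul_comm]
  · rw [hM i j hij, zero_mul, mul_zero]

omit [Fintype W] [DecidableEq W] in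
theorem pgen_matP_add (A A' : Pl n →ₗ[ℝ] Pl n) : matP d Y (A + A') = matP d Y A + matP d Y A' := by
  ext i j
  simp only [matP, Matrix.add_apply, LinearMap.add_apply, fis_add_right]
  split_ifs <;> simp

omit [Fintype W] [DecidableEq W] in
theorem pgen_matP_smul (c : ℝ) (A : Pl n →ₗ[ℝ] Pl n) : matP d Y (c • A) = c • matP d Y A := by
  ext i j
  simp only [matP, Matrix.smul_apply, LinearMap.smul_apply, fis_smul_right]
  split_ifs <;> simp

theorem pgen_LP (h : HB J L d Y μ) (c : ℕ → ℝ) {𝒳 : Set (Matrix W W ℝ)}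
    (h0 : ∀ J', IsCx J' → Matrix.diagonal (fun i => c (d i)) * matP d Y (XA J' ∘ₗ XA J') ∈ genL d 𝒳)
    {r : ℕ} {A : Pl n →ₗ[ℝ] Pl n} (hA : LP n r A) :
    Matrix.diagonal (fun i => c (d i) ^ r) * matP d Y A ∈ genL d 𝒳 := by
  induction hA with
  | base hJ => simpa only [pow_one] using h0 _ hJ
  | zero r =>
    rw [← zero_smul ℝ (0 : Pl n →ₗ[ℝ] Pl n), pgen_matP_smul, zero_smul, mul_zero]
    exact Submodule.zero_mem _
  | add _ _ ih ih' => rw [pgen_matP_add, mul_add]; exact Submodule.add_mem _ ih ih'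
  | smul a _ ih => rw [pgen_matP_smul, Matrix.mul_smul]; exact Submodule.smul_mem _ _ ih
  | @lie r s A A' hA hA' ih ih' =>
    have h1 := genL_lie ih ih'
    have e0 : matP d Y (A ∘ₗ A' - A' ∘ₗ A) = matP d Y A * matP d Y A' - matP d Y A' * matP d Y A := by
      rw [sub_eq_add_neg, ← neg_one_smul ℝ (A' ∘ₗ A), pgen_matP_add, pgen_matP_smul,
        h.matP_comp A fun l P hP => hA'.mem_Hm hP, h.matP_comp A' fun l P hP => hA.mem_Hm hP,
        neg_one_smul, ← sub_eq_add_neg]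
    have e : ∀ (r s : ℕ) (A A' : Pl n →ₗ[ℝ] Pl n),
        Matrix.diagonal (fun i => c (d i) ^ r) * matP d Y A *
          (Matrix.diagonal (fun i => c (d i) ^ s) * matP d Y A') =
        Matrix.diagonal (fun i => c (d i) ^ (r + s)) * (matP d Y A * matP d Y A') := by
      intro r s A A'
      rw [mul_assoc, ← mul_assoc (matP d Y A), pgen_comm (fun l => c l ^ s) (blk_matP A),
        mul_assoc, ← mul_assoc, Matrix.diagonal_mul_diagonal]
      simp only [pow_add]
    rw [e, e, add_comm s r, ← mul_sub, ← e0] at h1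
    exact h1

theorem pgen_rank_one (hn : 8 ≤ n) (he : Even n) (h : HB J L d Y μ) (c : ℕ → ℝ)
    {𝒳 : Set (Matrix W W ℝ)}
    (h0 : ∀ J', IsCx J' → Matrix.diagonal (fun i => c (d i)) * matP d Y (XA J' ∘ₗ XA J') ∈ genL d 𝒳)
    {l : ℕ} (hl : 2 ≤ l) (hc : c l ≠ 0) {α : Fin n → ℂ} (hα : α ⬝ᵥ α = 0) :
    ∃ X₁ ∈ genL d 𝒳, ∃ X₂ ∈ genL d 𝒳, (∀ j k, d j < l → X₁ j k = 0 ∧ X₂ j k = 0) ∧
      ∀ i j, d i = l → d j = l → X₁ i j = (evC (Y i) α * evC (Y j) α).re ∧
        X₂ i j = (evC (Y i) α * evC (Y j) α).im := by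
  obtain ⟨A₁, A₂, h1, h2, h3, h4⟩ := lp_rank_one hn he hl hα
  have hκ : c l ^ (2 * l - 1) ≠ 0 := pow_ne_zero _ hc
  refine ⟨_, Submodule.smul_mem _ (c l ^ (2 * l - 1))⁻¹ (pgen_LP h c h0 h1),
    _, Submodule.smul_mem _ (c l ^ (2 * l - 1))⁻¹ (pgen_LP h c h0 h2), fun j k hj => ?_,
    fun i j hi hj => ?_⟩
  · simp only [Matrix.smul_apply, Matrix.diagonal_mul, matP]
    split_ifs with hjk
    · obtain ⟨e1, e2⟩ := h3 (d k) (hjk ▸ hj) (Y k) (h.mem k).1
      simp [e1, e2, fis]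
    · simp
  · have h5 := h4 (Y j) (Y i) (hj ▸ (h.mem j).1) (hi ▸ (h.mem i).1)
    rw [mul_comm (evC (Y j) α)] at h5
    simp only [Matrix.smul_apply, Matrix.diagonal_mul, matP, hi, hj, if_true, smul_eq_mul,
      inv_mul_cancel_left₀ hκ, ← h5]
    simp

end basis

theorem gen10 {n : ℕ} (hn : 8 ≤ n) (he : Even n) {J : Mat n} {L : ℕ} {W : Type} [Fintype W]
    [DecidableEq W] {d : W → ℕ} {Y : W → Pl n} {μ : W → ℝ} (h : HB J L d Y μ) (c c' : ℕ → ℝ)
    (hc : ∀ i, c (d i) ≠ 0) :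
    Gen d {X | ∃ J', IsCx J' ∧ X = Matrix.diagonal (fun i => c' (d i))
      + Matrix.diagonal (fun i => c (d i)) * matP d Y (XA J' ∘ₗ XA J')} := by
  set 𝒳 : Set (Matrix W W ℝ) := {X | ∃ J', IsCx J' ∧ X = Matrix.diagonal (fun i => c' (d i))
      + Matrix.diagonal (fun i => c (d i)) * matP d Y (XA J' ∘ₗ XA J')} with h𝒳
  have hB : ∀ X ∈ 𝒳, Blk d X := by
    rintro _ ⟨J', -, rfl⟩ i j hij
    rw [Matrix.add_apply, Matrix.diagonal_mul, blk_matP _ i j hij,
      Matrix.diagonal_apply_ne _ fun e => hij (by rw [e]), mul_zero, add_zero]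
  have h0 : ∀ J', IsCx J' →
      Matrix.diagonal (fun i => c (d i)) * matP d Y (XA J' ∘ₗ XA J') ∈ genL d 𝒳 := fun J' hJ' => by
    have := Submodule.sub_mem _ (mem_genL (d := d) (𝒳 := 𝒳) ⟨J', hJ', rfl⟩) (pgen_diag 𝒳 c')
    rwa [add_sub_cancel_left] at this
  have hex : ∀ i, ∃ α : Fin n → ℂ, α ⬝ᵥ α = 0 ∧ evC (Y i) α ≠ 0 ∧ ∃ j, d j = d i ∧
      ((evC (Y i) α * evC (Y i) α).re ≠ (evC (Y j) α * evC (Y j) α).re ∨
        (evC (Y i) α * evC (Y i) α).im ≠ (evC (Y j) α * evC (Y j) α).im) := by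
    intro i
    obtain ⟨α, hα, hv⟩ : ∃ α : Fin n → ℂ, α ⬝ᵥ α = 0 ∧ pgenV d Y (d i) α ⟨i, rfl⟩ ≠ 0 := by
      by_contra hc'
      push Not at hc'
      have := (pgen_inj (by omega) h (Pi.single (⟨i, rfl⟩ : {j // d j = d i}) 1)).1
        fun α hα => by rw [single_dotProduct, one_mul, hc' α hα]
      simpa using congrFun this ⟨i, rfl⟩
    have h1 := pgen_dot h (h.deg i).1 (h.deg i).2 hα α
    rw [hα, zero_pow (by have := (h.deg i).1; omega), mul_eq_zero] at h1
    obtain ⟨j, hj⟩ := pgen_nonsc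
      (h1.resolve_left (by exact_mod_cast (Nat.factorial_ne_zero _))) hv
    exact ⟨α, hα, hv, j, j.2, hj⟩
  refine gen_of_blocks hB (fun l A => ?_) fun i => ?_
  · by_cases hl : ∃ i, d i = l
    swap
    · exact ⟨0, Submodule.zero_mem _, fun i j hi _ => absurd ⟨i, hi⟩ hl⟩
    obtain ⟨i, rfl⟩ := hl
    obtain ⟨h2, hL⟩ := h.deg i
    refine block_top hB (d i) (fun S hS h1 hX => ?_) A
    have hv : ∀ α : Fin n → ℂ, α ⬝ᵥ α = 0 →
        pgenS S (Matrix.vecMulVec (pgenV d Y (d i) α) (pgenV d Y (d i) α)) := by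
      intro α hα
      obtain ⟨X₁, m1, X₂, m2, -, e⟩ := pgen_rank_one hn he h c h0 h2 (hc i) hα
      refine ⟨?_, ?_⟩
      · convert hX X₁ m1 using 1
        ext j k
        exact (e j k j.2 k.2).1.symm
      · convert hX X₂ m2 using 1
        ext j k
        exact (e j k j.2 k.2).2.symm
    have hso : ∀ A : Matrix {j // d j = d i} {j // d j = d i} ℝ, Aᵀ = -A → A ∈ S := by
      refine pgen_so (T := {α : Fin n → ℂ // α ⬝ᵥ α = 0}) (fun α => pgenV d Y (d i) α)
        (fun α α' => α.1 ⬝ᵥ α'.1 ≠ 0) S hS (fun α => hv α α.2) (fun α α' hr e => ?_)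
        (fun a ha => (pgen_inj (by omega) h a).1 fun α hα => ha ⟨α, hα⟩) fun α hα a ha => ?_
      · have := pgen_dot h h2 hL α.2 α'
        rw [e, mul_zero] at this
        exact pow_ne_zero _ hr this.symm
      · refine (pgen_inj (by omega) h a).2 α (fun e => hα ?_) α.2 fun α' h1 h3 => ha ⟨α', h1⟩ h3
        refine (pgen_inj (by omega) h _).1 fun α' _ => ?_
        have := pgen_dot h h2 hL α.2 α'
        rw [e, zero_dotProduct, zero_pow (by omega), mul_eq_zero] at this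
        rw [e]
        exact this.resolve_left (by exact_mod_cast (Nat.factorial_ne_zero _))
    obtain ⟨α, hα, -, j, hj, hne⟩ := hex i
    have hsym : ∀ g : ℂ → ℝ, ((Matrix.vecMulVec (pgenV d Y (d i) α) (pgenV d Y (d i) α)).map g)ᵀ =
        (Matrix.vecMulVec (pgenV d Y (d i) α) (pgenV d Y (d i) α)).map g := fun g => by
      ext j k
      simp [Matrix.vecMulVec_apply, mul_comm]
    rcases hne with hne | hne
    · exact top_of_so S hS hso h1 (hv α hα).1 (hsym _) ⟨⟨i, rfl⟩, ⟨j, hj⟩, Or.inr hne⟩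
    · exact top_of_so S hS hso h1 (hv α hα).2 (hsym _) ⟨⟨i, rfl⟩, ⟨j, hj⟩, Or.inr hne⟩
  · obtain ⟨α, hα, -, j, hj, hne⟩ := hex i
    obtain ⟨X₁, m1, X₂, m2, e0, e⟩ := pgen_rank_one hn he h c h0 (h.deg i).1 (hc i) hα
    rcases hne with hne | hne
    · refine ⟨X₁, m1, fun j k hjk => (e0 j k hjk).1, i, j, rfl, hj, Or.inr ?_⟩
      rwa [(e i i rfl rfl).1, (e j j hj hj).1]
    · refine ⟨X₂, m2, fun j k hjk => (e0 j k hjk).2, i, j, rfl, hj, Or.inr ?_⟩
      rwa [(e i i rfl rfl).2, (e j j hj hj).2]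

end Crest.Agent.R202
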