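import Crest.Agent.R202.PBasic

/-!
# R202/PNull: harmonic polynomials are determined by their values on the null cone

`null_vanish`: divide by `q = Σ xᵢ²` as a monic quadratic in the first variable
(`MvPolynomial.finSuccEquiv`, `Polynomial.modByMonic`): `P = q S + r₁ x₀ + r₀`.  For every
`x' ∈ ℂⁿ⁻¹` both roots `± s` of `s² = -x'·x'` give `r₀ ± s r₁ = 0`, so `r₀ = 0`, `(x'·x') r₁ = 0`,
`r₁ = 0` (`MvPolynomial.funext`).  With `P̄` the conjugate polynomial (`map (starRingEnd ℂ)`, also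
harmonic) `Σ α! |coeff|² = fis P P̄ = fis (q S) P̄ = fis S (lapP P̄) = 0`.
`null_dense`: for a null `α ≠ 0` choose `u₀` with `u₀·α = 0`, `u₀·u₀ ≠ 0`, and `u₁` with
`u₁·α ≠ 0`, `u₁·α₀ ≠ 0`; with `u = u₀ + t u₁` the curve `(u·u) α - 2 (u·α) u` is null, polynomial in
`t`, equals `(u₀·u₀) α` at `t = 0`; rescale by `(u₀·u₀)⁻¹`.  Its product with `α₀` is a non-zero
polynomial in `t` when `α₀·α = 0`.  For `α = 0` use `t ↦ t • conj α₀`.
-/

open scoped Matrix ComplexOrder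
open MvPolynomial

noncomputable section

namespace Crest.Agent.R202

variable {n : ℕ}

theorem PNull_dvd (hn : 2 ≤ n) {P : MvPolynomial (Fin n) ℂ}
    (h : ∀ α : Fin n → ℂ, α ⬝ᵥ α = 0 → eval α P = 0) : (∑ i, X i * X i) ∣ P := by
  obtain ⟨m, rfl⟩ : ∃ m, n = m + 1 := ⟨n - 1, by omega⟩
  set q : MvPolynomial (Fin m) ℂ := ∑ j, X j * X j with hq
  have hq0 : q ≠ 0 := fun h0 => by
    have := congrArg (eval fun _ => (1 : ℂ)) h0
    simp [hq] at this
    omega
  set Q : Polynomial (MvPolynomial (Fin m) ℂ) := Polynomial.X ^ 2 + Polynomial.C q with hQ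
  have hQm : Q.Monic := Polynomial.monic_X_pow_add_C _ two_ne_zero
  have hQd : Q.degree = 2 := Polynomial.degree_X_pow_add_C two_pos _
  set F := finSuccEquiv ℂ m P with hF
  have hdeg : (F %ₘ Q).degree ≤ 1 := by
    have := Polynomial.degree_modByMonic_lt F hQm
    rw [hQd] at this
    exact Order.le_of_lt_succ this
  have hr := Polynomial.eq_X_add_C_of_degree_le_one hdeg
  set r1 := (F %ₘ Q).coeff 1
  set r0 := (F %ₘ Q).coeff 0
  have key : ∀ (x : Fin m → ℂ) (s : ℂ), s ^ 2 = -eval x q → eval x r1 * s + eval x r0 = 0 := by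
    intro x s hs
    have h1 := h (Fin.cons s x) (by
      simp only [dotProduct, Fin.sum_univ_succ, Fin.cons_zero, Fin.cons_succ]
      rw [← sq, hs]
      simp [hq])
    rw [eval_eq_eval_mv_eval', ← hF, ← Polynomial.modByMonic_add_div F Q, hr] at h1
    simpa [hQ, hs] using h1
  have key2 : ∀ x : Fin m → ℂ, eval x r0 = 0 ∧ eval x (q * r1) = 0 := by
    intro x
    obtain ⟨s, hs⟩ := IsAlgClosed.exists_pow_nat_eq (-eval x q) two_pos
    have h1 := key x s hs
    have h2 := key x (-s) (by rw [neg_sq, hs])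
    refine ⟨by linear_combination (h1 + h2) / 2, ?_⟩
    rw [map_mul]
    linear_combination (eval x r1) * hs - s * (h1 - h2) / 2
  have h0 : r0 = 0 := MvPolynomial.funext fun x => by simpa using (key2 x).1
  have h1 : r1 = 0 :=
    (mul_eq_zero.1 (MvPolynomial.funext fun x => by simpa using (key2 x).2)).resolve_left hq0
  rw [h0, h1] at hr
  have hdvd : Q ∣ F := (Polynomial.modByMonic_eq_zero_iff_dvd hQm).1 (by simpa using hr)
  have e : finSuccEquiv ℂ m (∑ i, X i * X i) = Q := by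
    simp [Fin.sum_univ_succ, finSuccEquiv_X_zero, finSuccEquiv_X_succ, hQ, hq, sq]
  rwa [← e, hF, map_dvd_iff] at hdvd

theorem null_vanish (hn : 2 ≤ n) {P : MvPolynomial (Fin n) ℂ} (hP : lapP P = 0)
    (h : ∀ α : Fin n → ℂ, α ⬝ᵥ α = 0 → eval α P = 0) : P = 0 := by
  obtain ⟨S, hS⟩ := PNull_dvd hn h
  have h1 : fis P (map (starRingEnd ℂ) P) = 0 := by
    have h2 : lapP (map (starRingEnd ℂ) P) = 0 := by
      rw [lapP_apply] at hP ⊢
      simp only [pderiv_map]
      rw [← map_sum, hP, map_zero]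
    generalize map (starRingEnd ℂ) P = Q at h2
    rw [hS, Finset.sum_mul, fis_comm, fis_sum_right]
    simp only [fis_comm Q, mul_assoc, fis_X_mul]
    rw [← fis_sum_right, ← lapP_apply, h2]
    simp [fis]
  have h3 : ∑ α ∈ P.support, (∏ i, ((α i).factorial : ℝ)) * Complex.normSq (coeff α P) = 0 := by
    rw [← Complex.ofReal_eq_zero, ← h1, fis]
    push_cast
    refine Finset.sum_congr rfl fun α _ => ?_
    rw [coeff_map, mul_assoc, Complex.mul_conj]
  rw [Finset.sum_eq_zero_iff_of_nonneg fun α _ =>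
    mul_nonneg (by positivity) (Complex.normSq_nonneg _)] at h3
  ext α
  by_contra hc
  have h4 := h3 α (mem_support_iff.2 hc)
  rcases mul_eq_zero.1 h4 with h5 | h5
  · exact absurd h5 (by positivity)
  · exact hc (Complex.normSq_eq_zero.1 h5)

theorem PNull_curve {P : MvPolynomial (Fin n) ℂ} {α₀ α v w : Fin n → ℂ}
    (h : ∀ α : Fin n → ℂ, α ⬝ᵥ α = 0 → α₀ ⬝ᵥ α ≠ 0 → eval α P = 0) (hα : α ⬝ᵥ α = 0)
    (h0 : α₀ ⬝ᵥ α = 0) (h1 : α ⬝ᵥ v = 0) (h2 : v ⬝ᵥ v + 2 * α ⬝ᵥ w = 0) (h3 : v ⬝ᵥ w = 0)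
    (h4 : w ⬝ᵥ w = 0) (h5 : α₀ ⬝ᵥ v ≠ 0 ∨ α₀ ⬝ᵥ w ≠ 0) : eval α P = 0 := by
  set p : Polynomial ℂ := aeval (fun i => Polynomial.C (α i) + Polynomial.C (v i) * Polynomial.X +
    Polynomial.C (w i) * Polynomial.X ^ 2) P with hp
  have hpe : ∀ t : ℂ, p.eval t = eval (α + t • v + t ^ 2 • w) P := fun t => by
    rw [hp, ← Polynomial.coe_aeval_eq_eval, ← AlgHom.comp_apply, comp_aeval]
    change aeval _ P = aeval _ P
    congr 2
    funext i
    simp
    ring
  set g : Polynomial ℂ := Polynomial.C (α₀ ⬝ᵥ v) * Polynomial.X +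
    Polynomial.C (α₀ ⬝ᵥ w) * Polynomial.X ^ 2 with hg
  have hg0 : g ≠ 0 := fun h6 => by
    have a1 := congrArg (Polynomial.coeff · 1) h6
    have a2 := congrArg (Polynomial.coeff · 2) h6
    simp [hg] at a1 a2
    exact h5.elim (· a1) (· a2)
  have hpg : p * g = 0 := Polynomial.funext fun t => by
    rw [Polynomial.eval_mul, hpe, Polynomial.eval_zero, mul_eq_zero, or_iff_not_imp_right]
    refine fun h6 => h _ ?_ fun h7 => h6 ?_
    · simp only [dotProduct_add, add_dotProduct, dotProduct_smul, smul_dotProduct, smul_eq_mul,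
        dotProduct_comm v α, dotProduct_comm w α, dotProduct_comm w v, hα, h1, h3, h4]
      linear_combination t ^ 2 * h2
    · simp only [dotProduct_add, dotProduct_smul, smul_eq_mul, h0] at h7
      simp only [hg, Polynomial.eval_add, Polynomial.eval_mul, Polynomial.eval_C, Polynomial.eval_X,
        Polynomial.eval_pow]
      linear_combination h7
  have := hpe 0
  rw [(mul_eq_zero.1 hpg).resolve_right hg0] at this
  simpa using this.symm

theorem null_dense (hn : 3 ≤ n) {P : MvPolynomial (Fin n) ℂ} {α₀ : Fin n → ℂ} (h0 : α₀ ≠ 0)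
    (hα₀ : α₀ ⬝ᵥ α₀ = 0) (h : ∀ α : Fin n → ℂ, α ⬝ᵥ α = 0 → α₀ ⬝ᵥ α ≠ 0 → eval α P = 0)
    (α : Fin n → ℂ) (hα : α ⬝ᵥ α = 0) : eval α P = 0 := by
  by_cases h1 : α₀ ⬝ᵥ α = 0
  swap
  · exact h α hα h1
  have hstar : ∀ {x : Fin n → ℂ}, x ⬝ᵥ x = 0 → star x ⬝ᵥ star x = 0 := fun {x} hx => by
    rw [Matrix.star_dotProduct_star, hx, star_zero]
  by_cases hz : α = 0
  · subst hz
    exact PNull_curve (v := star α₀) (w := 0) h hα h1 (by simp) (by simpa using hstar hα₀) (by simp)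
      (by simp) (Or.inl fun h2 => h0 (dotProduct_self_star_eq_zero.1 h2))
  set β := star α with hβ
  have hββ : β ⬝ᵥ β = 0 := hstar hα
  have hk : α ⬝ᵥ β ≠ 0 := fun h2 => hz (dotProduct_self_star_eq_zero.1 h2)
  set k := α ⬝ᵥ β with hkdef
  have hk' : β ⬝ᵥ α = k := dotProduct_comm _ _
  set pr : (Fin n → ℂ) → Fin n → ℂ := fun u => u - (β ⬝ᵥ u / k) • α - (α ⬝ᵥ u / k) • β with hpr
  have p1 : ∀ u, α ⬝ᵥ pr u = 0 := fun u => by
    simp only [hpr, dotProduct_sub, dotProduct_smul, hα, ← hkdef, smul_eq_mul]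
    field_simp
    ring
  have p2 : ∀ u, pr u ⬝ᵥ β = 0 := fun u => by
    rw [dotProduct_comm]
    simp only [hpr, dotProduct_sub, dotProduct_smul, hββ, hk', smul_eq_mul]
    field_simp
    ring
  have p3 : ∀ u, pr u ⬝ᵥ pr u = u ⬝ᵥ u - 2 * ((α ⬝ᵥ u) * (β ⬝ᵥ u)) / k := fun u => by
    have : pr u ⬝ᵥ pr u = pr u ⬝ᵥ u := by
      conv_lhs => rw [hpr]
      simp only [dotProduct_sub, dotProduct_smul, smul_eq_mul]
      rw [show (u - (β ⬝ᵥ u / k) • α - (α ⬝ᵥ u / k) • β) = pr u from rfl, p2,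
        dotProduct_comm (pr u) α, p1]
      ring
    rw [this]
    simp only [hpr, sub_dotProduct, smul_dotProduct, smul_eq_mul]
    ring
  by_contra hc
  have hall : ∀ u, α₀ ⬝ᵥ pr u = 0 ∧ -(pr u ⬝ᵥ pr u) / (2 * k) * (α₀ ⬝ᵥ β) = 0 := fun u => by
    by_contra h2
    refine hc (PNull_curve (v := pr u) (w := (-(pr u ⬝ᵥ pr u) / (2 * k)) • β) h hα h1 (p1 u) ?_ ?_ ?_
      ?_)
    · rw [dotProduct_smul, ← hkdef, smul_eq_mul]
      field_simp
      ring
    · rw [dotProduct_smul, p2, smul_zero]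
    · rw [dotProduct_smul, smul_dotProduct, hββ, smul_zero, smul_zero]
    · rwa [dotProduct_smul, smul_eq_mul, ← not_and_or]
  have h2 : α₀ ⬝ᵥ β ≠ 0 := fun h3 => h0 (funext fun i => by
    have := (hall (Pi.single i 1)).1
    simpa [hpr, dotProduct_sub, dotProduct_smul, h1, h3] using this)
  have h3 : ∀ i, 1 - 2 * (α i * β i) / k = 0 := fun i => by
    have h4 := (mul_eq_zero.1 (hall (Pi.single i 1)).2).resolve_right h2
    rw [div_eq_zero_iff, neg_eq_zero, p3] at h4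
    simpa [hk] using h4
  have h4 := Finset.sum_eq_zero (s := Finset.univ) fun i _ => h3 i
  rw [Finset.sum_sub_distrib, ← Finset.sum_div, ← Finset.mul_sum,
    show ∑ i, α i * β i = k from rfl, mul_div_cancel_right₀ _ hk, sub_eq_zero] at h4
  have h5 : (n : ℂ) = 2 := by simpa using h4
  have h6 : n = 2 := by exact_mod_cast h5
  omega

end Crest.Agent.R202
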