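import Crest.Agent.R202.Jet
import Crest.Agent.R72.Deriv

/-!
# R202/Radial: curvature in the radial direction for metrics with `g y y = y`

Let `g y *ᵥ y = y` near `x`.  Differentiating, `Σⱼ ∂ᵢ g_{lj} yʲ = δ_{il} - g_{il}`, hence
`Σₖ Γˡⱼₖ(y) yᵏ = (½ g⁻¹ ġ)ˡⱼ` with `ġ = Dg(y)[y]` (`shp`).  Differentiating once more,
`Σₖ Rˡₖᵢⱼ xᵏ = ∂ᵢ Sˡⱼ - ∂ⱼ Sˡᵢ + Γˡᵢₐ Sᵃⱼ - Γˡⱼₐ Sᵃᵢ - (Γˡⱼᵢ - Γˡᵢⱼ)` with `S = shp g`
(`riemann_radial`).  Contracting with `xʲ`, using `S x = 0`, `Σⱼ ∂ᵢ Sˡⱼ xʲ = -Sˡᵢ`,
`Γˡⱼₐ xʲ = Sˡₐ`: `R(u,x)x = (-S - Ṡ - S²) u`, and with `G(t) = g(t x)`, `S(tx) = ½ t G⁻¹ G'`: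
`R(u,x)x = (-G⁻¹G₁ + ¼ (G⁻¹G₁)² - ½ G⁻¹G₂) u`, `G₁ = rd1`, `G₂ = rd2`.
-/

open scoped ContDiff Topology Matrix RealInnerProductSpace
open Set Filter
open Crest.GeometryTopology.CoordMetric Crest.GeometryTopology.ChartCurvature

noncomputable section

namespace Crest.Agent.R202

variable {n : ℕ}

/-- `½ g⁻¹ Dg(y)[y]` -/
def shp (g : MetricField n) (y : E n) : Mat n :=
  (1 / 2 : ℝ) • ((g y)⁻¹ * Matrix.of fun i j => fderiv ℝ (fun z => g z i j) y y)

theorem radial_smooth {g : MetricField n} {x : E n} (h : RiemAt g x) (i j : Fin n) :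
    ContDiffAt ℝ ∞ (fun y => g y i j) x := by
  obtain ⟨U, hx, hU⟩ := h
  exact (hU.contDiffOn i j).contDiffAt (hU.isOpen.mem_nhds hx)

theorem radial_diff {g : MetricField n} {x : E n} (h : RiemAt g x) (i j : Fin n) :
    DifferentiableAt ℝ (fun y => g y i j) x :=
  (radial_smooth h i j).differentiableAt (by simp)

theorem radial_posDef {g : MetricField n} {x : E n} (h : RiemAt g x) : (g x).PosDef := by
  obtain ⟨U, hx, hU⟩ := h
  exact hU.posDef x hx

theorem radial_unit {g : MetricField n} {x : E n} (h : RiemAt g x) : IsUnit (g x).det :=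
  (radial_posDef h).det_pos.ne'.isUnit

theorem radial_symm {g : MetricField n} {x : E n} (h : RiemAt g x) (i j : Fin n) :
    g x i j = g x j i := by
  simpa using ((radial_posDef h).1.apply i j).symm

theorem radial_fderiv_symm {g : MetricField n} {x : E n} (h : RiemAt g x) (i j : Fin n) :
    fderiv ℝ (fun y => g y i j) x = fderiv ℝ (fun y => g y j i) x :=
  Filter.EventuallyEq.fderiv_eq (h.eventually.mono fun _ hy => radial_symm hy i j)

theorem radial_fderiv_sum (f : E n → ℝ) (y u : E n) :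
    fderiv ℝ f y u = ∑ l, pderiv l f y * u l := by
  have hu : u = ∑ l, u l • (EuclideanSpace.single l (1 : ℝ) : E n) := by
    ext k; simp [Pi.single_apply]
  conv_lhs => rw [hu]
  simp [pderiv, mul_comm]

theorem radial_coord (j : Fin n) (x : E n) :
    HasFDerivAt (fun y : E n => y j) (EuclideanSpace.proj j : E n →L[ℝ] ℝ) x :=
  (EuclideanSpace.proj j : E n →L[ℝ] ℝ).hasFDerivAt

/-- product rule for `Σₖ fₖ(y) yᵏ` -/
theorem radial_pderiv_sum {f : Fin n → E n → ℝ} {x : E n} (hf : ∀ k, DifferentiableAt ℝ (f k) x)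
    (i : Fin n) :
    pderiv i (fun y => ∑ k, f k y * y k) x = ∑ k, pderiv i (f k) x * x k + f i x := by
  unfold pderiv
  rw [(HasFDerivAt.fun_sum fun k _ => (hf k).hasFDerivAt.fun_mul (radial_coord k x)).fderiv]
  simp only [sum_apply, add_apply, smul_apply, smul_eq_mul, Finset.sum_add_distrib]
  rw [add_comm]
  congr 1
  · exact Finset.sum_congr rfl fun k _ => mul_comm _ _
  · simp

theorem radial_pderiv_congr {f f' : E n → ℝ} {x : E n} (h : f =ᶠ[𝓝 x] f') (i : Fin n) :
    pderiv i f x = pderiv i f' x := by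
  unfold pderiv
  rw [h.fderiv_eq]

theorem radial_d1 {g : MetricField n} {x : E n} (h : RiemAt g x)
    (hr : ∀ᶠ y in 𝓝 x, mv (g y) y = y) (l i : Fin n) :
    ∑ j, pderiv i (fun y => g y l j) x * x j = (1 : Mat n) l i - g x l i := by
  have h1 := radial_pderiv_sum (f := fun j y => g y l j) (fun j => radial_diff h l j) i
  have h2 : (fun y : E n => ∑ k, g y l k * y k) =ᶠ[𝓝 x] fun y => y l :=
    hr.mono fun y hy => congrArg (fun z : E n => z l) hy
  rw [radial_pderiv_congr h2] at h1
  have h3 : pderiv i (fun y : E n => y l) x = (1 : Mat n) l i := by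
    unfold pderiv
    rw [(radial_coord l x).fderiv]
    simp [Matrix.one_apply]
  rw [h3] at h1
  linarith

theorem christoffel_radial {g : MetricField n} {x : E n} (h : RiemAt g x)
    (hr : ∀ᶠ y in 𝓝 x, mv (g y) y = y) (l j : Fin n) :
    ∑ k, christoffel g x l j k * x k = shp g x l j := by
  have h1 : ∀ m, ∑ k, (pderiv j (fun y => g y k m) x + pderiv k (fun y => g y j m) x -
      pderiv m (fun y => g y j k) x) * x k = fderiv ℝ (fun z => g z m j) x x := by
    intro m
    have a1 : ∑ k, pderiv j (fun y => g y k m) x * x k = (1 : Mat n) m j - g x m j := by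
      rw [← radial_d1 h hr m j]
      refine Finset.sum_congr rfl fun k _ => ?_
      unfold pderiv
      rw [radial_fderiv_symm h k m]
    have a2 := radial_d1 h hr j m
    have a3 : (1 : Mat n) m j = (1 : Mat n) j m := by simp [Matrix.one_apply, eq_comm]
    simp only [add_mul, sub_mul, Finset.sum_add_distrib, Finset.sum_sub_distrib]
    rw [a1, a2, ← radial_fderiv_sum, radial_fderiv_symm h j m, a3, radial_symm h m j]
    ring
  simp only [shp, christoffel, inverseField, Matrix.smul_apply, Matrix.mul_apply, Matrix.of_apply,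
    smul_eq_mul, ← h1, Finset.mul_sum, Finset.sum_mul]
  rw [Finset.sum_comm]
  refine Finset.sum_congr rfl fun m _ => Finset.sum_congr rfl fun k _ => by ring

theorem radial_shp_ev {g : MetricField n} {x : E n} (h : RiemAt g x)
    (hr : ∀ᶠ y in 𝓝 x, mv (g y) y = y) (l j : Fin n) :
    (fun y => shp g y l j) =ᶠ[𝓝 x] fun y => ∑ k, christoffel g y l j k * y k := by
  filter_upwards [h.eventually, hr.eventually_nhds] with y hy hy'
  exact (christoffel_radial hy hy' l j).symm

theorem radial_chr_diff {g : MetricField n} {x : E n} (h : RiemAt g x) (k i j : Fin n) :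
    DifferentiableAt ℝ (fun y => christoffel g y k i j) x :=
  (h.christoffel_smooth k i j).differentiableAt (by simp)

theorem radial_shp_diff {g : MetricField n} {x : E n} (h : RiemAt g x)
    (hr : ∀ᶠ y in 𝓝 x, mv (g y) y = y) (l j : Fin n) :
    DifferentiableAt ℝ (fun y => shp g y l j) x :=
  (DifferentiableAt.fun_sum fun k _ => (radial_chr_diff h l j k).fun_mul
    (radial_coord k x).differentiableAt).congr_of_eventuallyEq (radial_shp_ev h hr l j)

theorem riemann_radial {g : MetricField n} {x : E n} (h : RiemAt g x)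
    (hr : ∀ᶠ y in 𝓝 x, mv (g y) y = y) (l i j : Fin n) :
    ∑ k, riemann g x l k i j * x k
      = pderiv i (fun y => shp g y l j) x - pderiv j (fun y => shp g y l i) x
        + ∑ a, (christoffel g x l i a * shp g x a j - christoffel g x l j a * shp g x a i) := by
  rw [radial_pderiv_congr (radial_shp_ev h hr l j), radial_pderiv_congr (radial_shp_ev h hr l i),
    radial_pderiv_sum (f := fun k y => christoffel g y l j k) (fun k => radial_chr_diff h l j k),
    radial_pderiv_sum (f := fun k y => christoffel g y l i k) (fun k => radial_chr_diff h l i k),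
    h.christoffel_symm l j i]
  simp only [← christoffel_radial h hr, riemann, add_mul, sub_mul, Finset.sum_add_distrib,
    Finset.sum_sub_distrib, Finset.mul_sum, Finset.sum_mul, mul_assoc]
  rw [Finset.sum_comm (f := fun k a => christoffel g x l i a * (christoffel g x a j k * x k)),
    Finset.sum_comm (f := fun k a => christoffel g x l j a * (christoffel g x a i k * x k))]
  ring

theorem radial_shp_mul {g : MetricField n} {x : E n} (h : RiemAt g x)
    (hr : ∀ᶠ y in 𝓝 x, mv (g y) y = y) (l : Fin n) : ∑ j, shp g x l j * x j = 0 := by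
  have h1 : ∀ m, ∑ j, fderiv ℝ (fun z => g z m j) x x * x j = 0 := by
    intro m
    simp only [radial_fderiv_sum, Finset.sum_mul]
    rw [Finset.sum_comm]
    have h2 : ∀ i, ∑ j, pderiv i (fun z => g z m j) x * x i * x j =
        (1 : Mat n) m i * x i - g x m i * x i := by
      intro i
      rw [← sub_mul, ← radial_d1 h hr m i, Finset.sum_mul]
      exact Finset.sum_congr rfl fun j _ => by ring
    simp only [h2, Finset.sum_sub_distrib]
    rw [← mv_apply (g x), hr.self_of_nhds]
    simp [Matrix.one_apply]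
  simp only [shp, Matrix.smul_apply, Matrix.mul_apply, Matrix.of_apply, smul_eq_mul,
    Finset.mul_sum, Finset.sum_mul]
  rw [Finset.sum_comm]
  refine Finset.sum_eq_zero fun m _ => ?_
  have := congrArg (fun t => 1 / 2 * ((g x)⁻¹ l m * t)) (h1 m)
  simp only [Finset.mul_sum, mul_zero] at this
  rw [← this]
  exact Finset.sum_congr rfl fun j _ => by ring

theorem radial_ray {f : E n → ℝ} {x : E n} {t : ℝ} (hf : DifferentiableAt ℝ f (t • x)) :
    HasDerivAt (fun s : ℝ => f (s • x)) (fderiv ℝ f (t • x) x) t := by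
  have h1 : HasDerivAt (fun s : ℝ => s • x) x t := by
    simpa using (hasDerivAt_id t).smul_const x
  exact hf.hasFDerivAt.comp_hasDerivAt t h1

theorem radial_ray_ev {p : E n → Prop} {x : E n} (h : ∀ᶠ y in 𝓝 x, p y) :
    ∀ᶠ t in 𝓝 (1 : ℝ), p (t • x) := by
  have h1 : ContinuousAt (fun s : ℝ => s • x) 1 := by fun_prop
  have h2 : Tendsto (fun s : ℝ => s • x) (𝓝 1) (𝓝 x) := by simpa using h1.tendsto
  exact h2.eventually h

theorem radial_ray_smooth {g : MetricField n} {x : E n} (h : RiemAt g x) (i j : Fin n) :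
    ContDiffAt ℝ ∞ (fun s : ℝ => g (s • x) i j) 1 := by
  have h1 : ContDiffAt ℝ ∞ (fun y => g y i j) ((fun s : ℝ => s • x) 1) := by
    simpa using radial_smooth h i j
  exact ContDiffAt.comp (g := fun y => g y i j) (f := fun s : ℝ => s • x) (1 : ℝ) h1 (by fun_prop)

theorem radial_deriv_diff {φ : ℝ → ℝ} {r : ℝ} (h : ContDiffAt ℝ 2 φ r) :
    DifferentiableAt ℝ (deriv φ) r :=
  ((h.fderiv_right (m := 1) le_rfl).clm_apply contDiffAt_const).differentiableAt (by simp)

theorem radial_hasDeriv1 {g : MetricField n} {x : E n} (h : RiemAt g x) (i j : Fin n) :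
    HasDerivAt (fun s : ℝ => g (s • x) i j) (rd1 g x i j) 1 :=
  ((radial_ray_smooth h i j).differentiableAt (by simp)).hasDerivAt

theorem radial_hasDeriv2 {g : MetricField n} {x : E n} (h : RiemAt g x) (i j : Fin n) :
    HasDerivAt (fun t : ℝ => deriv (fun s : ℝ => g (s • x) i j) t) (rd2 g x i j) 1 :=
  (radial_deriv_diff ((radial_ray_smooth h i j).of_le (by norm_cast))).hasDerivAt

/-- the matrix `G'(t)` -/
def radialG (g : MetricField n) (x : E n) (t : ℝ) : Mat n :=
  Matrix.of fun i j => deriv (fun s : ℝ => g (s • x) i j) t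

theorem radial_shp_ray {g : MetricField n} {x : E n} {t : ℝ} (h : RiemAt g (t • x)) :
    shp g (t • x) = (t / 2) • ((g (t • x))⁻¹ * radialG g x t) := by
  have h1 : (Matrix.of fun i j => fderiv ℝ (fun z => g z i j) (t • x) (t • x)) =
      t • radialG g x t := by
    ext i j
    simp only [radialG, Matrix.of_apply, Matrix.smul_apply, map_smul, smul_eq_mul]
    rw [(radial_ray (radial_diff h i j)).deriv]
  rw [shp, h1, Matrix.mul_smul, smul_smul]
  congr 1
  ring

theorem radial_shp_eq {g : MetricField n} {x : E n} (h : RiemAt g x) :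
    shp g x = (1 / 2 : ℝ) • ((g x)⁻¹ * rd1 g x) := by
  have h1 := radial_shp_ray (t := 1) (x := x) (by simpa using h)
  simp only [one_smul] at h1
  exact h1

theorem radial_invG {g : MetricField n} {x : E n} (h : RiemAt g x) (i j : Fin n) :
    HasDerivAt (fun t : ℝ => ((g (t • x))⁻¹ * radialG g x t) i j)
      ((-((g x)⁻¹ * rd1 g x * ((g x)⁻¹ * rd1 g x)) + (g x)⁻¹ * rd2 g x) i j) 1 := by
  have h1 := R72.hasDerivAt_inv_apply (X := fun t : ℝ => g (t • x)) (radial_hasDeriv1 h)
    (by simpa using radial_unit h)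
  have h2 := R72.hasDerivAt_mul_apply (X := fun t : ℝ => (g (t • x))⁻¹) (Y := radialG g x)
    (Y' := rd2 g x) h1 (radial_hasDeriv2 h) i j
  simp only [one_smul] at h2
  convert h2 using 2
  rw [show radialG g x 1 = rd1 g x from rfl, Matrix.neg_mul, Matrix.mul_assoc _ (g x)⁻¹]

theorem riemann_radial_radial {g : MetricField n} {x : E n} (h : RiemAt g x)
    (hr : ∀ᶠ y in 𝓝 x, mv (g y) y = y) (l i : Fin n) :
    ∑ k, ∑ j, riemann g x l k i j * x k * x j
      = (-((g x)⁻¹ * rd1 g x) + (1 / 4 : ℝ) • ((g x)⁻¹ * rd1 g x * ((g x)⁻¹ * rd1 g x))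
          - (1 / 2 : ℝ) • ((g x)⁻¹ * rd2 g x)) l i := by
  have e1 : ∑ j, pderiv i (fun y => shp g y l j) x * x j = -shp g x l i := by
    have h1 := radial_pderiv_sum (f := fun j y => shp g y l j) (fun j => radial_shp_diff h hr l j) i
    have h2 : (fun y : E n => ∑ k, shp g y l k * y k) =ᶠ[𝓝 x] fun _ => 0 := by
      filter_upwards [h.eventually, hr.eventually_nhds] with y hy hy'
      exact radial_shp_mul hy hy' l
    rw [radial_pderiv_congr h2] at h1
    have h3 : pderiv i (fun _ : E n => (0 : ℝ)) x = 0 := by simp [pderiv]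
    linarith
  have e2 : ∑ j, pderiv j (fun y => shp g y l i) x * x j = 1 / 2 * ((g x)⁻¹ * rd1 g x) l i +
      1 / 2 * (-((g x)⁻¹ * rd1 g x * ((g x)⁻¹ * rd1 g x)) + (g x)⁻¹ * rd2 g x) l i := by
    rw [← radial_fderiv_sum]
    have h1 := radial_ray (t := 1) (x := x) (f := fun y => shp g y l i)
      (by simpa using radial_shp_diff h hr l i)
    rw [one_smul] at h1
    have h2 := ((hasDerivAt_id (1 : ℝ)).div_const 2).fun_mul (radial_invG h l i)
    have h3 : (fun t : ℝ => shp g (t • x) l i) =ᶠ[𝓝 1]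
        fun t => id t / 2 * ((g (t • x))⁻¹ * radialG g x t) l i := by
      filter_upwards [radial_ray_ev h.eventually] with t ht
      rw [radial_shp_ray ht]
      rfl
    rw [h1.unique (h2.congr_of_eventuallyEq h3), one_smul]
    rfl
  have e3 : ∑ j, (∑ a, christoffel g x l i a * shp g x a j) * x j = 0 := by
    simp only [Finset.sum_mul]
    rw [Finset.sum_comm]
    refine Finset.sum_eq_zero fun a _ => ?_
    simp only [mul_assoc, ← Finset.mul_sum, radial_shp_mul h hr a, mul_zero]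
  have e4 : ∑ j, (∑ a, christoffel g x l j a * shp g x a i) * x j = (shp g x * shp g x) l i := by
    simp only [Finset.sum_mul, Matrix.mul_apply]
    rw [Finset.sum_comm]
    refine Finset.sum_congr rfl fun a _ => ?_
    rw [← christoffel_radial h hr l a, Finset.sum_mul]
    exact Finset.sum_congr rfl fun j _ => by rw [h.christoffel_symm l j a]; ring
  rw [Finset.sum_comm]
  simp only [← Finset.sum_mul, riemann_radial h hr]
  simp only [add_mul, sub_mul, Finset.sum_add_distrib, Finset.sum_sub_distrib]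
  rw [e1, e2, e3, e4, radial_shp_eq h]
  simp only [Matrix.smul_mul, Matrix.mul_smul, Matrix.smul_apply, Matrix.add_apply,
    Matrix.sub_apply, Matrix.neg_apply, smul_eq_mul]
  ring

/-- radial sectional curvature -/
theorem secNumer_radial {g : MetricField n} {x : E n} (h : RiemAt g x)
    (hr : ∀ᶠ y in 𝓝 x, mv (g y) y = y) (w : E n) :
    secNumer g x x w = -(1 / 2) * bil (rd2 g x) w w - bil (rd1 g x) w w
      + (1 / 4) * bil (rd1 g x * (g x)⁻¹ * rd1 g x) w w := by
  rw [h.secNumer_comm]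
  set M : Mat n := -((g x)⁻¹ * rd1 g x) + (1 / 4 : ℝ) • ((g x)⁻¹ * rd1 g x * ((g x)⁻¹ * rd1 g x))
    - (1 / 2 : ℝ) • ((g x)⁻¹ * rd2 g x) with hM
  have h1 : ∀ l, ∑ k, ∑ i, ∑ j, riemann g x l k i j * x k * w i * x j = ∑ i, M l i * w i := by
    intro l
    rw [Finset.sum_comm]
    refine Finset.sum_congr rfl fun i _ => ?_
    rw [hM, ← riemann_radial_radial h hr l i, Finset.sum_mul]
    refine Finset.sum_congr rfl fun k _ => ?_
    rw [Finset.sum_mul]
    exact Finset.sum_congr rfl fun j _ => by ring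
  have h2 : g x * M = -rd1 g x + (1 / 4 : ℝ) • (rd1 g x * (g x)⁻¹ * rd1 g x)
      - (1 / 2 : ℝ) • rd2 g x := by
    simp only [hM, Matrix.mul_sub, Matrix.mul_add, Matrix.mul_neg, Matrix.mul_smul,
      Matrix.mul_assoc, Matrix.mul_nonsing_inv_cancel_left _ _ (radial_unit h)]
  have h3 : secNumer g x w x = bil (g x * M) w w := by
    simp only [secNumer, h1, bil, Matrix.mul_apply, Finset.mul_sum, Finset.sum_mul]
    rw [Finset.sum_comm]
    refine Finset.sum_congr rfl fun m _ => ?_
    rw [Finset.sum_comm]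
    refine Finset.sum_congr rfl fun i _ => Finset.sum_congr rfl fun l _ => ?_
    rw [radial_symm h l m]
    ring
  rw [h3, h2]
  simp only [bil, Matrix.smul_apply, Matrix.add_apply, Matrix.sub_apply, Matrix.neg_apply,
    smul_eq_mul, Finset.mul_sum, ← Finset.sum_sub_distrib, ← Finset.sum_add_distrib]
  exact Finset.sum_congr rfl fun i _ => Finset.sum_congr rfl fun j _ => by ring

theorem radial_logdet {g : MetricField n} {x : E n} {t : ℝ} (h : RiemAt g (t • x)) :
    deriv (fun s : ℝ => Real.log (g (s • x)).det) t =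
      ((g (t • x))⁻¹ * radialG g x t).trace := by
  have h1 := R72.hasDerivAt_det (X := fun s : ℝ => g (s • x)) (X' := radialG g x t) (r := t)
    fun i j => (radial_ray (radial_diff h i j)).differentiableAt.hasDerivAt
  rw [(h1.log (radial_unit h).ne_zero).deriv, Matrix.inv_def, Ring.inverse_eq_inv',
    Matrix.smul_mul, Matrix.trace_smul, smul_eq_mul, div_eq_inv_mul]

/-- radial Ricci curvature; `L t = log det g(t x)` has `L' = tr (G⁻¹G')` and
`L'' = tr (G⁻¹G'') - tr ((G⁻¹G')²)` (Jacobi's formula). -/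
theorem ric_radial {g : MetricField n} {x : E n} (h : RiemAt g x)
    (hr : ∀ᶠ y in 𝓝 x, mv (g y) y = y) :
    ric g x x x = -deriv (fun t : ℝ => Real.log (g (t • x)).det) 1
      - (1 / 2) * deriv (deriv (fun t : ℝ => Real.log (g (t • x)).det)) 1
      - (1 / 4) * ((g x)⁻¹ * rd1 g x * ((g x)⁻¹ * rd1 g x)).trace := by
  have h1 : deriv (fun t : ℝ => Real.log (g (t • x)).det) 1 = ((g x)⁻¹ * rd1 g x).trace := by
    have := radial_logdet (t := 1) (x := x) (by simpa using h)
    simp only [one_smul] at this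
    exact this
  have h2 : deriv (deriv (fun t : ℝ => Real.log (g (t • x)).det)) 1 =
      (-((g x)⁻¹ * rd1 g x * ((g x)⁻¹ * rd1 g x)) + (g x)⁻¹ * rd2 g x).trace := by
    have h3 : deriv (fun t : ℝ => Real.log (g (t • x)).det) =ᶠ[𝓝 1]
        fun t => ((g (t • x))⁻¹ * radialG g x t).trace :=
      (radial_ray_ev h.eventually).mono fun t ht => radial_logdet ht
    rw [h3.deriv_eq]
    exact (R72.hasDerivAt_trace (radial_invG h)).deriv
  have h4 : ric g x x x = (-((g x)⁻¹ * rd1 g x) +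
      (1 / 4 : ℝ) • ((g x)⁻¹ * rd1 g x * ((g x)⁻¹ * rd1 g x))
        - (1 / 2 : ℝ) • ((g x)⁻¹ * rd2 g x)).trace := by
    simp only [Matrix.trace, Matrix.diag_apply, ← riemann_radial_radial h hr, ric, h.ricci_eq_sum,
      Finset.sum_mul]
    symm
    rw [Finset.sum_comm]
    exact Finset.sum_congr rfl fun k _ => Finset.sum_comm
  rw [h1, h2, h4]
  simp only [Matrix.trace_add, Matrix.trace_sub, Matrix.trace_neg, Matrix.trace_smul, smul_eq_mul]
  ring

theorem radial_fn {α : ℝ → ℝ} {x : E n} (hx : x ≠ 0) (h : DifferentiableAt ℝ α ‖x‖) :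
    DifferentiableAt ℝ (fun y : E n => α ‖y‖) x ∧
      ∃ c : ℝ, ∀ i, pderiv i (fun y : E n => α ‖y‖) x = c * x i := by
  have h0 : ‖x‖ ^ 2 ≠ 0 := by simpa using hx
  have h1 := (hasStrictFDerivAt_norm_sq x).hasFDerivAt.sqrt h0
  simp only [Real.sqrt_sq (norm_nonneg _)] at h1
  have h2 := h.hasDerivAt.comp_hasFDerivAt x h1
  refine ⟨h2.differentiableAt, deriv α ‖x‖ * (1 / (2 * ‖x‖) * 2), fun i => ?_⟩
  unfold pderiv
  rw [show (fun y : E n => α ‖y‖) = α ∘ fun y : E n => ‖y‖ from rfl, h2.fderiv]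
  simp [EuclideanSpace.inner_single_right]
  ring

theorem radial_sum_sq (y : E n) : ∑ j, y j * y j = ‖y‖ ^ 2 := by
  rw [EuclideanSpace.norm_sq_eq]
  simp [sq]

theorem radial_mv {y : E n} (hy : y ≠ 0) {K : Mat n} (hK : mv K y = 0) (c : ℝ) :
    mv (prj y + c • K) y = y := by
  have h0 : ‖y‖ ^ 2 ≠ 0 := by simpa using hy
  ext i
  have h1 : ∑ j, K i j * y j = 0 := congrArg (fun z : E n => z i) hK
  have h2 : ∀ j, (prj y + c • K) i j * y j = y i / ‖y‖ ^ 2 * (y j * y j) + c * (K i j * y j) := by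
    intro j
    simp only [Matrix.add_apply, prj_apply, Matrix.smul_apply, smul_eq_mul]
    ring
  simp only [mv_apply, h2, Finset.sum_add_distrib, ← Finset.mul_sum, h1, radial_sum_sq]
  field_simp
  ring

theorem radial_shp_warp {g : MetricField n} {y : E n} (hy : y ≠ 0) (h : RiemAt g y)
    {φ : ℝ → ℝ} (hφ : DifferentiableAt ℝ φ ‖y‖) (hφ0 : φ ‖y‖ ≠ 0) {K : E n → Mat n}
    (hom : ∀ y (t : ℝ), 0 < t → K (t • y) = K y) (rad : ∀ y, mv (K y) y = 0)
    (hg : ∀ᶠ z in 𝓝 y, g z = prj z + φ ‖z‖ ^ 2 • K z) :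
    shp g y = (‖y‖ * deriv φ ‖y‖ / φ ‖y‖) • (1 - prj y) := by
  have h0 : ‖y‖ ≠ 0 := by simpa using hy
  have hgy := hg.self_of_nhds
  have h1 : rd1 g y = (2 * (‖y‖ * deriv φ ‖y‖ / φ ‖y‖)) • (g y - prj y) := by
    ext i j
    have h2 : (fun t : ℝ => g (t • y) i j) =ᶠ[𝓝 1]
        fun t => prj y i j + φ (t * ‖y‖) ^ 2 * K y i j := by
      filter_upwards [radial_ray_ev hg, lt_mem_nhds (zero_lt_one' ℝ)] with t ht ht0
      rw [ht, hom y t ht0, norm_smul, Real.norm_of_nonneg ht0.le]
      simp only [Matrix.add_apply, prj_apply, Matrix.smul_apply, smul_eq_mul, PiLp.smul_apply,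
        norm_smul, Real.norm_of_nonneg ht0.le]
      field_simp
    have h3 : HasDerivAt (fun t : ℝ => φ (t * ‖y‖)) (deriv φ ‖y‖ * ‖y‖) 1 := by
      have h4 : HasDerivAt φ (deriv φ ‖y‖) ((fun t : ℝ => t * ‖y‖) 1) := by
        simpa using hφ.hasDerivAt
      have h5 := h4.comp 1 ((hasDerivAt_id (1 : ℝ)).mul_const ‖y‖)
      rw [one_mul] at h5
      exact h5
    have h5 := ((h3.fun_pow 2).mul_const (K y i j)).const_add (prj y i j)
    rw [rd1, Matrix.of_apply, h2.deriv_eq, h5.deriv, hgy]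
    simp only [Matrix.add_apply, Matrix.sub_apply, Matrix.smul_apply, smul_eq_mul, one_mul]
    field_simp
    ring
  have h2 : g y * prj y = prj y := by
    ext i j
    have h3 : ∑ k, g y i k * y k = y i := by
      rw [hgy]
      exact congrArg (fun z : E n => z i) (radial_mv hy (rad y) _)
    simp only [Matrix.mul_apply, prj_apply]
    rw [← h3, Finset.sum_mul, Finset.sum_div]
    exact Finset.sum_congr rfl fun k _ => by ring
  have h3 : (g y)⁻¹ * prj y = prj y := by
    conv_lhs => rw [← h2]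
    exact Matrix.nonsing_inv_mul_cancel_left _ _ (radial_unit h)
  rw [radial_shp_eq h, h1, Matrix.mul_smul, Matrix.mul_sub, h3,
    Matrix.nonsing_inv_mul _ (radial_unit h), smul_smul]
  congr 1
  ring

/-- The mixed Ricci curvature vanishes for `g = π + φ(r)² h` with `h` homogeneous of degree `0`.
Here `Dg(y)[y] = 2 f (g - π)` with `f = r φ'/φ`, so `shp g y = f(|y|) (1 - π y)` because
`g⁻¹ π = π`.  Trace `riemann_radial` over `l = i` and contract with `vʲ`: `∂ᵥ f = 0`,
`tr shp = (n-1) f`, `Σₗ ∂ₗ πˡⱼ vʲ = 0`, `Γˡₗₐ (shp v)ᵃ = f Γˡₗₐ vᵃ`,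
`Γˡⱼₐ shpᵃₗ vʲ = f Γˡⱼₗ vʲ - f xᵀ shp v / r²` (by `christoffel_radial`) and `xᵀ shp v = 0`. -/
theorem ric_mixed {g : MetricField n} {x : E n} (hx : x ≠ 0) (h : RiemAt g x)
    {φ : ℝ → ℝ} (hφ : ContDiffAt ℝ ∞ φ ‖x‖) (hφ0 : φ ‖x‖ ≠ 0) {K : E n → Mat n}
    (hom : ∀ y (t : ℝ), 0 < t → K (t • y) = K y) (rad : ∀ y, mv (K y) y = 0)
    (hg : ∀ᶠ y in 𝓝 x, g y = prj y + φ ‖y‖ ^ 2 • K y) {v : E n} (hv : ⟪x, v⟫ = 0) :
    ric g x x v = 0 := by
  have h0 : ‖x‖ ≠ 0 := by simpa using hx
  have hne : ∀ᶠ y in 𝓝 x, y ≠ 0 := isOpen_ne.mem_nhds hx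
  have hr : ∀ᶠ y in 𝓝 x, mv (g y) y = y := by
    filter_upwards [hg, hne] with y hy hy0
    rw [hy]
    exact radial_mv hy0 (rad y) _
  have hφ2 : ContDiffAt ℝ 2 φ ‖x‖ := hφ.of_le (by norm_cast)
  have hφ1 : DifferentiableAt ℝ φ ‖x‖ := hφ2.differentiableAt (by simp)
  set α : ℝ → ℝ := fun r => r * deriv φ r / φ r with hα
  have hαd : DifferentiableAt ℝ α ‖x‖ :=
    (differentiableAt_id.mul (radial_deriv_diff hφ2)).div hφ1 hφ0
  have hβd : DifferentiableAt ℝ (fun r => α r / r ^ 2) ‖x‖ :=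
    hαd.div (by fun_prop) (pow_ne_zero 2 h0)
  have hS : ∀ l j, (fun y => shp g y l j) =ᶠ[𝓝 x]
      fun y => α ‖y‖ * (1 : Mat n) l j - α ‖y‖ / ‖y‖ ^ 2 * (y l * y j) := by
    intro l j
    have e1 : ∀ᶠ r in 𝓝 ‖x‖, DifferentiableAt ℝ φ r ∧ φ r ≠ 0 :=
      ((hφ2.eventually (by simp)).mono fun r hr => hr.differentiableAt (by simp)).and
        (hφ1.continuousAt.eventually_ne hφ0)
    filter_upwards [hne, h.eventually, hg.eventually_nhds,
      continuous_norm.continuousAt.tendsto.eventually e1] with y h1 h2 h3 h4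
    rw [radial_shp_warp h1 h2 h4.1 h4.2 hom rad h3]
    simp only [Matrix.smul_apply, Matrix.sub_apply, prj_apply, smul_eq_mul, hα]
    ring
  obtain ⟨ha, c₁, hc₁⟩ := radial_fn hx hαd
  obtain ⟨hb, c₂, hc₂⟩ := radial_fn hx hβd
  set a := α ‖x‖ with ha0
  set b := α ‖x‖ / ‖x‖ ^ 2 with hb0
  have hD : ∀ i l j, pderiv i (fun y => shp g y l j) x = c₁ * x i * (1 : Mat n) l j
      - c₂ * x i * (x l * x j) - b * (x l * (1 : Mat n) j i + x j * (1 : Mat n) l i) := by
    intro i l j
    rw [radial_pderiv_congr (hS l j), ← hc₁, ← hc₂]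
    unfold pderiv
    rw [((ha.hasFDerivAt.mul_const _).fun_sub (hb.hasFDerivAt.fun_mul
      ((radial_coord l x).fun_mul (radial_coord j x)))).fderiv]
    have e : ∀ k, (EuclideanSpace.proj k : E n →L[ℝ] ℝ) (EuclideanSpace.single i 1) =
        (1 : Mat n) k i := fun k => by simp [Matrix.one_apply]
    simp only [sub_apply, add_apply, smul_apply, smul_eq_mul, e, hb0]
    ring
  have hxv : ∑ j, x j * v j = 0 := by
    rw [← hv]
    simp [PiLp.inner_apply, mul_comm]
  have hS0 : ∀ l j, shp g x l j = a * (1 : Mat n) l j - b * (x l * x j) :=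
    fun l j => (hS l j).eq_of_nhds
  have hSv : ∀ l, ∑ j, shp g x l j * v j = a * v l := by
    intro l
    have : ∀ j, shp g x l j * v j = a * ((1 : Mat n) l j * v j) - b * x l * (x j * v j) :=
      fun j => by rw [hS0]; ring
    simp only [this, Finset.sum_sub_distrib, ← Finset.mul_sum, hxv]
    simp [Matrix.one_apply]
  have t1 : ∀ l, ∑ j, pderiv l (fun y => shp g y l j) x * v j = (c₁ - b) * (x l * v l) := by
    intro l
    have : ∀ j, pderiv l (fun y => shp g y l j) x * v j = (c₁ - b) * x l * ((1 : Mat n) l j * v j)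
        - (c₂ * x l * x l + b) * (x j * v j) := fun j => by
      rw [hD, Matrix.one_apply_eq, show (1 : Mat n) j l = (1 : Mat n) l j by
        simp [Matrix.one_apply, eq_comm]]
      ring
    simp only [this, Finset.sum_sub_distrib, ← Finset.mul_sum, hxv]
    simp [Matrix.one_apply, mul_assoc]
  have t2 : ∀ l, ∑ j, pderiv j (fun y => shp g y l l) x * v j = (-2 * b) * (x l * v l) := by
    intro l
    have : ∀ j, pderiv j (fun y => shp g y l l) x * v j = (-2 * b) * x l * ((1 : Mat n) l j * v j)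
        + (c₁ - c₂ * x l * x l) * (x j * v j) := fun j => by
      rw [hD, Matrix.one_apply_eq]
      ring
    simp only [this, Finset.sum_add_distrib, ← Finset.mul_sum, hxv]
    simp [Matrix.one_apply, mul_assoc]
  have t3 : ∀ l, ∑ j, (∑ k, christoffel g x l l k * shp g x k j) * v j =
      a * ∑ j, christoffel g x l l j * v j := by
    intro l
    simp only [Finset.sum_mul]
    rw [Finset.sum_comm, Finset.mul_sum]
    refine Finset.sum_congr rfl fun k _ => ?_
    simp only [mul_assoc, ← Finset.mul_sum, hSv]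
    ring
  have t4 : ∀ l, ∑ j, (∑ k, christoffel g x l j k * shp g x k l) * v j =
      a * ∑ j, christoffel g x l l j * v j - b * a * (x l * v l) := by
    intro l
    have : ∀ j, ∑ k, christoffel g x l j k * shp g x k l =
        a * christoffel g x l l j - b * x l * shp g x l j := fun j => by
      have e : ∀ k, christoffel g x l j k * shp g x k l = a * (christoffel g x l j k *
          (1 : Mat n) k l) - b * x l * (christoffel g x l j k * x k) := fun k => by
        rw [hS0]; ring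
      simp only [e, Finset.sum_sub_distrib, ← Finset.mul_sum, christoffel_radial h hr]
      simp [Matrix.one_apply, h.christoffel_symm l j l]
    simp only [this, sub_mul, Finset.sum_sub_distrib, mul_assoc, ← Finset.mul_sum, hSv]
    ring
  have h4 : ric g x x v = ∑ l, ∑ j, (∑ k, riemann g x l k l j * x k) * v j := by
    simp only [ric, h.ricci_eq_sum, Finset.sum_mul]
    symm
    rw [Finset.sum_comm, Finset.sum_comm (f := fun k j => ∑ l, riemann g x l k l j * x k * v j)]
    exact Finset.sum_congr rfl fun j _ => Finset.sum_comm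
  rw [h4]
  simp only [riemann_radial h hr]
  simp only [add_mul, sub_mul, Finset.sum_add_distrib, Finset.sum_sub_distrib]
  simp only [t1, t2, t3, t4, Finset.sum_sub_distrib, ← Finset.mul_sum, hxv]
  ring

end Crest.Agent.R202
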