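import Crest.Agent.R202.PDefs
import Crest.Agent.R202.OdeData
import Crest.Agent.R202.Time

/-!
# R202/SDefs: spherical harmonics on `S²`, the perturbation matrices, series, the stage layout

Coordinates `x 0, x 1, x 2`; `ζ = x 0 + i x 1`, `z = x 2`; `Lop k = (e_k × x) · ∇`.
The metric is `dr² + ψ² σ h`, `σ⁻¹ = 1 + c ρ(θ)`,
`h⁻¹ = Π + c (P ⊗ J + J ⊗ P) + c² |P|² P ⊗ P`, `P = a × θ`, `J = θ × P`, `det h = 1`, and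
`P·∇ = Lv a`, `J·∇ = Lv (crs a)`, `|P|² = nP a` on the sphere.  With `f_t = (1 + c ρ) q` the
equation `Δ f = 0` reads `q_t = -β q + (op0 + c op1 a + c² op2 a) f`.
-/

open scoped ContDiff Topology Matrix
open Set Filter MvPolynomial

noncomputable section

namespace Crest.Agent.R202

/-- indices `(l, m)`, `|m| ≤ l` -/
abbrev I0 : Type := {x : ℕ × ℤ // x.2.natAbs ≤ x.1}

/-- the degree -/
def dg (i : I0) : ℕ := i.1.1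

/-- the constant mode -/
def i0 : I0 := ⟨(0, 0), le_rfl⟩

/-- the zonal mode of degree `l` -/
def zon (l : ℕ) : I0 := ⟨(l, 0), Nat.zero_le l⟩

/-- the mode `Re ζ^l` -/
def top (l : ℕ) : I0 := ⟨(l, l), by simp⟩

/-- `m ↦ -m` -/
def ngI (i : I0) : I0 := ⟨(i.1.1, -i.1.2), by simpa using i.2⟩

/-- parity under the rotation `(x₀,x₁,x₂) ↦ (x₀,-x₁,-x₂)` -/
def sgn (i : I0) : ℤ := (-1) ^ (i.1.1 + i.1.2.natAbs) * (if i.1.2 < 0 then -1 else 1)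

/-- the sector -/
def sec (i : I0) : ℕ × ℤ := (i.1.2.natAbs, sgn i)

/-- the modes of degree `≤ N` -/
def lowI (N : ℕ) : Finset I0 :=
  (Finset.range (N + 1) ×ˢ Finset.Icc (-(N : ℤ)) N).subtype fun x => x.2.natAbs ≤ x.1

@[simp] theorem mem_lowI {N : ℕ} {i : I0} : i ∈ lowI N ↔ dg i ≤ N := by
  obtain ⟨⟨l, m⟩, h⟩ := i
  simp only [lowI, dg, Finset.mem_subtype, Finset.mem_product, Finset.mem_range, Finset.mem_Icc]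
  simp only at h
  omega

/-- modes of degree in `[1, L]` -/
abbrev MI (L : ℕ) : Type := {i : I0 // 1 ≤ dg i ∧ dg i ≤ L}

/-- modes of degree in `(L, N]` -/
abbrev HI (L N : ℕ) : Type := {i : I0 // L < dg i ∧ dg i ≤ N}

instance (L : ℕ) : Fintype (MI L) :=
  Fintype.subtype ((lowI L).filter fun i => 1 ≤ dg i) (by simp [and_comm])

instance (L N : ℕ) : Fintype (HI L N) :=
  Fintype.subtype ((lowI N).filter fun i => L < dg i) (by simp [and_comm])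

/-- the modes of the truncated system -/
def emb (L N : ℕ) : MI L ⊕ HI L N → I0 := Sum.elim Subtype.val Subtype.val

/-- the columns `MI L` inside the controlled modes `MI (2 L)` -/
def eW (L : ℕ) (a : MI L) : MI (2 * L) := ⟨a.1, a.2.1, a.2.2.trans (by omega)⟩

/-- the matrix of `y ↦ e_k × y` -/
def Bm (k : Fin 3) : Mat 3 := fun i j =>
  if i = k + 2 ∧ j = k + 1 then 1 else if i = k + 1 ∧ j = k + 2 then -1 else 0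

def Lop (k : Fin 3) : Pl 3 →ₗ[ℝ] Pl 3 := XA (Bm k)

/-- integration over the sphere (cone measure) -/
def sF (f : E 3 → ℝ) : ℝ := ∫ x in Metric.ball (0 : E 3) 1, f (‖x‖⁻¹ • x)

def sI (P : Pl 3) : ℝ := sF (ev P)

/-- the rotation `(x₀,x₁,x₂) ↦ (x₀,-x₁,-x₂)` -/
def rf (x : E 3) : E 3 := WithLp.toLp 2 ![x 0, -x 1, -x 2]

/-- real and imaginary part of `ζ^l` -/
def zri : ℕ → Pl 3 × Pl 3
  | 0 => (1, 0)
  | l + 1 => (X 0 * (zri l).1 - X 1 * (zri l).2, X 0 * (zri l).2 + X 1 * (zri l).1)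

/-- the real spherical harmonics -/
structure SB (Y : I0 → Pl 3) : Prop where
  mem : ∀ i, Y i ∈ Hm ℝ 3 (dg i)
  orth : ∀ i j, sI (Y i * Y j) = if i = j then 1 else 0
  span : ∀ (P : Pl 3) (N : ℕ), P.totalDegree ≤ N → ∀ x : E 3, ‖x‖ = 1 →
    ev P x = ∑ j ∈ lowI N, sI (Y j * P) * ev (Y j) x
  L3 : ∀ i, Lop 2 (Y i) = (-(i.1.2 : ℝ)) • Y (ngI i)
  refl : ∀ i x, ev (Y i) (rf x) = sgn i * ev (Y i) x
  top_eq : ∀ l, 1 ≤ l → ∃ c : ℝ, 0 < c ∧ Y (top l) = c • (zri l).1 ∧ Y (ngI (top l)) = c • (zri l).2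

def Lv (a : Fin 3 → Pl 3) (f : Pl 3) : Pl 3 := ∑ k, a k * Lop k f

/-- `x × a` -/
def crs (a : Fin 3 → Pl 3) (k : Fin 3) : Pl 3 := X (k + 1) * a (k + 2) - X (k + 2) * a (k + 1)

def nP (a : Fin 3 → Pl 3) : Pl 3 := ∑ k, crs a k ^ 2

def op0 (f : Pl 3) : Pl 3 := -∑ k, Lop k (Lop k f)

def op1 (a : Fin 3 → Pl 3) (f : Pl 3) : Pl 3 :=
  -∑ k, Lop k (a k * Lv (crs a) f + crs a k * Lv a f)

def op2 (a : Fin 3 → Pl 3) (f : Pl 3) : Pl 3 := -∑ k, Lop k (a k * nP a * Lv a f)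

/-- `x × e₂`: then `P = ∇z`, `Lv (crs aD) = -r² Lop 2` -/
def aD : Fin 3 → Pl 3 := ![X 1, -X 0, 0]

def mR (Y : I0 → Pl 3) (ρ : Pl 3) : Matrix I0 I0 ℝ := fun i j => sI (Y i * (ρ * Y j))

def mQ1 (Y : I0 → Pl 3) (a : Fin 3 → Pl 3) : Matrix I0 I0 ℝ := fun i j => sI (Y i * op1 a (Y j))

def mQ2 (Y : I0 → Pl 3) (a : Fin 3 → Pl 3) : Matrix I0 I0 ℝ := fun i j => sI (Y i * op2 a (Y j))

def RR (Y : I0 → Pl 3) {N : ℕ} (ρ : Fin N → Pl 3) (c : Fin N → ℝ) : Matrix I0 I0 ℝ :=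
  ∑ k, c k • mR Y (ρ k)

def QQ (Y : I0 → Pl 3) {N : ℕ} (a : Fin N → Fin 3 → Pl 3) (c : Fin N → ℝ) : Matrix I0 I0 ℝ :=
  ∑ k, (c k • mQ1 Y (a k) + c k ^ 2 • mQ2 Y (a k))

/-- the axisymmetric deformation -/
def QD (Y : I0 → Pl 3) (κ : ℝ) : Matrix I0 I0 ℝ := κ • mQ1 Y aD + κ ^ 2 • mQ2 Y aD

/-- infinite band matrices with polynomially bounded entries -/
def BandI (D : ℕ) (A : Matrix I0 I0 ℝ) : Prop :=
  (∀ i j, dg i + D < dg j → A i j = 0 ∧ A j i = 0) ∧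
    ∃ (C : ℝ) (r : ℕ), ∀ i j, |A i j| ≤ C * (1 + dg i) ^ r

/-- the action of a band matrix -/
def act (D : ℕ) (A : Matrix I0 I0 ℝ) (v : I0 → ℝ) (i : I0) : ℝ :=
  ∑ j ∈ lowI (dg i + D), A i j * v j

/-! ### The metric -/

/-- evaluation at the direction of `x` -/
def evn (P : Pl 3) (x : E 3) : ℝ := ev P (‖x‖⁻¹ • x)

/-- the tangent vector `a × θ` -/
def tv (a : Fin 3 → Pl 3) (x : E 3) : E 3 := ∑ k, evn (a k) x • mv (Bm k) (‖x‖⁻¹ • x)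

def otm (u v : E 3) : Mat 3 := Matrix.of fun i j => u i * v j

def sg9 {N : ℕ} (ρ : Fin N → Pl 3) (c : Fin N → ℝ) (x : E 3) : ℝ := 1 + ∑ k, c k * evn (ρ k) x

def h9 {N : ℕ} (a : Fin N → Fin 3 → Pl 3) (c : Fin N → ℝ) (x : E 3) : Mat 3 :=
  (1 - prj x) + ∑ k, ((-c k) • (otm (tv (a k) x) (tv (crs (a k)) x)
      + otm (tv (crs (a k)) x) (tv (a k) x))
    + (c k ^ 2 * evn (nP (a k)) x) • otm (tv (crs (a k)) x) (tv (crs (a k)) x))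

def H9 {N : ℕ} (ρ : Fin N → Pl 3) (a : Fin N → Fin 3 → Pl 3) (c : Fin N → ℝ) (x : E 3) : Mat 3 :=
  (sg9 ρ c x)⁻¹ • h9 a c x

def O9 {N : ℕ} (ρ : Fin N → Pl 3) (a : Fin N → Fin 3 → Pl 3) : Set (Fin N → ℝ) :=
  {c | ∀ x : E 3, x ≠ 0 → 0 < sg9 ρ c x ∧ (prj x + h9 a c x).PosDef}

def Lf (k : Fin 3) (φ : E 3 → ℝ) (y : E 3) : ℝ := fderiv ℝ φ y (mv (Bm k) y)

def Lvf (a : Fin 3 → Pl 3) (φ : E 3 → ℝ) (y : E 3) : ℝ := ∑ k, evn (a k) y * Lf k φ y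

/-- the angular operator `div (h⁻¹ ∇ φ)` -/
def Dh9 {N : ℕ} (a : Fin N → Fin 3 → Pl 3) (c : Fin N → ℝ) (φ : E 3 → ℝ) (x : E 3) : ℝ :=
  ∑ k, Lf k (fun y => Lf k φ y + ∑ j, (c j * (evn (a j k) y * Lvf (crs (a j)) φ y
    + evn (crs (a j) k) y * Lvf (a j) φ y)
    + c j ^ 2 * (evn (a j k) y * evn (nP (a j)) y * Lvf (a j) φ y))) x

/-! ### Series -/

/-- locally uniform exponential decay in the degree -/
def Dc (w : ℝ → I0 → ℝ) : Prop :=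
  ∃ κ > 0, ∀ T : ℝ, ∃ C : ℝ, ∀ t i, |t| ≤ T → |w t i| ≤ C * Real.exp (-(κ * dg i))

/-- smooth with decay of all derivatives -/
def Tame (w : ℝ → I0 → ℝ) : Prop :=
  (∀ i, ContDiff ℝ ∞ fun t => w t i) ∧ ∀ k, Dc fun t i => iteratedDeriv k (fun s => w s i) t

/-- families of polynomials of controlled degree and norm -/
def Good (P : I0 → Pl 3) : Prop :=
  ∃ (D : ℕ) (C : ℝ) (r : ℕ), ∀ i, (P i).totalDegree ≤ dg i + D ∧ sI (P i ^ 2) ≤ C * (1 + dg i) ^ r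

def ser (τ : ℝ → ℝ) (P : I0 → Pl 3) (w : ℝ → I0 → ℝ) (x : E 3) : ℝ :=
  ∑' i, w (τ ‖x‖) i * evn (P i) x

/-- the infinite system, for the modes in `S` -/
structure ISol (β : ℝ → ℝ) (D : ℕ) (R Q : ℝ → Matrix I0 I0 ℝ) (S : Set I0)
    (u p : ℝ → I0 → ℝ) : Prop where
  du : ∀ i ∈ S, ∀ t, HasDerivAt (fun s => u s i) (p t i + act D (R t) (p t) i) t
  dp : ∀ i ∈ S, ∀ t, HasDerivAt (fun s => p s i)
    (-β t * p t i + lam 1 (dg i) * u t i + act D (Q t) (u t) i) t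

/-! ### Cut functions for the axisymmetric deformation -/

/-- `γ` cuts the sector `σ` between the degrees `l` and `l + 1` for all truncations `≥ N₀` -/
structure Adm (Y : I0 → Pl 3) (b κB g γM : ℝ) (N₀ : ℕ) (σ : ℕ × ℤ) (l : ℕ) (γ : ℝ → ℝ) :
    Prop where
  smooth : ContDiff ℝ 1 γ
  bd : ∀ κ ∈ Icc 0 κB, 0 ≤ γ κ ∧ γ κ ≤ γM ∧ |deriv γ κ| ≤ γM
  pos : ∀ i, sec i = σ → 1 ≤ dg i → (γ 0 * (b + γ 0) < lam 1 (dg i) ↔ l < dg i)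
  gap : ∀ L N, N₀ ≤ N → L ≤ N → ∀ κ ∈ Icc 0 κB, ∀ v : MI L ⊕ HI L N → ℝ,
    (∀ i, sec (emb L N i) ≠ σ → v i = 0) → g ^ 2 * n2 v
      ≤ n2 fun i => (lam 1 (dg (emb L N i)) - γ κ * (b + γ κ)) * v i
        + ((QD Y κ).submatrix (emb L N) (emb L N) *ᵥ v) i

structure Cuts (Y : I0 → Pl 3) (b κB : ℝ) (l₀ L : ℕ) (g γM γs : ℝ) (N₀ : ℕ)
    (γu γl : I0 → ℝ → ℝ) (γh : ℕ × ℤ → ℝ → ℝ) : Prop where
  g_pos : 0 < g
  up : ∀ a, 1 ≤ dg a → dg a ≤ L → Adm Y b κB g γM N₀ (sec a) (dg a) (γu a)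
  lo : ∀ a, 1 ≤ dg a → dg a ≤ L → Adm Y b κB g γM N₀ (sec a) (dg a - 1) (γl a)
  hi : ∀ σ, Adm Y b κB g γM N₀ σ (2 * L) (γh σ)
  up_le : ∀ a, 1 ≤ dg a → dg a ≤ L → ∀ κ ∈ Icc 0 κB, γu a κ ≤ γs
  le_hi : ∀ σ, ∀ κ ∈ Icc 0 κB, γs ≤ γh σ κ
  swap : ∀ l, l₀ ≤ l → l < L → γu (top (l + 1)) κB + g ≤ γl (zon l) κB

/-! ### Kicks and the stage layout -/

/-- the limiting first order effect of a kick -/
def kL (B : Bg) (Y : I0 → Pl 3) (L : ℕ) {K : ℕ} (ρ : Fin K → Pl 3) (a : Fin K → Fin 3 → Pl 3) :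
    (Fin K → ℝ) →ₗ[ℝ] Matrix (MI (2 * L)) (MI L) ℝ :=
  ∑ k : Fin K, (LinearMap.proj k : (Fin K → ℝ) →ₗ[ℝ] ℝ).smulRight
    (off (fun i => dg i.1) (eW L) fun i c => Real.sqrt (dg i.1) / Real.sqrt (dg c.1)
      * (∫ t in (0 : ℝ)..1, bmp t * Real.exp ((B.a (dg c.1) - B.a (dg i.1)) * (t + (k : ℕ))))
      * (mQ1 Y (a k) i.1 c.1 + (B.a (dg i.1) + B.b) * B.a (dg c.1) * mR Y (ρ k) i.1 c.1)
      / (2 * B.a (dg i.1) + B.b))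

/-- the layout: numbers of slots, length constant of the free phase, plateau height -/
structure Lay where
  K₂ : ℕ
  Kz : ℕ
  CA : ℕ
  κB : ℝ

namespace Lay

variable (Λ : Lay) (k : ℕ)

/-- start of the slow slots -/
def a₀ (_ : Lay) (k : ℕ) : ℝ := (k : ℝ) ^ 14 + 1
/-- end of the slow slots -/
def a₁ : ℝ := Λ.a₀ k + Λ.K₂ * (k : ℝ) ^ 11
/-- start of kick 1 -/
def e₁ : ℝ := Λ.a₁ k + k
/-- start of the ramp -/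
def b₁ : ℝ := Λ.e₁ k + Λ.Kz + k
/-- end of the plateau -/
def b₂ : ℝ := Λ.b₁ k + (k : ℝ) ^ 12 + 2 * (k : ℝ) ^ 11
/-- start of kick 2 -/
def e₂ : ℝ := Λ.b₂ k + k
/-- start of kick 3 -/
def e₃ : ℝ := Λ.e₂ k + Λ.Kz + Λ.CA * (k : ℝ) ^ 12

/-- number of parameters -/
abbrev N : ℕ := Λ.K₂ + Λ.Kz + 1

/-- the slow slots -/
def cII (θ : Fin Λ.K₂ → ℝ) (t : ℝ) : Fin Λ.N → ℝ :=
  slots (Λ.a₀ k) ((k : ℝ) ^ 11)
    (fun j => (Pi.single (Fin.castAdd Λ.Kz j).succ (θ j / (k : ℝ) ^ 11) : Fin Λ.N → ℝ)) t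

/-- a kick starting at time `s` -/
def cK (s : ℝ) (ζ : Fin Λ.Kz → ℝ) (t : ℝ) : Fin Λ.N → ℝ :=
  slots s 1 (fun j => (Pi.single (Fin.natAdd Λ.K₂ j).succ (ζ j / (k : ℝ) ^ 22) : Fin Λ.N → ℝ)) t

/-- the plateau -/
def cI (t : ℝ) : Fin Λ.N → ℝ :=
  Pi.single 0 (Λ.κB * plat (Λ.b₁ k) (Λ.b₂ k) ((k : ℝ) ^ 11) t)

/-- the parameters during stage `k` -/
def c9 (θ : Fin Λ.K₂ → ℝ) (ζ : Fin 3 → Fin Λ.Kz → ℝ) (t : ℝ) : Fin Λ.N → ℝ :=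
  Λ.cII k θ t + Λ.cK k (Λ.e₁ k) (ζ 0) t + Λ.cI k t + Λ.cK k (Λ.e₂ k) (ζ 1) t
    + Λ.cK k (Λ.e₃ k) (ζ 2) t

/-- `c` is glued from the stages `k ≥ k₀` -/
def IsGl (k₀ : ℕ) (θ : ℕ → Fin Λ.K₂ → ℝ) (ζ : ℕ → Fin 3 → Fin Λ.Kz → ℝ)
    (c : ℝ → Fin Λ.N → ℝ) : Prop :=
  ContDiff ℝ ∞ c ∧ (∀ t : ℝ, t ≤ (k₀ : ℝ) ^ 14 → c t = 0) ∧
    ∀ k, k₀ ≤ k → ∀ t ∈ Icc ((k : ℝ) ^ 14) (((k : ℝ) + 1) ^ 14), c =ᶠ[𝓝 t] Λ.c9 k (θ k) (ζ k)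

/-- the conformal factors: none for the plateau -/
def gρ (ρ₂ : Fin Λ.K₂ → Pl 3) (ρz : Fin Λ.Kz → Pl 3) : Fin Λ.N → Pl 3 :=
  Fin.cons 0 (Fin.append ρ₂ ρz)

/-- the tensor fields: none for the slow slots -/
def ga (az : Fin Λ.Kz → Fin 3 → Pl 3) : Fin Λ.N → Fin 3 → Pl 3 :=
  Fin.cons aD (Fin.append (fun _ => 0) az)

end Lay

end Crest.Agent.R202
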