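import Crest.Agent.R202.SInjAux

/-!
# R202/SInj: the products and the gradient pairings of harmonics of two degrees separate tensors

Complexify; `V = Hm ℂ 3 l`, `V' = Hm ℂ 3 l'`, a tensor `T ∈ V ⊗ V'` (e.g. a complex matrix indexed
by the two blocks of the basis).  Let `N` be the space of tensors satisfying the hypotheses; it is
invariant under `Lₖ ⊗ 1 + 1 ⊗ Lₖ` (products: Leibniz; gradient pairings: the hypothesis for all
`a` is equivalent, by polarisation `a = (f + t) v` and density, to the pointwise vanishing on the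
sphere of `Σ T (Lᵥ Y · L_{x×v} Y' + L_{x×v} Y · Lᵥ Y')` for all constant vectors `v`, and this family
of identities is preserved by the `Lₖ` because `[Lₖ, Lᵥ] = -L_{eₖ×v}`).
With `E = L₀ + i L₁`, `F = L₀ - i L₁` (up to factors), the pole `n = e₂` and `a : ℤ` let
`φ_a f = (E^a f)(n)` for `a ≥ 0`, `(F^{-a} f)(n)` for `a < 0`, and `k(a,b) = φ_a ⊗ φ_b` on `N`.
`(L₂ g)(n) = 0` for all `g`, and `EF`, `FE` are `op0` plus polynomials in `L₂`, so
`φ_a ∘ E = φ_{a+1}` for `a ≥ 0` and `= c φ_{a+1}` for `a < 0`, similarly for `F`; in particular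
`φ_1 ∘ F = -λ φ_0` with `λ = l(l+1)`.  Invariance of `N` gives: `k(0,0) = 0` (product),
`k(1,1) = k(-1,-1) = 0` (pairing at the pole with `v = e₀ ± i e₁`), then `k(1,0) + k(0,1) = 0`,
`λ k(0,1) + λ' k(1,0) = 0`, so `k(1,0) = k(0,1) = 0` as `λ ≠ λ'` (for symmetric `T`, `l = l'`:
`k(1,0) = k(0,1)`); likewise for the negative ones.  Induction: `k(a,-a) = 0` and `k(a,1-a) = 0`
give `k(a+1,-a) = 0` (apply `E`) and `k(a+1,-a-1) = 0` (apply `F`); symmetrically for negative `a`.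
So all `k(a,-a)` vanish on `N`.  If all `k(a,b)` with `a + b = s - 1 ≥ 0` vanish, then `k(a,b)` with
`a + b = s` is killed by `F` in the finite dimensional module `N*` and has positive weight, so it
vanishes (`F E^j v = c_j E^{j-1} v`, `c_j ≠ 0`, and `E^j v = 0` for large `j` since `E^(2l+1) = 0`
on `V`; equivalently use the norm identity `|F v|² = |E v|² + 2 s |v|²`).  Finally an `f ∈ V` with
all `φ_a f = 0` vanishes (expand in `Y(l,m) ± i Y(l,-m)`, or: the space of such `f` is invariant,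
so `Σ |f_j|²` over an orthonormal basis is constant on the sphere and vanishes at `n`).
Any other proof is welcome.

Implementation (dual form): `W` is a space of functions `β (f, g)` killed by the tensor, stable
under `Dop k` and containing all functions that vanish on `V × V'`; the vanishing for non-zero
weights is a chain argument starting outside the range `|a| ≤ l`, `|b| ≤ l'` (`sinj_chain`).
-/

open scoped ContDiff Topology Matrix
open Set Filter MvPolynomial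

noncomputable section

namespace Crest.Agent.R202

variable {Y : I0 → Pl 3}

namespace SInj

/-- functions of two polynomials -/
abbrev Bf : Type := Pl 3 → Pl 3 → ℂ

/-- the dual action of `Lₖ ⊗ 1 + 1 ⊗ Lₖ` -/
def Dop (k : Fin 3) : Bf →ₗ[ℂ] Bf where
  toFun β := fun f g => β (Lop k f) g + β f (Lop k g)
  map_add' β β' := by
    funext f g
    simp only [Pi.add_apply]
    ring
  map_smul' c β := by
    funext f g
    simp only [Pi.smul_apply, smul_eq_mul, RingHom.id_apply]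
    ring

theorem Dop_apply (k : Fin 3) (β : Bf) (f g : Pl 3) :
    Dop k β f g = β (Lop k f) g + β f (Lop k g) := rfl

/-- the product of two functionals -/
def prF (ψ χ : Fn3) : Bf := fun f g => ψ f * χ g

/-- vanishing on `V × V'` -/
def VanB (l l' : ℕ) (β : Bf) : Prop := ∀ f ∈ Hm ℝ 3 l, ∀ g ∈ Hm ℝ 3 l', β f g = 0

theorem VanB.dop {l l' : ℕ} {β : Bf} (h : VanB l l' β) (k : Fin 3) : VanB l l' (Dop k β) := by
  intro f hf g hg
  rw [Dop_apply, h _ (Lop_mem_Hm k hf) _ hg, h _ hf _ (Lop_mem_Hm k hg), add_zero]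

theorem sinj_step {φ : ℤ → Fn3} (h : Jets φ) {l l' : ℕ} {W : Submodule ℂ Bf}
    (hD : ∀ k, ∀ β ∈ W, Dop k β ∈ W) (hV : ∀ β, VanB l l' β → β ∈ W) {ε : ℤ}
    (hε : ε = 1 ∨ ε = -1) {a b : ℤ} (hab : prF (φ a) (φ b) ∈ W) :
    cJ ε l a • prF (φ (a + ε)) (φ b) + cJ ε l' b • prF (φ a) (φ (b + ε)) ∈ W := by
  have h1 := W.add_mem (hD 0 _ hab) (W.smul_mem ((ε : ℂ) * Complex.I) (hD 1 _ hab))
  have h2 := hV (cJ ε l a • prF (φ (a + ε)) (φ b) + cJ ε l' b • prF (φ a) (φ (b + ε)) -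
      (Dop 0 (prF (φ a) (φ b)) + ((ε : ℂ) * Complex.I) • Dop 1 (prF (φ a) (φ b)))) fun f hf g hg => by
    have e1 := h.up hε a hf
    have e2 := h.up hε b hg
    rw [upF_apply] at e1 e2
    simp only [Pi.add_apply, Pi.sub_apply, Pi.smul_apply, smul_eq_mul, Dop_apply, prF]
    linear_combination -(φ b g) * e1 - φ a f * e2
  simpa using W.add_mem h1 h2

theorem sinj_core {φ : ℤ → Fn3} (h : Jets φ) (hY : SB Y) {l l' : ℕ} {W : Submodule ℂ Bf}
    (hD : ∀ k, ∀ β ∈ W, Dop k β ∈ W) (hV : ∀ β, VanB l l' β → β ∈ W)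
    (h00 : prF (φ 0) (φ 0) ∈ W) (h10 : prF (φ 1) (φ 0) ∈ W) (h01 : prF (φ 0) (φ 1) ∈ W) (a b : ℤ) :
    prF (φ a) (φ b) ∈ W := by
  have r1 : ∀ {c c' : ℂ} {β β' : Bf}, c • β + c' • β' ∈ W → β' ∈ W → c ≠ 0 → β ∈ W := by
    intro c c' β β' h1 h2 hc
    exact (W.smul_mem_iff hc).1 ((W.add_mem_iff_left (W.smul_mem c' h2)).1 h1)
  have r2 : ∀ {c c' : ℂ} {β β' : Bf}, c • β + c' • β' ∈ W → β ∈ W → c' ≠ 0 → β' ∈ W := by
    intro c c' β β' h1 h2 hc
    exact r1 (by rwa [add_comm] at h1) h2 hc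
  refine sinj_chain (Z := fun a b => prF (φ a) (φ b) ∈ W) (l := l) (l' := l') (by omega) (by omega)
    (fun a b h1 h2 h3 => ?_) (fun a b h1 h2 h3 => ?_) (fun a b h1 h2 h3 => ?_)
    (fun a b h1 h2 h3 => ?_) (fun a b hab => hV _ fun f hf g hg => ?_) h00 h10 h01 a b
  · exact r1 (sinj_step h hD hV (Or.inl rfl) h1) h2 (cJ_ne_zero (Or.inl rfl) (by omega))
  · exact r2 (sinj_step h hD hV (Or.inl rfl) h1) h2 (cJ_ne_zero (Or.inl rfl) (by omega))
  · exact r1 (sinj_step h hD hV (Or.inr rfl) h1) h2 (cJ_ne_zero (Or.inr rfl) (by omega))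
  · exact r2 (sinj_step h hD hV (Or.inr rfl) h1) h2 (cJ_ne_zero (Or.inr rfl) (by omega))
  · rcases hab with hab | hab
    · rw [prF, h.range hY hab hf, zero_mul]
    · rw [prF, h.range hY hab hg, mul_zero]

/-- the pairing with the tensor `T` -/
def KT (Y : I0 → Pl 3) (l l' : ℕ) (T : I0 → I0 → ℝ) : Bf →ₗ[ℂ] ℂ where
  toFun β := ∑ i ∈ lowI l, ∑ j ∈ lowI l', (T i j : ℂ) * β (Y i) (Y j)
  map_add' β β' := by
    simp only [Pi.add_apply, mul_add, Finset.sum_add_distrib]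
  map_smul' c β := by
    simp only [Pi.smul_apply, smul_eq_mul, RingHom.id_apply, Finset.mul_sum, mul_left_comm]

theorem KT_apply (l l' : ℕ) (T : I0 → I0 → ℝ) (β : Bf) :
    KT Y l l' T β = ∑ i ∈ lowI l, ∑ j ∈ lowI l', (T i j : ℂ) * β (Y i) (Y j) := rfl

theorem KT_van (hY : SB Y) {l l' : ℕ} {T : I0 → I0 → ℝ}
    (hT : ∀ i j, T i j ≠ 0 → dg i = l ∧ dg j = l') {β : Bf} (h : VanB l l' β) :
    KT Y l l' T β = 0 := by
  refine Finset.sum_eq_zero fun i _ => Finset.sum_eq_zero fun j _ => ?_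
  by_cases h0 : T i j = 0
  · simp [h0]
  · rw [h _ ((hT i j h0).1 ▸ hY.mem i) _ ((hT i j h0).2 ▸ hY.mem j), mul_zero]

theorem sinj_final {φ : ℤ → Fn3} (h : Jets φ) (hY : SB Y) {l l' : ℕ} {T : I0 → I0 → ℝ}
    (hT : ∀ i j, T i j ≠ 0 → dg i = l ∧ dg j = l')
    (h0 : ∀ a b, KT Y l l' T (prF (φ a) (φ b)) = 0) : T = 0 := by
  funext i j
  refine h.sep hY (c := T i) (fun j hj => (hT i j hj).2) (fun b => ?_) j
  refine h.sepC hY (l := l) (c := fun i => ∑ j ∈ lowI l', (T i j : ℂ) * φ b (Y j))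
    (fun i hi => ?_) (fun a => ?_) i
  · obtain ⟨j, -, hj⟩ := Finset.exists_ne_zero_of_sum_ne_zero hi
    exact (hT i j fun e => hj (by simp [e])).1
  · rw [← h0 a b, KT_apply]
    refine Finset.sum_congr rfl fun i _ => ?_
    rw [Finset.sum_mul]
    refine Finset.sum_congr rfl fun j _ => ?_
    rw [prF]
    ring

/-- functionals that only see the values on the sphere -/
def OnS (Λ : Fn3) : Prop := ∀ P : Pl 3, (∀ x : E 3, ‖x‖ = 1 → ev P x = 0) → Λ P = 0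

theorem onS_ev0 : OnS ev0 := fun P h => by
  rw [ev0_apply, h _ norm_npole, Complex.ofReal_zero]

theorem OnS.lop {Λ : Fn3} (h : OnS Λ) (k : Fin 3) : OnS (Λ ∘ₗ Lop k) := by
  intro P hP
  refine h _ (ev_eq_zero_of_sI_sq (le_of_eq ?_))
  rw [sq, sI_mul_Lop, neg_eq_zero, ← sI_zero]
  exact sI_congr fun x hx => by rw [ev_mul, hP x hx, mul_zero]; simp [ev]

theorem sinj_van_of_sI {P : Pl 3} (h : ∀ ρ, sI (ρ * P) = 0) (x : E 3) (hx : ‖x‖ = 1) :
    ev P x = 0 :=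
  ev_eq_zero_of_sI_sq (by rw [sq, h]) x hx

/-- a polynomial valued function, seen through `Λ` -/
def thr (Λ : Fn3) (B : Pl 3 → Pl 3 → Pl 3) : Bf := fun f g => Λ (B f g)

theorem KT_thr {l l' : ℕ} {T : I0 → I0 → ℝ} {Λ : Fn3} (hΛ : OnS Λ) {B : Pl 3 → Pl 3 → Pl 3}
    (h : ∀ ρ, ∑ i ∈ lowI l, ∑ j ∈ lowI l', T i j * sI (ρ * B (Y i) (Y j)) = 0) :
    KT Y l l' T (thr Λ B) = 0 := by
  have h1 := hΛ (∑ i ∈ lowI l, ∑ j ∈ lowI l', T i j • B (Y i) (Y j)) (sinj_van_of_sI fun ρ => by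
    simp only [Finset.mul_sum, mul_smul_comm, sI_sum, sI_smul]
    exact h ρ)
  simp only [map_sum, map_smul, Complex.real_smul] at h1
  exact h1

theorem Dop_thr_mul (Λ : Fn3) (k : Fin 3) :
    Dop k (thr Λ fun f g => f * g) = thr (Λ ∘ₗ Lop k) fun f g => f * g := by
  funext f g
  simp only [Dop_apply, thr, LinearMap.comp_apply, Lop_mul, map_add]

/-- the gradient pairing -/
def Bp (a a' : Fin 3 → Pl 3) (f g : Pl 3) : Pl 3 :=
  Lv a f * Lv (crs a') g + Lv (crs a') f * Lv a g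

/-- its symmetrisation -/
def Gp (a a' : Fin 3 → Pl 3) (f g : Pl 3) : Pl 3 := Bp a a' f g + Bp a' a f g

theorem sinj_Lop_X (k : Fin 3) :
    Lop k (X k) = 0 ∧ Lop k (X (k + 1)) = -X (k + 2) ∧ Lop k (X (k + 2)) = X (k + 1) := by
  fin_cases k <;> simp [Lop_apply, pderiv_X]

theorem exists_delta (k : Fin 3) : ∃ δ : (Fin 3 → Pl 3) → Fin 3 → Pl 3,
    (∀ a f, Lop k (Lv a f) = Lv a (Lop k f) + Lv (δ a) f) ∧ ∀ a, crs (δ a) = δ (crs a) := by
  have c0 : ∀ a : Fin 3 → Pl 3, crs a 0 = X 1 * a 2 - X 2 * a 1 := fun _ => rfl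
  have c1 : ∀ a : Fin 3 → Pl 3, crs a 1 = X 2 * a 0 - X 0 * a 2 := fun _ => rfl
  have c2 : ∀ a : Fin 3 → Pl 3, crs a 2 = X 0 * a 1 - X 1 * a 0 := fun _ => rfl
  fin_cases k
  · have hX : Lop 0 (X 0) = 0 ∧ Lop 0 (X 1) = -X 2 ∧ Lop 0 (X 2) = X 1 := sinj_Lop_X 0
    refine ⟨fun a => ![Lop 0 (a 0), Lop 0 (a 1) + a 2, Lop 0 (a 2) - a 1], fun a f => ?_,
      fun a => ?_⟩
    · obtain ⟨h0, h1, h2⟩ := Lop_lie' f
      show Lop 0 (Lv a f) = Lv a (Lop 0 f) + _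
      simp only [Lv, Fin.sum_univ_three, map_add, Lop_mul, Matrix.cons_val_zero, Matrix.cons_val_one,
        Matrix.cons_val, h0, h2]
      ring
    · funext j
      fin_cases j <;>
        simp only [Fin.zero_eta, Fin.mk_one, Fin.reduceFinMk, c0, c1, c2, Matrix.cons_val_zero,
          Matrix.cons_val_one, Matrix.cons_val, map_sub, Lop_mul, hX.1, hX.2.1, hX.2.2] <;> ring
  · have hX : Lop 1 (X 1) = 0 ∧ Lop 1 (X 2) = -X 0 ∧ Lop 1 (X 0) = X 2 := sinj_Lop_X 1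
    refine ⟨fun a => ![Lop 1 (a 0) - a 2, Lop 1 (a 1), Lop 1 (a 2) + a 0], fun a f => ?_,
      fun a => ?_⟩
    · obtain ⟨h0, h1, h2⟩ := Lop_lie' f
      show Lop 1 (Lv a f) = Lv a (Lop 1 f) + _
      simp only [Lv, Fin.sum_univ_three, map_add, Lop_mul, Matrix.cons_val_zero, Matrix.cons_val_one,
        Matrix.cons_val, h0, h1]
      ring
    · funext j
      fin_cases j <;>
        simp only [Fin.zero_eta, Fin.mk_one, Fin.reduceFinMk, c0, c1, c2, Matrix.cons_val_zero,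
          Matrix.cons_val_one, Matrix.cons_val, map_sub, Lop_mul, hX.1, hX.2.1, hX.2.2] <;> ring
  · have hX : Lop 2 (X 2) = 0 ∧ Lop 2 (X 0) = -X 1 ∧ Lop 2 (X 1) = X 0 := sinj_Lop_X 2
    refine ⟨fun a => ![Lop 2 (a 0) + a 1, Lop 2 (a 1) - a 0, Lop 2 (a 2)], fun a f => ?_,
      fun a => ?_⟩
    · obtain ⟨h0, h1, h2⟩ := Lop_lie' f
      show Lop 2 (Lv a f) = Lv a (Lop 2 f) + _
      simp only [Lv, Fin.sum_univ_three, map_add, Lop_mul, Matrix.cons_val_zero, Matrix.cons_val_one,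
        Matrix.cons_val, h1, h2]
      ring
    · funext j
      fin_cases j <;>
        simp only [Fin.zero_eta, Fin.mk_one, Fin.reduceFinMk, c0, c1, c2, Matrix.cons_val_zero,
          Matrix.cons_val_one, Matrix.cons_val, map_sub, Lop_mul, hX.1, hX.2.1, hX.2.2] <;> ring

theorem Dop_thr_Gp (Λ : Fn3) (k : Fin 3) : ∃ δ : (Fin 3 → Pl 3) → Fin 3 → Pl 3, ∀ a a',
    Dop k (thr Λ (Gp a a')) =
      thr (Λ ∘ₗ Lop k) (Gp a a') - thr Λ (Gp (δ a) a') - thr Λ (Gp a (δ a')) := by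
  obtain ⟨δ, h1, h2⟩ := exists_delta k
  refine ⟨δ, fun a a' => ?_⟩
  funext f g
  simp only [Dop_apply, thr, LinearMap.comp_apply, Pi.sub_apply]
  rw [← map_add, ← map_sub, ← map_sub]
  refine congrArg Λ ?_
  simp only [Gp, Bp, map_add, Lop_mul, h1, h2]
  ring

theorem Gp_polar (a a' : Fin 3 → Pl 3) (ρ f g : Pl 3) :
    ρ * Gp a a' f g = Bp (fun k => ρ * a k + a' k) (fun k => ρ * a k + a' k) f g
      - Bp (fun k => ρ * a k) (fun k => ρ * a k) f g - Bp a' a' f g := by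
  have h1 : ∀ (b b' : Fin 3 → Pl 3) (f : Pl 3),
      Lv (fun k => ρ * b k + b' k) f = ρ * Lv b f + Lv b' f := by
    intro b b' f
    simp only [Lv, Finset.mul_sum, ← Finset.sum_add_distrib]
    exact Finset.sum_congr rfl fun k _ => by ring
  have h2 : ∀ (b : Fin 3 → Pl 3) (f : Pl 3), Lv (fun k => ρ * b k) f = ρ * Lv b f := by
    intro b f
    simp only [Lv, Finset.mul_sum, mul_assoc]
  have h3 : crs (fun k => ρ * a k + a' k) = fun k => ρ * crs a k + crs a' k := by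
    funext k
    simp only [crs]
    ring
  have h4 : crs (fun k => ρ * a k) = fun k => ρ * crs a k := by
    funext k
    simp only [crs]
    ring
  simp only [Gp, Bp, h3, h4, h1, h2]
  ring

theorem prF_one_one {φ : ℤ → Fn3} (h : Jets φ) :
    prF (φ 1) (φ 1) = (-1 / 2 : ℂ) • thr ev0 (Gp ![1, 0, 0] ![0, 1, 0])
      + (Complex.I / 2) • thr ev0 (Gp ![1, 0, 0] ![1, 0, 0]) := by
  have e : φ 1 = upF 1 ev0 := by
    have := h.succ 0 le_rfl
    rwa [zero_add, h.zero] at this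
  have c0 : ∀ a : Fin 3 → Pl 3, crs a 0 = X 1 * a 2 - X 2 * a 1 := fun _ => rfl
  have c1 : ∀ a : Fin 3 → Pl 3, crs a 1 = X 2 * a 0 - X 0 * a 2 := fun _ => rfl
  have c2 : ∀ a : Fin 3 → Pl 3, crs a 2 = X 0 * a 1 - X 1 * a 0 := fun _ => rfl
  funext f g
  simp only [e, prF, upF_apply, thr, Pi.add_apply, Pi.smul_apply, smul_eq_mul, ev0_apply, Gp, Bp, Lv,
    Fin.sum_univ_three, c0, c1, c2, Matrix.cons_val_zero, Matrix.cons_val_one, Matrix.cons_val]
  simp only [ev, map_add, map_sub, map_mul, map_one, map_zero, eval_X, npole, Matrix.cons_val_zero,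
    Matrix.cons_val_one, Matrix.cons_val]
  push_cast
  linear_combination (((eval fun i => ![(0 : ℝ), 0, 1] i) (Lop 1 f) : ℝ) : ℂ) *
    (((eval fun i => ![(0 : ℝ), 0, 1] i) (Lop 1 g) : ℝ) : ℂ) * Complex.I_mul_I

theorem prF_zero_zero {φ : ℤ → Fn3} (h : Jets φ) :
    prF (φ 0) (φ 0) = thr ev0 fun f g => f * g := by
  funext f g
  simp only [prF, thr, h.zero, ev0_apply, ev_mul, Complex.ofReal_mul]

end SInj

open SInj

theorem SB.inj_ne (h : SB Y) {l l' : ℕ} (hl : l ≠ l') {T : I0 → I0 → ℝ}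
    (hT : ∀ i j, T i j ≠ 0 → dg i = l ∧ dg j = l')
    (hR : ∀ ρ, ∑ i ∈ lowI l, ∑ j ∈ lowI l', T i j * mR Y ρ i j = 0)
    (hQ : ∀ a, ∑ i ∈ lowI l, ∑ j ∈ lowI l', T i j * mQ1 Y a i j = 0) : T = 0 := by
  obtain ⟨φ, hφ⟩ := exists_jets
  let G : Set Bf := {β | VanB l l' β ∨ (∃ Λ, OnS Λ ∧ β = thr Λ fun f g => f * g) ∨
    ∃ Λ a a', OnS Λ ∧ β = thr Λ (Gp a a')}
  have g1 : ∀ β, VanB l l' β → β ∈ Submodule.span ℂ G := fun β hβ =>
    Submodule.subset_span (Or.inl hβ)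
  have g2 : ∀ Λ, OnS Λ → (thr Λ fun f g => f * g) ∈ Submodule.span ℂ G := fun Λ hΛ =>
    Submodule.subset_span (Or.inr (Or.inl ⟨Λ, hΛ, rfl⟩))
  have g3 : ∀ Λ a a', OnS Λ → thr Λ (Gp a a') ∈ Submodule.span ℂ G := fun Λ a a' hΛ =>
    Submodule.subset_span (Or.inr (Or.inr ⟨Λ, a, a', hΛ, rfl⟩))
  have hD : ∀ k, ∀ β ∈ Submodule.span ℂ G, Dop k β ∈ Submodule.span ℂ G := by
    intro k
    refine (Submodule.span_le (p := (Submodule.span ℂ G).comap (Dop k))).2 ?_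
    rintro β (hβ | ⟨Λ, hΛ, rfl⟩ | ⟨Λ, a, a', hΛ, rfl⟩)
    · exact g1 _ (hβ.dop k)
    · show Dop k _ ∈ Submodule.span ℂ G
      rw [Dop_thr_mul]
      exact g2 _ (hΛ.lop k)
    · show Dop k _ ∈ Submodule.span ℂ G
      obtain ⟨δ, hδ⟩ := Dop_thr_Gp Λ k
      rw [hδ]
      exact Submodule.sub_mem _ (Submodule.sub_mem _ (g3 _ _ _ (hΛ.lop k)) (g3 _ _ _ hΛ))
        (g3 _ _ _ hΛ)
  have hK : ∀ β ∈ Submodule.span ℂ G, KT Y l l' T β = 0 := by
    refine (Submodule.span_le (p := LinearMap.ker (KT Y l l' T))).2 ?_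
    rintro β (hβ | ⟨Λ, hΛ, rfl⟩ | ⟨Λ, a, a', hΛ, rfl⟩)
    · exact KT_van h hT hβ
    · refine KT_thr hΛ fun ρ => ?_
      rw [← hR ρ]
      simp only [mR, mul_left_comm]
    · refine KT_thr hΛ fun ρ => ?_
      have hQ' : ∀ a, ∑ i ∈ lowI l, ∑ j ∈ lowI l', T i j * sI (Bp a a (Y i) (Y j)) = 0 := by
        intro a
        rw [← hQ a]
        simp only [mQ1, sI_mul_op1, Bp]
      simp only [Gp_polar, sI_sub, mul_sub, Finset.sum_sub_distrib, hQ', sub_zero]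
  have h00 : prF (φ 0) (φ 0) ∈ Submodule.span ℂ G := by
    rw [prF_zero_zero hφ]
    exact g2 _ onS_ev0
  have h11 : prF (φ 1) (φ 1) ∈ Submodule.span ℂ G := by
    rw [prF_one_one hφ]
    exact Submodule.add_mem _ (Submodule.smul_mem _ _ (g3 _ _ _ onS_ev0))
      (Submodule.smul_mem _ _ (g3 _ _ _ onS_ev0))
  have s1 := sinj_step hφ hD g1 (Or.inl rfl) h00
  have s2 := sinj_step hφ hD g1 (Or.inr rfl) h11
  have e1 : ∀ n : ℕ, cJ 1 n 0 = 1 := fun n => by simp [cJ]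
  have e2 : ∀ n : ℕ, cJ (-1) n 1 = -((n : ℂ) * (n + 1)) := fun n => by simp [cJ]
  rw [e1, e1, one_smul, one_smul, zero_add] at s1
  rw [e2, e2, add_neg_cancel] at s2
  have hne : (l : ℂ) * (l + 1) - (l' : ℂ) * (l' + 1) ≠ 0 := by
    have h1 : (l : ℤ) * (l + 1) - (l' : ℤ) * (l' + 1) ≠ 0 := by
      have e : (l : ℤ) * (l + 1) - (l' : ℤ) * (l' + 1) = (l - l') * (l + l' + 1) := by ring
      rw [e]
      exact mul_ne_zero (by omega) (by omega)
    exact_mod_cast h1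
  have h10 : prF (φ 1) (φ 0) ∈ Submodule.span ℂ G := by
    have h1 := Submodule.add_mem _ (Submodule.smul_mem _ ((l : ℂ) * (l + 1)) s1) s2
    refine (Submodule.smul_mem_iff _ hne).1 ?_
    convert h1 using 1
    module
  have h01 : prF (φ 0) (φ 1) ∈ Submodule.span ℂ G := (Submodule.add_mem_iff_right _ h10).1 s1
  exact sinj_final hφ h hT fun a b => hK _ (sinj_core hφ h hD g1 h00 h10 h01 a b)

theorem SB.inj_symm (h : SB Y) {l : ℕ} {T : I0 → I0 → ℝ}
    (hT : ∀ i j, T i j ≠ 0 → dg i = l ∧ dg j = l) (hs : ∀ i j, T i j = T j i)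
    (hR : ∀ ρ, ∑ i ∈ lowI l, ∑ j ∈ lowI l, T i j * mR Y ρ i j = 0) : T = 0 := by
  obtain ⟨φ, hφ⟩ := exists_jets
  let G : Set Bf := {β | VanB l l β ∨ (∃ Λ, OnS Λ ∧ β = thr Λ fun f g => f * g) ∨
    ∀ f g, β f g = -β g f}
  have g1 : ∀ β, VanB l l β → β ∈ Submodule.span ℂ G := fun β hβ =>
    Submodule.subset_span (Or.inl hβ)
  have g2 : ∀ Λ, OnS Λ → (thr Λ fun f g => f * g) ∈ Submodule.span ℂ G := fun Λ hΛ =>
    Submodule.subset_span (Or.inr (Or.inl ⟨Λ, hΛ, rfl⟩))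
  have g3 : ∀ β : Bf, (∀ f g, β f g = -β g f) → β ∈ Submodule.span ℂ G := fun β hβ =>
    Submodule.subset_span (Or.inr (Or.inr hβ))
  have hD : ∀ k, ∀ β ∈ Submodule.span ℂ G, Dop k β ∈ Submodule.span ℂ G := by
    intro k
    refine (Submodule.span_le (p := (Submodule.span ℂ G).comap (Dop k))).2 ?_
    rintro β (hβ | ⟨Λ, hΛ, rfl⟩ | hβ)
    · exact g1 _ (hβ.dop k)
    · show Dop k _ ∈ Submodule.span ℂ G
      rw [Dop_thr_mul]
      exact g2 _ (hΛ.lop k)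
    · refine g3 _ fun f g => ?_
      rw [Dop_apply, Dop_apply, hβ (Lop k f) g, hβ f (Lop k g)]
      ring
  have hK : ∀ β ∈ Submodule.span ℂ G, KT Y l l T β = 0 := by
    refine (Submodule.span_le (p := LinearMap.ker (KT Y l l T))).2 ?_
    rintro β (hβ | ⟨Λ, hΛ, rfl⟩ | hβ)
    · exact KT_van h hT hβ
    · refine KT_thr hΛ fun ρ => ?_
      rw [← hR ρ]
      simp only [mR, mul_left_comm]
    · have e : KT Y l l T β = -KT Y l l T β := by
        conv_lhs => rw [KT_apply, Finset.sum_comm]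
        rw [KT_apply, ← Finset.sum_neg_distrib]
        refine Finset.sum_congr rfl fun i _ => ?_
        rw [← Finset.sum_neg_distrib]
        refine Finset.sum_congr rfl fun j _ => ?_
        rw [hs j i, hβ (Y j) (Y i), mul_neg]
      show KT Y l l T β = 0
      linear_combination (1 / 2) * e
  have h00 : prF (φ 0) (φ 0) ∈ Submodule.span ℂ G := by
    rw [prF_zero_zero hφ]
    exact g2 _ onS_ev0
  have s1 := sinj_step hφ hD g1 (Or.inl rfl) h00
  have e1 : ∀ n : ℕ, cJ 1 n 0 = 1 := fun n => by simp [cJ]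
  rw [e1, one_smul, one_smul, zero_add] at s1
  have s2 := g3 (prF (φ 1) (φ 0) - prF (φ 0) (φ 1)) fun f g => by
    simp only [Pi.sub_apply, prF]
    ring
  have h10 : prF (φ 1) (φ 0) ∈ Submodule.span ℂ G := by
    refine (Submodule.smul_mem_iff _ (two_ne_zero (α := ℂ))).1 ?_
    convert Submodule.add_mem _ s1 s2 using 1
    module
  have h01 : prF (φ 0) (φ 1) ∈ Submodule.span ℂ G := (Submodule.add_mem_iff_right _ h10).1 s1
  exact sinj_final hφ h hT fun a b => hK _ (sinj_core hφ h hD g1 h00 h10 h01 a b)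

end Crest.Agent.R202
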