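import Crest.Agent.R202.SMat

/-!
# R202/SInjAux: the jets of a harmonic polynomial at the pole

`sinj_chain` is the combinatorial part of the argument; `Jets φ` says that the complex valued
functionals `φ a` on real polynomials are `f ↦ (E^a f)(n)`, `f ↦ (F^{-a} f)(n)`.
-/

open scoped Matrix
open MvPolynomial

noncomputable section

namespace Crest.Agent.R202.SInj

/-! ### Combinatorics -/

theorem sinj_pos1 {Z : ℤ → ℤ → Prop} {l l' : ℤ} (hl : l' ≤ l)
    (E1 : ∀ a b, Z a b → Z a (b + 1) → a ≠ -l - 1 → Z (a + 1) b)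
    (R : ∀ a b, l' < b → Z a b) (h0 : ∀ a b, a + b = 0 → Z a b) (s : ℕ) :
    ∀ a b : ℤ, a + b = s → Z a b := by
  induction s with
  | zero => simpa using h0
  | succ s ih =>
    have key : ∀ t : ℕ, ∀ a b : ℤ, a + b = (s + 1 : ℕ) → l' < b + t → Z a b := by
      intro t
      induction t with
      | zero => exact fun a b _ hb => R a b (by simpa using hb)
      | succ t iht =>
        intro a b hab hb
        by_cases h : l' < b
        · exact R a b h
        · have h1 := E1 (a - 1) b (ih _ _ (by push_cast at hab; omega))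
            (iht _ _ (by omega) (by push_cast at hb; omega)) (by push_cast at hab; omega)
          simpa using h1
    intro a b hab
    exact key (l' - b + 1).toNat a b hab (by omega)

theorem sinj_pos {Z : ℤ → ℤ → Prop} {l l' : ℤ}
    (E1 : ∀ a b, Z a b → Z a (b + 1) → a ≠ -l - 1 → Z (a + 1) b)
    (E2 : ∀ a b, Z a b → Z (a + 1) b → b ≠ -l' - 1 → Z a (b + 1))
    (R : ∀ a b, l < a ∨ l' < b → Z a b) (h0 : ∀ a b, a + b = 0 → Z a b) (a b : ℤ)
    (h : 0 ≤ a + b) : Z a b := by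
  rcases le_total l' l with hl | hl
  · exact sinj_pos1 hl E1 (fun a b h => R a b (Or.inr h)) h0 (a + b).toNat a b (by omega)
  · exact sinj_pos1 (Z := fun b a => Z a b) hl (fun b a h1 h2 h3 => E2 a b h1 h2 h3)
      (fun b a h => R a b (Or.inl h)) (fun b a h => h0 a b (by omega)) (a + b).toNat b a (by omega)

theorem sinj_zero1 {Z : ℤ → ℤ → Prop} {l l' : ℤ} (hl : 0 ≤ l) (hl' : 0 ≤ l')
    (E1 : ∀ a b, Z a b → Z a (b + 1) → a ≠ -l - 1 → Z (a + 1) b)
    (F2 : ∀ a b, Z a b → Z (a - 1) b → b ≠ l' + 1 → Z a (b - 1))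
    (h00 : Z 0 0) (h10 : Z 1 0) (n : ℕ) : Z n (-n) ∧ Z (n + 1) (-n) := by
  induction n with
  | zero => simpa using ⟨h00, h10⟩
  | succ n ih =>
    have h1 : Z (n + 1) (-n - 1) := F2 _ _ ih.2 (by simpa using ih.1) (by omega)
    have h2 : Z (n + 1 + 1) (-n - 1) := E1 _ _ h1 (by simpa using ih.2) (by omega)
    have e : -((n + 1 : ℕ) : ℤ) = -n - 1 := by push_cast; ring
    rw [e]
    push_cast
    exact ⟨h1, h2⟩

theorem sinj_chain {Z : ℤ → ℤ → Prop} {l l' : ℤ} (hl : 0 ≤ l) (hl' : 0 ≤ l')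
    (E1 : ∀ a b, Z a b → Z a (b + 1) → a ≠ -l - 1 → Z (a + 1) b)
    (E2 : ∀ a b, Z a b → Z (a + 1) b → b ≠ -l' - 1 → Z a (b + 1))
    (F1 : ∀ a b, Z a b → Z a (b - 1) → a ≠ l + 1 → Z (a - 1) b)
    (F2 : ∀ a b, Z a b → Z (a - 1) b → b ≠ l' + 1 → Z a (b - 1))
    (R : ∀ a b, (l < a ∨ a < -l) ∨ (l' < b ∨ b < -l') → Z a b)
    (h00 : Z 0 0) (h10 : Z 1 0) (h01 : Z 0 1) (a b : ℤ) : Z a b := by
  have h0 : ∀ a b, a + b = 0 → Z a b := by
    intro a b hab
    rcases le_total 0 a with ha | ha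
    · have h := (sinj_zero1 hl hl' E1 F2 h00 h10 a.toNat).1
      rwa [show ((a.toNat : ℕ) : ℤ) = a by omega, show -a = b by omega] at h
    · have h := (sinj_zero1 (Z := fun b a => Z a b) hl' hl (fun b a h1 h2 h3 => E2 a b h1 h2 h3)
        (fun b a h1 h2 h3 => F1 a b h1 h2 h3) h00 h01 b.toNat).1
      rwa [show ((b.toNat : ℕ) : ℤ) = b by omega, show -b = a by omega] at h
  rcases le_total 0 (a + b) with h | h
  · exact sinj_pos E1 E2 (fun a b h => R a b (by omega)) h0 a b h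
  · have h1 := sinj_pos (Z := fun a b => Z (-a) (-b)) (l := l) (l' := l')
      (fun a b h1 h2 h3 => by
        have := F1 (-a) (-b) h1 (by rwa [show -b - 1 = -(b + 1) by ring]) (by omega)
        rwa [show -a - 1 = -(a + 1) by ring] at this)
      (fun a b h1 h2 h3 => by
        have := F2 (-a) (-b) h1 (by rwa [show -a - 1 = -(a + 1) by ring]) (by omega)
        rwa [show -b - 1 = -(b + 1) by ring] at this)
      (fun a b h => R _ _ (by omega)) (fun a b h => h0 _ _ (by omega)) (-a) (-b) (by omega)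
    simpa using h1

/-! ### The functionals -/

/-- the pole -/
def npole : E 3 := WithLp.toLp 2 ![0, 0, 1]

theorem norm_npole : ‖npole‖ = 1 := by
  rw [EuclideanSpace.norm_eq]
  simp [npole, Fin.sum_univ_three]

theorem ev_npole_X : ev (X 0 : Pl 3) npole = 0 ∧ ev (X 1 : Pl 3) npole = 0 ∧
    ev (X 2 : Pl 3) npole = 1 := by
  simp [ev, npole]

/-- evaluation as a linear map -/
def evL (x : E 3) : Pl 3 →ₗ[ℝ] ℝ where
  toFun P := ev P x
  map_add' P Q := ev_add P Q x
  map_smul' c P := ev_smul c P x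

@[simp] theorem evL_apply (x : E 3) (P : Pl 3) : evL x P = ev P x := rfl

/-- complex valued functionals on real polynomials -/
abbrev Fn3 : Type := Pl 3 →ₗ[ℝ] ℂ

/-- evaluation at the pole -/
def ev0 : Fn3 := Complex.ofRealAm.toLinearMap ∘ₗ evL npole

@[simp] theorem ev0_apply (P : Pl 3) : ev0 P = (ev P npole : ℂ) := rfl

/-- the dual action of `L₀ + ε i L₁` -/
def upF (ε : ℤ) (φ : Fn3) : Fn3 := φ ∘ₗ Lop 0 + ((ε : ℂ) * Complex.I) • (φ ∘ₗ Lop 1)

theorem upF_apply (ε : ℤ) (φ : Fn3) (P : Pl 3) :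
    upF ε φ P = φ (Lop 0 P) + (ε : ℂ) * Complex.I * φ (Lop 1 P) := rfl

theorem Lop_lie' (P : Pl 3) :
    Lop 0 (Lop 1 P) = Lop 1 (Lop 0 P) - Lop 2 P ∧ Lop 1 (Lop 2 P) = Lop 2 (Lop 1 P) - Lop 0 P ∧
      Lop 0 (Lop 2 P) = Lop 2 (Lop 0 P) + Lop 1 P := by
  have h0 : Lop 0 (Lop 1 P) - Lop 1 (Lop 0 P) = -Lop 2 P := Lop_lie 0 P
  have h1 : Lop 1 (Lop 2 P) - Lop 2 (Lop 1 P) = -Lop 0 P := Lop_lie 1 P
  have h2 : Lop 2 (Lop 0 P) - Lop 0 (Lop 2 P) = -Lop 1 P := Lop_lie 2 P
  refine ⟨?_, ?_, ?_⟩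
  · linear_combination h0
  · linear_combination h1
  · linear_combination -h2

/-- `φ` has the weight `a` -/
def WtF (φ : Fn3) (a : ℤ) : Prop := ∀ P, φ (Lop 2 P) = -(a : ℂ) * Complex.I * φ P

theorem WtF.upF {φ : Fn3} {a ε : ℤ} (h : WtF φ a) (hε : ε * ε = 1) : WtF (upF ε φ) (a + ε) := by
  intro P
  have hε' : (ε : ℂ) * ε = 1 := by exact_mod_cast hε
  obtain ⟨-, h1, h2⟩ := Lop_lie' P
  rw [upF_apply, upF_apply, h1, h2, map_add, map_sub, h, h]
  push_cast
  linear_combination (φ (Lop 1 P) * ε * ε) * Complex.I_mul_I - φ (Lop 1 P) * hε'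

theorem WtF.upF_upF {φ : Fn3} {a ε : ℤ} (h : WtF φ a) (hε : ε * ε = 1) {l : ℕ} {P : Pl 3}
    (hP : P ∈ Hm ℝ 3 l) :
    SInj.upF (-ε) (SInj.upF ε φ) P = -((l : ℂ) * (l + 1) - a * (a + ε)) * φ P := by
  have hε' : (ε : ℂ) * ε = 1 := by exact_mod_cast hε
  obtain ⟨h0, -, -⟩ := Lop_lie' P
  have h1 := congrArg φ (op0_of_mem hP)
  rw [op0, Fin.sum_univ_three, map_neg, map_add, map_add, h, h, map_smul, lam, Complex.real_smul] at h1
  push_cast at h1
  rw [upF_apply, upF_apply, upF_apply, h0, map_sub, h]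
  push_cast
  linear_combination -h1 - φ (Lop 1 (Lop 1 P)) * ε * ε * Complex.I_mul_I + φ (Lop 1 (Lop 1 P)) * hε'
    - (a * a + a * ε) * φ P * Complex.I_mul_I

theorem wtF_ev0 : WtF ev0 0 := by
  intro P
  have h : Lop 2 P = X 0 * pderiv 1 P - X 1 * pderiv 0 P := Lop_apply 2 P
  rw [h, ev0_apply]
  simp [ev, npole]

/-- the jets at the pole -/
structure Jets (φ : ℤ → Fn3) : Prop where
  zero : φ 0 = ev0
  succ : ∀ a, 0 ≤ a → φ (a + 1) = upF 1 (φ a)
  pred : ∀ a, a ≤ 0 → φ (a - 1) = upF (-1) (φ a)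

theorem exists_jets : ∃ φ, Jets φ := by
  refine ⟨fun a => if 0 ≤ a then (upF 1)^[a.toNat] ev0 else (upF (-1))^[(-a).toNat] ev0,
    by simp, fun a ha => ?_, fun a ha => ?_⟩
  · rw [if_pos (by omega), if_pos ha, show (a + 1).toNat = a.toNat + 1 by omega,
      Function.iterate_succ_apply']
  · rw [if_neg (by omega), show (-(a - 1)).toNat = (-a).toNat + 1 by omega,
      Function.iterate_succ_apply']
    rcases ha.eq_or_lt with rfl | ha
    · simp
    · rw [if_neg (by omega)]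

/-- the coefficient in `φ a ∘ (L₀ + ε i L₁) = c φ (a + ε)` -/
def cJ (ε : ℤ) (l : ℕ) (a : ℤ) : ℂ :=
  if 0 ≤ a * ε then 1 else -((l : ℂ) * (l + 1) - a * (a + ε))

theorem cJ_ne_zero {ε : ℤ} (hε : ε = 1 ∨ ε = -1) {l : ℕ} {a : ℤ} (h : a * ε ≠ -l - 1) :
    cJ ε l a ≠ 0 := by
  unfold cJ
  split_ifs with h0
  · exact one_ne_zero
  · have h1 : -((l : ℤ) * (l + 1) - a * (a + ε)) ≠ 0 := by
      rcases hε with rfl | rfl
      · have e : -((l : ℤ) * (l + 1) - a * (a + 1)) = (a - l) * (a + l + 1) := by ring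
        rw [e]
        exact mul_ne_zero (by omega) (by omega)
      · have e : -((l : ℤ) * (l + 1) - a * (a + -1)) = (a + l) * (a - l - 1) := by ring
        rw [e]
        exact mul_ne_zero (by omega) (by omega)
    exact_mod_cast h1

namespace Jets

variable {φ : ℤ → Fn3} (h : Jets φ)
include h

theorem wt (a : ℤ) : WtF (φ a) a := by
  induction a using Int.induction_on with
  | zero => rw [h.zero]; exact wtF_ev0
  | succ n ih => rw [h.succ _ (by omega)]; exact ih.upF (by norm_num)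
  | pred n ih => rw [h.pred _ (by omega)]; exact ih.upF (ε := -1) (by norm_num)

theorem conj (a : ℤ) (P : Pl 3) : (starRingEnd ℂ) (φ a P) = φ (-a) P := by
  induction a using Int.induction_on generalizing P with
  | zero => rw [neg_zero, h.zero, ev0_apply, Complex.conj_ofReal]
  | succ n ih =>
    rw [h.succ _ (by omega), show -((n : ℤ) + 1) = -n - 1 by ring, h.pred _ (by omega), upF_apply,
      upF_apply, map_add, map_mul, map_mul, ih, ih]
    simp
  | pred n ih =>
    rw [h.pred _ (by omega), show -(-(n : ℤ) - 1) = - -n + 1 by ring, h.succ _ (by omega), upF_apply,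
      upF_apply, map_add, map_mul, map_mul, ih, ih]
    simp

theorem up {ε : ℤ} (hε : ε = 1 ∨ ε = -1) (a : ℤ) {l : ℕ} {P : Pl 3} (hP : P ∈ Hm ℝ 3 l) :
    upF ε (φ a) P = cJ ε l a * φ (a + ε) P := by
  unfold cJ
  rcases hε with rfl | rfl
  · split_ifs with h0
    · rw [h.succ _ (by omega), one_mul]
    · have h1 := (h.wt (a + 1)).upF_upF (ε := -1) (by norm_num) hP
      rw [← h.pred _ (by omega), neg_neg, add_sub_cancel_right] at h1
      rw [h1]
      push_cast
      ring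
  · split_ifs with h0
    · rw [← sub_eq_add_neg, h.pred _ (by omega), one_mul]
    · have h1 := (h.wt (a - 1)).upF_upF (ε := 1) (by norm_num) hP
      rw [← h.succ _ (by omega), sub_add_cancel] at h1
      rw [h1, ← sub_eq_add_neg]
      push_cast
      ring

theorem range {Y : I0 → Pl 3} (hY : SB Y) {a : ℤ} {l : ℕ} (ha : (l : ℤ) < a ∨ a < -l) {P : Pl 3}
    (hP : P ∈ Hm ℝ 3 l) : φ a P = 0 := by
  rw [hY.expandH hP, map_sum]
  refine Finset.sum_eq_zero fun j hj => ?_
  have hj' : dg j = l := (Finset.mem_filter.1 hj).2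
  have hm : j.1.2.natAbs ≤ l := hj' ▸ j.2
  have e : ngI (ngI j) = j := by
    apply Subtype.ext
    simp [ngI]
  have h1 := h.wt a (Lop 2 (Y j))
  rw [h.wt a (Y j), hY.L3, map_smul, hY.L3, e, map_smul, map_smul, Complex.real_smul,
    Complex.real_smul] at h1
  have h2 : ((a * a - j.1.2 * j.1.2 : ℤ) : ℂ) * φ a (Y j) = 0 := by
    simp only [ngI] at h1
    push_cast at h1 ⊢
    linear_combination h1 + a * a * φ a (Y j) * Complex.I_mul_I
  have h3 : a * a - j.1.2 * j.1.2 ≠ 0 := by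
    have e : a * a - j.1.2 * j.1.2 = (a - j.1.2) * (a + j.1.2) := by ring
    rw [e]
    exact mul_ne_zero (by omega) (by omega)
  rw [map_smul, (mul_eq_zero.1 h2).resolve_left (by exact_mod_cast h3), smul_zero]

end Jets

/-! ### Uniqueness -/

theorem sinj_r2_pderiv (i : Fin 3) (P : Pl 3) :
    (∑ j, X j ^ 2) * pderiv i P = X i * (∑ j, X j * pderiv j P)
      - (X (i + 1) * Lop (i + 2) P - X (i + 2) * Lop (i + 1) P) := by
  have h0 : Lop 0 P = X 1 * pderiv 2 P - X 2 * pderiv 1 P := Lop_apply 0 P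
  have h1 : Lop 1 P = X 2 * pderiv 0 P - X 0 * pderiv 2 P := Lop_apply 1 P
  have h2 : Lop 2 P = X 0 * pderiv 1 P - X 1 * pderiv 0 P := Lop_apply 2 P
  rw [Fin.sum_univ_three, Fin.sum_univ_three]
  fin_cases i
  · show _ * pderiv 0 P = X 0 * _ - (X 1 * Lop 2 P - X 2 * Lop 1 P)
    rw [h1, h2]; ring
  · show _ * pderiv 1 P = X 1 * _ - (X 2 * Lop 0 P - X 0 * Lop 2 P)
    rw [h0, h2]; ring
  · show _ * pderiv 2 P = X 2 * _ - (X 0 * Lop 1 P - X 1 * Lop 0 P)
    rw [h0, h1]; ring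

/-- an invariant family of homogeneous polynomials vanishing at the pole is trivial -/
theorem sinj_unique {U : Set (Pl 3)} {l : ℕ} (hU : ∀ u ∈ U, u.IsHomogeneous l)
    (hL : ∀ u ∈ U, ∀ k, Lop k u ∈ U) (h0 : ∀ u ∈ U, ev u npole = 0) {P : Pl 3} (hP : P ∈ U) :
    P = 0 := by
  set r : Pl 3 := ∑ j, X j ^ 2 with hr
  have hr1 : ev r npole = 1 := by
    simp [hr, ev, npole, Fin.sum_univ_three]
  have hM0 : ∀ g ∈ Ideal.span U, ev g npole = 0 := by
    intro g hg
    induction hg using Submodule.span_induction with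
    | mem u hu => exact h0 u hu
    | zero => simp [ev]
    | add p q _ _ hp hq => rw [ev_add, hp, hq, add_zero]
    | smul p q _ hq => rw [smul_eq_mul, ev_mul, hq, mul_zero]
  have hM1 : ∀ i, ∀ g ∈ Ideal.span U, r * pderiv i g ∈ Ideal.span U := by
    intro i g hg
    induction hg using Submodule.span_induction with
    | mem u hu =>
      rw [hr, sinj_r2_pderiv, (hU u hu).sum_X_mul_pderiv]
      refine Ideal.sub_mem _ (Ideal.mul_mem_left _ _ (nsmul_mem (Ideal.subset_span hu) _))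
        (Ideal.sub_mem _ (Ideal.mul_mem_left _ _ (Ideal.subset_span (hL u hu _)))
          (Ideal.mul_mem_left _ _ (Ideal.subset_span (hL u hu _))))
    | zero => simp
    | add p q _ _ hp hq => rw [map_add, mul_add]; exact Ideal.add_mem _ hp hq
    | smul p q hq' hq =>
      rw [smul_eq_mul, pderiv_mul,
        show r * (pderiv i p * q + p * pderiv i q) = (r * pderiv i p) * q + p * (r * pderiv i q) by
          ring]
      exact Ideal.add_mem _ (Ideal.mul_mem_left _ _ hq') (Ideal.mul_mem_left _ _ hq)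
  have hM2 : ∀ i (g : Pl 3) (k : ℕ), r ^ k * g ∈ Ideal.span U →
      r ^ (k + 1) * pderiv i g ∈ Ideal.span U := by
    intro i g k hg
    have e : r ^ (k + 1) * pderiv i g =
        r * pderiv i (r ^ k * g) - (k * pderiv i r) * (r ^ k * g) := by
      rw [pderiv_mul, pderiv_pow]
      rcases k with _ | k
      · simp
      · rw [Nat.add_sub_cancel]
        ring
    rw [e]
    exact Ideal.sub_mem _ (hM1 i _ hg) (Ideal.mul_mem_left _ _ hg)
  have key : ∀ (d : ℕ) (g : Pl 3) (k : ℕ), g.IsHomogeneous d → r ^ k * g ∈ Ideal.span U → g = 0 := by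
    intro d
    induction d with
    | zero =>
      intro g k hg hk
      rw [← totalDegree_zero_iff_isHomogeneous, totalDegree_eq_zero_iff_eq_C] at hg
      have h1 := hM0 _ hk
      have h2 : ev (r ^ k) npole = 1 := by
        unfold ev at hr1 ⊢
        rw [map_pow, hr1, one_pow]
      rw [ev_mul, h2, one_mul, hg] at h1
      unfold ev at h1
      rw [eval_C] at h1
      rw [hg, h1, C_0]
    | succ d ih =>
      intro g k hg hk
      have h1 : ∀ i, pderiv i g = 0 := fun i => ih _ _ hg.pderiv (hM2 i g k hk)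
      have h2 := hg.sum_X_mul_pderiv
      simp only [h1, mul_zero, Finset.sum_const_zero] at h2
      rw [← Nat.cast_smul_eq_nsmul ℝ] at h2
      exact (smul_eq_zero.1 h2.symm).resolve_left (by positivity)
  exact key l P 0 (hU P hP) (by simpa using Ideal.subset_span hP)

theorem Lop_mem_Hm (k : Fin 3) {l : ℕ} {P : Pl 3} (h : P ∈ Hm ℝ 3 l) : Lop k P ∈ Hm ℝ 3 l :=
  XA_mem_Hm (Bm_transpose k) h

theorem Jets.eq_zero {φ : ℤ → Fn3} (h : Jets φ) {l : ℕ} {P : Pl 3} (hP : P ∈ Hm ℝ 3 l)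
    (h0 : ∀ a, φ a P = 0) : P = 0 := by
  refine sinj_unique (U := {u | u ∈ Hm ℝ 3 l ∧ ∀ a, φ a u = 0}) (l := l)
    (fun u hu => (Submodule.mem_inf.1 hu.1).1) (fun u hu k => ⟨Lop_mem_Hm k hu.1, fun a => ?_⟩)
    (fun u hu => ?_) ⟨hP, h0⟩
  · have h1 := h.up (ε := 1) (Or.inl rfl) a hu.1
    have h2 := h.up (ε := -1) (Or.inr rfl) a hu.1
    rw [upF_apply, hu.2, mul_zero] at h1 h2
    push_cast at h1 h2
    fin_cases k
    · show φ a (Lop 0 u) = 0
      linear_combination (1 / 2) * h1 + (1 / 2) * h2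
    · show φ a (Lop 1 u) = 0
      linear_combination (-Complex.I / 2) * h1 + (Complex.I / 2) * h2
        + φ a (Lop 1 u) * Complex.I_mul_I
    · show φ a (Lop 2 u) = 0
      rw [h.wt a u, hu.2, mul_zero]
  · have h1 := hu.2 0
    rw [h.zero, ev0_apply] at h1
    exact_mod_cast h1

/-- the jets separate real coefficients -/
theorem Jets.sep {φ : ℤ → Fn3} (h : Jets φ) {Y : I0 → Pl 3} (hY : SB Y) {l : ℕ} {c : I0 → ℝ}
    (hc : ∀ i, c i ≠ 0 → dg i = l) (h0 : ∀ a, ∑ i ∈ lowI l, (c i : ℂ) * φ a (Y i) = 0) (j : I0) :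
    c j = 0 := by
  by_contra hj
  have hm : ∑ i ∈ lowI l, c i • Y i ∈ Hm ℝ 3 l := by
    refine Submodule.sum_mem _ fun i _ => ?_
    by_cases hi : c i = 0
    · rw [hi, zero_smul]; exact Submodule.zero_mem _
    · exact Submodule.smul_mem _ _ (hc i hi ▸ hY.mem i)
  have h1 := h.eq_zero hm fun a => by
    rw [map_sum, ← h0 a]
    exact Finset.sum_congr rfl fun i _ => by rw [map_smul, Complex.real_smul]
  have h2 := congrArg (fun P => sI (Y j * P)) h1
  simp only [Finset.mul_sum, mul_smul_comm, sI_sum, sI_smul, hY.orth, mul_zero, sI_zero, mul_ite,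
    mul_one, Finset.sum_ite_eq, mem_lowI, (hc j hj).le, if_true] at h2
  exact hj h2

/-- the jets separate complex coefficients -/
theorem Jets.sepC {φ : ℤ → Fn3} (h : Jets φ) {Y : I0 → Pl 3} (hY : SB Y) {l : ℕ} {c : I0 → ℂ}
    (hc : ∀ i, c i ≠ 0 → dg i = l) (h0 : ∀ a, ∑ i ∈ lowI l, c i * φ a (Y i) = 0) (j : I0) :
    c j = 0 := by
  have h1 : ∀ a, ∑ i ∈ lowI l, (starRingEnd ℂ) (c i) * φ a (Y i) = 0 := by
    intro a
    have h2 := congrArg (starRingEnd ℂ) (h0 (-a))
    simpa only [map_sum, map_mul, h.conj, neg_neg, map_zero] using h2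
  have hre := h.sep hY (c := fun i => (c i).re) (fun i hi => hc i fun e => hi (by simp [e]))
    (fun a => by
      have e : ∑ i ∈ lowI l, (((c i).re : ℝ) : ℂ) * φ a (Y i) =
          (∑ i ∈ lowI l, c i * φ a (Y i) + ∑ i ∈ lowI l, (starRingEnd ℂ) (c i) * φ a (Y i)) / 2 := by
        rw [← Finset.sum_add_distrib, Finset.sum_div]
        refine Finset.sum_congr rfl fun i _ => ?_
        rw [Complex.re_eq_add_conj]
        ring
      rw [e, h0, h1]
      simp) j
  have him := h.sep hY (c := fun i => (c i).im) (fun i hi => hc i fun e => hi (by simp [e]))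
    (fun a => by
      have e : ∑ i ∈ lowI l, (((c i).im : ℝ) : ℂ) * φ a (Y i) =
          (∑ i ∈ lowI l, c i * φ a (Y i) - ∑ i ∈ lowI l, (starRingEnd ℂ) (c i) * φ a (Y i)) /
            (2 * Complex.I) := by
        rw [← Finset.sum_sub_distrib, Finset.sum_div]
        refine Finset.sum_congr rfl fun i _ => ?_
        rw [Complex.im_eq_sub_conj]
        ring
      rw [e, h0, h1]
      simp) j
  exact Complex.ext hre him

end Crest.Agent.R202.SInj
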