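import Crest.Agent.R202.SDefs
import Crest.Agent.R202.PBasic

/-!
# R202/SInt: integration over the sphere and the algebra of the rotation fields

`sF f` only depends on the values of `f` on the unit sphere; for `f` continuous on the sphere the
integrand is bounded and measurable.  Invariance under linear isometries comes from
`LinearIsometryEquiv.measurePreserving`.  `sI_Lop`: differentiate `φ ↦ sI (P ∘ R_φ)` (constant) at
`0` under the integral, `R_φ` the rotation about the axis `k`.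
-/

open scoped ContDiff Topology Matrix RealInnerProductSpace
open Set Filter MvPolynomial

noncomputable section

namespace Crest.Agent.R202

/-- the unit sphere -/
abbrev S2 : Set (E 3) := Metric.sphere 0 1

theorem sInt_norm {x : E 3} (hx : x ≠ 0) : ‖‖x‖⁻¹ • x‖ = 1 := by
  rw [norm_smul, norm_inv, norm_norm, inv_mul_cancel₀ (norm_ne_zero_iff.2 hx)]

theorem sInt_ae : ∀ᵐ x ∂(MeasureTheory.volume.restrict (Metric.ball (0 : E 3) 1)), x ≠ 0 :=
  MeasureTheory.ae_restrict_of_ae (MeasureTheory.compl_mem_ae_iff.2 (MeasureTheory.measure_singleton 0))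

theorem sInt_contOn {f : E 3 → ℝ} (hf : ContinuousOn f S2) :
    ContinuousOn (fun x : E 3 => f (‖x‖⁻¹ • x)) {0}ᶜ :=
  hf.comp ((continuous_norm.continuousOn.inv₀ fun _ hx => norm_ne_zero_iff.2 hx).smul
    continuousOn_id) fun _ hx => mem_sphere_zero_iff_norm.2 (sInt_norm hx)

theorem sInt_meas {f : E 3 → ℝ} (hf : ContinuousOn f S2) :
    MeasureTheory.AEStronglyMeasurable (fun x : E 3 => f (‖x‖⁻¹ • x))
      (MeasureTheory.volume.restrict (Metric.ball (0 : E 3) 1)) := by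
  have h := (sInt_contOn hf).aestronglyMeasurable (μ := MeasureTheory.volume)
    (measurableSet_singleton 0).compl
  rw [MeasureTheory.restrict_compl_singleton] at h
  exact h.restrict

theorem sInt_int_of_bound {f : E 3 → ℝ} (hf : ContinuousOn f S2) {C : ℝ}
    (hC : ∀ x, ‖x‖ = 1 → |f x| ≤ C) :
    MeasureTheory.IntegrableOn (fun x : E 3 => f (‖x‖⁻¹ • x)) (Metric.ball 0 1) :=
  MeasureTheory.Measure.integrableOn_of_bounded MeasureTheory.measure_ball_lt_top.ne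
    (by
      have h := (sInt_contOn hf).aestronglyMeasurable (μ := MeasureTheory.volume)
        (measurableSet_singleton 0).compl
      rwa [MeasureTheory.restrict_compl_singleton] at h)
    (sInt_ae.mono fun _ hx => hC _ (sInt_norm hx))

theorem sInt_int {f : E 3 → ℝ} (hf : ContinuousOn f S2) :
    MeasureTheory.IntegrableOn (fun x : E 3 => f (‖x‖⁻¹ • x)) (Metric.ball 0 1) := by
  obtain ⟨C, hC⟩ := (isCompact_sphere (0 : E 3) 1).exists_bound_of_continuousOn hf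
  exact sInt_int_of_bound hf fun x hx => hC x (mem_sphere_zero_iff_norm.2 hx)

theorem sInt_cont (P : Pl 3) : ContinuousOn (ev P) S2 := (contDiff_ev P).continuous.continuousOn

theorem sF_congr {f g : E 3 → ℝ} (h : ∀ x, ‖x‖ = 1 → f x = g x) : sF f = sF g := by
  exact MeasureTheory.integral_congr_ae (sInt_ae.mono fun _ hx => h _ (sInt_norm hx))

theorem sF_add {f g : E 3 → ℝ} (hf : ContinuousOn f S2) (hg : ContinuousOn g S2) :
    sF (fun x => f x + g x) = sF f + sF g := by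
  exact MeasureTheory.integral_add (sInt_int hf) (sInt_int hg)

theorem sF_const_mul (c : ℝ) (f : E 3 → ℝ) : sF (fun x => c * f x) = c * sF f := by
  exact MeasureTheory.integral_const_mul _ _

theorem sF_mono {f g : E 3 → ℝ} (hf : ContinuousOn f S2) (hg : ContinuousOn g S2)
    (h : ∀ x, ‖x‖ = 1 → f x ≤ g x) : sF f ≤ sF g := by
  exact MeasureTheory.integral_mono_ae (sInt_int hf) (sInt_int hg)
    (sInt_ae.mono fun _ hx => h _ (sInt_norm hx))

theorem sF_eq_zero {f : E 3 → ℝ} (hf : ContinuousOn f S2) (h : ∀ x, ‖x‖ = 1 → 0 ≤ f x)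
    (h0 : sF f ≤ 0) (x : E 3) (hx : ‖x‖ = 1) : f x = 0 := by
  have h1 : 0 ≤ᵐ[MeasureTheory.volume.restrict (Metric.ball (0 : E 3) 1)]
      fun x : E 3 => f (‖x‖⁻¹ • x) := sInt_ae.mono fun _ hx => h _ (sInt_norm hx)
  have h2 := (MeasureTheory.integral_eq_zero_iff_of_nonneg_ae h1 (sInt_int hf)).1
    (le_antisymm h0 (MeasureTheory.integral_nonneg_of_ae h1))
  have h3 := MeasureTheory.Measure.eqOn_open_of_ae_eq (U := Metric.ball (0 : E 3) 1 ∩ {0}ᶜ)
    (MeasureTheory.ae_restrict_of_ae_restrict_of_subset inter_subset_left h2)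
    (Metric.isOpen_ball.inter isOpen_compl_singleton) ((sInt_contOn hf).mono inter_subset_right)
    continuousOn_const
  have h4 : ‖(1 / 2 : ℝ) • x‖ = 1 / 2 := by rw [norm_smul, hx]; norm_num
  have h5 := h3 (x := (1 / 2 : ℝ) • x) ⟨by rw [mem_ball_zero_iff, h4]; norm_num,
    norm_ne_zero_iff.1 (by rw [h4]; norm_num)⟩
  simp only [h4, smul_smul] at h5
  norm_num at h5
  exact h5

theorem sF_isometry (T : E 3 ≃ₗᵢ[ℝ] E 3) (f : E 3 → ℝ) : sF (fun x => f (T x)) = sF f := by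
  have h := T.measurePreserving.setIntegral_preimage_emb T.toHomeomorph.measurableEmbedding
    (fun x : E 3 => f (‖x‖⁻¹ • x)) (Metric.ball 0 1)
  have h2 : T ⁻¹' Metric.ball 0 1 = Metric.ball 0 1 := by
    ext x; simp
  rw [h2] at h
  simpa only [sF, T.norm_map, map_smul] using h

theorem sInt_mv (A : Mat 3) (hA : ∀ x, ‖mv A x‖ = ‖x‖) (f : E 3 → ℝ) :
    sF (fun x => f (mv A x)) = sF f :=
  sF_isometry (LinearIsometry.toLinearIsometryEquiv ⟨Matrix.toLpLin 2 2 A, hA⟩ rfl) f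

theorem sInt_norm_eq {x y : E 3} (h : x 0 ^ 2 + x 1 ^ 2 + x 2 ^ 2 = y 0 ^ 2 + y 1 ^ 2 + y 2 ^ 2) :
    ‖x‖ = ‖y‖ := by
  simp only [EuclideanSpace.norm_eq, Real.norm_eq_abs, sq_abs, Fin.sum_univ_three, h]

theorem sInt_sq (x : E 3) : x 0 ^ 2 + x 1 ^ 2 + x 2 ^ 2 = ‖x‖ ^ 2 := by
  simp only [EuclideanSpace.norm_sq_eq, Real.norm_eq_abs, sq_abs, Fin.sum_univ_three]

theorem sF_rf (f : E 3 → ℝ) : sF (fun x => f (rf x)) = sF f := by
  have h : ∀ x, mv !![1, 0, 0; 0, -1, 0; 0, 0, -1] x = rf x := fun x => by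
    ext i
    fin_cases i <;> simp [rf, Fin.sum_univ_three]
  have := sInt_mv !![1, 0, 0; 0, -1, 0; 0, 0, -1] (fun x => by
    rw [h]; exact sInt_norm_eq (by simp [rf])) f
  simpa only [h] using this

theorem sF_tsum {ι : Type} [Countable ι] {f : ι → E 3 → ℝ} {M : ι → ℝ}
    (hf : ∀ i, ContinuousOn (f i) S2) (hM : ∀ i x, ‖x‖ = 1 → |f i x| ≤ M i) (hs : Summable M) :
    sF (fun x => ∑' i, f i x) = ∑' i, sF (f i) := by
  refine (MeasureTheory.integral_tsum_of_summable_integral_norm (fun i => sInt_int (hf i)) ?_).symm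
  refine (hs.mul_right (sF fun _ => 1)).of_nonneg_of_le
    (fun i => MeasureTheory.integral_nonneg fun _ => norm_nonneg _) fun i => ?_
  rw [← sF_const_mul]
  exact sF_mono (f := fun x => ‖f i x‖) (hf i).norm continuousOn_const fun x hx => by
    simpa using hM i x hx

theorem sI_add (P Q : Pl 3) : sI (P + Q) = sI P + sI Q := by
  rw [sI, sI, sI, ← sF_add (sInt_cont P) (sInt_cont Q)]
  exact sF_congr fun x _ => ev_add P Q x

theorem sI_smul (c : ℝ) (P : Pl 3) : sI (c • P) = c * sI P := by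
  rw [sI, sI, ← sF_const_mul]
  exact sF_congr fun x _ => ev_smul c P x

theorem sI_neg (P : Pl 3) : sI (-P) = -sI P := by
  rw [← neg_one_smul ℝ P, sI_smul, neg_one_mul]

theorem sI_sub (P Q : Pl 3) : sI (P - Q) = sI P - sI Q := by
  rw [sub_eq_add_neg, sI_add, sI_neg, sub_eq_add_neg]

theorem sI_zero : sI 0 = 0 := by
  rw [← zero_smul ℝ (0 : Pl 3), sI_smul, zero_mul]

theorem sI_sum {ι : Type} (s : Finset ι) (P : ι → Pl 3) : sI (∑ i ∈ s, P i) = ∑ i ∈ s, sI (P i) := by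
  classical
  induction s using Finset.induction_on with
  | empty => simp [sI_zero]
  | insert a s ha ih => rw [Finset.sum_insert ha, Finset.sum_insert ha, sI_add, ih]

theorem sI_congr {P Q : Pl 3} (h : ∀ x, ‖x‖ = 1 → ev P x = ev Q x) : sI P = sI Q := by
  exact sF_congr h

theorem sI_mono {P Q : Pl 3} (h : ∀ x, ‖x‖ = 1 → ev P x ≤ ev Q x) : sI P ≤ sI Q := by
  exact sF_mono (sInt_cont P) (sInt_cont Q) h

theorem sI_one_pos : 0 < sI 1 := by
  by_contra h
  have := sF_eq_zero (sInt_cont 1) (fun x _ => by simp [ev]) (not_lt.1 h)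
    (EuclideanSpace.single 0 1) (by simp)
  simp [ev] at this

theorem sI_sq_nonneg (P : Pl 3) : 0 ≤ sI (P ^ 2) := by
  rw [← sI_zero]
  exact sI_mono fun x _ => by simp [ev, sq_nonneg]

theorem ev_eq_zero_of_sI_sq {P : Pl 3} (h : sI (P ^ 2) ≤ 0) (x : E 3) (hx : ‖x‖ = 1) :
    ev P x = 0 := by
  have := sF_eq_zero (sInt_cont (P ^ 2)) (fun x _ => by simp [ev, sq_nonneg]) h x hx
  simpa [ev] using this

theorem exists_ev_bound (P : Pl 3) : ∃ C : ℝ, 0 ≤ C ∧ ∀ x : E 3, ‖x‖ ≤ 1 → |ev P x| ≤ C := by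
  obtain ⟨C, hC⟩ := (isCompact_closedBall (0 : E 3) 1).exists_bound_of_continuousOn
    (contDiff_ev P).continuous.continuousOn
  exact ⟨|C|, abs_nonneg _, fun x hx => (hC x (mem_closedBall_zero_iff.2 hx)).trans (le_abs_self _)⟩

theorem abs_sI_mul_le {ρ : Pl 3} {C : ℝ} (h : ∀ x : E 3, ‖x‖ = 1 → |ev ρ x| ≤ C) (P Q : Pl 3) :
    2 * |sI (P * (ρ * Q))| ≤ C * (sI (P ^ 2) + sI (Q ^ 2)) := by
  have e : ∀ x, ev (C • (P ^ 2 + Q ^ 2)) x = C * (ev P x ^ 2 + ev Q x ^ 2) := fun x => by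
    simp [ev, mul_add]
  have e' : ∀ c x, ev (c • (P * (ρ * Q))) x = c * (ev P x * (ev ρ x * ev Q x)) := fun c x => by
    simp [ev]
  have key : ∀ c : ℝ, c ^ 2 = 1 → 2 * c * sI (P * (ρ * Q)) ≤ C * (sI (P ^ 2) + sI (Q ^ 2)) := by
    intro c hc
    rw [← sI_add, ← sI_smul, ← sI_smul]
    refine sI_mono fun x hx => ?_
    obtain ⟨h1, h2⟩ := abs_le.1 (h x hx)
    rw [e, e']
    have h3 := mul_nonneg (show 0 ≤ C + ev ρ x by linarith) (sq_nonneg (ev P x - c * ev Q x))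
    have h4 := mul_nonneg (show 0 ≤ C - ev ρ x by linarith) (sq_nonneg (ev P x + c * ev Q x))
    have h5 : C * (c ^ 2 * ev Q x ^ 2) = C * ev Q x ^ 2 := by rw [hc, one_mul]
    linarith
  have h1 := key 1 (by norm_num)
  have h2 := key (-1) (by norm_num)
  rcases abs_cases (sI (P * (ρ * Q))) with h3 | h3 <;> linarith [h3.1]

theorem sInt_ev_r2 {x : E 3} (hx : ‖x‖ = 1) : ev (∑ i, X i ^ 2) x = 1 := by
  have := sInt_sq x
  rw [hx, one_pow] at this
  simpa [ev, Fin.sum_univ_three] using this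

theorem sI_r2_mul (P : Pl 3) : sI ((∑ i, X i ^ 2) * P) = sI P := by
  exact sI_congr fun x hx => by rw [ev_mul, sInt_ev_r2 hx, one_mul]

theorem Bm_transpose (k : Fin 3) : (Bm k)ᵀ = -Bm k := by
  ext i j
  fin_cases k <;> fin_cases i <;> fin_cases j <;> simp [Bm]

theorem Lop_apply (k : Fin 3) (P : Pl 3) :
    Lop k P = X (k + 1) * pderiv (k + 2) P - X (k + 2) * pderiv (k + 1) P := by
  fin_cases k <;> simp [Lop, XA_apply, Bm, Fin.sum_univ_three, sub_eq_add_neg, add_comm]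

theorem sInt_L0 (P : Pl 3) : Lop 0 P = X 1 * pderiv 2 P - X 2 * pderiv 1 P := Lop_apply 0 P

theorem sInt_L1 (P : Pl 3) : Lop 1 P = X 2 * pderiv 0 P - X 0 * pderiv 2 P := Lop_apply 1 P

theorem sInt_L2 (P : Pl 3) : Lop 2 P = X 0 * pderiv 1 P - X 1 * pderiv 0 P := Lop_apply 2 P

theorem Lop_mul (k : Fin 3) (P Q : Pl 3) : Lop k (P * Q) = Lop k P * Q + P * Lop k Q := by
  exact XA_mul _ P Q

theorem Lop_lie (k : Fin 3) (P : Pl 3) :
    Lop k (Lop (k + 1) P) - Lop (k + 1) (Lop k P) = -Lop (k + 2) P := by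
  have h : Bm (k + 1) * Bm k - Bm k * Bm (k + 1) = (-1 : ℝ) • Bm (k + 2) := by
    ext i j
    fin_cases k <;> fin_cases i <;> fin_cases j <;> simp [Bm, Matrix.mul_apply]
  have := LinearMap.congr_fun (XA_lie (Bm k) (Bm (k + 1))) P
  rw [h, XA_smul] at this
  simpa [Lop] using this

theorem sum_X_mul_Lop (P : Pl 3) : ∑ k, X k * Lop k P = 0 := by
  rw [Fin.sum_univ_three, sInt_L0, sInt_L1, sInt_L2]
  ring

theorem totalDegree_Lop_le (k : Fin 3) (P : Pl 3) : (Lop k P).totalDegree ≤ P.totalDegree := by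
  conv_lhs => rw [← P.sum_homogeneousComponent, map_sum]
  refine totalDegree_finsetSum_le fun i hi => ?_
  exact (XA_isHomogeneous _ (homogeneousComponent_isHomogeneous i P)).totalDegree_le.trans
    (Nat.lt_succ_iff.1 (Finset.mem_range.1 hi))

/-- the rotation about the axis `k` -/
def sInt_rot (k : Fin 3) (φ : ℝ) : Mat 3 :=
  1 + Real.sin φ • Bm k + (1 - Real.cos φ) • (Bm k * Bm k)

theorem sInt_rot_norm (k : Fin 3) (φ : ℝ) (x : E 3) : ‖mv (sInt_rot k φ) x‖ = ‖x‖ := by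
  refine sInt_norm_eq ?_
  have h := Real.sin_sq_add_cos_sq φ
  fin_cases k <;>
    simp [sInt_rot, Bm, Matrix.mul_apply, Fin.sum_univ_three, Matrix.one_apply]
  · linear_combination (x 1 ^ 2 + x 2 ^ 2) * h
  · linear_combination (x 0 ^ 2 + x 2 ^ 2) * h
  · linear_combination (x 0 ^ 2 + x 1 ^ 2) * h

theorem sInt_rot_deriv (k : Fin 3) (P : Pl 3) (x : E 3) (φ : ℝ) :
    HasDerivAt (fun φ => ev P (mv (sInt_rot k φ) x)) (ev (Lop k P) (mv (sInt_rot k φ) x)) φ := by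
  have h1 : ∀ φ, mv (sInt_rot k φ) x =
      x + Real.sin φ • mv (Bm k) x + (1 - Real.cos φ) • mv (Bm k * Bm k) x := fun φ => by
    ext i
    simp only [mv, sInt_rot, Matrix.add_mulVec, Matrix.smul_mulVec, Matrix.one_mulVec,
      PiLp.add_apply, PiLp.smul_apply, Pi.add_apply, Pi.smul_apply]
  have h2 : HasDerivAt (fun φ => mv (sInt_rot k φ) x) (mv (Bm k) (mv (sInt_rot k φ) x)) φ := by
    simp only [h1]
    refine ((((Real.hasDerivAt_sin φ).smul_const _).const_add x).fun_add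
      (((Real.hasDerivAt_cos φ).const_sub 1).smul_const _)).congr_deriv ?_
    ext i
    fin_cases k <;> fin_cases i <;> simp [Bm, Matrix.mul_apply, Fin.sum_univ_three] <;> ring
  rw [Lop, ← fderiv_ev_mv]
  exact ((contDiff_ev P).differentiable (by simp) _).hasFDerivAt.comp_hasDerivAt φ h2

theorem sInt_cont_mv (A : Mat 3) : Continuous (mv A) :=
  (Matrix.toLpLin 2 2 A).continuous_of_finiteDimensional

theorem sI_Lop (k : Fin 3) (P : Pl 3) : sI (Lop k P) = 0 := by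
  obtain ⟨C, -, hC⟩ := exists_ev_bound (Lop k P)
  have hc : ∀ (Q : Pl 3) φ, ContinuousOn (fun x => ev Q (mv (sInt_rot k φ) x)) S2 := fun Q φ =>
    ((contDiff_ev Q).continuous.comp (sInt_cont_mv _)).continuousOn
  have h := (hasDerivAt_integral_of_dominated_loc_of_deriv_le
    (μ := MeasureTheory.volume.restrict (Metric.ball (0 : E 3) 1)) (x₀ := (0 : ℝ))
    (F := fun φ x => ev P (mv (sInt_rot k φ) (‖x‖⁻¹ • x)))
    (F' := fun φ x => ev (Lop k P) (mv (sInt_rot k φ) (‖x‖⁻¹ • x))) (bound := fun _ => C)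
    univ_mem (Eventually.of_forall fun φ => sInt_meas (hc P φ)) (sInt_int (hc P 0))
    (sInt_meas (hc _ 0))
    (sInt_ae.mono fun x hx φ _ => hC _ (by rw [sInt_rot_norm, sInt_norm hx]))
    (sInt_int (f := fun _ => C) continuousOn_const)
    (Eventually.of_forall fun x φ _ => sInt_rot_deriv k P _ φ)).2
  have h2 : (fun φ => ∫ x in Metric.ball (0 : E 3) 1, ev P (mv (sInt_rot k φ) (‖x‖⁻¹ • x))) =
      fun _ => sI P := funext fun φ => sInt_mv _ (sInt_rot_norm k φ) (ev P)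
  rw [h2] at h
  exact (sInt_mv _ (sInt_rot_norm k 0) (ev (Lop k P))).symm.trans
    (h.unique (hasDerivAt_const _ _))

theorem sI_mul_Lop (k : Fin 3) (P Q : Pl 3) : sI (P * Lop k Q) = -sI (Lop k P * Q) := by
  have := sI_Lop k (P * Q)
  rw [Lop_mul, sI_add] at this
  linarith

theorem sInt_euler {P : Pl 3} {l : ℕ} (h : P.IsHomogeneous l) :
    X 0 * pderiv 0 P + X 1 * pderiv 1 P + X 2 * pderiv 2 P = C (l : ℝ) * P := by
  have := h.sum_X_mul_pderiv
  rwa [Fin.sum_univ_three, nsmul_eq_mul, ← map_natCast (C : ℝ →+* Pl 3)] at this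

/-- `Σ Lₖ² = r² Δ - E (E + 1)` -/
theorem op0_of_isHomogeneous {P : Pl 3} {l : ℕ} (h : P.IsHomogeneous l) :
    op0 P = ((l : ℝ) * (l + 1)) • P - (∑ i, X i ^ 2) * lapP P := by
  have h0 := sInt_euler h
  have h1 := congrArg (pderiv 0) h0
  have h2 := congrArg (pderiv 1) h0
  have h3 := congrArg (pderiv 2) h0
  simp only [op0, lapP_apply, Fin.sum_univ_three, sInt_L0, sInt_L1, sInt_L2, smul_eq_C_mul]
  simp only [map_add, map_sub, map_mul, map_one, pderiv_mul, pderiv_C, pderiv_X, Pi.single_apply,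
    Fin.isValue, Fin.reduceEq, if_true, if_false, pb_pderiv_comm 1 0, pb_pderiv_comm 2 0,
    pb_pderiv_comm 2 1] at h1 h2 h3 ⊢
  linear_combination X 0 * h1 + X 1 * h2 + X 2 * h3 + (C (l : ℝ) + 1) * h0

theorem op0_of_mem {P : Pl 3} {l : ℕ} (h : P ∈ Hm ℝ 3 l) : op0 P = lam 1 l • P := by
  obtain ⟨h1, h2⟩ := Submodule.mem_inf.1 h
  rw [op0_of_isHomogeneous h1, LinearMap.mem_ker.1 h2, mul_zero, sub_zero, lam]

theorem sInt_div (P : Pl 3) (V : Fin 3 → Pl 3) :
    sI (P * -∑ k, Lop k (V k)) = ∑ k, sI (Lop k P * V k) := by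
  rw [mul_neg, sI_neg, Finset.mul_sum, sI_sum, ← Finset.sum_neg_distrib]
  exact Finset.sum_congr rfl fun k _ => by rw [sI_mul_Lop, neg_neg]

theorem sI_mul_op0 (P Q : Pl 3) : sI (P * op0 Q) = ∑ k, sI (Lop k P * Lop k Q) := by
  exact sInt_div P _

theorem sI_mul_op1 (a : Fin 3 → Pl 3) (P Q : Pl 3) :
    sI (P * op1 a Q) = sI (Lv a P * Lv (crs a) Q + Lv (crs a) P * Lv a Q) := by
  rw [op1, sInt_div, ← sI_sum]
  refine congrArg sI ?_
  generalize Lv (crs a) Q = u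
  generalize Lv a Q = v
  simp only [Lv, Fin.sum_univ_three]
  ring

theorem sI_mul_op2 (a : Fin 3 → Pl 3) (P Q : Pl 3) :
    sI (P * op2 a Q) = sI (nP a * Lv a P * Lv a Q) := by
  rw [op2, sInt_div, ← sI_sum]
  refine congrArg sI ?_
  generalize Lv a Q = v
  simp only [Lv, Fin.sum_univ_three]
  ring

theorem sI_mul_of_ne {P Q : Pl 3} {l l' : ℕ} (hP : P ∈ Hm ℝ 3 l) (hQ : Q ∈ Hm ℝ 3 l')
    (h : l ≠ l') : sI (P * Q) = 0 := by
  have h1 := sI_mul_op0 P Q
  have h2 := sI_mul_op0 Q P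
  rw [op0_of_mem hQ, mul_smul_comm, sI_smul] at h1
  rw [op0_of_mem hP, mul_smul_comm, sI_smul, mul_comm Q P] at h2
  simp only [mul_comm (Lop _ Q)] at h2
  have h3 : ((l : ℝ) - l') * (l + l' + 1) * sI (P * Q) = 0 := by
    unfold lam at h1 h2
    linear_combination h2 - h1
  have h4 : (l : ℝ) - l' ≠ 0 := sub_ne_zero.2 (by exact_mod_cast h)
  exact (mul_eq_zero.1 h3).resolve_left (mul_ne_zero h4 (by positivity))

/-- `|∇P|² = l² P² + Σ (Lₖ P)²` on the sphere -/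
theorem sum_sI_pderiv_sq {P : Pl 3} {l : ℕ} (h : P ∈ Hm ℝ 3 l) :
    ∑ k, sI (pderiv k P ^ 2) = (l : ℝ) * (2 * l + 1) * sI (P ^ 2) := by
  have h0 := sInt_euler (Submodule.mem_inf.1 h).1
  have h1 := sI_mul_op0 P P
  have h2 : (∑ i, X i ^ 2) * ∑ k, pderiv k P ^ 2 =
      ((l : ℝ) ^ 2) • P ^ 2 + ∑ k, Lop k P * Lop k P := by
    simp only [Fin.sum_univ_three, sInt_L0, sInt_L1, sInt_L2, smul_eq_C_mul, map_pow]
    linear_combination (X 0 * pderiv 0 P + X 1 * pderiv 1 P + X 2 * pderiv 2 P + C (l : ℝ) * P) * h0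
  rw [op0_of_mem h, mul_smul_comm, sI_smul, ← sq] at h1
  rw [← sI_sum, ← sI_r2_mul, h2, sI_add, sI_smul, sI_sum, ← h1, lam]
  ring

/-- a polynomial killed by all `Lₖ` is constant on the sphere (rotate about the axes, or join two
points by a great circle) -/
theorem ev_const_of_Lop {P : Pl 3} (h : ∀ k x, ‖x‖ = 1 → ev (Lop k P) x = 0) {x y : E 3}
    (hx : ‖x‖ = 1) (hy : ‖y‖ = 1) : ev P x = ev P y := by
  have tang : ∀ x w : E 3, ‖x‖ = 1 → ⟪x, w⟫ = 0 → fderiv ℝ (ev P) x w = 0 := by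
    intro x w hx hw
    have h1 := sInt_sq x
    rw [hx, one_pow] at h1
    have h2 : x 0 * w 0 + x 1 * w 1 + x 2 * w 2 = 0 := by
      simpa [PiLp.inner_apply, Fin.sum_univ_three, mul_comm] using hw
    have h3 : w = (x 1 * w 2 - x 2 * w 1) • mv (Bm 0) x + (x 2 * w 0 - x 0 * w 2) • mv (Bm 1) x +
        (x 0 * w 1 - x 1 * w 0) • mv (Bm 2) x := by
      ext i
      fin_cases i <;> simp [Bm]
      · linear_combination x 0 * h2 - w 0 * h1
      · linear_combination x 1 * h2 - w 1 * h1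
      · linear_combination x 2 * h2 - w 2 * h1
    have h4 : ∀ k, fderiv ℝ (ev P) x (mv (Bm k) x) = 0 := fun k => (fderiv_ev_mv P _ x).trans (h k x hx)
    rw [h3]
    simp only [map_add, map_smul, h4, smul_zero, add_zero]
  have key : ∀ v ∈ ({0}ᶜ : Set (E 3)), HasFDerivAt (fun v : E 3 => ev P (‖v‖⁻¹ • v))
      (0 : E 3 →L[ℝ] ℝ) v := by
    intro v hv
    have d1 : DifferentiableAt ℝ (fun v : E 3 => ‖v‖⁻¹ • v) v :=
      ((differentiableAt_id.norm ℝ hv).inv (norm_ne_zero_iff.2 hv)).smul differentiableAt_id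
    have d2 := d1.hasFDerivAt.norm_sq
    have d3 : (fun v : E 3 => ‖‖v‖⁻¹ • v‖ ^ 2) =ᶠ[𝓝 v] fun _ => 1 := by
      filter_upwards [isOpen_compl_singleton.mem_nhds hv] with u hu
      rw [sInt_norm hu, one_pow]
    have d4 := d2.unique ((hasFDerivAt_const 1 v).congr_of_eventuallyEq d3)
    refine (((contDiff_ev P).differentiable (by simp) _).hasFDerivAt.comp v d1.hasFDerivAt).congr_fderiv
      (ContinuousLinearMap.ext fun w => tang _ _ (sInt_norm hv) ?_)
    have d5 := ContinuousLinearMap.ext_iff.1 d4 w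
    simp only [smul_apply, ContinuousLinearMap.comp_apply, innerSL_apply_apply, zero_apply,
      smul_eq_zero, OfNat.ofNat_ne_zero, false_or] at d5
    exact d5
  have hc : IsPreconnected ({0}ᶜ : Set (E 3)) :=
    (isConnected_compl_singleton_of_one_lt_rank (by
      rw [← Module.finrank_eq_rank, finrank_euclideanSpace_fin]; norm_num) 0).isPreconnected
  have := isOpen_compl_singleton.is_const_of_fderiv_eq_zero hc
    (fun v hv => (key v hv).differentiableAt.differentiableWithinAt) (fun v hv => (key v hv).fderiv)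
    (x := x) (y := y) (norm_ne_zero_iff.1 (by rw [hx]; norm_num))
    (norm_ne_zero_iff.1 (by rw [hy]; norm_num))
  simpa only [hx, hy, inv_one, one_smul] using this

theorem sInt_zri1 (l : ℕ) : (zri (l + 1)).1 = X 0 * (zri l).1 - X 1 * (zri l).2 := rfl

theorem sInt_zri2 (l : ℕ) : (zri (l + 1)).2 = X 0 * (zri l).2 + X 1 * (zri l).1 := rfl

theorem Lop_zri (l : ℕ) : Lop 2 (zri l).1 = (-(l : ℝ)) • (zri l).2 ∧
    Lop 2 (zri l).2 = (l : ℝ) • (zri l).1 := by
  have h0 : Lop 2 (X 0) = -X 1 := by simp [sInt_L2, pderiv_X]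
  have h1 : Lop 2 (X 1) = X 0 := by simp [sInt_L2, pderiv_X]
  induction l with
  | zero => simp [zri, sInt_L2]
  | succ l ih =>
    simp only [sInt_zri1, sInt_zri2, map_sub, map_add, Lop_mul, h0, h1, ih.1, ih.2, smul_eq_C_mul,
      Nat.cast_succ, map_neg, map_one]
    constructor <;> ring

theorem sInt_zri_cr (l : ℕ) : pderiv 0 (zri l).1 = pderiv 1 (zri l).2 ∧
    pderiv 0 (zri l).2 = -pderiv 1 (zri l).1 ∧ pderiv 2 (zri l).1 = 0 ∧ pderiv 2 (zri l).2 = 0 := by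
  induction l with
  | zero => simp [zri]
  | succ l ih =>
    simp only [sInt_zri1, sInt_zri2, map_sub, map_add, pderiv_mul, pderiv_X, Pi.single_apply,
      Fin.isValue, Fin.reduceEq, if_true, if_false, ih.1, ih.2.1, ih.2.2.1, ih.2.2.2]
    refine ⟨?_, ?_, ?_, ?_⟩ <;> ring

theorem sInt_zri_hom (l : ℕ) : (zri l).1.IsHomogeneous l ∧ (zri l).2.IsHomogeneous l := by
  induction l with
  | zero => exact ⟨isHomogeneous_one _ _, isHomogeneous_zero _ _ _⟩
  | succ l ih =>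
    rw [sInt_zri1, sInt_zri2, add_comm l 1]
    exact ⟨((isHomogeneous_X ℝ 0).mul ih.1).sub ((isHomogeneous_X ℝ 1).mul ih.2),
      ((isHomogeneous_X ℝ 0).mul ih.2).add ((isHomogeneous_X ℝ 1).mul ih.1)⟩

theorem zri_mem (l : ℕ) : (zri l).1 ∈ Hm ℝ 3 l ∧ (zri l).2 ∈ Hm ℝ 3 l := by
  obtain ⟨h1, h2, h3, h4⟩ := sInt_zri_cr l
  refine ⟨Submodule.mem_inf.2 ⟨(sInt_zri_hom l).1, LinearMap.mem_ker.2 ?_⟩,
    Submodule.mem_inf.2 ⟨(sInt_zri_hom l).2, LinearMap.mem_ker.2 ?_⟩⟩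
  · rw [lapP_apply, Fin.sum_univ_three, h1, h3, pb_pderiv_comm 0 1, h2]
    simp
  · rw [lapP_apply, Fin.sum_univ_three, h2, h4, ← h1, pb_pderiv_comm 1 0]
    simp

theorem sInt_zri_add (l m : ℕ) : (zri (l + m)).1 = (zri l).1 * (zri m).1 - (zri l).2 * (zri m).2 ∧
    (zri (l + m)).2 = (zri l).1 * (zri m).2 + (zri l).2 * (zri m).1 := by
  induction m with
  | zero => simp [zri]
  | succ m ih =>
    simp only [← add_assoc, sInt_zri1, sInt_zri2, ih.1, ih.2]
    constructor <;> ring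

theorem zri_sq (l : ℕ) : (zri l).1 ^ 2 + (zri l).2 ^ 2 = (X 0 ^ 2 + X 1 ^ 2) ^ l ∧
    (zri l).1 ^ 2 - (zri l).2 ^ 2 = (zri (2 * l)).1 ∧
    2 * ((zri l).1 * (zri l).2) = (zri (2 * l)).2 := by
  refine ⟨?_, ?_, ?_⟩
  · induction l with
    | zero => simp [zri]
    | succ l ih =>
      rw [sInt_zri1, sInt_zri2, pow_succ _ l, ← ih]
      ring
  · rw [two_mul, (sInt_zri_add l l).1]
    ring
  · rw [two_mul l, (sInt_zri_add l l).2]
    ring

theorem sInt_crs0 : crs aD 0 = X 2 * X 0 := by simp [crs, aD]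

theorem sInt_crs1 : crs aD 1 = X 2 * X 1 := by simp [crs, aD]

theorem sInt_crs2 : crs aD 2 = -(X 0 ^ 2 + X 1 ^ 2) := by
  simp [crs, aD]
  ring

theorem Lv_crs_aD (P : Pl 3) : Lv (crs aD) P = -((∑ i, X i ^ 2) * Lop 2 P) := by
  simp only [Lv, Fin.sum_univ_three, sInt_crs0, sInt_crs1, sInt_crs2, sInt_L0, sInt_L1, sInt_L2]
  ring

theorem Lv_aD (P : Pl 3) : Lv aD P = X 1 * Lop 0 P - X 0 * Lop 1 P := by
  simp [Lv, Fin.sum_univ_three, aD, sub_eq_add_neg]

theorem nP_aD : nP aD = (∑ i, X i ^ 2) * (X 0 ^ 2 + X 1 ^ 2) := by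
  simp only [nP, Fin.sum_univ_three, sInt_crs0, sInt_crs1, sInt_crs2]
  ring

end Crest.Agent.R202
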