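import Crest.Agent.R202.SInt
import Crest.Agent.R202.OdeBasic

/-!
# R202/SMat: the matrices `mR`, `mQ1`, `mQ2`; sup bounds; good families
-/

open scoped ContDiff Topology Matrix
open Set Filter MvPolynomial

noncomputable section

namespace Crest.Agent.R202

variable {Y : I0 → Pl 3}

theorem card_deg_eq (l : ℕ) : ((lowI l).filter fun i => dg i = l).card = 2 * l + 1 := by
  have h : ((lowI l).filter fun i => dg i = l).card = (Finset.Icc (-(l : ℤ)) l).card := by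
    refine Finset.card_bij (fun i _ => i.1.2) (fun i hi => ?_) (fun i hi j hj h => ?_) fun m hm => ?_
    · have h1 : i.1.1 = l := (Finset.mem_filter.1 hi).2
      have h2 := i.2
      rw [Finset.mem_Icc]
      omega
    · have h1 : i.1.1 = l := (Finset.mem_filter.1 hi).2
      have h2 : j.1.1 = l := (Finset.mem_filter.1 hj).2
      exact Subtype.ext (Prod.ext (h1.trans h2.symm) h)
    · rw [Finset.mem_Icc] at hm
      exact ⟨⟨(l, m), by simp only; omega⟩, Finset.mem_filter.2 ⟨mem_lowI.2 le_rfl, rfl⟩, rfl⟩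
  rw [h, Int.card_Icc]
  omega

theorem SMat_sum_lowI {M : Type} [AddCommMonoid M] (N : ℕ) (f : I0 → M) :
    ∑ i ∈ lowI N, f i = ∑ l ∈ Finset.range (N + 1), ∑ i ∈ (lowI l).filter (fun i => dg i = l), f i := by
  rw [← Finset.sum_fiberwise_of_maps_to (s := lowI N) (t := Finset.range (N + 1)) (g := dg)
    fun i hi => Finset.mem_range.2 (Nat.lt_succ_of_le (mem_lowI.1 hi))]
  refine Finset.sum_congr rfl fun l hl => Finset.sum_congr ?_ fun _ _ => rfl
  ext i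
  have := Finset.mem_range.1 hl
  simp only [Finset.mem_filter, mem_lowI]
  omega

theorem SMat_sum_odd (N : ℕ) : ∑ l ∈ Finset.range (N + 1), (2 * l + 1) = (N + 1) ^ 2 := by
  induction N with
  | zero => simp
  | succ N ih =>
    rw [Finset.sum_range_succ, ih]
    ring

theorem card_lowI (N : ℕ) : (lowI N).card = (N + 1) ^ 2 := by
  rw [Finset.card_eq_sum_ones, SMat_sum_lowI, ← SMat_sum_odd]
  exact Finset.sum_congr rfl fun l _ => by rw [← Finset.card_eq_sum_ones, card_deg_eq]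

theorem eq_of_sec_of_dg {i j : I0} (h : sec i = sec j) (h' : dg i = dg j) : i = j := by
  obtain ⟨⟨l, m⟩, hi⟩ := i
  obtain ⟨⟨l', m'⟩, hj⟩ := j
  obtain rfl : l = l' := h'
  obtain ⟨h1, h2⟩ := Prod.ext_iff.1 h
  simp only [sec, sgn] at h1 h2
  rw [h1] at h2
  have h3 := mul_left_cancel₀ (pow_ne_zero _ (by norm_num)) h2
  refine Subtype.ext (Prod.ext rfl ?_)
  simp only
  split_ifs at h3 <;> omega

theorem exists_sec_gt (i : I0) (N : ℕ) : ∃ j, sec j = sec i ∧ N < dg j := by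
  refine ⟨⟨(i.1.1 + 2 * (N + 1), i.1.2), i.2.trans (Nat.le_add_right _ _)⟩, ?_, ?_⟩
  · simp only [sec, sgn]
    rw [add_right_comm, pow_add _ _ (2 * (N + 1)), pow_mul]
    simp
  · simp only [dg]
    omega

theorem emb_injective (L N : ℕ) : Function.Injective (emb L N) := by
  rintro (i | i) (j | j) h
  · exact congrArg Sum.inl (Subtype.ext h)
  · have h1 : i.1 = j.1 := h
    have h2 := i.2.2
    have h3 := j.2.1
    rw [h1] at h2
    omega
  · have h1 : i.1 = j.1 := h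
    have h2 := i.2.1
    have h3 := j.2.2
    rw [h1] at h2
    omega
  · exact congrArg Sum.inr (Subtype.ext h)

theorem one_le_dg_emb (L N : ℕ) (i : MI L ⊕ HI L N) : 1 ≤ dg (emb L N i) := by
  rcases i with i | i
  · exact i.2.1
  · exact Nat.succ_le_of_lt ((Nat.zero_le L).trans_lt i.2.1)

theorem mem_range_emb {L N : ℕ} (h : L ≤ N) (i : I0) :
    i ∈ range (emb L N) ↔ 1 ≤ dg i ∧ dg i ≤ N := by
  constructor
  · rintro ⟨j | j, rfl⟩
    · exact ⟨j.2.1, j.2.2.trans h⟩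
    · exact ⟨one_le_dg_emb L N (Sum.inr j), j.2.2⟩
  · rintro ⟨h1, h2⟩
    rcases le_or_gt (dg i) L with h3 | h3
    · exact ⟨Sum.inl ⟨i, h1, h3⟩, rfl⟩
    · exact ⟨Sum.inr ⟨i, h3, h2⟩, rfl⟩

theorem summable_poly_exp {κ : ℝ} (hκ : 0 < κ) (r : ℕ) :
    Summable fun i : I0 => (1 + (dg i : ℝ)) ^ r * Real.exp (-(κ * dg i)) := by
  have h1 := ((summable_nat_add_iff 1).2 (Real.summable_pow_mul_exp_neg_nat_mul (r + 1) hκ)).mul_left
    (2 * Real.exp κ)
  refine summable_of_sum_le (c := ∑' l : ℕ, 2 * Real.exp κ *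
    (((l + 1 : ℕ) : ℝ) ^ (r + 1) * Real.exp (-κ * ((l + 1 : ℕ) : ℝ)))) (fun i => by positivity) fun u => ?_
  have h2 : u ⊆ lowI (u.sup dg) := fun i hi => mem_lowI.2 (Finset.le_sup hi)
  refine (Finset.sum_le_sum_of_subset_of_nonneg h2 fun i _ _ => by positivity).trans ?_
  rw [SMat_sum_lowI]
  refine le_trans (Finset.sum_le_sum fun l _ => ?_) (h1.sum_le_tsum _ fun l _ => by positivity)
  rw [Finset.sum_congr rfl (g := fun _ => (1 + (l : ℝ)) ^ r * Real.exp (-(κ * l))) fun i hi => by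
    rw [(Finset.mem_filter.1 hi).2], Finset.sum_const, card_deg_eq, nsmul_eq_mul]
  have e : 2 * Real.exp κ * (((l + 1 : ℕ) : ℝ) ^ (r + 1) * Real.exp (-κ * ((l + 1 : ℕ) : ℝ))) =
      (2 * (l : ℝ) + 2) * ((1 + (l : ℝ)) ^ r * Real.exp (-(κ * l))) := by
    have : Real.exp (-(κ * l)) = Real.exp κ * Real.exp (-κ * ((l + 1 : ℕ) : ℝ)) := by
      rw [← Real.exp_add]
      congr 1
      push_cast
      ring
    rw [this]
    push_cast
    ring
  rw [e]
  refine mul_le_mul_of_nonneg_right ?_ (by positivity)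
  push_cast
  linarith

/-! ### evaluation -/

theorem SMat_ev_sq (P : Pl 3) (x : E 3) : ev (P ^ 2) x = ev P x ^ 2 := by
  simp [ev]

theorem SMat_ev_one (x : E 3) : ev (1 : Pl 3) x = 1 := by
  simp [ev]

theorem SMat_ev_zero (x : E 3) : ev (0 : Pl 3) x = 0 := by
  simp [ev]

theorem SMat_ev_sub (P Q : Pl 3) (x : E 3) : ev (P - Q) x = ev P x - ev Q x := by
  simp [ev]

theorem SMat_sI_comb {ι : Type} (s : Finset ι) (c : ι → ℝ) (U : ι → Pl 3) (Q : Pl 3) :
    sI ((∑ i ∈ s, c i • U i) * Q) = ∑ i ∈ s, c i * sI (U i * Q) := by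
  rw [Finset.sum_mul, sI_sum]
  exact Finset.sum_congr rfl fun i _ => by rw [smul_mul_assoc, sI_smul]

theorem SMat_bil {ι : Type} [Fintype ι] (U V : ι → Pl 3) (T : Pl 3) (x y : ι → ℝ) :
    ∑ i, x i * ∑ j, sI (U i * (T * V j)) * y j = sI ((∑ i, x i • U i) * (T * ∑ j, y j • V j)) := by
  rw [SMat_sI_comb]
  refine Finset.sum_congr rfl fun i _ => ?_
  rw [← mul_assoc (U i), mul_comm (U i * T), SMat_sI_comb]
  refine congrArg _ (Finset.sum_congr rfl fun j _ => ?_)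
  rw [mul_comm (y j), mul_comm (V j), mul_assoc]

theorem SMat_op1 (a : Fin 3 → Pl 3) (P Q : Pl 3) : sI (P * op1 a Q) =
    ∑ k, ∑ k', sI (Lop k P * ((a k * crs a k' + crs a k * a k') * Lop k' Q)) := by
  simp only [sI_mul_op1, ← sI_sum, Lv, Fin.sum_univ_three]
  exact congrArg sI (by ring)

theorem SMat_op2 (a : Fin 3 → Pl 3) (P Q : Pl 3) : sI (P * op2 a Q) =
    ∑ k, ∑ k', sI (Lop k P * ((nP a * a k * a k') * Lop k' Q)) := by
  simp only [sI_mul_op2, ← sI_sum, Lv, Fin.sum_univ_three]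
  exact congrArg sI (by ring)

theorem mR_symm (ρ : Pl 3) : (mR Y ρ)ᵀ = mR Y ρ := by
  ext i j
  simp only [Matrix.transpose_apply, mR]
  exact congrArg sI (by ring)

theorem mQ1_symm (a : Fin 3 → Pl 3) : (mQ1 Y a)ᵀ = mQ1 Y a := by
  ext i j
  simp only [Matrix.transpose_apply, mQ1, sI_mul_op1]
  exact congrArg sI (by ring)

theorem mQ2_symm (a : Fin 3 → Pl 3) : (mQ2 Y a)ᵀ = mQ2 Y a := by
  ext i j
  simp only [Matrix.transpose_apply, mQ2, sI_mul_op2]
  exact congrArg sI (by ring)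

theorem mR_zero : mR Y 0 = 0 := by
  ext i j
  simp [mR, sI_zero]

theorem mQ_zero : mQ1 Y 0 = 0 ∧ mQ2 Y 0 = 0 := by
  constructor
  · ext i j
    simp [mQ1, sI_mul_op1, Lv, sI_zero]
  · ext i j
    simp [mQ2, sI_mul_op2, Lv, sI_zero]

theorem SMat_pow_le (C : ℝ) (d r r' : ℕ) : C * (1 + (d : ℝ)) ^ r ≤ |C| * (1 + (d : ℝ)) ^ (r + r') :=
  mul_le_mul (le_abs_self C)
    (pow_le_pow_right₀ (le_add_of_nonneg_right (Nat.cast_nonneg d)) (Nat.le_add_right _ _))
    (by positivity) (abs_nonneg C)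

theorem Good.mul {P : I0 → Pl 3} (hP : Good P) (ρ : Pl 3) : Good fun i => ρ * P i := by
  obtain ⟨D, C, r, h⟩ := hP
  obtain ⟨K, hK, hρ⟩ := exists_ev_bound ρ
  refine ⟨ρ.totalDegree + D, K ^ 2 * C, r, fun i => ⟨?_, ?_⟩⟩
  · have h1 := totalDegree_mul ρ (P i)
    have h2 := (h i).1
    beta_reduce
    omega
  · have h1 : sI ((ρ * P i) ^ 2) ≤ sI (K ^ 2 • P i ^ 2) := sI_mono fun x hx => by
      rw [ev_smul, SMat_ev_sq, SMat_ev_sq, ev_mul, mul_pow]
      exact mul_le_mul_of_nonneg_right (sq_le_sq' (abs_le.1 (hρ x hx.le)).1 (abs_le.1 (hρ x hx.le)).2)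
        (sq_nonneg _)
    rw [sI_smul] at h1
    rw [mul_assoc]
    exact h1.trans (mul_le_mul_of_nonneg_left (h i).2 (sq_nonneg K))

theorem Good.add {P Q : I0 → Pl 3} (hP : Good P) (hQ : Good Q) : Good fun i => P i + Q i := by
  obtain ⟨D, C, r, h⟩ := hP
  obtain ⟨D', C', r', h'⟩ := hQ
  refine ⟨D + D', 2 * (|C| + |C'|), r + r', fun i => ⟨?_, ?_⟩⟩
  · have h1 := totalDegree_add (P i) (Q i)
    have h2 := (h i).1
    have h3 := (h' i).1
    beta_reduce
    omega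
  · have h1 : sI ((P i + Q i) ^ 2) ≤ sI ((2 : ℝ) • (P i ^ 2 + Q i ^ 2)) := sI_mono fun x _ => by
      rw [ev_smul, ev_add, SMat_ev_sq, SMat_ev_sq, SMat_ev_sq, ev_add]
      nlinarith [sq_nonneg (ev (P i) x - ev (Q i) x)]
    rw [sI_smul, sI_add] at h1
    have h2 := (h i).2.trans (SMat_pow_le C (dg i) r r')
    have h3 := (h' i).2.trans (SMat_pow_le C' (dg i) r' r)
    rw [add_comm r' r] at h3
    beta_reduce
    linarith

theorem Good.neg {P : I0 → Pl 3} (hP : Good P) : Good fun i => -P i := by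
  obtain ⟨D, C, r, h⟩ := hP
  refine ⟨D, C, r, fun i => ?_⟩
  beta_reduce
  rw [totalDegree_neg, neg_sq]
  exact h i

theorem Good.sum {ι : Type} (s : Finset ι) {P : ι → I0 → Pl 3} (hP : ∀ k ∈ s, Good (P k)) :
    Good fun i => ∑ k ∈ s, P k i := by
  classical
  induction s using Finset.induction_on with
  | empty => exact ⟨0, 0, 0, fun i => by simp [sI_zero]⟩
  | insert k s hk ih =>
    simp only [Finset.sum_insert hk]
    exact (hP k (Finset.mem_insert_self _ _)).add (ih fun j hj => hP j (Finset.mem_insert_of_mem hj))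

/-! ### degrees -/

theorem SMat_deg_Lv {a : Fin 3 → Pl 3} {A : ℕ} (ha : ∀ k, (a k).totalDegree ≤ A) (P : Pl 3) :
    (Lv a P).totalDegree ≤ A + P.totalDegree :=
  totalDegree_finsetSum_le fun k _ =>
    (totalDegree_mul _ _).trans (add_le_add (ha k) (totalDegree_Lop_le k P))

theorem SMat_deg_crs {a : Fin 3 → Pl 3} {A : ℕ} (ha : ∀ k, (a k).totalDegree ≤ A) (k : Fin 3) :
    (crs a k).totalDegree ≤ 1 + A :=
  (totalDegree_sub _ _).trans (max_le
    ((totalDegree_mul _ _).trans (add_le_add (totalDegree_X _).le (ha _)))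
    ((totalDegree_mul _ _).trans (add_le_add (totalDegree_X _).le (ha _))))

theorem SMat_deg_op {a : Fin 3 → Pl 3} {A : ℕ} (ha : ∀ k, (a k).totalDegree ≤ A) (P : Pl 3) :
    (op1 a P).totalDegree ≤ P.totalDegree + (4 * A + 2) ∧
      (op2 a P).totalDegree ≤ P.totalDegree + (4 * A + 2) := by
  have h1 := SMat_deg_Lv ha P
  have h2 := SMat_deg_Lv (SMat_deg_crs ha) P
  have h3 : (nP a).totalDegree ≤ 2 * (1 + A) := totalDegree_finsetSum_le fun k _ =>
    (totalDegree_pow _ _).trans (Nat.mul_le_mul_left _ (SMat_deg_crs ha k))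
  constructor
  · rw [op1, totalDegree_neg]
    refine totalDegree_finsetSum_le fun k _ => (totalDegree_Lop_le k _).trans ?_
    have h4 := totalDegree_add (a k * Lv (crs a) P) (crs a k * Lv a P)
    have h5 := totalDegree_mul (a k) (Lv (crs a) P)
    have h6 := totalDegree_mul (crs a k) (Lv a P)
    have h7 := ha k
    have h8 := SMat_deg_crs ha k
    omega
  · rw [op2, totalDegree_neg]
    refine totalDegree_finsetSum_le fun k _ => (totalDegree_Lop_le k _).trans ?_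
    have h4 := totalDegree_mul (a k * nP a) (Lv a P)
    have h5 := totalDegree_mul (a k) (nP a)
    have h7 := ha k
    omega

/-! ### the rotation `rf` on polynomials -/

/-- the signs of `rf` -/
def SMat_eps : Fin 3 → ℝ := ![1, -1, -1]

/-- composition with `rf` -/
def SMat_sig : Pl 3 →ₐ[ℝ] Pl 3 := aeval fun i => SMat_eps i • X i

theorem SMat_sig_X (i : Fin 3) : SMat_sig (X i) = SMat_eps i • X i := aeval_X _ i

theorem SMat_ev_sig (P : Pl 3) (x : E 3) : ev (SMat_sig P) x = ev P (rf x) := by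
  induction P using MvPolynomial.induction_on with
  | C a => simp [ev, SMat_sig]
  | add p q hp hq => rw [map_add, ev_add, ev_add, hp, hq]
  | mul_X p i hp =>
    rw [map_mul, ev_mul, ev_mul, hp, SMat_sig_X, ev_smul]
    congr 1
    fin_cases i <;> simp [ev, rf, SMat_eps]

theorem SMat_sI_sig (P : Pl 3) : sI (SMat_sig P) = sI P := by
  rw [sI, sI, ← sF_rf (ev P)]
  exact congrArg sF (_root_.funext fun x => SMat_ev_sig P x)

theorem SMat_sig_Lop (k : Fin 3) (P : Pl 3) : SMat_sig (Lop k P) = SMat_eps k • Lop k (SMat_sig P) := by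
  induction P using MvPolynomial.induction_on with
  | C a => simp [Lop_apply, SMat_sig]
  | add p q hp hq => rw [map_add, map_add, map_add, map_add, hp, hq, smul_add]
  | mul_X p i hp =>
    have h : SMat_sig (Lop k (X i)) = SMat_eps k • Lop k (SMat_sig (X i)) := by
      rw [SMat_sig_X, map_smul]
      fin_cases k <;> fin_cases i <;> simp [Lop_apply, SMat_sig_X, SMat_eps, pderiv_X]
    rw [Lop_mul, map_add, map_mul, map_mul, map_mul, Lop_mul, hp, h, smul_add, smul_mul_assoc,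
      mul_smul_comm]

theorem SMat_sig_r2 : SMat_sig (∑ i, X i ^ 2) = ∑ i, X i ^ 2 := by
  simp [Fin.sum_univ_three, SMat_sig_X, SMat_eps]

theorem SMat_sig_Lv (P : Pl 3) : SMat_sig (Lv aD P) = -Lv aD (SMat_sig P) := by
  rw [Lv_aD, Lv_aD, map_sub, map_mul, map_mul, SMat_sig_Lop, SMat_sig_Lop, SMat_sig_X, SMat_sig_X]
  simp [SMat_eps]
  ring

theorem SMat_sig_Lc (P : Pl 3) : SMat_sig (Lv (crs aD) P) = -Lv (crs aD) (SMat_sig P) := by
  rw [Lv_crs_aD, Lv_crs_aD, map_neg, map_mul, SMat_sig_r2, SMat_sig_Lop]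
  simp [SMat_eps]

theorem SMat_sig_nP : SMat_sig (nP aD) = nP aD := by
  rw [nP_aD, map_mul, SMat_sig_r2]
  simp [SMat_sig_X, SMat_eps]

theorem SMat_Lv_smul (a : Fin 3 → Pl 3) (c : ℝ) (P : Pl 3) : Lv a (c • P) = c • Lv a P := by
  simp only [Lv, map_smul, mul_smul_comm, Finset.smul_sum]

theorem SMat_L2_X : Lop 2 (X 0) = -X 1 ∧ Lop 2 (X 1) = X 0 ∧ Lop 2 (X 2) = 0 := by
  simp [Lop_apply, pderiv_X]

theorem SMat_L2_r2 : Lop 2 (∑ i, X i ^ 2) = 0 := by
  simp only [Fin.sum_univ_three, map_add, sq, Lop_mul, SMat_L2_X.1, SMat_L2_X.2.1, SMat_L2_X.2.2]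
  ring

theorem SMat_L2_nP : Lop 2 (nP aD) = 0 := by
  rw [nP_aD, Lop_mul, SMat_L2_r2]
  simp only [map_add, sq, Lop_mul, SMat_L2_X.1, SMat_L2_X.2.1]
  ring

theorem SMat_L2_Lc (P : Pl 3) : Lop 2 (Lv (crs aD) P) = Lv (crs aD) (Lop 2 P) := by
  rw [Lv_crs_aD, Lv_crs_aD, map_neg, Lop_mul, SMat_L2_r2, zero_mul, zero_add]

theorem SMat_L2_Lv (P : Pl 3) : Lop 2 (Lv aD P) = Lv aD (Lop 2 P) := by
  have h1 : Lop 2 (Lop 0 P) - Lop 0 (Lop 2 P) = -Lop 1 P := Lop_lie 2 P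
  have h2 : Lop 1 (Lop 2 P) - Lop 2 (Lop 1 P) = -Lop 0 P := Lop_lie 1 P
  rw [Lv_aD, Lv_aD, map_sub, Lop_mul, Lop_mul, SMat_L2_X.1, SMat_L2_X.2.1]
  linear_combination X 1 * h1 + X 0 * h2

/-! ### band matrices -/

theorem SMat_band_zero (D : ℕ) : BandI D 0 :=
  ⟨fun _ _ _ => ⟨rfl, rfl⟩, 0, 0, fun i j => by simp⟩

theorem SMat_band_smul {D : ℕ} {A : Matrix I0 I0 ℝ} (h : BandI D A) (c : ℝ) : BandI D (c • A) := by
  obtain ⟨h1, C, r, h2⟩ := h
  refine ⟨fun i j hij => ?_, |c| * C, r, fun i j => ?_⟩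
  · simp [(h1 i j hij).1, (h1 i j hij).2]
  · rw [Matrix.smul_apply, smul_eq_mul, abs_mul, mul_assoc]
    exact mul_le_mul_of_nonneg_left (h2 i j) (abs_nonneg c)

theorem SMat_band_add {D : ℕ} {A B : Matrix I0 I0 ℝ} (h : BandI D A) (h' : BandI D B) :
    BandI D (A + B) := by
  obtain ⟨h1, C, r, h2⟩ := h
  obtain ⟨h3, C', r', h4⟩ := h'
  refine ⟨fun i j hij => ?_, |C| + |C'|, r + r', fun i j => ?_⟩
  · simp [(h1 i j hij).1, (h1 i j hij).2, (h3 i j hij).1, (h3 i j hij).2]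
  · have h5 := (h2 i j).trans (SMat_pow_le C (dg i) r r')
    have h6 := (h4 i j).trans (SMat_pow_le C' (dg i) r' r)
    rw [add_comm r' r] at h6
    rw [Matrix.add_apply, add_mul]
    exact (abs_add_le _ _).trans (add_le_add h5 h6)

theorem SMat_band_sum {D : ℕ} {ι : Type} (s : Finset ι) {A : ι → Matrix I0 I0 ℝ}
    (h : ∀ k ∈ s, BandI D (A k)) : BandI D (∑ k ∈ s, A k) :=
  Finset.sum_induction A (BandI D) (fun _ _ => SMat_band_add) (SMat_band_zero D) h

namespace SB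

variable (h : SB Y)
include h

theorem totalDegree_le (i : I0) : (Y i).totalDegree ≤ dg i := by
  exact IsHomogeneous.totalDegree_le (Submodule.mem_inf.1 (h.mem i)).1

theorem parseval {P Q : Pl 3} {N : ℕ} (hP : P.totalDegree ≤ N) :
    sI (P * Q) = ∑ j ∈ lowI N, sI (Y j * P) * sI (Y j * Q) := by
  rw [← SMat_sI_comb]
  refine sI_congr fun x hx => ?_
  rw [ev_mul, ev_mul, h.span P N hP x hx, ev_sum]
  simp only [ev_smul]

theorem sI_mul_of_lt {P : Pl 3} {i : I0} (hP : P.totalDegree < dg i) : sI (Y i * P) = 0 := by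
  rw [mul_comm, h.parseval le_rfl]
  refine Finset.sum_eq_zero fun j hj => ?_
  rw [h.orth, if_neg, mul_zero]
  rintro rfl
  exact absurd (mem_lowI.1 hj) (not_le.2 hP)

theorem expandH {P : Pl 3} {l : ℕ} (hP : P ∈ Hm ℝ 3 l) :
    P = ∑ j ∈ (lowI l).filter (fun j => dg j = l), sI (Y j * P) • Y j := by
  have h1 : P - ∑ j ∈ (lowI l).filter (fun j => dg j = l), sI (Y j * P) • Y j ∈ Hm ℝ 3 l :=
    Submodule.sub_mem _ hP (Submodule.sum_mem _ fun j hj => Submodule.smul_mem _ _ (by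
      have := h.mem j
      rwa [(Finset.mem_filter.1 hj).2] at this))
  refine sub_eq_zero.1 (eq_zero_of_ev_sphere (Submodule.mem_inf.1 h1).1 (by norm_num) fun x hx => ?_)
  rw [SMat_ev_sub, h.span P l (IsHomogeneous.totalDegree_le (Submodule.mem_inf.1 hP).1) x hx, ev_sum,
    Finset.sum_filter, sub_eq_zero]
  refine Finset.sum_congr rfl fun j _ => ?_
  split_ifs with hj
  · rw [ev_smul]
  · rw [sI_mul_of_ne (h.mem j) hP hj, zero_mul]

theorem Lop_i0 (k : Fin 3) : Lop k (Y i0) = 0 := by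
  rw [totalDegree_eq_zero_iff_eq_C.1 (Nat.le_zero.1 (h.totalDegree_le i0))]
  exact pb_XA_C _ _

theorem SMat_sq_one (i : I0) : sI (Y i ^ 2) = 1 := by
  rw [sq, h.orth, if_pos rfl]

/-- the addition theorem: `Σ_m Y_{lm}²` is killed by all `Lₖ` -/
theorem sum_sq (l : ℕ) (x : E 3) (hx : ‖x‖ = 1) :
    ∑ j ∈ (lowI l).filter (fun j => dg j = l), ev (Y j) x ^ 2 = (2 * l + 1) / sI 1 := by
  set s := (lowI l).filter (fun j => dg j = l) with hs
  have h1 : ∀ k, Lop k (∑ j ∈ s, Y j ^ 2) = 0 := by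
    intro k
    have h2 : ∀ j ∈ s, Lop k (Y j ^ 2) =
        ∑ i ∈ s, (2 * sI (Y i * Lop k (Y j))) • (Y i * Y j) := by
      intro j hj
      have h3 : Lop k (Y j) ∈ Hm ℝ 3 l := by
        have := XA_mem_Hm (Bm_transpose k) (h.mem j)
        rwa [(Finset.mem_filter.1 hj).2] at this
      have h4 : Lop k (Y j ^ 2) = (2 : ℝ) • (Lop k (Y j) * Y j) := by
        rw [sq, Lop_mul, two_smul, mul_comm (Y j)]
      rw [h4]
      conv_lhs => rw [h.expandH h3]
      rw [Finset.sum_mul, Finset.smul_sum]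
      exact Finset.sum_congr rfl fun i _ => by rw [smul_mul_assoc, smul_smul]
    have h5 : ∑ j ∈ s, ∑ i ∈ s, (2 * sI (Y i * Lop k (Y j))) • (Y i * Y j) =
        -∑ j ∈ s, ∑ i ∈ s, (2 * sI (Y i * Lop k (Y j))) • (Y i * Y j) := by
      conv_lhs => rw [Finset.sum_comm]
      simp only [← Finset.sum_neg_distrib]
      refine Finset.sum_congr rfl fun j _ => Finset.sum_congr rfl fun i _ => ?_
      rw [sI_mul_Lop k (Y j), mul_comm (Lop k (Y j)), mul_comm (Y j), mul_neg, neg_smul]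
    rw [map_sum, Finset.sum_congr rfl h2]
    exact self_eq_neg.1 h5
  have h2 : sI (∑ j ∈ s, Y j ^ 2) = sI (ev (∑ j ∈ s, Y j ^ 2) x • 1) := sI_congr fun y hy => by
    rw [ev_smul, SMat_ev_one, mul_one]
    exact ev_const_of_Lop (fun k z _ => by rw [h1, SMat_ev_zero]) hy hx
  rw [sI_smul, sI_sum, ev_sum] at h2
  simp only [h.SMat_sq_one, SMat_ev_sq, Finset.sum_const, hs, card_deg_eq, nsmul_eq_mul, mul_one] at h2
  rw [eq_div_iff sI_one_pos.ne', ← h2]
  push_cast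
  rfl

theorem ev_sq_le {P : Pl 3} {N : ℕ} (hP : P.totalDegree ≤ N) (x : E 3) (hx : ‖x‖ = 1) :
    ev P x ^ 2 ≤ ((N : ℝ) + 1) ^ 2 / sI 1 * sI (P ^ 2) := by
  have h1 : ∑ j ∈ lowI N, ev (Y j) x ^ 2 = ((N : ℝ) + 1) ^ 2 / sI 1 := by
    rw [SMat_sum_lowI, Finset.sum_congr rfl fun l _ => h.sum_sq l x hx, ← Finset.sum_div]
    congr 1
    exact_mod_cast SMat_sum_odd N
  rw [h.span P N hP x hx, sq P, h.parseval hP, ← h1, mul_comm]
  simp only [← sq]
  exact Finset.sum_mul_sq_le_sq_mul_sq _ _ _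

theorem SMat_op0 (j : I0) (P : Pl 3) : sI (Y j * op0 P) = lam 1 (dg j) * sI (Y j * P) := by
  rw [← sI_smul, ← smul_mul_assoc, ← op0_of_mem (h.mem j), mul_comm (op0 _), sI_mul_op0, sI_mul_op0]
  simp only [mul_comm]

theorem sum_sI_Lop_sq_le {P : Pl 3} {N : ℕ} (hP : P.totalDegree ≤ N) :
    ∑ k, sI (Lop k P ^ 2) ≤ (N : ℝ) * (N + 1) * sI (P ^ 2) := by
  simp only [sq]
  rw [← sI_mul_op0, h.parseval hP, h.parseval hP, Finset.mul_sum]
  refine Finset.sum_le_sum fun j hj => ?_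
  have h1 : (dg j : ℝ) ≤ N := by exact_mod_cast mem_lowI.1 hj
  have h2 : (0 : ℝ) ≤ dg j := Nat.cast_nonneg _
  rw [h.SMat_op0, mul_left_comm]
  refine mul_le_mul_of_nonneg_right ?_ (mul_self_nonneg _)
  unfold lam
  nlinarith

theorem sI_comb_sq {ι : Type} [Fintype ι] {e : ι → I0} (he : Function.Injective e) (v : ι → ℝ) :
    sI ((∑ i, v i • Y (e i)) ^ 2) = n2 v ∧
      ∑ k, sI (Lop k (∑ i, v i • Y (e i)) ^ 2) = ∑ i, lam 1 (dg (e i)) * v i ^ 2 := by
  have h1 : ∀ i, sI (Y (e i) * ∑ i, v i • Y (e i)) = v i := by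
    intro i
    rw [mul_comm, SMat_sI_comb, Finset.sum_eq_single i]
    · rw [h.orth, if_pos rfl, mul_one]
    · intro j _ hj
      rw [h.orth, if_neg fun h2 => hj (he h2), mul_zero]
    · exact fun h2 => absurd (Finset.mem_univ i) h2
  simp only [sq, n2]
  constructor
  · rw [SMat_sI_comb]
    simp only [h1]
  · rw [← sI_mul_op0, SMat_sI_comb]
    refine Finset.sum_congr rfl fun i _ => ?_
    rw [h.SMat_op0, h1]
    ring

theorem good : Good Y := by
  exact ⟨0, 1, 0, fun i => ⟨h.totalDegree_le i, by rw [h.SMat_sq_one]; simp⟩⟩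

theorem good_Lop {P : I0 → Pl 3} (hP : Good P) (k : Fin 3) : Good fun i => Lop k (P i) := by
  obtain ⟨D, C, r, hP⟩ := hP
  refine ⟨D, ((D : ℝ) + 1) ^ 2 * C, 2 + r, fun i => ⟨(totalDegree_Lop_le k _).trans (hP i).1, ?_⟩⟩
  have h1 := (Finset.single_le_sum (f := fun k => sI (Lop k (P i) ^ 2)) (fun k _ => sI_sq_nonneg _)
    (Finset.mem_univ k)).trans (h.sum_sI_Lop_sq_le (hP i).1)
  have h2 : ((dg i + D : ℕ) : ℝ) * ((dg i + D : ℕ) + 1) ≤ (((D : ℝ) + 1) * (1 + dg i)) ^ 2 := by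
    have h3 : (0 : ℝ) ≤ dg i := Nat.cast_nonneg _
    have h4 : (0 : ℝ) ≤ D := Nat.cast_nonneg _
    have h5 : (dg i : ℝ) + D + 1 ≤ ((D : ℝ) + 1) * (1 + dg i) := by nlinarith [mul_nonneg h3 h4]
    push_cast
    nlinarith
  refine h1.trans ((mul_le_mul h2 (hP i).2 (sI_sq_nonneg _) (sq_nonneg _)).trans (le_of_eq ?_))
  ring

theorem good_bound {P : I0 → Pl 3} (hP : Good P) :
    ∃ (C : ℝ) (r : ℕ), ∀ i x, ‖x‖ = 1 → |ev (P i) x| ≤ C * (1 + dg i) ^ r := by
  obtain ⟨D, C, r, hP⟩ := hP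
  refine ⟨1 + ((D : ℝ) + 1) ^ 2 / sI 1 * C, 2 + r, fun i x hx => ?_⟩
  have h1 := h.ev_sq_le (hP i).1 x hx
  have h0 := sI_one_pos
  have h3 : (0 : ℝ) ≤ dg i := Nat.cast_nonneg _
  have h2 : (((dg i + D : ℕ) : ℝ) + 1) ^ 2 / sI 1 ≤ (((D : ℝ) + 1) * (1 + dg i)) ^ 2 / sI 1 := by
    have h4 : (0 : ℝ) ≤ D := Nat.cast_nonneg _
    refine div_le_div_of_nonneg_right (pow_le_pow_left₀ (by positivity) ?_ 2) h0.le
    push_cast
    nlinarith [mul_nonneg h3 h4]
  have h4 := h1.trans (mul_le_mul h2 (hP i).2 (sI_sq_nonneg _) (by positivity))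
  have h5 : (1 : ℝ) ≤ (1 + dg i) ^ (2 + r) := one_le_pow₀ (by linarith)
  have h6 : (1 + ((D : ℝ) + 1) ^ 2 / sI 1 * C) * (1 + dg i) ^ (2 + r) = (1 + dg i) ^ (2 + r) +
      (((D : ℝ) + 1) * (1 + dg i)) ^ 2 / sI 1 * (C * (1 + dg i) ^ r) := by ring
  rw [h6]
  nlinarith [sq_abs (ev (P i) x), sq_nonneg (|ev (P i) x| - 1), abs_nonneg (ev (P i) x)]

theorem SMat_band {P : I0 → Pl 3} (hP : Good P) {D : ℕ} (hD : ∀ i, (P i).totalDegree ≤ dg i + D)
    {A : Matrix I0 I0 ℝ} (hA : Aᵀ = A) (hAP : ∀ i j, A i j = sI (Y i * P j)) : BandI D A := by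
  have hs : ∀ i j, A i j = A j i := fun i j => congrFun (congrFun hA j) i
  obtain ⟨D', C, r, hP⟩ := hP
  refine ⟨fun i j hij => ?_, 1 + C, r, fun i j => ?_⟩
  · have h1 : A j i = 0 := by rw [hAP, h.sI_mul_of_lt ((hD i).trans_lt hij)]
    exact ⟨(hs i j).trans h1, h1⟩
  · have h1 := abs_sI_mul_le (ρ := 1) (C := 1) (fun x _ => by rw [SMat_ev_one, abs_one]) (Y j) (P i)
    have h2 := (hP i).2
    have h3 : (1 : ℝ) ≤ (1 + dg i) ^ r := one_le_pow₀ (le_add_of_nonneg_right (Nat.cast_nonneg _))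
    rw [one_mul, one_mul, h.SMat_sq_one, ← hAP, ← hs] at h1
    rw [add_mul, one_mul]
    linarith [abs_nonneg (A i j)]

theorem bandI_mR (ρ : Pl 3) {D : ℕ} (hD : ρ.totalDegree ≤ D) : BandI D (mR Y ρ) := by
  refine h.SMat_band (h.good.mul ρ) (fun i => ?_) (mR_symm ρ) fun _ _ => rfl
  have h1 := totalDegree_mul ρ (Y i)
  have h2 := h.totalDegree_le i
  omega

theorem SMat_good_Lv {P : I0 → Pl 3} (hP : Good P) (a : Fin 3 → Pl 3) : Good fun i => Lv a (P i) :=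
  Good.sum Finset.univ (P := fun k i => a k * Lop k (P i)) fun k _ => (h.good_Lop hP k).mul (a k)

theorem bandI_mQ (a : Fin 3 → Pl 3) : ∃ D₀ : ℕ, ∀ D, D₀ ≤ D → BandI D (mQ1 Y a) ∧
    BandI D (mQ2 Y a) ∧ ∀ P : Pl 3, (op1 a P).totalDegree ≤ P.totalDegree + D ∧
      (op2 a P).totalDegree ≤ P.totalDegree + D := by
  refine ⟨4 * (Finset.univ.sup fun k => (a k).totalDegree) + 2, fun D hD => ?_⟩
  have hd : ∀ P : Pl 3, (op1 a P).totalDegree ≤ P.totalDegree + D ∧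
      (op2 a P).totalDegree ≤ P.totalDegree + D := fun P => by
    have := SMat_deg_op (a := a) (fun k => Finset.le_sup (f := fun k => (a k).totalDegree)
      (Finset.mem_univ k)) P
    omega
  have g1 : Good fun i => op1 a (Y i) :=
    (Good.sum Finset.univ (P := fun k i => Lop k (a k * Lv (crs a) (Y i) + crs a k * Lv a (Y i)))
      fun k _ => h.good_Lop (((h.SMat_good_Lv h.good _).mul _).add ((h.SMat_good_Lv h.good _).mul _)) k).neg
  have g2 : Good fun i => op2 a (Y i) :=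
    (Good.sum Finset.univ (P := fun k i => Lop k (a k * nP a * Lv a (Y i)))
      fun k _ => h.good_Lop ((h.SMat_good_Lv h.good _).mul _) k).neg
  exact ⟨h.SMat_band g1 (fun i => (hd _).1.trans (Nat.add_le_add_right (h.totalDegree_le i) _))
      (mQ1_symm a) fun _ _ => rfl,
    h.SMat_band g2 (fun i => (hd _).2.trans (Nat.add_le_add_right (h.totalDegree_le i) _))
      (mQ2_symm a) fun _ _ => rfl, hd⟩

theorem mQ_i0 (a : Fin 3 → Pl 3) (i : I0) :
    mQ1 Y a i i0 = 0 ∧ mQ1 Y a i0 i = 0 ∧ mQ2 Y a i i0 = 0 ∧ mQ2 Y a i0 i = 0 := by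
  simp [mQ1, mQ2, SMat_op1, SMat_op2, h.Lop_i0, sI_zero]

theorem SMat_pbQ (T : Fin 3 → Fin 3 → Pl 3) {A : Matrix I0 I0 ℝ}
    (hA : ∀ i j, A i j = ∑ k, ∑ k', sI (Lop k (Y i) * (T k k' * Lop k' (Y j)))) :
    ∃ C : ℝ, 0 ≤ C ∧ ∀ (ι : Type) [Fintype ι] (e : ι → I0), Function.Injective e → ∀ x y : ι → ℝ,
      2 * |x ⬝ᵥ A.submatrix e e *ᵥ y| ≤ C * (nV (fun i => dg (e i)) x + nV (fun i => dg (e i)) y) := by
  choose K hK0 hK using fun k k' => exists_ev_bound (T k k')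
  refine ⟨2 * ∑ k, ∑ k', K k k', mul_nonneg zero_le_two
    (Finset.sum_nonneg fun k _ => Finset.sum_nonneg fun k' _ => hK0 k k'), fun ι _ e he x y => ?_⟩
  have h1 : x ⬝ᵥ A.submatrix e e *ᵥ y = ∑ k, ∑ k',
      sI (Lop k (∑ i, x i • Y (e i)) * (T k k' * Lop k' (∑ j, y j • Y (e j)))) := by
    simp only [map_sum, map_smul, ← SMat_bil, dotProduct, Matrix.mulVec, Matrix.submatrix_apply, hA,
      Fin.sum_univ_three, add_mul, mul_add, Finset.sum_add_distrib]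
  have h2 : ∀ (v : ι → ℝ) (k : Fin 3), sI (Lop k (∑ i, v i • Y (e i)) ^ 2) ≤
      2 * nV (fun i => dg (e i)) v := by
    intro v k
    refine (Finset.single_le_sum (f := fun k => sI (Lop k (∑ i, v i • Y (e i)) ^ 2))
      (fun k _ => sI_sq_nonneg _) (Finset.mem_univ k)).trans ?_
    rw [(h.sI_comb_sq he v).2, nV, Finset.mul_sum]
    refine Finset.sum_le_sum fun i _ => ?_
    rw [← mul_assoc]
    refine mul_le_mul_of_nonneg_right ?_ (sq_nonneg _)
    have : ((dg (e i) : ℕ) : ℝ) ≤ (dg (e i) : ℝ) ^ 2 := by exact_mod_cast Nat.le_self_pow two_ne_zero _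
    unfold lam
    nlinarith
  rw [h1, mul_assoc, Finset.sum_mul]
  refine mul_le_mul_of_nonneg_left ((Finset.abs_sum_le_sum_abs _ _).trans
    (Finset.sum_le_sum fun k _ => ?_)) zero_le_two
  rw [Finset.sum_mul]
  refine (Finset.abs_sum_le_sum_abs _ _).trans (Finset.sum_le_sum fun k' _ => ?_)
  have h3 := abs_sI_mul_le (fun z hz => hK k k' z hz.le) (Lop k (∑ i, x i • Y (e i)))
    (Lop k' (∑ j, y j • Y (e j)))
  have h4 := mul_le_mul_of_nonneg_left (add_le_add (h2 x k) (h2 y k')) (hK0 k k')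
  linarith

theorem pb (ρ : Pl 3) (a : Fin 3 → Pl 3) : ∃ C : ℝ, 0 ≤ C ∧ ∀ (ι : Type) [Fintype ι]
    [DecidableEq ι] (e : ι → I0), Function.Injective e →
    Pb (fun i => dg (e i)) C ((mR Y ρ).submatrix e e) ((mQ1 Y a).submatrix e e) ∧
      Pb (fun i => dg (e i)) C 0 ((mQ2 Y a).submatrix e e) := by
  obtain ⟨K, hK, hρ⟩ := exists_ev_bound ρ
  obtain ⟨C1, hC1, h1⟩ := h.SMat_pbQ (A := mQ1 Y a) _ fun i j => SMat_op1 a (Y i) (Y j)
  obtain ⟨C2, hC2, h2⟩ := h.SMat_pbQ (A := mQ2 Y a) _ fun i j => SMat_op2 a (Y i) (Y j)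
  refine ⟨K + C1 + C2, by positivity, fun ι _ _ e he => ?_⟩
  have hn : ∀ x y : ι → ℝ, 0 ≤ n2 x + n2 y := fun x y => add_nonneg (n2_nonneg x) (n2_nonneg y)
  have hV : ∀ x y : ι → ℝ, 0 ≤ nV (fun i => dg (e i)) x + nV (fun i => dg (e i)) y := fun x y =>
    add_nonneg (OdeBasic_nV_nonneg _ x) (OdeBasic_nV_nonneg _ y)
  refine ⟨⟨fun x y => ?_, fun x y => (h1 ι e he x y).trans
      (mul_le_mul_of_nonneg_right (by linarith) (hV x y))⟩,
    fun x y => ?_, fun x y => (h2 ι e he x y).trans (mul_le_mul_of_nonneg_right (by linarith) (hV x y))⟩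
  · have h3 : x ⬝ᵥ (mR Y ρ).submatrix e e *ᵥ y =
        sI ((∑ i, x i • Y (e i)) * (ρ * ∑ j, y j • Y (e j))) := SMat_bil _ _ _ _ _
    have h4 := abs_sI_mul_le (fun z hz => hρ z hz.le) (∑ i, x i • Y (e i)) (∑ j, y j • Y (e j))
    rw [(h.sI_comb_sq he x).1, (h.sI_comb_sq he y).1, ← h3] at h4
    exact h4.trans (mul_le_mul_of_nonneg_right (by linarith) (hn x y))
  · rw [Matrix.zero_mulVec, dotProduct_zero, abs_zero, mul_zero]
    exact mul_nonneg (by positivity) (hn x y)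

theorem SMat_sig_Y (i : I0) : SMat_sig (Y i) = (sgn i : ℝ) • Y i := by
  refine MvPolynomial.funext fun x => ?_
  have h1 := h.refl i (WithLp.toLp 2 x)
  rw [← SMat_ev_sig, ← ev_smul] at h1
  exact h1

theorem SMat_L2_L2 (i : I0) : Lop 2 (Lop 2 (Y i)) = (-(i.1.2 : ℝ) ^ 2) • Y i := by
  have h1 : ngI (ngI i) = i := Subtype.ext (Prod.ext rfl (neg_neg _))
  rw [h.L3, map_smul, h.L3, h1, smul_smul]
  congr 1
  simp only [ngI]
  push_cast
  ring

theorem SMat_sel (G : Pl 3 → Pl 3 → Pl 3) (h1 : ∀ (c : ℝ) P Q, G (c • P) Q = c • G P Q)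
    (h2 : ∀ (c : ℝ) P Q, G P (c • Q) = c • G P Q)
    (h3 : ∀ P Q, Lop 2 (G P Q) = G (Lop 2 P) Q + G P (Lop 2 Q))
    (h4 : ∀ P Q, SMat_sig (G P Q) = G (SMat_sig P) (SMat_sig Q)) {i j : I0} (hij : sec i ≠ sec j) :
    sI (G (Y i) (Y j)) = 0 := by
  by_contra hne
  refine hij (Prod.ext ?_ ?_)
  · have e1 := sI_Lop 2 (G (Lop 2 (Y i)) (Y j))
    have e2 := sI_Lop 2 (G (Y i) (Lop 2 (Y j)))
    rw [h3, sI_add, h.SMat_L2_L2, h1, sI_smul] at e1
    rw [h3, sI_add, h.SMat_L2_L2, h2, sI_smul] at e2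
    have e3 : (i.1.2 : ℝ) ^ 2 = (j.1.2 : ℝ) ^ 2 := mul_right_cancel₀ hne (by linarith)
    exact Int.natAbs_eq_iff_sq_eq.2 (by exact_mod_cast e3)
  · have e1 := SMat_sI_sig (G (Y i) (Y j))
    rw [h4, h.SMat_sig_Y, h.SMat_sig_Y, h1, h2, smul_smul, sI_smul] at e1
    have e2 : (sgn i : ℝ) * sgn j = 1 := mul_right_cancel₀ hne (by rw [e1, one_mul])
    exact Int.eq_of_mul_eq_one (by exact_mod_cast e2)

/-- the deformation `aD` preserves the sectors (invariance under `L₂` and `rf`) -/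
theorem mQ_aD_eq_zero {i j : I0} (hij : sec i ≠ sec j) : mQ1 Y aD i j = 0 ∧ mQ2 Y aD i j = 0 := by
  constructor
  · rw [mQ1, sI_mul_op1]
    refine h.SMat_sel (fun P Q => Lv aD P * Lv (crs aD) Q + Lv (crs aD) P * Lv aD Q) ?_ ?_ ?_ ?_ hij
    · intro c P Q
      simp only [SMat_Lv_smul, smul_mul_assoc, smul_add]
    · intro c P Q
      simp only [SMat_Lv_smul, mul_smul_comm, smul_add]
    · intro P Q
      simp only [map_add, Lop_mul, SMat_L2_Lv, SMat_L2_Lc]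
      ring
    · intro P Q
      simp only [map_add, map_mul, SMat_sig_Lv, SMat_sig_Lc]
      ring
  · rw [mQ2, sI_mul_op2]
    refine h.SMat_sel (fun P Q => nP aD * Lv aD P * Lv aD Q) ?_ ?_ ?_ ?_ hij
    · intro c P Q
      simp only [SMat_Lv_smul, smul_mul_assoc, mul_smul_comm]
    · intro c P Q
      simp only [SMat_Lv_smul, mul_smul_comm]
    · intro P Q
      simp only [Lop_mul, SMat_L2_Lv, SMat_L2_nP]
      ring
    · intro P Q
      simp only [map_mul, SMat_sig_Lv, SMat_sig_nP]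
      ring

end SB

theorem RR_single {N : ℕ} (ρ : Fin N → Pl 3) (k : Fin N) (s : ℝ) :
    RR Y ρ (Pi.single k s) = s • mR Y (ρ k) := by
  rw [RR, Finset.sum_eq_single k]
  · rw [Pi.single_eq_same]
  · intro j _ hj
    rw [Pi.single_eq_of_ne hj, zero_smul]
  · exact fun h => absurd (Finset.mem_univ k) h

theorem QQ_single {N : ℕ} (a : Fin N → Fin 3 → Pl 3) (k : Fin N) (s : ℝ) :
    QQ Y a (Pi.single k s) = s • mQ1 Y (a k) + s ^ 2 • mQ2 Y (a k) := by
  rw [QQ, Finset.sum_eq_single k]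
  · rw [Pi.single_eq_same]
  · intro j _ hj
    rw [Pi.single_eq_of_ne hj]
    simp
  · exact fun h => absurd (Finset.mem_univ k) h

/-- a common band width for a finite family of generators -/
theorem SB.exists_band (h : SB Y) {N : ℕ} (ρ : Fin N → Pl 3) (a : Fin N → Fin 3 → Pl 3) :
    ∃ D : ℕ, (∀ k, (ρ k).totalDegree ≤ D ∧ BandI D (mR Y (ρ k)) ∧ BandI D (mQ1 Y (a k)) ∧
      BandI D (mQ2 Y (a k)) ∧ ∀ P : Pl 3, (op1 (a k) P).totalDegree ≤ P.totalDegree + D ∧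
        (op2 (a k) P).totalDegree ≤ P.totalDegree + D) ∧
      ∀ c, BandI D (RR Y ρ c) ∧ BandI D (QQ Y a c) := by
  choose D₀ hD using fun k => h.bandI_mQ (a k)
  have h0 : ∀ k, (ρ k).totalDegree + D₀ k ≤ Finset.univ.sup fun k => (ρ k).totalDegree + D₀ k :=
    fun k => Finset.le_sup (f := fun k => (ρ k).totalDegree + D₀ k) (Finset.mem_univ k)
  have h1 := fun k => (Nat.le_add_right _ _).trans (h0 k)
  have h2 := fun k => hD k _ ((Nat.le_add_left _ _).trans (h0 k))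
  exact ⟨_, fun k => ⟨h1 k, h.bandI_mR _ (h1 k), h2 k⟩, fun c =>
    ⟨SMat_band_sum _ fun k _ => SMat_band_smul (h.bandI_mR _ (h1 k)) _,
      SMat_band_sum _ fun k _ => SMat_band_add (SMat_band_smul (h2 k).1 _) (SMat_band_smul (h2 k).2.1 _)⟩⟩

theorem BandI.band {D : ℕ} {A : Matrix I0 I0 ℝ} (h : BandI D A) {ι : Type} (e : ι → I0) :
    Band (fun i => dg (e i)) D (A.submatrix e e) := by
  exact fun i j hij => h.1 (e i) (e j) hij

/-- the truncated product as a band action on the vector extended by zero -/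
theorem act_extend {D : ℕ} {A : Matrix I0 I0 ℝ} (h : BandI D A) {ι : Type} [Fintype ι]
    {e : ι → I0} (he : Function.Injective e) (v : ι → ℝ) (i : ι) :
    act D A (Function.extend e v 0) (e i) = (A.submatrix e e *ᵥ v) i := by
  have h1 : ∀ j, Function.extend e v 0 j = ∑ i', if e i' = j then v i' else 0 := by
    intro j
    by_cases hj : ∃ i', e i' = j
    · obtain ⟨i', rfl⟩ := hj
      rw [he.extend_apply, Finset.sum_eq_single i']
      · rw [if_pos rfl]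
      · exact fun b _ hb => if_neg fun h2 => hb (he h2)
      · exact fun h2 => absurd (Finset.mem_univ _) h2
    · rw [Function.extend_apply' _ _ _ hj]
      exact (Finset.sum_eq_zero fun b _ => if_neg fun h2 => hj ⟨b, h2⟩).symm
  simp only [act, h1, Finset.mul_sum, Matrix.mulVec, dotProduct, Matrix.submatrix_apply]
  rw [Finset.sum_comm]
  refine Finset.sum_congr rfl fun i' _ => ?_
  simp only [mul_ite, mul_zero, Finset.sum_ite_eq, mem_lowI]
  split_ifs with h2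
  · rfl
  · rw [(h.1 _ _ (not_le.1 h2)).1, zero_mul]

end Crest.Agent.R202
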