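import Crest.Agent.R202.SMat
import Crest.Agent.R202.Lap

/-!
# R202/SSer: series of spherical harmonics

For `x ≠ 0` the term `w (τ |x|) i * evn (P i) x` has derivative
`v ↦ (τ' w' evn P) ⟨x,v⟩/|x| + w Σₖ evn (Lₖ P) ⟨Bₖ x, v⟩/|x|²` (`v = ⟨x,v⟩ x/|x|² + Σₖ ⟨Bₖ x,v⟩ Bₖ x/|x|²`,
`evn P` is `0`-homogeneous).  `hasFDerivAt_tsum_of_isPreconnected` on a small ball gives the same
formula for the series (`hasFDerivAt_ser`); smoothness by induction on the order, simultaneously for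
all good `P` and tame `w` (`contDiffOn_succ_iff_fderiv_of_isOpen`).  The same scheme on the unit
ball with the families `∂ⱼ` of harmonic homogeneous polynomials (`sum_sI_pderiv_sq`,
`SB.ev_sq_le`) gives `ball_series`.
-/

open scoped ContDiff Topology Matrix RealInnerProductSpace
open Set Filter MvPolynomial
open Crest.GeometryTopology

noncomputable section

namespace Crest.Agent.R202

variable {Y P Q : I0 → Pl 3} {w w' : ℝ → I0 → ℝ} {τ : ℝ → ℝ}

theorem SSer_poly_le {ε : ℝ} (hε : 0 < ε) (r : ℕ) : ∃ K : ℝ, 0 ≤ K ∧ ∀ d : ℝ, 0 ≤ d →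
    (1 + d) ^ r ≤ K * Real.exp (ε * d) := by
  refine ⟨(r.factorial : ℝ) / ε ^ r * Real.exp ε, by positivity, fun d hd => ?_⟩
  have h := Real.pow_div_factorial_le_exp (x := ε * (1 + d)) (by positivity) r
  rw [mul_pow, div_le_iff₀ (by positivity), mul_add, mul_one, Real.exp_add] at h
  rw [div_mul_eq_mul_div, div_mul_eq_mul_div, le_div_iff₀ (by positivity)]
  linarith

theorem SSer_dc_poly {κ : ℝ} (hκ : 0 < κ) (r : ℕ) (h : ∀ T : ℝ, ∃ C : ℝ, ∀ t i, |t| ≤ T →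
    |w t i| ≤ C * (1 + (dg i : ℝ)) ^ r * Real.exp (-(κ * dg i))) : Dc w := by
  obtain ⟨K, hK0, hK⟩ := SSer_poly_le (half_pos hκ) r
  refine ⟨κ / 2, half_pos hκ, fun T => ?_⟩
  obtain ⟨C, hC⟩ := h T
  refine ⟨|C| * K, fun t i ht => (hC t i ht).trans ?_⟩
  have h1 := hK (dg i) (Nat.cast_nonneg _)
  have h2 : Real.exp (κ / 2 * dg i) * Real.exp (-(κ * dg i)) = Real.exp (-(κ / 2 * dg i)) := by
    rw [← Real.exp_add]; congr 1; ring
  calc C * (1 + (dg i : ℝ)) ^ r * Real.exp (-(κ * dg i))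
      ≤ |C| * (K * Real.exp (κ / 2 * dg i)) * Real.exp (-(κ * dg i)) := by
        refine mul_le_mul_of_nonneg_right ?_ (Real.exp_pos _).le
        exact mul_le_mul (le_abs_self C) h1 (by positivity) (abs_nonneg C)
    _ = |C| * K * Real.exp (-(κ / 2 * dg i)) := by rw [← h2]; ring

theorem SSer_dc_spec (h : Dc w) : ∃ κ > 0, ∀ κ' ≤ κ, ∀ T : ℝ, ∃ C : ℝ, 0 ≤ C ∧ ∀ t i, |t| ≤ T →
    |w t i| ≤ C * Real.exp (-(κ' * dg i)) := by
  obtain ⟨κ, hκ, h⟩ := h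
  refine ⟨κ, hκ, fun κ' hκ' T => ?_⟩
  obtain ⟨C, hC⟩ := h T
  refine ⟨|C|, abs_nonneg C, fun t i ht => (hC t i ht).trans ?_⟩
  refine mul_le_mul (le_abs_self C) (Real.exp_le_exp.2 ?_) (Real.exp_pos _).le (abs_nonneg C)
  have : (0 : ℝ) ≤ dg i := Nat.cast_nonneg _
  nlinarith

theorem SSer_dc_zero : Dc fun _ _ => (0 : ℝ) :=
  ⟨1, one_pos, fun _ => ⟨0, fun _ _ _ => by simp⟩⟩

theorem Tame.dc (h : Tame w) : Dc w := by
  simpa only [iteratedDeriv_zero] using h.2 0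

theorem Tame.deriv (h : Tame w) : Tame fun t i => deriv (fun s => w s i) t := by
  refine ⟨fun i => (contDiff_infty_iff_deriv.1 (h.1 i)).2, fun k => ?_⟩
  have := h.2 (k + 1)
  simpa only [iteratedDeriv_succ'] using this

theorem Dc.add (h : Dc w) (h' : Dc w') : Dc fun t i => w t i + w' t i := by
  obtain ⟨κ, hκ, h⟩ := SSer_dc_spec h
  obtain ⟨κ', hκ', h'⟩ := SSer_dc_spec h'
  refine ⟨min κ κ', lt_min hκ hκ', fun T => ?_⟩
  obtain ⟨C, -, hC⟩ := h _ (min_le_left κ κ') T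
  obtain ⟨C', -, hC'⟩ := h' _ (min_le_right κ κ') T
  refine ⟨C + C', fun t i ht => (abs_add_le _ _).trans ?_⟩
  rw [add_mul]
  exact add_le_add (hC t i ht) (hC' t i ht)

theorem Dc.mul {f : ℝ → ℝ} (hf : Continuous f) (h : Dc w) : Dc fun t i => f t * w t i := by
  obtain ⟨κ, hκ, h⟩ := SSer_dc_spec h
  refine ⟨κ, hκ, fun T => ?_⟩
  obtain ⟨C, hC0, hC⟩ := h κ le_rfl T
  obtain ⟨B, hB⟩ := (isCompact_Icc (a := -T) (b := T)).exists_bound_of_continuousOn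
    hf.continuousOn
  refine ⟨B * C, fun t i ht => ?_⟩
  have h1 : |f t| ≤ B := hB t (abs_le.1 ht)
  rw [abs_mul, mul_assoc]
  exact mul_le_mul h1 (hC t i ht) (abs_nonneg _) ((abs_nonneg _).trans h1)

theorem Dc.act {D : ℕ} {A : Matrix I0 I0 ℝ} (hA : BandI D A) (h : Dc w) :
    Dc fun t => act D A (w t) := by
  obtain ⟨κ, hκ, h⟩ := SSer_dc_spec h
  obtain ⟨hA0, CA, r, hA1⟩ := hA
  refine SSer_dc_poly hκ (r + 2) fun T => ?_
  obtain ⟨C, hC0, hC⟩ := h κ le_rfl T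
  refine ⟨|CA| * C * Real.exp (κ * D) * (1 + (D : ℝ)) ^ 2, fun t i ht => ?_⟩
  have hd : (0 : ℝ) ≤ dg i := Nat.cast_nonneg _
  have hD : (0 : ℝ) ≤ D := Nat.cast_nonneg _
  have hb : ∀ j ∈ lowI (dg i + D), |A i j * w t j|
      ≤ |CA| * (1 + (dg i : ℝ)) ^ r * (C * (Real.exp (κ * D) * Real.exp (-(κ * dg i)))) := by
    intro j _
    by_cases hj : dg j + D < dg i
    · rw [(hA0 j i hj).2, zero_mul, abs_zero]; positivity
    · rw [abs_mul]
      refine mul_le_mul ((hA1 i j).trans (mul_le_mul_of_nonneg_right (le_abs_self _)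
        (by positivity))) ((hC t j ht).trans (mul_le_mul_of_nonneg_left ?_ hC0)) (abs_nonneg _)
        (by positivity)
      rw [← Real.exp_add, Real.exp_le_exp]
      have h1 : (dg i : ℝ) ≤ dg j + D := by exact_mod_cast not_lt.1 hj
      nlinarith
  have h1 := (Finset.abs_sum_le_sum_abs _ _).trans (Finset.sum_le_card_nsmul _ _ _ hb)
  rw [card_lowI, nsmul_eq_mul] at h1
  refine h1.trans ?_
  have h2 : (((dg i + D + 1) ^ 2 : ℕ) : ℝ) ≤ (1 + (D : ℝ)) ^ 2 * (1 + (dg i : ℝ)) ^ 2 := by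
    push_cast
    rw [← mul_pow]
    exact pow_le_pow_left₀ (by positivity) (by nlinarith [mul_nonneg hd hD]) 2
  refine (mul_le_mul_of_nonneg_right h2 (by positivity)).trans (le_of_eq ?_)
  ring

theorem Dc.lam (h : Dc w) : Dc fun t i => lam 1 (dg i) * w t i := by
  obtain ⟨κ, hκ, h⟩ := SSer_dc_spec h
  refine SSer_dc_poly hκ 2 fun T => ?_
  obtain ⟨C, hC0, hC⟩ := h κ le_rfl T
  refine ⟨C, fun t i ht => ?_⟩
  have hd : (0 : ℝ) ≤ dg i := Nat.cast_nonneg _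
  have h1 : |R202.lam 1 (dg i)| ≤ (1 + (dg i : ℝ)) ^ 2 := by
    unfold R202.lam
    rw [abs_of_nonneg (by positivity)]
    nlinarith
  rw [abs_mul]
  refine (mul_le_mul h1 (hC t i ht) (abs_nonneg _) (by positivity)).trans (le_of_eq ?_)
  ring

theorem tame_const {v : I0 → ℝ} {κ C : ℝ} (hκ : 0 < κ)
    (hv : ∀ i, |v i| ≤ C * Real.exp (-(κ * dg i))) : Tame fun _ => v := by
  refine ⟨fun i => contDiff_const, fun k => ?_⟩
  simp only [iteratedDeriv_const]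
  split_ifs
  · exact ⟨κ, hκ, fun _ => ⟨C, fun _ i _ => hv i⟩⟩
  · exact SSer_dc_zero

/-- `k` derivatives with decay -/
def SSer_TK : ℕ → (ℝ → I0 → ℝ) → Prop
  | 0, w => Dc w
  | k + 1, w => Dc w ∧ ∃ w' : ℝ → I0 → ℝ, (∀ i t, HasDerivAt (fun s => w s i) (w' t i) t) ∧
      SSer_TK k w'

theorem SSer_TK.dc {k : ℕ} (h : SSer_TK k w) : Dc w := by
  cases k with
  | zero => exact h
  | succ k => exact h.1

theorem SSer_TK.pred : ∀ {k : ℕ} {w : ℝ → I0 → ℝ}, SSer_TK (k + 1) w → SSer_TK k w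
  | 0, _, h => h.1
  | _ + 1, _, ⟨h1, w', h2, h3⟩ => ⟨h1, w', h2, h3.pred⟩

theorem SSer_TK.zero : ∀ k : ℕ, SSer_TK k fun _ _ => (0 : ℝ)
  | 0 => SSer_dc_zero
  | k + 1 => ⟨SSer_dc_zero, fun _ _ => 0, fun _ _ => hasDerivAt_const _ _, SSer_TK.zero k⟩

theorem SSer_TK.add : ∀ {k : ℕ} {w w' : ℝ → I0 → ℝ}, SSer_TK k w → SSer_TK k w' →
    SSer_TK k fun t i => w t i + w' t i
  | 0, _, _, h, h' => Dc.add h h'
  | _ + 1, _, _, ⟨h1, v, h2, h3⟩, ⟨h1', v', h2', h3'⟩ =>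
    ⟨h1.add h1', fun t i => v t i + v' t i, fun i t => (h2 i t).add (h2' i t), h3.add h3'⟩

theorem SSer_TK.mul : ∀ {k : ℕ} {f : ℝ → ℝ} {w : ℝ → I0 → ℝ}, ContDiff ℝ ∞ f → SSer_TK k w →
    SSer_TK k fun t i => f t * w t i
  | 0, _, _, hf, h => Dc.mul hf.continuous h
  | k + 1, f, w, hf, h => by
    have hp := h.pred
    obtain ⟨h1, v, h2, h3⟩ := h
    have hf' := contDiff_infty_iff_deriv.1 hf
    exact ⟨h1.mul hf.continuous, fun t i => deriv f t * w t i + f t * v t i,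
      fun i t => (hf'.1 t).hasDerivAt.mul (h2 i t),
      (SSer_TK.mul hf'.2 hp).add (SSer_TK.mul hf h3)⟩

theorem SSer_TK.act {D : ℕ} {A : Matrix I0 I0 ℝ} (hA : BandI D A) :
    ∀ {k : ℕ} {w : ℝ → I0 → ℝ}, SSer_TK k w → SSer_TK k fun t => act D A (w t)
  | 0, _, h => Dc.act hA h
  | _ + 1, _, ⟨h1, v, h2, h3⟩ =>
    ⟨h1.act hA, fun t => R202.act D A (v t),
      fun i t => HasDerivAt.fun_sum fun j _ => (h2 j t).const_mul (A i j), SSer_TK.act hA h3⟩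

theorem SSer_TK.lam : ∀ {k : ℕ} {w : ℝ → I0 → ℝ}, SSer_TK k w →
    SSer_TK k fun t i => lam 1 (dg i) * w t i
  | 0, _, h => Dc.lam h
  | _ + 1, _, ⟨h1, v, h2, h3⟩ =>
    ⟨h1.lam, fun t i => R202.lam 1 (dg i) * v t i, fun i t => (h2 i t).const_mul _, h3.lam⟩

theorem SSer_TK.sum {k : ℕ} {ι : Type} (s : Finset ι) {v : ι → ℝ → I0 → ℝ}
    (h : ∀ j, SSer_TK k (v j)) : SSer_TK k fun t i => ∑ j ∈ s, v j t i := by
  classical
  induction s using Finset.induction_on with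
  | empty => simpa using SSer_TK.zero k
  | insert a s ha ih => simpa only [Finset.sum_insert ha] using (h a).add ih

theorem SSer_TK.contDiff : ∀ {k : ℕ} {w : ℝ → I0 → ℝ}, SSer_TK (k + 1) w →
    ∀ i, ContDiff ℝ k fun t => w t i
  | 0, _, ⟨_, _, h2, _⟩, i =>
    contDiff_zero.2 (continuous_iff_continuousAt.2 fun t => (h2 i t).continuousAt)
  | k + 1, w, ⟨_, v, h2, h3⟩, i => by
    have h4 : deriv (fun t => w t i) = fun t => v t i := funext fun t => (h2 i t).deriv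
    rw [Nat.cast_succ, contDiff_succ_iff_deriv, h4]
    exact ⟨fun t => (h2 i t).differentiableAt, fun h => absurd h (by simp), h3.contDiff i⟩

theorem SSer_TK.iter : ∀ {k : ℕ} {w : ℝ → I0 → ℝ}, SSer_TK k w →
    Dc fun t i => iteratedDeriv k (fun s => w s i) t
  | 0, _, h => by simpa only [iteratedDeriv_zero] using h.dc
  | k + 1, w, ⟨_, v, h2, h3⟩ => by
    have h4 : ∀ i, deriv (fun t => w t i) = fun t => v t i :=
      fun i => funext fun t => (h2 i t).deriv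
    simpa only [iteratedDeriv_succ', h4] using h3.iter

theorem SSer_tame (h : ∀ k, SSer_TK k w) : Tame w :=
  ⟨fun i => contDiff_infty.2 fun k => (h (k + 1)).contDiff i, fun k => (h k).iter⟩

theorem SSer_act_sum {D N : ℕ} (A : Fin N → Matrix I0 I0 ℝ) (v : I0 → ℝ) (i : I0) :
    act D (∑ k, A k) v i = ∑ k, act D (A k) v i := by
  simp only [act, Matrix.sum_apply, Finset.sum_mul]
  exact Finset.sum_comm

theorem SSer_act_smul {D : ℕ} (c : ℝ) (A : Matrix I0 I0 ℝ) (v : I0 → ℝ) (i : I0) :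
    act D (c • A) v i = c * act D A v i := by
  simp only [act, Matrix.smul_apply, smul_eq_mul, Finset.mul_sum, mul_assoc]

theorem SSer_act_add {D : ℕ} (A B : Matrix I0 I0 ℝ) (v : I0 → ℝ) (i : I0) :
    act D (A + B) v i = act D A v i + act D B v i := by
  simp only [act, Matrix.add_apply, add_mul, Finset.sum_add_distrib]

/-- Solutions of the infinite system with decay are tame.  Induction on `k`: the class of families
that are `C^k` with decay of the derivatives up to order `k` is closed under the operations above. -/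
theorem tame_of_isol {β : ℝ → ℝ} (hβ : ContDiff ℝ ∞ β) {D N : ℕ}
    {A₁ A₂ A₃ : Fin N → Matrix I0 I0 ℝ}
    (hA : ∀ k, BandI D (A₁ k) ∧ BandI D (A₂ k) ∧ BandI D (A₃ k)) {c : ℝ → Fin N → ℝ}
    (hc : ContDiff ℝ ∞ c) {u p : ℝ → I0 → ℝ}
    (h : ISol β D (fun t => ∑ k, c t k • A₁ k)
      (fun t => ∑ k, (c t k • A₂ k + c t k ^ 2 • A₃ k)) univ u p) (hu : Dc u) (hp : Dc p) :
    Tame u ∧ Tame p := by
  have hck : ∀ k, ContDiff ℝ ∞ fun t => c t k := fun k => contDiff_pi.1 hc k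
  have key : ∀ k, SSer_TK k u ∧ SSer_TK k p := by
    intro k
    induction k with
    | zero => exact ⟨hu, hp⟩
    | succ k ih =>
      obtain ⟨ihu, ihp⟩ := ih
      refine ⟨⟨hu, _, fun i t => h.du i (mem_univ i) t, ?_⟩,
        ⟨hp, _, fun i t => h.dp i (mem_univ i) t, ?_⟩⟩
      · simp only [SSer_act_sum, SSer_act_smul]
        exact ihp.add (SSer_TK.sum _ fun j => SSer_TK.mul (hck j) (SSer_TK.act (hA j).1 ihp))
      · simp only [SSer_act_sum, SSer_act_smul, SSer_act_add]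
        exact ((SSer_TK.mul hβ.neg ihp).add ihu.lam).add (SSer_TK.sum _ fun j =>
          (SSer_TK.mul (hck j) (SSer_TK.act (hA j).2.1 ihu)).add
            (SSer_TK.mul ((hck j).pow 2) (SSer_TK.act (hA j).2.2 ihu)))
  exact ⟨SSer_tame fun k => (key k).1, SSer_tame fun k => (key k).2⟩

theorem SSer_contDiffAt_dir {x : E 3} (hx : x ≠ 0) :
    ContDiffAt ℝ ∞ (fun y : E 3 => ‖y‖⁻¹ • y) x :=
  ((contDiffAt_norm ℝ hx).inv (norm_ne_zero_iff.2 hx)).smul contDiffAt_id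

theorem SSer_norm_dir {x : E 3} (hx : x ≠ 0) : ‖‖x‖⁻¹ • x‖ = 1 := by
  rw [norm_smul, norm_inv, norm_norm, inv_mul_cancel₀ (norm_ne_zero_iff.2 hx)]

theorem SSer_contDiffAt_evn (ρ : Pl 3) {x : E 3} (hx : x ≠ 0) : ContDiffAt ℝ ∞ (evn ρ) x :=
  (contDiff_ev ρ).contDiffAt.comp x (SSer_contDiffAt_dir hx)

theorem SSer_fderiv_evn (ρ : Pl 3) {x : E 3} (hx : x ≠ 0) (v : E 3) :
    fderiv ℝ (evn ρ) x v = fderiv ℝ (ev ρ) (‖x‖⁻¹ • x)
      (‖x‖⁻¹ • v + (-(‖x‖ ^ 2)⁻¹ / ‖x‖ * ⟪x, v⟫) • x) := by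
  have hn : ‖x‖ ≠ 0 := norm_ne_zero_iff.2 hx
  have h1 := (hasFDerivAt_radial hx (hasDerivAt_inv hn)).smul (hasFDerivAt_id x)
  have h2 : DifferentiableAt ℝ (ev ρ) (‖x‖⁻¹ • x) :=
    ((contDiff_ev ρ).differentiable (by simp)).differentiableAt
  have h3 := HasFDerivAt.comp (g := ev ρ) (f := fun y : E 3 => ‖y‖⁻¹ • y) x h2.hasFDerivAt h1
  have h4 : HasFDerivAt (evn ρ) _ x := h3
  rw [h4.fderiv]
  simp

theorem SSer_inner_Bm (k : Fin 3) (x : E 3) : ⟪x, mv (Bm k) x⟫ = 0 := by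
  rw [PiLp.inner_apply]
  fin_cases k <;> simp [Bm, Fin.sum_univ_three] <;> ring

theorem SSer_mv_smul (A : Mat 3) (t : ℝ) (v : E 3) : mv A (t • v) = t • mv A v := by
  ext i
  simp only [mv_apply, PiLp.smul_apply, smul_eq_mul, Finset.mul_sum]
  exact Finset.sum_congr rfl fun j _ => by ring

theorem contDiffOn_evn (ρ : Pl 3) : ContDiffOn ℝ ∞ (evn ρ) {x | x ≠ 0} := by
  exact fun x hx => (SSer_contDiffAt_evn ρ hx).contDiffWithinAt

theorem Lf_evn (k : Fin 3) (ρ : Pl 3) {x : E 3} (hx : x ≠ 0) :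
    Lf k (evn ρ) x = evn (Lop k ρ) x := by
  unfold Lf
  rw [SSer_fderiv_evn ρ hx, SSer_inner_Bm, mul_zero, zero_smul, add_zero, ← SSer_mv_smul,
    fderiv_ev_mv]
  rfl

theorem fderiv_evn_self (ρ : Pl 3) {x : E 3} (hx : x ≠ 0) : fderiv ℝ (evn ρ) x x = 0 := by
  have hn : ‖x‖ ≠ 0 := norm_ne_zero_iff.2 hx
  rw [SSer_fderiv_evn ρ hx, real_inner_self_eq_norm_sq, ← add_smul,
    show ‖x‖⁻¹ + -(‖x‖ ^ 2)⁻¹ / ‖x‖ * ‖x‖ ^ 2 = 0 by field_simp; ring, zero_smul, map_zero]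

theorem eq_radial_add_sum {x : E 3} (hx : x ≠ 0) (v : E 3) :
    v = (⟪x, v⟫ / ‖x‖ ^ 2) • x + ∑ k, (⟪mv (Bm k) x, v⟫ / ‖x‖ ^ 2) • mv (Bm k) x := by
  have hn : ‖x‖ ^ 2 ≠ 0 := pow_ne_zero 2 (norm_ne_zero_iff.2 hx)
  have h1 : ‖x‖ ^ 2 = x 0 ^ 2 + x 1 ^ 2 + x 2 ^ 2 := by
    rw [EuclideanSpace.real_norm_sq_eq, Fin.sum_univ_three]
  rw [h1] at hn
  ext i
  simp only [PiLp.inner_apply, h1]
  fin_cases i <;> simp [Bm, Fin.sum_univ_three] <;> field_simp <;> ring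

/-- locally uniformly summable families -/
def SSer_LS (U : Set (E 3)) (F : I0 → E 3 → ℝ) : Prop :=
  ∀ x ∈ U, ∃ M : I0 → ℝ, Summable M ∧ ∀ᶠ y in 𝓝 x, ∀ i, |F i y| ≤ M i

theorem SSer_LS.summable {U : Set (E 3)} {F : I0 → E 3 → ℝ} (h : SSer_LS U F) {x : E 3}
    (hx : x ∈ U) : Summable fun i => F i x := by
  obtain ⟨M, hM, h⟩ := h x hx
  exact Summable.of_norm_bounded hM h.self_of_nhds

section gen

variable {U : Set (E 3)} {ι : Type} [Fintype ι] {L : ι → E 3 → (E 3 →L[ℝ] ℝ)}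

theorem SSer_hasFDerivAt0 (hU : IsOpen U) (hL : ∀ k, ContinuousOn (L k) U)
    {F : I0 → E 3 → ℝ} {G : ι → I0 → E 3 → ℝ} (hF : SSer_LS U F) (hG : ∀ k, SSer_LS U (G k))
    (hd : ∀ i, ∀ y ∈ U, HasFDerivAt (F i) (∑ k, G k i y • L k y) y) {x : E 3} (hx : x ∈ U) :
    HasFDerivAt (fun y => ∑' i, F i y) (∑' i, ∑ k, G k i x • L k x) x := by
  choose M hM hb using fun k => hG k x hx
  have h1 : ∀ k, ∀ᶠ y in 𝓝 x, ‖L k y‖ ≤ ‖L k x‖ + 1 := fun k =>
    (((hL k).continuousAt (hU.mem_nhds hx)).norm.eventually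
      (gt_mem_nhds (lt_add_one ‖L k x‖))).mono fun y hy => le_of_lt hy
  have h2 : ∀ᶠ y in 𝓝 x, y ∈ U ∧ (∀ k, ‖L k y‖ ≤ ‖L k x‖ + 1) ∧ ∀ k i, |G k i y| ≤ M k i :=
    (hU.eventually_mem hx).and ((eventually_all.2 h1).and (eventually_all.2 hb))
  obtain ⟨ε, hε, h3⟩ := Metric.eventually_nhds_iff_ball.1 h2
  refine hasFDerivAt_tsum_of_isPreconnected (u := fun i => ∑ k, M k i * (‖L k x‖ + 1))
    (f' := fun i y => ∑ k, G k i y • L k y)
    (summable_sum fun k _ => (hM k).mul_right _) Metric.isOpen_ball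
    (convex_ball x ε).isPreconnected (fun i y hy => hd i y (h3 y hy).1) (fun i y hy => ?_)
    (Metric.mem_ball_self hε) (hF.summable hx) (Metric.mem_ball_self hε)
  refine (norm_sum_le _ _).trans (Finset.sum_le_sum fun k _ => ?_)
  rw [norm_smul, Real.norm_eq_abs]
  exact mul_le_mul ((h3 y hy).2.2 k i) ((h3 y hy).2.1 k) (norm_nonneg _)
    ((abs_nonneg _).trans ((h3 y hy).2.2 k i))

theorem SSer_hasFDerivAt (hU : IsOpen U) (hL : ∀ k, ContinuousOn (L k) U)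
    {F : I0 → E 3 → ℝ} {G : ι → I0 → E 3 → ℝ} (hF : SSer_LS U F) (hG : ∀ k, SSer_LS U (G k))
    (hd : ∀ i, ∀ y ∈ U, HasFDerivAt (F i) (∑ k, G k i y • L k y) y) {x : E 3} (hx : x ∈ U) :
    HasFDerivAt (fun y => ∑' i, F i y) (∑ k, (∑' i, G k i x) • L k x) x := by
  have h := SSer_hasFDerivAt0 hU hL hF hG hd hx
  rw [Summable.tsum_finsetSum fun k _ => ((hG k).summable hx).smul_const (L k x)] at h
  simpa only [fun k => ((hG k).summable hx).tsum_smul_const (L k x)] using h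

theorem SSer_fderiv_apply (hU : IsOpen U) (hL : ∀ k, ContinuousOn (L k) U)
    {F : I0 → E 3 → ℝ} {G : ι → I0 → E 3 → ℝ} (hF : SSer_LS U F) (hG : ∀ k, SSer_LS U (G k))
    (hd : ∀ i, ∀ y ∈ U, HasFDerivAt (F i) (∑ k, G k i y • L k y) y) {x : E 3} (hx : x ∈ U)
    (v : E 3) : fderiv ℝ (fun y => ∑' i, F i y) x v = ∑' i, fderiv ℝ (F i) x v := by
  rw [(SSer_hasFDerivAt0 hU hL hF hG hd hx).fderiv]
  have hs : Summable fun i => ∑ k, G k i x • L k x :=
    summable_sum fun k _ => ((hG k).summable hx).smul_const (L k x)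
  have := (ContinuousLinearMap.apply ℝ ℝ v).map_tsum hs
  simp only [ContinuousLinearMap.apply_apply] at this
  rw [this]
  exact tsum_congr fun i => by rw [(hd i x hx).fderiv]

theorem SSer_contDiffOn (hU : IsOpen U) (hL : ∀ k, ContDiffOn ℝ ∞ (L k) U)
    (𝒞 : (I0 → E 3 → ℝ) → Prop) (h1 : ∀ F, 𝒞 F → SSer_LS U F)
    (h2 : ∀ F, 𝒞 F → ∃ G : ι → I0 → E 3 → ℝ, (∀ k, 𝒞 (G k)) ∧
      ∀ i, ∀ y ∈ U, HasFDerivAt (F i) (∑ k, G k i y • L k y) y)
    {F : I0 → E 3 → ℝ} (hF : 𝒞 F) : ContDiffOn ℝ ∞ (fun y => ∑' i, F i y) U := by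
  refine contDiffOn_infty.2 fun n => ?_
  induction n generalizing F with
  | zero =>
    obtain ⟨G, hG, hd⟩ := h2 F hF
    exact contDiffOn_zero.2 fun x hx => (SSer_hasFDerivAt hU (fun k => (hL k).continuousOn)
      (h1 F hF) (fun k => h1 _ (hG k)) hd hx).continuousAt.continuousWithinAt
  | succ n ih =>
    obtain ⟨G, hG, hd⟩ := h2 F hF
    have h3 := fun x hx => SSer_hasFDerivAt hU (fun k => (hL k).continuousOn)
      (h1 F hF) (fun k => h1 _ (hG k)) hd (x := x) hx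
    rw [Nat.cast_succ, contDiffOn_succ_iff_fderiv_of_isOpen hU]
    refine ⟨fun x hx => (h3 x hx).differentiableAt.differentiableWithinAt,
      fun h => absurd h (by simp), ?_⟩
    refine ContDiffOn.congr ?_ fun x hx => (h3 x hx).fderiv
    exact ContDiffOn.sum fun k _ => (ih (hG k)).smul ((hL k).of_le (by exact_mod_cast le_top))

end gen

/-- the covectors in the derivative of a series -/
def SSer_L (τ : ℝ → ℝ) : Option (Fin 3) → E 3 → (E 3 →L[ℝ] ℝ)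
  | none, y => (deriv τ ‖y‖ / ‖y‖) • innerSL ℝ y
  | some k, y => (‖y‖ ^ 2)⁻¹ • innerSL ℝ (mv (Bm k) y)

theorem SSer_contDiff_mv (A : Mat 3) : ContDiff ℝ ∞ fun y : E 3 => mv A y := by
  rw [contDiff_euclidean]
  intro i
  simp only [mv_apply]
  exact ContDiff.sum fun j _ => contDiff_const.mul (EuclideanSpace.proj j : E 3 →L[ℝ] ℝ).contDiff

theorem SSer_L_smooth (hτ : ContDiffOn ℝ ∞ τ (Ioi 0)) (k : Option (Fin 3)) :
    ContDiffOn ℝ ∞ (SSer_L τ k) {x | x ≠ 0} := by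
  intro x hx
  have hx' : x ≠ 0 := hx
  have hn : ‖x‖ ≠ 0 := norm_ne_zero_iff.2 hx'
  have h1 : ContDiffAt ℝ ∞ (fun y : E 3 => ‖y‖) x := contDiffAt_norm ℝ hx'
  refine ContDiffAt.contDiffWithinAt ?_
  cases k with
  | none =>
    have h2 : ContDiffOn ℝ ∞ (deriv τ) (Ioi 0) := hτ.deriv_of_isOpen isOpen_Ioi (by simp)
    have h3 : ContDiffAt ℝ ∞ (deriv τ) ‖x‖ :=
      h2.contDiffAt (isOpen_Ioi.mem_nhds (norm_pos_iff.2 hx'))
    exact ((h3.comp x h1).div h1 hn).smul (innerSL ℝ (E := E 3)).contDiff.contDiffAt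
  | some k =>
    exact ((h1.pow 2).inv (pow_ne_zero 2 hn)).smul
      ((innerSL ℝ (E := E 3)).contDiff.comp (SSer_contDiff_mv (Bm k))).contDiffAt

theorem SSer_hasFDerivAt_rad (hτ : ContDiffOn ℝ ∞ τ (Ioi 0)) (hw : Tame w) (i : I0) {x : E 3}
    (hx : x ≠ 0) : HasFDerivAt (fun y : E 3 => w (τ ‖y‖) i)
      ((deriv (fun s => w s i) (τ ‖x‖) * deriv τ ‖x‖ / ‖x‖) • innerSL ℝ x) x := by
  have h1 : DifferentiableAt ℝ τ ‖x‖ :=
    (hτ.contDiffAt (isOpen_Ioi.mem_nhds (norm_pos_iff.2 hx))).differentiableAt (by simp)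
  have h2 : DifferentiableAt ℝ (fun s => w s i) (τ ‖x‖) :=
    ((hw.1 i).differentiable (by simp)).differentiableAt
  exact hasFDerivAt_radial (w := fun r => w (τ r) i) hx (h2.hasDerivAt.comp ‖x‖ h1.hasDerivAt)

theorem SSer_hasFDerivAt_evn (ρ : Pl 3) {x : E 3} (hx : x ≠ 0) : HasFDerivAt (evn ρ)
    (∑ k, evn (Lop k ρ) x • (‖x‖ ^ 2)⁻¹ • innerSL ℝ (mv (Bm k) x)) x := by
  have h1 : DifferentiableAt ℝ (evn ρ) x := (SSer_contDiffAt_evn ρ hx).differentiableAt (by simp)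
  refine h1.hasFDerivAt.congr_fderiv ?_
  ext v
  conv_lhs => rw [eq_radial_add_sum hx v]
  rw [map_add, map_smul, fderiv_evn_self ρ hx, smul_zero, zero_add, map_sum,
    ContinuousLinearMap.sum_apply]
  refine Finset.sum_congr rfl fun k _ => ?_
  have h2 := Lf_evn k ρ hx
  unfold Lf at h2
  rw [map_smul, h2]
  simp only [ContinuousLinearMap.smul_apply, innerSL_apply_apply, smul_eq_mul]
  ring

/-- the coefficients in the derivative of a series -/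
def SSer_G (τ : ℝ → ℝ) (P : I0 → Pl 3) (w : ℝ → I0 → ℝ) : Option (Fin 3) → I0 → E 3 → ℝ
  | none, i, y => deriv (fun s => w s i) (τ ‖y‖) * evn (P i) y
  | some k, i, y => w (τ ‖y‖) i * evn (Lop k (P i)) y

theorem SSer_hasFDerivAt_term (hτ : ContDiffOn ℝ ∞ τ (Ioi 0)) (hw : Tame w) (i : I0) {x : E 3}
    (hx : x ≠ 0) : HasFDerivAt (fun y : E 3 => w (τ ‖y‖) i * evn (P i) y)
      (∑ k, SSer_G τ P w k i x • SSer_L τ k x) x := by
  refine ((SSer_hasFDerivAt_rad hτ hw i hx).mul (SSer_hasFDerivAt_evn (P i) hx)).congr_fderiv ?_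
  rw [Fintype.sum_option, add_comm, Finset.smul_sum]
  simp only [SSer_G, SSer_L, smul_smul]
  congr 1
  · congr 1
    ring
  · exact Finset.sum_congr rfl fun k _ => by rw [mul_assoc]

theorem SSer_ev_le {P : Pl 3} {l : ℕ} (hP : P.IsHomogeneous l) {B : ℝ}
    (hB : ∀ x : E 3, ‖x‖ = 1 → |ev P x| ≤ B) {y : E 3} (hy : ‖y‖ ≤ 1) : |ev P y| ≤ B := by
  obtain ⟨z, hz, hyz⟩ : ∃ z : E 3, ‖z‖ = 1 ∧ y = ‖y‖ • z := by
    by_cases hx : y = 0
    · exact ⟨EuclideanSpace.single 0 1, by simp, by simp [hx]⟩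
    · exact ⟨‖y‖⁻¹ • y, SSer_norm_dir hx, by
        rw [smul_smul, mul_inv_cancel₀ (norm_ne_zero_iff.2 hx), one_smul]⟩
  rw [hyz, ev_smul_of_isHomogeneous hP, abs_mul, abs_of_nonneg (by positivity)]
  exact (mul_le_of_le_one_left (abs_nonneg _) (pow_le_one₀ (norm_nonneg _) hy)).trans (hB z hz)

/-- good families of harmonic homogeneous polynomials -/
def SSer_HG (Q : I0 → Pl 3) : Prop := Good Q ∧ ∀ i, ∃ l, l ≤ dg i ∧ Q i ∈ Hm ℝ 3 l

theorem SSer_HG.pderiv (hQ : SSer_HG Q) (k : Fin 3) : SSer_HG fun i => pderiv k (Q i) := by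
  obtain ⟨⟨D, C, r, hG⟩, hH⟩ := hQ
  have h1 : ∀ i, ∃ l, l ≤ dg i ∧ MvPolynomial.pderiv k (Q i) ∈ Hm ℝ 3 l := by
    intro i
    obtain ⟨l, hl, h1, h2⟩ := hH i
    refine ⟨l - 1, by omega, IsHomogeneous.pderiv h1, ?_⟩
    have h3 : lapP (Q i) = 0 := h2
    show lapP (MvPolynomial.pderiv k (Q i)) = 0
    rw [pb_lapP_pderiv, h3, map_zero]
  refine ⟨⟨0, 2 * C, r + 2, fun i => ⟨?_, ?_⟩⟩, h1⟩
  · obtain ⟨l, hl, h2, -⟩ := h1 i
    exact (IsHomogeneous.totalDegree_le h2).trans hl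
  · obtain ⟨l, hl, h2⟩ := hH i
    have h3 := sum_sI_pderiv_sq h2
    have h4 : sI (MvPolynomial.pderiv k (Q i) ^ 2) ≤ ∑ k, sI (MvPolynomial.pderiv k (Q i) ^ 2) :=
      Finset.single_le_sum (f := fun k => sI (MvPolynomial.pderiv k (Q i) ^ 2))
        (fun k _ => sI_sq_nonneg _) (Finset.mem_univ k)
    have h5 : (l : ℝ) ≤ dg i := by exact_mod_cast hl
    have h6 : (0 : ℝ) ≤ l := Nat.cast_nonneg _
    have h7 : (l : ℝ) * (2 * l + 1) ≤ 2 * (1 + (dg i : ℝ)) ^ 2 := by nlinarith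
    rw [h3] at h4
    refine h4.trans ((mul_le_mul h7 (hG i).2 (sI_sq_nonneg _) (by positivity)).trans (le_of_eq ?_))
    ring

theorem SSer_hasFDerivAt_ev (c : ℝ) (ρ : Pl 3) (y : E 3) : HasFDerivAt (fun y => c * ev ρ y)
    (∑ k, (c * ev (pderiv k ρ) y) • (EuclideanSpace.proj k : E 3 →L[ℝ] ℝ)) y := by
  have h1 : DifferentiableAt ℝ (ev ρ) y :=
    ((contDiff_ev ρ).differentiable (by simp)).differentiableAt
  refine (h1.hasFDerivAt.const_mul c).congr_fderiv ?_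
  ext v
  rw [ContinuousLinearMap.smul_apply, lap_clm_eq_sum, ContinuousLinearMap.sum_apply, smul_eq_mul,
    Finset.mul_sum]
  refine Finset.sum_congr rfl fun k _ => ?_
  have h2 := pderiv_ev ρ k y
  unfold CoordMetric.pderiv at h2
  rw [h2]
  simp only [ContinuousLinearMap.smul_apply, smul_eq_mul, PiLp.proj_apply]
  ring

namespace SB

variable (h : SB Y)
include h

theorem SSer_bound (hP : Good P) : ∃ (C : ℝ) (r : ℕ), 0 ≤ C ∧
    ∀ i x, ‖x‖ = 1 → |ev (P i) x| ≤ C * (1 + dg i) ^ r := by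
  obtain ⟨C, r, hC⟩ := h.good_bound hP
  exact ⟨|C|, r, abs_nonneg C, fun i x hx => (hC i x hx).trans
    (mul_le_mul_of_nonneg_right (le_abs_self C) (by positivity))⟩

theorem SSer_term_le (hP : Good P) : ∃ (C : ℝ) (r : ℕ), 0 ≤ C ∧ ∀ (κ M a : ℝ) (i : I0) (x : E 3),
    x ≠ 0 → |a| ≤ M * Real.exp (-(κ * dg i)) →
    |a * evn (P i) x| ≤ C * M * ((1 + (dg i : ℝ)) ^ r * Real.exp (-(κ * dg i))) := by
  obtain ⟨C, r, hC0, hC⟩ := h.SSer_bound hP
  refine ⟨C, r, hC0, fun κ M a i x hx ha => ?_⟩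
  rw [abs_mul]
  refine (mul_le_mul ha (hC i _ (SSer_norm_dir hx)) (abs_nonneg _)
    ((abs_nonneg _).trans ha)).trans (le_of_eq ?_)
  ring

theorem SSer_ls (hτ : ContDiffOn ℝ ∞ τ (Ioi 0)) (hP : Good P) (hw : Dc w) :
    SSer_LS {x | x ≠ 0} fun i y => w (τ ‖y‖) i * evn (P i) y := by
  intro x hx
  have hx' : x ≠ 0 := hx
  obtain ⟨C, r, -, hC⟩ := h.SSer_term_le hP
  obtain ⟨κ, hκ, hw⟩ := hw
  obtain ⟨M, hM⟩ := hw (|τ ‖x‖| + 1)
  have h1 : ContinuousAt (fun y : E 3 => |τ ‖y‖|) x :=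
    (ContinuousAt.comp (g := τ)
      (hτ.continuousOn.continuousAt (isOpen_Ioi.mem_nhds (norm_pos_iff.2 hx')))
      continuous_norm.continuousAt).abs
  refine ⟨_, (summable_poly_exp hκ r).mul_left (C * M), ?_⟩
  filter_upwards [h1.eventually (gt_mem_nhds (lt_add_one |τ ‖x‖|)),
    isOpen_ne.mem_nhds hx'] with y hy hy0 i
  exact hC κ M _ i y hy0 (hM _ i hy.le)

theorem SSer_ls_G (hτ : ContDiffOn ℝ ∞ τ (Ioi 0)) (hP : Good P) (hw : Tame w)
    (k : Option (Fin 3)) : SSer_LS {x | x ≠ 0} (SSer_G τ P w k) := by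
  cases k with
  | none => exact h.SSer_ls hτ hP hw.deriv.dc
  | some k => exact h.SSer_ls hτ (h.good_Lop hP k) hw.dc

theorem SSer_fderiv_ser (hτ : ContDiffOn ℝ ∞ τ (Ioi 0)) (hP : Good P) (hw : Tame w) {x : E 3}
    (hx : x ≠ 0) (v : E 3) : fderiv ℝ (ser τ P w) x v
      = ∑' i, fderiv ℝ (fun y : E 3 => w (τ ‖y‖) i * evn (P i) y) x v :=
  SSer_fderiv_apply isOpen_ne (fun k => (SSer_L_smooth hτ k).continuousOn)
    (h.SSer_ls hτ hP hw.dc) (h.SSer_ls_G hτ hP hw)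
    (fun i _ hy => SSer_hasFDerivAt_term hτ hw i hy) hx v

theorem summable_ser (hP : Good P) (hw : Dc w) (t : ℝ) {x : E 3} (hx : x ≠ 0) :
    Summable fun i => w t i * evn (P i) x := by
  obtain ⟨C, r, -, hC⟩ := h.SSer_term_le hP
  obtain ⟨κ, hκ, hw⟩ := hw
  obtain ⟨M, hM⟩ := hw |t|
  exact Summable.of_norm_bounded ((summable_poly_exp hκ r).mul_left (C * M)) fun i =>
    hC κ M _ i x hx (hM t i le_rfl)

theorem contDiffOn_ser (hτ : ContDiffOn ℝ ∞ τ (Ioi 0)) (hP : Good P) (hw : Tame w) :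
    ContDiffOn ℝ ∞ (ser τ P w) {x | x ≠ 0} := by
  refine SSer_contDiffOn isOpen_ne (SSer_L_smooth hτ)
    (fun F => ∃ P w, Good P ∧ Tame w ∧ F = fun i y => w (τ ‖y‖) i * evn (P i) y) ?_ ?_
    ⟨P, w, hP, hw, rfl⟩
  · rintro F ⟨P, w, hP, hw, rfl⟩
    exact h.SSer_ls hτ hP hw.dc
  · rintro F ⟨P, w, hP, hw, rfl⟩
    refine ⟨SSer_G τ P w, fun k => ?_, fun i _ hy => SSer_hasFDerivAt_term hτ hw i hy⟩
    cases k with
    | none => exact ⟨P, _, hP, hw.deriv, rfl⟩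
    | some k => exact ⟨_, w, h.good_Lop hP k, hw, rfl⟩

theorem fderiv_ser_self (hτ : ContDiffOn ℝ ∞ τ (Ioi 0)) (hP : Good P) (hw : Tame w) {x : E 3}
    (hx : x ≠ 0) : fderiv ℝ (ser τ P w) x x
      = ‖x‖ * deriv τ ‖x‖ * ser τ P (fun t i => deriv (fun s => w s i) t) x := by
  have hn : ‖x‖ ≠ 0 := norm_ne_zero_iff.2 hx
  rw [h.SSer_fderiv_ser hτ hP hw hx, ser, ← tsum_mul_left]
  refine tsum_congr fun i => ?_
  have h1 : DifferentiableAt ℝ (evn (P i)) x :=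
    (SSer_contDiffAt_evn _ hx).differentiableAt (by simp)
  have h2 := (SSer_hasFDerivAt_rad hτ hw i hx).fun_mul h1.hasFDerivAt
  rw [h2.fderiv]
  simp only [ContinuousLinearMap.add_apply, ContinuousLinearMap.smul_apply, fderiv_evn_self _ hx,
    innerSL_apply_apply, real_inner_self_eq_norm_sq, smul_eq_mul]
  field_simp
  ring

theorem Lf_ser (hτ : ContDiffOn ℝ ∞ τ (Ioi 0)) (hP : Good P) (hw : Tame w) (k : Fin 3) {x : E 3}
    (hx : x ≠ 0) : Lf k (ser τ P w) x = ser τ (fun i => Lop k (P i)) w x := by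
  rw [Lf, h.SSer_fderiv_ser hτ hP hw hx, ser]
  refine tsum_congr fun i => ?_
  have h1 : DifferentiableAt ℝ (evn (P i)) x :=
    (SSer_contDiffAt_evn _ hx).differentiableAt (by simp)
  have h2 := (SSer_hasFDerivAt_rad hτ hw i hx).fun_mul h1.hasFDerivAt
  have h3 := Lf_evn k (P i) hx
  unfold Lf at h3
  rw [h2.fderiv]
  simp only [ContinuousLinearMap.add_apply, ContinuousLinearMap.smul_apply, h3,
    innerSL_apply_apply, SSer_inner_Bm, smul_eq_mul]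
  ring

theorem ser_add_left (hP : Good P) (hQ : Good Q) (hw : Dc w) {x : E 3} (hx : x ≠ 0) :
    ser τ (fun i => P i + Q i) w x = ser τ P w x + ser τ Q w x := by
  unfold ser
  rw [← (h.summable_ser hP hw _ hx).tsum_add (h.summable_ser hQ hw _ hx)]
  exact tsum_congr fun i => by rw [evn, ev_add, mul_add]; rfl

theorem ser_add_right (hP : Good P) (hw : Dc w) (hw' : Dc w') {x : E 3} (hx : x ≠ 0) :
    ser τ P (fun t i => w t i + w' t i) x = ser τ P w x + ser τ P w' x := by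
  unfold ser
  rw [← (h.summable_ser hP hw _ hx).tsum_add (h.summable_ser hP hw' _ hx)]
  exact tsum_congr fun i => add_mul _ _ _

/-- re-expansion in the basis (`SB.span`, `Summable.tsum_comm` or `tsum_sigma`) -/
theorem ser_expand {D : ℕ} {A : Matrix I0 I0 ℝ} (hA : BandI D A)
    (hPA : ∀ i j, A i j = sI (Y i * P j)) (hD : ∀ j, (P j).totalDegree ≤ dg j + D) (hw : Dc w)
    {x : E 3} (hx : x ≠ 0) : ser τ P w x = ser τ Y (fun t => act D A (w t)) x := by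
  obtain ⟨hA0, CA, r, hA1⟩ := hA
  obtain ⟨C, r', hC0, hC⟩ := h.SSer_bound h.good
  obtain ⟨κ, hκ, hw⟩ := SSer_dc_spec hw
  obtain ⟨M, hM0, hM⟩ := hw κ le_rfl |τ ‖x‖|
  have hκ2 := half_pos hκ
  set g : I0 → I0 → ℝ := fun i j => A i j * w (τ ‖x‖) j * evn (Y i) x with hg
  have hs : Summable (Function.uncurry g) := by
    have h1 := ((summable_poly_exp hκ2 (r + r')).mul_of_nonneg (summable_poly_exp hκ2 0)
      (fun i => by positivity) (fun i => by positivity)).mul_left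
        (|CA| * M * C * Real.exp (κ / 2 * D))
    refine Summable.of_norm_bounded h1 ?_
    rintro ⟨i, j⟩
    simp only [Function.uncurry_apply_pair, hg, Real.norm_eq_abs, pow_zero, one_mul]
    by_cases hj : dg j + D < dg i
    · rw [(hA0 j i hj).2, zero_mul, zero_mul, abs_zero]; positivity
    · have h2 : Real.exp (-(κ * dg j)) ≤ Real.exp (κ / 2 * D) * Real.exp (-(κ / 2 * dg i))
          * Real.exp (-(κ / 2 * dg j)) := by
        rw [← Real.exp_add, ← Real.exp_add, Real.exp_le_exp]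
        have h1 : (dg i : ℝ) ≤ dg j + D := by exact_mod_cast not_lt.1 hj
        nlinarith
      have h3 : |A i j| ≤ |CA| * (1 + (dg i : ℝ)) ^ r :=
        (hA1 i j).trans (mul_le_mul_of_nonneg_right (le_abs_self _) (by positivity))
      have h4 := (hM _ j le_rfl).trans (mul_le_mul_of_nonneg_left h2 hM0)
      have h5 : |evn (Y i) x| ≤ C * (1 + (dg i : ℝ)) ^ r' := hC i _ (SSer_norm_dir hx)
      rw [abs_mul, abs_mul]
      refine (mul_le_mul (mul_le_mul h3 h4 (abs_nonneg _) (by positivity)) h5 (abs_nonneg _)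
        (by positivity)).trans (le_of_eq ?_)
      ring
  have e1 : ∀ j, w (τ ‖x‖) j * evn (P j) x = ∑' i, g i j := by
    intro j
    rw [tsum_eq_sum (s := lowI (dg j + D)) fun i hi => by
      simp only [hg]
      rw [(hA0 j i (by simpa using hi)).2, zero_mul, zero_mul]]
    rw [evn, h.span (P j) _ (hD j) _ (SSer_norm_dir hx), Finset.mul_sum]
    refine Finset.sum_congr rfl fun i _ => ?_
    simp only [hg, hPA, evn]
    ring
  have e2 : ∀ i, act D A (w (τ ‖x‖)) i * evn (Y i) x = ∑' j, g i j := by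
    intro i
    rw [tsum_eq_sum (s := lowI (dg i + D)) fun j hj => by
      simp only [hg]
      rw [(hA0 i j (by simpa using hj)).1, zero_mul, zero_mul]]
    rw [act, Finset.sum_mul]
  unfold ser
  simp only [e1, e2]
  exact hs.tsum_comm

theorem sF_ser (hw : Dc w) (j : I0) {r : ℝ} (hr : 0 < r) :
    sF (fun θ => ev (Y j) θ * ser τ Y w (r • θ)) = w (τ r) j := by
  obtain ⟨C, s, hC0, hC⟩ := h.SSer_bound (h.good.mul (Y j))
  obtain ⟨κ, hκ, hw⟩ := hw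
  obtain ⟨M, hM⟩ := hw |τ r|
  have e1 : ∀ θ : E 3, ‖θ‖ = 1 → ev (Y j) θ * ser τ Y w (r • θ)
      = ∑' i, w (τ r) i * ev (Y j * Y i) θ := by
    intro θ hθ
    have h1 : ‖r • θ‖ = r := by rw [norm_smul, hθ, mul_one, Real.norm_of_nonneg hr.le]
    rw [ser, ← tsum_mul_left]
    refine tsum_congr fun i => ?_
    rw [evn, h1, smul_smul, inv_mul_cancel₀ hr.ne', one_smul, ev_mul]
    ring
  rw [sF_congr e1, sF_tsum (f := fun i θ => w (τ r) i * ev (Y j * Y i) θ)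
    (fun i => (continuous_const.mul (contDiff_ev _).continuous).continuousOn)
    (fun i θ hθ => ?_) ((summable_poly_exp hκ s).mul_left (C * M))]
  · rw [tsum_eq_single j]
    · rw [sF_const_mul]
      have := h.orth j j
      rw [if_pos rfl, sI] at this
      rw [this, mul_one]
    · intro i hi
      rw [sF_const_mul]
      have := h.orth j i
      rw [if_neg hi.symm, sI] at this
      rw [this, mul_zero]
  · have h1 := hM _ i le_rfl
    rw [abs_mul]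
    refine (mul_le_mul h1 (hC i θ hθ) (abs_nonneg _) ((abs_nonneg _).trans h1)).trans (le_of_eq ?_)
    ring

theorem abs_ser_le (hP : Good P) {κ : ℝ} (hκ : 0 < κ) : ∃ C : ℝ, 0 ≤ C ∧
    ∀ (τ : ℝ → ℝ) (w : ℝ → I0 → ℝ) (x : E 3) (M : ℝ), x ≠ 0 →
      (∀ i, |w (τ ‖x‖) i| ≤ M * Real.exp (-(κ * dg i))) → |ser τ P w x| ≤ C * M := by
  obtain ⟨C, r, hC0, hC⟩ := h.SSer_term_le hP
  have hs := summable_poly_exp hκ r
  refine ⟨C * ∑' i : I0, (1 + (dg i : ℝ)) ^ r * Real.exp (-(κ * dg i)),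
    mul_nonneg hC0 (tsum_nonneg fun i => by positivity), fun τ w x M hx hM => ?_⟩
  have h1 := tsum_of_norm_bounded (hs.mul_left (C * M)).hasSum
    (f := fun i => w (τ ‖x‖) i * evn (P i) x) fun i => hC κ M _ i x hx (hM i)
  rw [tsum_mul_left, Real.norm_eq_abs] at h1
  refine h1.trans (le_of_eq ?_)
  ring

theorem SSer_ls_ball {v : I0 → ℝ} {κ C : ℝ} (hκ : 0 < κ)
    (hv : ∀ i, |v i| ≤ C * Real.exp (-(κ * dg i))) (hQ : SSer_HG Q) :
    SSer_LS (Metric.ball 0 1) fun i y => v i * ev (Q i) y := by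
  intro x hx
  obtain ⟨B, r, -, hB⟩ := h.SSer_bound hQ.1
  refine ⟨_, (summable_poly_exp hκ r).mul_left (B * C), ?_⟩
  filter_upwards [Metric.isOpen_ball.mem_nhds hx] with y hy i
  obtain ⟨l, -, hl, -⟩ := hQ.2 i
  have h1 := SSer_ev_le hl (hB i) (mem_ball_zero_iff.1 hy).le
  rw [abs_mul]
  refine (mul_le_mul (hv i) h1 (abs_nonneg _) ((abs_nonneg _).trans (hv i))).trans (le_of_eq ?_)
  ring

theorem SSer_pderiv_ball {v : I0 → ℝ} {κ C : ℝ} (hκ : 0 < κ)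
    (hv : ∀ i, |v i| ≤ C * Real.exp (-(κ * dg i))) (hQ : SSer_HG Q) (k : Fin 3) {x : E 3}
    (hx : x ∈ Metric.ball (0 : E 3) 1) :
    CoordMetric.pderiv k (fun y => ∑' i, v i * ev (Q i) y) x
      = ∑' i, v i * ev (pderiv k (Q i)) x := by
  unfold CoordMetric.pderiv
  rw [SSer_fderiv_apply (L := fun k _ => (EuclideanSpace.proj k : E 3 →L[ℝ] ℝ))
    Metric.isOpen_ball (fun _ => continuousOn_const) (h.SSer_ls_ball hκ hv hQ)
    (fun k => h.SSer_ls_ball hκ hv (hQ.pderiv k))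
    (fun i y _ => SSer_hasFDerivAt_ev (v i) (Q i) y) hx]
  refine tsum_congr fun i => ?_
  have h1 : DifferentiableAt ℝ (ev (Q i)) x :=
    ((contDiff_ev _).differentiable (by simp)).differentiableAt
  have h2 := pderiv_ev (Q i) k x
  unfold CoordMetric.pderiv at h2
  rw [(h1.hasFDerivAt.const_mul (v i)).fderiv, ContinuousLinearMap.smul_apply, h2, smul_eq_mul]

theorem ball_series {v : I0 → ℝ} {κ C : ℝ} (hκ : 0 < κ)
    (hv : ∀ i, |v i| ≤ C * Real.exp (-(κ * dg i))) :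
    ContDiffOn ℝ ∞ (fun x => ∑' i, v i * ev (Y i) x) (Metric.ball 0 1) ∧
      ∀ x ∈ Metric.ball (0 : E 3) 1, ∑ k, CoordMetric.pderiv k
        (CoordMetric.pderiv k fun y => ∑' i, v i * ev (Y i) y) x = 0 := by
  have hY : SSer_HG Y := ⟨h.good, fun i => ⟨dg i, le_rfl, h.mem i⟩⟩
  constructor
  · refine SSer_contDiffOn (L := fun k _ => (EuclideanSpace.proj k : E 3 →L[ℝ] ℝ))
      Metric.isOpen_ball (fun _ => contDiffOn_const)
      (fun F => ∃ Q, SSer_HG Q ∧ F = fun i y => v i * ev (Q i) y) ?_ ?_ ⟨Y, hY, rfl⟩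
    · rintro F ⟨Q, hQ, rfl⟩
      exact h.SSer_ls_ball hκ hv hQ
    · rintro F ⟨Q, hQ, rfl⟩
      exact ⟨fun k i y => v i * ev (pderiv k (Q i)) y, fun k => ⟨_, hQ.pderiv k, rfl⟩,
        fun i y _ => SSer_hasFDerivAt_ev (v i) (Q i) y⟩
  · intro x hx
    have e1 : ∀ k, CoordMetric.pderiv k (CoordMetric.pderiv k fun y => ∑' i, v i * ev (Y i) y) x
        = ∑' i, v i * ev (pderiv k (pderiv k (Y i))) x := by
      intro k
      rw [← h.SSer_pderiv_ball hκ hv (hY.pderiv k) k hx]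
      have e2 : (CoordMetric.pderiv k fun y => ∑' i, v i * ev (Y i) y) =ᶠ[𝓝 x]
          fun y => ∑' i, v i * ev (pderiv k (Y i)) y := by
        filter_upwards [Metric.isOpen_ball.mem_nhds hx] with y hy
        exact h.SSer_pderiv_ball hκ hv hY k hy
      conv_lhs => rw [CoordMetric.pderiv, e2.fderiv_eq]
      rfl
    simp only [e1]
    rw [← Summable.tsum_finsetSum fun k _ =>
      (h.SSer_ls_ball hκ hv ((hY.pderiv k).pderiv k)).summable hx]
    have e3 : ∀ i, ∑ k, v i * ev (pderiv k (pderiv k (Y i))) x = 0 := by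
      intro i
      have h3 : lapP (Y i) = 0 := (h.mem i).2
      rw [← Finset.mul_sum, ← ev_sum, ← lapP_apply, h3]
      simp [ev]
    simp only [e3, tsum_zero]

end SB

theorem ser_mul (ρ : Pl 3) (x : E 3) :
    ser τ (fun i => ρ * P i) w x = evn ρ x * ser τ P w x := by
  unfold ser
  rw [← tsum_mul_left]
  exact tsum_congr fun i => by simp only [evn, ev_mul]; ring

theorem ser_fun_mul (f : ℝ → ℝ) (x : E 3) :
    ser τ P (fun t i => f t * w t i) x = f (τ ‖x‖) * ser τ P w x := by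
  unfold ser
  rw [← tsum_mul_left]
  exact tsum_congr fun i => mul_assoc _ _ _

theorem ser_congr {x : E 3} (hP : ∀ i, w (τ ‖x‖) i * evn (P i) x = w' (τ ‖x‖) i * evn (Q i) x) :
    ser τ P w x = ser τ Q w' x := by
  exact tsum_congr hP

end Crest.Agent.R202
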