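import Crest.Agent.R202.SSer

/-!
# R202/SSimpleAux: operator algebra and the ODE lemmas for `SSimple`
-/

open scoped ContDiff Topology Matrix
open Set Filter MvPolynomial

noncomputable section

namespace Crest.Agent.R202

/-! ### Operator algebra -/

theorem ss_L00 : Lop 0 (X 0 : Pl 3) = 0 := by rw [Lop_apply]; simp [pderiv_X]
theorem ss_L01 : Lop 0 (X 1 : Pl 3) = -X 2 := by rw [Lop_apply]; simp [pderiv_X]
theorem ss_L02 : Lop 0 (X 2 : Pl 3) = X 1 := by rw [Lop_apply]; simp [pderiv_X]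
theorem ss_L10 : Lop 1 (X 0 : Pl 3) = X 2 := by rw [Lop_apply]; simp [pderiv_X]
theorem ss_L11 : Lop 1 (X 1 : Pl 3) = 0 := by rw [Lop_apply]; simp [pderiv_X]
theorem ss_L12 : Lop 1 (X 2 : Pl 3) = -X 0 := by rw [Lop_apply]; simp [pderiv_X]
theorem ss_L20 : Lop 2 (X 0 : Pl 3) = -X 1 := by rw [Lop_apply]; simp [pderiv_X]
theorem ss_L21 : Lop 2 (X 1 : Pl 3) = X 0 := by rw [Lop_apply]; simp [pderiv_X]
theorem ss_L22 : Lop 2 (X 2 : Pl 3) = 0 := by rw [Lop_apply]; simp [pderiv_X]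

/-- the derivative along `∇ z` -/
def ssD (f : Pl 3) : Pl 3 := X 1 * Lop 0 f - X 0 * Lop 1 f

theorem ssD_smul (c : ℝ) (f : Pl 3) : ssD (c • f) = c • ssD f := by
  simp only [ssD, map_smul, mul_smul_comm, smul_sub]

theorem ssD_neg (f : Pl 3) : ssD (-f) = -ssD f := by
  simp only [ssD, map_neg]
  ring

theorem ssD_mul (f g : Pl 3) : ssD (f * g) = ssD f * g + f * ssD g := by
  simp only [ssD, Lop_mul]
  ring

theorem ssD_r2 : ssD (∑ i, X i ^ 2) = 0 := by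
  simp only [ssD, Fin.sum_univ_three, map_add, sq, Lop_mul, ss_L00, ss_L01, ss_L02, ss_L10, ss_L11,
    ss_L12]
  ring

theorem ssD_s : ssD (X 0 ^ 2 + X 1 ^ 2) = -(2 * X 2 * (X 0 ^ 2 + X 1 ^ 2)) := by
  simp only [ssD, map_add, sq, Lop_mul, ss_L00, ss_L01, ss_L10, ss_L11]
  ring

theorem ss_L_D (f : Pl 3) : Lop 2 (ssD f) = ssD (Lop 2 f) := by
  have h1 : Lop 1 (Lop 2 f) - Lop 2 (Lop 1 f) = -Lop 0 f := Lop_lie 1 f
  have h2 : Lop 2 (Lop 0 f) - Lop 0 (Lop 2 f) = -Lop 1 f := Lop_lie 2 f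
  simp only [ssD, map_sub, Lop_mul, ss_L20, ss_L21]
  linear_combination X 1 * h2 + X 0 * h1

theorem ss_op0 (f : Pl 3) : (X 0 ^ 2 + X 1 ^ 2) * op0 f =
    -(ssD (ssD f) + (∑ i, X i ^ 2) * Lop 2 (Lop 2 f)) := by
  have h1 := sum_X_mul_Lop f
  have h2 := sum_X_mul_Lop (X 0 * Lop 0 f + X 1 * Lop 1 f)
  rw [Fin.sum_univ_three] at h1 h2
  have e : X 0 * Lop 0 f + X 1 * Lop 1 f = -(X 2 * Lop 2 f) := by linear_combination h1
  have h3 : Lop 2 (X 0 * Lop 0 f + X 1 * Lop 1 f) = -(X 2 * Lop 2 (Lop 2 f)) := by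
    rw [e, map_neg, Lop_mul, ss_L22]
    ring
  rw [h3] at h2
  simp only [map_add, Lop_mul, ss_L00, ss_L01, ss_L10, ss_L11] at h2
  simp only [op0, ssD, Fin.sum_univ_three, map_sub, Lop_mul, ss_L00, ss_L01, ss_L10, ss_L11]
  linear_combination -h2

theorem ss_div_a (φ : Pl 3) : ∑ k, Lop k (aD k * φ) = ssD φ - 2 * X 2 * φ := by
  have a0 : aD 0 = X 1 := rfl
  have a1 : aD 1 = -X 0 := rfl
  have a2 : aD 2 = 0 := rfl
  simp only [Fin.sum_univ_three, a0, a1, a2, Lop_mul, map_neg, map_zero, ss_L01, ss_L10, ssD]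
  ring

theorem ss_div_crs (φ : Pl 3) : ∑ k, Lop k (crs aD k * φ) = -((∑ i, X i ^ 2) * Lop 2 φ) := by
  rw [← Lv_crs_aD, Lv]
  have c0 : crs aD 0 = X 1 * 0 - X 2 * (-X 0) := rfl
  have c1 : crs aD 1 = X 2 * X 1 - X 0 * 0 := rfl
  have c2 : crs aD 2 = X 0 * (-X 0) - X 1 * X 1 := rfl
  simp only [Fin.sum_univ_three, c0, c1, c2, Lop_mul, map_neg, map_sub, map_zero, ss_L00, ss_L02,
    ss_L11, ss_L12, ss_L20, ss_L21]
  ring

theorem ss_op1 (f : Pl 3) : op1 aD f =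
    (∑ i, X i ^ 2) * (2 * ssD (Lop 2 f) - 2 * X 2 * Lop 2 f) := by
  have hD : Lv aD f = ssD f := Lv_aD f
  rw [op1]
  simp only [map_add, Finset.sum_add_distrib]
  rw [ss_div_a, ss_div_crs, Lv_crs_aD, hD, ss_L_D, ssD_neg, ssD_mul, ssD_r2]
  ring

theorem ss_op2 (f : Pl 3) : op2 aD f = -((∑ i, X i ^ 2) * ((X 0 ^ 2 + X 1 ^ 2) * ssD (ssD f) -
    4 * X 2 * (X 0 ^ 2 + X 1 ^ 2) * ssD f)) := by
  have hD : Lv aD f = ssD f := Lv_aD f
  rw [op2]
  simp only [mul_assoc]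
  rw [ss_div_a, nP_aD, hD, ssD_mul, ssD_mul, ssD_r2, ssD_s]
  ring

/-! ### The ODE system along the meridian -/

/-- the system along the meridian -/
structure SSol (m κ μ : ℝ) (s z e r A A1 B B1 : ℝ → ℝ) : Prop where
  dA : ∀ η, HasDerivAt A (A1 η) η
  dB : ∀ η, HasDerivAt B (B1 η) η
  dA1 : ∀ η, HasDerivAt (fun η => e η * A1 η)
    ((m ^ 2 - μ * s η) * A η + 2 * κ * s η * (B1 η - z η * B η)) η
  dB1 : ∀ η, HasDerivAt (fun η => e η * B1 η)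
    ((m ^ 2 - μ * s η) * B η - 2 * κ * s η * m ^ 2 * (A1 η - z η * A η)) η
  bd : ∃ C, ∀ η, |A η| ≤ C ∧ |B η| ≤ C ∧ |A1 η| ≤ C * r η ∧ |B1 η| ≤ C * r η

section ode

variable {m κ μ E₀ : ℝ} {s z e r A A1 B B1 A' A1' B' B1' : ℝ → ℝ}

theorem ss_tendsto (he : ∀ η, |e η| ≤ E₀) (hr : Tendsto r atTop (𝓝 0)) {f g : ℝ → ℝ} {C C' : ℝ}
    (hf : ∀ η, |f η| ≤ C) (hg : ∀ η, |g η| ≤ C' * r η) :
    Tendsto (fun η => f η * (e η * g η)) atTop (𝓝 0) := by
  have h0 : Tendsto (fun η => C * (E₀ * (C' * r η))) atTop (𝓝 0) := by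
    simpa using ((hr.const_mul C').const_mul E₀).const_mul C
  refine squeeze_zero_norm (fun η => ?_) h0
  rw [Real.norm_eq_abs, abs_mul, abs_mul]
  have h1 := (abs_nonneg _).trans (hf η)
  have h2 := (abs_nonneg _).trans (he η)
  gcongr
  exacts [hf η, he η, hg η]

theorem ss_const_zero {N : ℝ → ℝ} (h : ∀ η, HasDerivAt N 0 η) (h0 : Tendsto N atTop (𝓝 0)) :
    N 0 = 0 := by
  have hc : N = fun _ => N 0 := funext fun η =>
    is_const_of_deriv_eq_zero (fun η => (h η).differentiableAt) (fun η => (h η).deriv) η 0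
  rw [hc] at h0
  exact tendsto_nhds_unique tendsto_const_nhds h0

theorem SSol.wr (h : SSol m κ μ s z e r A A1 B B1) (h' : SSol m κ μ s z e r A' A1' B' B1')
    (he : ∀ η, |e η| ≤ E₀) (he0 : e 0 ≠ 0) (hr : Tendsto r atTop (𝓝 0)) (hm : m ≠ 0) :
    A 0 * B1' 0 + B 0 * A1' 0 - A' 0 * B1 0 - B' 0 * A1 0 = 0 := by
  obtain ⟨C, hC⟩ := h.bd
  obtain ⟨C', hC'⟩ := h'.bd
  have key := ss_const_zero (N := fun η =>
    (m ^ 2 * (A η * (e η * A1' η) - A' η * (e η * A1 η)) -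
      (B η * (e η * B1' η) - B' η * (e η * B1 η))) ^ 2 +
    m ^ 2 * (A η * (e η * B1' η) + B η * (e η * A1' η) - A' η * (e η * B1 η) -
      B' η * (e η * A1 η)) ^ 2) (fun η => ?_) ?_
  · have h1 : m ^ 2 * (A 0 * (e 0 * B1' 0) + B 0 * (e 0 * A1' 0) - A' 0 * (e 0 * B1 0) -
        B' 0 * (e 0 * A1 0)) ^ 2 = 0 := by
      refine le_antisymm ?_ (by positivity)
      have := sq_nonneg (m ^ 2 * (A 0 * (e 0 * A1' 0) - A' 0 * (e 0 * A1 0)) -
        (B 0 * (e 0 * B1' 0) - B' 0 * (e 0 * B1 0)))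
      linarith
    have h2 := pow_eq_zero_iff (two_ne_zero) |>.1
      ((mul_eq_zero.1 h1).resolve_left (pow_ne_zero 2 hm))
    refine mul_left_cancel₀ he0 ?_
    linear_combination h2
  · have hU := ((((h.dA η).fun_mul (h'.dA1 η)).fun_sub ((h'.dA η).fun_mul (h.dA1 η))).const_mul
      (m ^ 2)).fun_sub (((h.dB η).fun_mul (h'.dB1 η)).fun_sub ((h'.dB η).fun_mul (h.dB1 η)))
    have hV := ((((h.dA η).fun_mul (h'.dB1 η)).fun_add ((h.dB η).fun_mul (h'.dA1 η))).fun_sub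
      ((h'.dA η).fun_mul (h.dB1 η))).fun_sub ((h'.dB η).fun_mul (h.dA1 η))
    refine ((hU.fun_pow 2).fun_add ((hV.fun_pow 2).const_mul (m ^ 2))).congr_deriv ?_
    simp only [Nat.cast_ofNat, Nat.add_one_sub_one, pow_one]
    ring
  · have t1 := ss_tendsto he hr (fun η => (hC η).1) (fun η => (hC' η).2.2.1)
    have t2 := ss_tendsto he hr (fun η => (hC' η).1) (fun η => (hC η).2.2.1)
    have t3 := ss_tendsto he hr (fun η => (hC η).2.1) (fun η => (hC' η).2.2.2)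
    have t4 := ss_tendsto he hr (fun η => (hC' η).2.1) (fun η => (hC η).2.2.2)
    have t5 := ss_tendsto he hr (fun η => (hC η).1) (fun η => (hC' η).2.2.2)
    have t6 := ss_tendsto he hr (fun η => (hC η).2.1) (fun η => (hC' η).2.2.1)
    have t7 := ss_tendsto he hr (fun η => (hC' η).1) (fun η => (hC η).2.2.2)
    have t8 := ss_tendsto he hr (fun η => (hC' η).2.1) (fun η => (hC η).2.2.1)
    simpa using ((((t1.sub t2).const_mul (m ^ 2)).sub (t3.sub t4)).pow 2).add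
      (((((t5.add t6).sub t7).sub t8).pow 2).const_mul (m ^ 2))

theorem SSol.wr0 (h : SSol m κ μ s z e r A A1 B B1) (h' : SSol m κ μ s z e r A' A1' B' B1')
    (he : ∀ η, |e η| ≤ E₀) (he0 : e 0 ≠ 0) (hr : Tendsto r atTop (𝓝 0))
    (hB : ∀ η, B η = 0 ∧ B1 η = 0) (hB' : ∀ η, B' η = 0 ∧ B1' η = 0) :
    A 0 * A1' 0 - A' 0 * A1 0 = 0 := by
  obtain ⟨C, hC⟩ := h.bd
  obtain ⟨C', hC'⟩ := h'.bd
  have key := ss_const_zero (N := fun η => A η * (e η * A1' η) - A' η * (e η * A1 η))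
    (fun η => ?_) ?_
  · refine mul_left_cancel₀ he0 ?_
    linear_combination key
  · refine (((h.dA η).fun_mul (h'.dA1 η)).fun_sub ((h'.dA η).fun_mul (h.dA1 η))).congr_deriv ?_
    rw [(hB η).1, (hB η).2, (hB' η).1, (hB' η).2]
    ring
  · have t1 := ss_tendsto he hr (fun η => (hC η).1) (fun η => (hC' η).2.2.1)
    have t2 := ss_tendsto he hr (fun η => (hC' η).1) (fun η => (hC η).2.2.1)
    simpa using t1.sub t2

theorem SSol.zero (h : SSol m κ μ s z e r A A1 B B1) (he : ∀ η, 1 ≤ e η) (hs : ∀ η, |s η| ≤ 1)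
    (hz : ∀ η, |z η| ≤ 1) (h1 : A 0 = 0) (h2 : A1 0 = 0) (h3 : B 0 = 0) (h4 : B1 0 = 0) {η : ℝ}
    (hη : 0 ≤ η) : A η = 0 ∧ B η = 0 := by
  set f : ℝ → (ℝ × ℝ) × ℝ × ℝ := fun η => ((A η, B η), e η * A1 η, e η * B1 η) with hf
  set f' : ℝ → (ℝ × ℝ) × ℝ × ℝ := fun η => ((A1 η, B1 η),
    (m ^ 2 - μ * s η) * A η + 2 * κ * s η * (B1 η - z η * B η),
    (m ^ 2 - μ * s η) * B η - 2 * κ * s η * m ^ 2 * (A1 η - z η * A η)) with hf'
  have hd : ∀ η, HasDerivAt f (f' η) η := fun η =>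
    ((h.dA η).prodMk (h.dB η)).prodMk ((h.dA1 η).prodMk (h.dB1 η))
  have key := eq_zero_of_abs_deriv_le_mul_abs_self_of_eq_zero_right (f := f) (f' := f')
    (K := 1 + m ^ 2 + |μ| + 4 * |κ| + 4 * |κ| * m ^ 2) (a := 0) (b := η)
    (fun t _ => (hd t).continuousAt.continuousWithinAt) (fun t _ => (hd t).hasDerivWithinAt)
    (by simp [hf, h1, h2, h3, h4]) (fun t _ => ?_) η ⟨hη, le_rfl⟩
  · simp only [hf, Prod.mk_eq_zero] at key
    exact key.1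
  set N := ‖f t‖ with hN
  have hN0 : 0 ≤ N := norm_nonneg _
  have a1 : |A t| ≤ N := (norm_fst_le (A t, B t)).trans (norm_fst_le (f t))
  have a2 : |B t| ≤ N := (norm_snd_le (A t, B t)).trans (norm_fst_le (f t))
  have a3' : |e t * A1 t| ≤ N :=
    (norm_fst_le (e t * A1 t, e t * B1 t)).trans (norm_snd_le (f t))
  have a4' : |e t * B1 t| ≤ N :=
    (norm_snd_le (e t * A1 t, e t * B1 t)).trans (norm_snd_le (f t))
  have he' : 1 ≤ |e t| := (he t).trans (le_abs_self _)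
  have a3 : |A1 t| ≤ N := by
    rw [abs_mul] at a3'
    nlinarith [abs_nonneg (A1 t)]
  have a4 : |B1 t| ≤ N := by
    rw [abs_mul] at a4'
    nlinarith [abs_nonneg (B1 t)]
  have c1 : |m ^ 2 - μ * s t| ≤ m ^ 2 + |μ| := by
    refine (abs_sub _ _).trans ?_
    rw [abs_of_nonneg (sq_nonneg m), abs_mul]
    nlinarith [abs_nonneg μ, hs t]
  have c2 : |2 * κ * s t| ≤ 2 * |κ| := by
    rw [abs_mul, abs_mul, abs_two]
    nlinarith [abs_nonneg κ, hs t]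
  have c3 : ∀ {p q : ℝ}, |p| ≤ N → |q| ≤ N → |p - z t * q| ≤ 2 * N := fun {p q} hp hq => by
    refine (abs_sub _ _).trans ?_
    rw [abs_mul]
    nlinarith [abs_nonneg q, hz t]
  have hκ := abs_nonneg κ
  have hμ := abs_nonneg μ
  have hm := sq_nonneg m
  have hκm : 0 ≤ |κ| * m ^ 2 := by positivity
  have b1 : N ≤ (1 + m ^ 2 + |μ| + 4 * |κ| + 4 * |κ| * m ^ 2) * N := by nlinarith
  refine norm_prod_le_iff.2 ⟨norm_prod_le_iff.2 ⟨a3.trans b1, a4.trans b1⟩,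
    norm_prod_le_iff.2 ⟨?_, ?_⟩⟩
  · refine (abs_add_le _ _).trans ?_
    rw [abs_mul, abs_mul (2 * κ * s t)]
    calc _ ≤ (m ^ 2 + |μ|) * N + 2 * |κ| * (2 * N) := by
          gcongr
          exact c3 a4 a2
      _ ≤ _ := by nlinarith
  · refine (abs_sub _ _).trans ?_
    rw [abs_mul, abs_mul (2 * κ * s t * m ^ 2), abs_mul (2 * κ * s t), abs_of_nonneg hm]
    calc _ ≤ (m ^ 2 + |μ|) * N + 2 * |κ| * m ^ 2 * (2 * N) := by
          gcongr
          exact c3 a3 a1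
      _ ≤ _ := by nlinarith

end ode

theorem ss_dep {a b a' b' : ℝ} (h : a * b' - a' * b = 0) :
    ∃ s t : ℝ, (s ≠ 0 ∨ t ≠ 0) ∧ s * a + t * a' = 0 ∧ s * b + t * b' = 0 := by
  by_cases h1 : a = 0 ∧ a' = 0
  · by_cases h2 : b = 0 ∧ b' = 0
    · exact ⟨1, 0, Or.inl one_ne_zero, by simp [h1.1], by simp [h2.1]⟩
    · refine ⟨b', -b, ?_, by linear_combination h, by ring⟩
      rw [neg_ne_zero]
      tauto
  · refine ⟨a', -a, ?_, by ring, by linear_combination -h⟩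
    rw [neg_ne_zero]
    tauto

/-- a rotating pair with vanishing initial values vanishes -/
theorem ss_rot_zero {F G : ℝ → ℝ} {m : ℝ} (hF : ∀ φ, HasDerivAt F (G φ) φ)
    (hG : ∀ φ, HasDerivAt G (-(m ^ 2) * F φ) φ) (h1 : F 0 = 0) (h2 : G 0 = 0) (φ : ℝ) :
    F φ = 0 := by
  have hN : ∀ φ, HasDerivAt (fun φ => m ^ 2 * F φ ^ 2 + G φ ^ 2) 0 φ := fun φ => by
    refine ((((hF φ).fun_pow 2).const_mul (m ^ 2)).fun_add ((hG φ).fun_pow 2)).congr_deriv ?_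
    simp only [Nat.cast_ofNat, Nat.add_one_sub_one, pow_one]
    ring
  have hG0 : ∀ φ, G φ = 0 := fun φ => by
    have := is_const_of_deriv_eq_zero (fun φ => (hN φ).differentiableAt)
      (fun φ => (hN φ).deriv) φ 0
    simp only [h1, h2] at this
    have h3 : 0 ≤ m ^ 2 * F φ ^ 2 := by positivity
    nlinarith [sq_nonneg (G φ)]
  rw [← h1]
  exact is_const_of_deriv_eq_zero (fun φ => (hF φ).differentiableAt)
    (fun φ => by rw [(hF φ).deriv, hG0]) φ 0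

end Crest.Agent.R202
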