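import Crest.Agent.R202.SpecAux3

/-!
# R202/Spec: eigenvalue branches of an infinite band matrix (abstract)

`qf κ v = Σ λ v² + v · Q(κ) v` on finitely supported vectors supported in `S`.  For `j : ℕ` let
`ev_j κ = inf {x | some j-dimensional space of such vectors has qf κ ≤ x n2}` for `j ≥ 1`,
`ev_0 = 0`; `lo = ev_j`, `hi = ev_{j+1}` with `j = #{i ∈ S, d i ≤ l}`.
* `(3/4) Σ λ v² ≤ qf κ v`, and `|qf κ - qf κ'| ≤ C |κ - κ'| qf κ`, so `ev_j` is Lipschitz on `[0,κB]`.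
* For a finite symmetric matrix (spectral theorem, `Matrix.IsHermitian.eigenvectorBasis`): a
  `j`-dimensional space with form `≤ x` forces `≥ j` eigenvalues `≤ x`; `j` eigenvalues `≤ x` give
  such a space.  Hence, for the truncation to `S ∩ {d ≤ N}`: fewer than `j+1` eigenvalues lie below
  `ev_{j+1}`, and at least `j` lie below `ev_j + ε` for `N ≥ N₀(ε)`, uniformly in `κ` (finite net in
  `κ` and the Lipschitz bound).  This gives `gap`.
* `lo < hi`: otherwise (for `j ≥ 1`) the truncations have two orthonormal eigenvectors with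
  eigenvalues `→ μ`; `agmon_static` bounds them, a limit along an ultrafilter (or diagonal
  subsequence) gives two orthonormal decaying solutions of the eigenvalue equation (the tails are
  uniformly small), contradicting `hsimple`.  For `j = 0`, `hi ≥ 3/4`.
-/

open scoped ContDiff Topology Matrix
open Set Filter

noncomputable section

namespace Crest.Agent.R202

theorem branches {I : Type} [DecidableEq I] (d : I → ℕ) (low : ℕ → Finset I)
    (hlow : ∀ N i, i ∈ low N ↔ d i ≤ N) (S : Set I) (hS1 : ∀ i ∈ S, 1 ≤ d i)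
    (hSinf : ∀ N, ∃ i ∈ S, N < d i) (Q₁ Q₂ : Matrix I I ℝ) (hs₁ : Q₁ᵀ = Q₁) (hs₂ : Q₂ᵀ = Q₂)
    (D : ℕ) (hb : ∀ i j, d i + D < d j → Q₁ i j = 0 ∧ Q₂ i j = 0) (κB C : ℝ) (hκB : 0 ≤ κB)
    (hPb : ∀ (ι : Type) [Fintype ι] [DecidableEq ι] (e : ι → I), Function.Injective e →
      Pb (fun i => d (e i)) C 0 (Q₁.submatrix e e) ∧ Pb (fun i => d (e i)) C 0 (Q₂.submatrix e e) ∧
      ∀ κ ∈ Icc 0 κB, Pb (fun i => d (e i)) (1 / 4) 0 ((κ • Q₁ + κ ^ 2 • Q₂).submatrix e e))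
    (hsimple : ∀ κ ∈ Icc 0 κB, ∀ (μ c M : ℝ) (v w : I → ℝ), 0 < c →
      (∀ i, i ∉ S → v i = 0 ∧ w i = 0) →
      (∀ i, |v i| ≤ M * Real.exp (-(c * d i)) ∧ |w i| ≤ M * Real.exp (-(c * d i))) →
      (∀ i ∈ S, lam 1 (d i) * v i + ∑ j ∈ low (d i + D), (κ • Q₁ + κ ^ 2 • Q₂) i j * v j = μ * v i) →
      (∀ i ∈ S, lam 1 (d i) * w i + ∑ j ∈ low (d i + D), (κ • Q₁ + κ ^ 2 • Q₂) i j * w j = μ * w i) →
      ∃ s t : ℝ, (s ≠ 0 ∨ t ≠ 0) ∧ ∀ i, s * v i + t * w i = 0)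
    (l : ℕ) :
    ∃ lo hi : ℝ → ℝ, ContinuousOn lo (Icc 0 κB) ∧ ContinuousOn hi (Icc 0 κB) ∧
      (∀ κ ∈ Icc 0 κB, 0 ≤ lo κ ∧ lo κ < hi κ ∧ lo κ ≤ 5 / 4 * lam 1 l ∧
        3 / 4 * lam 1 (l + 1) ≤ hi κ) ∧
      (∀ x, lo 0 < x → x < hi 0 → ∀ i ∈ S, (x < lam 1 (d i) ↔ l < d i)) ∧
      (∀ g > 0, ∃ N₀, ∀ N, N₀ ≤ N → ∀ (ι : Type) [Fintype ι] [DecidableEq ι] (e : ι → I),
        Function.Injective e → (∀ i ∈ S, i ∈ range e ↔ d i ≤ N) → ∀ κ ∈ Icc 0 κB, ∀ x,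
        lo κ + 2 * g ≤ x → x + 2 * g ≤ hi κ → ∀ v : ι → ℝ, (∀ i, e i ∉ S → v i = 0) →
        g ^ 2 * n2 v ≤ n2 fun i => (lam 1 (d (e i)) - x) * v i
          + ((κ • Q₁ + κ ^ 2 • Q₂).submatrix e e *ᵥ v) i) ∧
      (∀ κ ∈ Icc 0 κB, ∀ x, (∀ N (v : I → ℝ), (∀ i, v i ≠ 0 → i ∈ S ∧ l < d i ∧ d i ≤ N) →
        x * ∑ i ∈ low N, v i ^ 2 ≤ ∑ i ∈ low N, lam 1 (d i) * v i ^ 2
          + ∑ i ∈ low N, ∑ j ∈ low N, (κ • Q₁ + κ ^ 2 • Q₂) i j * v i * v j) → x ≤ hi κ) ∧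
      (∀ i₀ ∈ S, (∀ i ∈ S, d i ≤ l ↔ i = i₀) → ∀ κ ∈ Icc 0 κB, ∀ x N (v : I → ℝ), v ≠ 0 →
        (∀ i, v i ≠ 0 → i ∈ S ∧ d i ≤ N) →
        ∑ i ∈ low N, lam 1 (d i) * v i ^ 2
          + ∑ i ∈ low N, ∑ j ∈ low N, (κ • Q₁ + κ ^ 2 • Q₂) i j * v i * v j
          ≤ x * ∑ i ∈ low N, v i ^ 2 → lo κ ≤ x) := by
  classical
  let A : ℝ → Matrix I I ℝ := fun κ =>
    Matrix.diagonal (fun i => lam 1 (d i)) + (κ • Q₁ + κ ^ 2 • Q₂)
  have habs : ∀ {ι : Type} [Fintype ι] [DecidableEq ι] {e : ι → I} {δ : ℝ} {B : Matrix ι ι ℝ},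
      Pb (fun i => d (e i)) δ 0 B → ∀ v : ι → ℝ,
        |v ⬝ᵥ B *ᵥ v| ≤ |δ| * Spec_L (fun i => d (e i)) v := by
    intro ι _ _ e δ B h v
    have h1 := (h.mono (le_abs_self δ)).2 v v
    have h2 := mul_le_mul_of_nonneg_left (Spec_nV_le (fun i => d (e i)) v) (abs_nonneg δ)
    linarith
  have hG : ∀ κ ∈ Icc 0 κB, Spec_Good d (A κ) := by
    intro κ hκ ι _ _ e he v
    have h1 := habs ((hPb ι e he).2.2 κ hκ) v
    rw [abs_of_pos (show (0 : ℝ) < 1 / 4 by norm_num), abs_le] at h1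
    rw [Spec_form he]
    constructor <;> linarith [h1.1, h1.2]
  set K : ℝ := 4 / 3 * ((1 + 2 * κB) * |C|) with hK
  have hK0 : 0 ≤ K := by positivity
  have hc : ∀ κ ∈ Icc 0 κB, ∀ κ' ∈ Icc 0 κB, ∀ (ι : Type) [Fintype ι] [DecidableEq ι] (e : ι → I),
      Function.Injective e → ∀ v : ι → ℝ, v ⬝ᵥ (A κ').submatrix e e *ᵥ v ≤
        (1 + K * |κ - κ'|) * (v ⬝ᵥ (A κ).submatrix e e *ᵥ v) := by
    intro κ hκ κ' hκ' ι _ _ e he v
    have h1 := habs (hPb ι e he).1 v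
    have h2 := habs (hPb ι e he).2.1 v
    have h3 := (hG κ hκ ι e he v).1
    have h4 : ∀ r : ℝ, v ⬝ᵥ (r • Q₁ + r ^ 2 • Q₂).submatrix e e *ᵥ v =
        r * (v ⬝ᵥ Q₁.submatrix e e *ᵥ v) + r ^ 2 * (v ⬝ᵥ Q₂.submatrix e e *ᵥ v) := by
      intro r
      rw [show (r • Q₁ + r ^ 2 • Q₂).submatrix e e =
        r • Q₁.submatrix e e + r ^ 2 • Q₂.submatrix e e from rfl, Matrix.add_mulVec,
        Matrix.smul_mulVec, Matrix.smul_mulVec, dotProduct_add, dotProduct_smul, dotProduct_smul]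
      rfl
    have h5 : v ⬝ᵥ (A κ').submatrix e e *ᵥ v - v ⬝ᵥ (A κ).submatrix e e *ᵥ v =
        (κ' - κ) * (v ⬝ᵥ Q₁.submatrix e e *ᵥ v + (κ + κ') * (v ⬝ᵥ Q₂.submatrix e e *ᵥ v)) := by
      rw [Spec_form he, Spec_form he, h4, h4]
      ring
    set L := Spec_L (fun i => d (e i)) v
    have hL : 0 ≤ |C| * L := mul_nonneg (abs_nonneg _) (Spec_L_nonneg _ _)
    have h6 : |v ⬝ᵥ Q₁.submatrix e e *ᵥ v + (κ + κ') * (v ⬝ᵥ Q₂.submatrix e e *ᵥ v)| ≤
        (1 + 2 * κB) * (|C| * L) := by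
      refine (abs_add_le _ _).trans ?_
      rw [abs_mul, abs_of_nonneg (add_nonneg hκ.1 hκ'.1)]
      have := mul_le_mul (show κ + κ' ≤ 2 * κB by linarith [hκ.2, hκ'.2]) h2 (abs_nonneg _)
        (by linarith)
      linarith
    have h7 := (le_abs_self _).trans (h5 ▸ (abs_mul _ _).le : |v ⬝ᵥ (A κ').submatrix e e *ᵥ v -
      v ⬝ᵥ (A κ).submatrix e e *ᵥ v| ≤ _)
    rw [abs_sub_comm κ' κ] at h7
    have h8 := mul_le_mul_of_nonneg_left h6 (abs_nonneg (κ - κ'))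
    have h9 := mul_le_mul_of_nonneg_left h3 (mul_nonneg hK0 (abs_nonneg (κ - κ')))
    have h10 : K * |κ - κ'| * (3 / 4 * L) = |κ - κ'| * ((1 + 2 * κB) * (|C| * L)) := by
      rw [hK]; ring
    linarith
  let F : Finset I := (low l).filter (· ∈ S)
  have hF : ∀ i, i ∈ F ↔ i ∈ S ∧ d i ≤ l := fun i => by rw [Finset.mem_filter, hlow, and_comm]
  set j := F.card with hj
  have hA0 : A 0 = Matrix.diagonal (fun i => lam 1 (d i)) + 0 := by simp [A]
  have h0 : (0 : ℝ) ∈ Icc 0 κB := ⟨le_rfl, hκB⟩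
  have hsym : ∀ κ : ℝ, (κ • Q₁ + κ ^ 2 • Q₂)ᵀ = κ • Q₁ + κ ^ 2 • Q₂ := fun κ => by
    rw [Matrix.transpose_add, Matrix.transpose_smul, Matrix.transpose_smul, hs₁, hs₂]
  have hhi : ∀ κ ∈ Icc 0 κB, 3 / 4 * lam 1 (l + 1) ≤ Spec_ev d S (A κ) (j + 1) := fun κ hκ =>
    Spec_le_ev hSinf (hG κ hκ) fun N x hx => hx.ge (hG κ hκ) F (Nat.lt_succ_self _)
      fun i hi hd => (hF i).2 ⟨hi, Nat.lt_succ_iff.1 hd⟩
  refine ⟨fun κ => if j = 0 then 0 else Spec_ev d S (A κ) j, fun κ => Spec_ev d S (A κ) (j + 1),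
    ?_, Spec_lip hSinf hG hK0 hc (Nat.succ_pos j), fun κ hκ => ?_, fun x hx1 hx2 i hi => ?_,
    fun g hg => ?_, fun κ hκ x hx => ?_, fun i₀ hi₀ hi κ hκ x N v hv hvS hx => ?_⟩
  · split_ifs with hj0
    · exact continuousOn_const
    · exact Spec_lip hSinf hG hK0 hc (Nat.pos_of_ne_zero hj0)
  · have hl1 : 0 < lam 1 (l + 1) := by unfold lam; positivity
    dsimp only
    split_ifs with hj0
    · exact ⟨le_rfl, by linarith [hhi κ hκ], by linarith [Spec_lam_nonneg l], hhi κ hκ⟩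
    · have hj1 := Nat.pos_of_ne_zero hj0
      refine ⟨Spec_le_ev hSinf (hG κ hκ) fun N x hx => hx.nonneg (hG κ hκ) hj1, ?_,
        (Spec_PN_of_good (hG κ hκ) F (fun i hi => (hF i).1 hi) rfl).ev_le (hG κ hκ) hj1, hhi κ hκ⟩
      exact Spec_lt hlow hSinf (hsym κ) (fun i j h => by simp [(hb i j h).1, (hb i j h).2])
        (fun ι _ _ e he => (hPb ι e he).2.2 κ hκ) (hG κ hκ) (hsimple κ hκ) hj1
  · constructor
    · intro hx
      by_contra hl
      have hiF : i ∈ F := (hF i).2 ⟨hi, not_lt.1 hl⟩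
      have hj1 : 0 < j := Finset.card_pos.2 ⟨i, hiF⟩
      simp only [hj1.ne', if_false] at hx1
      have : lam 1 (d i) ≤ Spec_ev d S (A 0) j := by
        refine Spec_le_ev hSinf (hG 0 h0) fun N y hy => ?_
        obtain ⟨ι, _, _, e, he, hS, v, hv, hv0, hy⟩ := hy.ker (F.erase i)
          (by rw [Finset.card_erase_of_mem hiF]; omega)
        rw [hA0, Spec_form he] at hy
        have h1 := Spec_le_L (d := fun a => d (e a)) (l := d i) (v := v) fun a ha =>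
          hv0 a (Finset.mem_erase.2 ⟨fun h => by simp [h] at ha,
            (hF _).2 ⟨(hS a).1, ha.le.trans (not_lt.1 hl)⟩⟩)
        simp only [Matrix.submatrix_zero, Pi.zero_apply, Matrix.zero_mulVec, dotProduct_zero,
          add_zero] at hy
        exact le_of_mul_le_mul_right (h1.trans hy) (Spec_n2_pos hv)
      linarith
    · intro hl
      have hiF : i ∉ F := fun h => absurd ((hF i).1 h).2 (not_le.2 hl)
      refine hx2.trans_le (Spec_PN.ev_le (N := d i) (Spec_PN_of_finset (insert i F)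
        (fun a ha => ?_) (Finset.card_insert_of_notMem hiF) fun v => ?_) (hG 0 h0) (Nat.succ_pos j))
      · rcases Finset.mem_insert.1 ha with rfl | ha
        · exact ⟨hi, le_rfl⟩
        · exact ⟨((hF a).1 ha).1, ((hF a).1 ha).2.trans hl.le⟩
      · rw [hA0, Spec_form Subtype.val_injective]
        simp only [Matrix.submatrix_zero, Pi.zero_apply, Matrix.zero_mulVec, dotProduct_zero,
          add_zero]
        refine Spec_L_le (fun a => ?_) v
        rcases Finset.mem_insert.1 a.2 with ha | ha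
        · rw [ha]
        · exact ((hF a).1 ha).2.trans hl.le
  · obtain ⟨N₀, hN₀⟩ : ∃ N₀, ∀ κ ∈ Icc 0 κB,
        Spec_PN d S (A κ) N₀ j ((if j = 0 then 0 else Spec_ev d S (A κ) j) + g) := by
      by_cases hj0 : j = 0
      · exact ⟨0, fun κ _ => by rw [hj0]; exact Spec_PN_zero _ _ _ _ _⟩
      · simp only [hj0, if_false]
        exact Spec_unif hSinf isCompact_Icc hG hK0 hc (Nat.pos_of_ne_zero hj0) hg
    refine ⟨N₀, fun N hN ι _ _ e he hr κ hκ x hx1 hx2 v hv => ?_⟩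
    let f : {a // e a ∈ S} → ι := Subtype.val
    have hf : Function.Injective f := Subtype.val_injective
    have hef : Function.Injective (e ∘ f) := he.comp hf
    obtain ⟨U, ν, hU, hU', hAU⟩ := Spec_diag (A := (A κ).submatrix (e ∘ f) (e ∘ f))
      (by rw [Matrix.transpose_submatrix, Matrix.transpose_add, hsym, Matrix.diagonal_transpose])
    have h1 := ((hN₀ κ hκ).mono hN (show _ ≤ x - g by linarith)).count
      (fun i hi hd => by
        obtain ⟨a, rfl⟩ := (hr i hi).2 hd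
        exact ⟨⟨a, hi⟩, rfl⟩) hU hU' hAU
    have h2 : (Finset.univ.filter fun i => ν i ≤ x + g).card ≤ j := by
      by_contra h2
      have := (Spec_PN_of_count (N := N) hef (fun a => ⟨a.2, (hr _ a.2).1 ⟨a, rfl⟩⟩) hU hAU
        (Nat.succ_le_of_lt (not_le.1 h2))).ev_le (hG κ hκ) (Nat.succ_pos j)
      linarith
    have h3 : (Finset.univ.filter fun i => ν i ≤ x - g) =
        Finset.univ.filter fun i => ν i ≤ x + g :=
      Finset.eq_of_subset_of_card_le (fun a ha => by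
        simp only [Finset.mem_filter, Finset.mem_univ, true_and] at ha ⊢
        linarith) (h2.trans h1)
    have h4 := Spec_gap hU hU' hAU (x := x) hg.le (fun a => by
      by_cases ha : ν a ≤ x + g
      · left
        have : a ∈ Finset.univ.filter fun i => ν i ≤ x - g := by
          rw [h3]; simpa using ha
        simpa using this
      · exact Or.inr (not_le.1 ha).le) (v ∘ f)
    have hvf : ∀ a, v a ≠ 0 → a ∈ range f := fun a ha =>
      ⟨⟨a, by_contra fun h => ha (hv a h)⟩, rfl⟩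
    have h5 : n2 v = n2 (v ∘ f) := by
      simpa [n2] using Spec_sum_sq hf (T := Finset.univ) (fun _ => Finset.mem_univ _) hvf fun _ => 1
    rw [h5]
    refine h4.trans ?_
    have hle : ∀ y : ι → ℝ, n2 (y ∘ f) ≤ n2 y := fun y => by
      rw [n2, n2, show ∑ a, (y ∘ f) a ^ 2 = ∑ i ∈ Finset.univ.map ⟨f, hf⟩, y i ^ 2 by
        rw [Finset.sum_map]; rfl]
      exact Finset.sum_le_univ_sum_of_nonneg fun _ => sq_nonneg _
    refine le_trans (le_of_eq ?_) (hle _)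
    congr 1
    funext a
    rw [Pi.sub_apply, Spec_mulVec hef]
    have h6 := Spec_sum_row hf (T := Finset.univ) (fun _ => Finset.mem_univ _) hvf
      fun b => (κ • Q₁ + κ ^ 2 • Q₂) (e (f a)) (e b)
    simp only [Matrix.mulVec, dotProduct, Matrix.submatrix_apply, Function.comp_apply,
      Pi.smul_apply, smul_eq_mul, h6]
    ring
  · refine Spec_le_ev hSinf (hG κ hκ) fun N y hy => ?_
    obtain ⟨ι, _, _, e, he, hS, v, hv, hv0, hy⟩ := hy.ker F (Nat.lt_succ_self _)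
    have h1 := hx N (Spec_ext e v) fun i hi => by
      obtain ⟨a, rfl⟩ := Spec_ext_mem v hi
      rw [Spec_ext_apply he] at hi
      exact ⟨(hS a).1, not_le.1 fun h => hi (hv0 a ((hF _).2 ⟨(hS a).1, h⟩)), (hS a).2⟩
    have hT : ∀ a, e a ∈ low N := fun a => (hlow _ _).2 (hS a).2
    have h2 := Spec_sum_sq he hT (fun i => Spec_ext_mem (e := e) v) fun _ => 1
    simp only [one_mul, Spec_ext_apply he] at h2
    rw [h2, Spec_sum_sq he hT (fun i => Spec_ext_mem (e := e) v),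
      Spec_sum_form he hT (fun i => Spec_ext_mem (e := e) v), Spec_ext_comp he] at h1
    simp only [Spec_ext_apply he] at h1
    rw [Spec_form he] at hy
    exact le_of_mul_le_mul_right (h1.trans hy) (Spec_n2_pos hv)
  · have hj1 : j = 1 := by
      rw [hj, Finset.card_eq_one]
      refine ⟨i₀, Finset.ext fun i => ?_⟩
      rw [hF, Finset.mem_singleton]
      exact ⟨fun h => (hi i h.1).1 h.2, fun h => h ▸ ⟨hi₀, (hi i₀ hi₀).2 rfl⟩⟩
    simp only [hj1, one_ne_zero, if_false]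
    let T : Finset I := (low N).filter (· ∈ S)
    have hT : ∀ i, i ∈ T ↔ i ∈ S ∧ d i ≤ N := fun i => by rw [Finset.mem_filter, hlow, and_comm]
    let e : T → I := Subtype.val
    have he : Function.Injective e := Subtype.val_injective
    have hr : ∀ i, v i ≠ 0 → i ∈ range e := fun i h => ⟨⟨i, (hT i).2 (hvS i h)⟩, rfl⟩
    have hT' : ∀ a, e a ∈ low N := fun a => (hlow _ _).2 ((hT a).1 a.2).2
    have h2 := Spec_sum_sq he hT' hr fun _ => 1
    simp only [one_mul] at h2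
    rw [h2, Spec_sum_sq he hT' hr, Spec_sum_form he hT' hr] at hx
    have hv' : v ∘ e ≠ 0 := by
      obtain ⟨i, hi⟩ := Function.ne_iff.1 hv
      obtain ⟨a, rfl⟩ := hr i hi
      exact Function.ne_iff.2 ⟨a, hi⟩
    refine Spec_PN.ev_le (N := N) ⟨T, inferInstance, inferInstance, e, he, fun a => (hT a).1 a.2,
      (LinearMap.proj 0 : (Fin 1 → ℝ) →ₗ[ℝ] ℝ).smulRight (v ∘ e), fun c c' h => ?_, fun c => ?_⟩
      (hG κ hκ) one_pos
    · ext a
      rw [Subsingleton.elim a 0]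
      exact smul_left_injective ℝ hv' h
    · show (c 0 • (v ∘ e)) ⬝ᵥ _ *ᵥ (c 0 • (v ∘ e)) ≤ x * n2 (c 0 • (v ∘ e))
      rw [Matrix.mulVec_smul, dotProduct_smul, smul_dotProduct, OdeBasic_n2_smul, Spec_form he,
        smul_eq_mul, smul_eq_mul, ← mul_assoc, ← sq, mul_left_comm]
      exact mul_le_mul_of_nonneg_left hx (sq_nonneg _)

end Crest.Agent.R202
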