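import Crest.Agent.R202.OdeAgmon

/-!
# R202/SpecAux: finite-dimensional spectral lemmas for `Spec`
-/

open scoped Topology Matrix
open Set Filter

set_option linter.unusedSectionVars false

noncomputable section

namespace Crest.Agent.R202

section fin

variable {ι ι' : Type} [Fintype ι] [DecidableEq ι] [Fintype ι'] [DecidableEq ι']

omit [DecidableEq ι] in
theorem Spec_n2 (x : ι → ℝ) : n2 x = x ⬝ᵥ x := by
  simp [n2, dotProduct, sq]

omit [DecidableEq ι] in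
theorem Spec_n2_pos {x : ι → ℝ} (h : x ≠ 0) : 0 < n2 x := by
  obtain ⟨i, hi⟩ := Function.ne_iff.1 h
  exact Finset.sum_pos' (fun _ _ => sq_nonneg _) ⟨i, Finset.mem_univ _, by
    have : x i ≠ 0 := hi
    positivity⟩

omit [DecidableEq ι] in
theorem Spec_n2_nonneg (x : ι → ℝ) : 0 ≤ n2 x := Finset.sum_nonneg fun _ _ => sq_nonneg _

theorem Spec_diag {A : Matrix ι ι ℝ} (hA : Aᵀ = A) :
    ∃ (U : Matrix ι ι ℝ) (ν : ι → ℝ), Uᵀ * U = 1 ∧ U * Uᵀ = 1 ∧
      A = U * Matrix.diagonal ν * Uᵀ := by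
  have hH : A.IsHermitian := by
    rw [Matrix.IsHermitian, Matrix.conjTranspose_eq_transpose_of_trivial, hA]
  refine ⟨hH.eigenvectorUnitary, hH.eigenvalues, ?_, ?_, ?_⟩
  · have := hH.eigenvectorUnitary.2.1
    rwa [Matrix.star_eq_conjTranspose, Matrix.conjTranspose_eq_transpose_of_trivial] at this
  · have := hH.eigenvectorUnitary.2.2
    rwa [Matrix.star_eq_conjTranspose, Matrix.conjTranspose_eq_transpose_of_trivial] at this
  · have := hH.spectral_theorem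
    rw [Unitary.conjStarAlgAut_apply, Matrix.star_eq_conjTranspose,
      Matrix.conjTranspose_eq_transpose_of_trivial] at this
    simpa using this

theorem Spec_dot_U {U : Matrix ι ι ℝ} (h : Uᵀ * U = 1) (c c' : ι → ℝ) :
    (U *ᵥ c) ⬝ᵥ (U *ᵥ c') = c ⬝ᵥ c' := by
  rw [Matrix.dotProduct_mulVec, Matrix.vecMul_mulVec, h, Matrix.vecMul_one]

theorem Spec_n2_U {U : Matrix ι ι ℝ} (h : Uᵀ * U = 1) (c : ι → ℝ) : n2 (U *ᵥ c) = n2 c := by
  rw [Spec_n2, Spec_n2, Spec_dot_U h]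

theorem Spec_mul_U {U A : Matrix ι ι ℝ} {ν : ι → ℝ} (h : Uᵀ * U = 1)
    (hA : A = U * Matrix.diagonal ν * Uᵀ) (c : ι → ℝ) :
    A *ᵥ (U *ᵥ c) = U *ᵥ fun i => ν i * c i := by
  rw [Matrix.mulVec_mulVec, hA, Matrix.mul_assoc, h, Matrix.mul_one, ← Matrix.mulVec_mulVec]
  congr 1
  ext i
  rw [Matrix.mulVec_diagonal]

theorem Spec_form_U {U A : Matrix ι ι ℝ} {ν : ι → ℝ} (h : Uᵀ * U = 1)
    (hA : A = U * Matrix.diagonal ν * Uᵀ) (c : ι → ℝ) :
    (U *ᵥ c) ⬝ᵥ A *ᵥ (U *ᵥ c) = ∑ i, ν i * c i ^ 2 := by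
  rw [Spec_mul_U h hA, Spec_dot_U h]
  exact Finset.sum_congr rfl fun i _ => by ring

theorem Spec_surj {U : Matrix ι ι ℝ} (h : U * Uᵀ = 1) (v : ι → ℝ) : U *ᵥ (Uᵀ *ᵥ v) = v := by
  rw [Matrix.mulVec_mulVec, h, Matrix.one_mulVec]

/-- a linear map from `ℝ^k` which is injective, followed by fewer than `k` coordinates, has a
kernel -/
theorem Spec_ker {k : ℕ} {V : Type} [AddCommGroup V] [Module ℝ V] (L : (Fin k → ℝ) →ₗ[ℝ] V)
    (hL : Function.Injective L) {κ : Type} [Fintype κ] (φ : V →ₗ[ℝ] (κ → ℝ))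
    (hk : Fintype.card κ < k) : ∃ c, L c ≠ 0 ∧ φ (L c) = 0 := by
  by_contra hc
  push Not at hc
  have hinj : Function.Injective (φ ∘ₗ L) := by
    rw [injective_iff_map_eq_zero]
    intro c h0
    by_contra hne
    exact hc c (fun h => hne (hL (by rw [h, map_zero]))) h0
  have := LinearMap.finrank_le_finrank_of_injective hinj
  simp at this
  omega

/-- a `k`-dimensional space with form `≤ x` forces `k` eigenvalues `≤ x` -/
theorem Spec_count_ge {U A : Matrix ι ι ℝ} {ν : ι → ℝ} (h : Uᵀ * U = 1) (h' : U * Uᵀ = 1)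
    (hA : A = U * Matrix.diagonal ν * Uᵀ) {k : ℕ} {x : ℝ} (L : (Fin k → ℝ) →ₗ[ℝ] (ι → ℝ))
    (hL : Function.Injective L) (hx : ∀ c, L c ⬝ᵥ A *ᵥ L c ≤ x * n2 (L c)) :
    k ≤ (Finset.univ.filter fun i => ν i ≤ x).card := by
  by_contra hk
  push Not at hk
  obtain ⟨c, hc, hc0⟩ := Spec_ker L hL
    (LinearMap.funLeft ℝ ℝ (Subtype.val : {i // ν i ≤ x} → ι) ∘ₗ Uᵀ.mulVecLin)
    (by rwa [Fintype.card_subtype])
  set y := Uᵀ *ᵥ L c with hy
  have hv : U *ᵥ y = L c := Spec_surj h' _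
  have hy0 : y ≠ 0 := fun h0 => hc (by rw [← hv, h0, Matrix.mulVec_zero])
  have hz : ∀ i, ν i ≤ x → y i = 0 := fun i hi => congrFun hc0 ⟨i, hi⟩
  have h1 := hx c
  rw [← hv, Spec_form_U h hA, Spec_n2_U h, n2, Finset.mul_sum] at h1
  obtain ⟨i, hi⟩ := Function.ne_iff.1 hy0
  have hi' : y i ≠ 0 := hi
  refine absurd h1 (not_le.2 (Finset.sum_lt_sum (fun j _ => ?_) ⟨i, Finset.mem_univ _, ?_⟩))
  · by_cases hj : ν j ≤ x
    · simp [hz j hj]
    · exact mul_le_mul_of_nonneg_right (not_le.1 hj).le (sq_nonneg _)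
  · have : x < ν i := not_le.1 fun hj => hi' (hz i hj)
    exact mul_lt_mul_of_pos_right this (by positivity)

end fin

/-- extension by zero along `e` -/
def Spec_ext {ι I : Type} [Fintype ι] [DecidableEq I] (e : ι → I) : (ι → ℝ) →ₗ[ℝ] (I → ℝ) where
  toFun v i := ∑ a, if i = e a then v a else 0
  map_add' v w := by
    ext i
    simp only [Pi.add_apply, ← Finset.sum_add_distrib]
    exact Finset.sum_congr rfl fun a _ => by split_ifs <;> simp
  map_smul' c v := by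
    ext i
    simp only [Pi.smul_apply, smul_eq_mul, RingHom.id_apply, Finset.mul_sum]
    exact Finset.sum_congr rfl fun a _ => by split_ifs <;> simp

section ext

variable {ι I : Type} [Fintype ι] [DecidableEq I] {e : ι → I}

theorem Spec_ext_apply (he : Function.Injective e) (v : ι → ℝ) (a : ι) :
    Spec_ext e v (e a) = v a := by
  show (∑ b, if e a = e b then v b else 0) = v a
  rw [Finset.sum_eq_single a (fun b _ hb => if_neg fun h => hb (he h).symm) (by simp), if_pos rfl]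

theorem Spec_ext_not (v : ι → ℝ) {i : I} (hi : i ∉ range e) : Spec_ext e v i = 0 :=
  Finset.sum_eq_zero fun a _ => if_neg fun h => hi ⟨a, h.symm⟩

theorem Spec_ext_inj (he : Function.Injective e) : Function.Injective (Spec_ext e) := by
  intro v w h
  ext a
  rw [← Spec_ext_apply he v, h, Spec_ext_apply he]

theorem Spec_ext_mem (v : ι → ℝ) {i : I} (hi : Spec_ext e v i ≠ 0) : i ∈ range e := by
  by_contra h
  exact hi (Spec_ext_not v h)

theorem Spec_sum (he : Function.Injective e) {T : Finset I} (hT : ∀ a, e a ∈ T) {F : I → ℝ}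
    (hF : ∀ i, F i ≠ 0 → i ∈ range e) : ∑ i ∈ T, F i = ∑ a, F (e a) := by
  symm
  refine Finset.sum_of_injOn e he.injOn (fun a _ => hT a) (fun i _ hi => ?_) fun _ _ => rfl
  by_contra h
  obtain ⟨a, ha⟩ := hF i h
  exact hi ⟨a, by simp, ha⟩

theorem Spec_sum_sq (he : Function.Injective e) {T : Finset I} (hT : ∀ a, e a ∈ T) {v : I → ℝ}
    (hv : ∀ i, v i ≠ 0 → i ∈ range e) (w : I → ℝ) :
    ∑ i ∈ T, w i * v i ^ 2 = ∑ a, w (e a) * v (e a) ^ 2 :=
  Spec_sum he hT (F := fun i => w i * v i ^ 2) fun i hi => hv i fun h => hi (by simp [h])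

theorem Spec_sum_row (he : Function.Injective e) {T : Finset I} (hT : ∀ a, e a ∈ T) {v : I → ℝ}
    (hv : ∀ i, v i ≠ 0 → i ∈ range e) (w : I → ℝ) :
    ∑ i ∈ T, w i * v i = ∑ a, w (e a) * v (e a) :=
  Spec_sum he hT (F := fun i => w i * v i) fun i hi => hv i fun h => hi (by simp [h])

theorem Spec_sum_form (he : Function.Injective e) {T : Finset I} (hT : ∀ a, e a ∈ T) {v : I → ℝ}
    (hv : ∀ i, v i ≠ 0 → i ∈ range e) (B : Matrix I I ℝ) :
    ∑ i ∈ T, ∑ j ∈ T, B i j * v i * v j = (v ∘ e) ⬝ᵥ B.submatrix e e *ᵥ (v ∘ e) := by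
  rw [Spec_sum he hT (F := fun i => ∑ j ∈ T, B i j * v i * v j)
    fun i hi => hv i fun h => hi (by simp [h])]
  refine Finset.sum_congr rfl fun a _ => ?_
  rw [Spec_sum_row he hT hv fun j => B (e a) j * v (e a)]
  simp only [Matrix.mulVec, dotProduct, Finset.mul_sum, Function.comp_apply,
    Matrix.submatrix_apply]
  exact Finset.sum_congr rfl fun b _ => by ring

theorem Spec_ext_comp (he : Function.Injective e) (v : ι → ℝ) : Spec_ext e v ∘ e = v :=
  funext fun a => Spec_ext_apply he v a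

variable [Fintype I]

theorem Spec_n2_ext (he : Function.Injective e) (v : ι → ℝ) : n2 (Spec_ext e v) = n2 v := by
  have := Spec_sum_sq he (T := Finset.univ) (fun _ => Finset.mem_univ _)
    (fun i => Spec_ext_mem (e := e) v) fun _ => 1
  simpa [n2, Spec_ext_apply he] using this

theorem Spec_form_ext (he : Function.Injective e) (v : ι → ℝ) (B : Matrix I I ℝ) :
    Spec_ext e v ⬝ᵥ B *ᵥ Spec_ext e v = v ⬝ᵥ B.submatrix e e *ᵥ v := by
  have := Spec_sum_form he (T := Finset.univ) (fun _ => Finset.mem_univ _)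
    (fun i => Spec_ext_mem (e := e) v) B
  rw [Spec_ext_comp he] at this
  rw [← this]
  simp only [Matrix.mulVec, dotProduct, Finset.mul_sum]
  exact Finset.sum_congr rfl fun i _ => Finset.sum_congr rfl fun j _ => by ring

end ext

section fin2

variable {ι : Type} [Fintype ι] [DecidableEq ι]

/-- `k` eigenvalues `≤ x` give a `k`-dimensional space with form `≤ x` -/
theorem Spec_count_le {U A : Matrix ι ι ℝ} {ν : ι → ℝ} (h : Uᵀ * U = 1)
    (hA : A = U * Matrix.diagonal ν * Uᵀ) {k : ℕ} {x : ℝ}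
    (hk : k ≤ (Finset.univ.filter fun i => ν i ≤ x).card) :
    ∃ L : (Fin k → ℝ) →ₗ[ℝ] (ι → ℝ), Function.Injective L ∧
      ∀ c, L c ⬝ᵥ A *ᵥ L c ≤ x * n2 (L c) := by
  obtain ⟨T, hT, hTk⟩ := Finset.exists_subset_card_eq hk
  let f : Fin k → ι := fun a => (T.equivFinOfCardEq hTk).symm a
  have hf : Function.Injective f :=
    Subtype.val_injective.comp (T.equivFinOfCardEq hTk).symm.injective
  have hfx : ∀ a, ν (f a) ≤ x := fun a =>
    (Finset.mem_filter.1 (hT ((T.equivFinOfCardEq hTk).symm a).2)).2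
  refine ⟨U.mulVecLin ∘ₗ Spec_ext f, ?_, fun c => ?_⟩
  · refine Function.Injective.comp (g := U.mulVecLin) (fun v w hvw => ?_) (Spec_ext_inj hf)
    have := congrArg (fun z => Uᵀ *ᵥ z) hvw
    simpa [Matrix.mulVec_mulVec, h] using this
  · show (U *ᵥ Spec_ext f c) ⬝ᵥ A *ᵥ (U *ᵥ Spec_ext f c) ≤ x * n2 (U *ᵥ Spec_ext f c)
    rw [Spec_form_U h hA, Spec_n2_U h, n2, Finset.mul_sum]
    refine Finset.sum_le_sum fun i _ => ?_
    by_cases hi : i ∈ range f
    · obtain ⟨a, rfl⟩ := hi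
      exact mul_le_mul_of_nonneg_right (hfx a) (sq_nonneg _)
    · simp [Spec_ext_not c hi]

/-- no eigenvalue near `x` -/
theorem Spec_gap {U A : Matrix ι ι ℝ} {ν : ι → ℝ} (h : Uᵀ * U = 1) (h' : U * Uᵀ = 1)
    (hA : A = U * Matrix.diagonal ν * Uᵀ) {x g : ℝ} (hg : 0 ≤ g)
    (hν : ∀ i, ν i ≤ x - g ∨ x + g ≤ ν i) (v : ι → ℝ) :
    g ^ 2 * n2 v ≤ n2 (A *ᵥ v - x • v) := by
  rw [← Spec_surj h' v]
  set y := Uᵀ *ᵥ v
  rw [Spec_mul_U h hA, ← Matrix.mulVec_smul, ← Matrix.mulVec_sub, Spec_n2_U h, Spec_n2_U h, n2,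
    n2, Finset.mul_sum]
  refine Finset.sum_le_sum fun i _ => ?_
  have h1 : g ^ 2 ≤ (ν i - x) ^ 2 := by
    rcases hν i with h1 | h1 <;> nlinarith
  calc g ^ 2 * y i ^ 2 ≤ (ν i - x) ^ 2 * y i ^ 2 := mul_le_mul_of_nonneg_right h1 (sq_nonneg _)
    _ = _ := by simp only [Pi.sub_apply, Pi.smul_apply, smul_eq_mul]; ring

/-- two orthonormal eigenvectors -/
theorem Spec_two {U A : Matrix ι ι ℝ} {ν : ι → ℝ} (h : Uᵀ * U = 1)
    (hA : A = U * Matrix.diagonal ν * Uᵀ) {i j : ι} (hij : i ≠ j) :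
    ∃ u w : ι → ℝ, A *ᵥ u = ν i • u ∧ A *ᵥ w = ν j • w ∧ n2 u = 1 ∧ n2 w = 1 ∧
      ∀ s t : ℝ, n2 (s • u + t • w) = s ^ 2 + t ^ 2 := by
  have h1 : ∀ k, A *ᵥ (U *ᵥ Pi.single k 1) = ν k • (U *ᵥ Pi.single k (1 : ℝ)) := by
    intro k
    rw [Spec_mul_U h hA, ← Matrix.mulVec_smul]
    congr 1
    ext a
    by_cases ha : a = k
    · subst ha; simp
    · simp [ha]
  have h2 : ∀ k, n2 (U *ᵥ Pi.single k (1 : ℝ)) = 1 := by
    intro k
    rw [Spec_n2_U h, Spec_n2]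
    simp
  refine ⟨U *ᵥ Pi.single i 1, U *ᵥ Pi.single j 1, h1 i, h1 j, h2 i, h2 j, fun s t => ?_⟩
  rw [← Matrix.mulVec_smul, ← Matrix.mulVec_smul, ← Matrix.mulVec_add, Spec_n2_U h, Spec_n2]
  simp [hij, hij.symm, sq]

end fin2

end Crest.Agent.R202
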