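import Crest.Agent.R202.SpecAux

/-!
# R202/SpecAux2: min-max values of an infinite matrix, for `Spec`
-/

open scoped Topology Matrix
open Set Filter

set_option linter.unusedSectionVars false

noncomputable section

namespace Crest.Agent.R202

/-- a `k`-dimensional space of vectors supported in `S ∩ {d ≤ N}` with form `≤ x` -/
def Spec_PN {I : Type} (d : I → ℕ) (S : Set I) (A : Matrix I I ℝ) (N k : ℕ) (x : ℝ) : Prop :=
  ∃ (ι : Type) (_ : Fintype ι) (_ : DecidableEq ι) (e : ι → I), Function.Injective e ∧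
    (∀ a, e a ∈ S ∧ d (e a) ≤ N) ∧ ∃ L : (Fin k → ℝ) →ₗ[ℝ] (ι → ℝ), Function.Injective L ∧
      ∀ c, L c ⬝ᵥ A.submatrix e e *ᵥ L c ≤ x * n2 (L c)

/-- the `k`-th min-max value -/
def Spec_ev {I : Type} (d : I → ℕ) (S : Set I) (A : Matrix I I ℝ) (k : ℕ) : ℝ :=
  sInf {x | ∃ N, Spec_PN d S A N k x}

/-- the free energy -/
def Spec_L {ι : Type} [Fintype ι] (d : ι → ℕ) (v : ι → ℝ) : ℝ := ∑ a, lam 1 (d a) * v a ^ 2

/-- comparison of the form with the free energy -/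
def Spec_Good {I : Type} (d : I → ℕ) (A : Matrix I I ℝ) : Prop :=
  ∀ (ι : Type) [Fintype ι] [DecidableEq ι] (e : ι → I), Function.Injective e → ∀ v : ι → ℝ,
    3 / 4 * Spec_L (fun a => d (e a)) v ≤ v ⬝ᵥ A.submatrix e e *ᵥ v ∧
      v ⬝ᵥ A.submatrix e e *ᵥ v ≤ 5 / 4 * Spec_L (fun a => d (e a)) v

theorem Spec_lam_nonneg (l : ℕ) : 0 ≤ lam 1 l := by unfold lam; positivity

theorem Spec_lam_mono {l m : ℕ} (h : l ≤ m) : lam 1 l ≤ lam 1 m := by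
  unfold lam
  have : (l : ℝ) ≤ m := Nat.cast_le.2 h
  have : (0 : ℝ) ≤ l := Nat.cast_nonneg l
  nlinarith

theorem Spec_L_nonneg {ι : Type} [Fintype ι] (d : ι → ℕ) (v : ι → ℝ) : 0 ≤ Spec_L d v :=
  Finset.sum_nonneg fun _ _ => mul_nonneg (Spec_lam_nonneg _) (sq_nonneg _)

theorem Spec_nV_le {ι : Type} [Fintype ι] (d : ι → ℕ) (v : ι → ℝ) : nV d v ≤ Spec_L d v := by
  refine Finset.sum_le_sum fun a _ => mul_le_mul_of_nonneg_right ?_ (sq_nonneg _)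
  unfold lam
  have : (0 : ℝ) ≤ d a := Nat.cast_nonneg _
  nlinarith

theorem Spec_L_le {ι : Type} [Fintype ι] {d : ι → ℕ} {l : ℕ} (h : ∀ a, d a ≤ l) (v : ι → ℝ) :
    Spec_L d v ≤ lam 1 l * n2 v := by
  rw [n2, Finset.mul_sum]
  exact Finset.sum_le_sum fun a _ => mul_le_mul_of_nonneg_right (Spec_lam_mono (h a)) (sq_nonneg _)

theorem Spec_le_L {ι : Type} [Fintype ι] {d : ι → ℕ} {l : ℕ} {v : ι → ℝ}
    (h : ∀ a, d a < l → v a = 0) : lam 1 l * n2 v ≤ Spec_L d v := by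
  rw [n2, Finset.mul_sum]
  refine Finset.sum_le_sum fun a _ => ?_
  by_cases ha : d a < l
  · simp [h a ha]
  · exact mul_le_mul_of_nonneg_right (Spec_lam_mono (not_lt.1 ha)) (sq_nonneg _)

variable {I : Type} [DecidableEq I] {d : I → ℕ} {S : Set I} {A A' : Matrix I I ℝ} {N N' k : ℕ}
  {x y : ℝ}

theorem Spec_PN.mono (h : Spec_PN d S A N k x) (hN : N ≤ N') (hx : x ≤ y) :
    Spec_PN d S A N' k y := by
  obtain ⟨ι, _, _, e, he, hS, L, hL, hc⟩ := h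
  exact ⟨ι, _, inferInstance, e, he, fun a => ⟨(hS a).1, (hS a).2.trans hN⟩, L, hL, fun c =>
    (hc c).trans (mul_le_mul_of_nonneg_right hx (Spec_n2_nonneg _))⟩

theorem Spec_PN.succ (h : Spec_PN d S A N (k + 1) x) : Spec_PN d S A N k x := by
  obtain ⟨ι, _, _, e, he, hS, L, hL, hc⟩ := h
  exact ⟨ι, _, inferInstance, e, he, hS, L ∘ₗ Spec_ext Fin.castSucc,
    hL.comp (Spec_ext_inj (Fin.castSucc_injective k)), fun c => hc _⟩

theorem Spec_PN_zero (d : I → ℕ) (S : Set I) (A : Matrix I I ℝ) (N : ℕ) (x : ℝ) :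
    Spec_PN d S A N 0 x :=
  ⟨Empty, inferInstance, inferInstance, Empty.elim, fun a => a.elim, fun a => a.elim, 0,
    fun _ _ _ => Subsingleton.elim _ _, fun c => by simp [n2]⟩

theorem Spec_PN.cmp (h : Spec_PN d S A N k x) {r : ℝ} (hr : 0 ≤ r)
    (hA : ∀ (ι : Type) [Fintype ι] [DecidableEq ι] (e : ι → I), Function.Injective e →
      ∀ v : ι → ℝ, v ⬝ᵥ A'.submatrix e e *ᵥ v ≤ r * (v ⬝ᵥ A.submatrix e e *ᵥ v)) :
    Spec_PN d S A' N k (r * x) := by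
  obtain ⟨ι, _, _, e, he, hS, L, hL, hc⟩ := h
  refine ⟨ι, _, inferInstance, e, he, hS, L, hL, fun c => (hA ι e he _).trans ?_⟩
  rw [mul_assoc]
  exact mul_le_mul_of_nonneg_left (hc c) hr

theorem Spec_PN.ker (h : Spec_PN d S A N k x) (F : Finset I) (hF : F.card < k) :
    ∃ (ι : Type) (_ : Fintype ι) (_ : DecidableEq ι) (e : ι → I), Function.Injective e ∧
      (∀ a, e a ∈ S ∧ d (e a) ≤ N) ∧ ∃ v : ι → ℝ, v ≠ 0 ∧ (∀ a, e a ∈ F → v a = 0) ∧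
        v ⬝ᵥ A.submatrix e e *ᵥ v ≤ x * n2 v := by
  obtain ⟨ι, _, _, e, he, hS, L, hL, hc⟩ := h
  obtain ⟨c, hc1, hc0⟩ := Spec_ker L hL
    (LinearMap.funLeft ℝ ℝ (Subtype.val : F → I) ∘ₗ Spec_ext e) (by simpa using hF)
  refine ⟨ι, _, inferInstance, e, he, hS, L c, hc1, fun a ha => ?_, hc c⟩
  rw [← Spec_ext_apply he (L c) a]
  exact congrFun hc0 ⟨e a, ha⟩

theorem Spec_PN_of_finset (F : Finset I) (hF : ∀ i ∈ F, i ∈ S ∧ d i ≤ N) (hk : F.card = k)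
    (h : ∀ v : F → ℝ, v ⬝ᵥ A.submatrix Subtype.val Subtype.val *ᵥ v ≤ x * n2 v) :
    Spec_PN d S A N k x :=
  ⟨F, inferInstance, inferInstance, Subtype.val, Subtype.val_injective, fun a => hF a a.2,
    (LinearEquiv.funCongrLeft ℝ ℝ (F.equivFinOfCardEq hk)).toLinearMap,
    (LinearEquiv.funCongrLeft ℝ ℝ (F.equivFinOfCardEq hk)).injective, fun _ => h _⟩

section count

variable {ι : Type} [Fintype ι] [DecidableEq ι] {e : ι → I} {U : Matrix ι ι ℝ} {ν : ι → ℝ}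

theorem Spec_PN.count (h : Spec_PN d S A N k x) (hr : ∀ i ∈ S, d i ≤ N → i ∈ range e)
    (hU : Uᵀ * U = 1) (hU' : U * Uᵀ = 1) (hA : A.submatrix e e = U * Matrix.diagonal ν * Uᵀ) :
    k ≤ (Finset.univ.filter fun i => ν i ≤ x).card := by
  obtain ⟨ι', _, _, e', he', hS, L, hL, hc⟩ := h
  choose f hf using fun a => hr (e' a) (hS a).1 (hS a).2
  have hfi : Function.Injective f := fun a b hab => he' (by rw [← hf a, ← hf b, hab])
  refine Spec_count_ge hU hU' hA (Spec_ext f ∘ₗ L) ((Spec_ext_inj hfi).comp hL) fun c => ?_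
  show Spec_ext f (L c) ⬝ᵥ _ *ᵥ Spec_ext f (L c) ≤ x * n2 (Spec_ext f (L c))
  rw [Spec_form_ext hfi, Spec_n2_ext hfi, Matrix.submatrix_submatrix,
    show e ∘ f = e' from funext hf]
  exact hc c

theorem Spec_PN_of_count (he : Function.Injective e) (hS : ∀ a, e a ∈ S ∧ d (e a) ≤ N)
    (hU : Uᵀ * U = 1) (hA : A.submatrix e e = U * Matrix.diagonal ν * Uᵀ)
    (hk : k ≤ (Finset.univ.filter fun i => ν i ≤ x).card) : Spec_PN d S A N k x := by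
  obtain ⟨L, hL, hc⟩ := Spec_count_le hU hA hk
  exact ⟨ι, _, inferInstance, e, he, hS, L, hL, hc⟩

end count

theorem Spec_PN.ge (h : Spec_PN d S A N k x) (hG : Spec_Good d A) (F : Finset I)
    (hF : F.card < k) {l : ℕ} (hl : ∀ i ∈ S, d i < l → i ∈ F) : 3 / 4 * lam 1 l ≤ x := by
  obtain ⟨ι, _, _, e, he, hS, v, hv, hv0, hx⟩ := h.ker F hF
  have h1 := Spec_le_L (d := fun a => d (e a)) (l := l) (v := v)
    fun a ha => hv0 a (hl _ (hS a).1 ha)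
  have h2 := (hG ι e he v).1
  exact le_of_mul_le_mul_right (by linarith) (Spec_n2_pos hv)

theorem Spec_PN.nonneg (h : Spec_PN d S A N k x) (hG : Spec_Good d A) (hk : 0 < k) : 0 ≤ x := by
  have := h.ge hG ∅ (by simpa using hk) (l := 0) (by simp)
  linarith [Spec_lam_nonneg 0]

theorem Spec_PN_of_good (hG : Spec_Good d A) (F : Finset I) (hF : ∀ i ∈ F, i ∈ S ∧ d i ≤ N)
    (hk : F.card = k) : Spec_PN d S A N k (5 / 4 * lam 1 N) := by
  refine Spec_PN_of_finset F hF hk fun v => ?_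
  have h1 := (hG F Subtype.val Subtype.val_injective v).2
  have h2 := Spec_L_le (d := fun a : F => d a) (fun a => (hF a a.2).2) v
  linarith

theorem Spec_exists (hS : ∀ N, ∃ i ∈ S, N < d i) (k : ℕ) :
    ∃ N, ∀ A, Spec_Good d A → Spec_PN d S A N k (5 / 4 * lam 1 N) := by
  have hinf : S.Infinite := by
    intro hfin
    obtain ⟨i, hi, hlt⟩ := hS (hfin.toFinset.sup d)
    exact absurd (Finset.le_sup (f := d) (hfin.mem_toFinset.2 hi)) (not_le.2 hlt)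
  obtain ⟨F, hF, hk⟩ := hinf.exists_subset_card_eq k
  exact ⟨F.sup d, fun A hG => Spec_PN_of_good hG F
    (fun i hi => ⟨hF hi, Finset.le_sup (f := d) hi⟩) hk⟩

theorem Spec_PN.ev_le (h : Spec_PN d S A N k x) (hG : Spec_Good d A) (hk : 0 < k) :
    Spec_ev d S A k ≤ x :=
  csInf_le ⟨0, fun _ ⟨_, hy⟩ => hy.nonneg hG hk⟩ ⟨N, h⟩

theorem Spec_le_ev (hS : ∀ N, ∃ i ∈ S, N < d i) (hG : Spec_Good d A)
    (h : ∀ N x, Spec_PN d S A N k x → y ≤ x) : y ≤ Spec_ev d S A k := by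
  obtain ⟨N, hN⟩ := Spec_exists hS k
  exact le_csInf ⟨_, N, hN A hG⟩ fun x ⟨N, hx⟩ => h N x hx

theorem Spec_of_lt (hS : ∀ N, ∃ i ∈ S, N < d i) (hG : Spec_Good d A)
    (h : Spec_ev d S A k < y) : ∃ N, Spec_PN d S A N k y := by
  obtain ⟨N, hN⟩ := Spec_exists hS k
  obtain ⟨x, ⟨N', hx⟩, hxy⟩ := exists_lt_of_csInf_lt (s := {x | ∃ N, Spec_PN d S A N k x})
    ⟨_, N, hN A hG⟩ h
  exact ⟨N', hx.mono le_rfl hxy.le⟩

section family

variable {Af : ℝ → Matrix I I ℝ} {T : Set ℝ} {K : ℝ}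

theorem Spec_lip (hS : ∀ N, ∃ i ∈ S, N < d i) (hG : ∀ κ ∈ T, Spec_Good d (Af κ)) (hK : 0 ≤ K)
    (hc : ∀ κ ∈ T, ∀ κ' ∈ T, ∀ (ι : Type) [Fintype ι] [DecidableEq ι] (e : ι → I),
      Function.Injective e → ∀ v : ι → ℝ, v ⬝ᵥ (Af κ').submatrix e e *ᵥ v ≤
        (1 + K * |κ - κ'|) * (v ⬝ᵥ (Af κ).submatrix e e *ᵥ v)) (hk : 0 < k) :
    ContinuousOn (fun κ => Spec_ev d S (Af κ) k) T := by
  obtain ⟨N, hN⟩ := Spec_exists hS k
  set B := 5 / 4 * lam 1 N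
  have hB : 0 ≤ B := mul_nonneg (by norm_num) (Spec_lam_nonneg N)
  have h1 : ∀ κ ∈ T, ∀ κ' ∈ T,
      Spec_ev d S (Af κ') k - Spec_ev d S (Af κ) k ≤ K * B * |κ - κ'| := by
    intro κ hκ κ' hκ'
    have hp : 0 < 1 + K * |κ - κ'| := by positivity
    have h2 : Spec_ev d S (Af κ') k / (1 + K * |κ - κ'|) ≤ Spec_ev d S (Af κ) k := by
      refine Spec_le_ev hS (hG κ hκ) fun N' x hx => ?_
      rw [div_le_iff₀' hp]
      exact (hx.cmp hp.le (hc κ hκ κ' hκ')).ev_le (hG κ' hκ') hk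
    rw [div_le_iff₀' hp] at h2
    have h3 : Spec_ev d S (Af κ) k ≤ B := (hN _ (hG κ hκ)).ev_le (hG κ hκ) hk
    have h4 : K * |κ - κ'| * Spec_ev d S (Af κ) k ≤ K * |κ - κ'| * B :=
      mul_le_mul_of_nonneg_left h3 (by positivity)
    linarith
  refine (LipschitzOnWith.of_dist_le_mul (K := ⟨K * B, mul_nonneg hK hB⟩)
    fun κ hκ κ' hκ' => ?_).continuousOn
  rw [Real.dist_eq, Real.dist_eq, abs_sub_le_iff]
  refine ⟨?_, h1 κ hκ κ' hκ'⟩
  rw [abs_sub_comm]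
  exact h1 κ' hκ' κ hκ

theorem Spec_unif (hS : ∀ N, ∃ i ∈ S, N < d i) (hT : IsCompact T)
    (hG : ∀ κ ∈ T, Spec_Good d (Af κ)) (hK : 0 ≤ K)
    (hc : ∀ κ ∈ T, ∀ κ' ∈ T, ∀ (ι : Type) [Fintype ι] [DecidableEq ι] (e : ι → I),
      Function.Injective e → ∀ v : ι → ℝ, v ⬝ᵥ (Af κ').submatrix e e *ᵥ v ≤
        (1 + K * |κ - κ'|) * (v ⬝ᵥ (Af κ).submatrix e e *ᵥ v)) (hk : 0 < k) {g : ℝ} (hg : 0 < g) :
    ∃ N, ∀ κ ∈ T, Spec_PN d S (Af κ) N k (Spec_ev d S (Af κ) k + g) := by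
  have hcont := Spec_lip hS hG hK hc hk
  have : ∃ N, ∀ κ ∈ T, κ ∈ T → Spec_PN d S (Af κ) N k (Spec_ev d S (Af κ) k + g) := by
    refine hT.induction_on
      (p := fun s => ∃ N, ∀ κ ∈ s, κ ∈ T → Spec_PN d S (Af κ) N k (Spec_ev d S (Af κ) k + g))
      ⟨0, fun _ h => h.elim⟩ (fun s t hst ⟨N, hN⟩ => ⟨N, fun κ hκ => hN κ (hst hκ)⟩)
      (fun s t ⟨N, hN⟩ ⟨N', hN'⟩ => ⟨max N N', fun κ hκ hκT => ?_⟩) fun κ hκ => ?_
    · rcases hκ with hκ | hκ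
      · exact (hN κ hκ hκT).mono (le_max_left _ _) le_rfl
      · exact (hN' κ hκ hκT).mono (le_max_right _ _) le_rfl
    · obtain ⟨N, hN⟩ := Spec_of_lt hS (hG κ hκ)
        (show Spec_ev d S (Af κ) k < Spec_ev d S (Af κ) k + g / 2 by linarith)
      have h1 : ContinuousWithinAt
          (fun κ' => (1 + K * |κ - κ'|) * (Spec_ev d S (Af κ) k + g / 2)) T κ := by
        fun_prop
      have h2 : ContinuousWithinAt (fun κ' => Spec_ev d S (Af κ') k + g) T κ :=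
        (hcont κ hκ).add continuousWithinAt_const
      have h3 := Filter.Tendsto.eventually_lt h1 h2 (by simp; linarith)
      refine ⟨_, h3, N, fun κ' hκ' hκT => ?_⟩
      exact (hN.cmp (by positivity) (hc κ hκ κ' hκT)).mono le_rfl (le_of_lt hκ')
  obtain ⟨N, hN⟩ := this
  exact ⟨N, fun κ hκ => hN κ hκ hκ⟩

end family

end Crest.Agent.R202
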