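import Crest.Agent.R202.SpecAux2

/-!
# R202/SpecAux3: limits of eigenvectors of truncations, for `Spec`
-/

open scoped Topology Matrix
open Set Filter

set_option linter.unusedSectionVars false

noncomputable section

namespace Crest.Agent.R202

variable {I : Type} [DecidableEq I] {d : I → ℕ} {S : Set I} {low : ℕ → Finset I}
  {Q : Matrix I I ℝ} {D : ℕ}

section one

variable {ι : Type} [Fintype ι] [DecidableEq ι] {e : ι → I}

theorem Spec_mulVec (he : Function.Injective e) (Q : Matrix I I ℝ) (v : ι → ℝ) (a : ι) :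
    ((Matrix.diagonal (fun i => lam 1 (d i)) + Q).submatrix e e *ᵥ v) a =
      lam 1 (d (e a)) * v a + (Q.submatrix e e *ᵥ v) a := by
  have : (Matrix.diagonal (fun i => lam 1 (d i)) + Q).submatrix e e =
      Matrix.diagonal (fun a => lam 1 (d (e a))) + Q.submatrix e e := by
    rw [show (Matrix.diagonal (fun i => lam 1 (d i)) + Q).submatrix e e =
      (Matrix.diagonal fun i => lam 1 (d i)).submatrix e e + Q.submatrix e e from rfl,
      Matrix.submatrix_diagonal _ _ he]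
    rfl
  rw [this, Matrix.add_mulVec, Pi.add_apply, Matrix.mulVec_diagonal]

theorem Spec_form (he : Function.Injective e) (Q : Matrix I I ℝ) (v : ι → ℝ) :
    v ⬝ᵥ (Matrix.diagonal (fun i => lam 1 (d i)) + Q).submatrix e e *ᵥ v =
      Spec_L (fun a => d (e a)) v + v ⬝ᵥ Q.submatrix e e *ᵥ v := by
  simp only [dotProduct, Spec_mulVec he, Spec_L, ← Finset.sum_add_distrib]
  exact Finset.sum_congr rfl fun a _ => by ring

theorem Spec_eqn (hlow : ∀ N i, i ∈ low N ↔ d i ≤ N) (hb : ∀ i j, d i + D < d j → Q i j = 0)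
    (he : Function.Injective e) {u : ι → ℝ} {α : ℝ}
    (hu : ∀ a, lam 1 (d (e a)) * u a + (Q.submatrix e e *ᵥ u) a = α * u a) {i : I}
    (hi : i ∈ range e) :
    lam 1 (d i) * Spec_ext e u i + ∑ j ∈ low (d i + D), Q i j * Spec_ext e u j =
      α * Spec_ext e u i := by
  obtain ⟨a, rfl⟩ := hi
  rw [Spec_ext_apply he, ← hu a]
  congr 1
  rw [Finset.sum_subset (s₂ := low (d (e a) + D) ∪ Finset.univ.image e) Finset.subset_union_left
    (fun j _ hj => by rw [hb _ _ (not_le.1 fun h => hj ((hlow _ _).2 h)), zero_mul]),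
    Spec_sum_row he (fun b => by simp) (fun i => Spec_ext_mem (e := e) u)]
  simp [Matrix.mulVec, dotProduct, Spec_ext_apply he]

theorem Spec_decay (he : Function.Injective e) {u : ι → ℝ} {c C : ℝ}
    (hu : ∑ a, Real.exp (2 * c * d (e a)) * u a ^ 2 ≤ C) (i : I) :
    |Spec_ext e u i| ≤ Real.sqrt C * Real.exp (-(c * d i)) := by
  by_cases hi : i ∈ range e
  · obtain ⟨a, rfl⟩ := hi
    rw [Spec_ext_apply he]
    have h1 : Real.exp (2 * c * d (e a)) * u a ^ 2 ≤ C :=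
      (Finset.single_le_sum (f := fun a => Real.exp (2 * c * d (e a)) * u a ^ 2)
        (fun _ _ => by positivity) (Finset.mem_univ a)).trans hu
    have h2 : Real.exp (c * d (e a)) * |u a| ≤ Real.sqrt C := by
      apply Real.le_sqrt_of_sq_le
      rw [mul_pow, sq_abs, ← Real.exp_nat_mul]
      convert h1 using 3
      push_cast
      ring
    rw [Real.exp_neg, ← div_eq_mul_inv, le_div_iff₀' (Real.exp_pos _)]
    exact h2
  · rw [Spec_ext_not u hi, abs_zero]
    positivity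

theorem Spec_head (hlow : ∀ N i, i ∈ low N ↔ d i ≤ N) (he : Function.Injective e) (z : ι → ℝ)
    {c : ℝ} (hc : 0 ≤ c) (R : ℕ) :
    n2 z ≤ ∑ i ∈ low R, Spec_ext e z i ^ 2 +
      Real.exp (-(2 * c * R)) * ∑ a, Real.exp (2 * c * d (e a)) * z a ^ 2 := by
  have h1 : ∑ i ∈ low R, Spec_ext e z i ^ 2 =
      ∑ a, (if e a ∈ low R then 1 else 0) * z a ^ 2 := by
    have := Spec_sum_sq he (T := low R ∪ Finset.univ.image e) (fun b => by simp)
      (fun i => Spec_ext_mem (e := e) z) fun i => if i ∈ low R then 1 else 0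
    simp only [Spec_ext_apply he] at this
    rw [← this, ← Finset.sum_subset (s₁ := low R) Finset.subset_union_left
      (fun j _ hj => by simp [hj])]
    exact Finset.sum_congr rfl fun i hi => by simp [hi]
  rw [h1, n2, Finset.mul_sum, ← Finset.sum_add_distrib]
  refine Finset.sum_le_sum fun a _ => ?_
  rw [← mul_assoc, ← Real.exp_add, ← add_mul]
  refine le_mul_of_one_le_left (sq_nonneg _) ?_
  split_ifs with h
  · linarith [Real.exp_pos (-(2 * c * R) + 2 * c * d (e a))]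
  · have h2 : (R : ℝ) ≤ d (e a) := Nat.cast_le.2 (not_le.1 fun h' => h ((hlow _ _).2 h')).le
    rw [zero_add]
    apply Real.one_le_exp
    nlinarith

end one

theorem Spec_limit {c M μ : ℝ} {R : ℕ} {u w : ℕ → I → ℝ} {α β : ℕ → ℝ}
    (hα : Tendsto α atTop (𝓝 μ)) (hβ : Tendsto β atTop (𝓝 μ))
    (hS : ∀ n i, i ∉ S → u n i = 0 ∧ w n i = 0)
    (hd : ∀ n i, |u n i| ≤ M * Real.exp (-(c * d i)) ∧ |w n i| ≤ M * Real.exp (-(c * d i)))
    (hu : ∀ n, ∀ i ∈ S, d i ≤ n →
      lam 1 (d i) * u n i + ∑ j ∈ low (d i + D), Q i j * u n j = α n * u n i)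
    (hw : ∀ n, ∀ i ∈ S, d i ≤ n →
      lam 1 (d i) * w n i + ∑ j ∈ low (d i + D), Q i j * w n j = β n * w n i)
    (hR : ∀ n (s t : ℝ), (s ^ 2 + t ^ 2) / 2 ≤ ∑ i ∈ low R, (s * u n i + t * w n i) ^ 2) :
    ∃ u' w' : I → ℝ, (∀ i, i ∉ S → u' i = 0 ∧ w' i = 0) ∧
      (∀ i, |u' i| ≤ M * Real.exp (-(c * d i)) ∧ |w' i| ≤ M * Real.exp (-(c * d i))) ∧
      (∀ i ∈ S, lam 1 (d i) * u' i + ∑ j ∈ low (d i + D), Q i j * u' j = μ * u' i) ∧
      (∀ i ∈ S, lam 1 (d i) * w' i + ∑ j ∈ low (d i + D), Q i j * w' j = μ * w' i) ∧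
      ∀ s t : ℝ, (s ^ 2 + t ^ 2) / 2 ≤ ∑ i ∈ low R, (s * u' i + t * w' i) ^ 2 := by
  let F : Ultrafilter ℕ := hyperfilter ℕ
  have hF : (F : Filter ℕ) ≤ atTop := Nat.hyperfilter_le_atTop
  have key : ∀ (x : ℕ → ℝ) (B : ℝ), (∀ n, |x n| ≤ B) → ∃ y, |y| ≤ B ∧ Tendsto x F (𝓝 y) := by
    intro x B hx
    obtain ⟨y, hy, h⟩ := (isCompact_Icc (a := -B) (b := B)).ultrafilter_le_nhds' (F.map x)
      (by
        rw [Ultrafilter.mem_map]
        exact Filter.univ_mem' fun n => abs_le.1 (hx n))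
    exact ⟨y, abs_le.2 hy, h⟩
  choose u' hu1 hu2 using fun i => key (fun n => u n i) _ fun n => (hd n i).1
  choose w' hw1 hw2 using fun i => key (fun n => w n i) _ fun n => (hd n i).2
  have eqn : ∀ {v : ℕ → I → ℝ} {v' : I → ℝ} {γ : ℕ → ℝ}, Tendsto γ atTop (𝓝 μ) →
      (∀ i, Tendsto (fun n => v n i) F (𝓝 (v' i))) →
      (∀ n, ∀ i ∈ S, d i ≤ n →
        lam 1 (d i) * v n i + ∑ j ∈ low (d i + D), Q i j * v n j = γ n * v n i) →
      ∀ i ∈ S, lam 1 (d i) * v' i + ∑ j ∈ low (d i + D), Q i j * v' j = μ * v' i := by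
    intro v v' γ hγ hv he i hi
    refine tendsto_nhds_unique_of_eventuallyEq (l := (F : Filter ℕ))
      (((hv i).const_mul _).add (tendsto_finsetSum _ fun j _ => (hv j).const_mul _))
      ((hγ.mono_left hF).mul (hv i)) ?_
    exact hF ((eventually_ge_atTop (d i)).mono fun n hn => he n i hi hn)
  refine ⟨u', w', fun i hi => ⟨?_, ?_⟩, fun i => ⟨hu1 i, hw1 i⟩, eqn hα hu2 hu, eqn hβ hw2 hw,
    fun s t => ?_⟩
  · exact tendsto_nhds_unique (hu2 i) (by simp [(hS _ i hi).1])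
  · exact tendsto_nhds_unique (hw2 i) (by simp [(hS _ i hi).2])
  · exact ge_of_tendsto' (x := (F : Filter ℕ)) (tendsto_finsetSum _ fun i _ =>
      (((hu2 i).const_mul s).add ((hw2 i).const_mul t)).pow 2) fun n => hR n s t

/-- consecutive min-max values are different if decaying eigenvectors are unique -/
theorem Spec_lt (hlow : ∀ N i, i ∈ low N ↔ d i ≤ N) (hSinf : ∀ N, ∃ i ∈ S, N < d i)
    (hs : Qᵀ = Q) (hb : ∀ i j, d i + D < d j → Q i j = 0)
    (hPb : ∀ (ι : Type) [Fintype ι] [DecidableEq ι] (e : ι → I), Function.Injective e →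
      Pb (fun i => d (e i)) (1 / 4) 0 (Q.submatrix e e))
    (hG : Spec_Good d (Matrix.diagonal (fun i => lam 1 (d i)) + Q))
    (hsimple : ∀ (μ c M : ℝ) (v w : I → ℝ), 0 < c →
      (∀ i, i ∉ S → v i = 0 ∧ w i = 0) →
      (∀ i, |v i| ≤ M * Real.exp (-(c * d i)) ∧ |w i| ≤ M * Real.exp (-(c * d i))) →
      (∀ i ∈ S, lam 1 (d i) * v i + ∑ j ∈ low (d i + D), Q i j * v j = μ * v i) →
      (∀ i ∈ S, lam 1 (d i) * w i + ∑ j ∈ low (d i + D), Q i j * w j = μ * w i) →
      ∃ s t : ℝ, (s ≠ 0 ∨ t ≠ 0) ∧ ∀ i, s * v i + t * w i = 0) {k : ℕ} (hk : 0 < k) :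
    Spec_ev d S (Matrix.diagonal (fun i => lam 1 (d i)) + Q) k <
      Spec_ev d S (Matrix.diagonal (fun i => lam 1 (d i)) + Q) (k + 1) := by
  classical
  set A := Matrix.diagonal (fun i => lam 1 (d i)) + Q with hA
  have hAs : Aᵀ = A := by rw [hA, Matrix.transpose_add, hs, Matrix.diagonal_transpose]
  by_contra hlt
  push Not at hlt
  set μ := Spec_ev d S A k with hμ
  obtain ⟨c, hc, hag⟩ := agmon_static (β₀ := 1) zero_le_one D
  obtain ⟨C, hC, hag⟩ := hag (μ + 1)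
  obtain ⟨R, hR⟩ : ∃ R : ℕ, Real.exp (-(2 * c * R)) * (2 * C) ≤ 1 / 2 := by
    obtain ⟨R, hR⟩ := exists_nat_ge (2 * C / c)
    refine ⟨R, ?_⟩
    rw [div_le_iff₀ hc] at hR
    rw [Real.exp_neg, inv_mul_le_iff₀ (Real.exp_pos _)]
    have := Real.add_one_le_exp (2 * c * R)
    nlinarith
  have step : ∀ n : ℕ, ∃ (u w : I → ℝ) (α β : ℝ), |α - μ| ≤ 1 / ((n : ℝ) + 1) ∧
      |β - μ| ≤ 1 / ((n : ℝ) + 1) ∧ (∀ i, i ∉ S → u i = 0 ∧ w i = 0) ∧
      (∀ i, |u i| ≤ Real.sqrt C * Real.exp (-(c * d i)) ∧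
        |w i| ≤ Real.sqrt C * Real.exp (-(c * d i))) ∧
      (∀ i ∈ S, d i ≤ n → lam 1 (d i) * u i + ∑ j ∈ low (d i + D), Q i j * u j = α * u i) ∧
      (∀ i ∈ S, d i ≤ n → lam 1 (d i) * w i + ∑ j ∈ low (d i + D), Q i j * w j = β * w i) ∧
      ∀ s t : ℝ, (s ^ 2 + t ^ 2) / 2 ≤ ∑ i ∈ low R, (s * u i + t * w i) ^ 2 := by
    intro n
    set ε : ℝ := 1 / ((n : ℝ) + 1) with hε
    have hε0 : 0 < ε := Nat.one_div_pos_of_nat
    have hε1 : ε ≤ 1 := by
      rw [hε, div_le_one (by positivity)]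
      linarith [(Nat.cast_nonneg n : (0 : ℝ) ≤ n)]
    obtain ⟨N, hN⟩ := Spec_of_lt hSinf hG (show Spec_ev d S A (k + 1) < μ + ε by linarith)
    let T : Finset I := (low (max N n)).filter (· ∈ S)
    have hT : ∀ i, i ∈ T ↔ i ∈ S ∧ d i ≤ max N n := fun i => by
      rw [Finset.mem_filter, hlow, and_comm]
    let e : T → I := Subtype.val
    have he : Function.Injective e := Subtype.val_injective
    have hr : ∀ i ∈ S, d i ≤ max N n → i ∈ range e := fun i hi hd => ⟨⟨i, (hT i).2 ⟨hi, hd⟩⟩, rfl⟩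
    obtain ⟨U, ν, hU, hU', hAU⟩ := Spec_diag (A := A.submatrix e e)
      (by rw [Matrix.transpose_submatrix, hAs])
    have h1 := (hN.mono (le_max_left N n) le_rfl).count hr hU hU' hAU
    have h2 : (Finset.univ.filter fun i => ν i ≤ μ - ε).card < k := by
      by_contra h2
      have := (Spec_PN_of_count he (fun a => (hT a).1 a.2) hU hAU (not_lt.1 h2)).ev_le hG hk
      linarith
    obtain ⟨a, ha, b, hb', hab⟩ : ∃ a ∈ (Finset.univ.filter fun i => ν i ≤ μ + ε) \
        (Finset.univ.filter fun i => ν i ≤ μ - ε), ∃ b ∈ (Finset.univ.filter fun i => ν i ≤ μ + ε) \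
        (Finset.univ.filter fun i => ν i ≤ μ - ε), a ≠ b := by
      rw [← Finset.one_lt_card]
      have := Finset.le_card_sdiff (Finset.univ.filter fun i => ν i ≤ μ - ε)
        (Finset.univ.filter fun i => ν i ≤ μ + ε)
      omega
    simp only [Finset.mem_sdiff, Finset.mem_filter, Finset.mem_univ, true_and, not_le] at ha hb'
    obtain ⟨u, w, hu, hw, hu1, hw1, huw⟩ := Spec_two hU hAU hab
    have hu' : ∀ x, lam 1 (d (e x)) * u x + (Q.submatrix e e *ᵥ u) x = ν a * u x := fun x => by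
      rw [← Spec_mulVec he, ← hA, hu]; rfl
    have hw' : ∀ x, lam 1 (d (e x)) * w x + (Q.submatrix e e *ᵥ w) x = ν b * w x := fun x => by
      rw [← Spec_mulVec he, ← hA, hw]; rfl
    have hband : Band (fun x => d (e x)) D (Q.submatrix e e) := fun x y hxy =>
      ⟨hb _ _ hxy, by
        have := hb _ _ hxy
        rw [← hs] at this
        exact this⟩
    have hau := hag T _ _ _ u (hPb T e he) hband (by linarith [ha.1]) hu'
    have haw := hag T _ _ _ w (hPb T e he) hband (by linarith [hb'.1]) hw'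
    rw [hu1, mul_one] at hau
    rw [hw1, mul_one] at haw
    have hsupp : ∀ (v : T → ℝ) i, i ∉ S → Spec_ext e v i = 0 := fun v i hi =>
      Spec_ext_not v fun ⟨x, hx⟩ => hi (hx ▸ ((hT x).1 x.2).1)
    refine ⟨Spec_ext e u, Spec_ext e w, ν a, ν b, abs_le.2 ⟨by linarith [ha.2], by linarith [ha.1]⟩,
      abs_le.2 ⟨by linarith [hb'.2], by linarith [hb'.1]⟩, fun i hi => ⟨hsupp u i hi, hsupp w i hi⟩,
      fun i => ⟨Spec_decay he hau i, Spec_decay he haw i⟩,
      fun i hi hd => Spec_eqn hlow hb he hu' (hr i hi (hd.trans (le_max_right N n))),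
      fun i hi hd => Spec_eqn hlow hb he hw' (hr i hi (hd.trans (le_max_right N n))),
      fun s t => ?_⟩
    have h3 := Spec_head hlow he (s • u + t • w) hc.le R
    rw [huw, map_add, map_smul, map_smul] at h3
    have h4 : ∑ x, Real.exp (2 * c * d (e x)) * (s • u + t • w) x ^ 2 ≤
        (s ^ 2 + t ^ 2) * (2 * C) := by
      calc _ ≤ ∑ x, (s ^ 2 + t ^ 2) * (Real.exp (2 * c * d (e x)) * u x ^ 2 +
            Real.exp (2 * c * d (e x)) * w x ^ 2) := by
            refine Finset.sum_le_sum fun x _ => ?_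
            have h5 : (s * u x + t * w x) ^ 2 ≤ (s ^ 2 + t ^ 2) * (u x ^ 2 + w x ^ 2) := by
              nlinarith [sq_nonneg (s * w x - t * u x)]
            have := mul_le_mul_of_nonneg_left h5 (Real.exp_pos (2 * c * d (e x))).le
            simp only [Pi.add_apply, Pi.smul_apply, smul_eq_mul]
            linarith
        _ ≤ _ := by
            rw [← Finset.mul_sum, Finset.sum_add_distrib]
            exact mul_le_mul_of_nonneg_left (by linarith) (by positivity)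
    have h6 := mul_le_mul_of_nonneg_left h4 (Real.exp_pos (-(2 * c * R))).le
    have h7 := mul_le_mul_of_nonneg_left hR (show 0 ≤ s ^ 2 + t ^ 2 by positivity)
    simp only [Pi.add_apply, Pi.smul_apply, smul_eq_mul] at h3 h6
    linarith
  choose u w α β hα hβ h1 h2 h3 h4 h5 using step
  have hlim : ∀ γ : ℕ → ℝ, (∀ n, |γ n - μ| ≤ 1 / ((n : ℝ) + 1)) → Tendsto γ atTop (𝓝 μ) := by
    intro γ hγ
    rw [tendsto_iff_dist_tendsto_zero]
    exact squeeze_zero (fun _ => dist_nonneg) hγ tendsto_one_div_add_atTop_nhds_zero_nat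
  obtain ⟨u', w', g1, g2, g3, g4, g5⟩ := Spec_limit (hlim α hα) (hlim β hβ) h1 h2 h3 h4 h5
  obtain ⟨s, t, hst, h0⟩ := hsimple μ c _ u' w' hc g1 g2 g3 g4
  have := g5 s t
  simp only [h0] at this
  have h8 : 0 < s ^ 2 + t ^ 2 := by
    rcases hst with h | h <;> positivity
  simp at this
  linarith

end Crest.Agent.R202
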