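import Crest.Agent.R202.TenStep
import Crest.Agent.R202.Avg

/-!
# R202/TenDyn: the dynamics for S0310

`control` gives the data of `step10`; iterate `step10` from `F = 0` at `k₀` (recursion with
choice), glue the `cst (θ (y k)) cs k` by `exists_glue` (on `[k^14+1, (k+1)^14+1]` the glued
function is `cst (θ (y k)) cs k`, both vanish near the ends).  The solution with state `(e_i, 0)`
at `0` is free up to `k₀^14 + 1`; by `Rel.st_eq` its state at `k^14 + 1` is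
`e^{Ip} ∏ f • (e_{ρ^j i}, F_k e_{ρ^j i})`, `j = k - k₀`.  `avg_perm` (for the function that equals
`rt …` on `S` and `0` outside), `sum_pow_twelve_le`, `Bg.gronwall` between these times.
-/

open scoped ContDiff Topology Matrix
open Set Filter

noncomputable section

namespace Crest.Agent.R202

theorem TenDyn_cst_eq {K : ℕ} (θ : Fin K → ℝ) (cs : ℝ) (k : ℕ) : cst θ cs k =
    slots ((k : ℝ) ^ 14 + 1) ((k : ℝ) ^ 11)
      (fun j : Fin K => (Pi.single j.succ (θ j / (k : ℝ) ^ 11) : Fin (K + 1) → ℝ)) +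
    fun t => plat ((k : ℝ) ^ 14 + 1 + K * (k : ℝ) ^ 11) (((k : ℝ) + 1) ^ 14 - k - 1) ((k : ℝ) ^ 11) t •
      (Pi.single 0 cs : Fin (K + 1) → ℝ) := by
  funext t
  rw [cst, Pi.add_apply, ← Pi.single_smul, smul_eq_mul, mul_comm cs]

theorem cst_smooth {K : ℕ} (θ : Fin K → ℝ) (cs : ℝ) (k : ℕ) : ContDiff ℝ ∞ (cst θ cs k) := by
  rw [TenDyn_cst_eq]
  exact (slots_smooth _ _ _).add ((plat_smooth _ _ _).smul contDiff_const)

theorem cst_sgl {K : ℕ} (θ : Fin K → ℝ) (cs : ℝ) {k : ℕ} (hk : 1 ≤ k) (t : ℝ) :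
    Sgl (cst θ cs k t) := by
  have hl : (0 : ℝ) < (k : ℝ) ^ 11 := by positivity
  unfold cst
  rcases le_total t ((k : ℝ) ^ 14 + 1 + K * (k : ℝ) ^ 11) with h | h
  · rw [plat_of_le hl h, mul_zero, Pi.single_zero, add_zero]
    rcases slots_single hl (fun j : Fin K =>
      (Pi.single j.succ (θ j / (k : ℝ) ^ 11) : Fin (K + 1) → ℝ)) t with h1 | ⟨j, h1⟩
    · exact ⟨0, 0, by rw [h1, Pi.single_zero]⟩
    · exact ⟨j.succ, _, by rw [h1, ← Pi.single_smul]⟩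
  · rw [slots_of_ge hl _ h, zero_add]
    exact ⟨0, _, rfl⟩

theorem TenDyn_cst_zero {K : ℕ} (θ : Fin K → ℝ) (cs : ℝ) {k : ℕ} (hk : K + 2 ≤ k) (t : ℝ)
    (ht : t ≤ (k : ℝ) ^ 14 + 1 ∨ ((k : ℝ) + 1) ^ 14 - 1 ≤ t) : cst θ cs k t = 0 := by
  have hk' : (K : ℝ) + 2 ≤ k := by exact_mod_cast hk
  have hK : (0 : ℝ) ≤ K := Nat.cast_nonneg K
  have hl : (1 : ℝ) ≤ (k : ℝ) ^ 11 := one_le_pow₀ (by linarith)
  have hl0 : (0 : ℝ) < (k : ℝ) ^ 11 := by linarith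
  unfold cst
  rcases ht with ht | ht
  · rw [slots_of_le hl0 _ ht, plat_of_le hl0 (by nlinarith), mul_zero, Pi.single_zero, add_zero]
  · have h1 : (k : ℝ) ^ 13 * (k + 1) ≤ ((k : ℝ) + 1) ^ 14 := by
      rw [pow_succ ((k : ℝ) + 1) 13]
      exact mul_le_mul_of_nonneg_right (pow_le_pow_left₀ (by linarith) (by linarith) 13) (by linarith)
    have h2 : ((K : ℝ) + 2) * (k : ℝ) ^ 11 ≤ (k : ℝ) ^ 13 := by
      rw [show (k : ℝ) ^ 13 = k * k * (k : ℝ) ^ 11 by ring]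
      exact mul_le_mul_of_nonneg_right (by nlinarith) hl0.le
    rw [slots_of_ge hl0 _ (by nlinarith), plat_of_ge hl0 (by linarith), mul_zero, Pi.single_zero,
      add_zero]

theorem TenDyn_deriv {P : Type} [NormedAddCommGroup P] [NormedSpace ℝ P] {f : ℝ → P} {g : ℝ → ℝ}
    (hf : ContDiff ℝ ∞ f) (hg : ContDiff ℝ ∞ g) (v : P) :
    deriv (f + fun t => g t • v) = deriv f + fun t => deriv g t • v := by
  funext t
  exact ((hf.differentiable (by simp) t).hasDerivAt.add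
    ((hg.differentiable (by simp) t).hasDerivAt.smul_const v)).deriv

theorem TenDyn_cst_bound (K : ℕ) {Θ cs : ℝ} (hΘ : 0 ≤ Θ) (hcs : 0 ≤ cs) : ∃ A : ℝ, 0 ≤ A ∧
    ∀ (θ : Fin K → ℝ) (k : ℕ) (t : ℝ), (∀ j, |θ j| ≤ Θ) → 1 ≤ k →
      (∃ s ∈ Icc 0 cs, ‖cst θ cs k t - Pi.single 0 s‖ ≤ A / (k : ℝ) ^ 11) ∧
      ‖deriv (cst θ cs k) t‖ ≤ A / (k : ℝ) ^ 11 ∧ ‖deriv (deriv (cst θ cs k)) t‖ ≤ A / (k : ℝ) ^ 11 := by
  obtain ⟨B, hB1, hB⟩ := exists_slots_bound (P := Fin (K + 1) → ℝ)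
  obtain ⟨B', hB1', hB'⟩ := exists_plat_bound
  refine ⟨B * Θ + B' * cs, by positivity, fun θ k t hθ hk => ?_⟩
  have hl : (1 : ℝ) ≤ (k : ℝ) ^ 11 := one_le_pow₀ (by exact_mod_cast hk)
  have hl0 : (0 : ℝ) < (k : ℝ) ^ 11 := by linarith
  obtain ⟨b0, b1, b2⟩ := hB K ((k : ℝ) ^ 14 + 1) ((k : ℝ) ^ 11)
    (fun j : Fin K => (Pi.single j.succ (θ j / (k : ℝ) ^ 11) : Fin (K + 1) → ℝ)) (Θ / (k : ℝ) ^ 11) hl
    (by positivity) (fun j => by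
      rw [Pi.norm_single, Real.norm_eq_abs, abs_div, abs_of_pos hl0]
      exact div_le_div_of_nonneg_right (hθ j) hl0.le) t
  obtain ⟨c1, c2⟩ := hB' ((k : ℝ) ^ 14 + 1 + K * (k : ℝ) ^ 11) (((k : ℝ) + 1) ^ 14 - k - 1)
    ((k : ℝ) ^ 11) t hl
  have hv : ‖(Pi.single 0 cs : Fin (K + 1) → ℝ)‖ = cs := by
    rw [Pi.norm_single, Real.norm_of_nonneg hcs]
  have h0 : 0 ≤ B * (Θ / (k : ℝ) ^ 11) := by positivity
  have e : (B * Θ + B' * cs) / (k : ℝ) ^ 11 = B * (Θ / (k : ℝ) ^ 11) + B' / (k : ℝ) ^ 11 * cs := by ring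
  rw [e]
  refine ⟨⟨cs * plat ((k : ℝ) ^ 14 + 1 + K * (k : ℝ) ^ 11) (((k : ℝ) + 1) ^ 14 - k - 1)
    ((k : ℝ) ^ 11) t, ⟨mul_nonneg hcs (plat_mem _ _ _ _).1,
      mul_le_of_le_one_right hcs (plat_mem _ _ _ _).2⟩, ?_⟩, ?_, ?_⟩
  · rw [cst, add_sub_cancel_right]
    exact b0.trans (le_add_of_nonneg_right (by positivity))
  · rw [TenDyn_cst_eq, TenDyn_deriv (slots_smooth _ _ _) (plat_smooth _ _ _), Pi.add_apply]
    refine (norm_add_le _ _).trans (add_le_add (b1.trans (div_le_self h0 hl)) ?_)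
    rw [norm_smul, hv, Real.norm_eq_abs]
    exact mul_le_mul_of_nonneg_right c1 hcs
  · rw [TenDyn_cst_eq, TenDyn_deriv (slots_smooth _ _ _) (plat_smooth _ _ _),
      TenDyn_deriv (contDiff_infty_iff_deriv.1 (slots_smooth _ _ _)).2
        (contDiff_infty_iff_deriv.1 (plat_smooth _ _ _)).2, Pi.add_apply]
    refine (norm_add_le _ _).trans (add_le_add (b2.trans (div_le_self h0 (one_le_pow₀ hl))) ?_)
    rw [norm_smul, hv, Real.norm_eq_abs]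
    refine mul_le_mul_of_nonneg_right (c2.trans ?_) hcs
    exact div_le_div_of_nonneg_left (by linarith) hl0 (le_self_pow₀ hl two_ne_zero)

theorem TenDyn_seq {X Y : Type} (P : X → Prop) (R : ℕ → X → Y → X → Prop) (x₀ : X) (h0 : P x₀)
    (h : ∀ j x, P x → ∃ y x', P x' ∧ R j x y x') :
    ∃ (x : ℕ → X) (y : ℕ → Y), x 0 = x₀ ∧ ∀ j, P (x j) ∧ R j (x j) (y j) (x (j + 1)) := by
  choose y x' hP hR using h
  let x : ℕ → {x // P x} := fun j => Nat.rec ⟨x₀, h0⟩ (fun j z => ⟨x' j z.1 z.2, hP j z.1 z.2⟩) j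
  exact ⟨fun j => (x j).1, fun j => y j (x j).1 (x j).2, rfl, fun j => ⟨(x j).2, hR j _ _⟩⟩

/-- the growth bound from the chain of stages -/
theorem TenDyn_growth (B : Bg) {W : Type} [Fintype W] [DecidableEq W] {d : W → ℕ} (hd : ∀ i, 1 ≤ d i)
    {Q : ℝ → Matrix W W ℝ} (hQc : Continuous Q) {M : ℝ} (hQM : ∀ t i j, |Q t i j| ≤ M) (k₀ : ℕ)
    (hQ0 : ∀ t ≤ (k₀ : ℝ) ^ 14 + 1, Q t = 0) (ρ : Equiv.Perm W) {a : W → ℝ} (ha : ∀ i, 0 ≤ a i)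
    {abar : ℝ} (habar : 0 ≤ abar) {S : Set W} (hS : ∀ i, ρ i ∈ S ↔ i ∈ S)
    (horb : ∀ i ∈ S, ∃ k : ℕ, 0 < k ∧ (ρ ^ k) i = i ∧ ∑ j ∈ Finset.range k, a ((ρ ^ j) i) ≤ k * abar)
    {C ε₀ : ℝ} {F : ℕ → Matrix W W ℝ} {f : ℕ → W → ℝ} (hF0 : F 0 = 0) (hF : ∀ j i l, |F j i l| ≤ ε₀)
    (hf : ∀ j c, |f j c| ≤ Real.exp (a (ρ c) * ((((k₀ + j : ℕ) : ℝ) + 1) ^ 14 - ((k₀ + j : ℕ) : ℝ) ^ 14)
      + C * ((k₀ + j : ℕ) : ℝ) ^ 12))
    (hrel : ∀ j c, B.Rel d 0 Q (((k₀ + j : ℕ) : ℝ) ^ 14 + 1) ((((k₀ + j : ℕ) : ℝ) + 1) ^ 14 + 1)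
      (Pi.single c 1, fun i => F j i c) (f j c • (Pi.single (ρ c) 1, fun i => F (j + 1) i (ρ c))))
    {i : W} (hi : i ∈ S) {u p : ℝ → W → ℝ} (hs : B.Sol d 0 Q univ u p)
    (h0 : B.st d u p 0 = (Pi.single i 1, 0)) {ε : ℝ} (hε : 0 < ε) :
    ∃ C : ℝ, ∀ t, 0 ≤ t → n2 (u t) ≤ C * Real.exp (2 * (abar + ε) * t) := by
  classical
  have hpow : ∀ (j : ℕ) (x : W), (ρ ^ j) x ∈ S ↔ x ∈ S := by
    intro j x
    induction j with
    | zero => simp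
    | succ j ih => rw [pow_succ', Equiv.Perm.mul_apply, hS, ih]
  obtain ⟨C₁, hC₁⟩ := avg_perm ρ (fun x => if x ∈ S then a x else 0) abar habar
    (fun x => by split_ifs; exacts [ha x, le_rfl]) (fun x => by
      by_cases hx : x ∈ S
      · simp only [hpow, hx, if_true]
        exact horb x hx
      · refine ⟨orderOf ρ, orderOf_pos ρ, by simp, ?_⟩
        simp only [hpow, hx, if_false, Finset.sum_const_zero]
        positivity) k₀ (half_pos hε)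
  obtain ⟨Cg, hCg0, hCg⟩ := B.gronwall hd |M|
  have hgr := fun t₁ t₂ => hCg 0 Q t₁ t₂ u p
    (fun t _ i j => ⟨by simp, (hQM t i j).trans (le_abs_self M)⟩) (hs.mono (subset_univ _))
  obtain ⟨C₂, hC₂⟩ := sum_pow_twelve_le (|C| + 7 * Cg) k₀ (half_pos hε)
  obtain ⟨l₀, hl₀⟩ : ∃ l₀ : ℝ, l₀ = B.Ip (d i) 0 ((k₀ : ℝ) ^ 14 + 1) := ⟨_, rfl⟩
  have hst : ∀ j : ℕ, ∃ l : ℝ, |l| ≤ Real.exp (l₀ + ∑ n ∈ Finset.range j,
      (a ((ρ ^ n) (ρ i)) * ((((k₀ + n : ℕ) : ℝ) + 1) ^ 14 - ((k₀ + n : ℕ) : ℝ) ^ 14)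
        + C * ((k₀ + n : ℕ) : ℝ) ^ 12)) ∧
      B.st d u p (((k₀ + j : ℕ) : ℝ) ^ 14 + 1) =
        l • (Pi.single ((ρ ^ j) i) 1, fun x => F j x ((ρ ^ j) i)) := by
    intro j
    induction j with
    | zero =>
      refine ⟨Real.exp l₀, by simp [abs_of_pos (Real.exp_pos _)], ?_⟩
      have h1 := (hs.mono (subset_univ (Icc 0 ((k₀ : ℝ) ^ 14 + 1)))).free (by positivity)
        (fun _ _ => rfl) fun t ht => hQ0 t ht.2
      have h2 : B.xp d u p 0 = Pi.single i 1 := congrArg Prod.fst h0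
      have h3 : B.xm d u p 0 = 0 := congrArg Prod.snd h0
      rw [h2, h3] at h1
      simp only [Nat.add_zero, pow_zero, Equiv.Perm.one_apply, hF0]
      refine Prod.ext (funext fun x => ?_) (funext fun x => ?_)
      · refine (h1 x).1.trans ?_
        by_cases hx : x = i
        · subst hx
          simp [hl₀]
        · simp [hx]
      · refine (h1 x).2.trans ?_
        simp
    | succ j ih =>
      obtain ⟨l, hl, hz⟩ := ih
      have e1 : ρ ((ρ ^ j) i) = (ρ ^ (j + 1)) i := by rw [pow_succ', Equiv.Perm.mul_apply]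
      have e2 : (ρ ^ (j + 1)) i = (ρ ^ j) (ρ i) := by rw [pow_succ, Equiv.Perm.mul_apply]
      have e3 : ((k₀ + (j + 1) : ℕ) : ℝ) = ((k₀ + j : ℕ) : ℝ) + 1 := by push_cast; ring
      refine ⟨l * f j ((ρ ^ j) i), ?_, ?_⟩
      · rw [abs_mul, Finset.sum_range_succ, ← add_assoc, Real.exp_add, ← e2, ← e1]
        exact mul_le_mul hl (hf j _) (abs_nonneg _) (Real.exp_pos _).le
      · rw [e3, ← e1, mul_smul]
        exact Bg.Rel.st_eq hd (by linarith [avg_w_nonneg (Nat.cast_nonneg (k₀ + j) : (0 : ℝ) ≤ _)])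
          continuousOn_const hQc.continuousOn ((hrel j _).smul l) (hs.mono (subset_univ _)) hz
  refine ⟨Cg * Real.exp (Cg * ((k₀ : ℝ) ^ 14 + 1)) +
    Cg * Real.exp (2 * (l₀ + C₁ + C₂)) * (1 + Fintype.card W * ε₀ ^ 2), fun t ht => ?_⟩
  have hE : 1 ≤ Real.exp (2 * (abar + ε) * t) := Real.one_le_exp (by positivity)
  have hone : ∀ x : W, n2 (Pi.single x 1 : W → ℝ) = 1 := by
    intro x
    simp [n2, Pi.single_apply]
  rw [add_mul]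
  rcases le_total t ((k₀ : ℝ) ^ 14 + 1) with h | h
  · have h1 := hgr 0 _ t ⟨ht, h⟩
    have h2 : B.xp d u p 0 = Pi.single i 1 := congrArg Prod.fst h0
    have h3 : B.xm d u p 0 = 0 := congrArg Prod.snd h0
    have h4 : n2 (0 : W → ℝ) = 0 := by simp [n2]
    rw [h2, h3, hone, h4, add_zero, mul_one, sub_zero] at h1
    have h5 : Cg * Real.exp (Cg * t) ≤ Cg * Real.exp (Cg * ((k₀ : ℝ) ^ 14 + 1)) := by gcongr
    refine le_trans ?_ (le_add_of_nonneg_right (by positivity))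
    refine le_trans ?_ (le_mul_of_one_le_right (by positivity) hE)
    linarith [n2_nonneg (p t)]
  · obtain ⟨k, hk, hk1, hk2⟩ := time_stage (k₀ := k₀) (t := t - 1) (by linarith)
    obtain ⟨N, rfl⟩ := Nat.exists_eq_add_of_le hk
    obtain ⟨l, hl, hz⟩ := hst N
    have h1 := hgr (((k₀ + N : ℕ) : ℝ) ^ 14 + 1) t t ⟨by linarith, le_rfl⟩
    have h2 : n2 (B.xp d u p (((k₀ + N : ℕ) : ℝ) ^ 14 + 1)) = l ^ 2 := by
      rw [show B.xp d u p _ = _ from congrArg Prod.fst hz, Prod.smul_fst, OdeBasic_n2_smul, hone, mul_one]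
    have h3 : n2 (B.xm d u p (((k₀ + N : ℕ) : ℝ) ^ 14 + 1)) ≤ l ^ 2 * (Fintype.card W * ε₀ ^ 2) := by
      rw [show B.xm d u p _ = _ from congrArg Prod.snd hz, Prod.smul_snd, OdeBasic_n2_smul]
      refine mul_le_mul_of_nonneg_left ?_ (sq_nonneg _)
      refine (Finset.sum_le_card_nsmul _ _ (ε₀ ^ 2) fun x _ => ?_).trans (by simp)
      rw [← sq_abs]
      exact pow_le_pow_left₀ (abs_nonneg _) (hF _ _ _) 2
    have h4 := hC₁ (ρ i) N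
    simp only [hpow, hS, hi, if_true] at h4
    have h5 := hC₂ N
    have h6 : ∑ n ∈ Finset.range N, C * ((k₀ + n : ℕ) : ℝ) ^ 12 ≤
        ∑ n ∈ Finset.range N, (|C| + 7 * Cg) * ((k₀ + n : ℕ) : ℝ) ^ 12 :=
      Finset.sum_le_sum fun n _ => mul_le_mul_of_nonneg_right (by linarith [le_abs_self C]) (by positivity)
    have h7 := avg_w_le (Nat.cast_nonneg (k₀ + N) : (0 : ℝ) ≤ _)
    have h8 : Cg * (t - (((k₀ + N : ℕ) : ℝ) ^ 14 + 1)) ≤ Cg * (14 * (((k₀ + N : ℕ) : ℝ) + 1) ^ 13) :=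
      mul_le_mul_of_nonneg_left (by linarith) hCg0
    have h9 : 0 ≤ |C| * (((k₀ + N : ℕ) : ℝ) + 1) ^ 13 := by positivity
    have h10 : (abar + ε) * ((k₀ + N : ℕ) : ℝ) ^ 14 ≤ (abar + ε) * t :=
      mul_le_mul_of_nonneg_left (by linarith) (by linarith)
    have h11 : Real.exp (Cg * (t - (((k₀ + N : ℕ) : ℝ) ^ 14 + 1))) * l ^ 2 ≤
        Real.exp (2 * (l₀ + C₁ + C₂)) * Real.exp (2 * (abar + ε) * t) := by
      rw [← sq_abs]
      refine (mul_le_mul_of_nonneg_left (pow_le_pow_left₀ (abs_nonneg _) hl 2)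
        (Real.exp_pos _).le).trans ?_
      rw [pow_two, ← Real.exp_add, ← Real.exp_add, ← Real.exp_add, Finset.sum_add_distrib]
      exact Real.exp_le_exp.mpr (by linarith)
    refine le_trans ?_ (le_add_of_nonneg_left (by positivity))
    calc n2 (u t) ≤ Cg * Real.exp (Cg * (t - (((k₀ + N : ℕ) : ℝ) ^ 14 + 1))) *
          (l ^ 2 + l ^ 2 * (Fintype.card W * ε₀ ^ 2)) := by
          refine le_trans (le_add_of_nonneg_right (n2_nonneg (p t))) (h1.trans ?_)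
          rw [h2]
          gcongr
      _ = Cg * (1 + Fintype.card W * ε₀ ^ 2) *
          (Real.exp (Cg * (t - (((k₀ + N : ℕ) : ℝ) ^ 14 + 1))) * l ^ 2) := by ring
      _ ≤ Cg * (1 + Fintype.card W * ε₀ ^ 2) *
          (Real.exp (2 * (l₀ + C₁ + C₂)) * Real.exp (2 * (abar + ε) * t)) :=
          mul_le_mul_of_nonneg_left h11 (by positivity)
      _ = _ := by ring

theorem dyn10 (B : Bg) {W : Type} [Fintype W] [DecidableEq W] {d : W → ℕ} (hd : ∀ i, 1 ≤ d i)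
    (m : ℕ) {μ : W → ℝ} (hμ : ∀ i, 0 ≤ μ i ∧ μ i ≤ lam B.β₀ (d i)) {𝒢 : Set (Matrix W W ℝ)}
    (h𝒢 : ∀ G ∈ 𝒢, Blk d G)
    (hgen : Gen d {X | ∃ G ∈ 𝒢,
      X = Matrix.diagonal (fun i => lam B.β₀ (d i) / (2 * B.a (d i) + B.b))
        + Matrix.diagonal (fun i => (2 * m + 1) / (2 * B.a (d i) + B.b)) * G})
    (ρ : Equiv.Perm W) (hρ : ∀ i, d (ρ i) = d i) {cs : ℝ} (hcs : 0 ≤ cs) {S : Set W}
    (hS : ∀ i, ρ i ∈ S ↔ i ∈ S) {abar : ℝ} (habar : 0 ≤ abar)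
    (horb : ∀ i ∈ S, ∃ k : ℕ, 0 < k ∧ (ρ ^ k) i = i ∧ ∑ j ∈ Finset.range k,
      rt B.b (lamq m B.β₀ cs (d ((ρ ^ j) i)) (μ ((ρ ^ j) i))) ≤ k * abar) :
    ∃ (K : ℕ) (G : Fin (K + 1) → Matrix W W ℝ) (A : ℝ),
      G 0 = Matrix.diagonal (fun i => -μ i) ∧ (∀ j : Fin K, G j.succ ∈ 𝒢) ∧
      ∀ k₁ : ℕ, ∃ k₀ : ℕ, k₁ ≤ k₀ ∧ ∃ c : ℝ → Fin (K + 1) → ℝ, ContDiff ℝ ∞ c ∧
        (∀ t ≤ (k₀ : ℝ) ^ 14, c t = 0) ∧ (∀ t, Sgl (c t)) ∧
        (∀ k, k₀ ≤ k → ∀ t ∈ Icc ((k : ℝ) ^ 14) (((k : ℝ) + 1) ^ 14),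
          (∃ s ∈ Icc 0 cs, ‖c t - Pi.single 0 s‖ ≤ A / (k : ℝ) ^ 11) ∧
          ‖deriv c t‖ ≤ A / (k : ℝ) ^ 11 ∧ ‖deriv (deriv c) t‖ ≤ A / (k : ℝ) ^ 11) ∧
        ∀ i ∈ S, ∀ u p, B.Sol d 0 (fun t => Q10 m B.β₀ d G (c t)) univ u p →
          B.st d u p 0 = (Pi.single i 1, 0) → ∀ ε > 0, ∃ C : ℝ, ∀ t, 0 ≤ t →
            n2 (u t) ≤ C * Real.exp (2 * (abar + ε) * t) := by
  obtain ⟨ε, K, X, r, Θ, θ, s, hε, hX, hr, hΘ, hθ, hs, hθΘ, hsΘ, hbox⟩ := control (by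
    rintro X ⟨G, hG, rfl⟩ i j hij
    have hne : i ≠ j := fun e => hij (by rw [e])
    rw [Matrix.add_apply, Matrix.diagonal_apply_ne _ hne, Matrix.diagonal_mul, h𝒢 G hG i j hij]
    simp) hgen ρ hρ
  choose G' hG' hXG using hX
  obtain ⟨G, hG0, hGs⟩ : ∃ G : Fin (K + 1) → Matrix W W ℝ, G 0 = Matrix.diagonal (fun i => -μ i) ∧
      ∀ j : Fin K, G j.succ = G' j := ⟨Fin.cons _ G', rfl, fun j => Fin.cons_succ _ _ j⟩
  have hGb : ∀ k, Blk d (G k) := by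
    intro k
    refine Fin.cases ?_ (fun j => ?_) k
    · intro i j hij
      rw [hG0, Matrix.diagonal_apply_ne _ fun e => hij (by rw [e])]
    · rw [hGs]
      exact h𝒢 _ (hG' j)
  obtain ⟨ε₀, hε₀, C, k₂, hstep⟩ := step10 B hd m hμ G hGb hG0 hcs ρ hρ hε hr hθ hs hθΘ hsΘ (by
    simp only [hGs, ← hXG]
    exact hbox)
  obtain ⟨A, hA0, hA⟩ := TenDyn_cst_bound K hΘ hcs
  refine ⟨K, G, A, hG0, fun j => by rw [hGs]; exact hG' j, fun k₁ => ?_⟩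
  obtain ⟨k₀, hk1, hk2, hk3⟩ : ∃ k₀ : ℕ, k₁ ≤ k₀ ∧ k₂ ≤ k₀ ∧ K + 2 ≤ k₀ :=
    ⟨k₁ + k₂ + (K + 2), by omega, by omega, by omega⟩
  obtain ⟨F, yf, hF0, hF⟩ := TenDyn_seq (Y := Matrix W W ℝ × (W → ℝ))
    (fun F : Matrix W W ℝ => Blk d F ∧ ∀ i j, |F i j| ≤ ε₀)
    (fun j F yf F' => ∀ c, |yf.2 c| ≤ Real.exp
          (rt B.b (lamq m B.β₀ cs (d (ρ c)) (μ (ρ c))) *
            ((((k₀ + j : ℕ) : ℝ) + 1) ^ 14 - ((k₀ + j : ℕ) : ℝ) ^ 14) + C * ((k₀ + j : ℕ) : ℝ) ^ 12) ∧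
          B.Rel d 0 (fun t => Q10 m B.β₀ d G (cst (θ yf.1) cs (k₀ + j) t))
            (((k₀ + j : ℕ) : ℝ) ^ 14 + 1) ((((k₀ + j : ℕ) : ℝ) + 1) ^ 14 + 1)
            (Pi.single c 1, fun i => F i c) (yf.2 c • (Pi.single (ρ c) 1, fun i => F' i (ρ c))))
    0 ⟨fun _ _ _ => rfl, fun _ _ => by simpa using hε₀.le⟩ (fun j F hF => by
      obtain ⟨y, F', f, h1, h2, h3⟩ := hstep (k₀ + j) (by omega) F hF.1 hF.2
      exact ⟨(y, f), F', ⟨h1, h2⟩, h3⟩)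
  obtain ⟨c, hc, hc0, hck⟩ := exists_glue k₀ (fun k => cst (θ (yf (k - k₀)).1) cs k)
    (fun k _ => cst_smooth _ _ _) fun k hk t ht => TenDyn_cst_zero _ _ (by omega) t ht
  have hbd : ∀ k, k₀ ≤ k → ∀ t ∈ Icc ((k : ℝ) ^ 14) (((k : ℝ) + 1) ^ 14),
      (∃ s ∈ Icc 0 cs, ‖c t - Pi.single 0 s‖ ≤ A / (k : ℝ) ^ 11) ∧
      ‖deriv c t‖ ≤ A / (k : ℝ) ^ 11 ∧ ‖deriv (deriv c) t‖ ≤ A / (k : ℝ) ^ 11 := by
    intro k hk t ht
    have h1 := hck k hk t ht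
    rw [h1.eq_of_nhds, h1.deriv_eq, h1.deriv.deriv_eq]
    exact hA _ k t (hθΘ _) (by omega)
  have hzero : ∀ k, k₀ ≤ k → ∀ t ∈ Icc ((k : ℝ) ^ 14) ((k : ℝ) ^ 14 + 1), c t = 0 := by
    intro k hk t ht
    have hk' : (1 : ℝ) ≤ k := by exact_mod_cast (by omega : 1 ≤ k)
    have h1 : (k : ℝ) ^ 14 + 1 ^ 14 ≤ ((k : ℝ) + 1) ^ 14 :=
      pow_add_pow_le (by linarith) zero_le_one (by norm_num)
    rw [(hck k hk t ⟨ht.1, by linarith [ht.2]⟩).eq_of_nhds]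
    exact TenDyn_cst_zero _ _ (by omega) t (Or.inl ht.2)
  refine ⟨k₀, hk1, c, hc, hc0, fun t => ?_, hbd, fun i hi u p hsol h0 η hη => ?_⟩
  · rcases le_total t ((k₀ : ℝ) ^ 14) with h | h
    · exact ⟨0, 0, by rw [hc0 t h, Pi.single_zero]⟩
    · obtain ⟨k, hk, ht⟩ := time_stage h
      rw [(hck k hk t ht).eq_of_nhds]
      exact cst_sgl _ _ (by omega) t
  have hQ : Continuous (Q10 m B.β₀ d G) := by
    unfold Q10
    fun_prop
  obtain ⟨M, hM⟩ := (isCompact_closedBall (0 : Fin (K + 1) → ℝ) (A + cs)).exists_bound_of_continuousOn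
    (f := fun (c : Fin (K + 1) → ℝ) (i j : W) => Q10 m B.β₀ d G c i j) hQ.continuousOn
  refine TenDyn_growth B hd (hQ.comp hc.continuous) (M := M) (fun t i j => ?_) k₀ (fun t ht => ?_) ρ
    (a := fun x => rt B.b (lamq m B.β₀ cs (d x) (μ x))) (fun x => rt_nonneg ?_) habar hS horb (C := C)
    (f := fun j => (yf j).2) hF0 (fun j => (hF j).1.2) (fun j x => ((hF j).2 x).1) (fun j x => ?_) hi hsol
    h0 hη
  · have h1 : ‖c t‖ ≤ A + cs := by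
      rcases le_total t ((k₀ : ℝ) ^ 14) with h | h
      · rw [hc0 t h, norm_zero]
        positivity
      · obtain ⟨k, hk, ht⟩ := time_stage h
        obtain ⟨⟨s, hs, h2⟩, -⟩ := hbd k hk t ht
        have h3 : ‖(Pi.single 0 s : Fin (K + 1) → ℝ)‖ ≤ cs := by
          rw [Pi.norm_single, Real.norm_of_nonneg hs.1]
          exact hs.2
        have h4 : A / (k : ℝ) ^ 11 ≤ A :=
          div_le_self hA0 (one_le_pow₀ (by exact_mod_cast (by omega : 1 ≤ k)))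
        linarith [norm_le_norm_add_norm_sub' (c t) (Pi.single 0 s)]
    exact ((norm_le_pi_norm (fun j => Q10 m B.β₀ d G (c t) i j) j).trans
      (norm_le_pi_norm (fun i j => Q10 m B.β₀ d G (c t) i j) i)).trans
      (hM (c t) (mem_closedBall_zero_iff.mpr h1))
  · have h1 : c t = 0 := by
      rcases le_total t ((k₀ : ℝ) ^ 14) with h | h
      · exact hc0 t h
      · exact hzero k₀ le_rfl t ⟨h, ht⟩
    simp [h1, Q10]
  · have := hμ x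
    exact add_nonneg (mul_nonneg (Real.exp_pos _).le (by linarith)) (mul_nonneg (Real.exp_pos _).le this.1)
  · refine ((hF j).2 x).2.congr (fun _ _ => rfl) fun t ht => ?_
    simp only [Function.comp]
    congr 1
    rcases le_total t ((((k₀ + j : ℕ) : ℝ) + 1) ^ 14) with h | h
    · rw [(hck (k₀ + j) (by omega) t ⟨by linarith [ht.1], h⟩).eq_of_nhds, Nat.add_sub_cancel_left]
    · rw [hzero (k₀ + j + 1) (by omega) t (by rw [Nat.cast_succ]; exact ⟨h, ht.2⟩),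
        TenDyn_cst_zero _ _ (by omega) t (Or.inr (by linarith))]

end Crest.Agent.R202
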