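import Crest.Agent.R202.PBasic
import Crest.Agent.R202.Berger
import Crest.Agent.R202.Family
import Crest.Agent.R202.OdeFlow

/-!
# R202/TenLap: the Berger family and its harmonic functions

`harm10`: for `x ≠ 0`, near `x` (every `c (τ r)` has one non-zero entry, so `single_H10`,
`berger_inv`, `berger_det`, `inv_rad`, `det_rad` apply), with `φ = ψ r / r`,
`√det g • g⁻¹ ∇f = φ^(n-1) π∇f + φ^(n-3) (Π∇f + Σₖ ((e^{cₖ}-1) Π∇f + (e^{-2m cₖ} - e^{cₖ}) π(Jₖ y)∇f))`,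
`Π = 1 - π`.  By linearity treat `f = w(r) Y(y)` with `Y` harmonic homogeneous of degree `l`:
`π∇f = (w' r + l w) Y y/r²`, `Π∇f = w (∇Y - l Y y/r²)`, `π(Jy)∇f = w (X_J Y) Jy/r²`, and
`div (a(r) (∇Y - l Y y/r²)) = -a l (l + n - 2) Y/r²`, `div (a(r) (X_J Y) Jy) = a X_J² Y`.
With `w = u(τ r)/r^l`, `τ' = 1/ψ`, `ψ' = β` the sum is
`ψ^(n-3) r^(1-n) r^(-l) (u'' + (n-2) β u') Y - …`, which cancels by the ODE and `HB.expand`.
On the unit ball `f` is a harmonic polynomial and `g = 1`.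
-/

open scoped ContDiff Topology Matrix RealInnerProductSpace
open Set Filter
open Crest.GeometryTopology.CoordMetric

noncomputable section

namespace Crest.Agent.R202

variable {n N : ℕ}

theorem TenLap_mv_one (v : E n) : mv (1 : Mat n) v = v := by
  simp [mv]

theorem TenLap_mv_sub (A B : Mat n) (v : E n) : mv (A - B) v = mv A v - mv B v := by
  ext i; simp [sub_mul, Finset.sum_sub_distrib]

theorem TenLap_mv_sum {ι : Type} (s : Finset ι) (A : ι → Mat n) (v : E n) :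
    mv (∑ k ∈ s, A k) v = ∑ k ∈ s, mv (A k) v := by
  classical
  induction s using Finset.induction_on with
  | empty => ext i; simp
  | insert a s ha ih => rw [Finset.sum_insert ha, Finset.sum_insert ha, family_mv_add, ih]

theorem TenLap_mv_smul' (A : Mat n) (t : ℝ) (v : E n) : mv A (t • v) = t • mv A v := by
  ext i
  simp only [mv_apply, PiLp.smul_apply, smul_eq_mul, Finset.mul_sum]
  exact Finset.sum_congr rfl fun j _ => by ring

theorem TenLap_mv_sum' {ι : Type} (s : Finset ι) (A : Mat n) (v : ι → E n) :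
    mv A (∑ k ∈ s, v k) = ∑ k ∈ s, mv A (v k) := by
  classical
  induction s using Finset.induction_on with
  | empty => ext i; simp
  | insert a s ha ih =>
    rw [Finset.sum_insert ha, Finset.sum_insert ha, ← ih]
    ext i
    simp [mul_add, Finset.sum_add_distrib]

theorem TenLap_contDiff_mv (A : Mat n) : ContDiff ℝ ∞ fun y : E n => mv A y := by
  rw [contDiff_euclidean]
  intro i
  simp only [mv_apply]
  exact ContDiff.sum fun j _ =>
    contDiff_const.mul (EuclideanSpace.proj j : E n →L[ℝ] ℝ).contDiff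

theorem TenLap_mv_ne {J : Mat n} (hJ : IsCx J) {y : E n} (hy : y ≠ 0) : mv J y ≠ 0 := by
  rw [← norm_ne_zero_iff, hJ.norm_mv]
  exact norm_ne_zero_iff.2 hy

theorem TenLap_mv_H10 (m : ℕ) {J : Fin N → Mat n} (hJ : ∀ k, IsCx (J k)) (c : Fin N → ℝ)
    (y v : E n) : mv (H10 m J c y) v =
      (1 + ∑ k, (Real.exp (-c k) - 1)) • (v - (⟪y, v⟫ / ‖y‖ ^ 2) • y)
        + ∑ k, ((Real.exp (2 * m * c k) - Real.exp (-c k)) * (⟪mv (J k) y, v⟫ / ‖y‖ ^ 2))
          • mv (J k) y := by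
  simp only [H10, family_mv_add, TenLap_mv_sum, family_mv_smul, TenLap_mv_sub, TenLap_mv_one,
    mv_prj, (hJ _).norm_mv, Finset.sum_add_distrib, add_smul, one_smul, Finset.sum_smul,
    smul_smul, add_assoc]

theorem TenLap_psd {P : Mat n} (h1 : Pᵀ = P) (h2 : P * P = P) (a : ℝ) :
    (|a| • (1 : Mat n) + a • P).PosSemidef := by
  have hP : P.PosSemidef := by
    have := Matrix.posSemidef_conjTranspose_mul_self P
    rwa [Matrix.conjTranspose_eq_transpose_of_trivial, h1, h2] at this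
  have hQ : (1 - P).PosSemidef := by
    have := Matrix.posSemidef_conjTranspose_mul_self (1 - P)
    rwa [Matrix.conjTranspose_eq_transpose_of_trivial, Matrix.transpose_sub, Matrix.transpose_one,
      h1, sub_mul, mul_sub, mul_sub, h2, one_mul, one_mul, mul_one, sub_self, sub_zero] at this
  have e : |a| • (1 : Mat n) + a • P = (|a| + a) • P + |a| • (1 - P) := by module
  rw [e]
  exact (hP.smul (by linarith [neg_abs_le a])).add (hQ.smul (abs_nonneg a))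

theorem fam_H10 (m : ℕ) {J : Fin N → Mat n} (hJ : ∀ k, IsCx (J k)) : Fam (H10 m J) (O10 m N) := by
  refine ⟨?_, fun i j z hz => ?_, fun c x t ht => ?_, fun c x => ?_, fun c hc x hx => ?_⟩
  · exact isOpen_lt (by fun_prop) continuous_const
  · have hz2 : z.2 ≠ 0 := hz.2
    have h1 : ContDiffAt ℝ ∞ (fun z : (Fin N → ℝ) × E n => prj z.2 i j) z :=
      (family_prj_smooth hz2 i j).comp z contDiffAt_snd
    have h2 : ∀ k, ContDiffAt ℝ ∞ (fun z : (Fin N → ℝ) × E n => prj (mv (J k) z.2) i j) z :=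
      fun k => ContDiffAt.comp (g := fun y : E n => prj y i j)
        (f := fun z : (Fin N → ℝ) × E n => mv (J k) z.2) z
        (family_prj_smooth (TenLap_mv_ne (hJ k) hz2) i j)
        ((TenLap_contDiff_mv (J k)).contDiffAt.comp z contDiffAt_snd)
    have h3 : ∀ k, ContDiffAt ℝ ∞ (fun z : (Fin N → ℝ) × E n => z.1 k) z := fun k => by fun_prop
    refine ContDiffAt.contDiffWithinAt ?_
    simp only [H10, Matrix.add_apply, Matrix.sub_apply, Matrix.sum_apply, Matrix.smul_apply,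
      smul_eq_mul]
    exact (contDiffAt_const.sub h1).add (ContDiffAt.sum fun k _ =>
      (((h3 k).neg.exp.sub contDiffAt_const).mul (contDiffAt_const.sub h1)).add
        (((contDiffAt_const.mul (h3 k)).exp.sub (h3 k).neg.exp).mul (h2 k)))
  · simp only [H10, TenLap_mv_smul', family_prj_smul ht.ne']
  · have h3 : ∀ k, ⟪mv (J k) x, x⟫ = 0 := fun k => by rw [real_inner_comm, (hJ k).inner_mv]
    rw [TenLap_mv_H10 m hJ]
    by_cases hx : x = 0
    · simp [hx]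
    · simp only [h3, real_inner_self_eq_norm_sq, div_self (pow_ne_zero 2 (norm_ne_zero_iff.2 hx))]
      simp
  · have e : prj x + H10 m J c x =
        (1 - ∑ k, (|Real.exp (-c k) - 1| + |Real.exp (2 * m * c k) - Real.exp (-c k)|))
          • (1 : Mat n) + ∑ k, ((|Real.exp (-c k) - 1| • (1 : Mat n)
            + (Real.exp (-c k) - 1) • (1 - prj x))
          + (|Real.exp (2 * m * c k) - Real.exp (-c k)| • (1 : Mat n)
            + (Real.exp (2 * m * c k) - Real.exp (-c k)) • prj (mv (J k) x))) := by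
      simp only [H10, Finset.sum_add_distrib, sub_smul, add_smul, Finset.sum_smul, one_smul]
      abel
    rw [e]
    refine Matrix.PosDef.add_posSemidef (Matrix.PosDef.one.smul (sub_pos.2 hc)) ?_
    refine Matrix.posSemidef_sum _ fun k _ => Matrix.PosSemidef.add (TenLap_psd ?_ ?_ _)
      (TenLap_psd (family_prj_transpose _) (family_prj_mul_prj (TenLap_mv_ne (hJ k) hx)) _)
    · rw [Matrix.transpose_sub, Matrix.transpose_one, family_prj_transpose]
    · rw [sub_mul, mul_sub, mul_sub, family_prj_mul_prj hx, one_mul, one_mul, mul_one, sub_self,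
        sub_zero]

theorem H10_zero (m : ℕ) (J : Fin N → Mat n) (x : E n) : H10 m J 0 x = 1 - prj x := by
  simp [H10]

theorem single_H10 (m : ℕ) (J : Fin N → Mat n) (k : Fin N) (s a : ℝ) :
    cone a (H10 m J (Pi.single k s))
      = berger (J k) (a ^ 2 * Real.exp (-s)) (a ^ 2 * Real.exp (2 * m * s)) := by
  funext y
  simp only [cone, H10, berger]
  rw [Finset.sum_eq_single k (fun j _ hj => by simp [Pi.single_eq_of_ne hj]) (by simp),
    Pi.single_eq_same]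
  module

theorem lTh_H10 {m : ℕ} (hn : n = 2 * m + 2) {J : Fin N → Mat n} (hJ : ∀ k, IsCx (J k))
    {c : Fin N → ℝ} (hc : Sgl c) {x : E n} (hx : x ≠ 0) : lTh (H10 m J) c x = 0 := by
  obtain ⟨k, s, rfl⟩ := hc
  have h1 := congrFun (single_H10 m J k s 1) x
  simp only [cone, one_pow, one_smul, one_mul] at h1
  rw [lTh, h1, berger_det (hJ k) (Real.exp_pos _) hx, hn, Nat.add_sub_cancel, ← Real.exp_nat_mul,
    ← Real.exp_add, Real.log_exp]
  push_cast
  ring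

theorem TenLap_fderiv {a : ℝ → ℝ} {a' : ℝ} {x : E n} (hx : x ≠ 0) (ha : HasDerivAt a a' ‖x‖)
    (Y : Pl n) : DifferentiableAt ℝ (fun y : E n => a ‖y‖ * ev Y y) x ∧
      ∀ v, fderiv ℝ (fun y : E n => a ‖y‖ * ev Y y) x v =
        a ‖x‖ * fderiv ℝ (ev Y) x v + ev Y x * (a' / ‖x‖ * ⟪x, v⟫) := by
  have h1 := (hasFDerivAt_radial hx ha).mul
    (((contDiff_ev Y).differentiable (by simp)) x).hasFDerivAt
  refine ⟨h1.differentiableAt, fun v => ?_⟩
  have e : fderiv ℝ (fun y : E n => a ‖y‖ * ev Y y) x = _ := h1.fderiv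
  rw [e]
  simp

theorem TenLap_dv_rad {a : ℝ → ℝ} {a' : ℝ} {x : E n} (hx : x ≠ 0) (ha : HasDerivAt a a' ‖x‖)
    {Y : Pl n} {l : ℕ} (hY : Y.IsHomogeneous l) :
    DifferentiableAt ℝ (fun y : E n => (a ‖y‖ * ev Y y) • y) x ∧
      dv (fun y => (a ‖y‖ * ev Y y) • y) x = (a' * ‖x‖ + (l + n) * a ‖x‖) * ev Y x := by
  have hr : ‖x‖ ≠ 0 := norm_ne_zero_iff.2 hx
  obtain ⟨h1, h2⟩ := TenLap_fderiv hx ha Y
  refine ⟨h1.smul differentiableAt_id, ?_⟩
  rw [dv_smul (V := fun y => y) h1 differentiableAt_id, h2, dv_id, fderiv_ev_self hY,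
    real_inner_self_eq_norm_sq]
  field_simp
  ring

theorem TenLap_dv_grd {Y : Pl n} {l : ℕ} (hY : Y ∈ Hm ℝ n l) (x : E n) :
    dv (grd (ev Y)) x = 0 := by
  have e : ∀ i, pderiv i (ev Y) = ev (MvPolynomial.pderiv i Y) := fun i =>
    funext (pderiv_ev Y i)
  have h0 : lapP Y = 0 := hY.2
  rw [dv_grd]
  simp only [e, pderiv_ev]
  rw [← ev_sum, ← lapP_apply, h0]
  simp [ev]

theorem TenLap_dv_tan {b : ℝ → ℝ} {x : E n} (hx : x ≠ 0) (hb : DifferentiableAt ℝ b ‖x‖)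
    {Y : Pl n} {l : ℕ} (hY : Y ∈ Hm ℝ n l) :
    DifferentiableAt ℝ
        (fun y : E n => b ‖y‖ • (grd (ev Y) y + (-(l : ℝ) / ‖y‖ ^ 2 * ev Y y) • y)) x ∧
      dv (fun y => b ‖y‖ • (grd (ev Y) y + (-(l : ℝ) / ‖y‖ ^ 2 * ev Y y) • y)) x
        = -(b ‖x‖ / ‖x‖ ^ 2 * (l * (l + n - 2)) * ev Y x) := by
  have hr : ‖x‖ ≠ 0 := norm_ne_zero_iff.2 hx
  have hh : Y.IsHomogeneous l := hY.1
  have ha : HasDerivAt (fun r : ℝ => -(l : ℝ) / r ^ 2) (2 * l / ‖x‖ ^ 3) ‖x‖ := by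
    refine ((hasDerivAt_const ‖x‖ (-(l : ℝ))).div (hasDerivAt_pow 2 ‖x‖)
      (pow_ne_zero 2 hr)).congr_deriv ?_
    field_simp
    ring
  obtain ⟨h1, h2⟩ := TenLap_dv_rad hx ha hh
  have h3 : DifferentiableAt ℝ (grd (ev Y)) x := differentiableAt_grd (contDiff_ev Y).contDiffAt
  have h4 := hasFDerivAt_radial hx hb.hasDerivAt
  refine ⟨h4.differentiableAt.smul (h3.add h1), ?_⟩
  rw [dv_smul h4.differentiableAt (h3.fun_add h1), dv_add h3 h1, h2, TenLap_dv_grd hY, h4.fderiv]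
  have h5 : ⟪x, grd (ev Y) x⟫ = l * ev Y x := by
    rw [real_inner_comm, ← fderiv_eq_inner_grd, fderiv_ev_self hh]
  simp only [_root_.smul_apply, innerSL_apply_apply, inner_add_right,
    inner_smul_right, h5, real_inner_self_eq_norm_sq, smul_eq_mul]
  field_simp
  ring

theorem TenLap_dv_rot {e : ℝ → ℝ} {x : E n} (hx : x ≠ 0) (he : DifferentiableAt ℝ e ‖x‖)
    {J : Mat n} (hJ : IsCx J) (Z : Pl n) :
    DifferentiableAt ℝ (fun y : E n => (e ‖y‖ * ev Z y) • mv J y) x ∧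
      dv (fun y => (e ‖y‖ * ev Z y) • mv J y) x = e ‖x‖ * ev (XA J Z) x := by
  obtain ⟨h1, h2⟩ := TenLap_fderiv hx he.hasDerivAt Z
  refine ⟨h1.smul (differentiable_mv J x), ?_⟩
  have ht : J.trace = 0 := Finset.sum_eq_zero fun i _ => hJ.b_diag i
  rw [dv_smul h1 (differentiable_mv J x), h2, dv_mv, ht, hJ.inner_mv, fderiv_ev_mv]
  ring

theorem TenLap_metric {m : ℕ} (hn : n = 2 * m + 2) {J : Fin N → Mat n} (hJ : ∀ k, IsCx (J k))
    {c : Fin N → ℝ} (hc : Sgl c) {y : E n} (hy : y ≠ 0) {φ : ℝ} (hφ : 0 < φ) :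
    Real.sqrt (cone φ (H10 m J c) y).det = φ ^ (2 * m + 1) ∧
      (cone φ (H10 m J c) y)⁻¹ = cone φ⁻¹ (H10 m J (-c)) y := by
  obtain ⟨k, s, rfl⟩ := hc
  rw [← Pi.single_neg, single_H10, single_H10]
  constructor
  · rw [berger_det (hJ k) (by positivity) hy, hn, Nat.add_sub_cancel,
      Real.sqrt_eq_iff_mul_self_eq_of_pos (by positivity), mul_pow, ← Real.exp_nat_mul]
    have : Real.exp (((2 * m : ℕ) : ℝ) * -s) * Real.exp (2 * m * s) = 1 := by
      rw [← Real.exp_add]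
      push_cast
      ring_nf
      exact Real.exp_zero
    linear_combination (-(φ ^ 2) ^ (2 * m) * φ ^ 2) * this
  · rw [berger_inv (hJ k) (by positivity) (by positivity) hy, mul_inv, mul_inv, ← Real.exp_neg,
      ← Real.exp_neg, inv_pow, mul_neg]

theorem TenLap_Q10_zero {W : Type} [Fintype W] [DecidableEq W] (m : ℕ) (β₀ : ℝ) (d : W → ℕ)
    (G : Fin N → Matrix W W ℝ) : Q10 m β₀ d G 0 = 0 := by
  simp [Q10]

theorem TenLap_Q10_apply {W : Type} [Fintype W] [DecidableEq W] (m : ℕ) (β₀ : ℝ) (d : W → ℕ)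
    (G : Fin N → Matrix W W ℝ) (c : Fin N → ℝ) (u : W → ℝ) (i : W) :
    (Q10 m β₀ d G c *ᵥ u) i = (∑ k, (Real.exp (c k) - 1)) * (lam β₀ (d i) * u i)
      + ∑ k, (Real.exp (c k) - Real.exp (-(2 * m * c k))) * ∑ j, G k i j * u j := by
  rw [Q10, Matrix.sum_mulVec, Finset.sum_apply, Finset.sum_mul, ← Finset.sum_add_distrib]
  refine Finset.sum_congr rfl fun k _ => ?_
  rw [Matrix.add_mulVec, Matrix.smul_mulVec, Matrix.smul_mulVec, Pi.add_apply, Pi.smul_apply,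
    Pi.smul_apply, Matrix.mulVec_diagonal, smul_eq_mul, smul_eq_mul]
  rfl

theorem TenLap_psi_pos {b : ℝ} {β ψ τ : ℝ → ℝ} (hT : Tm b β ψ τ) {r : ℝ} (hr : 0 < r) : 0 < ψ r :=
  (mul_pos hT.b_pos hr).trans_le (hT.ψ_ge r hr)

/-- the contribution of one mode to `√det g • g⁻¹ ∇f` -/
theorem TenLap_field (m : ℕ) {J : Fin N → Mat n} (hJ : ∀ k, IsCx (J k)) (c : Fin N → ℝ)
    {y : E n} (hy : y ≠ 0) {ψ : ℝ} (hψ : 0 < ψ) {Y : Pl n} {l : ℕ} (hY : Y.IsHomogeneous l)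
    (u p : ℝ) :
    (ψ / ‖y‖) ^ (2 * m + 1) • mv (cone (ψ / ‖y‖)⁻¹ (H10 m J (-c)) y)
      ((u / ‖y‖ ^ l) • grd (ev Y) y
        + (ev Y y * ((p / (ψ * ‖y‖ ^ l) - l * u / ‖y‖ ^ (l + 1)) / ‖y‖)) • y) =
    (ψ ^ (2 * m) * p / ‖y‖ ^ (2 * m + 2 + l) * ev Y y) • y
      + (ψ ^ (2 * m) / (ψ * ‖y‖ ^ (2 * m + 1)) * ‖y‖ ^ 2 * (1 + ∑ k, (Real.exp (c k) - 1))
          * (u / ‖y‖ ^ l)) • (grd (ev Y) y + (-(l : ℝ) / ‖y‖ ^ 2 * ev Y y) • y)
      + ∑ k, (ψ ^ (2 * m) / (ψ * ‖y‖ ^ (2 * m + 1))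
          * (Real.exp (-(2 * m * c k)) - Real.exp (c k)) * (u / ‖y‖ ^ l)
          * ev (XA (J k) Y) y) • mv (J k) y := by
  have hr : ‖y‖ ≠ 0 := norm_ne_zero_iff.2 hy
  have h1 : ⟪y, grd (ev Y) y⟫ = l * ev Y y := by
    rw [real_inner_comm, ← fderiv_eq_inner_grd, fderiv_ev_self hY]
  have h2 : ∀ k, ⟪mv (J k) y, grd (ev Y) y⟫ = ev (XA (J k) Y) y := fun k => by
    rw [real_inner_comm, ← fderiv_eq_inner_grd, fderiv_ev_mv]
  have h3 : ∀ k, ⟪mv (J k) y, y⟫ = 0 := fun k => by rw [real_inner_comm, (hJ k).inner_mv]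
  simp only [cone, family_mv_add, family_mv_smul, TenLap_mv_H10 m hJ, mv_prj, inner_add_right,
    inner_smul_right, h1, h2, h3, real_inner_self_eq_norm_sq, Pi.neg_apply, neg_neg, mul_neg,
    mul_zero, add_zero]
  rw [smul_add ((ψ / ‖y‖)⁻¹ ^ 2), ← add_assoc, smul_add, Finset.smul_sum, Finset.smul_sum,
    inv_div, div_pow, div_pow]
  congr 1
  · generalize (1 + ∑ k, (Real.exp (c k) - 1)) = F
    match_scalars
    · field_simp
      ring
    · field_simp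
      ring
  · refine Finset.sum_congr rfl fun k _ => ?_
    match_scalars
    field_simp
    ring

theorem harm10 {m : ℕ} (hn : n = 2 * m + 2) {b : ℝ} {β ψ τ : ℝ → ℝ} (hT : Tm b β ψ τ)
    {J₀ : Mat n} {L : ℕ} {W : Type} [Fintype W] [DecidableEq W] {d : W → ℕ} {Y : W → Pl n}
    {μ : W → ℝ} (h : HB J₀ L d Y μ) {J : Fin N → Mat n} (hJ : ∀ k, IsCx (J k))
    {c : ℝ → Fin N → ℝ} (hc : ContDiff ℝ ∞ c) (hs : ∀ t, Sgl (c t)) (h0 : ∀ t ≤ 0, c t = 0)
    (B : Bg) (hB₀ : B.β₀ = 2 * m) (hB : ∀ t, B.β t = 2 * m * β t) {u p : ℝ → W → ℝ}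
    (hsol : B.Sol d 0
      (fun t => Q10 m B.β₀ d (fun k => matP d Y (XA (J k) ∘ₗ XA (J k))) (c t)) univ u p)
    (hm : B.xm d u p 0 = 0) :
    IsHarmonicOn (radM ψ (c ∘ τ) (H10 m J)) univ (fn10 τ d Y u) ∧
      ∀ x : E n, ‖x‖ ≤ 1 → fn10 τ d Y u x = ev (∑ i, u 0 i • Y i) x := by
  have hd1 : ∀ i, 1 ≤ d i := fun i => le_trans one_le_two (h.deg i).1
  have hhom : ∀ i, (Y i).IsHomogeneous (d i) := fun i => (h.mem i).1
  have hck : ∀ k, ContDiff ℝ ∞ fun t => c t k := fun k => contDiff_pi.1 hc k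
  have hQs : ∀ i j, ContDiff ℝ ∞ fun t =>
      Q10 m B.β₀ d (fun k => matP d Y (XA (J k) ∘ₗ XA (J k))) (c t) i j := by
    intro i j
    simp only [Q10, Matrix.add_apply, Matrix.sum_apply, Matrix.smul_apply, smul_eq_mul]
    exact ContDiff.sum fun k _ => (((hck k).exp.sub contDiff_const).mul contDiff_const).add
      (((hck k).exp.sub (contDiff_const.mul (hck k)).neg.exp).mul contDiff_const)
  obtain ⟨hu, hp⟩ := hsol.contDiff (fun i j => contDiff_const) hQs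
  have hball : ∀ x : E n, ‖x‖ ≤ 1 → fn10 τ d Y u x = ev (∑ i, u 0 i • Y i) x := by
    intro x hx
    rw [ev_sum, fn10]
    refine Finset.sum_congr rfl fun i _ => ?_
    rw [ev_smul]
    by_cases hx0 : x = 0
    · have h1 := ev_smul_of_isHomogeneous (hhom i) 0 x
      rw [zero_smul, zero_pow (by linarith [hd1 i]), zero_mul] at h1
      rw [hx0, h1, mul_zero, mul_zero]
    · have hr : 0 < ‖x‖ := norm_pos_iff.2 hx0
      have h1 := (hsol.mono (subset_univ (Iic 0))).of_nonpos hd1 (fun _ _ => rfl)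
        (fun t ht => by simp only [h0 t ht, TenLap_Q10_zero]) hm (Real.log_nonpos hr.le hx) i
      rw [hT.τ_eq _ hr hx, h1, Real.exp_nat_mul, Real.exp_log hr]
      field_simp
  have hnear : ∀ x : E n, ‖x‖ < 1 → fn10 τ d Y u =ᶠ[𝓝 x] ev (∑ i, u 0 i • Y i) := fun x hx => by
    filter_upwards [(isOpen_lt continuous_norm continuous_const).mem_nhds hx] with y hy
    exact hball y (le_of_lt hy)
  have hτd : ∀ r, 0 < r → DifferentiableAt ℝ τ r := fun r hr => (hT.dτ r hr).differentiableAt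
  have hψd : ∀ r, 0 < r → DifferentiableAt ℝ ψ r := fun r hr => (hT.dψ r hr).differentiableAt
  have hud : ∀ i r, 0 < r → HasDerivAt (fun r => u (τ r) i) (p (τ r) i * (ψ r)⁻¹) r := by
    intro i r hr
    have h1 := hasDerivAt_pi.1 (hsol.du (τ r) (mem_univ _)) i
    simp only [Pi.zero_apply, Matrix.zero_mulVec, add_zero] at h1
    exact h1.comp r (hT.dτ r hr)
  have hwd : ∀ i r, 0 < r → HasDerivAt (fun r => u (τ r) i / r ^ d i)
      (p (τ r) i / (ψ r * r ^ d i) - d i * u (τ r) i / r ^ (d i + 1)) r := by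
    intro i r hr
    refine ((hud i r hr).div (hasDerivAt_pow (d i) r) (pow_ne_zero _ hr.ne')).congr_deriv ?_
    obtain ⟨l, hl⟩ : ∃ l, d i = l + 1 := ⟨d i - 1, by have := hd1 i; omega⟩
    have := (TenLap_psi_pos hT hr).ne'
    have := hr.ne'
    rw [hl, Nat.add_sub_cancel]
    field_simp
    ring
  have hcd : ∀ k r, 0 < r → DifferentiableAt ℝ (fun r => c (τ r) k) r := fun k r hr =>
    (((hck k).differentiable (by simp)) (τ r)).comp r (hτd r hr)
  refine ⟨⟨fun x _ => ContDiffAt.contDiffWithinAt ?_, fun x _ => ?_⟩, hball⟩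
  · by_cases hx : x = 0
    · exact (contDiff_ev _).contDiffAt.congr_of_eventuallyEq (hnear x (by simp [hx]))
    · have hr : 0 < ‖x‖ := norm_pos_iff.2 hx
      refine ContDiffAt.sum fun i _ => ContDiffAt.mul (ContDiffAt.div ?_
        ((contDiffAt_norm ℝ hx).pow _) (pow_ne_zero _ hr.ne')) (contDiff_ev _).contDiffAt
      exact (contDiff_pi.1 hu i).contDiffAt.comp x (family_curve_smooth hT.τ_smooth hx)
  by_cases hx : x = 0
  · have hx1 : ‖x‖ < 1 := by simp [hx]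
    rw [laplace_flat]
    · have hP : (∑ i, u 0 i • Y i) ∈ LinearMap.ker (lapP : Pl n →ₗ[ℝ] Pl n) :=
        Submodule.sum_mem _ fun i _ => Submodule.smul_mem _ _ (h.mem i).2
      have e : ∀ i, pderiv i (pderiv i (fn10 τ d Y u)) x =
          ev (MvPolynomial.pderiv i (MvPolynomial.pderiv i (∑ i, u 0 i • Y i))) x := by
        intro i
        have h1 : pderiv i (fn10 τ d Y u) =ᶠ[𝓝 x]
            ev (MvPolynomial.pderiv i (∑ i, u 0 i • Y i)) := by
          filter_upwards [(hnear x hx1).fderiv (𝕜 := ℝ)] with y hy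
          rw [← pderiv_ev, pderiv, hy, pderiv]
        rw [← pderiv_ev, pderiv, h1.fderiv_eq, pderiv]
      simp only [e]
      rw [← ev_sum, ← lapP_apply, LinearMap.mem_ker.1 hP]
      simp [ev]
    · filter_upwards [(isOpen_lt continuous_norm continuous_const).mem_nhds hx1] with y hy
      by_cases hy0 : y = 0
      · simp [radM, hy0]
      · have hr : 0 < ‖y‖ := norm_pos_iff.2 hy0
        have hy1 : ‖y‖ ≤ 1 := le_of_lt hy
        simp only [radM, if_neg hy0, Function.comp_apply, hT.ψ_eq _ hr hy1, hT.τ_eq _ hr hy1,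
          h0 _ (Real.log_nonpos hr.le hy1), H10_zero, div_self hr.ne', one_pow, one_smul]
        abel
  have hr : 0 < ‖x‖ := norm_pos_iff.2 hx
  have hψ := TenLap_psi_pos hT hr
  set A : W → ℝ → ℝ := fun i r => ψ r ^ (2 * m) * p (τ r) i / r ^ (2 * m + 2 + d i) with hA
  set κ : ℝ → ℝ := fun r => ψ r ^ (2 * m) / (ψ r * r ^ (2 * m + 1)) with hκ
  set Bf : W → ℝ → ℝ := fun i r =>
    κ r * r ^ 2 * (1 + ∑ k, (Real.exp (c (τ r) k) - 1)) * (u (τ r) i / r ^ d i) with hBf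
  set Ef : W → Fin N → ℝ → ℝ := fun i k r =>
    κ r * (Real.exp (-(2 * m * c (τ r) k)) - Real.exp (c (τ r) k)) * (u (τ r) i / r ^ d i)
    with hEf
  have hV : ∀ᶠ y in 𝓝 x, Real.sqrt (radM ψ (c ∘ τ) (H10 m J) y).det •
      mv (radM ψ (c ∘ τ) (H10 m J) y)⁻¹ (grd (fn10 τ d Y u) y) =
      ∑ i, ((A i ‖y‖ * ev (Y i) y) • y
        + Bf i ‖y‖ • (grd (ev (Y i)) y + (-(d i : ℝ) / ‖y‖ ^ 2 * ev (Y i) y) • y)
        + ∑ k, (Ef i k ‖y‖ * ev (XA (J k) (Y i)) y) • mv (J k) y) := by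
    filter_upwards [isOpen_ne.mem_nhds hx] with y hy
    have hy' : 0 < ‖y‖ := norm_pos_iff.2 hy
    have hψy := TenLap_psi_pos hT hy'
    have e1 : radM ψ (c ∘ τ) (H10 m J) y = cone (ψ ‖y‖ / ‖y‖) (H10 m J (c (τ ‖y‖))) y := by
      simp only [radM, if_neg hy, cone, Function.comp_apply]
    obtain ⟨e2, e3⟩ := TenLap_metric hn hJ (hs (τ ‖y‖)) hy (div_pos hψy hy')
    have e4 : grd (fn10 τ d Y u) y = ∑ i, ((u (τ ‖y‖) i / ‖y‖ ^ d i) • grd (ev (Y i)) y
        + (ev (Y i) y * ((p (τ ‖y‖) i / (ψ ‖y‖ * ‖y‖ ^ d i)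
          - d i * u (τ ‖y‖) i / ‖y‖ ^ (d i + 1)) / ‖y‖)) • y) := by
      refine ext_inner_right ℝ fun v => ?_
      have h1 := fun i => TenLap_fderiv hy (hwd i _ hy') (Y i)
      have h2 : fderiv ℝ (fn10 τ d Y u) y =
          ∑ i, fderiv ℝ (fun y : E n => u (τ ‖y‖) i / ‖y‖ ^ d i * ev (Y i) y) y :=
        fderiv_fun_sum fun i _ => (h1 i).1
      rw [← fderiv_eq_inner_grd, h2, _root_.sum_apply, sum_inner]
      refine Finset.sum_congr rfl fun i _ => ?_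
      rw [(h1 i).2, inner_add_left, real_inner_smul_left, real_inner_smul_left,
        fderiv_eq_inner_grd]
      ring
    rw [e1, e2, e3, e4, TenLap_mv_sum', Finset.smul_sum]
    exact Finset.sum_congr rfl fun i _ => TenLap_field m hJ _ hy hψy (hhom i) _ _
  have hκd : DifferentiableAt ℝ κ ‖x‖ :=
    ((hψd _ hr).pow _).div ((hψd _ hr).mul (differentiableAt_pow _)) (by positivity)
  have hBd : ∀ i, DifferentiableAt ℝ (Bf i) ‖x‖ := fun i =>
    ((hκd.mul (differentiableAt_pow _)).mul ((differentiableAt_const _).add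
      (DifferentiableAt.fun_sum fun k _ => (hcd k _ hr).exp.sub (differentiableAt_const _)))).mul
      (hwd i _ hr).differentiableAt
  have hEd : ∀ i k, DifferentiableAt ℝ (Ef i k) ‖x‖ := fun i k =>
    (hκd.mul ((((hcd k _ hr).const_mul _).neg.exp).sub (hcd k _ hr).exp)).mul
      (hwd i _ hr).differentiableAt
  have hAd : ∀ i, ∃ a', HasDerivAt (A i) a' ‖x‖ ∧ a' * ‖x‖ + (d i + n) * A i ‖x‖ =
      κ ‖x‖ / ‖x‖ ^ d i * (lam B.β₀ (d i) * u (τ ‖x‖) i +
        (Q10 m B.β₀ d (fun k => matP d Y (XA (J k) ∘ₗ XA (J k))) (c (τ ‖x‖)) *ᵥ u (τ ‖x‖)) i) := by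
    intro i
    have h1 := (hasDerivAt_pi.1 (hsol.dp (τ ‖x‖) (mem_univ _)) i).comp ‖x‖ (hT.dτ _ hr)
    refine ⟨_, ((((hT.dψ _ hr).pow (2 * m)).mul h1).div
      (hasDerivAt_pow (2 * m + 2 + d i) ‖x‖) (pow_ne_zero _ hr.ne')), ?_⟩
    have h2 : ((2 * m : ℕ) : ℝ) * ψ ‖x‖ ^ (2 * m - 1) = 2 * m * ψ ‖x‖ ^ (2 * m) / ψ ‖x‖ := by
      rcases Nat.eq_zero_or_pos m with h0 | h0
      · simp [h0]
      · obtain ⟨l, hl⟩ : ∃ l, 2 * m = l + 1 := ⟨2 * m - 1, by omega⟩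
        push_cast
        rw [hl, Nat.add_sub_cancel]
        field_simp
        ring
    have h3 : 2 * m + 2 + d i - 1 = 2 * m + 1 + d i := by omega
    simp only [hA, hκ, Pi.pow_apply, Pi.mul_apply, Function.comp_apply, h2, h3, hB, hn]
    generalize (Q10 m B.β₀ d (fun k => matP d Y (XA (J k) ∘ₗ XA (J k))) (c (τ ‖x‖))
      *ᵥ u (τ ‖x‖)) i = q
    push_cast
    field_simp
    ring
  choose a' ha' ha'' using hAd
  have h1 := fun i => TenLap_dv_rad hx (ha' i) (hhom i)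
  have h2 := fun i => TenLap_dv_tan hx (hBd i) (h.mem i)
  have h3 := fun i k => TenLap_dv_rot hx (hEd i k) (hJ k) (XA (J k) (Y i))
  have h4 : ∀ i, DifferentiableAt ℝ
      (fun y : E n => ∑ k, (Ef i k ‖y‖ * ev (XA (J k) (Y i)) y) • mv (J k) y) x := fun i =>
    DifferentiableAt.fun_sum fun k _ => (h3 i k).1
  rw [laplace_of_field hV, dv_sum _ fun i _ => ((h1 i).1.fun_add (h2 i).1).fun_add (h4 i)]
  refine mul_eq_zero_of_right _ ?_
  have h5 : ∀ i, dv (fun y : E n => (A i ‖y‖ * ev (Y i) y) • y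
        + Bf i ‖y‖ • (grd (ev (Y i)) y + (-(d i : ℝ) / ‖y‖ ^ 2 * ev (Y i) y) • y)
        + ∑ k, (Ef i k ‖y‖ * ev (XA (J k) (Y i)) y) • mv (J k) y) x =
      ∑ k, κ ‖x‖ * (Real.exp (c (τ ‖x‖) k) - Real.exp (-(2 * m * c (τ ‖x‖) k))) *
        ((∑ j, matP d Y (XA (J k) ∘ₗ XA (J k)) i j * u (τ ‖x‖) j) / ‖x‖ ^ d i * ev (Y i) x
          - u (τ ‖x‖) i / ‖x‖ ^ d i * ev (XA (J k) (XA (J k) (Y i))) x) := by
    intro i
    rw [dv_add ((h1 i).1.fun_add (h2 i).1) (h4 i), dv_add (h1 i).1 (h2 i).1,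
      dv_sum _ fun k _ => (h3 i k).1, (h1 i).2, (h2 i).2, ha'', TenLap_Q10_apply]
    simp only [(h3 i _).2]
    have e2 : ∑ k, κ ‖x‖ * (Real.exp (c (τ ‖x‖) k) - Real.exp (-(2 * m * c (τ ‖x‖) k))) *
        ((∑ j, matP d Y (XA (J k) ∘ₗ XA (J k)) i j * u (τ ‖x‖) j) / ‖x‖ ^ d i * ev (Y i) x
          - u (τ ‖x‖) i / ‖x‖ ^ d i * ev (XA (J k) (XA (J k) (Y i))) x) =
        κ ‖x‖ / ‖x‖ ^ d i * (∑ k, (Real.exp (c (τ ‖x‖) k) - Real.exp (-(2 * m * c (τ ‖x‖) k))) *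
          ∑ j, matP d Y (XA (J k) ∘ₗ XA (J k)) i j * u (τ ‖x‖) j) * ev (Y i) x
        + ∑ k, Ef i k ‖x‖ * ev (XA (J k) (XA (J k) (Y i))) x := by
      rw [Finset.mul_sum, Finset.sum_mul, ← Finset.sum_add_distrib]
      exact Finset.sum_congr rfl fun k _ => by simp only [hEf]; ring
    have hn' : (n : ℝ) = 2 * m + 2 := by rw [hn]; push_cast; ring
    have hr' := hr.ne'
    rw [e2, hn']
    simp only [hBf, lam, hB₀]
    field_simp
    ring
  simp only [h5]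
  rw [Finset.sum_comm]
  refine Finset.sum_eq_zero fun k _ => ?_
  rw [← Finset.mul_sum, Finset.sum_sub_distrib]
  refine mul_eq_zero_of_right _ (sub_eq_zero.2 ?_)
  have h6 : ∀ j, ev (XA (J k) (XA (J k) (Y j))) x =
      ∑ i, matP d Y (XA (J k) ∘ₗ XA (J k)) i j * ev (Y i) x := by
    intro j
    have := h.expand (A := XA (J k) ∘ₗ XA (J k))
      (fun l P hP => XA_mem_Hm (hJ k).1 (XA_mem_Hm (hJ k).1 hP)) j
    rw [LinearMap.comp_apply] at this
    rw [this, ev_sum]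
    simp only [ev_smul]
  simp only [h6, Finset.sum_div, Finset.sum_mul, Finset.mul_sum]
  rw [Finset.sum_comm]
  refine Finset.sum_congr rfl fun j _ => Finset.sum_congr rfl fun i _ => ?_
  by_cases hij : d i = d j
  · rw [hij]; ring
  · rw [blk_matP _ i j hij]; ring

theorem TenLap_tau_nonneg {b : ℝ} {β ψ τ : ℝ → ℝ} (hT : Tm b β ψ τ) {r : ℝ} (hr : 1 ≤ r) :
    0 ≤ τ r := by
  have hm : MonotoneOn τ (Ioi 0) := by
    refine monotoneOn_of_deriv_nonneg (convex_Ioi 0) hT.τ_smooth.continuousOn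
      (fun x hx => ?_) fun x hx => ?_
    · rw [interior_Ioi] at hx
      exact (hT.dτ x hx).differentiableAt.differentiableWithinAt
    · rw [interior_Ioi] at hx
      rw [(hT.dτ x hx).deriv]
      exact (inv_pos.2 (TenLap_psi_pos hT hx)).le
  have h1 := hm (mem_Ioi.2 one_pos) (mem_Ioi.2 (one_pos.trans_le hr)) hr
  rwa [hT.τ_eq 1 one_pos le_rfl, Real.log_one] at h1

theorem growth10 {b : ℝ} {β ψ τ : ℝ → ℝ} (hT : Tm b β ψ τ) {W : Type} [Fintype W] {d : W → ℕ}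
    {Y : W → Pl n} (hY : ∀ i, (Y i).IsHomogeneous (d i)) {u : ℝ → W → ℝ} {k : ℕ} {C : ℝ}
    (hu : ∀ t, 0 ≤ t → n2 (u t) ≤ C * Real.exp (2 * (k * b) * t)) {P : Pl n}
    (h1 : ∀ x : E n, ‖x‖ ≤ 1 → fn10 τ d Y u x = ev P x) :
    ∃ C' : ℝ, ∀ x, |fn10 τ d Y u x| ≤ C' * (1 + ‖x‖) ^ k := by
  classical
  obtain ⟨C₁, hC₁⟩ := (isCompact_closedBall (0 : E n) 1).exists_bound_of_continuousOn
    (contDiff_ev P).continuous.continuousOn
  choose M hM using fun i => (isCompact_closedBall (0 : E n) 1).exists_bound_of_continuousOn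
    (contDiff_ev (Y i)).continuous.continuousOn
  have hC0 : 0 ≤ C₁ := (norm_nonneg _).trans (hC₁ 0 (by simp))
  have hM0 : ∀ i, 0 ≤ M i := fun i => (norm_nonneg _).trans (hM i 0 (by simp))
  have hS0 : 0 ≤ ∑ i, Real.sqrt |C| * M i :=
    Finset.sum_nonneg fun i _ => mul_nonneg (Real.sqrt_nonneg _) (hM0 i)
  refine ⟨C₁ + ∑ i, Real.sqrt |C| * M i, fun x => ?_⟩
  have h2 : 1 ≤ (1 + ‖x‖) ^ k := one_le_pow₀ (by linarith [norm_nonneg x])
  rcases le_total ‖x‖ 1 with hx | hx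
  · rw [h1 x hx]
    have h3 := hC₁ x (mem_closedBall_zero_iff.2 hx)
    rw [Real.norm_eq_abs] at h3
    nlinarith
  · have hr : 0 < ‖x‖ := one_pos.trans_le hx
    have h3 : Real.exp (k * b * τ ‖x‖) ≤ (1 + ‖x‖) ^ k := by
      rw [mul_assoc, Real.exp_nat_mul]
      exact pow_le_pow_left₀ (Real.exp_pos _).le ((hT.τ_le _ hx).trans (by linarith)) k
    have h4 : ∀ i, |u (τ ‖x‖) i| ≤ Real.sqrt |C| * (1 + ‖x‖) ^ k := by
      intro i
      refine le_trans ?_ (mul_le_mul_of_nonneg_left h3 (Real.sqrt_nonneg _))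
      refine abs_le_of_sq_le_sq' ?_ (by positivity) |> abs_le.2
      rw [mul_pow, Real.sq_sqrt (abs_nonneg C), ← Real.exp_nat_mul]
      refine ((sq_le_n2 _ i).trans (hu _ (TenLap_tau_nonneg hT hx))).trans ?_
      rw [show ((2 : ℕ) : ℝ) * (k * b * τ ‖x‖) = 2 * (k * b) * τ ‖x‖ by push_cast; ring]
      exact mul_le_mul_of_nonneg_right (le_abs_self C) (Real.exp_pos _).le
    have h5 : ∀ i, |u (τ ‖x‖) i / ‖x‖ ^ d i * ev (Y i) x| ≤
        Real.sqrt |C| * M i * (1 + ‖x‖) ^ k := by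
      intro i
      have h6 := hM i (‖x‖⁻¹ • x) (by
        rw [mem_closedBall_zero_iff, norm_smul, norm_inv, norm_norm, inv_mul_cancel₀ hr.ne'])
      rw [ev_smul_of_isHomogeneous (hY i), Real.norm_eq_abs] at h6
      rw [div_eq_mul_inv, mul_assoc, ← inv_pow, abs_mul, mul_right_comm]
      exact mul_le_mul (h4 i) h6 (abs_nonneg _) (by positivity)
    calc |fn10 τ d Y u x| ≤ ∑ i, |u (τ ‖x‖) i / ‖x‖ ^ d i * ev (Y i) x| :=
          Finset.abs_sum_le_sum_abs _ _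
      _ ≤ ∑ i, Real.sqrt |C| * M i * (1 + ‖x‖) ^ k := Finset.sum_le_sum fun i _ => h5 i
      _ = (∑ i, Real.sqrt |C| * M i) * (1 + ‖x‖) ^ k := by rw [Finset.sum_mul]
      _ ≤ _ := mul_le_mul_of_nonneg_right (by linarith) (by linarith)

end Crest.Agent.R202
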