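import Crest.Agent.R202.TenDyn
import Crest.Agent.R202.TenLap
import Crest.Agent.R202.TenNum
import Crest.Agent.R202.PBasis
import Crest.Agent.R202.PGen
import Crest.Agent.R202.Metric
import Crest.Agent.R202.OdeRef

/-!
# R202/TenFinal: S0310

`n = 32`, `m = 15`, `k = 4000`, `b = 19971/20000`, `cs = log (401/400)`, `L = 4042`,
`B` from `exists_Bg` with `b' = 30 b`, `β₀ = 30`, friction `30 β`.
`select10`: `S` consists of all `i` with `d i ≤ 3989` and, for `l ∈ [3990,4042]`, `j ∈ T l`, of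
`mult 15 l j` indices with `d i = l`, `μ i = j²` (`HB.card_eig`, `Finset.exists_subset_card_eq`);
`ρ` is the product of the cycles `exists_cycle_on (S ∩ {d = l})`, `l ∈ [3990,4042]` (or one may
define it on the fibres of `d`).  With `y = b k`, `x₀ = y² + b' y = b² k (k+30)`,
`rt_le_tangent` bounds the orbit averages by `abar = y - 1/(2y + b')`; for `d i ≤ 3989`,
`lamq ≤ (401/400) · 3989 · 4019 ≤ x₀ - 1`.  The count telescopes by `HB.card_deg`.
`result10`: `K = {Pi.single 0 s | s ∈ [0,cs]}`; tangential Ricci by `single_H10`, `ric_berger`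
(with `q = e^s ∈ [1, 401/400]`: `32 - 2 q^31 - 30 b²/q ≥ μ` since `q (32 - 2 q^31)` is decreasing,
and `30 (q^62 - b² q^30) ≥ μ`); `lTh = 0`; `C (A/k^11)² · 2 < 31 c/(k+1)^21` for large `k`.
-/

open scoped ContDiff Topology Matrix RealInnerProductSpace
open Set Filter
open Crest.GeometryTopology.CoordMetric

noncomputable section

namespace Crest.Agent.R202

/-- a permutation that is a cycle on a given part of each fibre of `d` -/
theorem TenFinal_perm {W : Type} [Fintype W] [DecidableEq W] (d : W → ℕ) (s : ℕ → Finset W)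
    (hs : ∀ l, ∀ i ∈ s l, d i = l) :
    ∃ ρ : Equiv.Perm W, (∀ i, d (ρ i) = d i) ∧ (∀ i, ρ i ∈ s (d i) ↔ i ∈ s (d i)) ∧
      (∀ i, i ∉ s (d i) → ρ i = i) ∧
      ∀ i, i ∈ s (d i) → (ρ ^ (s (d i)).card) i = i ∧
        ∀ a : W → ℝ, ∑ j ∈ Finset.range (s (d i)).card, a ((ρ ^ j) i) = ∑ j ∈ s (d i), a j := by
  choose σ hσ0 hσ using fun l => exists_cycle_on (s l)
  have hmem : ∀ l i, σ l i ∈ s l ↔ i ∈ s l := by
    intro l i
    constructor
    · intro h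
      by_contra hi
      rw [hσ0 l i hi] at h
      exact hi h
    · intro h
      by_contra hi
      have h1 := (σ l).injective (hσ0 l _ hi)
      rw [h1] at hi
      exact hi h
  have hd : ∀ l i, d (σ l i) = d i := by
    intro l i
    by_cases hi : i ∈ s l
    · rw [hs l _ ((hmem l i).2 hi), hs l _ hi]
    · rw [hσ0 l i hi]
  have hd' : ∀ l i, d ((σ l).symm i) = d i := by
    intro l i
    have := hd l ((σ l).symm i)
    rw [Equiv.apply_symm_apply] at this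
    exact this.symm
  let ρ : Equiv.Perm W :=
    { toFun := fun i => σ (d i) i
      invFun := fun i => (σ (d i)).symm i
      left_inv := fun i => by
        show (σ (d (σ (d i) i))).symm (σ (d i) i) = i
        rw [hd, Equiv.symm_apply_apply]
      right_inv := fun i => by
        show σ (d ((σ (d i)).symm i)) ((σ (d i)).symm i) = i
        rw [hd', Equiv.apply_symm_apply] }
  have hρ : ∀ i, ρ i = σ (d i) i := fun i => rfl
  have hpow : ∀ (j : ℕ) i, (ρ ^ j) i = (σ (d i) ^ j) i ∧ d ((σ (d i) ^ j) i) = d i := by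
    intro j i
    induction j with
    | zero => simp
    | succ j ih =>
      rw [pow_succ', pow_succ', Equiv.Perm.mul_apply, Equiv.Perm.mul_apply, ih.1, hρ, ih.2, hd]
      exact ⟨rfl, ih.2⟩
  refine ⟨ρ, fun i => hd _ _, fun i => hmem _ _, fun i hi => hσ0 _ _ hi, fun i hi => ?_⟩
  obtain ⟨h1, h2⟩ := hσ (d i) i hi
  refine ⟨by rw [(hpow _ i).1, h1], fun a => ?_⟩
  rw [← h2 a]
  exact Finset.sum_congr rfl fun j _ => by rw [(hpow j i).1]

/-- the number of modes of degree at most `N` -/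
theorem TenFinal_count {J : Mat 32} {L : ℕ} {W : Type} [Fintype W] [DecidableEq W] {d : W → ℕ}
    {Y : W → Pl 32} {μ : W → ℝ} (h : HB J L d Y μ) (N : ℕ) (hN : N + 1 ≤ L) :
    Nat.choose (N + 32) 31 + Nat.choose (N + 31) 31
      ≤ (Finset.univ.filter fun i => d i ≤ N + 1).card + 33 := by
  induction N with
  | zero =>
    have h1 : Nat.choose (0 + 32) 31 = 32 := Nat.choose_succ_self_right 31
    have h2 : Nat.choose (0 + 31) 31 = 1 := Nat.choose_self 31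
    omega
  | succ N ih =>
    have h1 := ih (by omega)
    have h2 := h.card_deg (l := N + 2) (by norm_num) (by omega) hN
    have e1 : N + 2 + 32 - 1 = N + 1 + 32 := by omega
    have e2 : N + 2 - 2 + 32 - 1 = N + 31 := by omega
    have e3 : N + 1 + 31 = N + 32 := by omega
    have e4 : 32 - 1 = 31 := rfl
    rw [e1, e2, e4] at h2
    rw [e3]
    have h3 : (Finset.univ.filter fun i => d i ≤ N + 1).card
        + (Finset.univ.filter fun i => d i = N + 2).card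
        = (Finset.univ.filter fun i => d i ≤ N + 1 + 1).card := by
      rw [← Finset.card_union_of_disjoint]
      · congr 1
        ext i
        simp only [Finset.mem_union, Finset.mem_filter, Finset.mem_univ, true_and]
        omega
      · rw [Finset.disjoint_left]
        intro i hi hi'
        simp only [Finset.mem_filter, Finset.mem_univ, true_and] at hi hi'
        omega
    generalize Nat.choose (N + 1 + 32) 31 = a at *
    generalize Nat.choose (N + 32) 31 = b at *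
    generalize Nat.choose (N + 31) 31 = c at *
    omega

theorem TenFinal_lamq (l : ℕ) (μ : ℝ) : lamq 15 30 (Real.log (401 / 400)) l μ
    = (401 / 400) * ((l : ℝ) * (l + 30) - μ) + (400 / 401) ^ 30 * μ := by
  have h1 : Real.exp (Real.log (401 / 400)) = 401 / 400 := Real.exp_log (by norm_num)
  have h2 : Real.exp (-(2 * (15 : ℕ) * Real.log (401 / 400))) = (400 / 401) ^ 30 := by
    have : -(2 * ((15 : ℕ) : ℝ) * Real.log (401 / 400))
        = ((30 : ℕ) : ℝ) * (-Real.log (401 / 400)) := by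
      push_cast
      ring
    rw [this, Real.exp_nat_mul, Real.exp_neg, h1]
    norm_num
  rw [lamq, h1, h2, lam]

/-- the tangent line bound -/
theorem TenFinal_rt {x : ℝ} (hx : 0 ≤ x) : rt (30 * (19971 / 20000)) x
    ≤ (4000 * (19971 / 20000) - 1 / (8030 * (19971 / 20000)))
      + (x - ((19971 / 20000) ^ 2 * (4000 * 4030) - 1)) / (8030 * (19971 / 20000)) := by
  have h := rt_le_tangent (b := 30 * (19971 / 20000)) (y := 4000 * (19971 / 20000)) (by norm_num)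
    hx (by norm_num)
  refine h.trans (le_of_eq ?_)
  ring

/-- the selection for an abstract table -/
theorem TenFinal_select {J : Mat 32} (hJ : IsCx J) {W : Type} [Fintype W] [DecidableEq W]
    {d : W → ℕ} {Y : W → Pl 32} {μ : W → ℝ} {L : ℕ} (h : HB J L d Y μ) (I : Finset ℕ) (N : ℕ)
    (hN : (N : ℝ) ≤ 3989) (hI : ∀ l ∈ I, N < l ∧ 2 ≤ l ∧ l ≤ L) (T : ℕ → Finset ℕ)
    (hT1 : ∀ l, ∀ j ∈ T l, j ≤ l ∧ (l - j) % 2 = 0)
    (hT2 : ∀ l ∈ I, ∑ j ∈ T l, (mult 15 l j : ℝ)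
      * ((401 / 400) * ((l : ℝ) * (l + 30) - (j : ℝ) ^ 2) + (400 / 401) ^ 30 * (j : ℝ) ^ 2
        - ((19971 / 20000) ^ 2 * (4000 * 4030) - 1)) ≤ 0) :
    ∃ (S : Finset W) (ρ : Equiv.Perm W), (∀ i, d (ρ i) = d i) ∧ (∀ i, ρ i ∈ S ↔ i ∈ S) ∧
      (Finset.univ.filter fun i => d i ≤ N).card + ∑ l ∈ I, ∑ j ∈ T l, mult 15 l j = S.card ∧
      ∀ i ∈ S, ∃ k : ℕ, 0 < k ∧ (ρ ^ k) i = i ∧ ∑ j ∈ Finset.range k,
        rt (30 * (19971 / 20000))
          (lamq 15 30 (Real.log (401 / 400)) (d ((ρ ^ j) i)) (μ ((ρ ^ j) i)))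
        ≤ k * (4000 * (19971 / 20000) - 1 / (8030 * (19971 / 20000))) := by
  classical
  have hA : ∀ l j : ℕ, ∃ A : Finset W, (∀ i ∈ A, d i = l ∧ μ i = (j : ℝ) ^ 2 ∧ l ∈ I) ∧
      (l ∈ I → j ∈ T l → A.card = mult 15 l j) := by
    intro l j
    by_cases hl : l ∈ I ∧ j ∈ T l
    · obtain ⟨_, h1, h2⟩ := hI l hl.1
      have h3 := h.card_eig (m := 15) rfl (by norm_num) hJ (l := l) (j := j) h1 h2
        (hT1 l j hl.2).1 (hT1 l j hl.2).2
      obtain ⟨A, hA1, hA2⟩ := Finset.exists_subset_card_eq h3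
      refine ⟨A, fun i hi => ?_, fun _ _ => hA2⟩
      have := (Finset.mem_filter.1 (hA1 hi)).2
      exact ⟨this.1, this.2, hl.1⟩
    · exact ⟨∅, fun i hi => absurd hi (Finset.notMem_empty i), fun h1 h2 => absurd ⟨h1, h2⟩ hl⟩
  choose A hA1 hA2 using hA
  set s : ℕ → Finset W := fun l => (T l).biUnion (A l) with hs
  have hsd : ∀ l, ∀ i ∈ s l, d i = l ∧ l ∈ I := by
    intro l i hi
    obtain ⟨j, _, hj⟩ := Finset.mem_biUnion.1 hi
    exact ⟨(hA1 l j i hj).1, (hA1 l j i hj).2.2⟩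
  have hdisj : ∀ l, (T l : Set ℕ).PairwiseDisjoint (A l) := by
    intro l j _ j' _ hjj
    rw [Function.onFun, Finset.disjoint_left]
    intro i hi hi'
    have h1 := (hA1 l j i hi).2.1
    rw [(hA1 l j' i hi').2.1] at h1
    have h2 : (j' : ℝ) = j :=
      (pow_left_inj₀ (Nat.cast_nonneg _) (Nat.cast_nonneg _) two_ne_zero).1 h1
    exact hjj (Nat.cast_injective h2).symm
  obtain ⟨ρ, hρ1, hρ2, hρ3, hρ4⟩ := TenFinal_perm d s fun l i hi => (hsd l i hi).1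
  have hnn : ∀ i, 0 ≤ lamq 15 30 (Real.log (401 / 400)) (d i) (μ i) := by
    intro i
    rw [TenFinal_lamq]
    obtain ⟨h1, h2⟩ := h.μ_mem i
    have h3 : (0 : ℝ) ≤ d i := Nat.cast_nonneg _
    have h4 : 0 ≤ (d i : ℝ) * (d i + 30) - μ i := by
      have : (d i : ℝ) * (d i + 30) = (d i : ℝ) ^ 2 + 30 * d i := by ring
      linarith
    positivity
  refine ⟨Finset.univ.filter fun i => d i ≤ N ∨ i ∈ s (d i), ρ, hρ1, fun i => ?_, ?_,
    fun i hi => ?_⟩
  · simp only [Finset.mem_filter, Finset.mem_univ, true_and, hρ1, hρ2]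
  · have h3 : ∑ l ∈ I, ∑ j ∈ T l, mult 15 l j = (I.biUnion s).card := by
      rw [Finset.card_biUnion]
      · refine Finset.sum_congr rfl fun l hl => ?_
        rw [hs, Finset.card_biUnion (hdisj l)]
        exact Finset.sum_congr rfl fun j hj => (hA2 l j hl hj).symm
      · intro l _ l' _ hll
        rw [Function.onFun, Finset.disjoint_left]
        intro i hi hi'
        exact hll ((hsd l i hi).1.symm.trans (hsd l' i hi').1)
    rw [h3, ← Finset.card_union_of_disjoint]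
    · congr 1
      ext i
      simp only [Finset.mem_union, Finset.mem_filter, Finset.mem_univ, true_and,
        Finset.mem_biUnion]
      refine or_congr Iff.rfl ⟨?_, fun hi => ⟨d i, (hsd _ i hi).2, hi⟩⟩
      rintro ⟨l, _, hi⟩
      rw [(hsd l i hi).1]
      exact hi
    · rw [Finset.disjoint_left]
      intro i hi hi'
      obtain ⟨l, hl, hil⟩ := Finset.mem_biUnion.1 hi'
      have h4 := (Finset.mem_filter.1 hi).2
      have h5 := (hI l hl).1
      have h6 := (hsd l i hil).1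
      omega
  · by_cases his : i ∈ s (d i)
    · obtain ⟨h1, h2⟩ := hρ4 i his
      refine ⟨(s (d i)).card, Finset.card_pos.2 ⟨i, his⟩, h1, ?_⟩
      rw [h2 fun i => rt (30 * (19971 / 20000)) (lamq 15 30 (Real.log (401 / 400)) (d i) (μ i))]
      have hl := (hsd _ i his).2
      generalize d i = l at hl
      refine (Finset.sum_le_sum fun j _ => TenFinal_rt (hnn j)).trans ?_
      rw [Finset.sum_add_distrib, Finset.sum_const, nsmul_eq_mul, ← Finset.sum_div,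
        add_le_iff_nonpos_right]
      refine div_nonpos_of_nonpos_of_nonneg ?_ (by norm_num)
      refine le_trans (le_of_eq ?_) (hT2 l hl)
      rw [hs, Finset.sum_biUnion (hdisj l)]
      refine Finset.sum_congr rfl fun j hj => ?_
      rw [← hA2 l j hl hj, ← nsmul_eq_mul, ← Finset.sum_const]
      refine Finset.sum_congr rfl fun i' hi' => ?_
      rw [TenFinal_lamq, (hA1 l j i' hi').1, (hA1 l j i' hi').2.1]
    · have hd : d i ≤ N := ((Finset.mem_filter.1 hi).2).resolve_right his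
      refine ⟨1, one_pos, by rw [pow_one, hρ3 i his], ?_⟩
      rw [Finset.sum_range_one, pow_zero, Equiv.Perm.one_apply, Nat.cast_one, one_mul]
      refine (TenFinal_rt (hnn i)).trans ?_
      rw [add_le_iff_nonpos_right]
      refine div_nonpos_of_nonpos_of_nonneg ?_ (by norm_num)
      rw [TenFinal_lamq]
      obtain ⟨h1, h2⟩ := h.μ_mem i
      have h3 : (0 : ℝ) ≤ d i := Nat.cast_nonneg _
      have h4 : (d i : ℝ) ≤ 3989 := (Nat.cast_le.2 hd).trans hN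
      have h5 : ((400 : ℝ) / 401) ^ 30 ≤ 1 := pow_le_one₀ (by norm_num) (by norm_num)
      have h6 : ((400 : ℝ) / 401) ^ 30 * μ i ≤ 1 * μ i := mul_le_mul_of_nonneg_right h5 h1
      have h7 : (d i : ℝ) * (d i + 30) ≤ 3989 * (3989 + 30) :=
        mul_le_mul h4 (by linarith) (by linarith) (by norm_num)
      generalize ((400 : ℝ) / 401) ^ 30 * μ i = z at h6 ⊢
      generalize (d i : ℝ) * (d i + 30) = w at h7 ⊢
      norm_num at h6 h7 ⊢
      linarith

theorem TenFinal_arith {a₁ a₂ a₃ a₄ x y z : ℕ} (h1 : a₁ + a₂ + 33 < a₃ + a₄ + y)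
    (h2 : a₃ + a₄ ≤ x + 33) (h3 : x + y = z) : a₁ + a₂ < z := by
  omega

theorem select10 {J : Mat 32} (hJ : IsCx J) {W : Type} [Fintype W] [DecidableEq W] {d : W → ℕ}
    {Y : W → Pl 32} {μ : W → ℝ} (h : HB J 4042 d Y μ) :
    ∃ (S : Finset W) (ρ : Equiv.Perm W) (abar : ℝ), (∀ i, d (ρ i) = d i) ∧
      (∀ i, ρ i ∈ S ↔ i ∈ S) ∧ 0 ≤ abar ∧ abar < 4000 * (19971 / 20000) ∧
      Nat.choose 4031 4000 + Nat.choose 4030 3999 < S.card ∧
      ∀ i ∈ S, ∃ k : ℕ, 0 < k ∧ (ρ ^ k) i = i ∧ ∑ j ∈ Finset.range k,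
        rt (30 * (19971 / 20000))
          (lamq 15 30 (Real.log (401 / 400)) (d ((ρ ^ j) i)) (μ ((ρ ^ j) i))) ≤ k * abar := by
  obtain ⟨T, hT1, hT2, hT3⟩ := num10
  obtain ⟨S, ρ, h1, h2, h3, h4⟩ := TenFinal_select hJ h (Finset.Icc 3990 4042) (3988 + 1)
    (by norm_num) (fun l hl => by have := Finset.mem_Icc.1 hl; omega) T hT1 hT2
  have h5 := TenFinal_count h 3988 (by norm_num)
  have e1 : 3988 + 32 = 4020 := by norm_num
  have e2 : 3988 + 31 = 4019 := by norm_num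
  rw [e1, e2] at h5
  exact ⟨S, ρ, _, h1, h2, by norm_num, by norm_num, TenFinal_arith hT3 h5 h3, h4⟩

theorem TenFinal_pow_sub {q q₁ : ℝ} (h1 : 1 ≤ q) (h2 : q ≤ q₁) (k : ℕ) :
    k * (q₁ - q) ≤ q₁ ^ k - q ^ k := by
  induction k with
  | zero => simp
  | succ k ih =>
    have h3 : 1 ≤ q ^ k := one_le_pow₀ h1
    have h4 : 0 ≤ q₁ ^ k - q ^ k := le_trans (mul_nonneg (Nat.cast_nonneg _) (by linarith)) ih
    have h5 : q₁ ^ (k + 1) - q ^ (k + 1) = q₁ * (q₁ ^ k - q ^ k) + q ^ k * (q₁ - q) := by ring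
    have h6 : 1 * (q₁ ^ k - q ^ k) ≤ q₁ * (q₁ ^ k - q ^ k) :=
      mul_le_mul_of_nonneg_right (by linarith) h4
    have h7 : 1 * (q₁ - q) ≤ q ^ k * (q₁ - q) := mul_le_mul_of_nonneg_right h3 (by linarith)
    push_cast
    linarith

theorem TenFinal_exp {s : ℝ} (hs : s ∈ Icc 0 (Real.log (401 / 400))) :
    1 ≤ Real.exp s ∧ Real.exp s ≤ 401 / 400 ∧ Real.exp (-s) = (Real.exp s)⁻¹ ∧
      Real.exp (2 * (15 : ℕ) * s) = Real.exp s ^ 30 := by
  refine ⟨Real.one_le_exp hs.1, ?_, Real.exp_neg s, ?_⟩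
  · calc Real.exp s ≤ Real.exp (Real.log (401 / 400)) := Real.exp_le_exp.2 hs.2
      _ = 401 / 400 := Real.exp_log (by norm_num)
  · rw [← Real.exp_nat_mul]
    congr 1
    push_cast
    ring

theorem TenFinal_mem_O {N : ℕ} {s : ℝ} (hs : s ∈ Icc 0 (Real.log (401 / 400))) :
    (Pi.single 0 s : Fin (N + 1) → ℝ) ∈ O10 15 (N + 1) := by
  obtain ⟨h1, h2, h3, h4⟩ := TenFinal_exp hs
  show ∑ k, _ < (1 : ℝ)
  rw [Fin.sum_univ_succ]
  simp only [Pi.single_eq_same, Pi.single_eq_of_ne (Fin.succ_ne_zero _), neg_zero, mul_zero,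
    Real.exp_zero, sub_self, abs_zero, add_zero, Finset.sum_const_zero]
  rw [h3, h4]
  set q := Real.exp s
  have h5 : q⁻¹ ≤ 1 := inv_le_one_of_one_le₀ h1
  have h6 : (401 / 400 : ℝ)⁻¹ ≤ q⁻¹ := inv_anti₀ (by linarith) h2
  have h7 : 1 ≤ q ^ 30 := one_le_pow₀ h1
  have h8 : q ^ 30 ≤ (401 / 400) ^ 30 := pow_le_pow_left₀ (by linarith) h2 30
  have h9 : ((401 : ℝ) / 400) ^ 30 ≤ 3 / 2 := by norm_num
  rw [abs_of_nonpos (by linarith), abs_of_nonneg (by linarith)]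
  norm_num at h6
  linarith

theorem TenFinal_coef {q : ℝ} (h1 : 1 ≤ q) (h2 : q ≤ 401 / 400) :
    1 / 10000 ≤ (32 : ℝ) - 2 * ((19971 / 20000) ^ 2 * q ^ 30) / ((19971 / 20000) ^ 2 * q⁻¹)
      - (32 - 2) * ((19971 / 20000) ^ 2 * q⁻¹) ∧
    1 / 10000 ≤ ((32 : ℝ) - 2) * (((19971 / 20000) ^ 2 * q ^ 30) ^ 2
      / ((19971 / 20000) ^ 2 * q⁻¹) ^ 2 - (19971 / 20000) ^ 2 * q ^ 30) := by
  have hq : 0 < q := by linarith
  constructor
  · have h3 := TenFinal_pow_sub h1 h2 32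
    have h4 : (1 : ℝ) / 2000 ≤ 32 * (401 / 400) - 2 * (401 / 400) ^ 32
        - 30 * (19971 / 20000) ^ 2 := by norm_num
    have h5 : (32 : ℝ) - 2 * ((19971 / 20000) ^ 2 * q ^ 30) / ((19971 / 20000) ^ 2 * q⁻¹)
        - (32 - 2) * ((19971 / 20000) ^ 2 * q⁻¹)
        = (32 * q - 2 * q ^ 32 - 30 * (19971 / 20000) ^ 2) / q := by
      field_simp
      ring
    rw [h5, le_div_iff₀ hq]
    push_cast at h3
    generalize ((401 : ℝ) / 400) ^ 32 = z at h3 h4
    generalize ((19971 : ℝ) / 20000) ^ 2 = w at h4 ⊢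
    linarith
  · have h5 : ((32 : ℝ) - 2) * (((19971 / 20000) ^ 2 * q ^ 30) ^ 2
        / ((19971 / 20000) ^ 2 * q⁻¹) ^ 2 - (19971 / 20000) ^ 2 * q ^ 30)
        = 30 * (q ^ 30 * (q ^ 32 - (19971 / 20000) ^ 2)) := by
      field_simp
      ring
    rw [h5]
    have h6 : 1 ≤ q ^ 30 := one_le_pow₀ h1
    have h7 : 1 ≤ q ^ 32 := one_le_pow₀ h1
    have h8 : ((19971 : ℝ) / 20000) ^ 2 ≤ 1 - 1 / 10000 := by norm_num
    have h9 : 1 * (q ^ 32 - (19971 / 20000) ^ 2) ≤ q ^ 30 * (q ^ 32 - (19971 / 20000) ^ 2) :=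
      mul_le_mul_of_nonneg_right h6 (by linarith)
    linarith

theorem TenFinal_pos {N : ℕ} {J : Fin (N + 1) → Mat 32} (hJ : IsCx (J 0)) {s : ℝ}
    (hs : s ∈ Icc 0 (Real.log (401 / 400))) {x v : E 32} (hx : ‖x‖ = 1) (hv : ⟪x, v⟫ = 0) :
    1 / 10000 * ‖v‖ ^ 2 ≤ ric (cone (19971 / 20000) (H10 15 J (Pi.single 0 s))) x v v := by
  obtain ⟨h1, h2, h3, h4⟩ := TenFinal_exp hs
  rw [single_H10, ric_berger hJ (by positivity) (by positivity) hx hv, h3, h4]
  obtain ⟨h5, h6⟩ := TenFinal_coef h1 h2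
  have h7 : ⟪mv (J 0) x, v⟫ ^ 2 ≤ ‖v‖ ^ 2 := by
    have := abs_real_inner_le_norm (mv (J 0) x) v
    rw [hJ.norm_mv, hx, one_mul] at this
    rw [← sq_abs]
    exact pow_le_pow_left₀ (abs_nonneg _) this 2
  have h8 := mul_le_mul_of_nonneg_right h5 (sub_nonneg.2 h7)
  have h9 := mul_le_mul_of_nonneg_right h6 (sq_nonneg ⟪mv (J 0) x, v⟫)
  have e : ((32 : ℕ) : ℝ) = 32 := by norm_num
  rw [e]
  linarith

theorem TenFinal_large (A C T : ℝ) {ε c : ℝ} (hε : 0 < ε) (hc : 0 < c) :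
    ∃ k₁ : ℕ, ∀ k : ℕ, k₁ ≤ k → 1 ≤ k ∧ T ≤ (k : ℝ) ^ 14 ∧ A / (k : ℝ) ^ 11 ≤ ε ∧
      C * (2 * (A / (k : ℝ) ^ 11) ^ 2) < 31 * (c / ((k : ℝ) + 1) ^ 21) := by
  obtain ⟨k₁, hk₁⟩ := exists_nat_gt (1 + |T| + |A| / ε + 2 ^ 22 * |C| * A ^ 2 / c)
  refine ⟨k₁, fun k hk => ?_⟩
  have hk' : (k₁ : ℝ) ≤ k := Nat.cast_le.2 hk
  have h1 : 0 ≤ |T| := abs_nonneg _
  have h2 : 0 ≤ |A| / ε := by positivity
  have h3 : 0 ≤ 2 ^ 22 * |C| * A ^ 2 / c := by positivity
  have hk1 : (1 : ℝ) ≤ k := by linarith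
  have hk0 : (0 : ℝ) < k := by linarith
  refine ⟨by exact_mod_cast hk1, ?_, ?_, ?_⟩
  · have h4 : (k : ℝ) ≤ (k : ℝ) ^ 14 := le_self_pow₀ hk1 (by norm_num)
    linarith [le_abs_self T]
  · have h4 : (k : ℝ) ≤ (k : ℝ) ^ 11 := le_self_pow₀ hk1 (by norm_num)
    rw [div_le_iff₀ (by positivity)]
    have h5 : |A| / ε ≤ (k : ℝ) ^ 11 := by linarith
    rw [div_le_iff₀ hε] at h5
    linarith [le_abs_self A]
  · have h4 : ((k : ℝ) + 1) ^ 21 ≤ (2 * k) ^ 21 := pow_le_pow_left₀ (by linarith) (by linarith) 21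
    have h5 : 2 ^ 22 * |C| * A ^ 2 / c < k := by linarith
    rw [div_lt_iff₀ hc] at h5
    have h6 : c / (2 * (k : ℝ)) ^ 21 ≤ c / ((k : ℝ) + 1) ^ 21 :=
      div_le_div_of_nonneg_left hc.le (by positivity) h4
    have h7 : C * (2 * (A / (k : ℝ) ^ 11) ^ 2) ≤ |C| * (2 * (A / (k : ℝ) ^ 11) ^ 2) :=
      mul_le_mul_of_nonneg_right (le_abs_self C) (by positivity)
    have h8 : |C| * (2 * (A / (k : ℝ) ^ 11) ^ 2) < c / (2 * (k : ℝ)) ^ 21 := by
      have e1 : |C| * (2 * (A / (k : ℝ) ^ 11) ^ 2)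
          = (2 ^ 22 * |C| * A ^ 2) / (2 ^ 21 * (k : ℝ) ^ 22) := by
        field_simp
      have e2 : c / (2 * (k : ℝ)) ^ 21 = (k * c) / (2 ^ 21 * (k : ℝ) ^ 22) := by
        field_simp
      rw [e1, e2]
      exact div_lt_div_of_pos_right h5 (by positivity)
    have h9 : 0 < c / ((k : ℝ) + 1) ^ 21 := by positivity
    linarith

/-- a polynomial vanishing on the unit ball is zero -/
theorem TenFinal_ball {n : ℕ} {P : Pl n} (h : ∀ x : E n, ‖x‖ ≤ 1 → ev P x = 0) : P = 0 := by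
  have hpos : (0 : ℝ) < 1 / (n + 1) := by positivity
  refine MvPolynomial.funext_set (fun _ => Icc (0 : ℝ) (1 / (n + 1)))
    (fun _ => Set.Icc_infinite hpos) fun x hx => ?_
  rw [map_zero]
  refine h (WithLp.toLp 2 x) ?_
  rw [← sq_le_one_iff₀ (norm_nonneg _), EuclideanSpace.real_norm_sq_eq]
  have h1 : ∀ i, x i ^ 2 ≤ 1 / ((n : ℝ) + 1) := by
    intro i
    obtain ⟨h2, h3⟩ := hx i trivial
    have h4 : 1 / ((n : ℝ) + 1) ≤ 1 := by
      rw [div_le_one (by positivity)]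
      linarith [(Nat.cast_nonneg n : (0 : ℝ) ≤ n)]
    nlinarith
  calc ∑ i, x i ^ 2 ≤ ∑ _i : Fin n, 1 / ((n : ℝ) + 1) := Finset.sum_le_sum fun i _ => h1 i
    _ = n / (n + 1) := by simp [div_eq_mul_inv]
    _ ≤ 1 := by
      rw [div_le_one (by positivity)]
      linarith

theorem TenFinal_indep {n : ℕ} {W κ : Type} [Fintype W] [DecidableEq W] [Fintype κ]
    {Y : W → Pl n} (hY : LinearIndependent ℝ Y) {e : κ → W} (he : Function.Injective e)
    {w : κ → W → ℝ} (hw : ∀ i j, w i j = 0 ↔ j ≠ e i) {f : κ → E n → ℝ}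
    (hf : ∀ i, ∀ x : E n, ‖x‖ ≤ 1 → f i x = ev (∑ j, w i j • Y j) x) : LinearIndependent ℝ f := by
  rw [Fintype.linearIndependent_iff]
  intro a ha i₀
  have h1 : ∑ j, (∑ i, a i * w i j) • Y j = 0 := by
    have e1 : ∑ j, (∑ i, a i * w i j) • Y j = ∑ i, a i • ∑ j, w i j • Y j := by
      simp only [Finset.sum_smul, Finset.smul_sum, smul_smul]
      exact Finset.sum_comm
    rw [e1]
    refine TenFinal_ball fun x hx => ?_
    have h2 := congrFun ha x
    rw [Finset.sum_apply] at h2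
    rw [ev_sum]
    refine Eq.trans (Finset.sum_congr rfl fun i _ => ?_) h2
    rw [ev_smul, ← hf i x hx]
    rfl
  have h2 := Fintype.linearIndependent_iff.1 hY _ h1 (e i₀)
  rw [Finset.sum_eq_single i₀] at h2
  · exact (mul_eq_zero.1 h2).resolve_right fun h3 => (hw _ _).1 h3 rfl
  · intro i _ hi
    rw [(hw i (e i₀)).2 fun h3 => hi (he h3).symm, mul_zero]
  · intro h3
    exact absurd (Finset.mem_univ _) h3

theorem TenFinal_cont {W : Type} [Fintype W] [DecidableEq W] (m : ℕ) (β₀ : ℝ) (d : W → ℕ) {N : ℕ}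
    (G : Fin N → Matrix W W ℝ) {c : ℝ → Fin N → ℝ} (hc : Continuous c) :
    Continuous fun t => Q10 m β₀ d G (c t) := by
  unfold Q10
  refine continuous_finsetSum _ fun k _ => ?_
  have h1 : Continuous fun t => c t k := (continuous_apply k).comp hc
  fun_prop

/-- the metric attached to the output of `dyn10` -/
theorem TenFinal_metric {β ψ τ : ℝ → ℝ} (hT : Tm (19971 / 20000) β ψ τ) {N : ℕ}
    {J : Fin (N + 1) → Mat 32} (hJ : ∀ k, IsCx (J k)) (A : ℝ) :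
    ∃ k₁ : ℕ, ∀ k₀ : ℕ, k₁ ≤ k₀ → ∀ c : ℝ → Fin (N + 1) → ℝ, ContDiff ℝ ∞ c →
      (∀ t ≤ (k₀ : ℝ) ^ 14, c t = 0) → (∀ t, Sgl (c t)) →
      (∀ k, k₀ ≤ k → ∀ t ∈ Icc ((k : ℝ) ^ 14) (((k : ℝ) + 1) ^ 14),
        (∃ s ∈ Icc 0 (Real.log (401 / 400)), ‖c t - Pi.single 0 s‖ ≤ A / (k : ℝ) ^ 11) ∧
        ‖deriv c t‖ ≤ A / (k : ℝ) ^ 11 ∧ ‖deriv (deriv c) t‖ ≤ A / (k : ℝ) ^ 11) →
      GoodM (radM ψ (c ∘ τ) (H10 15 J)) ((19971 / 20000) ^ (32 - 1)) := by
  have hcs : (0 : ℝ) ≤ Real.log (401 / 400) := Real.log_nonneg (by norm_num)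
  set K : Set (Fin (N + 1) → ℝ) :=
    (fun s : ℝ => (Pi.single 0 s : Fin (N + 1) → ℝ)) '' Icc 0 (Real.log (401 / 400)) with hK
  have hKc : IsCompact K := isCompact_Icc.image (continuous_single (A := fun _ : Fin (N + 1) => ℝ) 0)
  have hKO : K ⊆ O10 15 (N + 1) := by
    rintro _ ⟨s, hs, rfl⟩
    exact TenFinal_mem_O hs
  have h0K : (0 : Fin (N + 1) → ℝ) ∈ K := ⟨0, ⟨le_rfl, hcs⟩, Pi.single_zero _⟩
  obtain ⟨ε, hε, C, T, hC, hT1, -, hmain⟩ := metric_main (by norm_num) hT (fam_H10 15 hJ)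
    (fun x _ => H10_zero 15 J x) hKc hKO h0K (μ := 1 / 10000) (by norm_num) (by
      rintro _ ⟨s, hs, rfl⟩ x v hx hv
      exact TenFinal_pos (hJ 0) hs hx hv)
  obtain ⟨c₀, hc₀, hdβ⟩ := hT.dβ_le
  obtain ⟨k₁, hk₁⟩ := TenFinal_large A C T hε hc₀
  refine ⟨k₁, fun k₀ hk₀ c hc h0 hs hb => ?_⟩
  have hl : ∀ x : E 32, x ≠ 0 → (fun s => lTh (H10 15 J) (c s) x) = fun _ => (0 : ℝ) :=
    fun x hx => funext fun s => lTh_H10 (m := 15) rfl hJ (hs s) hx
  refine hmain c hc ((k₀ : ℝ) ^ 14) (hk₁ k₀ hk₀).2.1 h0 (fun t ht => ?_) fun η hη =>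
    ⟨0, fun t _ x hx => ?_⟩
  · obtain ⟨k, hk, htk⟩ := exists_stage ht
    obtain ⟨⟨s, hs1, hs2⟩, h2, h3⟩ := hb k hk t htk
    obtain ⟨h4, h5, h6, h7⟩ := hk₁ k (hk₀.trans hk)
    refine ⟨⟨_, ⟨s, hs1, rfl⟩, hs2.trans h6⟩, h2.trans h6, h3.trans h6, fun x hx => ?_⟩
    have h8 := hdβ (k + 1) (by omega) t (by linarith [htk.1]) (by push_cast; exact htk.2)
    push_cast at h8
    have h9 : ‖deriv c t‖ ^ 2 ≤ (A / (k : ℝ) ^ 11) ^ 2 := pow_le_pow_left₀ (norm_nonneg _) h2 2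
    have h10 : ‖deriv (deriv c) t‖ ^ 2 ≤ (A / (k : ℝ) ^ 11) ^ 2 :=
      pow_le_pow_left₀ (norm_nonneg _) h3 2
    have h11 : C * (‖deriv c t‖ ^ 2 + ‖deriv (deriv c) t‖ ^ 2)
        ≤ C * (2 * (A / (k : ℝ) ^ 11) ^ 2) := mul_le_mul_of_nonneg_left (by linarith) hC
    have e : ((32 : ℕ) : ℝ) = 32 := by norm_num
    rw [hl x hx, deriv_const', deriv_const', e]
    simp only [mul_zero, add_zero]
    linarith
  · rw [lTh_H10 (m := 15) rfl hJ (hs t) hx, abs_zero]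
    exact hη.le

/-- the value at time `0` of the solution with state `(e_i, 0)` -/
theorem TenFinal_init (B : Bg) {W : Type} [Fintype W] [DecidableEq W] {d : W → ℕ}
    (hd : ∀ i, 1 ≤ d i) {u p : ℝ → W → ℝ} {i : W} (h : B.st d u p 0 = (Pi.single i 1, 0)) (j : W) :
    u 0 j = 0 ↔ j ≠ i := by
  have h1 := B.sqrt_mul_u (d j) 0 (u 0 j) (p 0 j)
  have h2 : B.xp1 (d j) 0 (u 0 j) (p 0 j) = (Pi.single i 1 : W → ℝ) j :=
    congrFun (congrArg Prod.fst h) j
  have h3 : B.xm1 (d j) 0 (u 0 j) (p 0 j) = 0 := congrFun (congrArg Prod.snd h) j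
  have h4 : Real.sqrt (d j) ≠ 0 := by
    have : (0 : ℝ) < d j := Nat.cast_pos.2 (hd j)
    positivity
  rw [h2, h3, add_zero] at h1
  constructor
  · rintro h5 rfl
    rw [h5, mul_zero, Pi.single_eq_same] at h1
    exact zero_ne_one h1
  · intro h5
    rw [Pi.single_eq_of_ne h5] at h1
    exact (mul_eq_zero.1 h1).resolve_left h4

/-- `result10` with the count left abstract -/
theorem TenFinal_main : ∃ g : MetricField 32, GoodM g ((19971 / 20000) ^ (32 - 1)) ∧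
    ∃ m : ℕ, Nat.choose 4031 4000 + Nat.choose 4030 3999 < m ∧
      ∃ f : Fin m → E 32 → ℝ, LinearIndependent ℝ f ∧ ∀ i, IsHarmonicOn g Set.univ (f i) ∧
        ∃ C : ℝ, ∀ x, |f i x| ≤ C * (1 + ‖x‖) ^ 4000 := by
  obtain ⟨J₀, hJ₀⟩ := exists_isCx (n := 32) (by decide)
  obtain ⟨W, _, _, d, Y, μ, h⟩ := exists_HB hJ₀ 4042
  obtain ⟨S, ρ, abar, hρ, hS, ha0, ha1, hcard, horb⟩ := select10 hJ₀ h
  generalize Nat.choose 4031 4000 + Nat.choose 4030 3999 = M at hcard ⊢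
  obtain ⟨β, ψ, τ, hT⟩ := exists_Tm (b := 19971 / 20000) (by norm_num) (by norm_num)
  obtain ⟨B, hB1, hB2, hB3⟩ := exists_Bg (b := 30 * (19971 / 20000)) (β₀ := 30)
    (β := fun t => 30 * β t) (by norm_num) (by norm_num) (contDiff_const.mul hT.β_smooth)
    (fun t ht => by rw [hT.β_one t ht, mul_one])
    (fun s t hst => mul_le_mul_of_nonneg_left (hT.β_anti hst) (by norm_num))
    (fun t => mul_le_mul_of_nonneg_left (hT.β_ge t) (by norm_num)) (hT.β_lim.const_mul 30)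
  have hd : ∀ i, 1 ≤ d i := fun i => le_trans (by norm_num) (h.deg i).1
  have hcs : (0 : ℝ) ≤ Real.log (401 / 400) := Real.log_nonneg (by norm_num)
  have hμ : ∀ i, 0 ≤ μ i ∧ μ i ≤ lam B.β₀ (d i) := by
    intro i
    refine ⟨(h.μ_mem i).1, (h.μ_mem i).2.trans ?_⟩
    have h3 : (0 : ℝ) ≤ d i := Nat.cast_nonneg _
    have : lam B.β₀ (d i) = (d i : ℝ) ^ 2 + 30 * d i := by rw [lam, hB2]; ring
    linarith
  have hgen := gen10 (by norm_num) (by decide) h
    (fun l => (2 * ((15 : ℕ) : ℝ) + 1) / (2 * B.a l + B.b))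
    (fun l => lam B.β₀ l / (2 * B.a l + B.b)) fun i => by
      have h1 : (0 : ℝ) ≤ B.a (d i) := (Nat.cast_nonneg _).trans (B.le_a _)
      have h2 := B.b_pos
      positivity
  obtain ⟨K, G, A, hG0, hG, hdyn⟩ := dyn10 B hd 15 hμ
    (𝒢 := {G | ∃ J', IsCx J' ∧ G = matP d Y (XA J' ∘ₗ XA J')})
    (by rintro _ ⟨J', -, rfl⟩; exact blk_matP _)
    (by
      convert hgen using 1
      ext X
      constructor
      · rintro ⟨_, ⟨J', h1, rfl⟩, h2⟩
        exact ⟨J', h1, h2⟩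
      · rintro ⟨J', h1, h2⟩
        exact ⟨_, ⟨J', h1, rfl⟩, h2⟩)
    ρ hρ hcs (S := (S : Set W)) hS ha0 (by rw [hB1, hB2]; exact horb)
  choose J' hJ' hGJ' using hG
  obtain ⟨J, hJ, rfl⟩ : ∃ J : Fin (K + 1) → Mat 32, (∀ k, IsCx (J k)) ∧
      G = fun k => matP d Y (XA (J k) ∘ₗ XA (J k)) := by
    refine ⟨Fin.cons J₀ J', fun k => ?_, funext fun k => ?_⟩
    · exact Fin.cases hJ₀ hJ' k
    · refine Fin.cases ?_ (fun j => ?_) k
      · rw [hG0, Fin.cons_zero, h.matP_self]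
      · rw [hGJ', Fin.cons_succ]
  obtain ⟨k₁, hk₁⟩ := TenFinal_metric hT hJ A
  obtain ⟨k₀, hk₀, c, hc, h0, hs, hb, hgr⟩ := hdyn k₁
  have h0' : ∀ t ≤ 0, c t = 0 := fun t ht => h0 t (ht.trans (by positivity))
  have hsol := fun i : W => B.exists_sol hd (R := 0) continuous_const
    (TenFinal_cont 15 B.β₀ d (fun k => matP d Y (XA (J k) ∘ₗ XA (J k))) hc.continuous) 0
    (Pi.single i 1, 0)
  choose u p hup hst using hsol
  have hharm := fun i : W => harm10 (m := 15) rfl hT h hJ hc hs h0' B (by rw [hB2]; norm_num)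
    (fun t => by rw [hB3]; norm_num) (hup i) (congrArg Prod.snd (hst i))
  refine ⟨_, hk₁ k₀ hk₀ c hc h0 hs hb, S.card, hcard,
    fun i => fn10 τ d Y (u (S.equivFin.symm i)), ?_, fun i => ⟨(hharm _).1, ?_⟩⟩
  · exact TenFinal_indep h.linearIndependent (e := fun i => (S.equivFin.symm i : W))
      (Subtype.val_injective.comp S.equivFin.symm.injective)
      (fun i j => TenFinal_init B hd (hst _) j) fun i => (hharm _).2
  · obtain ⟨C, hC⟩ := hgr _ (S.equivFin.symm i).2 _ _ (hup _) (hst _)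
      (4000 * (19971 / 20000) - abar) (by linarith)
    refine growth10 hT (fun j => (h.mem j).1) (C := C) (fun t ht => ?_) (hharm _).2
    refine (hC t ht).trans (le_of_eq ?_)
    congr 2
    push_cast
    ring

theorem result10 :
    ∃ n : ℕ, Even n ∧ 8 ≤ n ∧ ∃ k : ℕ, 2 ≤ k ∧ ∃ g : MetricField n,
      IsRiemannianOn g Set.univ ∧ IsCompleteOn g Set.univ ∧
      (∃ r : ℝ, 0 < r ∧ ∀ x : EuclideanSpace ℝ (Fin n), ‖x‖ < r → g x = 1) ∧
      RicciNonnegOn g Set.univ ∧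
      (∃ v : ℝ, 0 < v ∧ v < 1 ∧ HasAsymptoticVolumeRatio g v) ∧
      ∃ m : ℕ, Nat.choose (n + k - 1) k + Nat.choose (n + k - 2) (k - 1) < m ∧
        ∃ f : Fin m → EuclideanSpace ℝ (Fin n) → ℝ,
          LinearIndependent ℝ f ∧ ∀ i, IsHarmonicOn g Set.univ (f i) ∧
            ∃ C : ℝ, ∀ x, abs (f i x) ≤ C * (1 + riemDist g Set.univ 0 x) ^ k := by
  obtain ⟨g, hg, m, hm, f, hf1, hf2⟩ := TenFinal_main
  refine ⟨32, by decide, by norm_num, 4000, by norm_num, g, hg.riem, hg.compl,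
    ⟨1, one_pos, hg.eucl⟩, hg.nonneg, ⟨_, by positivity, ?_, hg.avr⟩, m, ?_, f, hf1, fun i => ?_⟩
  · exact pow_lt_one₀ (by norm_num) (by norm_num) (by norm_num)
  · have e1 : 32 + 4000 - 1 = 4031 := by norm_num
    have e2 : 32 + 4000 - 2 = 4030 := by norm_num
    have e3 : 4000 - 1 = 3999 := by norm_num
    rw [e1, e2, e3]
    exact hm
  · obtain ⟨h1, C, h2⟩ := hf2 i
    exact ⟨h1, C, fun x => by rw [hg.dist]; exact h2 x⟩

end Crest.Agent.R202
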