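import Crest.Agent.R202.PDefs
import Crest.Agent.R202.Ctrl
import Crest.Agent.R202.OdeSharp
import Crest.Agent.R202.OdeHold
import Crest.Agent.Lib.Brouwer.Basic

/-!
# R202/TenStep: one stage of the construction for S0310

Stage `k`: `a = k^14 + 1`, `len = k^11`, `δ ~ k^(-11)`.  Gadget on `[a, a₁]`, `a₁ = a + K len`,
plateau on `[a₁, a₂]`, `a₂ = (k+1)^14 - k - 1`, free on `[a₂, (k+1)^14 + 1]`.
For `y` let `Ĝ y`, `Ê y` be the matrices with columns `e^{-Ip (d c) a a₁} (xp, xm)(a₁)` of the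
solution starting at `(e_c, F e_c)` with parameters `θ y` (continuous in `y`: `exists_scat` with
`U = ∅`, or `exists_lin`; block diagonal by `Sol.msk`).  `sharp` (with `e = id`,
`Z = Σ bmp • (θ j/len) • X j`, `G` from `exists_slot_flow`, `Q/(bp - bm) = Z + o(δ)` by `Bg.lim` and
`e^c - 1 = c + O(c²)`) gives `Ĝ y = e^{-s y} y + small`, `Ê y = O(√δ + ε)`.  On the plateau `Q` is
diagonal, `hold` (with `t₂' = t₂ = a₂`, `[s₁,s₂] = [a₁ + len, a₂ - len]`,
`e^{-2m cs} λ ≤ λ + q ≤ e^{cs} λ`) gives `g, k, m, e` for each mode, independent of `y`.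
Brouwer for `y ↦ P - (e^{s y} (Ĝ y + diag k * Ê y) - y)` on the box gives
`Ĝ + diag k Ê = e^{-s} P`.  After the free part (`Sol.free`) the column `c` is
`f c • (e_{ρ c}, F' e_{ρ c})`, `f c = e^{Ip} g e^{Ip} e^{-s} ε c ≠ 0`, `F' = O(e^{-k})`.
-/

open scoped ContDiff Topology Matrix
open Set Filter

noncomputable section

namespace Crest.Agent.R202

/-- the parameters during stage `k` -/
def cst {K : ℕ} (θ : Fin K → ℝ) (cs : ℝ) (k : ℕ) (t : ℝ) : Fin (K + 1) → ℝ :=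
  slots ((k : ℝ) ^ 14 + 1) ((k : ℝ) ^ 11)
      (fun j : Fin K => (Pi.single j.succ (θ j / (k : ℝ) ^ 11) : Fin (K + 1) → ℝ)) t
    + Pi.single 0 (cs * plat ((k : ℝ) ^ 14 + 1 + K * (k : ℝ) ^ 11) (((k : ℝ) + 1) ^ 14 - k - 1)
      ((k : ℝ) ^ 11) t)

/-- the eigenvalue on the plateau -/
def lamq (m : ℕ) (β₀ cs : ℝ) (l : ℕ) (μ : ℝ) : ℝ :=
  Real.exp cs * (lam β₀ l - μ) + Real.exp (-(2 * m * cs)) * μ

section aux

variable {W : Type} [Fintype W] [DecidableEq W]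

theorem ts_cst_zero {K : ℕ} (θ : Fin K → ℝ) (cs : ℝ) (k : ℕ) (t : ℝ) :
    cst θ cs k t 0 = cs * plat ((k : ℝ) ^ 14 + 1 + K * (k : ℝ) ^ 11) (((k : ℝ) + 1) ^ 14 - k - 1)
      ((k : ℝ) ^ 11) t := by
  simp [cst, slots, Finset.sum_apply]

theorem ts_cst_succ {K : ℕ} (θ : Fin K → ℝ) (cs : ℝ) (k : ℕ) (t : ℝ) (j : Fin K) :
    cst θ cs k t j.succ
      = bmp ((t - ((k : ℝ) ^ 14 + 1)) / (k : ℝ) ^ 11 - (j : ℕ)) * (θ j / (k : ℝ) ^ 11) := by
  simp [cst, slots, Finset.sum_apply, Pi.single_apply]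

theorem ts_Q_apply (m : ℕ) (β₀ : ℝ) (d : W → ℕ) {K : ℕ} (G : Fin (K + 1) → Matrix W W ℝ)
    (c : Fin (K + 1) → ℝ) (i i' : W) :
    Q10 m β₀ d G c i i' = ((Real.exp (c 0) - 1) * Matrix.diagonal (fun i => lam β₀ (d i)) i i'
      + (Real.exp (c 0) - Real.exp (-(2 * m * c 0))) * G 0 i i')
      + ∑ j : Fin K, ((Real.exp (c j.succ) - 1) * Matrix.diagonal (fun i => lam β₀ (d i)) i i'
        + (Real.exp (c j.succ) - Real.exp (-(2 * m * c j.succ))) * G j.succ i i') := by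
  rw [Q10, Matrix.sum_apply, Fin.sum_univ_succ]
  simp only [Matrix.add_apply, Matrix.smul_apply, smul_eq_mul]

theorem ts_Q_blk (m : ℕ) (β₀ : ℝ) {d : W → ℕ} {K : ℕ} {G : Fin (K + 1) → Matrix W W ℝ}
    (hG : ∀ k, Blk d (G k)) (c : Fin (K + 1) → ℝ) : Blk d (Q10 m β₀ d G c) := by
  intro i i' h
  have hne : i ≠ i' := fun e => h (by rw [e])
  rw [ts_Q_apply]
  simp [Matrix.diagonal_apply_ne _ hne, hG _ i i' h]

theorem ts_Q_cont (m : ℕ) (β₀ : ℝ) (d : W → ℕ) {K : ℕ} (G : Fin (K + 1) → Matrix W W ℝ)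
    (cs : ℝ) (k : ℕ) :
    Continuous fun z : (Fin K → ℝ) × ℝ => Q10 m β₀ d G (cst z.1 cs k z.2) := by
  have h1 : Continuous (Q10 m β₀ d G) := by
    unfold Q10
    fun_prop
  refine h1.comp (continuous_pi fun j => ?_)
  have hb : Continuous bmp := bmp_smooth.continuous
  refine Fin.cases ?_ (fun j => ?_) j
  · simp only [ts_cst_zero]
    exact continuous_const.mul ((plat_smooth _ _ _).continuous.comp continuous_snd)
  · simp only [ts_cst_succ]
    fun_prop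

theorem ts_Q_cont' (m : ℕ) (β₀ : ℝ) (d : W → ℕ) {K : ℕ} (G : Fin (K + 1) → Matrix W W ℝ)
    (cs : ℝ) (k : ℕ) (θ : Fin K → ℝ) : Continuous fun t => Q10 m β₀ d G (cst θ cs k t) := by
  have h := (ts_Q_cont m β₀ d G cs k).comp (Continuous.prodMk_right (Y := ℝ) θ)
  simpa only [Function.comp_def] using h

theorem ts_pb {d : W → ℕ} (hd : ∀ i, 1 ≤ d i) {Q : Matrix W W ℝ} {M δ : ℝ} (hM : 0 ≤ M)
    (hQ : ∀ i j, |Q i j| ≤ M) (hδ : Fintype.card W * M ≤ δ) : Pb d δ 0 Q := by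
  have hδ0 : 0 ≤ δ := le_trans (by positivity) hδ
  refine ⟨fun x y => ?_, fun x y => ?_⟩
  · have := n2_nonneg x
    have := n2_nonneg y
    simp only [Matrix.zero_mulVec, dotProduct_zero, abs_zero, mul_zero]
    positivity
  · have hnV : ∀ x : W → ℝ, n2 x ≤ nV d x := fun x => Finset.sum_le_sum fun i _ => by
      have h1 : (1 : ℝ) ≤ d i := by exact_mod_cast hd i
      nlinarith [sq_nonneg (x i), mul_nonneg (sq_nonneg (x i)) (by nlinarith : (0 : ℝ) ≤ (d i : ℝ) ^ 2 - 1)]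
    have h1 : 2 * |x ⬝ᵥ Q *ᵥ y| ≤ ∑ i, ∑ j, M * (x i ^ 2 + y j ^ 2) := by
      simp only [dotProduct, Matrix.mulVec, Finset.mul_sum]
      refine (mul_le_mul_of_nonneg_left (Finset.abs_sum_le_sum_abs _ _) (by norm_num)).trans ?_
      rw [Finset.mul_sum]
      refine Finset.sum_le_sum fun i _ => ?_
      refine (mul_le_mul_of_nonneg_left (Finset.abs_sum_le_sum_abs _ _) (by norm_num)).trans ?_
      rw [Finset.mul_sum]
      refine Finset.sum_le_sum fun j _ => ?_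
      rw [abs_mul, abs_mul, ← sq_abs (x i), ← sq_abs (y j)]
      have h2 := mul_le_mul_of_nonneg_right (hQ i j) (mul_nonneg (abs_nonneg (x i)) (abs_nonneg (y j)))
      nlinarith [mul_nonneg hM (sq_nonneg (|x i| - |y j|))]
    have h2 : ∑ i, ∑ j, M * (x i ^ 2 + y j ^ 2) = Fintype.card W * M * (n2 x + n2 y) := by
      simp only [mul_add, Finset.sum_add_distrib, Finset.sum_const, Finset.card_univ, nsmul_eq_mul,
        n2, ← Finset.mul_sum]
      ring
    have := n2_nonneg x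
    have := n2_nonneg y
    calc _ ≤ Fintype.card W * M * (n2 x + n2 y) := h1.trans h2.le
      _ ≤ δ * (n2 x + n2 y) := mul_le_mul_of_nonneg_right hδ (by positivity)
      _ ≤ _ := mul_le_mul_of_nonneg_left (add_le_add (hnV x) (hnV y)) hδ0

theorem ts_flow (B : Bg) {d : W → ℕ} (hd : ∀ i, 1 ≤ d i) {Y : Type} [TopologicalSpace Y]
    {Q : Y → ℝ → Matrix W W ℝ} (hQ : Continuous fun z : Y × ℝ => Q z.1 z.2) {t₁ t₂ : ℝ}
    (ht : t₁ ≤ t₂) : ∃ S : Y → St W → St W, (∀ z, Continuous fun y => S y z) ∧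
      ∀ y z, B.Rel d 0 (Q y) t₁ t₂ z (S y z) := by
  have hin : ∀ z z' : St W, inD ∅ z z' = z := fun z z' => by
    ext i <;> simp [inD, msk]
  have hout : ∀ z z' : St W, outD ∅ z z' = z' := fun z z' => by
    ext i <;> simp [outD, msk]
  obtain ⟨Spp, Spm, Smp, Smm, h1, h2, h3, h4, h⟩ := exists_scat B hd (R := fun _ _ => 0) (Q := Q)
    continuous_const hQ ht ∅ (fun y z z' _ h => by rwa [hin] at h)
  refine ⟨fun y z => (Spp y *ᵥ z.1 + Spm y *ᵥ z.2, Smp y *ᵥ z.1 + Smm y *ᵥ z.2), fun z => ?_,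
    fun y z => ?_⟩
  · exact ((h1.matrix_mulVec continuous_const).add (h2.matrix_mulVec continuous_const)).prodMk
      ((h3.matrix_mulVec continuous_const).add (h4.matrix_mulVec continuous_const))
  · obtain ⟨z₁, z', hr, e⟩ := (h y).1 z
    rw [hin] at e
    subst e
    have := (h y).2 z₁ z' hr
    rw [hin, hout] at this
    simp only
    rw [← this]
    exact hr

theorem ts_supp {B : Bg} {d : W → ℕ} (hd : ∀ i, 1 ≤ d i) {Q : ℝ → Matrix W W ℝ}
    (hQ : Continuous Q) (hb : ∀ t, Blk d (Q t)) {t₁ t₂ : ℝ} (ht : t₁ ≤ t₂) {l : ℕ} {z z' : St W}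
    (h : B.Rel d 0 Q t₁ t₂ z z') (hz : Supp {i | d i = l} z) : Supp {i | d i = l} z' := by
  obtain ⟨u, p, hs, h1, h2⟩ := id h
  have hm := hs.msk (S := {i | d i = l}) (fun t _ i j _ => rfl) (fun t _ i j hij => hb t i j (by
    intro e
    simp only [mem_ofPred_eq, e] at hij
    tauto))
  have h3 := h.st_eq hd ht continuousOn_const hQ.continuousOn hm (by
    rw [Bg.st_msk, ← h1]
    ext i
    · by_cases hi : i ∈ {i | d i = l}
      · simp [msk, hi, Bg.st]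
      · have := (hz i hi).1
        rw [← h1] at this
        simp only [msk, indicator_of_notMem hi]
        exact this.symm
    · by_cases hi : i ∈ {i | d i = l}
      · simp [msk, hi, Bg.st]
      · have := (hz i hi).2
        rw [← h1] at this
        simp only [msk, indicator_of_notMem hi]
        exact this.symm)
  rw [Bg.st_msk] at h3
  intro i hi
  rw [← h3]
  simp only [msk, indicator_of_notMem hi, and_self]

theorem ts_ev {h : ℝ → ℝ} (hh : Continuous h) {σ : ℝ} (h0 : h 0 < σ) :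
    ∀ᶠ k : ℕ in atTop, h (((k : ℝ) ^ 11)⁻¹) ≤ σ := by
  have h1 : Tendsto (fun k : ℕ => ((k : ℝ) ^ 11)⁻¹) atTop (𝓝 0) :=
    ((tendsto_pow_atTop (by norm_num)).comp tendsto_natCast_atTop_atTop).inv_tendsto_atTop
  exact (((hh.tendsto 0).comp h1).eventually_lt_const h0).mono fun k hk => hk.le

theorem ts_pt (m : ℕ) {K : ℕ} {L M β : ℝ} {g c : Fin K → ℝ} (hL : |L| ≤ M) (hg : ∀ j, |g j| ≤ M)
    (hβ0 : 0 ≤ β) (hc : ∀ j, |c j| ≤ β) (hβ : (2 * m + 1) * β ≤ 1) :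
    |∑ j, c j * (L + (2 * m + 1) * g j)| ≤ K * ((2 * m + 2) * M) * β ∧
      |∑ j, ((Real.exp (c j) - 1) * L + (Real.exp (c j) - Real.exp (-(2 * m * c j))) * g j)
        - ∑ j, c j * (L + (2 * m + 1) * g j)| ≤ K * ((2 + 4 * m ^ 2) * M) * β ^ 2 := by
  have hM : 0 ≤ M := (abs_nonneg _).trans hL
  have hm : (0 : ℝ) ≤ m := Nat.cast_nonneg m
  constructor
  · refine (Finset.abs_sum_le_sum_abs _ _).trans ?_
    refine (Finset.sum_le_card_nsmul _ _ ((2 * m + 2) * M * β) fun j _ => ?_).trans (by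
      simp only [Finset.card_univ, Fintype.card_fin, nsmul_eq_mul]
      exact le_of_eq (by ring))
    rw [abs_mul, mul_comm]
    refine mul_le_mul ?_ (hc j) (abs_nonneg _) (by positivity)
    refine (abs_add_le _ _).trans ?_
    rw [abs_mul, abs_of_nonneg (by positivity : (0 : ℝ) ≤ 2 * m + 1)]
    have := mul_le_mul_of_nonneg_left (hg j) (by positivity : (0 : ℝ) ≤ 2 * m + 1)
    linarith
  · rw [← Finset.sum_sub_distrib]
    refine (Finset.abs_sum_le_sum_abs _ _).trans ?_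
    refine (Finset.sum_le_card_nsmul _ _ ((2 + 4 * m ^ 2) * M * β ^ 2) fun j _ => ?_).trans (by
      simp only [Finset.card_univ, Fintype.card_fin, nsmul_eq_mul]
      exact le_of_eq (by ring))
    have h1 : |c j| ≤ 1 := by nlinarith [hc j]
    have h2 : |-(2 * m * c j)| ≤ 1 := by
      rw [abs_neg, abs_mul, abs_of_nonneg (by positivity : (0 : ℝ) ≤ 2 * m)]
      nlinarith [hc j]
    have h3 := Real.abs_exp_sub_one_sub_id_le h1
    have h4 := Real.abs_exp_sub_one_sub_id_le h2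
    have h5 : c j ^ 2 ≤ β ^ 2 := by
      rw [← sq_abs]
      exact pow_le_pow_left₀ (abs_nonneg _) (hc j) 2
    have h6 : (-(2 * m * c j)) ^ 2 ≤ 4 * m ^ 2 * β ^ 2 := by
      have : (-(2 * m * c j)) ^ 2 = 4 * m ^ 2 * c j ^ 2 := by ring
      rw [this]
      exact mul_le_mul_of_nonneg_left h5 (by positivity)
    have e : (Real.exp (c j) - 1) * L + (Real.exp (c j) - Real.exp (-(2 * m * c j))) * g j
        - c j * (L + (2 * m + 1) * g j) = (Real.exp (c j) - 1 - c j) * L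
          + (Real.exp (c j) - 1 - c j) * g j
          - (Real.exp (-(2 * m * c j)) - 1 - -(2 * m * c j)) * g j := by ring
    rw [e]
    refine (abs_sub _ _).trans ((add_le_add_left (abs_add_le _ _) _).trans ?_)
    rw [abs_mul, abs_mul, abs_mul]
    have a1 := mul_le_mul (h3.trans h5) hL (abs_nonneg _) (by positivity)
    have a2 := mul_le_mul (h3.trans h5) (hg j) (abs_nonneg _) (by positivity)
    have a3 := mul_le_mul (h4.trans h6) (hg j) (abs_nonneg _) (by positivity)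
    linarith

omit [DecidableEq W] in
theorem ts_n2_le {v : W → ℝ} {ε₀ : ℝ} (hv : ∀ i, |v i| ≤ ε₀) :
    n2 v ≤ Fintype.card W * ε₀ ^ 2 := by
  refine (Finset.sum_le_card_nsmul _ _ (ε₀ ^ 2) fun i _ => ?_).trans (by simp)
  rw [← sq_abs]
  exact pow_le_pow_left₀ (abs_nonneg _) (hv i) 2


/-- the generators of the gadget -/
abbrev tsX (B : Bg) (d : W → ℕ) (m : ℕ) {K : ℕ} (G : Fin (K + 1) → Matrix W W ℝ) (j : Fin K) :
    Matrix W W ℝ :=
  Matrix.diagonal (fun i => lam B.β₀ (d i) / (2 * B.a (d i) + B.b))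
    + Matrix.diagonal (fun i => (2 * m + 1) / (2 * B.a (d i) + B.b)) * G j.succ

theorem tsX_apply (B : Bg) (d : W → ℕ) (m : ℕ) {K : ℕ} (G : Fin (K + 1) → Matrix W W ℝ)
    (j : Fin K) (i i' : W) : tsX B d m G j i i' = (Matrix.diagonal (fun i => lam B.β₀ (d i)) i i'
      + (2 * m + 1) * G j.succ i i') / (2 * B.a (d i) + B.b) := by
  rw [tsX, Matrix.add_apply, Matrix.diagonal_mul, Matrix.diagonal_apply, Matrix.diagonal_apply]
  split_ifs <;> ring

theorem ts_gad (B : Bg) {d : W → ℕ} (hd : ∀ i, 1 ≤ d i) (m : ℕ) {K : ℕ}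
    (G : Fin (K + 1) → Matrix W W ℝ) (hG : ∀ k, Blk d (G k)) {Θ : ℝ} (hΘ : 0 ≤ Θ) (cs : ℝ) :
    ∃ C : ℝ, 0 ≤ C ∧ ∀ σ > 0, ∀ᶠ k : ℕ in atTop, ∀ θ : Fin K → ℝ, (∀ j, |θ j| ≤ Θ) →
      ∀ (c : W) (v : W → ℝ) (ε₀ : ℝ), 0 ≤ ε₀ → ε₀ ≤ 1 → (∀ i, |v i| ≤ ε₀) →
      (∀ i, d i ≠ d c → v i = 0) → ∀ z' : St W,
      B.Rel d 0 (fun t => Q10 m B.β₀ d G (cst θ cs k t)) ((k : ℝ) ^ 14 + 1)
        ((k : ℝ) ^ 14 + 1 + K * (k : ℝ) ^ 11) (Pi.single c 1, v) z' →
      ∀ i, (d i ≠ d c → z'.1 i = 0 ∧ z'.2 i = 0) ∧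
        (d i = d c → |Real.exp (-B.Ip (d c) ((k : ℝ) ^ 14 + 1)
            ((k : ℝ) ^ 14 + 1 + K * (k : ℝ) ^ 11)) * z'.1 i
          - tprod (fun j => NormedSpace.exp (θ j • tsX B d m G j)) i c| ≤ σ) ∧
        |Real.exp (-B.Ip (d c) ((k : ℝ) ^ 14 + 1) ((k : ℝ) ^ 14 + 1 + K * (k : ℝ) ^ 11))
          * z'.2 i| ≤ σ + C * ε₀ := by
  set n := Fintype.card W with hn
  obtain ⟨M₁, hM₁⟩ := Finite.exists_le fun x : W × W =>
    |Matrix.diagonal (fun i => lam B.β₀ (d i)) x.1 x.2|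
  obtain ⟨M₂, hM₂⟩ := Finite.exists_le fun x : Fin (K + 1) × W × W => |G x.1 x.2.1 x.2.2|
  set M := max (max M₁ M₂) 0 with hM
  have hM0 : 0 ≤ M := le_max_right _ _
  have hML : ∀ i i', |Matrix.diagonal (fun i => lam B.β₀ (d i)) i i'| ≤ M := fun i i' =>
    (hM₁ (i, i')).trans ((le_max_left _ _).trans (le_max_left _ _))
  have hMG : ∀ j i i', |G j i i'| ≤ M := fun j i i' =>
    (hM₂ (j, i, i')).trans ((le_max_right _ _).trans (le_max_left _ _))
  obtain ⟨Bb, hBb1, hBb⟩ := exists_bmp_bound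
  set β := Bb * Θ with hβ
  have hβ0 : 0 ≤ β := by positivity
  set A₁ : ℝ := K * ((2 * m + 2) * M) * β with hA₁
  set A₂ : ℝ := K * ((2 + 4 * m ^ 2) * M) * β ^ 2 with hA₂
  have hA₁0 : 0 ≤ A₁ := by positivity
  have hA₂0 : 0 ≤ A₂ := by positivity
  set A : ℝ := (n + 1) * (A₁ + A₂) + 1 with hA
  have hA1 : 1 ≤ A := by
    have : 0 ≤ ((n : ℝ) + 1) * (A₁ + A₂) := by positivity
    linarith
  have hAA : A₁ ≤ A := by
    have : 0 ≤ (n : ℝ) * (A₁ + A₂) := by positivity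
    rw [hA, add_mul, one_mul]
    clear_value A₁ A₂
    linarith
  choose δ₀ hδ₀ C hC H using fun l => sharp B l n (A * K + 1)
  obtain ⟨Cs, hCs⟩ := Finite.exists_le fun o : Option W => o.elim 0 fun c => C (d c)
  have hCs0 : 0 ≤ Cs := hCs none
  have hCc : ∀ c, C (d c) ≤ Cs := fun c => hCs (some c)
  refine ⟨Real.sqrt (Cs * n), Real.sqrt_nonneg _, fun σ hσ => ?_⟩
  set ε' : ℝ := σ / (2 * (Cs * A₁ + 1)) with hε'
  have hε'0 : 0 < ε' := by positivity
  have hε'1 : Cs * (A₁ * ε') < σ := by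
    rw [hε', ← mul_assoc, ← mul_div_assoc, div_lt_iff₀ (by positivity)]
    have h := mul_nonneg (mul_nonneg hCs0 hA₁0) hσ.le
    clear_value A₁
    linarith
  obtain ⟨T, hT⟩ := B.lim ε' hε'0
  have e1 := ts_ev (h := fun η => η) continuous_id one_pos
  have e2 := ts_ev (h := fun η => (2 * m + 1) * (β * η)) (σ := 1) (by fun_prop) (by simp)
  have e3 : ∀ᶠ k : ℕ in atTop, ∀ c, A * ((k : ℝ) ^ 11)⁻¹ ≤ δ₀ (d c) :=
    eventually_all.2 fun c => ts_ev (h := fun η => A * η) (by fun_prop) (by simpa using hδ₀ _)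
  have e4 := ts_ev (h := fun η => Cs * ((A₂ * η + A₁ * ε') + A * η)
    + Cs * Real.sqrt (A * η) * Real.sqrt n) (σ := σ) (by fun_prop) (by simpa using hε'1)
  have e5 := ts_ev (h := fun η => Real.sqrt (Cs * (A * η))) (σ := σ) (by fun_prop)
    (by simpa using hσ)
  have e6 : ∀ᶠ k : ℕ in atTop, T ≤ (k : ℝ) := tendsto_natCast_atTop_atTop.eventually_ge_atTop T
  filter_upwards [e1, e2, e3, e4, e5, e6, eventually_ge_atTop 1] with k e1 e2 e3 e4 e5 e6 hk1
  intro θ hθ c v ε₀ hε0 hε1 hv hvs z' hrel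
  have hk : (1 : ℝ) ≤ k := by exact_mod_cast hk1
  set len : ℝ := (k : ℝ) ^ 11 with hlen
  set a : ℝ := (k : ℝ) ^ 14 + 1 with ha
  have hlen0 : 0 < len := by positivity
  set η : ℝ := len⁻¹ with hη
  have hη0 : 0 < η := by positivity
  have hTa : T ≤ a := by
    have := le_self_pow₀ hk (by norm_num : 14 ≠ 0)
    linarith
  have haa : a ≤ a + K * len := by
    have : 0 ≤ K * len := by positivity
    linarith
  have hsupp : Supp {i | d i = d c} z' := ts_supp hd (ts_Q_cont' m B.β₀ d G cs k θ)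
    (fun t => ts_Q_blk m B.β₀ hG _) haa hrel fun i hi => ⟨by
      have : i ≠ c := fun e => hi (by simp [e])
      simp [this], hvs i hi⟩
  obtain ⟨Gf, hG1, hGd, hGe⟩ := exists_slot_flow (fun j => (θ j / len) • tsX B d m G j) a hlen0
  have hGe' : Gf (a + K * len) = tprod (fun j => NormedSpace.exp (θ j • tsX B d m G j)) := by
    rw [hGe]
    congr 1
    funext j
    rw [smul_smul, mul_div_cancel₀ _ hlen0.ne']
  set cc : ℝ → Fin K → ℝ := fun r j => bmp ((r - a) / len - (j : ℕ)) * (θ j / len) with hcc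
  have hccb : ∀ r j, |cc r j| ≤ β * η := by
    intro r j
    simp only [hcc]
    rw [abs_mul, abs_div, abs_of_pos hlen0, div_eq_mul_inv, hβ, mul_assoc]
    exact mul_le_mul (hBb _).1 (mul_le_mul_of_nonneg_right (hθ j) hη0.le) (by positivity)
      (by linarith)
  set Lin : ℝ → W → W → ℝ := fun r i i' => ∑ j, cc r j *
    (Matrix.diagonal (fun i => lam B.β₀ (d i)) i i' + (2 * m + 1) * G j.succ i i') with hLin
  have hZ : ∀ r i i', (∑ j : Fin K, bmp ((r - a) / len - (j : ℕ)) •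
      ((θ j / len) • tsX B d m G j)) i i' = Lin r i i' / (2 * B.a (d i) + B.b) := by
    intro r i i'
    simp only [hLin, hcc]
    rw [Matrix.sum_apply, Finset.sum_div]
    refine Finset.sum_congr rfl fun j _ => ?_
    rw [Matrix.smul_apply, Matrix.smul_apply, tsX_apply, smul_eq_mul, smul_eq_mul]
    ring
  have hpt : ∀ r ∈ Icc a (a + K * len), ∀ i i', |Lin r i i'| ≤ A₁ * η ∧
      |Q10 m B.β₀ d G (cst θ cs k r) i i' - Lin r i i'| ≤ A₂ * η ^ 2 := by
    intro r hr i i'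
    have h := ts_pt m (hML i i') (fun j : Fin K => hMG j.succ i i') (by positivity) (hccb r) e2
    rw [ts_Q_apply, ts_cst_zero, plat_of_le hlen0 hr.2]
    simp only [ts_cst_succ, mul_zero, neg_zero, Real.exp_zero, sub_self, zero_mul, zero_add]
    refine ⟨h.1.trans (le_of_eq ?_), h.2.trans (le_of_eq ?_)⟩
    · rw [hA₁]; ring
    · rw [hA₂]; ring
  have hg1 : ∀ i, 1 ≤ 2 * B.a (d i) + B.b := fun i => by
    have h1 := B.le_a (d i)
    have h2 : (1 : ℝ) ≤ d i := by exact_mod_cast hd i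
    linarith [B.b_pos]
  have key := H (d c) W W d id hd le_rfl Function.injective_id (fun i _ => ⟨i, rfl⟩) 0
    (fun t => Q10 m B.β₀ d G (cst θ cs k t))
    (fun r => ∑ j : Fin K, bmp ((r - a) / len - (j : ℕ)) • ((θ j / len) • tsX B d m G j)) Gf
    a (a + K * len) (A * η) (A₂ * η + A₁ * ε') (Pi.single c 1, v) z' haa (by positivity) (e3 c)
    (by
      have : A * η * (a + K * len - a) = A * K := by
        rw [hη]
        field_simp
        ring
      linarith) (by positivity)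
    (fun r hr => ⟨?_, ?_, ?_, hGd r, ?_⟩) hG1 hrel ?_ ?_
  · obtain ⟨k1, k2⟩ := key
    have hm1 : msk {i | d i = d c} (Pi.single c (1 : ℝ) : W → ℝ) = Pi.single c 1 := by
      ext i
      by_cases hi : i = c
      · simp [msk, hi]
      · simp [msk, hi, indicator_apply]
    have hn1 : n2 (Pi.single c (1 : ℝ) : W → ℝ) = 1 := by
      simp [n2, Pi.single_apply]
    have hv2 := ts_n2_le hv
    have hδ0 : 0 ≤ A * η := by positivity
    simp only [id_eq, hm1, hn1, Real.sqrt_one, mul_one] at k1 k2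
    intro i
    refine ⟨fun hi => hsupp i hi, fun hi => ?_, ?_⟩
    · have h1 := (Real.abs_le_sqrt (sq_le_n2 _ i)).trans k1
      have h2 : (fun a => if d a = d c then (Pi.single c (1 : ℝ) : W → ℝ) a else 0)
          = Pi.single c 1 := by
        ext j
        by_cases hj : j = c
        · simp [hj]
        · simp [hj]
      rw [h2, Matrix.mulVec_single_one, hGe', Pi.sub_apply, if_pos hi, Matrix.col_apply] at h1
      refine h1.trans (le_trans ?_ e4)
      have h3 : Real.sqrt (n2 v) ≤ Real.sqrt n := Real.sqrt_le_sqrt (hv2.trans (by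
        have : ε₀ ^ 2 ≤ 1 := pow_le_one₀ hε0 hε1
        exact mul_le_of_le_one_right (Nat.cast_nonneg _) this))
      have := hC (d c)
      gcongr
      · exact hCc c
      · exact hCc c
    · have h1 : (Real.exp (-B.Ip (d c) a (a + K * len)) * z'.2 i) ^ 2
          ≤ Cs * (A * η) + Cs * n * ε₀ ^ 2 := by
        have h2 : Real.exp (-B.Ip (d c) a (a + K * len)) ^ 2
            = Real.exp (-2 * B.Ip (d c) a (a + K * len)) := by
          rw [← Real.exp_nat_mul]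
          congr 1
          push_cast
          ring
        rw [mul_pow, h2]
        have h3 := sq_le_n2 z'.2 i
        have h4 := n2_nonneg (msk {i | d c < d i} (Pi.single c (1 : ℝ) : W → ℝ))
        have h5 := n2_nonneg (msk {i | d i < d c} z'.1)
        have h6 := Real.exp_pos (-2 * B.Ip (d c) a (a + K * len))
        have h7 := n2_nonneg v
        calc _ ≤ Real.exp (-2 * B.Ip (d c) a (a + K * len))
              * (n2 (msk {i | d i < d c} z'.1) + n2 z'.2) :=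
              mul_le_mul_of_nonneg_left (by linarith) h6.le
          _ ≤ C (d c) * (A * η + n2 v) := by linarith
          _ ≤ Cs * (A * η + n * ε₀ ^ 2) :=
              mul_le_mul (hCc c) (by linarith) (by positivity) hCs0
          _ = _ := by ring
      refine abs_le_of_sq_le_sq' (h1.trans ?_) (by positivity) |> abs_le.2
      have h8 : Cs * (A * η) ≤ σ ^ 2 := by
        have := Real.sq_sqrt (by positivity : 0 ≤ Cs * (A * η))
        rw [← this]
        exact pow_le_pow_left₀ (Real.sqrt_nonneg _) e5 2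
      have h9 := Real.sq_sqrt (by positivity : 0 ≤ Cs * n)
      have h10 : 0 ≤ σ * (Real.sqrt (Cs * n) * ε₀) := by positivity
      rw [add_sq, mul_pow, h9]
      linarith
  · refine ts_pb hd (M := (A₁ + A₂) * η) (by positivity) (fun i i' => ?_) ?_
    · obtain ⟨h1, h2⟩ := hpt r hr i i'
      have h3 := abs_sub_abs_le_abs_sub (Q10 m B.β₀ d G (cst θ cs k r) i i') (Lin r i i')
      have h4 : A₂ * η ^ 2 ≤ A₂ * η := mul_le_mul_of_nonneg_left (pow_le_of_le_one hη0.le e1 two_ne_zero) hA₂0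
      linarith
    · rw [← mul_assoc]
      refine mul_le_mul_of_nonneg_right ?_ hη0.le
      rw [hA, add_mul (n : ℝ), one_mul]
      linarith
  · intro i i' hii
    have hii' : d i ≠ d i' := hii
    have hne : i ≠ i' := fun e => hii' (by rw [e])
    rw [hZ]
    simp [hLin, Matrix.diagonal_apply_ne _ hne, hG _ i i' hii']
  · intro i i'
    rw [hZ, abs_div, abs_of_pos (by linarith [hg1 i] : 0 < 2 * B.a (d i) + B.b)]
    refine (div_le_self (abs_nonneg _) (hg1 i)).trans ((hpt r hr i i').1.trans ?_)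
    have h1 : A₁ * η ≤ A * η := mul_le_mul_of_nonneg_right hAA hη0.le
    have h2 : 0 ≤ A * K * (A * η) := by positivity
    linarith
  · intro i i' hi _
    have hi' : d i = d c := hi
    obtain ⟨h1, h2⟩ := hpt r hr i i'
    simp only [id_eq, Pi.zero_apply, Matrix.zero_apply, mul_zero, sub_zero]
    rw [hZ, hi']
    have hg := hg1 c
    obtain ⟨l1, l2⟩ := hT r (hTa.trans hr.1) (d c) (hd c)
    have l3 := B.bp_le (d c) r
    have l4 := B.bm_le (d c) r
    have hgap : 1 ≤ B.bp (d c) r - B.bm (d c) r := by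
      have := B.gap_ge (d c) r
      have h2 : (1 : ℝ) ≤ d c := by exact_mod_cast hd c
      linarith [B.b_pos]
    have hdiff : |(2 * B.a (d c) + B.b) - (B.bp (d c) r - B.bm (d c) r)| ≤ ε' := by
      unfold Bg.a
      rw [abs_le]
      constructor <;> linarith
    set gp := B.bp (d c) r - B.bm (d c) r
    set gi := 2 * B.a (d c) + B.b
    set q := Q10 m B.β₀ d G (cst θ cs k r) i i'
    have e : q / gp - Lin r i i' / gi = (q - Lin r i i') / gp
        + Lin r i i' * (gi - gp) / (gp * gi) := by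
      field_simp
      ring
    rw [e]
    refine (abs_add_le _ _).trans ?_
    rw [abs_div, abs_div, abs_of_pos (by linarith : 0 < gp),
      abs_of_pos (by positivity : 0 < gp * gi), abs_mul]
    have b1 := (div_le_self (abs_nonneg _) hgap).trans h2
    have b2 := (div_le_self (mul_nonneg (abs_nonneg _) (abs_nonneg _))
      (one_le_mul_of_one_le_of_one_le hgap hg)).trans
      (mul_le_mul h1 hdiff (abs_nonneg _) (by positivity))
    have b3 : (A₂ * η + A₁ * ε') * η ≤ (A₂ * η + A₁ * ε') * (A * η) :=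
      mul_le_mul_of_nonneg_left (le_mul_of_one_le_left hη0.le hA1) (by positivity)
    linarith
  · ext i
    by_cases hi : d c < d i
    · simp [msk, indicator_apply, (hsupp i hi.ne').1]
    · simp [msk, hi]
  · ext i
    by_cases hi : d i < d c
    · have : i ≠ c := fun e => by simp [e] at hi
      simp [msk, indicator_apply, this]
    · simp [msk, hi]

theorem ts_times {K k : ℕ} (hk : K + 4 ≤ k) :
    (k : ℝ) ^ 14 + 1 + K * (k : ℝ) ^ 11 + (k : ℝ) ^ 11 ≤ ((k : ℝ) + 1) ^ 14 - k - 1 - (k : ℝ) ^ 11 := by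
  have hK : (K : ℝ) + 4 ≤ k := by exact_mod_cast hk
  have hK0 : (0 : ℝ) ≤ K := Nat.cast_nonneg K
  have h1 : (1 : ℝ) ≤ k := by linarith
  have h2 : (k : ℝ) ^ 14 + (k : ℝ) ^ 13 ≤ ((k : ℝ) + 1) ^ 14 := by
    have : (k : ℝ) ^ 13 ≤ ((k : ℝ) + 1) ^ 13 := pow_le_pow_left₀ (by linarith) (by linarith) 13
    calc (k : ℝ) ^ 14 + (k : ℝ) ^ 13 = ((k : ℝ) + 1) * (k : ℝ) ^ 13 := by ring
      _ ≤ ((k : ℝ) + 1) * ((k : ℝ) + 1) ^ 13 := mul_le_mul_of_nonneg_left this (by linarith)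
      _ = _ := by ring
  have h3 : (k : ℝ) ≤ (k : ℝ) ^ 11 := le_self_pow₀ h1 (by norm_num)
  have h4 : ((K : ℝ) + 5) * (k : ℝ) ^ 11 ≤ (k : ℝ) ^ 13 := by
    calc ((K : ℝ) + 5) * (k : ℝ) ^ 11 ≤ (k : ℝ) ^ 2 * (k : ℝ) ^ 11 :=
          mul_le_mul_of_nonneg_right (by nlinarith) (by positivity)
      _ = _ := by ring
  linarith

theorem ts_lamq {m : ℕ} {β₀ cs c μ : ℝ} {l : ℕ} (h0 : 0 ≤ μ) (h1 : μ ≤ lam β₀ l) (hc0 : 0 ≤ c)
    (hc : c ≤ cs) : Real.exp (-(2 * m * cs)) * lam β₀ l ≤ lamq m β₀ c l μ ∧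
      lamq m β₀ c l μ ≤ Real.exp cs * lam β₀ l := by
  have hm : (0 : ℝ) ≤ m := Nat.cast_nonneg m
  have a1 : Real.exp (-(2 * m * cs)) ≤ Real.exp (-(2 * m * c)) :=
    Real.exp_le_exp.2 (by nlinarith)
  have a2 : Real.exp (-(2 * m * c)) ≤ Real.exp c := Real.exp_le_exp.2 (by nlinarith)
  have a3 : Real.exp c ≤ Real.exp cs := Real.exp_le_exp.2 hc
  have b1 := mul_le_mul_of_nonneg_right (a1.trans a2) (sub_nonneg.2 h1)
  have b2 := mul_le_mul_of_nonneg_right a1 h0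
  have b3 := mul_le_mul_of_nonneg_right a3 (sub_nonneg.2 h1)
  have b4 := mul_le_mul_of_nonneg_right (a2.trans a3) h0
  unfold lamq
  constructor <;> linarith

theorem ts_tail (B : Bg) {d : W → ℕ} (hd : ∀ i, 1 ≤ d i) (m : ℕ) {μ : W → ℝ}
    (hμ : ∀ i, 0 ≤ μ i ∧ μ i ≤ lam B.β₀ (d i)) {K : ℕ} (G : Fin (K + 1) → Matrix W W ℝ)
    (hG0 : G 0 = Matrix.diagonal fun i => -μ i) {cs : ℝ} (hcs : 0 ≤ cs) :
    ∃ C : ℝ, 1 ≤ C ∧ ∀ σ > 0, ∀ᶠ k : ℕ in atTop, ∃ g κ mm e : W → ℝ, ∀ i, 1 / C ≤ g i ∧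
      g i ≤ Real.exp (rt B.b (lamq m B.β₀ cs (d i) (μ i)) * (((k : ℝ) + 1) ^ 14 - (k : ℝ) ^ 14)
        + C * (k : ℝ) ^ 12) ∧ |κ i| ≤ C ∧ |e i| ≤ σ ∧ |mm i| ≤ σ ∧
      ∀ (θ : Fin K → ℝ) (u p : ℝ → W → ℝ),
        B.Sol d 0 (fun t => Q10 m B.β₀ d G (cst θ cs k t)) univ u p →
        B.xp d u p (((k : ℝ) + 1) ^ 14 + 1) i
          = g i * (B.xp d u p ((k : ℝ) ^ 14 + 1 + K * (k : ℝ) ^ 11) i
            + κ i * B.xm d u p ((k : ℝ) ^ 14 + 1 + K * (k : ℝ) ^ 11) i) ∧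
        B.xm d u p (((k : ℝ) + 1) ^ 14 + 1) i = mm i * B.xp d u p (((k : ℝ) + 1) ^ 14 + 1) i
          + e i * B.xm d u p ((k : ℝ) ^ 14 + 1 + K * (k : ℝ) ^ 11) i := by
  have hlam : ∀ i, 0 < lam B.β₀ (d i) := fun i => by
    have h1 : (1 : ℝ) ≤ d i := by exact_mod_cast hd i
    have := B.b_pos
    have := B.b_le
    unfold lam
    exact mul_pos (by linarith) (by linarith)
  choose C hC H using fun i => hold B (d i) (hd i)
    (lo := Real.exp (-(2 * m * cs)) * lam B.β₀ (d i)) (mul_pos (Real.exp_pos _) (hlam i))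
    (Real.exp cs * lam B.β₀ (d i))
  obtain ⟨C₀, hC₀⟩ := Finite.exists_le fun o : Option (W ⊕ W) =>
    o.elim 1 (Sum.elim C fun i => B.a (d i))
  have hC1 : 1 ≤ C₀ := hC₀ none
  have hCC : ∀ i, C i ≤ C₀ := fun i => hC₀ (some (Sum.inl i))
  have hCa : ∀ i, B.a (d i) ≤ C₀ := fun i => hC₀ (some (Sum.inr i))
  refine ⟨6 * C₀, by linarith, fun σ hσ => ?_⟩
  have e1 : ∀ᶠ k : ℕ in atTop, C₀ * Real.exp (-(k : ℝ)) ≤ σ := by
    have h := (Real.tendsto_exp_neg_atTop_nhds_zero.comp tendsto_natCast_atTop_atTop).const_mul C₀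
    rw [mul_zero] at h
    exact (h.eventually_lt_const hσ).mono fun k hk => hk.le
  filter_upwards [e1, eventually_ge_atTop (K + 4)] with k e1 hkK
  have hk : (1 : ℝ) ≤ k := by exact_mod_cast (by omega : 1 ≤ k)
  have ht := ts_times hkK
  have h1112 : (k : ℝ) ^ 11 ≤ (k : ℝ) ^ 12 := pow_le_pow_right₀ hk (by norm_num)
  have h112 : (k : ℝ) ≤ (k : ℝ) ^ 12 := le_self_pow₀ hk (by norm_num)
  have hlen0 : 0 < (k : ℝ) ^ 11 := by positivity
  have hKl : 0 ≤ K * (k : ℝ) ^ 11 := by positivity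
  obtain ⟨a₁, ha₁⟩ : ∃ a₁ : ℝ, a₁ = (k : ℝ) ^ 14 + 1 + K * (k : ℝ) ^ 11 := ⟨_, rfl⟩
  obtain ⟨a₂, ha₂⟩ : ∃ a₂ : ℝ, a₂ = ((k : ℝ) + 1) ^ 14 - k - 1 := ⟨_, rfl⟩
  obtain ⟨a₃, ha₃⟩ : ∃ a₃ : ℝ, a₃ = ((k : ℝ) + 1) ^ 14 + 1 := ⟨_, rfl⟩
  have h23 : a₃ - a₂ = k + 2 := by rw [ha₂, ha₃]; ring
  have h12 : a₂ - a₁ ≤ ((k : ℝ) + 1) ^ 14 - (k : ℝ) ^ 14 := by rw [ha₁, ha₂]; linarith
  have hQ : ∀ (θ : Fin K → ℝ) (t : ℝ), a₁ ≤ t → Q10 m B.β₀ d G (cst θ cs k t)
      = Matrix.diagonal fun i => lamq m B.β₀ (cs * plat a₁ a₂ ((k : ℝ) ^ 11) t) (d i) (μ i)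
        - lam B.β₀ (d i) := by
    intro θ t htt
    have hb : ∀ j : Fin K, bmp ((t - ((k : ℝ) ^ 14 + 1)) / (k : ℝ) ^ 11 - (j : ℕ)) = 0 := by
      intro j
      refine bmp_of_one_le ?_
      have hj : ((j : ℕ) : ℝ) + 1 ≤ K := by exact_mod_cast j.2
      have : (K : ℝ) ≤ (t - ((k : ℝ) ^ 14 + 1)) / (k : ℝ) ^ 11 := by
        rw [le_div_iff₀ hlen0]
        linarith
      linarith
    ext i i'
    rw [ts_Q_apply, ts_cst_zero, ← ha₁, ← ha₂, hG0]
    simp only [ts_cst_succ, hb, mul_zero, neg_zero, Real.exp_zero, sub_self, zero_mul, add_zero,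
      Finset.sum_const_zero, Matrix.diagonal_apply]
    split_ifs
    · unfold lamq
      ring
    · ring
  rw [← ha₁, ← ha₂] at ht
  rw [← ha₁, ← ha₃]
  have hpc : Continuous (plat a₁ a₂ ((k : ℝ) ^ 11)) := (plat_smooth _ _ _).continuous
  choose g κ mm e hh using fun i => H i
    (fun t => lamq m B.β₀ (cs * plat a₁ a₂ ((k : ℝ) ^ 11) t) (d i) (μ i) - lam B.β₀ (d i))
    a₁ (a₁ + (k : ℝ) ^ 11) (a₂ - (k : ℝ) ^ 11) a₂ a₂ (lamq m B.β₀ cs (d i) (μ i))
    (by unfold lamq; fun_prop) (by linarith) ht (by linarith) le_rfl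
    (fun r _ => by
      rw [add_sub_cancel]
      have := plat_mem a₁ a₂ ((k : ℝ) ^ 11) r
      exact ts_lamq (hμ i).1 (hμ i).2 (mul_nonneg hcs this.1) (mul_le_of_le_one_right hcs this.2))
    (fun r hr => by rw [add_sub_cancel, plat_of_mem hlen0 hr, mul_one])
    (fun r hr => by
      simp only [plat_of_ge hlen0 hr.1]
      simp [lamq])
  refine ⟨fun i => Real.exp (B.Ip (d i) a₂ a₃) * g i, κ,
    fun i => Real.exp (B.Im (d i) a₂ a₃ - B.Ip (d i) a₂ a₃) * mm i,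
    fun i => Real.exp (B.Im (d i) a₂ a₃) * e i, fun i => ?_⟩
  obtain ⟨g1, g2, g3, g4, g5, g6⟩ := hh i
  have h23' : a₂ ≤ a₃ := by linarith
  have hdi : (1 : ℝ) ≤ d i := by exact_mod_cast hd i
  have hdk : (k : ℝ) ≤ d i * (a₃ - a₂) := by rw [h23]; nlinarith
  have i1 := B.Ip_ge (d i) h23'
  have i2 := B.Ip_le (d i) h23'
  have i3 := B.Im_le (d i) h23'
  have hCi := hC i
  have hCi' := hCC i
  have hg0 : 0 < g i := lt_of_lt_of_le (by positivity) g1
  refine ⟨?_, ?_, g3.trans (by linarith), ?_, ?_, fun θ u p hs => ?_⟩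
  · refine le_trans (one_div_le_one_div_of_le (by linarith) (by linarith)) (g1.trans ?_)
    exact le_mul_of_one_le_left hg0.le (Real.one_le_exp (by linarith))
  · have hx : 0 ≤ rt B.b (lamq m B.β₀ cs (d i) (μ i)) := rt_nonneg (le_trans
      (mul_pos (Real.exp_pos _) (hlam i)).le (ts_lamq (hμ i).1 (hμ i).2 hcs le_rfl).1)
    have hCe : C i ≤ Real.exp C₀ := by linarith [Real.add_one_le_exp C₀]
    refine (mul_le_mul_of_nonneg_left (g2.trans (mul_le_mul_of_nonneg_right hCe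
      (Real.exp_pos _).le)) (Real.exp_pos _).le).trans ?_
    rw [← Real.exp_add, ← Real.exp_add]
    refine Real.exp_le_exp.2 ?_
    have j1 := mul_le_mul_of_nonneg_left (by linarith : a₂ - (k : ℝ) ^ 11 - (a₁ + (k : ℝ) ^ 11)
      ≤ ((k : ℝ) + 1) ^ 14 - (k : ℝ) ^ 14) hx
    have j2 : C i * (a₁ + (k : ℝ) ^ 11 - a₁ + (a₂ - (a₂ - (k : ℝ) ^ 11)))
        ≤ C₀ * (2 * (k : ℝ) ^ 12) := mul_le_mul hCi' (by linarith) (by linarith) (by linarith)
    have j3 : B.a (d i) * (a₃ - a₂) ≤ C₀ * (3 * (k : ℝ) ^ 12) :=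
      mul_le_mul (hCa i) (by linarith) (by linarith) (by linarith)
    have j4 : C₀ ≤ C₀ * (k : ℝ) ^ 12 := le_mul_of_one_le_right (by linarith) (by linarith)
    linarith
  · rw [abs_mul, abs_of_pos (Real.exp_pos _), mul_comm]
    exact (mul_le_mul (g4.trans hCi') (Real.exp_le_exp.2 (by linarith)) (Real.exp_pos _).le
      (by linarith)).trans e1
  · rw [abs_mul, abs_of_pos (Real.exp_pos _), mul_comm]
    rw [sub_self, neg_zero, Real.exp_zero, mul_one] at g5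
    exact (mul_le_mul (g5.trans hCi') (Real.exp_le_exp.2 (by linarith)) (Real.exp_pos _).le
      (by linarith)).trans e1
  · obtain ⟨k1, k2⟩ := g6 (fun t => u t i) (fun t => p t i) fun r hr => by
      constructor
      · simpa using hasDerivAt_pi.1 (hs.du r (mem_univ r)) i
      · have := hasDerivAt_pi.1 (hs.dp r (mem_univ r)) i
        simp only [hQ θ r hr.1, Matrix.mulVec_diagonal] at this
        exact this
    obtain ⟨f1, f2⟩ := (hs.mono (subset_univ _)).free h23' (fun _ _ => rfl) (fun t htt => by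
      simp only [hQ θ t (by linarith [htt.1]), plat_of_ge hlen0 htt.1]
      simp [lamq]) i
    change B.xp d u p a₂ i = g i * (B.xp d u p a₁ i + κ i * B.xm d u p a₁ i) at k1
    change B.xm d u p a₂ i = mm i * B.xp d u p a₂ i + e i * B.xm d u p a₁ i at k2
    refine ⟨by rw [f1, k1]; ring, ?_⟩
    beta_reduce
    rw [f2, f1, k2, Real.exp_sub]
    field_simp

end aux


theorem step10 (B : Bg) {W : Type} [Fintype W] [DecidableEq W] {d : W → ℕ} (hd : ∀ i, 1 ≤ d i)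
    (m : ℕ) {μ : W → ℝ} (hμ : ∀ i, 0 ≤ μ i ∧ μ i ≤ lam B.β₀ (d i)) {K : ℕ}
    (G : Fin (K + 1) → Matrix W W ℝ) (hG : ∀ k, Blk d (G k))
    (hG0 : G 0 = Matrix.diagonal fun i => -μ i) {cs : ℝ} (hcs : 0 ≤ cs) (ρ : Equiv.Perm W)
    (hρ : ∀ i, d (ρ i) = d i) {ε : W → ℝ} (hε : ∀ i, |ε i| = 1) {r Θ : ℝ} (hr : 0 < r)
    {θ : Matrix W W ℝ → Fin K → ℝ} {s : Matrix W W ℝ → ℕ → ℝ} (hθ : Continuous θ)
    (hs : ∀ l, Continuous fun y => s y l) (hθΘ : ∀ y j, |θ y j| ≤ Θ) (hsΘ : ∀ y l, |s y l| ≤ Θ)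
    (hbox : ∀ y ∈ box d (sperm ρ ε) r, Matrix.diagonal (fun i => Real.exp (s y (d i)))
      * tprod (fun j => NormedSpace.exp (θ y j •
        (Matrix.diagonal (fun i => lam B.β₀ (d i) / (2 * B.a (d i) + B.b))
          + Matrix.diagonal (fun i => (2 * m + 1) / (2 * B.a (d i) + B.b)) * G j.succ))) = y) :
    ∃ ε₀ > 0, ∃ (C : ℝ) (k₁ : ℕ), ∀ k : ℕ, k₁ ≤ k → ∀ F : Matrix W W ℝ, Blk d F →
      (∀ i j, |F i j| ≤ ε₀) → ∃ (y F' : Matrix W W ℝ) (f : W → ℝ), Blk d F' ∧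
        (∀ i j, |F' i j| ≤ ε₀) ∧ ∀ c, |f c| ≤ Real.exp
          (rt B.b (lamq m B.β₀ cs (d (ρ c)) (μ (ρ c))) * (((k : ℝ) + 1) ^ 14 - (k : ℝ) ^ 14)
            + C * (k : ℝ) ^ 12) ∧
          B.Rel d 0 (fun t => Q10 m B.β₀ d G (cst (θ y) cs k t))
            ((k : ℝ) ^ 14 + 1) (((k : ℝ) + 1) ^ 14 + 1) (Pi.single c 1, fun i => F i c)
            (f c • (Pi.single (ρ c) 1, fun i => F' i (ρ c))) := by
  have hΘ : 0 ≤ Θ := (abs_nonneg _).trans (hsΘ 0 0)
  obtain ⟨C₁, hC₁, H₁⟩ := ts_gad B hd m G hG hΘ cs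
  obtain ⟨C₂, hC₂, H₂⟩ := ts_tail B hd m hμ G hG0 hcs
  obtain ⟨A₀, hA₀⟩ := Finite.exists_le fun o : Option W => o.elim 0 fun i => B.a (d i)
  have hA0 : 0 ≤ A₀ := hA₀ none
  have hAa : ∀ i, B.a (d i) ≤ A₀ := fun i => hA₀ (some i)
  have hE : 0 < Real.exp Θ := Real.exp_pos _
  obtain ⟨ε₀, hε0, hε1, hε2⟩ : ∃ ε₀ > 0, ε₀ ≤ 1 ∧ Real.exp Θ * (C₂ * (C₁ * ε₀)) ≤ r / 2 := by
    refine ⟨min 1 (r / 2 / (Real.exp Θ * (C₂ * C₁) + 1)), by positivity, min_le_left _ _, ?_⟩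
    have h1 := (le_div_iff₀ (by positivity)).1
      (min_le_right 1 (r / 2 / (Real.exp Θ * (C₂ * C₁) + 1)))
    have h2 : 0 ≤ min 1 (r / 2 / (Real.exp Θ * (C₂ * C₁) + 1)) := by positivity
    linarith
  obtain ⟨σ₁, hσ₁, hσ₁'⟩ : ∃ σ₁ > 0, Real.exp Θ * ((1 + C₂) * σ₁) ≤ r / 2 :=
    ⟨r / 2 / (Real.exp Θ * (1 + C₂)), by positivity, le_of_eq (by field_simp)⟩
  obtain ⟨om, hom⟩ : ∃ om, om = σ₁ + C₁ * ε₀ := ⟨_, rfl⟩
  have hom0 : 0 ≤ om := by rw [hom]; positivity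
  obtain ⟨σ₂, hσ₂, hσ₂'⟩ : ∃ σ₂ > 0, σ₂ + σ₂ * om * (C₂ * Real.exp Θ) ≤ ε₀ :=
    ⟨ε₀ / (1 + om * (C₂ * Real.exp Θ)), by positivity, le_of_eq (by field_simp)⟩
  obtain ⟨k₁, hk₁⟩ := eventually_atTop.1
    ((H₁ σ₁ hσ₁).and ((H₂ σ₂ hσ₂).and (eventually_ge_atTop 1)))
  refine ⟨ε₀, hε0, C₂ + A₀ * K + Θ, k₁, fun k hk F hF hFε => ?_⟩
  obtain ⟨G1, ⟨g, κ, mm, e, G2⟩, hk1⟩ := hk₁ k hk
  clear hk₁ H₁ H₂
  have hk' : (1 : ℝ) ≤ k := by exact_mod_cast hk1
  have hKl : 0 ≤ K * (k : ℝ) ^ 11 := by positivity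
  obtain ⟨a, ha⟩ : ∃ a : ℝ, a = (k : ℝ) ^ 14 + 1 := ⟨_, rfl⟩
  rw [← ha] at G1 G2 ⊢
  obtain ⟨a₁, ha₁⟩ : ∃ a₁ : ℝ, a₁ = a + K * (k : ℝ) ^ 11 := ⟨_, rfl⟩
  rw [← ha₁] at G1 G2
  have haa : a ≤ a₁ := by linarith
  have hQc : Continuous fun z : Matrix W W ℝ × ℝ => Q10 m B.β₀ d G (cst (θ z.1) cs k z.2) := by
    have h := (ts_Q_cont m B.β₀ d G cs k).comp
      ((hθ.comp (continuous_fst (Y := ℝ))).prodMk continuous_snd)
    simpa only [Function.comp_def] using h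
  obtain ⟨S, hSc, hS⟩ := ts_flow B hd
    (Q := fun y t => Q10 m B.β₀ d G (cst (θ y) cs k t)) hQc haa
  obtain ⟨Z, hZ⟩ : ∃ Z : Matrix W W ℝ → W → St W,
      Z = fun y c => S y (Pi.single c 1, fun i => F i c) := ⟨_, rfl⟩
  have hZc : ∀ c, Continuous fun y => Z y c := fun c => by rw [hZ]; exact hSc _
  have hZr : ∀ y c, B.Rel d 0 (fun t => Q10 m B.β₀ d G (cst (θ y) cs k t)) a a₁
      (Pi.single c 1, fun i => F i c) (Z y c) := fun y c => by rw [hZ]; exact hS _ _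
  have hZe := fun y c => G1 (θ y) (hθΘ y) c (fun i => F i c) ε₀ hε0.le hε1 (fun i => hFε i c)
    (fun i hi => hF i c hi) (Z y c) (hZr y c)
  clear G1
  rw [← hom] at hZe
  have hP : ∀ i c, d i ≠ d c → sperm ρ ε i c = 0 := fun i c h => by
    refine if_neg fun e => h ?_
    rw [e, hρ]
  obtain ⟨Φ, hΦ⟩ : ∃ Φ : Matrix W W ℝ → Matrix W W ℝ, ∀ y i c, Φ y i c = sperm ρ ε i c
      - (Real.exp (s y (d i)) * (Real.exp (-B.Ip (d c) a a₁) * (Z y c).1 i
        + κ i * (Real.exp (-B.Ip (d c) a a₁) * (Z y c).2 i)) - y i c) :=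
    ⟨fun y i c => _, fun _ _ _ => rfl⟩
  have hΦc : Continuous Φ := continuous_matrix fun i c => by
    simp only [hΦ]
    have h1 : Continuous fun y => (Z y c).1 i :=
      (continuous_apply i).comp (continuous_fst.comp (hZc c))
    have h2 : Continuous fun y => (Z y c).2 i :=
      (continuous_apply i).comp (continuous_snd.comp (hZc c))
    exact continuous_const.sub (((hs _).rexp.mul ((continuous_const.mul h1).add
      (continuous_const.mul (continuous_const.mul h2)))).sub (continuous_id.matrix_elem i c))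
  have hmaps : MapsTo Φ (box d (sperm ρ ε) r) (box d (sperm ρ ε) r) := by
    intro y hy
    have hz : ∀ i c, d i ≠ d c → Φ y i c = 0 := fun i c h => by
      obtain ⟨h1, h2⟩ := (hZe y c i).1 h
      rw [hΦ, hP i c h, h1, h2, hy.1 i c h]
      simp
    refine ⟨hz, fun i c => ?_⟩
    by_cases h : d i = d c
    · obtain ⟨-, h1, h2⟩ := hZe y c i
      replace h1 := h1 h
      have h3 := congrFun (congrFun (hbox y hy) i) c
      rw [Matrix.diagonal_mul] at h3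
      rw [hΦ, sub_sub_cancel_left, abs_neg, ← h3, ← mul_sub, abs_mul, abs_of_pos (Real.exp_pos _),
        add_sub_right_comm]
      have h4 : Real.exp (s y (d i)) ≤ Real.exp Θ :=
        Real.exp_le_exp.2 ((le_abs_self _).trans (hsΘ _ _))
      refine (mul_le_mul h4 ((abs_add_le _ _).trans (add_le_add h1 ((abs_mul _ _).trans_le
        (mul_le_mul (G2 i).2.2.1 h2 (abs_nonneg _) (by linarith))))) (abs_nonneg _) hE.le).trans ?_
      rw [hom]
      linarith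
    · rw [hz i c h, hP i c h, sub_zero, abs_zero]
      exact hr.le
  obtain ⟨y, -, hfix⟩ := Crest.Agent.Lib.Brouwer.exists_fixedPoint_of_isCompact_convex
    (W := W → W → ℝ) (K := box d (sperm ρ ε) r) (isCompact_box _ _ _) (convex_box _ _ _)
    ⟨sperm ρ ε, hP, fun i j => by rw [sub_self, abs_zero]; exact hr.le⟩ Φ hΦc.continuousOn hmaps
  have hfx : ∀ i c, (Z y c).1 i + κ i * (Z y c).2 i
      = Real.exp (B.Ip (d c) a a₁) * Real.exp (-s y (d i)) * sperm ρ ε i c := by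
    intro i c
    have h := hΦ y i c
    rw [hfix] at h
    have h' : sperm ρ ε i c = Real.exp (s y (d i)) * (Real.exp (-B.Ip (d c) a a₁) * (Z y c).1 i
        + κ i * (Real.exp (-B.Ip (d c) a a₁) * (Z y c).2 i)) := by linarith
    rw [h', Real.exp_neg, Real.exp_neg]
    field_simp
  have hg0 : ∀ i, 0 < g i := fun i => lt_of_lt_of_le (by positivity) (G2 i).1
  have hε' : ∀ i, ε i ≠ 0 := fun i h => by
    have := hε i
    rw [h, abs_zero] at this
    exact zero_ne_one this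
  refine ⟨y, Matrix.of fun i j => mm i * (if i = j then 1 else 0)
      + e i * (Real.exp (-B.Ip (d (ρ.symm j)) a a₁) * (Z y (ρ.symm j)).2 i)
        / (g j * Real.exp (-s y (d j)) * ε (ρ.symm j)),
    fun c => g (ρ c) * Real.exp (B.Ip (d c) a a₁) * Real.exp (-s y (d (ρ c))) * ε c,
    fun i j hij => ?_, fun i j => ?_, fun c => ⟨?_, ?_⟩⟩
  · have hne : i ≠ j := fun e => hij (by rw [e])
    have h1 : d (ρ.symm j) = d j := by rw [← hρ, Equiv.apply_symm_apply]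
    rw [Matrix.of_apply, if_neg hne, ((hZe y (ρ.symm j) i).1 (by rwa [h1])).2]
    simp
  · rw [Matrix.of_apply]
    refine (abs_add_le _ _).trans (le_trans (add_le_add ?_ ?_) hσ₂')
    · rw [abs_mul]
      refine (mul_le_of_le_one_right (abs_nonneg _) ?_).trans (G2 i).2.2.2.2.1
      split_ifs <;> simp
    · rw [abs_div, abs_mul (e i), abs_mul (g j * _), hε, mul_one,
        abs_of_pos (mul_pos (hg0 j) (Real.exp_pos _)),
        div_le_iff₀ (mul_pos (hg0 j) (Real.exp_pos _))]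
      refine (mul_le_mul (G2 i).2.2.2.1 (hZe y (ρ.symm j) i).2.2 (abs_nonneg _) hσ₂.le).trans ?_
      rw [mul_assoc (σ₂ * om)]
      refine le_mul_of_one_le_right (by positivity) ?_
      have h1 : 1 ≤ C₂ * g j := by
        have := (div_le_iff₀ (by positivity)).1 (G2 j).1
        linarith
      have h2 : 1 ≤ Real.exp Θ * Real.exp (-s y (d j)) := by
        rw [← Real.exp_add]
        exact Real.one_le_exp (by linarith [le_abs_self (s y (d j)), hsΘ y (d j)])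
      calc (1 : ℝ) ≤ (C₂ * g j) * (Real.exp Θ * Real.exp (-s y (d j))) :=
            one_le_mul_of_one_le_of_one_le h1 h2
        _ = _ := by ring
  · beta_reduce
    rw [abs_mul, hε, mul_one, abs_of_pos (mul_pos (mul_pos (hg0 _) (Real.exp_pos _))
      (Real.exp_pos _)), mul_assoc, ← Real.exp_add]
    refine (mul_le_mul_of_nonneg_right (G2 (ρ c)).2.1 (Real.exp_pos _).le).trans ?_
    rw [← Real.exp_add]
    refine Real.exp_le_exp.2 ?_
    have h1 := B.Ip_le (d c) haa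
    have h2 : B.a (d c) * (a₁ - a) ≤ A₀ * (K * (k : ℝ) ^ 12) := by
      refine mul_le_mul (hAa c) ?_ (by linarith) hA0
      have : (k : ℝ) ^ 11 ≤ (k : ℝ) ^ 12 := pow_le_pow_right₀ hk' (by norm_num)
      have := mul_le_mul_of_nonneg_left this (Nat.cast_nonneg K : (0 : ℝ) ≤ K)
      linarith
    have h3 : Θ ≤ Θ * (k : ℝ) ^ 12 := le_mul_of_one_le_right hΘ (one_le_pow₀ hk')
    have h4 := neg_abs_le (s y (d (ρ c)))
    have h5 := hsΘ y (d (ρ c))
    linarith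
  · have hQy := ts_Q_cont' m B.β₀ d G cs k (θ y)
    obtain ⟨u, p, hsol, hst⟩ := B.exists_sol hd (R := 0) continuous_const hQy a
      (Pi.single c 1, fun i => F i c)
    have h1 := (hZr y c).st_eq hd haa continuousOn_const hQy.continuousOn
      (hsol.mono (subset_univ _)) hst
    have h1p : B.xp d u p a₁ = (Z y c).1 := congrArg Prod.fst h1
    have h1m : B.xm d u p a₁ = (Z y c).2 := congrArg Prod.snd h1
    have hxp : ∀ i, B.xp d u p (((k : ℝ) + 1) ^ 14 + 1) i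
        = g (ρ c) * Real.exp (B.Ip (d c) a a₁) * Real.exp (-s y (d (ρ c))) * ε c
          * (if i = ρ c then 1 else 0) := by
      intro i
      rw [((G2 i).2.2.2.2.2 (θ y) u p hsol).1, h1p, h1m, hfx, sperm]
      split_ifs with h
      · rw [h]
        ring
      · ring
    refine ⟨u, p, hsol.mono (subset_univ _), hst, Prod.ext (funext fun i => ?_) (funext fun i => ?_)⟩
    · change B.xp d u p _ i = _
      rw [hxp]
      simp [Pi.single_apply]
    · change B.xm d u p _ i = _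
      rw [((G2 i).2.2.2.2.2 (θ y) u p hsol).2, hxp, h1m]
      simp only [Prod.smul_snd, Pi.smul_apply, Matrix.of_apply, smul_eq_mul,
        Equiv.symm_apply_apply, Real.exp_neg]
      have := hg0 (ρ c)
      have := hε' c
      field_simp

end Crest.Agent.R202
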